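import Vale.Agent.P019.H4AEJ

/-! P019: local transfer of valuations along a compatible isomorphism. -/

namespace Vale.Agent.P019

variable {ℓ : ℕ} [Fact ℓ.Prime] {F F' : Type*} [Field F] [Field F']

namespace H4

omit [Fact ℓ.Prime] in
theorem cl_mem_HO {O : ValuationSubring F} {x : F} (hx : O.valuation x = 1) : cl ℓ x ∈ HO ℓ O :=
  Submodule.subset_span ⟨x, hx, rfl⟩

omit [Fact ℓ.Prime] in
theorem cl_mem_TO {O : ValuationSubring F} {x : F} (hx : O.valuation (x - 1) < 1) :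
    cl ℓ x ∈ TO ℓ O :=
  Submodule.subset_span ⟨x, hx, rfl⟩

theorem val_eq_one_of_sub_one {O : ValuationSubring F} {x : F} (hx : O.valuation (x - 1) < 1) :
    O.valuation x = 1 := by
  have := O.valuation.map_one_add_of_lt hx
  rwa [add_sub_cancel] at this

omit [Fact ℓ.Prime] in
theorem TO_le_HO (O : ValuationSubring F) : TO ℓ O ≤ HO ℓ O := by
  refine Submodule.span_le.2 ?_
  rintro _ ⟨x, hx, rfl⟩
  exact cl_mem_HO (val_eq_one_of_sub_one hx)

theorem cent_TO_HO (hneg : cl ℓ (-1 : F) = 0) (O : ValuationSubring F) :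
    Cent (TO ℓ O) (HO ℓ O) := by
  intro f g hf hg x hx0 hx1
  have hfT : TO ℓ O ≤ LinearMap.ker f := (TO_le_HO O).trans hf
  have hx1' : 1 - x ≠ 0 := sub_ne_zero.2 hx1.symm
  rcases lt_trichotomy (O.valuation x) 1 with h | h | h
  · have h1 : cl ℓ (1 - x) ∈ TO ℓ O := cl_mem_TO (by simpa using h)
    rw [LinearMap.mem_ker.1 (hfT h1), LinearMap.mem_ker.1 (hg h1), mul_zero, zero_mul]
  · have h1 : f (cl ℓ x) = 0 := hf (cl_mem_HO h)
    rw [h1, zero_mul]
    rcases (O.valuation.map_sub_le (le_of_eq (map_one _)) h.le).lt_or_eq with h2 | h2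
    · have h3 : cl ℓ x ∈ TO ℓ O := cl_mem_TO (by rwa [O.valuation.map_sub_swap])
      rw [LinearMap.mem_ker.1 (hg h3), mul_zero]
    · rw [LinearMap.mem_ker.1 (hf (cl_mem_HO h2)), zero_mul]
  · have h1 : cl ℓ (1 - x⁻¹) ∈ TO ℓ O := cl_mem_TO (by
      simpa using inv_lt_one_of_one_lt₀ h)
    have e : 1 - x = -1 * x * (1 - x⁻¹) := by field_simp; ring
    have h2 : 1 - x⁻¹ ≠ 0 := by
      intro h2
      rw [h2, mul_zero] at e
      exact hx1' e
    have e2 : cl ℓ (1 - x) = cl ℓ x + cl ℓ (1 - x⁻¹) := by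
      rw [e, cl_mul (by simp [hx0]) h2, cl_mul (by simp) hx0, hneg, zero_add]
    rw [e2, map_add, map_add, LinearMap.mem_ker.1 (hfT h1), LinearMap.mem_ker.1 (hg h1), add_zero,
      add_zero]

theorem condN_iff {T : Submodule (ZMod ℓ) (V ℓ F)} :
    CondN T ↔ ∃ f g : Module.Dual (ZMod ℓ) (V ℓ F),
      T ≤ LinearMap.ker f ∧ T ≤ LinearMap.ker g ∧ ¬ Acl f g := by
  constructor
  · rintro ⟨u, hu0, hu1, hu⟩
    have key : ∀ a b : V ℓ F, (∀ c : ZMod ℓ, a + c • b ∉ T) →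
        ∃ f : Module.Dual (ZMod ℓ) (V ℓ F), T ≤ LinearMap.ker f ∧ f a ≠ 0 ∧ f b = 0 := by
      intro a b hab
      have ha : a ∉ T ⊔ Submodule.span (ZMod ℓ) {b} := by
        intro h
        obtain ⟨t, ht, s, hs, e⟩ := Submodule.mem_sup.1 h
        obtain ⟨c, rfl⟩ := Submodule.mem_span_singleton.1 hs
        apply hab (-c)
        convert ht using 1
        rw [← e]; module
      obtain ⟨f, hf, hf'⟩ := Submodule.exists_dual_map_eq_bot_of_notMem ha inferInstance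
      have h0 : ∀ v ∈ T ⊔ Submodule.span (ZMod ℓ) {b}, f v = 0 := by
        intro v hv
        have : f v ∈ (T ⊔ Submodule.span (ZMod ℓ) {b}).map f := Submodule.mem_map_of_mem hv
        rw [hf'] at this
        exact this
      exact ⟨f, fun v hv => h0 v (Submodule.mem_sup_left hv), hf,
        h0 b (Submodule.mem_sup_right (Submodule.mem_span_singleton_self b))⟩
    obtain ⟨f, hf, hf1, hf2⟩ := key (cl ℓ u) (cl ℓ (1 - u)) fun c h =>
      one_ne_zero (hu 1 c (by simpa using h)).1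
    obtain ⟨g, hg, hg1, -⟩ := key (cl ℓ (1 - u)) (cl ℓ u) fun c h =>
      one_ne_zero (hu c 1 (by simpa [add_comm] using h)).2
    refine ⟨f, g, hf, hg, fun h => ?_⟩
    have := h u hu0 hu1
    rw [hf2, zero_mul] at this
    exact mul_ne_zero hf1 hg1 this
  · rintro ⟨f, g, hf, hg, h⟩
    simp only [Acl, not_forall] at h
    obtain ⟨u, hu0, hu1, hu⟩ := h
    refine ⟨u, hu0, hu1, fun a b hab => ?_⟩
    have h1 := LinearMap.mem_ker.1 (hf hab)
    have h2 := LinearMap.mem_ker.1 (hg hab)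
    simp only [map_add, map_smul, smul_eq_mul] at h1 h2
    have hd := sub_ne_zero.2 hu
    constructor
    · apply mul_left_cancel₀ hd
      linear_combination g (cl ℓ (1 - u)) * h1 - f (cl ℓ (1 - u)) * h2
    · apply mul_left_cancel₀ hd
      linear_combination f (cl ℓ u) * h2 - g (cl ℓ u) * h1

theorem compat_symm {Θ : V ℓ F ≃ₗ[ZMod ℓ] V ℓ F'} (h : Compat Θ) : Compat Θ.symm := by
  intro f g
  rw [h]
  have e : ∀ f : Module.Dual (ZMod ℓ) (V ℓ F),
      (f ∘ₗ Θ.symm.toLinearMap) ∘ₗ Θ.toLinearMap = f := fun f =>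
    LinearMap.ext fun v => congrArg f (Θ.symm_apply_apply v)
  rw [e, e]

theorem condN_comap {Θ : V ℓ F ≃ₗ[ZMod ℓ] V ℓ F'} (h : Compat Θ)
    {T : Submodule (ZMod ℓ) (V ℓ F')} (hT : CondN T) : CondN (T.comap Θ.toLinearMap) := by
  rw [condN_iff] at hT ⊢
  obtain ⟨f, g, hf, hg, hfg⟩ := hT
  exact ⟨f ∘ₗ Θ.toLinearMap, g ∘ₗ Θ.toLinearMap, fun v hv => hf hv, fun v hv => hg hv,
    by rwa [← h]⟩

theorem cent_comap {Θ : V ℓ F ≃ₗ[ZMod ℓ] V ℓ F'} (h : Compat Θ)
    {T H : Submodule (ZMod ℓ) (V ℓ F')} (hC : Cent T H) :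
    Cent (T.comap Θ.toLinearMap) (H.comap Θ.toLinearMap) := by
  intro f g hf hg
  rw [compat_symm h]
  refine hC _ _ (fun v hv => hf ?_) fun v hv => hg ?_
  · simpa using hv
  · simpa using hv

/-- local transfer -/
theorem local_transfer {Θ : V ℓ F ≃ₗ[ZMod ℓ] V ℓ F'} (h : Compat Θ) (hneg : cl ℓ (-1 : F) = 0)
    (hneg' : cl ℓ (-1 : F') = 0) (w : ValuationSubring F') (hN : CondN (TO ℓ w)) :
    ∃ v : ValuationSubring F, TO ℓ v ≤ (TO ℓ w).comap Θ.toLinearMap ∧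
      HO ℓ v ≤ (HO ℓ w).comap Θ.toLinearMap :=
  exists_valuation_of_cent (Submodule.comap_mono (TO_le_HO w)) (by rw [hneg]; exact zero_mem _)
    (cent_comap h (cent_TO_HO hneg' w)) (condN_comap h hN)

end H4

end Vale.Agent.P019
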