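import Vale.Agent.P019.Base2

/-! P019: extension of valuation rings, pull-backs, values, ultralimits. -/

open IsLocalRing Filter

namespace Vale.Agent.P019

variable {F F' : Type*} [Field F] [Field F']

theorem ValExtAux.le_iff (O : ValuationSubring F) (x : F) {y : F} (hy : y ≠ 0) :
    O.valuation x ≤ O.valuation y ↔ x / y ∈ O := by
  rw [← O.valuation_le_one_iff, map_div₀, div_le_one₀ (by simpa [zero_lt_iff] using hy)]

theorem comap_val_le (φ : F' →+* F) (O : ValuationSubring F) (x y : F') :
    (O.comap φ).valuation x ≤ (O.comap φ).valuation y ↔ O.valuation (φ x) ≤ O.valuation (φ y) := by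
  by_cases hy : y = 0
  · simp [hy]
  · rw [ValExtAux.le_iff _ _ hy, ValExtAux.le_iff _ _ (by simpa using hy),
      ValuationSubring.mem_comap, map_div₀]

theorem comap_val_eq (φ : F' →+* F) (O : ValuationSubring F) (x y : F') :
    (O.comap φ).valuation x = (O.comap φ).valuation y ↔ O.valuation (φ x) = O.valuation (φ y) := by
  rw [le_antisymm_iff, le_antisymm_iff, comap_val_le, comap_val_le]

theorem comap_val_lt (φ : F' →+* F) (O : ValuationSubring F) (x y : F') :
    (O.comap φ).valuation x < (O.comap φ).valuation y ↔ O.valuation (φ x) < O.valuation (φ y) := by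
  rw [← not_le, ← not_le, comap_val_le]

theorem comap_val_eq_one (φ : F' →+* F) (O : ValuationSubring F) (x : F') :
    (O.comap φ).valuation x = 1 ↔ O.valuation (φ x) = 1 := by
  simpa using comap_val_eq φ O x 1

theorem comap_val_lt_one (φ : F' →+* F) (O : ValuationSubring F) (x : F') :
    (O.comap φ).valuation x < 1 ↔ O.valuation (φ x) < 1 := by
  simpa using comap_val_lt φ O x 1

/-- Chevalley extension (`Ideal.image_subset_nonunits_valuationSubring`) -/
theorem exists_comap_eq (φ : F' →+* F) (O : ValuationSubring F') :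
    ∃ O' : ValuationSubring F, O'.comap φ = O := by
  obtain ⟨A, h, hl⟩ := IsLocalRing.exists_factor_valuationRing (φ.comp O.subtype)
  refine ⟨A, ValuationSubring.ext _ _ fun x => ⟨fun hx => ?_, fun hx => h ⟨x, hx⟩⟩⟩
  by_cases h0 : x = 0
  · rw [h0]; exact O.zero_mem
  rcases O.mem_or_inv_mem x with h1 | h1
  · exact h1
  have h2 : IsUnit ((φ.comp O.subtype).codRestrict A.toSubring h ⟨x⁻¹, h1⟩) :=
    IsUnit.of_mul_eq_one ⟨φ x, hx⟩ (Subtype.ext (by simp [h0]))
  have h3 := (O.valuation_eq_one_iff _).1 (hl.map_nonunit _ h2)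
  rw [map_inv₀, inv_eq_one] at h3
  exact mem_of_val_eq_one h3

/-- the embedding of residue fields -/
theorem exists_resMap (φ : F' →+* F) (O : ValuationSubring F) :
    ∃ ι : ResidueField (O.comap φ) →+* ResidueField O,
      ∀ x : F', φ x ∈ O → ι (res (O.comap φ) x) = res O (φ x) := by
  let f : O.comap φ →+* O := (φ.comp (O.comap φ).subtype).codRestrict O.toSubring fun x => x.2
  have : IsLocalHom f := ⟨fun x hx => by
    rw [ValuationSubring.valuation_eq_one_iff] at hx ⊢
    exact (comap_val_eq_one φ O x).2 hx⟩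
  refine ⟨ResidueField.map f, fun x hx => ?_⟩
  rw [res_of_mem (O := O.comap φ) hx, res_of_mem hx, ResidueField.map_residue]
  rfl

theorem val_eq_one_iff_mem {O : ValuationSubring F} {x : F} (hx : x ≠ 0) :
    O.valuation x = 1 ↔ x ∈ O ∧ x⁻¹ ∈ O := by
  rw [← O.valuation_le_one_iff, ← O.valuation_le_one_iff, map_inv₀,
    inv_le_one₀ (by simpa [zero_lt_iff] using hx), le_antisymm_iff]

theorem val_lt_one_iff_inv {O : ValuationSubring F} {x : F} (hx : x ≠ 0) :
    O.valuation x < 1 ↔ x⁻¹ ∉ O := by
  rw [← O.valuation_le_one_iff, map_inv₀, inv_le_one₀ (by simpa [zero_lt_iff] using hx), not_le]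

theorem val_lt_one_of_le {O O' : ValuationSubring F} (h : O ≤ O') {x : F}
    (hx : O'.valuation x < 1) : O.valuation x < 1 := by
  by_cases h0 : x = 0
  · simp [h0]
  · rw [val_lt_one_iff_inv h0] at hx ⊢
    exact fun h1 => hx (h h1)

theorem val_eq_one_of_le {O O' : ValuationSubring F} (h : O ≤ O') {x : F}
    (hx : O.valuation x = 1) : O'.valuation x = 1 := by
  have h0 : x ≠ 0 := by rintro rfl; simp at hx
  rw [val_eq_one_iff_mem h0] at hx ⊢
  exact ⟨h hx.1, h hx.2⟩

/-- a root of a monic polynomial with coefficients in `O` lies in `O` -/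
theorem mem_of_root {O : ValuationSubring F} {g : Polynomial F} (hg : g.Monic)
    (hc : ∀ i, g.coeff i ∈ O) {x : F} (hx : g.eval x = 0) : x ∈ O := by
  have h1 : g ∈ Polynomial.lifts (algebraMap O F) :=
    (Polynomial.lifts_iff_coeff_lifts _).2 fun i => ⟨⟨_, hc i⟩, rfl⟩
  obtain ⟨q, h2, -, h3⟩ := Polynomial.lifts_and_natDegree_eq_and_monic h1 hg
  have h4 : IsIntegral O x := ⟨q, h3, by rw [← Polynomial.eval_map, h2, hx]⟩
  obtain ⟨y, rfl⟩ := IsIntegrallyClosed.isIntegral_iff.1 h4
  exact y.2

theorem mem_of_isAlgebraic {E : Type*} [Field E] [Algebra E F] {O : ValuationSubring F}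
    (hE : ∀ e : E, algebraMap E F e ∈ O) {x : F} (hx : IsAlgebraic E x) : x ∈ O :=
  mem_of_root ((minpoly.monic hx.isIntegral).map (algebraMap E F))
    (fun i => by rw [Polynomial.coeff_map]; exact hE _)
    (by rw [Polynomial.eval_map_algebraMap, minpoly.aeval])

theorem Triv.val_eq_one {k : Type*} [Field k] [Algebra k F] {O : ValuationSubring F}
    (h : Triv k O) {a : k} (ha : a ≠ 0) : O.valuation (algebraMap k F a) = 1 :=
  (val_eq_one_iff_mem (by simpa using ha)).2 ⟨h a, by rw [← map_inv₀]; exact h _⟩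

theorem triv_of_finAlg {k : Type*} [Field k] [Algebra k F] (h : FinAlg k)
    (O : ValuationSubring F) : Triv k O := by
  intro a
  by_cases ha : a = 0
  · rw [ha, map_zero]; exact O.zero_mem
  obtain ⟨n, hn, h1⟩ := h a ha
  rw [← O.valuation_le_one_iff, ← pow_le_one_iff hn.ne', ← map_pow, ← map_pow, h1]
  simp

theorem ValExtAux.uniq {k : Type*} [Field k] [Algebra k F] {O : ValuationSubring F}
    (h : Triv k O) {x : F} {a b : k} (ha : O.valuation (x - algebraMap k F a) < 1)
    (hb : O.valuation (x - algebraMap k F b) < 1) : a = b := by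
  by_contra hab
  have h1 := O.valuation.map_sub_lt hb ha
  rw [sub_sub_sub_cancel_left, ← map_sub, h.val_eq_one (sub_ne_zero.2 hab)] at h1
  exact lt_irrefl _ h1

theorem ev_eq {k : Type*} [Field k] [Algebra k F] {O : ValuationSubring F} (h : Triv k O)
    {x : F} {a : k} (ha : O.valuation (x - algebraMap k F a) < 1) : ev k O x = a := by
  have h1 : ∃ a : k, O.valuation (x - algebraMap k F a) < 1 := ⟨a, ha⟩
  rw [ev, dif_pos h1]
  exact ValExtAux.uniq h h1.choose_spec ha

theorem val_unique {k : Type*} [Field k] [Algebra k F] {O : ValuationSubring F} (h : Triv k O)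
    {x : F} {a b : k} (ha : O.valuation (x - algebraMap k F a) < 1)
    (hb : O.valuation (x - algebraMap k F b) < 1) : a = b := ValExtAux.uniq h ha hb

theorem ValExtAux.closed [IsAlgClosed F] (O : ValuationSubring F) :
    IsAlgClosed (ResidueField O) := by
  refine IsAlgClosed.of_exists_root _ fun p hp hi => ?_
  have h1 : p ∈ Polynomial.lifts (residue O) :=
    (Polynomial.lifts_iff_coeff_lifts _).2 fun i => residue_surjective _
  obtain ⟨q, h2, h3, h4⟩ := Polynomial.lifts_and_degree_eq_and_monic h1 hp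
  obtain ⟨x, hx⟩ := IsAlgClosed.exists_root (q.map (algebraMap O F))
    (by rw [h4.degree_map, h3]; exact hi.degree_pos.ne')
  have h5 : x ∈ O := mem_of_root (h4.map _)
    (fun i => by rw [Polynomial.coeff_map]; exact (q.coeff i).2) hx
  have h6 : q.eval ⟨x, h5⟩ = 0 := by
    apply Subtype.val_injective
    have := Polynomial.eval_map_apply (p := q) (algebraMap O F) ⟨x, h5⟩
    exact this.symm.trans hx
  exact ⟨residue O ⟨x, h5⟩, by rw [← h2, Polynomial.eval_map_apply, h6, map_zero]⟩

theorem ValExtAux.of_equiv [IsAlgClosed F] (e : F ≃+* F') : IsAlgClosed F' := by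
  refine IsAlgClosed.of_exists_root _ fun p _ hp => ?_
  obtain ⟨q, rfl⟩ := Polynomial.map_surjective (e : F →+* F') e.surjective p
  obtain ⟨x, hx⟩ := IsAlgClosed.exists_root q
    (by rw [← Polynomial.degree_map q (e : F →+* F')]; exact hp.degree_pos.ne')
  exact ⟨(e : F →+* F') x, by rw [Polynomial.eval_map_apply, hx.eq_zero, map_zero]⟩

instance isAlgClosed_resConst (k : Type*) [Field k] [Algebra k F] [IsAlgClosed k]
    (O : ValuationSubring F) : IsAlgClosed (resConst k O) := by
  obtain ⟨ι, hι⟩ := exists_resMap (algebraMap k F) O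
  have h1 : ι.fieldRange = resConst k O := by
    ext r
    rw [RingHom.mem_fieldRange, mem_resConst]
    constructor
    · rintro ⟨s, rfl⟩
      obtain ⟨x, hx, rfl⟩ := res_surj s
      exact ⟨x, hx, (hι x hx).symm⟩
    · rintro ⟨a, ha, rfl⟩
      exact ⟨_, hι a ha⟩
  have := ValExtAux.closed (O.comap (algebraMap k F))
  rw [← h1]
  exact ValExtAux.of_equiv ι.rangeRestrictFieldEquiv

theorem isAlgClosed_residueField [IsAlgClosed F] (O : ValuationSubring F) :
    IsAlgClosed (ResidueField O) := ValExtAux.closed O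

theorem natCast_resConst_ne_zero {k : Type*} [Field k] [Algebra k F] {O : ValuationSubring F}
    {n : ℕ} (h : O.valuation (n : F) = 1) : (n : resConst k O) ≠ 0 := by
  intro h1
  have h2 : (n : ResidueField O) = 0 := by simpa using congrArg Subtype.val h1
  refine res_ne_zero h ?_
  rw [← h2, ← map_natCast (residue O), ← res_coe]
  simp

theorem exists_lim {ι : Type*} (𝒰 : Ultrafilter ι) (O : ι → ValuationSubring F) :
    ∃ O', Lim 𝒰 O O' :=
  ⟨{ carrier := {x | ∀ᶠ i in (𝒰 : Filter ι), x ∈ O i}
     mul_mem' := fun hx hy => (Eventually.and hx hy).mono fun i h => (O i).mul_mem _ _ h.1 h.2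
     one_mem' := Eventually.of_forall fun i => (O i).one_mem
     add_mem' := fun hx hy => (Eventually.and hx hy).mono fun i h => (O i).add_mem _ _ h.1 h.2
     zero_mem' := Eventually.of_forall fun i => (O i).zero_mem
     neg_mem' := fun hx => Eventually.mono hx fun i h => (O i).neg_mem _ h
     mem_or_inv_mem' := fun x =>
      Ultrafilter.eventually_or.1 (Eventually.of_forall fun i => (O i).mem_or_inv_mem x) },
    fun _ => Iff.rfl⟩

theorem Lim.val_eq_one {ι : Type*} {𝒰 : Ultrafilter ι} {O : ι → ValuationSubring F}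
    {O' : ValuationSubring F} (h : Lim 𝒰 O O') (x : F) :
    O'.valuation x = 1 ↔ ∀ᶠ i in (𝒰 : Filter ι), (O i).valuation x = 1 := by
  by_cases h0 : x = 0
  · simp [h0, 𝒰.neBot.ne]
  · simp only [val_eq_one_iff_mem h0, eventually_and, h x, h x⁻¹]

theorem Lim.val_lt_one {ι : Type*} {𝒰 : Ultrafilter ι} {O : ι → ValuationSubring F}
    {O' : ValuationSubring F} (h : Lim 𝒰 O O') (x : F) :
    O'.valuation x < 1 ↔ ∀ᶠ i in (𝒰 : Filter ι), (O i).valuation x < 1 := by
  by_cases h0 : x = 0
  · simp [h0]
  · simp only [val_lt_one_iff_inv h0, Ultrafilter.eventually_not, h x⁻¹]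

theorem ValExtAux.aval_le (O : ValuationSubring F) {x y : F} (hx : x ≠ 0) (hy : y ≠ 0) :
    aval O x ≤ aval O y ↔ O.valuation y ≤ O.valuation x := by
  rw [aval, aval, dif_neg hx, dif_neg hy]
  rfl

theorem isAVal_aval (O : ValuationSubring F) : IsAVal (aval O) := by
  refine ⟨fun x y hx hy => ?_, fun x y hx hy hxy => ?_⟩
  · rw [aval, aval, aval, dif_neg hx, dif_neg hy, dif_neg (mul_ne_zero hx hy), ← toDual_add,
      ← ofMul_mul]
    exact congrArg (fun u => OrderDual.toDual (Additive.ofMul u)) (Units.ext (by simp))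
  · rw [min_le_iff, ValExtAux.aval_le O hx hxy, ValExtAux.aval_le O hy hxy, ← le_max_iff]
    exact O.valuation.map_add x y

theorem aval_le_iff (O : ValuationSubring F) {x y : F} (hx : x ≠ 0) (hy : y ≠ 0) :
    aval O x ≤ aval O y ↔ O.valuation y ≤ O.valuation x := ValExtAux.aval_le O hx hy

theorem aval_surj (O : ValuationSubring F) (g : AG O) : ∃ x, x ≠ 0 ∧ aval O x = g := by
  obtain ⟨x, hx⟩ := O.valuation_surjective
    ((Additive.toMul (OrderDual.ofDual g) : (O.ValueGroup)ˣ) : O.ValueGroup)
  have h0 : x ≠ 0 := by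
    rintro rfl
    rw [map_zero] at hx
    exact Units.ne_zero _ hx.symm
  refine ⟨x, h0, ?_⟩
  rw [aval, dif_neg h0]
  exact congrArg (fun u => OrderDual.toDual (Additive.ofMul u)) (Units.ext hx)

end Vale.Agent.P019
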