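import Vale.Agent.P019.LT
import Vale.Agent.P019.ValExt
import Vale.Agent.P019.H4LT

/-! P019: compatibility and transfer of valuations. -/

open scoped TensorProduct

namespace Vale.Agent.P019

variable {ℓ : ℕ} [Fact ℓ.Prime] {F F' F'' : Type*} [Field F] [Field F'] [Field F'']

namespace ACAux

/-- the determinant functional -/
noncomputable def det2 (f g : Module.Dual (ZMod ℓ) (V ℓ F)) :
    V ℓ F ⊗[ZMod ℓ] V ℓ F →ₗ[ZMod ℓ] ZMod ℓ :=
  TensorProduct.lift ((LinearMap.mul (ZMod ℓ) (ZMod ℓ)).compl₁₂ f g -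
    ((LinearMap.mul (ZMod ℓ) (ZMod ℓ)).compl₁₂ f g).flip)

theorem det2_tmul (f g : Module.Dual (ZMod ℓ) (V ℓ F)) (a b : V ℓ F) :
    det2 f g (a ⊗ₜ b) = f a * g b - f b * g a := by
  simp [det2]

theorem acl_iff (f g : Module.Dual (ZMod ℓ) (V ℓ F)) :
    Acl f g ↔ Rel ℓ F ≤ LinearMap.ker (det2 f g) := by
  rw [Rel, Submodule.span_le]
  constructor
  · rintro h _ ⟨x, y, hxy, rfl⟩
    have h1 : (x : F) ≠ 1 := fun e => y.ne_zero (by rw [hxy, e, sub_self])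
    have := h x x.ne_zero h1
    rw [← hxy, cl_coe, cl_coe] at this
    rw [SetLike.mem_coe, LinearMap.mem_ker, det2_tmul, this, sub_self]
  · intro h x h0 h1
    have h2 : 1 - x ≠ 0 := sub_ne_zero.2 h1.symm
    have := h ⟨Units.mk0 x h0, Units.mk0 (1 - x) h2, rfl, rfl⟩
    rw [SetLike.mem_coe, LinearMap.mem_ker, det2_tmul, ← cl_of_ne, ← cl_of_ne] at this
    exact sub_eq_zero.1 this

theorem det2_comp (Θ : V ℓ F →ₗ[ZMod ℓ] V ℓ F') (f g : Module.Dual (ZMod ℓ) (V ℓ F')) :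
    det2 (f ∘ₗ Θ) (g ∘ₗ Θ) = det2 f g ∘ₗ TensorProduct.map Θ Θ :=
  TensorProduct.ext' fun a b => by
    rw [LinearMap.comp_apply, TensorProduct.map_tmul, det2_tmul, det2_tmul]
    rfl

theorem expChar_ne (φ : F →+* F') (hℓ : (ℓ : F) ≠ 0) (n : ℕ) :
    ((ringExpChar F' ^ n : ℕ) : ZMod ℓ) ≠ 0 := by
  have hp : ℓ.Prime := Fact.out
  rw [Nat.cast_pow]
  refine pow_ne_zero _ fun h => ?_
  rw [ZMod.natCast_eq_zero_iff] at h
  have hE : ExpChar F' (ringExpChar F') := inferInstance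
  generalize ringExpChar F' = p at h hE
  rcases hE with _ | hq
  · exact hp.one_lt.ne' (Nat.dvd_one.1 h)
  · have e : ℓ = p := (Nat.prime_dvd_prime_iff_eq hp hq).1 h
    apply hℓ
    apply φ.injective
    rw [map_natCast, map_zero, e]
    exact CharP.cast_eq_zero F' p

end ACAux

open ACAux

/-- `Acl f g` says that the functional `a ⊗ b ↦ f a * g b - f b * g a` kills `Rel` -/
theorem compat_of_rel (Θ : V ℓ F ≃ₗ[ZMod ℓ] V ℓ F')
    (h : (Rel ℓ F).map (TensorProduct.map Θ.toLinearMap Θ.toLinearMap) = Rel ℓ F') :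
    Compat Θ := fun f g => by
  rw [acl_iff, acl_iff, ← h, Submodule.map_le_iff_le_comap, det2_comp, LinearMap.ker_comp]

theorem Compat.symm {Θ : V ℓ F ≃ₗ[ZMod ℓ] V ℓ F'} (h : Compat Θ) : Compat Θ.symm :=
  H4.compat_symm h

theorem Compat.trans {Θ : V ℓ F ≃ₗ[ZMod ℓ] V ℓ F'} {Θ' : V ℓ F' ≃ₗ[ZMod ℓ] V ℓ F''}
    (h : Compat Θ) (h' : Compat Θ') : Compat (Θ.trans Θ') := fun f g =>
  (h' f g).trans (h _ _)

/-- `CondN T` holds iff some pair of functionals killing `T` is not alternating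
(if `cl u`, `cl (1 - u)` are dependent mod `T` the determinant vanishes) -/
theorem condN_iff {T : Submodule (ZMod ℓ) (V ℓ F)} : CondN T ↔
    ∃ f g : Module.Dual (ZMod ℓ) (V ℓ F), T ≤ LinearMap.ker f ∧ T ≤ LinearMap.ker g ∧
      ¬ Acl f g := H4.condN_iff

theorem Compat.condN_comap {Θ : V ℓ F ≃ₗ[ZMod ℓ] V ℓ F'} (h : Compat Θ)
    {T : Submodule (ZMod ℓ) (V ℓ F')} (hT : CondN T) : CondN (T.comap Θ.toLinearMap) :=
  H4.condN_comap h hT

theorem CondN.mono {T T' : Submodule (ZMod ℓ) (V ℓ F)} (h : CondN T) (hle : T' ≤ T) :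
    CondN T' := by
  obtain ⟨u, h0, h1, hu⟩ := h
  exact ⟨u, h0, h1, fun a b hab => hu a b (hle hab)⟩

/-- apply `exists_valuation_of_HT` to the preimages of `TO w ≤ HO w` -/
theorem Compat.exists_flat {Θ : V ℓ F ≃ₗ[ZMod ℓ] V ℓ F'} (h : Compat Θ)
    (hm : cl ℓ (-1 : F) = 0) (hm' : cl ℓ (-1 : F') = 0) {w : ValuationSubring F'}
    (hw : CondN (TO ℓ w)) : ∃ v, Flat Θ v w := by
  obtain ⟨v, h1, h2⟩ := H4.local_transfer h hm hm' w hw
  exact ⟨v, Submodule.map_le_iff_le_comap.2 h1, Submodule.map_le_iff_le_comap.2 h2⟩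

/-- limits: take an ultrafilter on `Finset (V ℓ F')` above `atTop`, valuations `v S` flat for the
approximants, and their ultralimit (`exists_lim`, `Lim.val_eq_one`). -/
theorem Compat.exists_of_approx {Θ : V ℓ F ≃ₗ[ZMod ℓ] V ℓ F'} (h : Compat Θ)
    (hm : cl ℓ (-1 : F) = 0) (hm' : cl ℓ (-1 : F') = 0) {ψ : Module.Dual (ZMod ℓ) (V ℓ F')}
    (hψ : Approx ψ) :
    ∃ O : ValuationSubring F, HO ℓ O ≤ LinearMap.ker (ψ ∘ₗ Θ.toLinearMap) := by
  classical
  choose w φ hN hH hS using hψ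
  choose v hv using fun S => h.exists_flat hm hm' (hN S)
  obtain ⟨O, hO⟩ := exists_lim (Ultrafilter.of (Filter.atTop : Filter (Finset (V ℓ F')))) v
  refine ⟨O, Submodule.span_le.2 ?_⟩
  rintro _ ⟨x, hx, rfl⟩
  have h1 := (hO.val_eq_one x).1 hx
  have h2 : ∀ᶠ S in ((Ultrafilter.of (Filter.atTop : Filter (Finset (V ℓ F')))) :
      Filter (Finset (V ℓ F'))), {Θ (cl ℓ x)} ≤ S :=
    Ultrafilter.of_le _ (Filter.eventually_ge_atTop _)
  obtain ⟨S, a1, a2⟩ := (h1.and h2).exists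
  have a3 : Θ (cl ℓ x) ∈ HO ℓ (w S) := (hv S).2 ⟨cl ℓ x, H4.cl_mem_HO a1, rfl⟩
  have a4 := hH S a3
  rw [LinearMap.mem_ker, hS S _ (a2 (Finset.mem_singleton_self _))] at a4
  exact a4

/-- purely inseparable extensions do not change `V` and the alternating pairs -/
theorem Vmap_bijective (φ : F →+* F') (hℓ : (ℓ : F) ≠ 0)
    (h : ∀ y : F', ∃ n : ℕ, y ^ ringExpChar F' ^ n ∈ φ.range) :
    Function.Bijective (Vmap ℓ φ) := by
  constructor
  · refine (injective_iff_map_eq_zero _).2 fun v hv => ?_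
    obtain ⟨x, hx, rfl⟩ := cl_surj v
    rw [Vmap_cl, cl_eq_zero_iff (by simpa using hx)] at hv
    obtain ⟨y, hy⟩ := hv
    obtain ⟨n, z, hz⟩ := h y
    have e : x ^ ringExpChar F' ^ n = z ^ ℓ := φ.injective (by
      rw [map_pow, map_pow, hy, hz, ← pow_mul, ← pow_mul, mul_comm])
    have h1 := congrArg (cl ℓ) e
    rw [cl_pow_self, cl_pow] at h1
    exact (smul_eq_zero.1 h1).resolve_left (expChar_ne φ hℓ n)
  · intro v
    obtain ⟨y, -, rfl⟩ := cl_surj v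
    obtain ⟨n, z, hz⟩ := h y
    refine ⟨((ringExpChar F' ^ n : ℕ) : ZMod ℓ)⁻¹ • cl ℓ z, ?_⟩
    rw [map_smul, Vmap_cl, hz, cl_pow, smul_smul, inv_mul_cancel₀ (expChar_ne φ hℓ n), one_smul]

theorem compat_Vmap (φ : F →+* F') (hℓ : (ℓ : F) ≠ 0)
    (h : ∀ y : F', ∃ n : ℕ, y ^ ringExpChar F' ^ n ∈ φ.range) :
    Compat (LinearEquiv.ofBijective (Vmap ℓ φ) (Vmap_bijective φ hℓ h)) := by
  intro f g
  change _ ↔ Acl (f ∘ₗ Vmap ℓ φ) (g ∘ₗ Vmap ℓ φ)
  constructor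
  · intro hA x h0 h1
    have := hA (φ x) (by simpa using h0) fun e => h1 (φ.injective (by rw [e, map_one]))
    simp only [LinearMap.comp_apply, Vmap_cl, map_sub, map_one]
    exact this
  · intro hA y h0 h1
    obtain ⟨n, x, hx⟩ := h y
    have e : φ (1 - x) = (1 - y) ^ ringExpChar F' ^ n := by
      rw [sub_pow_expChar_pow, one_pow, map_sub, map_one, hx]
    have a0 : x ≠ 0 := fun e0 => pow_ne_zero _ h0 (by rw [← hx, e0, map_zero])
    have a1 : x ≠ 1 := fun e0 => pow_ne_zero _ (sub_ne_zero.2 h1.symm) (by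
      rw [← e, e0, sub_self, map_zero])
    have := hA x a0 a1
    simp only [LinearMap.comp_apply, Vmap_cl] at this
    rw [e, hx, cl_pow, cl_pow] at this
    simp only [map_smul, smul_eq_mul] at this
    have hq := expChar_ne φ hℓ n
    apply mul_left_cancel₀ (mul_ne_zero hq hq)
    linear_combination this

end Vale.Agent.P019
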