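import Vale.Agent.P019.Base2

/-! P019: auxiliary lemmas for the existence of models. -/

open IntermediateField Polynomial

namespace Vale.Agent.P019.MODELAux

section generic

variable {A F K : Type*} [CommRing A] [IsDomain A] [Field F] [Field K] [Algebra A F]
  [IsFractionRing A F] [Algebra F K] [Algebra A K] [IsScalarTower A F K]

omit [IsDomain A] in
theorem clear (p : F[X]) : ∃ (c : A) (P : A[X]), c ≠ 0 ∧ P.natDegree ≤ p.natDegree ∧
    P.map (algebraMap A F) = C (algebraMap A F c) * p := by
  have : Nontrivial A := (algebraMap A F).domain_nontrivial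
  obtain ⟨c, hc, h⟩ := IsLocalization.integerNormalization_spec (nonZeroDivisors A) p
  refine ⟨c, _, nonZeroDivisors.ne_zero hc, ?_, by rw [h, ← smul_eq_C_mul, algebraMap_smul]⟩
  exact natDegree_le_natDegree (degree_mono (IsLocalization.integerNormalization_support _ p))

theorem exists_data [IsIntegrallyClosed A] [FiniteDimensional F K] [Algebra.IsSeparable F K] :
    ∃ (θ : K) (f : A[X]) (Δ : A), f.Monic ∧ Irreducible f ∧ aeval θ f = 0 ∧
      (∀ y : K, ∃ (P : A[X]) (Q : A), Q ≠ 0 ∧ y * algebraMap A K Q = aeval θ P) ∧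
      (∃ a b, C Δ = a * f + b * derivative f) ∧ Δ ≠ 0 := by
  obtain ⟨α, hα⟩ := Field.exists_primitive_element F K
  have hal : IsAlgebraic A α :=
    (IsFractionRing.isAlgebraic_iff A F K).2 (Algebra.IsAlgebraic.isAlgebraic α)
  obtain ⟨c, hc, hint⟩ := hal.exists_integral_multiple
  have hcF : algebraMap A F c ≠ 0 := by simpa using hc
  have htop : F⟮c • α⟯ = ⊤ := by
    refine top_unique (hα ▸ adjoin_simple_le_iff.2 ?_)
    have : α = (algebraMap A F c)⁻¹ • c • α := by
      rw [← algebraMap_smul F c α, inv_smul_smul₀ hcF]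
    have h2 := IntermediateField.smul_mem _ (mem_adjoin_simple_self F (c • α))
      (x := (algebraMap A F c)⁻¹)
    rwa [← this] at h2
  generalize c • α = θ at hint htop
  have hmap := minpoly.isIntegrallyClosed_eq_field_fractions' F hint
  have hsep : (minpoly F θ).Separable := Algebra.IsSeparable.isSeparable F θ
  obtain ⟨a, b, hab⟩ := hsep
  obtain ⟨c₁, a', hc₁, -, ha'⟩ := clear (A := A) a
  obtain ⟨c₂, b', hc₂, -, hb'⟩ := clear (A := A) b
  refine ⟨θ, minpoly A θ, c₁ * c₂, minpoly.monic hint, minpoly.irreducible hint, minpoly.aeval A θ,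
    fun y => ?_, ⟨C c₂ * a', C c₁ * b', ?_⟩, mul_ne_zero hc₁ hc₂⟩
  · have hy : y ∈ Algebra.adjoin F {θ} := by
      rw [← adjoin_simple_toSubalgebra_of_isAlgebraic (Algebra.IsAlgebraic.isAlgebraic θ), htop]
      trivial
    rw [Algebra.adjoin_singleton_eq_range_aeval] at hy
    obtain ⟨p, rfl⟩ := hy
    obtain ⟨Q, P, hQ, -, hP⟩ := clear (A := A) p
    refine ⟨P, Q, hQ, ?_⟩
    rw [← aeval_map_algebraMap F θ P, hP, map_mul, aeval_C, ← IsScalarTower.algebraMap_apply,
      mul_comm]
    rfl
  · apply Polynomial.map_injective _ (IsFractionRing.injective A F)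
    simp only [Polynomial.map_add, Polynomial.map_mul, map_C, ha', hb', ← derivative_map, ← hmap,
      map_mul]
    linear_combination (-(C (algebraMap A F c₁) * C (algebraMap A F c₂))) * hab

theorem minpoly_eq {θ : K} {f : A[X]} (hm : f.Monic) (hi : Irreducible f) (hr : aeval θ f = 0)
    [IsIntegrallyClosed A] [FaithfulSMul A K] : minpoly A θ = f := by
  have hint : IsIntegral A θ := ⟨f, hm, hr⟩
  exact eq_of_monic_of_associated (minpoly.monic hint) hm
    ((minpoly.irreducible hint).associated_of_dvd hi (minpoly.isIntegrallyClosed_dvd hint hr))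

omit [IsDomain A] in
theorem adjoin_eq_top {θ : K}
    (h : ∀ y : K, ∃ (P : A[X]) (Q : A), Q ≠ 0 ∧ y * algebraMap A K Q = aeval θ P) :
    F⟮θ⟯ = ⊤ := by
  refine top_unique fun y _ => ?_
  obtain ⟨P, Q, hQ, h⟩ := h y
  have hQ' : algebraMap A K Q ≠ 0 := by
    rw [IsScalarTower.algebraMap_apply A F K]
    simpa using hQ
  rw [eq_div_of_mul_eq hQ' h, ← aeval_map_algebraMap F θ P, IsScalarTower.algebraMap_apply A F K]
  exact div_mem (algebra_adjoin_le_adjoin F _ (aeval_mem_adjoin_singleton F θ))
    (IntermediateField.algebraMap_mem _ _)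

end generic

section root

variable {F K : Type*} [Field F] [Field K] [Algebra F K]

/-- a root of the twisted minimal equation of no larger degree is a power -/
theorem mem_range_of_twist (φ : K →+* K) {y : K} {h : F[X]} (h0 : h ≠ 0)
    (hd : h.natDegree ≤ (minpoly F y).natDegree)
    (hr : h.eval₂ (φ.comp (algebraMap F K)) y = 0)
    (hφ : ∀ E : Subfield K, y ∈ E → φ y ∈ E) : ∃ z, φ z = y := by
  obtain ⟨E, hE⟩ : ∃ E : Subfield K, E = (φ.comp (algebraMap F K)).fieldRange := ⟨_, rfl⟩
  obtain ⟨e, he, hes⟩ : ∃ e : F →+* E, (algebraMap E K).comp e = φ.comp (algebraMap F K) ∧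
      Function.Surjective e := by
    subst hE
    exact ⟨(φ.comp (algebraMap F K)).rangeRestrictField, rfl,
      (φ.comp (algebraMap F K)).rangeRestrictField_bijective.2⟩
  have h1 : aeval y (h.map e) = 0 := by rw [aeval_def, eval₂_map, he, hr]
  have h2 : h.map e ≠ 0 := (Polynomial.map_ne_zero_iff e.injective).2 h0
  have hyE : IsIntegral E y := (show IsAlgebraic E y from ⟨_, h2, h1⟩).isIntegral
  have hle : E⟮φ y⟯ ≤ E⟮y⟯ :=
    adjoin_simple_le_iff.2 (hφ E⟮y⟯.toSubfield (mem_adjoin_simple_self E y))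
  have hfin : FiniteDimensional E E⟮y⟯ := adjoin.finiteDimensional hyE
  have hφE : IsIntegral E (φ y) := by
    have := IsIntegral.of_finite E (⟨φ y, hle (mem_adjoin_simple_self E _)⟩ : E⟮y⟯)
    exact (isIntegral_iff.1 this)
  have h3 : (minpoly E y).natDegree ≤ h.natDegree :=
    (natDegree_le_natDegree (minpoly.degree_le_of_ne_zero E y h2 h1)).trans natDegree_map_le
  have h4 : (minpoly F y).natDegree ≤ (minpoly E (φ y)).natDegree := by
    obtain ⟨q, hq⟩ := Polynomial.map_surjective e hes (minpoly E (φ y))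
    have hq0 : q ≠ 0 := by
      rintro rfl
      exact minpoly.ne_zero hφE (by rw [← hq, Polynomial.map_zero])
    have hq1 : aeval y q = 0 := by
      apply φ.injective
      rw [aeval_def, hom_eval₂, ← he, ← eval₂_map, hq, map_zero, ← aeval_def, minpoly.aeval]
    rw [← hq, natDegree_map_eq_of_injective e.injective]
    exact natDegree_le_natDegree (minpoly.degree_le_of_ne_zero F y hq0 hq1)
  have heq : E⟮φ y⟯ = E⟮y⟯ := by
    refine eq_of_le_of_finrank_le hle ?_
    rw [adjoin.finrank hyE, adjoin.finrank hφE]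
    omega
  have hsub : E⟮φ y⟯ ≤ φ.fieldRange.toIntermediateField (fun x => by
      have hx : (x : K) ∈ (φ.comp (algebraMap F K)).fieldRange := hE ▸ x.2
      obtain ⟨c, hc⟩ := hx
      exact ⟨algebraMap F K c, hc⟩) := adjoin_simple_le_iff.2 ⟨y, rfl⟩
  exact hsub (heq ▸ mem_adjoin_simple_self E y)

end root

section setup

variable {k K : Type*} [Field k] [Field K] [Algebra k K]

theorem setup {ι : Type*} {s : ι → K} (hs : AlgebraicIndependent k s) :
    ∃ (_ : Algebra (MvPolynomial ι k) K) (_ : Algebra (MvPolynomial ι k) (adjoin k (Set.range s)))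
      (_ : IsScalarTower (MvPolynomial ι k) (adjoin k (Set.range s)) K)
      (_ : IsFractionRing (MvPolynomial ι k) (adjoin k (Set.range s))),
      algebraMap (MvPolynomial ι k) K =
        (MvPolynomial.aeval s : MvPolynomial ι k →ₐ[k] K).toRingHom := by
  have hm : ∀ g : MvPolynomial ι k, MvPolynomial.aeval s g ∈ adjoin k (Set.range s) := fun g =>
    algebra_adjoin_le_adjoin k _ (by
      rw [Algebra.adjoin_range_eq_range_aeval]; exact ⟨g, rfl⟩)
  let iK : Algebra (MvPolynomial ι k) K :=
    (MvPolynomial.aeval s : MvPolynomial ι k →ₐ[k] K).toRingHom.toAlgebra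
  let iF : Algebra (MvPolynomial ι k) (adjoin k (Set.range s)) :=
    (((MvPolynomial.aeval s : MvPolynomial ι k →ₐ[k] K).toRingHom).codRestrict
      (adjoin k (Set.range s)) hm).toAlgebra
  have hT : IsScalarTower (MvPolynomial ι k) (adjoin k (Set.range s)) K :=
    IsScalarTower.of_algebraMap_eq fun _ => rfl
  have hf : FaithfulSMul (MvPolynomial ι k) (adjoin k (Set.range s)) :=
    (faithfulSMul_iff_algebraMap_injective _ _).2 fun a b h => hs (congrArg Subtype.val h)
  refine ⟨iK, iF, hT, IsFractionRing.of_field _ _ fun z => ?_, rfl⟩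
  obtain ⟨a, b, h⟩ := (mem_adjoin_range_iff k s z.1).1 z.2
  exact ⟨a, b, Subtype.ext h⟩

end setup

section deriv

variable {k K ι : Type*} [Field k] [Field K] [Algebra k K]

/-- degree in the variables `s` -/
noncomputable def nu [Fintype ι] (g : MvPolynomial (Option ι) k) : ℕ :=
  g.support.sup fun m => ∑ i, m (some i)

theorem le_nu [Fintype ι] {g : MvPolynomial (Option ι) k} {m : Option ι →₀ ℕ}
    (hm : m ∈ g.support) : ∑ i, m (some i) ≤ nu g :=
  Finset.le_sup (f := fun m : Option ι →₀ ℕ => ∑ i, m (some i)) hm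

theorem mem_support_pderiv {g : MvPolynomial (Option ι) k} {o : Option ι} {m : Option ι →₀ ℕ}
    (hm : m ∈ (MvPolynomial.pderiv o g).support) : m + Finsupp.single o 1 ∈ g.support := by
  rw [MvPolynomial.mem_support_iff] at hm ⊢
  rw [MvPolynomial.coeff_pderiv] at hm
  exact left_ne_zero_of_mul hm

theorem nu_pderiv [Fintype ι] {g : MvPolynomial (Option ι) k} {i : ι}
    (h : MvPolynomial.pderiv (some i) g ≠ 0) : nu (MvPolynomial.pderiv (some i) g) < nu g := by
  classical
  obtain ⟨m, hm, he⟩ := Finset.exists_mem_eq_sup _ (MvPolynomial.support_nonempty.2 h)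
    fun m : Option ι →₀ ℕ => ∑ i, m (some i)
  have h1 := le_nu (mem_support_pderiv hm)
  simp only [Finsupp.add_apply, Finset.sum_add_distrib, Finsupp.single_apply, Option.some.injEq,
    Finset.sum_ite_eq, Finset.mem_univ, if_true] at h1
  rw [nu, he]
  omega

theorem degreeOf_pderiv (g : MvPolynomial (Option ι) k) (i : ι) :
    (MvPolynomial.pderiv (some i) g).degreeOf none ≤ g.degreeOf none := by
  rw [MvPolynomial.degreeOf_le_iff]
  intro m hm
  have := MvPolynomial.degreeOf_le_iff.1 (le_refl (g.degreeOf none)) _ (mem_support_pderiv hm)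
  simpa using this

theorem cast_eq_zero {g : MvPolynomial (Option ι) k} {o : Option ι}
    (h : MvPolynomial.pderiv o g = 0) {m : Option ι →₀ ℕ} (hm : m ∈ g.support) :
    (m o : k) = 0 := by
  by_cases h0 : m o = 0
  · simp [h0]
  obtain ⟨m', rfl⟩ : ∃ m', m = m' + Finsupp.single o 1 :=
    ⟨m - Finsupp.single o 1, (tsub_add_cancel_of_le (Finsupp.single_le_iff.2 (by omega))).symm⟩
  have h1 := MvPolynomial.coeff_pderiv (i := o) g m'
  rw [h, MvPolynomial.coeff_zero] at h1
  have h2 := (mul_eq_zero.1 h1.symm).resolve_left (MvPolynomial.mem_support_iff.1 hm)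
  simpa using h2

theorem root_eval [Fintype ι] {p : ℕ} {r : k → k} (hr : ∀ c, r c ^ p = c)
    {t : (Option ι →₀ ℕ) → Option ι →₀ ℕ}
    (ht : ∀ m, t m none = m none ∧ ∀ i, t m (some i) = m (some i) / p)
    {g : MvPolynomial (Option ι) k} (hd : ∀ m ∈ g.support, ∀ i, p ∣ m (some i))
    {R : Type*} [CommRing R] [Algebra k R] (φ : R →+* R) (hφ : ∀ x, φ x = x ^ p)
    (y : R) (s : ι → R) : MvPolynomial.eval₂Hom (φ.comp (algebraMap k R))
      (fun o => o.elim y fun i => φ (s i))
        (∑ m ∈ g.support, MvPolynomial.monomial (t m) (r (g.coeff m))) =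
      MvPolynomial.aeval (fun o : Option ι => o.elim y s) g := by
  conv_rhs => rw [g.as_sum]
  rw [map_sum, map_sum]
  refine Finset.sum_congr rfl fun m hm => ?_
  rw [MvPolynomial.eval₂Hom_monomial, MvPolynomial.aeval_monomial,
    Finsupp.prod_fintype _ _ (by simp), Finsupp.prod_fintype _ _ (by simp),
    Fintype.prod_option, Fintype.prod_option, RingHom.comp_apply, hφ, ← map_pow, hr, (ht m).1]
  congr 2
  refine Finset.prod_congr rfl fun i _ => ?_
  simp only [Option.elim_some]
  rw [hφ, ← pow_mul, (ht m).2, Nat.mul_div_cancel' (hd m hm i)]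

/-- extracting the root of the coefficients -/
theorem exists_root [Fintype ι] [IsAlgClosed k] {p : ℕ} [Fact p.Prime] [CharP k p]
    {g : MvPolynomial (Option ι) k} (hd : ∀ m ∈ g.support, ∀ i, p ∣ m (some i)) (hn : nu g ≠ 0) :
    ∃ g' : MvPolynomial (Option ι) k, g' ≠ 0 ∧ g'.degreeOf none ≤ g.degreeOf none ∧
      nu g' < nu g ∧ ∀ φ : K →+* K, (∀ x, φ x = x ^ p) →
        ∀ (y : K) (s : ι → K), MvPolynomial.eval₂Hom (φ.comp (algebraMap k K))
          (fun o => o.elim y fun i => φ (s i)) g' =
          MvPolynomial.aeval (fun o : Option ι => o.elim y s) g := by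
  classical
  have hp : 1 < p := (Fact.out : p.Prime).one_lt
  choose r hr using fun c : k => IsAlgClosed.exists_pow_nat_eq c (by omega : 0 < p)
  obtain ⟨t, ht⟩ : ∃ t : (Option ι →₀ ℕ) → Option ι →₀ ℕ, ∀ m, t m none = m none ∧
      ∀ i, t m (some i) = m (some i) / p :=
    ⟨fun m => Finsupp.equivFunOnFinite.symm fun o => o.elim (m none) fun i => m (some i) / p,
      fun m => ⟨rfl, fun _ => rfl⟩⟩
  have hs : ∀ m' ∈ (∑ m ∈ g.support, MvPolynomial.monomial (t m) (r (g.coeff m))).support,
      ∃ m ∈ g.support, m' = t m := by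
    intro m' hm'
    obtain ⟨m, hm, h⟩ := Finset.mem_biUnion.1 (MvPolynomial.support_sum hm')
    exact ⟨m, hm, Finset.mem_singleton.1 (MvPolynomial.support_monomial_subset h)⟩
  refine ⟨∑ m ∈ g.support, MvPolynomial.monomial (t m) (r (g.coeff m)), fun h0 => ?_, ?_, ?_,
    fun φ hφ y s => root_eval hr ht hd φ hφ y s⟩
  · have h1 := root_eval hr ht hd (frobenius (MvPolynomial (Option ι) k) p) (fun _ => rfl)
      (MvPolynomial.X none) fun i => MvPolynomial.X (some i)
    have h2 : (fun o : Option ι => o.elim (MvPolynomial.X none) fun i => MvPolynomial.X (some i)) =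
        (MvPolynomial.X : Option ι → MvPolynomial (Option ι) k) := by
      funext o
      cases o <;> rfl
    rw [h0, map_zero, h2, MvPolynomial.aeval_X_left_apply] at h1
    apply hn
    rw [← h1]
    simp [nu]
  · rw [MvPolynomial.degreeOf_le_iff]
    intro m' hm'
    obtain ⟨m, hm, rfl⟩ := hs m' hm'
    rw [(ht m).1]
    exact MvPolynomial.degreeOf_le_iff.1 le_rfl m hm
  · refine (Finset.sup_lt_iff (Nat.pos_of_ne_zero hn)).2 fun m' hm' => ?_
    obtain ⟨m, hm, rfl⟩ := hs m' hm'
    have h1 := le_nu hm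
    have h2 : ∑ i, m (some i) = p * ∑ i, t m (some i) := by
      rw [Finset.mul_sum]
      exact Finset.sum_congr rfl fun i _ => by rw [(ht m).2, Nat.mul_div_cancel' (hd m hm i)]
    rw [h2] at h1
    rcases Nat.eq_zero_or_pos (∑ i, t m (some i)) with h | h
    · omega
    · nlinarith

theorem eval_option (φ : K →+* K) (y : K) (s : ι → K) (g : MvPolynomial (Option ι) k) :
    (MvPolynomial.optionEquivLeft k ι g).eval₂
      (φ.comp (MvPolynomial.aeval s : MvPolynomial ι k →ₐ[k] K).toRingHom) y =
    MvPolynomial.eval₂Hom (φ.comp (algebraMap k K)) (fun o => o.elim y fun i => φ (s i)) g := by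
  induction g using MvPolynomial.induction_on with
  | C a => simp
  | add p q hp hq => rw [map_add, eval₂_add, map_add, hp, hq]
  | mul_X p o hp =>
    rw [map_mul, eval₂_mul, map_mul, hp]
    cases o <;> simp

theorem eval_option' (y : K) (s : ι → K) (g : MvPolynomial (Option ι) k) :
    (MvPolynomial.optionEquivLeft k ι g).eval₂
      (MvPolynomial.aeval s : MvPolynomial ι k →ₐ[k] K).toRingHom y =
    MvPolynomial.aeval (fun o : Option ι => o.elim y s) g :=
  eval_option (RingHom.id K) y s g

theorem isAlgebraic_of_nu [Fintype ι] {g : MvPolynomial (Option ι) k} (h0 : g ≠ 0) (hn : nu g = 0)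
    {y : K} {s : ι → K} (hr : MvPolynomial.aeval (fun o : Option ι => o.elim y s) g = 0) :
    IsAlgebraic k y := by
  have hv : ∀ i, some i ∉ g.vars := by
    intro i hi
    obtain ⟨m, hm, h⟩ := (MvPolynomial.mem_vars_iff_mem_support _).1 hi
    have h1 := le_nu hm
    rw [hn, Nat.le_zero, Finset.sum_eq_zero_iff] at h1
    exact Finsupp.mem_support_iff.1 h (h1 i (Finset.mem_univ _))
  obtain ⟨q, rfl⟩ := MvPolynomial.exists_rename_eq_of_vars_subset_range g
    (fun _ : PUnit.{1} => (none : Option ι)) (fun _ _ _ => rfl) (by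
      intro o ho
      rcases o with _ | i
      · exact ⟨⟨⟩, rfl⟩
      · exact absurd ho (hv i))
  by_contra ht
  have hi : AlgebraicIndependent k (fun _ : PUnit.{1} => y) :=
    algebraicIndependent_unique_type_iff.2 ht
  rw [MvPolynomial.aeval_rename] at hr
  exact h0 (by rw [hi.eq_zero_of_aeval_eq_zero q hr, map_zero])

end deriv

end Vale.Agent.P019.MODELAux
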