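import Vale.Agent.P019.FGA
import Vale.Agent.P019.MODELAux

/-! P019: existence of models. -/

open IntermediateField

namespace Vale.Agent.P019

variable {k K : Type*} [Field k] [Field K] [Algebra k K]

/-- primitive element, multiplied by a denominator to make it integral over `k[s]`; the minimal
polynomial has coefficients in `k[s]` (integrally closed), clear denominators in a Bezout
relation -/
theorem exists_model_of_sep {d : ℕ} {s : Fin d → K} (hs : AlgebraicIndependent k s)
    [FiniteDimensional (adjoin k (Set.range s)) K]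
    [Algebra.IsSeparable (adjoin k (Set.range s)) K] : ∃ M : Model k K d, M.s = s := by
  obtain ⟨iK, iF, hT, hF, he⟩ := MODELAux.setup hs
  obtain ⟨θ, f, Δ, h1, h2, h3, h4, h5, h6⟩ :=
    MODELAux.exists_data (A := MvPolynomial (Fin d) k) (F := adjoin k (Set.range s)) (K := K)
  simp only [Polynomial.aeval_def, he] at h3 h4
  exact ⟨⟨s, θ, f, Δ, hs, h1, h2, h3, h4, h5, h6⟩, rfl⟩

/-- `exists_isTranscendenceBasis_and_isSeparable_of_perfectField` -/
theorem exists_model [PerfectField k] {d : ℕ} (h : IsFF k K d) : Nonempty (Model k K d) := by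
  have := h.fg
  obtain ⟨t, ht, hsep⟩ := exists_isTranscendenceBasis_and_isSeparable_of_perfectField k K
  have hc : t.card = d := by
    have h1 := ht.cardinalMk_eq_trdeg
    rw [h.trdeg, Cardinal.mk_coe_finset] at h1
    exact_mod_cast h1
  have e : Fin d ≃ t := (t.equivFinOfCardEq hc).symm
  have hs : AlgebraicIndependent k (fun i => (e i : K)) := ht.1.comp e e.injective
  have hr : Set.range (fun i => (e i : K)) = (t : Set K) := by
    ext x
    constructor
    · rintro ⟨i, rfl⟩
      exact (e i).2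
    · intro hx
      exact ⟨e.symm ⟨x, hx⟩, by simp⟩
  have hal := (h.isTranscendenceBasis hs (Fintype.card_fin d)).isAlgebraic_field
  rw [← hr] at hsep
  have : Algebra.EssFiniteType (adjoin k (Set.range fun i => (e i : K))) K :=
    Algebra.EssFiniteType.of_comp k _ _
  have : FiniteDimensional (adjoin k (Set.range fun i => (e i : K))) K :=
    Algebra.finite_of_essFiniteType_of_isAlgebraic
  obtain ⟨M, -⟩ := exists_model_of_sep hs
  exact ⟨M⟩

theorem MODELAux.data {d : ℕ} (M : Model k K d) :
    (adjoin k (Set.range M.s))⟮M.θ⟯ = ⊤ ∧ IsIntegral (adjoin k (Set.range M.s)) M.θ ∧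
      (minpoly (adjoin k (Set.range M.s)) M.θ).natDegree = M.f.natDegree ∧
      IsSeparable (adjoin k (Set.range M.s)) M.θ ∧ ∀ P, M.evl P = 0 ↔ M.f ∣ P := by
  obtain ⟨iK, iF, hT, hF, he⟩ := MODELAux.setup M.indep
  have hfs : FaithfulSMul (MvPolynomial (Fin d) k) K :=
    (faithfulSMul_iff_algebraMap_injective _ _).2 (by rw [he]; exact M.indep)
  have hroot : Polynomial.aeval M.θ M.f = 0 := by rw [Polynomial.aeval_def, he]; exact M.root
  have hint : IsIntegral (MvPolynomial (Fin d) k) M.θ := ⟨M.f, M.monic, hroot⟩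
  have hmin := MODELAux.minpoly_eq M.monic M.irr hroot
  have hmap := minpoly.isIntegrallyClosed_eq_field_fractions' (adjoin k (Set.range M.s)) hint
  rw [hmin] at hmap
  refine ⟨MODELAux.adjoin_eq_top (A := MvPolynomial (Fin d) k) fun y => ?_, hint.tower_top, ?_, ?_,
    fun P => ?_⟩
  · simp only [Polynomial.aeval_def, he]
    exact M.gen y
  · rw [hmap, M.monic.natDegree_map]
  · obtain ⟨a, b, hab⟩ := M.bezout
    have h0 : algebraMap (MvPolynomial (Fin d) k) (adjoin k (Set.range M.s)) M.Δ ≠ 0 := by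
      simpa using M.Δne
    have h1 := congrArg (Polynomial.map
      (algebraMap (MvPolynomial (Fin d) k) (adjoin k (Set.range M.s)))) hab
    simp only [Polynomial.map_add, Polynomial.map_mul, Polynomial.map_C,
      ← Polynomial.derivative_map, ← hmap] at h1
    refine ⟨Polynomial.C (algebraMap _ _ M.Δ)⁻¹ * a.map (algebraMap _ _),
      Polynomial.C (algebraMap _ _ M.Δ)⁻¹ * b.map (algebraMap _ _), ?_⟩
    rw [mul_assoc, mul_assoc, ← mul_add, ← h1, ← map_mul, inv_mul_cancel₀ h0, map_one]
  · rw [← hmin, ← minpoly.isIntegrallyClosed_dvd_iff hint, Polynomial.aeval_def, he]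
    rfl

theorem Model.finite {d : ℕ} (M : Model k K d) :
    FiniteDimensional (adjoin k (Set.range M.s)) K := by
  obtain ⟨h1, h2, -⟩ := MODELAux.data M
  have := adjoin.finiteDimensional h2
  rw [h1] at this
  exact topEquiv.toLinearEquiv.finiteDimensional

theorem Model.isFF {d : ℕ} (M : Model k K d) : IsFF k K d := by
  have := M.finite
  constructor
  · have : Algebra.EssFiniteType k (adjoin k (Set.range M.s)) :=
      essFiniteType_iff.2 (fg_adjoin_of_finite (Set.finite_range _))
    exact Algebra.EssFiniteType.comp k (adjoin k (Set.range M.s)) K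
  · have hal : Algebra.IsAlgebraic (Algebra.adjoin k (Set.range M.s)) K := by
      rw [← isAlgebraic_adjoin_iff_top]
      infer_instance
    have := (M.indep.isTranscendenceBasis_iff_isAlgebraic.2 hal).lift_cardinalMk_eq_trdeg
    simpa using this.symm

theorem Model.isSeparable {d : ℕ} (M : Model k K d) :
    Algebra.IsSeparable (adjoin k (Set.range M.s)) K := by
  obtain ⟨h1, -, -, h2, -⟩ := MODELAux.data M
  have := (isSeparable_adjoin_simple_iff_isSeparable _ _).2 h2
  rw [h1] at this
  exact AlgEquiv.Algebra.isSeparable topEquiv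

theorem Model.finrank_eq {d : ℕ} (M : Model k K d) :
    Module.finrank (adjoin k (Set.range M.s)) K = M.f.natDegree := by
  obtain ⟨h1, h2, h3, -⟩ := MODELAux.data M
  rw [← h3, ← adjoin.finrank h2, h1, finrank_top']

theorem Model.evl_eq_zero_iff {d : ℕ} (M : Model k K d) (P : Polynomial (MvPolynomial (Fin d) k)) :
    M.evl P = 0 ↔ M.f ∣ P := (MODELAux.data M).2.2.2.2 P

theorem Model.closure_eq_top {d : ℕ} (M : Model k K d) :
    Subfield.closure (((adjoin k (Set.range M.s)).toSubfield : Set K) ∪ {M.θ}) = ⊤ := by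
  refine top_unique fun y _ => ?_
  have : y ∈ (adjoin k (Set.range M.s))⟮M.θ⟯ := by rw [(MODELAux.data M).1]; trivial
  rw [← mem_toSubfield, adjoin_toSubfield] at this
  refine Subfield.closure_mono (Set.union_subset_union_left _ ?_) this
  rintro _ ⟨x, rfl⟩
  exact x.2

/-- every nonzero `P(s, θ)` divides a nonzero polynomial in `s` -/
theorem Model.exists_norm {d : ℕ} (M : Model k K d) {P : Polynomial (MvPolynomial (Fin d) k)}
    (hP : M.evl P ≠ 0) : ∃ (P' : Polynomial (MvPolynomial (Fin d) k)) (N : MvPolynomial (Fin d) k),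
      N ≠ 0 ∧ M.evl P * M.evl P' = MvPolynomial.aeval M.s N := by
  obtain ⟨P', N, hN, h⟩ := M.gen (M.evl P)⁻¹
  refine ⟨P', N, hN, ?_⟩
  have h1 : M.evl P' = (M.evl P)⁻¹ * MvPolynomial.aeval M.s N := h.symm
  rw [h1, mul_inv_cancel_left₀ hP]

/-- enlarging the discriminant -/
theorem Model.exists_mul {d : ℕ} (M : Model k K d) {g : MvPolynomial (Fin d) k} (hg : g ≠ 0) :
    ∃ M' : Model k K d, ∀ W π, M'.IsDiv W π ↔ M.IsDiv W π ∧ ¬ π ∣ g := by
  refine ⟨⟨M.s, M.θ, M.f, M.Δ * g, M.indep, M.monic, M.irr, M.root, M.gen, ?_,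
    mul_ne_zero M.Δne hg⟩, fun W π => ?_⟩
  · obtain ⟨a, b, hab⟩ := M.bezout
    exact ⟨Polynomial.C g * a, Polynomial.C g * b, by rw [map_mul, hab]; ring⟩
  · constructor
    · rintro ⟨h1, h2, h3⟩
      exact ⟨⟨h1, fun h => h2 (h.mul_right _), h3⟩, fun h => h2 (h.mul_left _)⟩
    · rintro ⟨⟨h1, h2, h3⟩, h4⟩
      exact ⟨h1, fun h => (h1.prime.dvd_or_dvd h).elim h2 h4, h3⟩

/-- If all partial derivatives in `s` of the primitive irreducible equation `g(s, y) = 0` vanish,
then in characteristic `0` `y` is constant, and in characteristic `p` the coefficients are `p`-th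
powers, `y ^ (1 / p)` has the same degree over `k(s)`, so lies in `k(s, y)`; induct on the degree
in `s`. -/
theorem exists_deriv_ne_zero [IsAlgClosed k] {d : ℕ} {s : Fin d → K}
    (hs : IsTranscendenceBasis k s) {y : K} (hy : Transcendental k y) :
    ∃ (y₀ : K) (j : ℕ) (g : MvPolynomial (Option (Fin d)) k) (i : Fin d),
      y = y₀ ^ ringExpChar k ^ j ∧ MvPolynomial.aeval (fun o => o.elim y₀ s) g = 0 ∧
      MvPolynomial.aeval (fun o => o.elim y₀ s) (MvPolynomial.pderiv (some i) g) ≠ 0 := by
  obtain ⟨iK, iF, hT, hF, he⟩ := MODELAux.setup hs.1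
  have hal := hs.isAlgebraic_field
  suffices H : ∀ (N : ℕ) (y : K) (g : MvPolynomial (Option (Fin d)) k), Transcendental k y →
      g ≠ 0 → g.degreeOf none ≤ (minpoly (adjoin k (Set.range s)) y).natDegree →
      MvPolynomial.aeval (fun o : Option (Fin d) => o.elim y s) g = 0 → MODELAux.nu g = N →
      ∃ (y₀ : K) (j : ℕ) (g : MvPolynomial (Option (Fin d)) k) (i : Fin d),
        y = y₀ ^ ringExpChar k ^ j ∧ MvPolynomial.aeval (fun o => o.elim y₀ s) g = 0 ∧
        MvPolynomial.aeval (fun o => o.elim y₀ s) (MvPolynomial.pderiv (some i) g) ≠ 0 by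
    obtain ⟨c, P, hc, hd, hP⟩ := MODELAux.clear (A := MvPolynomial (Fin d) k)
      (minpoly (adjoin k (Set.range s)) y)
    have hint : IsIntegral (adjoin k (Set.range s)) y :=
      (Algebra.IsAlgebraic.isAlgebraic y).isIntegral
    obtain ⟨g, rfl⟩ := (MvPolynomial.optionEquivLeft k (Fin d)).surjective P
    refine H _ y g hy ?_ (by rwa [← MvPolynomial.natDegree_optionEquivLeft]) ?_ rfl
    · rintro rfl
      rw [map_zero, Polynomial.map_zero] at hP
      exact mul_ne_zero (Polynomial.C_ne_zero.2 (by simpa using hc)) (minpoly.ne_zero hint) hP.symm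
    · rw [← MODELAux.eval_option', ← he, ← Polynomial.aeval_def,
        ← Polynomial.aeval_map_algebraMap (adjoin k (Set.range s)), hP, map_mul, minpoly.aeval,
        mul_zero]
  intro N
  induction N using Nat.strong_induction_on with
  | _ N ih =>
  intro y g hy h0 hd hr hN
  by_cases hp : ∃ i, MvPolynomial.pderiv (some i) g ≠ 0
  · obtain ⟨i, hi⟩ := hp
    by_cases h1 : MvPolynomial.aeval (fun o : Option (Fin d) => o.elim y s)
        (MvPolynomial.pderiv (some i) g) = 0
    · exact ih _ (hN ▸ MODELAux.nu_pderiv hi) y _ hy hi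
        ((MODELAux.degreeOf_pderiv g i).trans hd) h1 rfl
    · exact ⟨y, 0, g, i, by simp, hr, h1⟩
  have hp' : ∀ i, MvPolynomial.pderiv (some i) g = 0 := fun i => not_not.1 fun h => hp ⟨i, h⟩
  have hn : MODELAux.nu g ≠ 0 := fun hn => hy (MODELAux.isAlgebraic_of_nu h0 hn hr)
  obtain hc | ⟨p, hpp, hc⟩ := CharP.exists' k
  · refine absurd ((Finset.sup_eq_bot_iff _ _).2 fun m hm => ?_) hn
    exact Finset.sum_eq_zero fun i _ => Nat.cast_eq_zero.1 (MODELAux.cast_eq_zero (hp' i) hm)
  have hq : ringExpChar k = p := ringExpChar.eq k p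
  have hK : CharP K p := charP_of_injective_algebraMap (algebraMap k K).injective p
  obtain ⟨g', hg0, hg1, hg2, hg3⟩ := MODELAux.exists_root (K := K) (p := p) (g := g)
    (fun m hm i => (CharP.cast_eq_zero_iff k p _).1 (MODELAux.cast_eq_zero (hp' i) hm)) hn
  have hg4 := hg3 (frobenius K p) (fun _ => rfl) y s
  obtain ⟨z, hz⟩ := MODELAux.mem_range_of_twist (F := adjoin k (Set.range s)) (frobenius K p)
    (y := y) (h := (MvPolynomial.optionEquivLeft k (Fin d) g').map (algebraMap _ _))
    ((Polynomial.map_ne_zero_iff (IsFractionRing.injective _ _)).2 (by simpa using hg0))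
    (Polynomial.natDegree_map_le.trans (by
      rw [MvPolynomial.natDegree_optionEquivLeft]; exact hg1.trans hd))
    (by rw [Polynomial.eval₂_map, RingHom.comp_assoc, ← IsScalarTower.algebraMap_eq, he,
      MODELAux.eval_option, hg4, hr])
    (fun E hE => pow_mem hE p)
  have hz' : z ^ p = y := hz
  have hzt : Transcendental k z := fun h => hy (hz' ▸ h.pow p)
  have hzi : IsIntegral (adjoin k (Set.range s)) z :=
    (Algebra.IsAlgebraic.isAlgebraic z).isIntegral
  have hyi : IsIntegral (adjoin k (Set.range s)) y :=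
    (Algebra.IsAlgebraic.isAlgebraic y).isIntegral
  have hdeg : (minpoly (adjoin k (Set.range s)) y).natDegree ≤
      (minpoly (adjoin k (Set.range s)) z).natDegree := by
    have := adjoin.finiteDimensional hzi
    rw [← adjoin.finrank hzi, ← adjoin.finrank hyi]
    exact finrank_le_of_le_right
      (adjoin_simple_le_iff.2 (hz' ▸ pow_mem (mem_adjoin_simple_self _ z) p))
  have hr' : MvPolynomial.aeval (fun o : Option (Fin d) => o.elim z s) g' = 0 := by
    apply (frobenius K p).injective
    rw [MvPolynomial.map_aeval, map_zero, ← hr, ← hg4]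
    congr 2
    funext o
    cases o
    · exact hz
    · rfl
  obtain ⟨y₀, j, g₀, i, h1, h2, h3⟩ :=
    ih _ (hN ▸ hg2) z g' hzt hg0 (hg1.trans (hd.trans hdeg)) hr' rfl
  exact ⟨y₀, j + 1, g₀, i, by rw [← hz', h1, pow_succ, pow_mul, hq], h2, h3⟩

end Vale.Agent.P019
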