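import Vale.Agent.P019.ValComp

/-! P019: extension of places into an algebraically closed field. -/

open IsLocalRing

namespace Vale.Agent.P019

namespace PLAux

variable {F Ω : Type*} [Field F] [Field Ω]

/-- `O` contains `A` and its center on `A` is the kernel of `χ` -/
def Cen (A : Subring F) (χ : A →+* Ω) (O : ValuationSubring F) : Prop :=
  (∀ a : A, (a : F) ∈ O) ∧ ∀ a : A, χ a = 0 ↔ (a : F) = 0 ∨ (a : F)⁻¹ ∉ O

theorem exists_cen (A : Subring F) (χ : A →+* Ω) : ∃ O, Cen A χ O := by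
  have := RingHom.ker_isPrime χ
  obtain ⟨V, h1, h2⟩ := (LocalSubring.ofPrime A (RingHom.ker χ)).exists_le_valuationSubring
  have h3 : ∀ a : A, (a : F) ∈ V := fun a => h1 (LocalSubring.le_ofPrime A _ a.2)
  refine ⟨V, h3, fun a => ?_⟩
  rw [← V.mem_nonunits_iff_or, ← RingHom.mem_ker,
    ← IsLocalization.AtPrime.to_map_mem_maximal_iff
      (LocalSubring.ofPrime A (RingHom.ker χ)).toSubring (RingHom.ker χ) a,
    V.coe_mem_nonunits_iff (a := ⟨a, h3 a⟩), mem_maximalIdeal, mem_maximalIdeal,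
    mem_nonunits_iff, mem_nonunits_iff, ← isUnit_map_iff (Subring.inclusion h1)]
  rfl

theorem exists_min (A : Subring F) (χ : A →+* Ω) : ∃ O, Minimal (Cen A χ) O := by
  obtain ⟨V, hV⟩ := exists_cen A χ
  suffices H : ∀ c : Set (ValuationSubring F), (∀ O ∈ c, Cen A χ O) → IsChain (· ≤ ·) c →
      ∀ y ∈ c, ∃ lb, Cen A χ lb ∧ ∀ z ∈ c, lb ≤ z by
    obtain ⟨O, -, hO⟩ := @zorn_le_nonempty₀ (ValuationSubring F)ᵒᵈ _ {O | Cen A χ O}
      (fun c hc hch y hy => H c hc hch.symm y hy) V hV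
    exact ⟨O, hO⟩
  intro c hc hch y hy
  refine ⟨⟨⨅ O ∈ c, O.toSubring, fun x => ?_⟩, ⟨fun a => ?_, fun a => ?_⟩, fun O hO x hx => ?_⟩
  · simp only [Subring.mem_carrier, Subring.mem_iInf]
    by_contra! h
    obtain ⟨⟨O, hO, h1⟩, O', hO', h2⟩ := h
    rcases hch.total hO hO' with h | h
    · exact h2 (h ((O.mem_or_inv_mem x).resolve_left h1))
    · exact h1 (h ((O'.mem_or_inv_mem x).resolve_right h2))
  · exact Subring.mem_iInf.2 fun O => Subring.mem_iInf.2 fun hO => (hc O hO).1 a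
  · constructor
    · intro h
      refine (((hc y hy).2 a).1 h).imp_right fun h1 h2 => h1 ?_
      exact Subring.mem_iInf.1 (Subring.mem_iInf.1 h2 y) hy
    · intro h
      by_contra h0
      rcases h with h | h
      · exact h0 (((hc y hy).2 a).2 (Or.inl h))
      · refine h (Subring.mem_iInf.2 fun O => Subring.mem_iInf.2 fun hO => ?_)
        by_contra h1
        exact h0 (((hc O hO).2 a).2 (Or.inr h1))
  · exact Subring.mem_iInf.1 (Subring.mem_iInf.1 hx O) hO

theorem exists_val {R K : Type*} [CommRing R] [IsDomain R] [Field K] [Algebra R K] {x : K}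
    (hx : ¬ IsAlgebraic R x) :
    ∃ P : ValuationSubring K, (∀ y, IsAlgebraic R y → y ∈ P) ∧ x ∉ P := by
  have : IsIntegrallyClosedIn (Subalgebra.algebraicClosure R K) K :=
    Subring.isIntegrallyClosedIn_iff.2 fun y hy => hy.isAlgebraic.restrictScalars R
  have : IsIntegrallyClosedIn (Subalgebra.algebraicClosure R K).toSubring K := this
  exact Subring.exists_le_valuationSubring_of_isIntegrallyClosedIn
    (R := (Subalgebra.algebraicClosure R K).toSubring) hx

theorem finAlg_of_integral [Algebra.IsIntegral ℤ Ω] : FinAlg Ω := by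
  intro a ha
  obtain ⟨p, hp0, hp⟩ : ∃ p : ℤ, p ≠ 0 ∧ algebraMap ℤ Ω p = 0 := by
    by_contra! h
    refine Int.not_isField (isField_of_isIntegral_of_isField (R := ℤ) (S := Ω)
      ((injective_iff_map_eq_zero _).2 fun p hp => ?_) (Field.toIsField Ω))
    by_contra h0
    exact h p h0 hp
  have h1 : Module.Finite ℤ (Algebra.adjoin ℤ {a}) :=
    Algebra.finite_adjoin_simple_of_isIntegral (Algebra.IsIntegral.isIntegral a)
  have h2 : Finite (Algebra.adjoin ℤ {a}) := Module.finite_of_fg_torsion _ fun x =>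
    ⟨⟨p, mem_nonZeroDivisors_of_ne_zero hp0⟩, Subtype.ext (by
      change p • (x : Ω) = 0
      rw [Algebra.smul_def, hp, zero_mul])⟩
  obtain ⟨i, j, hij, e⟩ := Finite.exists_ne_map_eq_of_infinite
    fun i : ℕ => (⟨a, Algebra.self_mem_adjoin_singleton ℤ a⟩ : Algebra.adjoin ℤ {a}) ^ i
  have e' : a ^ i = a ^ j := by simpa using congrArg Subtype.val e
  wlog h : i < j generalizing i j
  · exact this j i hij.symm e.symm e'.symm (by omega)
  refine ⟨j - i, by omega, ?_⟩
  rw [pow_sub₀ a ha h.le, e', mul_inv_cancel₀ (pow_ne_zero _ ha)]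

theorem jacobson_int : IsJacobsonRing ℤ := by
  refine isJacobsonRing_iff_prime_eq.2 fun P hP => ?_
  by_cases h : P = ⊥
  · subst h
    refine eq_bot_iff.2 fun x hx => ?_
    rcases Int.isUnit_iff.1 (Ideal.mem_jacobson_bot.1 hx x) with h | h
    · exact Ideal.mem_bot.2 (mul_self_eq_zero.1 (by linarith))
    · nlinarith [mul_self_nonneg x]
  · have := hP.isMaximal h
    exact Ideal.jacobson_eq_self_of_isMaximal

end PLAux

open PLAux

/-- Atiyah-Macdonald 5.21. Either Zorn on pairs (subring, homomorphism), or: take a valuation ring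
dominating the localization at `ker χ`, pass to a minimal one (Zorn; an intersection of a chain
of valuation rings is one), whose residue field is algebraic over the image of `A` (else compose
with a valuation of the residue field, `comp`), and use `IsAlgClosed.lift`. -/
theorem exists_place {F Ω : Type*} [Field F] [Field Ω] [IsAlgClosed Ω] (A : Subring F)
    (χ : A →+* Ω) : ∃ (O : ValuationSubring F) (h : ∀ a : A, (a : F) ∈ O) (χ' : O →+* Ω),
      (∀ a : A, χ' ⟨a, h a⟩ = χ a) ∧ ∀ x : O, χ' x = 0 ↔ O.valuation (x : F) < 1 := by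
  obtain ⟨O, ⟨h1, h2⟩, hm⟩ := exists_min A χ
  have := RingHom.ker_isPrime χ
  have h3 : ∀ a : A, χ a = 0 ↔ res O a = 0 := fun a => by
    rw [h2, res_eq_zero_iff (h1 a), ← O.mem_nonunits_iff_or, O.mem_nonunits_iff]
  let ψ : A →+* ResidueField O := (residue O).comp (A.subtype.codRestrict O h1)
  have hψ : ∀ a : A, ψ a = res O a := fun a => (res_of_mem (h1 a)).symm
  have hk : RingHom.ker χ = RingHom.ker ψ := by
    ext a
    rw [RingHom.mem_ker, RingHom.mem_ker, hψ, h3]
  let ψ' : A ⧸ RingHom.ker χ →+* ResidueField O :=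
    Ideal.Quotient.lift _ ψ fun a ha => RingHom.mem_ker.1 (hk ▸ ha)
  let _ := ψ'.toAlgebra
  let _ := (RingHom.kerLift χ).toAlgebra
  have i1 : Module.IsTorsionFree (A ⧸ RingHom.ker χ) (ResidueField O) :=
    Module.isTorsionFree_iff_algebraMap_injective.2
      (RingHom.lift_injective_of_ker_le_ideal _ _ hk.ge)
  have i2 : Module.IsTorsionFree (A ⧸ RingHom.ker χ) Ω :=
    Module.isTorsionFree_iff_algebraMap_injective.2 (RingHom.kerLift_injective χ)
  have ha : ∀ a : A, IsAlgebraic (A ⧸ RingHom.ker χ) (res O a) := fun a =>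
    hψ a ▸ isAlgebraic_algebraMap (Ideal.Quotient.mk _ a)
  have i3 : Algebra.IsAlgebraic (A ⧸ RingHom.ker χ) (ResidueField O) := ⟨fun r => by
    by_contra hr
    obtain ⟨P, p1, p2⟩ := exists_val hr
    obtain ⟨x, hx, rfl⟩ := res_surj r
    refine p2 (hm (y := comp O P) ⟨fun a => ⟨h1 a, p1 _ (ha a)⟩, fun a => ?_⟩
      (fun _ h => h.1) hx).2
    refine ⟨fun h => ((h2 a).1 h).imp_right fun h4 h5 => h4 h5.1, fun h => ?_⟩
    by_contra h0
    have hv := val_eq_one_of_res (mt (h3 a).2 h0)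
    rcases h with h | h
    · exact h0 ((h2 a).2 (Or.inl h))
    · refine h ⟨mem_of_val_eq_one (by rw [map_inv₀, hv, inv_one]), ?_⟩
      rw [res_inv hv]
      exact p1 _ (ha a).inv⟩
  let φ : ResidueField O →ₐ[A ⧸ RingHom.ker χ] Ω := IsAlgClosed.lift
  refine ⟨O, h1, φ.toRingHom.comp (residue O), fun a => φ.commutes (Ideal.Quotient.mk _ a),
    fun x => ?_⟩
  rw [RingHom.comp_apply, map_eq_zero, ← res_coe, res_eq_zero_iff x.2]

/-- a place with values in the algebraically closed base field -/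
theorem exists_rational_place (κ : Type*) {F : Type*} [Field κ] [Field F] [Algebra κ F]
    [IsAlgClosed κ] : ∃ O : ValuationSubring F, Triv κ O ∧
      ∀ x ∈ O, ∃ a : κ, O.valuation (x - algebraMap κ F a) < 1 := by
  let e : κ ≃+* (algebraMap κ F).range := RingEquiv.ofBijective (algebraMap κ F).rangeRestrict
    ⟨RingHom.injective _, RingHom.rangeRestrict_surjective _⟩
  obtain ⟨O, h, χ, h1, h2⟩ := exists_place (algebraMap κ F).range e.symm.toRingHom
  have h3 : Triv κ O := fun a => h (e a)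
  refine ⟨O, h3, fun x hx => ⟨χ ⟨x, hx⟩, ?_⟩⟩
  refine (h2 (⟨x, hx⟩ - ⟨_, h (e (χ ⟨x, hx⟩))⟩)).1 ?_
  rw [map_sub, h1, sub_eq_zero]
  exact (e.symm_apply_apply _).symm

/-- reduction to positive characteristic: `ℤ[S, 1/ℓ]` has a finite residue field
(`finite_of_finite_type_of_isJacobsonRing`); apply `exists_place` with its algebraic closure. -/
theorem exists_finAlg_valuation {l : Type*} [Field l] {n : ℕ} (hn : (n : l) ≠ 0) (S : Finset l) :
    ∃ μ : ValuationSubring l, (∀ s ∈ S, s ∈ μ) ∧ μ.valuation (n : l) = 1 ∧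
      FinAlg (ResidueField μ) := by
  classical
  let B : Subalgebra ℤ l := Algebra.adjoin ℤ (insert (n : l)⁻¹ S : Finset l)
  have hB : Algebra.FiniteType ℤ B :=
    (Subalgebra.fg_iff_finiteType B).1 (Subalgebra.fg_adjoin_finset _)
  obtain ⟨m, hm⟩ := Ideal.exists_maximal B
  let _ := Ideal.Quotient.field m
  have := jacobson_int
  have h1 : Module.Finite ℤ (B ⧸ m) := finite_of_finite_type_of_isJacobsonRing ℤ (B ⧸ m)
  have h2 : Algebra.IsIntegral ℤ (AlgebraicClosure (B ⧸ m)) := Algebra.IsIntegral.trans (B ⧸ m)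
  have h3 : FinAlg (AlgebraicClosure (B ⧸ m)) :=
    @finAlg_of_integral _ _ (by convert h2; exact Subsingleton.elim _ _)
  obtain ⟨O, h, χ, -, h4⟩ := exists_place B.toSubring
    ((algebraMap (B ⧸ m) (AlgebraicClosure (B ⧸ m))).comp (Ideal.Quotient.mk m))
  have h5 : ∀ s ∈ insert (n : l)⁻¹ S, s ∈ O := fun s hs => h ⟨s, Algebra.subset_adjoin hs⟩
  refine ⟨O, fun s hs => h5 s (Finset.mem_insert_of_mem hs), ?_, fun r hr => ?_⟩
  · refine le_antisymm ((O.valuation_le_one_iff _).2 (natCast_mem O n)) ?_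
    have h6 := (O.valuation_le_one_iff _).2 (h5 _ (Finset.mem_insert_self _ _))
    rwa [map_inv₀, inv_le_one₀ (zero_lt_iff.2 ((map_ne_zero _).2 hn))] at h6
  · obtain ⟨x, rfl⟩ := residue_surjective r
    have h6 : ∀ y : O, χ y = 0 ↔ residue O y = 0 := fun y => by
      rw [h4, ← res_coe, res_eq_zero_iff y.2]
    obtain ⟨k, hk, e⟩ := h3 (χ x) (mt (h6 x).1 hr)
    refine ⟨k, hk, ?_⟩
    have h7 := (h6 (x ^ k - 1)).1 (by rw [map_sub, map_pow, e, map_one, sub_self])
    rwa [map_sub, map_pow, map_one, sub_eq_zero] at h7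

theorem exists_nontrivial_valuation {κ : Type*} [Field κ] {n : ℕ} (hn : (n : κ) ≠ 0)
    (h : ¬ FinAlg κ) : ∃ ν : ValuationSubring κ, ν ≠ ⊤ ∧ ν.valuation (n : κ) = 1 := by
  obtain ⟨μ, -, h1, h2⟩ := exists_finAlg_valuation hn ∅
  refine ⟨μ, fun e => h fun a ha => ?_, h1⟩
  have h3 : ∀ x, x ∈ μ := fun x => e ▸ ValuationSubring.mem_top x
  have h4 : ∀ x, res μ x = 0 → x = 0 := fun x hx => by
    rw [res_eq_zero_iff (h3 x), ← μ.mem_nonunits_iff, μ.mem_nonunits_iff_or] at hx
    exact hx.resolve_right (not_not.2 (h3 _))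
  obtain ⟨k, hk, e⟩ := h2 (res μ a) (mt (h4 a) ha)
  refine ⟨k, hk, sub_eq_zero.1 (h4 _ ?_)⟩
  rw [res_sub (h3 _) (h3 _), res_pow (h3 _), e, res_one, sub_self]

end Vale.Agent.P019
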