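import Vale.Agent.P019.Curve.Approx

/-! P019, curves over an arbitrary algebraically closed field: interface. -/

open IntermediateField

namespace Vale.Agent.P019

variable {κ C : Type*} [Field κ] [Field C] [Algebra κ C] [IsAlgClosed κ]

/-- places are discrete valuation rings -/
theorem Place.isDVR (h : IsCurve κ C) (z : Place κ C) : IsDVR z.O := place_isDVR h z

/-- places have residue field `κ` -/
theorem Place.exists_val (h : IsCurve κ C) (z : Place κ C) {x : C} (hx : x ∈ z.O) :
    ∃ a : κ, z.O.valuation (x - algebraMap κ C a) < 1 := place_exists_val h z hx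

/-- finite support -/
theorem finite_support (h : IsCurve κ C) {x : C} (hx : x ≠ 0) :
    {z : Place κ C | z.O.valuation x ≠ 1}.Finite := by
  refine (ord_support_finite h x).subset fun z hz => ?_
  rw [Function.mem_support]
  exact fun h0 => hz (((place_isDVR h z).isOrd.val_eq_one_iff hx).2 h0)

/-- a nonconstant function has a zero -/
theorem exists_zero (h : IsCurve κ C) {t : C} (ht : Transcendental κ t) :
    ∃ z : Place κ C, z.O.valuation t < 1 := by
  have _ := h
  exact place_exists_zero ht

theorem finite_zeros (h : IsCurve κ C) {t : C} (ht : t ≠ 0) :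
    {z : Place κ C | z.O.valuation t < 1}.Finite :=
  (finite_support h ht).subset fun _ hz => ne_of_lt hz

/-- at most `deg t` zeros -/
theorem ncard_zeros_le (h : IsCurve κ C) {t : C} (ht : Transcendental κ t) :
    {z : Place κ C | z.O.valuation t < 1}.ncard ≤ Module.finrank κ⟮t⟯ C := by
  have ht0 : t ≠ 0 := by
    rintro rfl
    exact ht isAlgebraic_zero
  have hfin := finite_zeros h ht0
  have hpos : ∀ z ∈ hfin.toFinset, 0 < ord z.O t := fun z hz =>
    ((place_isDVR h z).isOrd.val_lt_one_iff ht0).1 (hfin.mem_toFinset.1 hz)
  have h1 := sum_ord_zeros_le h ht hfin.toFinset hpos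
  have h2 : (hfin.toFinset.card : ℤ) ≤ ∑ z ∈ hfin.toFinset, ord z.O t := by
    have := Finset.card_nsmul_le_sum hfin.toFinset (fun z => ord z.O t) 1 fun z hz => hpos z hz
    simpa using this
  rw [Set.ncard_eq_toFinset_card _ hfin]
  exact_mod_cast h2.trans h1

end Vale.Agent.P019
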