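import Vale.Agent.P019.UR
import Vale.Agent.P019.MODEL
import Vale.Agent.P019.PL
import Vale.Agent.P019.Z0

/-! P019: points of a plane curve. -/

open IntermediateField Polynomial

namespace Vale.Agent.P019

variable {κ C : Type*} [Field κ] [Field C] [Algebra κ C] [IsAlgClosed κ] {σ θ : C} {f : κ[X][X]}

namespace CVAux

section basic

variable {k F : Type*} [Field k] [Field F] [Algebra k F] {O O' : ValuationSubring F}

theorem mem_of_lt {x : F} (h : O.valuation x < 1) : x ∈ O := (O.valuation_le_one_iff x).1 h.le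

theorem mem_of_sub (ht : Triv k O) {x : F} {a : k}
    (h : O.valuation (x - algebraMap k F a) < 1) : x ∈ O := by
  have := O.add_mem _ _ (mem_of_lt h) (ht a)
  rwa [sub_add_cancel] at this

theorem const_eq_zero (ht : Triv k O) {a : k} (h : O.valuation (algebraMap k F a) < 1) :
    a = 0 := by
  by_contra h0
  exact h.ne (dvr_val_const ht h0)

theorem val_unique (ht : Triv k O) {x : F} {a b : k}
    (ha : O.valuation (x - algebraMap k F a) < 1) (hb : O.valuation (x - algebraMap k F b) < 1) :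
    a = b := by
  have h := O.valuation.map_sub_lt hb ha
  rw [sub_sub_sub_cancel_left, ← map_sub] at h
  exact sub_eq_zero.1 (const_eq_zero ht h)

theorem val_add {x y : F} {a b : k}
    (ha : O.valuation (x - algebraMap k F a) < 1) (hb : O.valuation (y - algebraMap k F b) < 1) :
    O.valuation (x + y - algebraMap k F (a + b)) < 1 := by
  have h := O.valuation.map_add_lt ha hb
  rwa [show x - algebraMap k F a + (y - algebraMap k F b) = x + y - algebraMap k F (a + b) by
    rw [map_add]; ring] at h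

theorem val_mul_lt {x y : F} (hx : O.valuation x < 1) (hy : y ∈ O) : O.valuation (x * y) < 1 := by
  rw [map_mul]
  exact mul_lt_one_of_lt_of_le hx ((O.valuation_le_one_iff y).2 hy)

theorem val_mul (ht : Triv k O) {x y : F} {a b : k}
    (ha : O.valuation (x - algebraMap k F a) < 1) (hb : O.valuation (y - algebraMap k F b) < 1) :
    O.valuation (x * y - algebraMap k F (a * b)) < 1 := by
  have h := O.valuation.map_add_lt (val_mul_lt ha (mem_of_sub ht hb)) (val_mul_lt hb (ht a))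
  rwa [show (x - algebraMap k F a) * y + (y - algebraMap k F b) * algebraMap k F a =
    x * y - algebraMap k F (a * b) by rw [map_mul]; ring] at h

theorem val_eq_one_iff (ht : Triv k O) {x : F} {a : k}
    (ha : O.valuation (x - algebraMap k F a) < 1) : O.valuation x = 1 ↔ a ≠ 0 := by
  constructor
  · rintro h rfl
    rw [map_zero, sub_zero] at ha
    exact ha.ne h
  · intro h
    have h1 := dvr_val_const ht h
    have := O.valuation.map_eq_of_sub_lt (h1 ▸ ha)
    rw [this, h1]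

theorem val_inv (ht : Triv k O) {x : F} {a : k}
    (ha : O.valuation (x - algebraMap k F a) < 1) (h0 : a ≠ 0) :
    O.valuation (x⁻¹ - algebraMap k F a⁻¹) < 1 := by
  have h1 := (val_eq_one_iff ht ha).2 h0
  have hx : x ≠ 0 := by rintro rfl; simp at h1
  have ha0 : algebraMap k F a ≠ 0 := by simpa using h0
  have e : x⁻¹ - algebraMap k F a⁻¹ = -(x - algebraMap k F a) * x⁻¹ * algebraMap k F a⁻¹ := by
    rw [map_inv₀]; field_simp; ring
  rw [e]
  refine val_mul_lt (val_mul_lt (by rwa [Valuation.map_neg]) ?_) (ht _)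
  exact mem_of_val_eq_one (by rw [map_inv₀, h1, inv_one])

theorem val_aeval (ht : Triv k O) {x : F} {a : k}
    (ha : O.valuation (x - algebraMap k F a) < 1) (p : k[X]) :
    O.valuation (aeval x p - algebraMap k F (p.eval a)) < 1 := by
  obtain ⟨q, hq⟩ := X_sub_C_dvd_sub_C_eval (p := p) (a := a)
  have h := congrArg (aeval x) hq
  simp only [map_sub, map_mul, aeval_X, aeval_C] at h
  rw [h]
  exact val_mul_lt ha (dvr_aeval_mem ht (mem_of_sub ht ha) q)

theorem ev_eq (ht : Triv k O) {x : F} {a : k}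
    (ha : O.valuation (x - algebraMap k F a) < 1) : ev k O x = a := by
  have h : ∃ a : k, O.valuation (x - algebraMap k F a) < 1 := ⟨a, ha⟩
  rw [ev, dif_pos h]
  exact val_unique ht h.choose_spec ha

theorem adjoin_sub (x : F) (a : k) : k⟮x - algebraMap k F a⟯ = k⟮x⟯ := by
  refine le_antisymm (adjoin_simple_le_iff.2 ?_) (adjoin_simple_le_iff.2 ?_)
  · exact sub_mem (mem_adjoin_simple_self k x) (IntermediateField.algebraMap_mem _ a)
  · have := add_mem (mem_adjoin_simple_self k (x - algebraMap k F a))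
      (IntermediateField.algebraMap_mem _ a)
    rwa [sub_add_cancel] at this

theorem adjoin_inv (x : F) : k⟮x⁻¹⟯ = k⟮x⟯ := by
  refine le_antisymm (adjoin_simple_le_iff.2 ?_) (adjoin_simple_le_iff.2 ?_)
  · exact inv_mem (mem_adjoin_simple_self k x)
  · have := inv_mem (mem_adjoin_simple_self k x⁻¹)
    rwa [inv_inv] at this

theorem trans_sub {x : F} (hx : Transcendental k x) (a : k) :
    Transcendental k (x - algebraMap k F a) := fun h => by
  have := h.add (isAlgebraic_algebraMap a)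
  rw [sub_add_cancel] at this
  exact hx this

theorem trans_ne {x : F} (hx : Transcendental k x) : x ≠ 0 := by
  rintro rfl
  exact hx isAlgebraic_zero

theorem aeval_ne {x : F} (hx : Transcendental k x) {p : k[X]} (hp : p ≠ 0) : aeval x p ≠ 0 :=
  fun h => hx ⟨p, hp, h⟩

theorem mem_iff_of_val {π x : F} (h0 : π ≠ 0) (h1 : O.valuation π < 1) {n : ℤ}
    (h : O.valuation x = O.valuation π ^ n) : x ∈ O ↔ 0 ≤ n := by
  rw [← O.valuation_le_one_iff, h]
  exact zpow_le_one_iff_right_of_lt_one₀ (zero_lt_iff.2 (by simpa using h0)) h1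

theorem ord_of_val {π : F} (h0 : π ≠ 0) (h1 : O.valuation π < 1)
    (h : ∀ x, x ≠ 0 → ∃ n : ℤ, O.valuation x = O.valuation π ^ n) : IsDVR O ∧ ord O π = 1 := by
  classical
  choose n hn using h
  have hv : O.valuation π ≠ 0 := by simpa using h0
  have hinj := (zpow_right_strictAnti₀ (zero_lt_iff.2 hv) h1).injective
  let o : F → ℤ := fun x => if hx : x = 0 then 0 else n x hx
  have ho : ∀ x, x ≠ 0 → O.valuation x = O.valuation π ^ o x := fun x hx => by
    simp only [o, dif_neg hx]; exact hn x hx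
  have hπ : o π = 1 := hinj ((ho π h0).symm.trans (zpow_one _).symm)
  have hO : IsOrd O o := by
    refine ⟨by simp [o], fun x y hx hy => hinj ?_, fun x hx => mem_iff_of_val h0 h1 (ho x hx),
      π, h0, hπ⟩
    change _ ^ _ = _ ^ _
    rw [← ho _ (mul_ne_zero hx hy), zpow_add₀ hv, ← ho x hx, ← ho y hy, map_mul]
  exact ⟨⟨o, hO⟩, by rw [hO.ord_eq, hπ]⟩

/-- elements with the same value at two valuation rings -/
def both (ht : Triv k O) (ht' : Triv k O') : Subalgebra k F where
  carrier := {x | ∃ a : k, O.valuation (x - algebraMap k F a) < 1 ∧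
    O'.valuation (x - algebraMap k F a) < 1}
  mul_mem' := fun ⟨a, h1, h2⟩ ⟨b, h3, h4⟩ => ⟨a * b, val_mul ht h1 h3, val_mul ht' h2 h4⟩
  add_mem' := fun ⟨a, h1, h2⟩ ⟨b, h3, h4⟩ => ⟨a + b, val_add h1 h3, val_add h2 h4⟩
  algebraMap_mem' := fun a => ⟨a, by simp, by simp⟩

theorem both_val {ht : Triv k O} {ht' : Triv k O'} {x : F} (hx : x ∈ both ht ht')
    (h : O.valuation x = 1) : O'.valuation x = 1 := by
  obtain ⟨a, h1, h2⟩ := hx
  exact (val_eq_one_iff ht' h2).2 ((val_eq_one_iff ht h1).1 h)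

theorem both_inv {ht : Triv k O} {ht' : Triv k O'} {x : F} (hx : x ∈ both ht ht')
    (h : O.valuation x = 1) : x⁻¹ ∈ both ht ht' := by
  obtain ⟨a, h1, h2⟩ := hx
  have h0 := (val_eq_one_iff ht h1).1 h
  exact ⟨a⁻¹, val_inv ht h1 h0, val_inv ht' h2 h0⟩

theorem both_mem {ht : Triv k O} {ht' : Triv k O'} {x : F} (hx : x ∈ both ht ht') : x ∈ O := by
  obtain ⟨a, h1, -⟩ := hx
  exact mem_of_sub ht h1

theorem both_poly {ht : Triv k O} {ht' : Triv k O'} {s : F} {a : k}
    (h1 : O.valuation (s - algebraMap k F a) < 1) (h2 : O'.valuation (s - algebraMap k F a) < 1)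
    {p : k[X]} (hp : p ≠ 0) : ∃ (i : ℕ) (u : F), u ∈ both ht ht' ∧ O.valuation u = 1 ∧
      aeval s p = (s - algebraMap k F a) ^ i * u := by
  obtain ⟨q, hq, hd⟩ := exists_eq_pow_rootMultiplicity_mul_and_not_dvd p hp a
  refine ⟨p.rootMultiplicity a, aeval s q, ⟨q.eval a, val_aeval ht h1 q, val_aeval ht' h2 q⟩,
    (val_eq_one_iff ht (val_aeval ht h1 q)).2 fun h => hd (dvd_iff_isRoot.2 h), ?_⟩
  conv_lhs => rw [hq]
  simp

theorem both_adjoin {ht : Triv k O} {ht' : Triv k O'} {s : F} {a : k}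
    (h0 : s - algebraMap k F a ≠ 0)
    (h1 : O.valuation (s - algebraMap k F a) < 1) (h2 : O'.valuation (s - algebraMap k F a) < 1)
    {c : F} (hc : c ∈ k⟮s⟯) (hO : c ∈ O) : c ∈ both ht ht' := by
  obtain ⟨p, q, rfl⟩ := (mem_adjoin_simple_iff k c).1 hc
  by_cases hp : p = 0
  · simp [hp]
  by_cases hq : q = 0
  · simp [hq]
  obtain ⟨i, u, hu, hu1, e1⟩ := both_poly (ht := ht) (ht' := ht') h1 h2 hp
  obtain ⟨j, w, hw, hw1, e2⟩ := both_poly (ht := ht) (ht' := ht') h1 h2 hq
  have e : aeval s p / aeval s q = (s - algebraMap k F a) ^ ((i : ℤ) - j) * (u * w⁻¹) := by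
    rw [e1, e2, zpow_sub₀ h0, zpow_natCast, zpow_natCast, mul_div_mul_comm, div_eq_mul_inv u]
  have hv : O.valuation (aeval s p / aeval s q) =
      O.valuation (s - algebraMap k F a) ^ ((i : ℤ) - j) := by
    rw [e, map_mul, map_mul, map_inv₀, hu1, hw1, map_zpow₀]; simp
  have hn := (mem_iff_of_val h0 h1 hv).1 hO
  rw [e, ← Int.toNat_of_nonneg hn, zpow_natCast]
  have hπ : s - algebraMap k F a ∈ both ht ht' := ⟨0, by simpa using h1, by simpa using h2⟩
  exact mul_mem (pow_mem hπ _) (mul_mem hu (both_inv hw hw1))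

theorem eval_mem_sub (R : Subalgebra k F) {P : F[X]} {θ : F} (hP : ∀ i, P.coeff i ∈ R)
    (hθ : θ ∈ R) : P.eval θ ∈ R := by
  rw [eval_eq_sum_range]
  exact sum_mem fun i _ => mul_mem (hP i) (pow_mem hθ i)

end basic

end CVAux

open CVAux

/-- `exists_unit_repr` with `A = κ(σ)`, `π = σ - a` -/
theorem ord_eq_one_of_smooth (hσ : Transcendental κ σ) (hf : f.Monic)
    (hθ : f.eval₂ (aeval σ : κ[X] →ₐ[κ] C).toRingHom θ = 0) (htop : adjoin κ {σ, θ} = ⊤)
    (z : Place κ C) {a : κ} (ha : z.O.valuation (σ - algebraMap κ C a) < 1)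
    (hd : z.O.valuation (f.derivative.eval₂ (aeval σ : κ[X] →ₐ[κ] C).toRingHom θ) = 1) :
    IsDVR z.O ∧ ord z.O (σ - algebraMap κ C a) = 1 := by
  have h0 := trans_ne (trans_sub hσ a)
  have hσO := mem_of_sub z.triv ha
  refine ord_of_val h0 ha fun x hx => ?_
  have hcl : x ∈ Subfield.closure (((κ⟮σ⟯).toSubfield : Set C) ∪ {θ}) := by
    have h1 : x ∈ adjoin κ {σ, θ} := htop ▸ IntermediateField.mem_top
    refine Subfield.closure_mono ?_ h1
    rintro y (⟨c, rfl⟩ | rfl | rfl)
    · exact Or.inl (IntermediateField.algebraMap_mem κ⟮σ⟯ c)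
    · exact Or.inl (mem_adjoin_simple_self κ y)
    · exact Or.inr rfl
  obtain ⟨n, P, Q, -, -, hP, hQ, e⟩ := exists_unit_repr z.O (κ⟮σ⟯).toSubfield
    (π := σ - algebraMap κ C a) (θ := θ) (g := f.map (aeval σ : κ[X] →ₐ[κ] C).toRingHom)
    (sub_mem (mem_adjoin_simple_self κ σ) (IntermediateField.algebraMap_mem κ⟮σ⟯ a)) h0 ha
    (fun y hy hy0 => dvr_val_adjoin z.triv ha (by rw [adjoin_sub]; exact hy) hy0) (hf.map _)
    (fun i => by
      rw [coeff_map]
      exact ⟨algebra_adjoin_le_adjoin κ {σ} (aeval_mem_adjoin_singleton κ σ),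
        dvr_aeval_mem z.triv hσO _⟩)
    (by rw [eval_map]; exact hθ) (by rw [derivative_map, eval_map]; exact hd) hcl hx
  refine ⟨n, ?_⟩
  rw [e, map_div₀, map_mul, hP, hQ, map_zpow₀]
  simp

/-- `κ[σ, θ] ≅ κ[X][Y] / (f)` maps to `κ` by `(a, t)`; use `exists_place` -/
theorem exists_place_at (hσ : Transcendental κ σ) (hf : f.Monic) (hirr : Irreducible f)
    (hθ : f.eval₂ (aeval σ : κ[X] →ₐ[κ] C).toRingHom θ = 0) {a t : κ} (h : f.evalEval a t = 0) :
    ∃ z : Place κ C, z.O.valuation (σ - algebraMap κ C a) < 1 ∧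
      z.O.valuation (θ - algebraMap κ C t) < 1 := by
  let φ : κ[X] →+* C := (aeval σ : κ[X] →ₐ[κ] C).toRingHom
  let Φ : κ[X][X] →+* C := eval₂RingHom φ θ
  have hker : RingHom.ker Φ.rangeRestrict ≤ RingHom.ker (evalEvalRingHom a t) := by
    let _ : Algebra κ[X] C := φ.toAlgebra
    have hinj : Function.Injective (algebraMap κ[X] C) := transcendental_iff_injective.1 hσ
    have : Module.IsTorsionFree κ[X] C := Module.isTorsionFree_iff_algebraMap_injective.2 hinj
    have hint : IsIntegral κ[X] θ := ⟨f, hf, hθ⟩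
    have hmin : f ∣ minpoly κ[X] θ :=
      ((minpoly.irreducible hint).associated_of_dvd hirr
        (minpoly.isIntegrallyClosed_dvd hint (p := f) hθ)).symm.dvd
    intro P hP
    rw [RingHom.ker_rangeRestrict, RingHom.mem_ker] at hP
    obtain ⟨Q, rfl⟩ := hmin.trans (minpoly.isIntegrallyClosed_dvd hint (p := P) hP)
    rw [RingHom.mem_ker, map_mul, coe_evalEvalRingHom, h, zero_mul]
  let χ : Φ.range →+* κ :=
    Φ.rangeRestrict.liftOfSurjective Φ.rangeRestrict_surjective ⟨evalEvalRingHom a t, hker⟩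
  have hχ : ∀ P, χ (Φ.rangeRestrict P) = P.evalEval a t := fun P =>
    RingHom.liftOfSurjective_comp_apply _ _ _ P
  obtain ⟨O, hO, χ', h1, h2⟩ := exists_place Φ.range χ
  have key : ∀ P, P.evalEval a t = 0 → O.valuation (Φ P) < 1 := fun P hP =>
    (h2 ⟨_, hO (Φ.rangeRestrict P)⟩).1 ((h1 _).trans ((hχ P).trans hP))
  have e1 : Φ (Polynomial.C (X - Polynomial.C a)) = σ - algebraMap κ C a := by simp [Φ, φ]
  have e2 : Φ (X - Polynomial.C (Polynomial.C t)) = θ - algebraMap κ C t := by simp [Φ, φ]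
  have k1 := key (Polynomial.C (X - Polynomial.C a)) (by simp [evalEval_C])
  have k2 := key (X - Polynomial.C (Polynomial.C t)) (by simp [evalEval_C])
  rw [e1] at k1
  rw [e2] at k2
  refine ⟨⟨O, ?_, fun c => ?_⟩, k1, k2⟩
  · rintro rfl
    have h0 := trans_ne (trans_sub hσ a)
    have h3 := val_mul_lt k1 (ValuationSubring.mem_top (σ - algebraMap κ C a)⁻¹)
    rw [mul_inv_cancel₀ h0, map_one] at h3
    exact lt_irrefl _ h3
  · have h3 : Φ (Polynomial.C (Polynomial.C c)) ∈ O :=
      hO (Φ.rangeRestrict (Polynomial.C (Polynomial.C c)))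
    simpa [Φ, φ] using h3

/-- at most `n * deg p` zeros of `p(σ)`: `p` splits, and `κ(σ - a) = κ(σ)` -/
theorem ncard_zeros_poly (h : IsCurve κ C) (hσ : Transcendental κ σ) {p : κ[X]} (hp : p ≠ 0) :
    {z : Place κ C | σ ∈ z.O ∧ z.O.valuation (aeval σ p) < 1}.Finite ∧
    {z : Place κ C | σ ∈ z.O ∧ z.O.valuation (aeval σ p) < 1}.ncard ≤
      Module.finrank κ⟮σ⟯ C * p.natDegree := by
  classical
  refine ⟨(finite_zeros h (aeval_ne hσ hp)).subset fun z hz => hz.2, ?_⟩
  have hsub : {z : Place κ C | σ ∈ z.O ∧ z.O.valuation (aeval σ p) < 1} ⊆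
      ⋃ a ∈ p.roots.toFinset, {z : Place κ C | z.O.valuation (σ - algebraMap κ C a) < 1} := by
    intro z hz
    obtain ⟨a, ha⟩ := z.exists_val h hz.1
    have h1 := val_aeval z.triv ha p
    have h2 : p.eval a = 0 := val_unique z.triv h1 (by simpa using hz.2)
    simp only [Set.mem_iUnion, Multiset.mem_toFinset, mem_roots hp]
    exact ⟨a, h2, ha⟩
  refine (Set.ncard_le_ncard hsub (p.roots.toFinset.finite_toSet.biUnion fun a _ =>
    finite_zeros h (trans_ne (trans_sub hσ a)))).trans ?_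
  refine (Finset.set_ncard_biUnion_le _ _).trans ?_
  refine (Finset.sum_le_card_nsmul _ _ (Module.finrank κ⟮σ⟯ C) fun a _ => ?_).trans ?_
  · refine (ncard_zeros_le h (trans_sub hσ a)).trans (le_of_eq ?_)
    exact congrArg (fun K : IntermediateField κ C => Module.finrank K C) (adjoin_sub σ a)
  · rw [smul_eq_mul, mul_comm]
    exact Nat.mul_le_mul_left _ ((Multiset.toFinset_card_le _).trans (card_roots' p))

theorem ncard_poles (h : IsCurve κ C) (hσ : Transcendental κ σ) :
    {z : Place κ C | σ ∉ z.O}.Finite ∧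
    {z : Place κ C | σ ∉ z.O}.ncard ≤ Module.finrank κ⟮σ⟯ C := by
  have h0 := trans_ne hσ
  have e : {z : Place κ C | σ ∉ z.O} = {z : Place κ C | z.O.valuation σ⁻¹ < 1} := by
    ext z
    simp only [Set.mem_ofPred_eq]
    rw [← z.O.valuation_le_one_iff, not_le, map_inv₀,
      inv_lt_one₀ (zero_lt_iff.2 (by simpa using h0))]
  rw [e]
  refine ⟨finite_zeros h (inv_ne_zero h0), (ncard_zeros_le h (approx_trans_inv hσ)).trans
    (le_of_eq ?_)⟩
  exact congrArg (fun K : IntermediateField κ C => Module.finrank K C) (adjoin_inv σ)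

/-- finitely many functions separate the places at which they are all regular. Take a model
(`exists_model`), `S = {s, θ, Δ(s)⁻¹}`, and use `exists_unit_repr`. -/
theorem exists_separating (h : IsCurve κ C) : ∃ S : Finset C, (∃ t ∈ S, Transcendental κ t) ∧
    ∀ O O' : ValuationSubring C, Triv κ O → Triv κ O' →
      (∀ s ∈ S, ∃ a : κ, O.valuation (s - algebraMap κ C a) < 1 ∧
        O'.valuation (s - algebraMap κ C a) < 1) → O = O' := by
  classical
  obtain ⟨M⟩ := exists_model (k := κ) (K := C) (d := 1) ⟨h.fg, by simpa using h.trdeg⟩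
  have hs : Transcendental κ (M.s 0) := M.indep.transcendental 0
  refine ⟨{M.s 0, M.θ, (MvPolynomial.aeval M.s M.Δ)⁻¹}, ⟨M.s 0, by simp, hs⟩,
    fun O O' ht ht' hS => ?_⟩
  obtain ⟨a, ha, ha'⟩ := hS (M.s 0) (by simp)
  have hθ : M.θ ∈ both ht ht' := hS M.θ (by simp)
  have hΔ : (MvPolynomial.aeval M.s M.Δ)⁻¹ ∈ both ht ht' := hS _ (by simp)
  have hr : Set.range M.s = {M.s 0} := Set.range_unique
  have h0 := trans_ne (trans_sub hs a)
  have hadj : ∀ g : MvPolynomial (Fin 1) κ,
      MvPolynomial.aeval M.s g ∈ Algebra.adjoin κ {M.s 0} := fun g => by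
    rw [← hr, Algebra.adjoin_range_eq_range_aeval]
    exact ⟨g, rfl⟩
  have hb : ∀ g : MvPolynomial (Fin 1) κ, MvPolynomial.aeval M.s g ∈ both ht ht' := fun g =>
    Algebra.adjoin_le (S := both ht ht') (Set.singleton_subset_iff.2 ⟨a, ha, ha'⟩) (hadj g)
  let φ : MvPolynomial (Fin 1) κ →+* C :=
    (MvPolynomial.aeval M.s : MvPolynomial (Fin 1) κ →ₐ[κ] C).toRingHom
  have hev : ∀ P : (MvPolynomial (Fin 1) κ)[X], P.eval₂ φ M.θ ∈ O := fun P => by
    rw [← eval_map]
    exact both_mem (eval_mem_sub _ (fun i => by rw [coeff_map]; exact hb _) hθ)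
  have hd : O.valuation ((M.f.map φ).derivative.eval M.θ) = 1 := by
    obtain ⟨b, c, hbc⟩ := M.bezout
    have h1 := congrArg (eval₂ φ M.θ) hbc
    rw [eval₂_add, eval₂_mul, eval₂_mul, M.root, mul_zero, zero_add, eval₂_C] at h1
    have hne : MvPolynomial.aeval M.s M.Δ ≠ 0 := fun e =>
      M.Δne (M.indep (e.trans (map_zero _).symm))
    rw [derivative_map, eval_map]
    refine le_antisymm ((O.valuation_le_one_iff _).2 (hev _)) (not_lt.1 fun hlt => ?_)
    have h2 := val_mul_lt (val_mul_lt hlt (hev c)) (both_mem hΔ)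
    rw [mul_comm (eval₂ φ M.θ (derivative M.f)), ← h1] at h2
    have h3 : φ M.Δ * (MvPolynomial.aeval M.s M.Δ)⁻¹ = 1 := mul_inv_cancel₀ hne
    rw [h3, map_one] at h2
    exact lt_irrefl _ h2
  ext x
  by_cases hx : x = 0
  · simp [hx]
  have hcl := M.closure_eq_top
  rw [hr] at hcl
  obtain ⟨n, P, Q, cP, cQ, hP, hQ, e⟩ := exists_unit_repr O (κ⟮M.s 0⟯).toSubfield
    (π := M.s 0 - algebraMap κ C a) (θ := M.θ) (g := M.f.map φ)
    (sub_mem (mem_adjoin_simple_self κ _) (IntermediateField.algebraMap_mem κ⟮M.s 0⟯ a)) h0 ha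
    (fun y hy hy0 => dvr_val_adjoin ht ha (by rw [adjoin_sub]; exact hy) hy0) (M.monic.map _)
    (fun i => by
      rw [coeff_map]
      exact ⟨algebra_adjoin_le_adjoin κ _ (hadj _), both_mem (hb _)⟩)
    (by rw [eval_map]; exact M.root) hd (x := x) (hcl ▸ Subfield.mem_top x) hx
  have hP' := both_val (eval_mem_sub _ (fun i => both_adjoin h0 ha ha' (cP i).1 (cP i).2) hθ) hP
  have hQ' := both_val (eval_mem_sub _ (fun i => both_adjoin h0 ha ha' (cQ i).1 (cQ i).2) hθ) hQ
  have v1 : O.valuation x = O.valuation (M.s 0 - algebraMap κ C a) ^ n := by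
    rw [e, map_div₀, map_mul, hP, hQ, map_zpow₀]; simp
  have v2 : O'.valuation x = O'.valuation (M.s 0 - algebraMap κ C a) ^ n := by
    rw [e, map_div₀, map_mul, hP', hQ', map_zpow₀]; simp
  rw [mem_iff_of_val h0 ha v1, mem_iff_of_val h0 ha' v2]

theorem eventually_mem (h : IsCurve κ C) (x : C) :
    ∀ᶠ z : Place κ C in Filter.cofinite, x ∈ z.O := by
  by_cases hx : x = 0
  · exact Filter.Eventually.of_forall fun z => hx ▸ z.O.zero_mem
  · exact (finite_support h hx).subset fun z hz h1 => hz (mem_of_val_eq_one h1)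

theorem Place.val_sub_ev (h : IsCurve κ C) (z : Place κ C) {x : C} (hx : x ∈ z.O) :
    z.O.valuation (x - algebraMap κ C (ev κ z.O x)) < 1 := by
  obtain ⟨a, ha⟩ := z.exists_val h hx
  rwa [ev_eq z.triv ha]

theorem Place.ev_add (h : IsCurve κ C) (z : Place κ C) {x y : C} (hx : x ∈ z.O) (hy : y ∈ z.O) :
    ev κ z.O (x + y) = ev κ z.O x + ev κ z.O y :=
  ev_eq z.triv (val_add (z.val_sub_ev h hx) (z.val_sub_ev h hy))

theorem Place.ev_mul (h : IsCurve κ C) (z : Place κ C) {x y : C} (hx : x ∈ z.O) (hy : y ∈ z.O) :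
    ev κ z.O (x * y) = ev κ z.O x * ev κ z.O y :=
  ev_eq z.triv (val_mul z.triv (z.val_sub_ev h hx) (z.val_sub_ev h hy))

theorem Place.ev_algebraMap (z : Place κ C) (a : κ) : ev κ z.O (algebraMap κ C a) = a :=
  ev_eq z.triv (by simp)

theorem finite_ev_eq_zero (h : IsCurve κ C) {x : C} (hx : x ≠ 0) :
    {z : Place κ C | ev κ z.O x = 0}.Finite :=
  (finite_support h hx).subset fun z hz h1 =>
    (val_eq_one_iff z.triv (z.val_sub_ev h (mem_of_val_eq_one h1))).1 h1 hz

end Vale.Agent.P019
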