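import Vale.Agent.P019.PI
import Vale.Agent.P019.CV

/-! P019: from germ relations to an action of the affine group on a curve. -/

open Filter

namespace Vale.Agent.P019

variable {k l C : Type*} [Field k] [IsAlgClosed k] [Field l] [IsAlgClosed l] [Field C] [Algebra l C]

namespace AFF1Aux

theorem tendsto_cof {α β : Type*} {P : α → β} (hP : ∃ S : Set α, S.Finite ∧ Set.InjOn P Sᶜ) :
    Tendsto P cofinite cofinite := by
  obtain ⟨S, hS, hi⟩ := hP
  intro T hT
  rw [mem_map, mem_cofinite] at *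
  refine (hS.union (Set.Finite.of_finite_image (f := P) (s := Sᶜ ∩ P ⁻¹' Tᶜ)
    (hT.subset ?_) (hi.mono Set.inter_subset_left))).subset fun x hx => ?_
  · rintro _ ⟨x, hx, rfl⟩
    exact hx.2
  · by_cases h : x ∈ S
    · exact Or.inl h
    · exact Or.inr ⟨h, hx⟩

omit [IsAlgClosed k] in
theorem tendsto_aff {c : k} (hc : c ≠ 0) (t : k) :
    Tendsto (fun u : k => c * u + t) cofinite cofinite :=
  Function.Injective.tendsto_cofinite fun _ _ h => mul_left_cancel₀ hc (add_right_cancel h)

theorem ev_mem (hC : IsCurve l C) {α : Type*} {P : α → Place l C}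
    (hP : Tendsto P cofinite cofinite) (e : C) : ∀ᶠ u in cofinite, e ∈ (P u).O :=
  hP.eventually (eventually_mem hC e)

theorem eq_of_ev (hC : IsCurve l C) {α : Type*} [Infinite α] {P : α → Place l C}
    (hP : Tendsto P cofinite cofinite) {e e' : C}
    (h : ∀ᶠ u in cofinite, ev l (P u).O e = ev l (P u).O e') : e = e' := by
  by_contra hne
  have h1 : ∀ᶠ u in cofinite, ¬ ev l (P u).O (e - e') = 0 :=
    hP.eventually (finite_ev_eq_zero hC (sub_ne_zero.2 hne)).eventually_cofinite_notMem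
  obtain ⟨u, ⟨a1, a2⟩, a3, a4⟩ := ((h.and h1).and
    ((ev_mem hC hP (e - e')).and (ev_mem hC hP e'))).exists
  have := Place.ev_add hC (P u) a3 a4
  rw [sub_add_cancel, a1] at this
  exact a2 (by linear_combination -this)

section abstract

variable {R : Type*} [CommRing R] [Algebra l R]

/-- elements with a `p ^ j`-th power in the image -/
def Lam (ι : C →ₐ[l] R) (hR : ExpChar R (ringExpChar l)) : Subalgebra l R where
  carrier := {g | ∃ (j : ℕ) (e : C), ι e = g ^ ringExpChar l ^ j}
  mul_mem' := by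
    rintro g g' ⟨j, e, he⟩ ⟨j', e', he'⟩
    refine ⟨j + j', e ^ ringExpChar l ^ j' * e' ^ ringExpChar l ^ j, ?_⟩
    rw [map_mul, map_pow, map_pow, he, he', ← pow_mul, ← pow_mul, ← pow_add, ← pow_add,
      add_comm j' j, mul_pow]
  add_mem' := by
    rintro g g' ⟨j, e, he⟩ ⟨j', e', he'⟩
    refine ⟨j + j', e ^ ringExpChar l ^ j' + e' ^ ringExpChar l ^ j, ?_⟩
    rw [map_add, map_pow, map_pow, he, he', ← pow_mul, ← pow_mul, ← pow_add, ← pow_add,
      add_comm j' j, add_pow_expChar_pow]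
  algebraMap_mem' := fun a => ⟨0, algebraMap l C a, by simp⟩

omit [IsAlgClosed l] in
theorem mem_Lam {ι : C →ₐ[l] R} {hR : ExpChar R (ringExpChar l)} {g : R} :
    g ∈ Lam ι hR ↔ ∃ (j : ℕ) (e : C), ι e = g ^ ringExpChar l ^ j := Iff.rfl

omit [IsAlgClosed l] in
theorem isField_Lam [Nontrivial R] [IsReduced R] (ι : C →ₐ[l] R)
    (hR : ExpChar R (ringExpChar l)) : IsField (Lam ι hR) where
  exists_pair_ne := exists_pair_ne _
  mul_comm := mul_comm
  mul_inv_cancel := by
    rintro ⟨g, j, e, he⟩ hg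
    have h0 : e ≠ 0 := by
      rintro rfl
      rw [map_zero] at he
      exact hg (Subtype.ext (IsReduced.eq_zero g ⟨_, he.symm⟩))
    have hq : 0 < ringExpChar l ^ j := pow_pos (expChar_pos l _) j
    refine ⟨⟨g, j, e, he⟩ ^ (ringExpChar l ^ j - 1) * ⟨ι e⁻¹, 0, e⁻¹, by simp⟩, Subtype.ext ?_⟩
    change g * (g ^ (ringExpChar l ^ j - 1) * ι e⁻¹) = 1
    rw [← mul_assoc, ← pow_succ', Nat.sub_add_cancel hq, ← he, ← map_mul, mul_inv_cancel₀ h0,
      map_one]

theorem stable [Nontrivial R] [IsReduced R] (hC : IsCurve l C) (ι : C →ₐ[l] R) {G : Type*}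
    [Group G] (σ : G → R →ₐ[l] R) (h1 : ∀ x, σ 1 x = x)
    (hm : ∀ g g' x, σ (g * g') x = σ g (σ g' x))
    (hgood : ∀ g e, ∃ (e' : C) (j : ℕ), ι e' = σ g (ι e) ^ ringExpChar l ^ j)
    (hdiv : ∀ (g : G) (n : ℕ), 0 < n → ∃ g', g' ^ n = g) (g : G) (e : C) :
    ∃ e', ι e' = σ g (ι e) := by
  have hR : ExpChar R (ringExpChar l) :=
    expChar_of_injective_algebraMap (algebraMap l R).injective _
  let _ : Field (Lam ι hR) := (isField_Lam ι hR).toField
  have hmem : ∀ (g : G) (x : Lam ι hR), σ g x ∈ Lam ι hR := by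
    rintro g ⟨x, j, e, he⟩
    obtain ⟨e', j', he'⟩ := hgood g e
    refine ⟨j + j', e', ?_⟩
    rw [he', he, map_pow, ← pow_mul, ← pow_add]
  let res : G → Lam ι hR →ₐ[l] Lam ι hR := fun g =>
    ((σ g).comp (Lam ι hR).val).codRestrict (Lam ι hR) (hmem g)
  have hres : ∀ g x, (res g x : R) = σ g x := fun _ _ => rfl
  let ρ : G →* (Lam ι hR ≃ₐ[l] Lam ι hR) := MonoidHom.mk' (fun g =>
    AlgEquiv.ofAlgHom (res g) (res g⁻¹)
      (AlgHom.ext fun x => Subtype.ext (by
        change σ g (σ g⁻¹ x) = x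
        rw [← hm, mul_inv_cancel, h1]))
      (AlgHom.ext fun x => Subtype.ext (by
        change σ g⁻¹ (σ g x) = x
        rw [← hm, inv_mul_cancel, h1])))
    fun g g' => AlgEquiv.ext fun x => Subtype.ext (hm g g' x)
  let ι' : C →ₐ[l] Lam ι hR := ι.codRestrict (Lam ι hR) fun e => ⟨0, e, by simp⟩
  have hE : IsCurve l ι'.fieldRange := by
    have := hC.fg
    refine ⟨(Algebra.EssFiniteType.iff_of_algEquiv ι'.equivFieldRange).1 this, ?_⟩
    have h2 := ι'.equivFieldRange.lift_trdeg_eq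
    rw [hC.trdeg, Cardinal.lift_one] at h2
    exact Cardinal.lift_eq_one.1 h2.symm
  have key := map_eq_of_divisible hE (by
    rintro ⟨x, j, e, he⟩
    exact ⟨j, e, Subtype.ext he⟩) (ρ g) (fun n hn => by
      obtain ⟨g', hg'⟩ := hdiv g n hn
      exact ⟨ρ g', by rw [← map_pow, hg']⟩) (ι' e)
  obtain ⟨e', he'⟩ := key.2 ⟨e, rfl⟩
  exact ⟨e', congrArg Subtype.val he'⟩

end abstract

variable (k l) in
/-- functions vanishing almost everywhere -/
def nul : Ideal (k → l) where
  carrier := {f | ∀ᶠ u in cofinite, f u = 0}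
  add_mem' := fun {f g} hf hg => by
    rw [Set.mem_ofPred_eq] at *
    exact (hf.and hg).mono fun u hu => by rw [Pi.add_apply, hu.1, hu.2, add_zero]
  zero_mem' := by
    rw [Set.mem_ofPred_eq]
    exact Eventually.of_forall fun _ => rfl
  smul_mem' := fun c f hf => by
    rw [Set.mem_ofPred_eq] at *
    exact hf.mono fun u hu => by rw [smul_eq_mul, Pi.mul_apply, hu, mul_zero]

omit [IsAlgClosed k] [IsAlgClosed l] [Field k] in
theorem mk_eq {f g : k → l} : Ideal.Quotient.mk (nul k l) f = Ideal.Quotient.mk (nul k l) g ↔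
    ∀ᶠ u in cofinite, f u = g u := by
  rw [Ideal.Quotient.eq]
  change (∀ᶠ u in cofinite, f u - g u = 0) ↔ _
  simp only [sub_eq_zero]

omit [IsAlgClosed l] in
theorem nontriv : Nontrivial ((k → l) ⧸ nul k l) := by
  refine ⟨Ideal.Quotient.mk _ 0, Ideal.Quotient.mk _ 1, fun h => ?_⟩
  obtain ⟨u, hu⟩ := (mk_eq.1 h).exists
  exact zero_ne_one hu

omit [IsAlgClosed k] [IsAlgClosed l] [Field k] in
theorem reduced : IsReduced ((k → l) ⧸ nul k l) := by
  refine ⟨fun x ⟨n, hn⟩ => ?_⟩
  obtain ⟨f, rfl⟩ := Ideal.Quotient.mk_surjective x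
  rw [← map_pow, ← map_zero (Ideal.Quotient.mk (nul k l)), mk_eq] at hn
  rw [← map_zero (Ideal.Quotient.mk (nul k l)), mk_eq]
  exact hn.mono fun u hu => eq_zero_of_pow_eq_zero hu

/-- precomposition -/
def pre (a : k → k) : (k → l) →ₐ[l] (k → l) where
  toFun f u := f (a u)
  map_one' := rfl
  map_mul' _ _ := rfl
  map_zero' := rfl
  map_add' _ _ := rfl
  commutes' _ := rfl

variable (l) in
/-- substitution on germs -/
def sub (c : kˣ) (t : k) : ((k → l) ⧸ nul k l) →ₐ[l] ((k → l) ⧸ nul k l) :=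
  Ideal.quotientMapₐ (nul k l) (pre fun u => c * u + t) fun f hf => by
    have h : ∀ᶠ u in cofinite, f u = 0 := hf
    exact (tendsto_aff c.ne_zero t).eventually h

omit [IsAlgClosed k] [IsAlgClosed l] in
theorem sub_mk (c : kˣ) (t : k) (f : k → l) :
    sub l c t (Ideal.Quotient.mk _ f) = Ideal.Quotient.mk _ fun u => f (c * u + t) := rfl

/-- the embedding into germs -/
noncomputable def emb (hC : IsCurve l C) {P : k → Place l C} (hP : Tendsto P cofinite cofinite) :
    C →ₐ[l] ((k → l) ⧸ nul k l) where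
  toFun e := Ideal.Quotient.mk _ fun u => ev l (P u).O e
  map_one' := by
    rw [← map_one (Ideal.Quotient.mk (nul k l)), mk_eq]
    exact Eventually.of_forall fun u => by simpa using Place.ev_algebraMap (P u) 1
  map_mul' x y := by
    rw [← map_mul, mk_eq]
    exact ((ev_mem hC hP x).and (ev_mem hC hP y)).mono fun u hu => Place.ev_mul hC _ hu.1 hu.2
  map_zero' := by
    rw [← map_zero (Ideal.Quotient.mk (nul k l)), mk_eq]
    exact Eventually.of_forall fun u => by simpa using Place.ev_algebraMap (P u) 0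
  map_add' x y := by
    rw [← map_add, mk_eq]
    exact ((ev_mem hC hP x).and (ev_mem hC hP y)).mono fun u hu => Place.ev_add hC _ hu.1 hu.2
  commutes' a := by
    change _ = Ideal.Quotient.mk (nul k l) (algebraMap l (k → l) a)
    rw [mk_eq]
    exact Eventually.of_forall fun u => Place.ev_algebraMap (P u) a

omit [IsAlgClosed k] in
theorem grel_iff (hC : IsCurve l C) {P : k → Place l C} (hP : Tendsto P cofinite cofinite)
    (c : kˣ) (t : k) (e' e : C) (j : ℕ) : GRel P (fun u => P (c * u + t)) e' e j ↔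
      emb hC hP e' = sub l c t (emb hC hP e) ^ ringExpChar l ^ j := by
  change _ ↔ Ideal.Quotient.mk _ _ = sub l c t (Ideal.Quotient.mk _ _) ^ _
  rw [sub_mk, ← map_pow, mk_eq]
  rfl

omit [IsAlgClosed k] [IsAlgClosed l] in
theorem grel_comp {P : k → Place l C} {c c' : kˣ} {t t' : k} {e e' e'' : C} {j j' : ℕ}
    (h : GRel P (fun u => P (c * u + t)) e' e j)
    (h' : GRel P (fun u => P (c' * u + t')) e'' e' j') :
    GRel P (fun u => P ((c * c' : kˣ) * u + (c * t' + t))) e'' e (j + j') := by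
  have h1 := (tendsto_aff c'.ne_zero t').eventually h
  refine (h1.and h').mono fun u hu => ?_
  have e1 : ((c * c' : kˣ) : k) * u + (c * t' + t) = c * (c' * u + t') + t := by
    rw [Units.val_mul]; ring
  simp only [e1]
  rw [hu.2, hu.1, ← pow_mul, ← pow_add]

theorem exists_grel_zero (hC : IsCurve l C) {P : k → Place l C} (hP : CofBij P)
    (hT : ∀ (t : k) (e : C), ∃ e' j, GRel P (fun u => P (u + t)) e' e j)
    (hM : ∀ (c : k), c ≠ 0 → ∀ e : C, ∃ e' j, GRel P (fun u => P (c * u)) e' e j)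
    (c : kˣ) (t : k) (e : C) : ∃ e', GRel P (fun u => P (c * u + t)) e' e 0 := by
  have hP' := tendsto_cof hP.1
  have hA : ∀ (c : kˣ) (t : k) (e : C), ∃ e' j, GRel P (fun u => P (c * u + t)) e' e j := by
    intro c t e
    obtain ⟨e₁, j₁, h₁⟩ := hT t e
    obtain ⟨e₂, j₂, h₂⟩ := hM c c.ne_zero e₁
    have := grel_comp (c := 1) (c' := c) (t := t) (t' := 0) (by simpa using h₁) (by simpa using h₂)
    exact ⟨e₂, j₁ + j₂, by simpa using this⟩
  have hB : ∀ (a : k) (c : kˣ) (e : C),
      ∃ e', GRel P (fun u => P (c * u + (1 - c) * a)) e' e 0 := by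
    intro a c e
    have := nontriv (k := k) (l := l)
    have := reduced (k := k) (l := l)
    obtain ⟨e', he'⟩ := stable hC (emb hC hP') (fun c : kˣ => sub l c ((1 - c) * a))
      (fun x => by
        obtain ⟨f, rfl⟩ := Ideal.Quotient.mk_surjective x
        rw [sub_mk]
        simp)
      (fun g g' x => by
        obtain ⟨f, rfl⟩ := Ideal.Quotient.mk_surjective x
        rw [sub_mk, sub_mk, sub_mk]
        refine congrArg _ (funext fun u => congrArg f ?_)
        rw [Units.val_mul]; ring)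
      (fun g e => by
        obtain ⟨e', j, h⟩ := hA g ((1 - g) * a) e
        exact ⟨e', j, (grel_iff hC hP' _ _ _ _ _).1 h⟩)
      (fun g n hn => by
        obtain ⟨z, hz⟩ := IsAlgClosed.exists_pow_nat_eq (g : k) hn
        have h0 : z ≠ 0 := by
          rintro rfl
          exact g.ne_zero (by rw [← hz, zero_pow hn.ne'])
        exact ⟨Units.mk0 z h0, Units.ext (by simpa using hz)⟩) c e
    exact ⟨e', (grel_iff hC hP' _ _ _ _ _).2 (by simpa using he')⟩
  have hC' : ∀ (c : kˣ), (c : k) ≠ 1 → ∀ (t : k) (e : C),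
      ∃ e', GRel P (fun u => P (c * u + t)) e' e 0 := by
    intro c hc t e
    have := hB (t / (1 - c)) c e
    rwa [mul_div_cancel₀ _ (sub_ne_zero.2 hc.symm)] at this
  classical
  by_cases hc : (c : k) = 1
  · obtain ⟨z, hz⟩ := Infinite.exists_notMem_finset ({0, 1} : Finset k)
    simp only [Finset.mem_insert, Finset.mem_singleton, not_or] at hz
    obtain ⟨e₁, h₁⟩ := hC' (Units.mk0 z hz.1) hz.2 t e
    obtain ⟨e₂, h₂⟩ := hC' (Units.mk0 z hz.1)⁻¹ (by simpa using hz.2) 0 e₁
    have := grel_comp h₁ h₂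
    exact ⟨e₂, by simpa [hc] using this⟩
  · exact hC' c hc t e

/-- pull-back of a place along an automorphism -/
def pull (τ : C ≃ₐ[l] C) (z : Place l C) : Place l C where
  O := z.O.comap (τ : C →+* C)
  ne_top := fun h => z.ne_top (top_le_iff.1 fun x _ => by
    have : τ.symm x ∈ z.O.comap (τ : C →+* C) := h ▸ ValuationSubring.mem_top _
    simpa using this)
  triv := fun a => by simpa using z.triv a

omit [IsAlgClosed l] in
theorem mem_pull {τ : C ≃ₐ[l] C} {z : Place l C} {e : C} : e ∈ (pull τ z).O ↔ τ e ∈ z.O := Iff.rfl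

theorem ae_pull (hC : IsCurve l C) {α : Type*} {P P' : α → Place l C}
    (hP : Tendsto P cofinite cofinite) (hP' : Tendsto P' cofinite cofinite) {τ : C ≃ₐ[l] C}
    (h : ∀ e, GRel P P' (τ e) e 0) : ∀ᶠ u in cofinite, P' u = pull τ (P u) := by
  obtain ⟨S, -, hS⟩ := exists_separating hC
  have h1 : ∀ᶠ u in cofinite, ∀ s ∈ S, s ∈ (P' u).O ∧ τ s ∈ (P u).O ∧
      ev l (P u).O (τ s) = ev l (P' u).O s ^ ringExpChar l ^ 0 :=
    (eventually_all_finset S).2 fun s _ => (ev_mem hC hP' s).and ((ev_mem hC hP _).and (h s))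
  refine h1.mono fun u hu => Place.ext (hS _ _ (P' u).triv (pull τ (P u)).triv fun s hs => ?_)
  obtain ⟨a1, a2, a3⟩ := hu s hs
  refine ⟨ev l (P' u).O s, Place.val_sub_ev hC _ a1, ?_⟩
  refine (comap_val_lt_one (τ : C →+* C) (P u).O _).2 ?_
  have := Place.val_sub_ev hC _ a2
  rw [a3, pow_zero, pow_one] at this
  simpa using this

end AFF1Aux

open AFF1Aux

theorem GRel.unique (hC : IsCurve l C) {α C' : Type*} [Infinite α] [Field C'] [Algebra l C']
    {P : α → Place l C} (hP : ∃ S : Set α, S.Finite ∧ Set.InjOn P Sᶜ) {P' : α → Place l C'}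
    {e e' : C} {x : C'} {j : ℕ} (h : GRel P P' e x j) (h' : GRel P P' e' x j) : e = e' :=
  eq_of_ev hC (tendsto_cof hP) ((h.and h').mono fun _ hu => hu.1.trans hu.2.symm)

/-- Embed `C` in the ring `Germ cofinite l` by `e ↦ (u ↦ ev (P u) e)`; the germs with a
`p ^ j`-th power in the image form a field `Λ`, stable under the substitutions `u ↦ c u + t`,
which act by `l`-automorphisms. Scalings are divisible, so preserve the image of `C`
(`map_eq_of_divisible`); so do their conjugates by translations, and translations are products of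
two such. -/
theorem exists_action (hC : IsCurve l C) {P : k → Place l C} (hP : CofBij P)
    (hT : ∀ (t : k) (e : C), ∃ e' j, GRel P (fun u => P (u + t)) e' e j)
    (hM : ∀ (c : k), c ≠ 0 → ∀ e : C, ∃ e' j, GRel P (fun u => P (c * u)) e' e j) :
    ∃ γ : kˣ → k → (C ≃ₐ[l] C),
      (∀ (c : kˣ) t e, GRel P (fun u => P (c * u + t)) (γ c t e) e 0) ∧
      ∀ (c : kˣ) t (c' : kˣ) t' e, γ c' t' (γ c t e) = γ (c * c') (c * t' + t) e := by
  choose g hg using exists_grel_zero hC hP hT hM
  have hP' := tendsto_cof hP.1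
  have hinj : Function.Injective (emb hC hP') := by
    have := nontriv (k := k) (l := l)
    exact (emb hC hP').toRingHom.injective
  have hs : ∀ c t e, emb hC hP' (g c t e) = sub l c t (emb hC hP' e) := fun c t e => by
    simpa using (grel_iff hC hP' _ _ _ _ _).1 (hg c t e)
  have hcomp : ∀ (c : kˣ) t (c' : kˣ) t' e, g c' t' (g c t e) = g (c * c') (c * t' + t) e :=
    fun c t c' t' e => GRel.unique hC hP.1 (grel_comp (hg c t e) (hg c' t' _)) (hg _ _ e)
  have hone : ∀ e, g 1 0 e = e := fun e => GRel.unique hC hP.1 (hg 1 0 e)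
    (Eventually.of_forall fun u => by simp)
  refine ⟨fun c t =>
    { toFun := g c t
      invFun := g c⁻¹ (-(c⁻¹ * t))
      left_inv := fun e => by rw [hcomp]; simpa using hone e
      right_inv := fun e => by rw [hcomp]; simpa using hone e
      map_mul' := fun x y => hinj (by rw [map_mul, hs, hs, hs, map_mul, map_mul])
      map_add' := fun x y => hinj (by rw [map_add, hs, hs, hs, map_add, map_add])
      commutes' := fun a => hinj (by rw [hs, AlgHom.commutes, AlgHom.commutes]) }, hg, hcomp⟩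

/-- With `u₀` from the uniformity hypothesis put `P' u = (γ 1 (u - u₀))⁻¹ (P u₀)`. Then `P' = P`
almost everywhere, `P'` is injective (a translation fixing one point of the orbit is a period of
`P'`), and exactly equivariant: the image of the orbit under a scaling is a cofinite orbit, so the
same orbit, and almost everywhere equivariance (`exists_separating`) fixes the shift. -/
theorem exists_equivariant (hC : IsCurve l C) {P : k → Place l C} (hP : CofBij P)
    {γ : kˣ → k → (C ≃ₐ[l] C)}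
    (h₁ : ∀ (c : kˣ) t e, GRel P (fun u => P (c * u + t)) (γ c t e) e 0)
    (h₂ : ∀ (c : kˣ) t (c' : kˣ) t' e, γ c' t' (γ c t e) = γ (c * c') (c * t' + t) e)
    (hU : ∃ u₀, ∀ᶠ t in cofinite, ∀ e e' j, GRel P (fun u => P (u + t)) e' e j →
      (e ∈ (P (u₀ + t)).O ↔ e' ∈ (P u₀).O)) :
    ∃ P' : k → Place l C, Function.Injective P' ∧ (∀ᶠ u in cofinite, P' u = P u) ∧
      ∀ (c : kˣ) t u e, e ∈ (P' (c * u + t)).O ↔ γ c t e ∈ (P' u).O := by
  obtain ⟨u₀, hU⟩ := hU
  have hP' := tendsto_cof hP.1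
  have hA : ∀ (c : kˣ) t (c' : kˣ) t' z,
      pull (γ c t) (pull (γ c' t') z) = pull (γ (c * c') (c * t' + t)) z :=
    fun c t c' t' z => Place.ext (SetLike.ext fun e => by rw [mem_pull, mem_pull, mem_pull, h₂])
  obtain ⟨P', hd⟩ : ∃ P' : k → Place l C, ∀ u, P' u = pull (γ 1 (u - u₀)) (P u₀) :=
    ⟨_, fun _ => rfl⟩
  have hae : ∀ᶠ u in cofinite, P' u = P u := by
    have h1 := (tendsto_aff (one_ne_zero (α := k)) (-u₀)).eventually hU
    refine h1.mono fun u hu => Place.ext (SetLike.ext fun e => ?_)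
    have e1 : 1 * u + -u₀ = u - u₀ := by ring
    rw [e1] at hu
    have := hu e (γ 1 (u - u₀) e) 0 (by simpa using h₁ 1 (u - u₀) e)
    rw [add_sub_cancel] at this
    rw [hd, mem_pull, this]
  have hT : ∀ u t, P' (u + t) = pull (γ 1 t) (P' u) := fun u t => by
    rw [hd, hd, hA, mul_one, Units.val_one, one_mul, add_sub_right_comm]
  refine ⟨P', fun u v huv => ?_, hae, fun c t u e => ?_⟩
  · obtain ⟨S, hS, hi⟩ := hP.1
    have h1 := hae.and hS.eventually_cofinite_notMem
    have h2 := (tendsto_aff (one_ne_zero (α := k)) (v - u)).eventually h1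
    obtain ⟨w, ⟨a1, a2⟩, a3, a4⟩ := (h1.and h2).exists
    have e1 : P' (1 * w + (v - u)) = P' w := by
      have e2 : 1 * w + (v - u) = v + (w - u) := by ring
      rw [e2, hT, ← huv, ← hT, add_sub_cancel]
    rw [a1, a3] at e1
    have := hi a4 a2 e1
    linear_combination -this
  · have ht := tendsto_aff c.ne_zero t
    have h1 := ae_pull hC hP' (hP'.comp ht) (h₁ c t)
    obtain ⟨w, ⟨a1, a2⟩, a3⟩ := ((h1.and hae).and (ht.eventually hae)).exists
    have a4 : P' (c * w + t) = pull (γ c t) (P' w) := by rw [a3, a2]; exact a1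
    have e1 : c * u + t = c * w + t + c * (u - w) := by ring
    have e2 : P' u = pull (γ 1 (u - w)) (P' w) := by rw [← hT, add_sub_cancel]
    rw [← mem_pull, e1, hT, a4, e2, hA, hA, mul_one, one_mul, Units.val_one, one_mul,
      add_comm t]

end Vale.Agent.P019
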