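import Vale.Agent.P019.Z0
import Vale.Agent.P019.Curve.Riemann

/-! P019, curves: a function with a single pole (Riemann inequality). -/

namespace Vale.Agent.P019

variable {κ C : Type*} [Field κ] [Field C] [Algebra κ C] [IsAlgClosed κ]

theorem exists_pole_only (h : IsCurve κ C) (z : Place κ C) :
    ∃ s : C, s ∉ z.O ∧ ∀ z' : Place κ C, z' ≠ z → s ∈ z'.O := by
  classical
  obtain ⟨g, hg⟩ := exists_isGenus h
  have h1 := hg.1 (Finsupp.single z ((g : ℤ) + 1))
  rw [Finsupp.degree_single] at h1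
  have hne : ¬ LL (Finsupp.single z ((g : ℤ) + 1)) ≤ LL (0 : Dv κ C) := by
    intro hle
    haveI := finiteDimensional_LL h (0 : Dv κ C)
    have h2 : ell (Finsupp.single z ((g : ℤ) + 1)) ≤ ell (0 : Dv κ C) :=
      Submodule.finrank_mono hle
    rw [ell_zero h] at h2
    omega
  obtain ⟨s, hs, hs'⟩ := Set.not_subset.1 hne
  have hs0 : s ≠ 0 := by
    rintro rfl
    exact hs' (zero_mem _)
  have hreg : ∀ z' : Place κ C, z' ≠ z → s ∈ z'.O := by
    intro z' hz'
    rcases (mem_LL h).1 hs with h0 | h0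
    · exact absurd h0 hs0
    · have := h0 z'
      rw [Finsupp.single_eq_of_ne hz', neg_zero] at this
      exact ((place_isDVR h z').isOrd.mem_iff hs0).2 this
  refine ⟨s, fun hz => hs' ((mem_LL h).2 (Or.inr fun z' => ?_)), hreg⟩
  have : s ∈ z'.O := by
    by_cases hz' : z' = z
    · rwa [hz']
    · exact hreg z' hz'
  simpa using ((place_isDVR h z').isOrd.mem_iff hs0).1 this

end Vale.Agent.P019
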