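import Vale.Agent.P019.AFF1
import Vale.Agent.P019.Z5

/-! P019: a curve with an action of the affine group of `k`. -/

open Filter

set_option linter.unusedSectionVars false

namespace Vale.Agent.P019

variable {k l C : Type*} [Field k] [IsAlgClosed k] [Field l] [IsAlgClosed l] [Field C] [Algebra l C]

namespace AFF2Aux

/-- pull-back of a place along an automorphism -/
def pull {l C : Type*} [Field l] [Field C] [Algebra l C] (γ : C ≃ₐ[l] C) (z : Place l C) :
    Place l C where
  O := z.O.comap (γ.toRingEquiv : C →+* C)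
  ne_top := fun h => z.ne_top (top_unique fun x _ => by
    have : γ.symm x ∈ z.O.comap (γ.toRingEquiv : C →+* C) := by
      rw [h]
      trivial
    have h2 : γ (γ.symm x) ∈ z.O := this
    rwa [γ.apply_symm_apply] at h2)
  triv := fun a => by
    change γ (algebraMap l C a) ∈ z.O
    rw [γ.commutes]
    exact z.triv a

theorem mem_pull {γ : C ≃ₐ[l] C} {z : Place l C} {e : C} : e ∈ (pull γ z).O ↔ γ e ∈ z.O := Iff.rfl

theorem eq_pull {γ : C ≃ₐ[l] C} {z z' : Place l C} (h : ∀ e, e ∈ z'.O ↔ γ e ∈ z.O) :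
    z' = pull γ z := Place.ext (SetLike.ext h)

theorem pull_inj (γ : C ≃ₐ[l] C) : Function.Injective (pull γ : Place l C → Place l C) := by
  intro z z' h
  refine Place.ext (SetLike.ext fun x => ?_)
  rw [← γ.apply_symm_apply x, ← mem_pull (z := z), ← mem_pull (z := z'), h]

theorem ev_pull (hC : IsCurve l C) (γ : C ≃ₐ[l] C) (z : Place l C) {s : C}
    (hs : s ∈ (pull γ z).O) : ev l (pull γ z).O s = ev l z.O (γ s) := by
  refine (ev_eq z.triv ?_).symm
  have h1 := (comap_val_lt_one (γ.toRingEquiv : C →+* C) z.O _).1 ((pull γ z).val_sub_ev hC hs)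
  have h2 : (γ.toRingEquiv : C →+* C) (s - algebraMap l C (ev l (pull γ z).O s)) =
      γ s - algebraMap l C (ev l (pull γ z).O s) := by
    change γ _ = _
    rw [map_sub, γ.commutes]
  rwa [h2] at h1

theorem ev_affine (hC : IsCurve l C) (z : Place l C) {s : C} (hs : s ∈ z.O) (a b : l) :
    ev l z.O (algebraMap l C a * s + algebraMap l C b) = a * ev l z.O s + b := by
  rw [z.ev_add hC (z.O.mul_mem _ _ (z.triv a) hs) (z.triv b), z.ev_mul hC (z.triv a) hs,
    z.ev_algebraMap, z.ev_algebraMap]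

theorem sub_not_mem {z : Place l C} {s : C} (hs : s ∉ z.O) (y : l) :
    s - algebraMap l C y ∉ z.O := fun h => hs (by simpa using z.O.add_mem _ _ h (z.triv y))

theorem finite_fibre (hC : IsCurve l C) {z : Place l C} {s : C} (hs : s ∉ z.O) (y : l) :
    {z' : Place l C | s ∈ z'.O ∧ ev l z'.O s = y}.Finite := by
  have h0 : s - algebraMap l C y ≠ 0 := fun h => sub_not_mem hs y (h ▸ z.O.zero_mem)
  refine (finite_zeros hC h0).subset fun z' hz' => ?_
  have := z'.val_sub_ev hC hz'.1
  rwa [hz'.2] at this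

theorem exists_value (hC : IsCurve l C) {z : Place l C} {s : C} (hs : s ∉ z.O) (y : l) :
    ∃ z' : Place l C, s ∈ z'.O ∧ ev l z'.O s = y := by
  have ht : Transcendental l (s - algebraMap l C y) := by
    rw [transcendental_iff_not_mem_range]
    rintro ⟨a, ha⟩
    exact sub_not_mem hs y (ha ▸ z.triv a)
  obtain ⟨z', hz'⟩ := exists_zero hC ht
  refine ⟨z', ?_, ev_eq z'.triv hz'⟩
  simpa using z'.O.add_mem _ _ ((z'.O.valuation_le_one_iff _).1 hz'.le) (z'.triv y)

theorem cast_ne_zero (F : Type*) [Field F] {q : ℕ} (hq : q.Prime) (h : ringChar F < q) :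
    (q : F) ≠ 0 := by
  intro h0
  rcases (Nat.dvd_prime hq).1 ((ringChar.spec F q).1 h0) with h1 | h1
  · exact CharP.ringChar_ne_one h1
  · omega

theorem infinite_ne_zero : {u : k | u ≠ 0}.Infinite :=
  (Set.finite_singleton (0 : k)).infinite_compl

theorem no_scaling {l : Type*} [Field l] (σ : k → l) (a b : kˣ → l)
    (hσ : ∀ (c : kˣ) u, u ≠ 0 → σ (c * u) = a c * σ u + b c)
    (fin : ∀ y, {u | u ≠ 0 ∧ σ u = y}.Finite) (surj : ∀ y, ∃ u, u ≠ 0 ∧ σ u = y) : False := by
  have comm : ∀ c c' : kˣ, a c * b c' + b c = a c' * b c + b c' := fun c c' => by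
    have h1 := hσ c (c' * 1) (by simp)
    have h2 := hσ c' (c * 1) (by simp)
    rw [hσ c' 1 one_ne_zero] at h1
    rw [hσ c 1 one_ne_zero, mul_left_comm, h1] at h2
    linear_combination h2
  have ha : ∀ c, a c = 1 := fun c => by
    by_contra hc
    have h1 : 1 - a c ≠ 0 := sub_ne_zero.2 (Ne.symm hc)
    obtain ⟨u, hu, hσu⟩ := surj (b c / (1 - a c))
    refine infinite_ne_zero (k := k) ((fin (b c / (1 - a c))).subset fun v hv => ⟨hv, ?_⟩)
    have h2 := hσ (Units.mk0 (v / u) (div_ne_zero hv hu)) u hu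
    rw [Units.val_mk0, div_mul_cancel₀ _ hu, hσu] at h2
    rw [h2]
    field_simp
    linear_combination -comm c (Units.mk0 (v / u) (div_ne_zero hv hu))
  obtain ⟨q, hq, hp⟩ := Nat.exists_infinite_primes
    ((fin (σ 1)).toFinset.card + ringChar k + ringChar l + 1)
  have : NeZero (q : k) := ⟨cast_ne_zero k hp (by omega)⟩
  obtain ⟨ζ, hζ⟩ := HasEnoughRootsOfUnity.exists_primitiveRoot k q
  have h0 : ζ ≠ 0 := hζ.ne_zero hp.ne_zero
  have h1 : ∀ i : ℕ, σ (ζ ^ i) = σ 1 + i * b (Units.mk0 ζ h0) := fun i => by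
    induction i with
    | zero => simp
    | succ i ih =>
      have := hσ (Units.mk0 ζ h0) (ζ ^ i) (pow_ne_zero _ h0)
      rw [Units.val_mk0, ← pow_succ', ha, ih] at this
      rw [this]
      push_cast
      ring
  have h2 : b (Units.mk0 ζ h0) = 0 := by
    have := h1 q
    rw [hζ.pow_eq_one, left_eq_add, mul_eq_zero] at this
    exact this.resolve_left (cast_ne_zero l hp (by omega))
  have h3 := Finset.card_le_card_of_injOn (s := Finset.range q) (t := (fin (σ 1)).toFinset)
    (fun i => ζ ^ i) (fun i _ => by simp [h1, h2, h0])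
    fun i hi j hj e => hζ.pow_inj (by simpa using hi) (by simpa using hj) e
  rw [Finset.card_range] at h3
  omega

theorem hom_trivial {G : Type*} [Group G] [Finite G] (φ : kˣ → k → G)
    (h : ∀ (c : kˣ) t (c' : kˣ) t', φ c t * φ c' t' = φ (c * c') (c * t' + t)) (c : kˣ) (t : k) :
    φ c t = 1 := by
  have h1 : φ 1 0 = 1 := by
    have := h 1 0 1 0
    simpa using this
  have h2 : ∀ (d : kˣ) (t : k) (m : ℕ), φ d (t * (1 - d)) ^ m = φ (d ^ m) (t * (1 - d ^ m)) := by
    intro d t m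
    induction m with
    | zero => simp [h1]
    | succ m ih =>
      rw [pow_succ, ih, h, pow_succ]
      congr 1
      push_cast
      ring
  have h3 : ∀ (c : kˣ) (t : k), (c : k) ≠ 1 → φ c t = 1 := fun c t hc => by
    obtain ⟨d, hd⟩ := IsAlgClosed.exists_pow_nat_eq (c : k) (Nat.card_pos (α := G))
    have hd0 : d ≠ 0 := by
      rintro rfl
      exact c.ne_zero (by rw [← hd, zero_pow Nat.card_pos.ne'])
    have h4 := h2 (Units.mk0 d hd0) (t / (1 - c)) (Nat.card G)
    have h5 : Units.mk0 d hd0 ^ Nat.card G = c := Units.ext (by simpa using hd)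
    rw [pow_card_eq_one', h5, Units.val_mk0, hd,
      div_mul_cancel₀ _ (sub_ne_zero.2 (Ne.symm hc))] at h4
    exact h4.symm
  by_cases hc : (c : k) = 1
  · obtain ⟨d, hd⟩ := Infinite.exists_notMem_finset (α := k) (by classical exact {0, 1})
    have hd0 : d ≠ 0 := fun e => hd (by simp [e])
    have hd1 : d ≠ 1 := fun e => hd (by simp [e])
    have h4 := h (Units.mk0 d hd0) t (Units.mk0 d hd0)⁻¹ 0
    rw [h3 _ _ hd1, h3 _ _ (by simpa using hd1), mul_inv_cancel, mul_zero, zero_add,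
      mul_one] at h4
    rw [show c = 1 from Units.ext hc]
    exact h4.symm
  · exact h3 c t hc

theorem exists_equiv {l : Type*} [Field l] [Infinite l] (σ : k → l)
    (hσ : ∀ (c : kˣ) (t : k), ∃ a b, ∀ u, σ (c * u + t) = a * σ u + b)
    (fin : ∀ y, {u | σ u = y}.Finite) (cof : (Set.range σ)ᶜ.Finite) :
    ∃ (β : k ≃+* l) (a b : l), ∀ u, a * σ u + b = β u := by
  have h01 : σ 1 - σ 0 ≠ 0 := fun h => by
    refine infinite_ne_zero (k := k) ((fin (σ 0)).subset fun v hv => ?_)
    obtain ⟨a, b, hab⟩ := hσ (Units.mk0 v hv) 0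
    have h1 := hab 0
    have h2 := hab 1
    simp only [Units.val_mk0, mul_zero, add_zero, mul_one] at h1 h2
    change σ v = σ 0
    linear_combination h2 - h1 + a * h
  obtain ⟨τ, hτ⟩ : ∃ τ : k → l, ∀ u, τ u = (σ 1 - σ 0)⁻¹ * σ u + -σ 0 / (σ 1 - σ 0) :=
    ⟨_, fun _ => rfl⟩
  have hσ' : ∀ u, σ u = (σ 1 - σ 0) * τ u + σ 0 := fun u => by
    rw [hτ]
    field_simp
    ring
  have τ0 : τ 0 = 0 := by
    rw [hτ]
    field_simp
    ring
  have τ1 : τ 1 = 1 := by
    rw [hτ]
    field_simp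
    ring
  have key : ∀ c t u, τ (c * u + t) = (τ (c + t) - τ t) * τ u + τ t := fun c t u => by
    by_cases hc : c = 0
    · simp [hc]
    obtain ⟨a, b, hab⟩ := hσ (Units.mk0 c hc) t
    have h1 := hab 0
    have h2 := hab 1
    have h3 := hab u
    simp only [Units.val_mk0, mul_zero, zero_add, mul_one] at h1 h2 h3
    rw [hσ' t] at h1
    rw [hσ' (c + t)] at h2
    rw [hσ' (c * u + t), hσ' u] at h3
    refine mul_left_cancel₀ h01 ?_
    linear_combination h3 - h1 - τ u * h2 + τ u * h1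
  have mul : ∀ c u, τ (c * u) = τ c * τ u := fun c u => by simpa [τ0] using key c 0 u
  have hA : ∀ t, t ≠ 0 → τ (1 + t) - τ t = τ (1 + 1) - 1 := fun t ht => by
    have h1 := key 1 t t
    have h2 := mul t (1 + 1)
    have h3 := mul t t⁻¹
    rw [mul_inv_cancel₀ ht, τ1] at h3
    rw [one_mul, show t + t = t * (1 + 1) by ring, h2] at h1
    linear_combination -τ t⁻¹ * h1 + (τ (1 + t) - τ t - (τ (1 + 1) - 1)) * h3
  have hα : τ (1 + 1) - 1 = 1 := by
    by_contra hα
    refine infinite_ne_zero (k := k) ((fin (σ 1)).subset fun v hv => ?_)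
    have h1 := key 1 v 1
    have h2 := key 1 1 v
    rw [hA v hv, one_mul, τ1] at h1
    rw [one_mul, τ1, add_comm v, h1] at h2
    have h3 : τ v = 1 := by
      refine mul_left_cancel₀ (sub_ne_zero.2 hα) ?_
      linear_combination -h2
    change σ v = σ 1
    rw [hσ' v, h3]
    ring
  have add : ∀ u t, τ (u + t) = τ u + τ t := fun u t => by
    by_cases ht : t = 0
    · rw [ht, τ0, add_zero, add_zero]
    · have := key 1 t u
      rwa [hA t ht, hα, one_mul, one_mul] at this
  let β : k →+* l :=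
    { toFun := τ
      map_one' := τ1
      map_mul' := mul
      map_zero' := τ0
      map_add' := add }
  have cof' : (Set.range τ)ᶜ.Finite := by
    refine (cof.image fun y => (σ 1 - σ 0)⁻¹ * y + -σ 0 / (σ 1 - σ 0)).subset fun y hy => ?_
    refine ⟨(σ 1 - σ 0) * y + σ 0, ?_, ?_⟩
    · rintro ⟨u, hu⟩
      refine hy ⟨u, mul_left_cancel₀ h01 ?_⟩
      linear_combination hu - hσ' u
    · field_simp
      ring
  have surj : Function.Surjective β := fun y => by
    obtain ⟨x, hx⟩ := (cof'.union (cof'.image fun w => y - w)).infinite_compl.nonempty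
    have h1 : x ∈ Set.range τ := by
      by_contra h
      exact hx (Or.inl h)
    have h2 : y - x ∈ Set.range τ := by
      by_contra h
      exact hx (Or.inr ⟨y - x, h, by ring⟩)
    obtain ⟨u, hu⟩ := h1
    obtain ⟨v, hv⟩ := h2
    refine ⟨u + v, ?_⟩
    change τ (u + v) = y
    rw [add, hu, hv]
    ring
  exact ⟨RingEquiv.ofBijective β ⟨β.injective, surj⟩, _, _, fun u => (hτ u).symm⟩

end AFF2Aux

open AFF2Aux

/-- take `s` with a pole only at `z`, of least order; for an automorphism `γ` fixing `z`,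
`γ s - a s` has a smaller pole for suitable `a`, so it has no pole, so it is constant -/
theorem exists_affine_fn (hC : IsCurve l C) (z : Place l C) :
    ∃ s : C, s ∉ z.O ∧ (∀ z' : Place l C, z' ≠ z → s ∈ z'.O) ∧
      ∀ γ : C ≃ₐ[l] C, (∀ e, γ e ∈ z.O ↔ e ∈ z.O) →
        ∃ a b : l, γ s = algebraMap l C a * s + algebraMap l C b := by
  classical
  have ho := (place_isDVR hC z).isOrd
  have hneg : ∀ s : C, s ∉ z.O → s ≠ 0 ∧ ord z.O s < 0 := fun s hs => by
    have h0 : s ≠ 0 := fun h => hs (h ▸ z.O.zero_mem)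
    exact ⟨h0, not_le.1 fun h => hs ((ho.mem_iff h0).2 h)⟩
  have hex : ∃ n : ℕ, ∃ s : C, s ∉ z.O ∧ (∀ z' : Place l C, z' ≠ z → s ∈ z'.O) ∧
      ord z.O s = -n := by
    obtain ⟨s, h1, h2⟩ := exists_pole_only hC z
    refine ⟨(-ord z.O s).toNat, s, h1, h2, ?_⟩
    have := (hneg s h1).2
    omega
  obtain ⟨s, h1, h2, h3⟩ := Nat.find_spec hex
  refine ⟨s, h1, h2, fun γ hγ => ?_⟩
  have hz : z = pull γ z := eq_pull fun e => (hγ e).symm
  have h0 := (hneg s h1).1
  have hγ0 : γ s ≠ 0 := by simpa using h0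
  have h4 : ord z.O (γ s) = ord z.O s := by
    have := ord_comap z.O γ.toRingEquiv s
    change ord (pull γ z).O s = ord z.O (γ s) at this
    rw [← this, ← hz]
  have h5 : γ s / s ∈ z.O := (ho.mem_iff (div_ne_zero hγ0 h0)).2 (by rw [ho.div hγ0 h0]; omega)
  obtain ⟨a, ha⟩ := place_exists_val hC z h5
  have h6 : ∀ z' : Place l C, z' ≠ z → γ s - algebraMap l C a * s ∈ z'.O := fun z' hz' =>
    z'.O.sub_mem (mem_pull.1 (h2 (pull γ z') fun e => hz' (pull_inj γ (e.trans hz))))
      (z'.O.mul_mem _ _ (z'.triv a) (h2 z' hz'))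
  have h7 : γ s - algebraMap l C a * s ∈ z.O := by
    by_contra h7
    obtain ⟨a1, a2⟩ := hneg _ h7
    have e1 : γ s - algebraMap l C a * s = s * (γ s / s - algebraMap l C a) := by field_simp
    have a3 : γ s / s - algebraMap l C a ≠ 0 := fun h => a1 (by rw [e1, h, mul_zero])
    have a4 := (ho.val_lt_one_iff a3).1 ha
    have a5 := ho.mul h0 a3
    rw [← e1] at a5
    refine Nat.find_min hex (m := (-ord z.O (γ s - algebraMap l C a * s)).toNat) (by omega)
      ⟨_, h7, h6, by omega⟩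
  obtain ⟨b, hb⟩ := const_of_no_pole hC (f := γ s - algebraMap l C a * s) fun z' => by
    by_cases hz' : z' = z
    · rwa [hz']
    · exact h6 z' hz'
  exact ⟨a, b, by rw [hb]; ring⟩

/-- If `P'` were onto, take `s` with its pole at `P' 0`; `c ↦ σ c = ev (P' c) s` maps `kˣ` onto
`l` with finite fibres and `σ (c u) = a c * σ u + b c`. If some `a c ≠ 1` its fixed point is fixed
by all, contradicting transitivity; so `b : kˣ → (l, +)` is a homomorphism with finite kernel, but
roots of unity of prime order different from the characteristics lie in the kernel. -/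
theorem not_surjective (hC : IsCurve l C) {P' : k → Place l C} (hinj : Function.Injective P')
    {γ : kˣ → k → (C ≃ₐ[l] C)}
    (h : ∀ (c : kˣ) t u e, e ∈ (P' (c * u + t)).O ↔ γ c t e ∈ (P' u).O) :
    ¬ Function.Surjective P' := by
  intro hsurj
  obtain ⟨s, h1, h2, h3⟩ := exists_affine_fn hC (P' 0)
  have h4 : ∀ c : kˣ, ∃ a b : l, γ c 0 s = algebraMap l C a * s + algebraMap l C b := fun c =>
    h3 _ fun e => by simpa using (h c 0 0 e).symm
  choose a b hab using h4
  have hs : ∀ u, u ≠ 0 → s ∈ (P' u).O := fun u hu => h2 _ fun e => hu (hinj e)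
  refine no_scaling (fun u => ev l (P' u).O s) a b (fun c u hu => ?_) (fun y => ?_) fun y => ?_
  · have e1 : P' (c * u) = pull (γ c 0) (P' u) := eq_pull fun e => by simpa using h c 0 u e
    have h5 := hs (c * u) (mul_ne_zero c.ne_zero hu)
    simp only [e1] at h5 ⊢
    rw [ev_pull hC _ _ h5, hab, ev_affine hC _ (hs u hu)]
  · exact ((finite_fibre hC h1 y).preimage hinj.injOn).subset fun u hu => ⟨hs u hu.1, hu.2⟩
  · obtain ⟨z, hz, hy⟩ := exists_value hC h1 y
    obtain ⟨u, rfl⟩ := hsurj z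
    exact ⟨u, fun e => h1 (e ▸ hz), hy⟩

/-- The finite nonempty complement of the range is permuted; `kˣ` is divisible, so scalings and
their conjugates, which generate, act trivially. With `s` having its pole at such a fixed place,
`σ u = ev (P' u) s` has finite fibres, cofinite image, `σ (c u + t) = a σ u + b`. Normalize
`σ 0 = 0`, `σ 1 = 1`. For translations `(a t - 1) σ u = (a u - 1) σ t`; if some `a t ≠ 1` then
`σ u = λ (a u - 1)` with `a` a homomorphism, and `u ↦ -u` forces at most two values. So `σ` is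
additive and multiplicative, and onto since a cofinite subgroup of an infinite group is
everything. -/
theorem exists_ringEquiv (hC : IsCurve l C) {P' : k → Place l C} (hinj : Function.Injective P')
    (hcof : ∀ᶠ z in cofinite, z ∈ Set.range P') {γ : kˣ → k → (C ≃ₐ[l] C)}
    (h₂ : ∀ (c : kˣ) t (c' : kˣ) t' e, γ c' t' (γ c t e) = γ (c * c') (c * t' + t) e)
    (h : ∀ (c : kˣ) t u e, e ∈ (P' (c * u + t)).O ↔ γ c t e ∈ (P' u).O) :
    ∃ (β : k ≃+* l) (s : C), ∀ u, ev l (P' u).O s = β u := by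
  have hfin : (Set.range P')ᶜ.Finite := hcof
  have : Finite ↥(Set.range P')ᶜ := hfin.to_subtype
  have e1 : ∀ (c : kˣ) t u, P' (c * u + t) = pull (γ c t) (P' u) := fun c t u => eq_pull (h c t u)
  have hmap : ∀ (c : kˣ) t z, z ∈ (Set.range P')ᶜ → pull (γ c t) z ∈ (Set.range P')ᶜ := by
    rintro c t z hz ⟨v, hv⟩
    refine hz ⟨(v - t) / c, pull_inj (γ c t) ?_⟩
    rw [← e1, ← hv]
    congr 1
    field_simp
    ring
  let φ : kˣ → k → Equiv.Perm ↥(Set.range P')ᶜ := fun c t =>
    Equiv.ofBijective (fun z => ⟨pull (γ c t) z.1, hmap c t z.1 z.2⟩)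
      (Finite.injective_iff_bijective.1 fun z z' e =>
        Subtype.ext (pull_inj (γ c t) (congrArg Subtype.val e)))
  have hφ := hom_trivial φ fun c t c' t' => Equiv.ext fun z => Subtype.ext (by
    change pull (γ c t) (pull (γ c' t') z.1) = pull (γ (c * c') (c * t' + t)) z.1
    exact eq_pull fun e => by rw [mem_pull, mem_pull, h₂])
  obtain ⟨z, hz⟩ : ∃ z, z ∈ (Set.range P')ᶜ := by
    by_contra hn
    refine not_surjective hC hinj h fun z => ?_
    by_contra hz
    exact hn ⟨z, hz⟩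
  have hfix : ∀ (c : kˣ) t, pull (γ c t) z = z := fun c t =>
    congrArg Subtype.val (Equiv.ext_iff.1 (hφ c t) ⟨z, hz⟩)
  obtain ⟨s, h1, h2, h3⟩ := exists_affine_fn hC z
  have hs : ∀ u, s ∈ (P' u).O := fun u => h2 _ fun e => hz ⟨u, e⟩
  obtain ⟨β, a, b, hβ⟩ := exists_equiv (fun u => ev l (P' u).O s) (fun c t => by
      obtain ⟨a, b, hab⟩ := h3 (γ c t) fun e => by rw [← mem_pull, hfix]
      refine ⟨a, b, fun u => ?_⟩
      have h5 := hs (c * u + t)
      simp only [e1] at h5 ⊢
      rw [ev_pull hC _ _ h5, hab, ev_affine hC _ (hs u)])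
    (fun y => ((finite_fibre hC h1 y).preimage hinj.injOn).subset fun u hu => ⟨hs u, hu⟩)
    ((hfin.image fun z' => ev l z'.O s).subset fun y hy => by
      obtain ⟨z', -, hy'⟩ := exists_value hC h1 y
      refine ⟨z', ?_, hy'⟩
      rintro ⟨u, rfl⟩
      exact hy ⟨u, hy'⟩)
  exact ⟨β, algebraMap l C a * s + algebraMap l C b, fun u => by
    rw [ev_affine hC _ (hs u)]
    exact hβ u⟩

theorem exists_coordinate (hC : IsCurve l C) {P : k → Place l C} (hP : CofBij P)
    (hT : ∀ (t : k) (e : C), ∃ e' j, GRel P (fun u => P (u + t)) e' e j)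
    (hM : ∀ (c : k), c ≠ 0 → ∀ e : C, ∃ e' j, GRel P (fun u => P (c * u)) e' e j)
    (hU : ∃ u₀, ∀ᶠ t in cofinite, ∀ e e' j, GRel P (fun u => P (u + t)) e' e j →
      (e ∈ (P (u₀ + t)).O ↔ e' ∈ (P u₀).O)) :
    ∃ (β : k ≃+* l) (s : C), ∀ᶠ u in cofinite, ev l (P u).O s = β u := by
  obtain ⟨γ, h₁, h₂⟩ := exists_action hC hP hT hM
  obtain ⟨P', hinj, heq, h⟩ := exists_equivariant hC hP h₁ h₂ hU
  have hcof : ∀ᶠ z in cofinite, z ∈ Set.range P' := by
    have h3 : {u | ¬ P' u = P u}.Finite := heq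
    filter_upwards [hP.2, (h3.image P).compl_mem_cofinite] with z h4 h5
    obtain ⟨u, rfl⟩ := h4
    by_contra h6
    exact h5 ⟨u, fun e => h6 ⟨u, e⟩, rfl⟩
  obtain ⟨β, s, hs⟩ := exists_ringEquiv hC hinj hcof h₂ h
  refine ⟨β, s, ?_⟩
  filter_upwards [heq] with u hu
  rw [← hu, hs]

end Vale.Agent.P019
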