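import Vale.Agent.P019.Base2

/-! P019: finitely generated field extensions. -/

open IntermediateField

namespace Vale.Agent.P019

namespace FGAAux

/-- Linear disjointness of the constants and a purely transcendental extension. -/
theorem li_adjoin {E A K : Type*} [Field E] [Field A] [Field K] [Algebra E A] [Algebra E K]
    [Algebra A K] [IsScalarTower E A K] {σ ι : Type*} {t : σ → K} (ht : AlgebraicIndependent A t)
    {b : ι → A} (hb : LinearIndependent E b) :
    LinearIndependent (adjoin E (Set.range t)) fun i => algebraMap A K (b i) := by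
  open scoped IntermediateField.algebraAdjoinAdjoin in
  rw [← LinearIndependent.iff_fractionRing (Algebra.adjoin E (Set.range t)),
    linearIndependent_iff']
  intro s g hg i hi
  have h1 : ∀ j, ∃ P : MvPolynomial σ E, MvPolynomial.aeval t P = (g j : K) := fun j =>
    (Algebra.adjoin_range_eq_range_aeval E t).le (g j).2
  choose P hP using h1
  have h2 : ∑ j ∈ s, MvPolynomial.C (b j) * MvPolynomial.map (algebraMap E A) (P j) = 0 := by
    refine ht.eq_zero_of_aeval_eq_zero _ ?_
    rw [map_sum, ← hg]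
    refine Finset.sum_congr rfl fun j _ => ?_
    rw [map_mul, MvPolynomial.aeval_C, MvPolynomial.aeval_map_algebraMap, hP, mul_comm]
    rfl
  have h3 : P i = 0 := by
    ext m
    refine linearIndependent_iff'.1 hb s (fun j => (P j).coeff m) ?_ i hi
    have := congrArg (MvPolynomial.coeff m) h2
    simp only [MvPolynomial.coeff_sum, MvPolynomial.coeff_C_mul, MvPolynomial.coeff_map,
      MvPolynomial.coeff_zero] at this
    rw [← this]
    exact Finset.sum_congr rfl fun j _ => by rw [Algebra.smul_def, mul_comm]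
  exact Subtype.ext (by rw [← hP, h3, map_zero]; rfl)

theorem trdeg_alg.{u} (k : Type*) (F K : Type u) [Field k] [Field F] [Field K] [Algebra k F]
    [Algebra k K] [Algebra F K] [IsScalarTower k F K] :
    Algebra.trdeg k (algebraicClosure F K) = Algebra.trdeg k F := by
  rw [← trdeg_add_eq k F, trdeg_eq_zero (R := F), add_zero]

theorem alg_of_alg {F K : Type*} [Field F] [Field K] [Algebra F K] {y : K}
    (h : IsAlgebraic (algebraicClosure F K) y) : IsAlgebraic F y := h.restrictScalars F

end FGAAux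

/-- With a finite transcendence basis `t` of `K / E` and `N = [K : E(t)]`, every finite
subextension `E'` has `[E' : E] = [E'(t) : E(t)] ≤ N`. -/
theorem finite_algebraicClosure (E K : Type*) [Field E] [Field K] [Algebra E K]
    [Algebra.EssFiniteType E K] : FiniteDimensional E (algebraicClosure E K) := by
  obtain ⟨σ, t, ht⟩ := exists_isTranscendenceBasis' E K
  have := ht.isAlgebraic_field
  have : Algebra.EssFiniteType (adjoin E (Set.range t)) K := .of_comp E _ K
  have : Module.Finite (adjoin E (Set.range t)) K := Algebra.finite_of_essFiniteType_of_isAlgebraic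
  have b := Module.Basis.ofVectorSpace E (algebraicClosure E K)
  have := (FGAAux.li_adjoin ht.1.algebraicClosure b.linearIndependent).finite_of_isNoetherian
  exact b.finiteDimensional_of_finite

variable {k K : Type*} [Field k] [Field K] [Algebra k K]

theorem exists_isFF [Algebra.EssFiniteType k K] : ∃ d : ℕ, IsFF k K d := by
  obtain ⟨d, hd⟩ := Cardinal.lt_aleph0.1 (trdeg_lt_aleph0 k K)
  exact ⟨d, ‹_›, hd⟩

theorem IsFF.exists_basis {d : ℕ} (h : IsFF k K d) :
    ∃ t : Fin d → K, IsTranscendenceBasis k t := by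
  have := h.fg
  obtain ⟨s, hs⟩ := exists_finset_isTranscendenceBasis k K
  have h1 := hs.cardinalMk_eq_trdeg.trans h.trdeg
  rw [Cardinal.mk_coe_finset, Nat.cast_inj] at h1
  exact ⟨_, (isTranscendenceBasis_equiv (s.equivFinOfCardEq h1).symm).2 hs⟩

theorem IsFF.card_le {d : ℕ} (h : IsFF k K d) {ι : Type*} [Fintype ι] {t : ι → K}
    (ht : AlgebraicIndependent k t) : Fintype.card ι ≤ d := by
  have := ht.lift_cardinalMk_le_trdeg
  rw [h.trdeg] at this
  simpa using this

theorem IsFF.isTranscendenceBasis {d : ℕ} (h : IsFF k K d) {ι : Type*} [Fintype ι] {t : ι → K}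
    (ht : AlgebraicIndependent k t) (hc : Fintype.card ι = d) : IsTranscendenceBasis k t :=
  ht.isTranscendenceBasis_of_lift_trdeg_le_of_finite (by simp [h.trdeg, hc])

theorem IsFF.finite_adjoin {d : ℕ} (h : IsFF k K d) {ι : Type*} [Fintype ι] {t : ι → K}
    (ht : AlgebraicIndependent k t) (hc : Fintype.card ι = d) :
    FiniteDimensional (adjoin k (Set.range t)) K := by
  have := h.fg
  have := (h.isTranscendenceBasis ht hc).isAlgebraic_field
  have : Algebra.EssFiniteType (adjoin k (Set.range t)) K := .of_comp k _ K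
  exact Algebra.finite_of_essFiniteType_of_isAlgebraic

/-- an independent family extends to a basis -/
theorem IsFF.exists_extend {r m : ℕ} (h : IsFF k K (r + m)) {x : Fin r → K}
    (hx : AlgebraicIndependent k x) :
    ∃ t : Fin m → K, AlgebraicIndependent k (Sum.elim x t) := by
  obtain ⟨u, hsu, hu⟩ := exists_isTranscendenceBasis_superset hx.to_subtype_range
  have hc := hu.cardinalMk_eq_trdeg.trans h.trdeg
  have hfin : u.Finite := Cardinal.lt_aleph0_iff_set_finite.1 (hc ▸ Cardinal.natCast_lt_aleph0)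
  have hn : u.ncard = r + m := by
    rw [← Set.cast_ncard hfin] at hc
    exact_mod_cast hc
  have hr : (Set.range x).ncard = r := by
    rw [← Set.image_univ, Set.ncard_image_of_injective _ hx.injective, Set.ncard_univ]
    simp
  have hm : Nat.card ↥(u \ Set.range x) = m := by
    rw [Nat.card_coe_set_eq, Set.ncard_sdiff hsu (Set.finite_range x), hn, hr]
    omega
  have : Finite ↥(u \ Set.range x) := hfin.subset Set.sdiff_subset
  have e := (Finite.equivFinOfCardEq hm).symm
  refine ⟨fun j => e j, ?_⟩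
  have h1 : ∀ i, Sum.elim x (fun j => (e j : K)) i ∈ u := by
    rintro (i | j)
    · exact hsu ⟨i, rfl⟩
    · exact (e j).2.1
  refine hu.1.comp (fun i => ⟨_, h1 i⟩) fun i j hij => ?_
  refine Function.Injective.sumElim hx.injective (Subtype.val_injective.comp e.injective)
    (fun a b hab => (e b).2.2 ⟨a, hab⟩) (congrArg Subtype.val hij)

theorem IsFF.exists_pair {d : ℕ} (h : IsFF k K (d + 2)) {x : K} (hx : Transcendental k x) :
    ∃ y, AlgebraicIndependent k ![x, y] := by
  obtain ⟨t, ht⟩ := IsFF.exists_extend (r := 1) (m := d + 1)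
    (by rwa [show 1 + (d + 1) = d + 2 by omega]) (algebraicIndependent_iff_transcendental.2 hx)
  refine ⟨t 0, ?_⟩
  have := ht.comp ![Sum.inl 0, Sum.inr 0] (by intro i j; fin_cases i <;> fin_cases j <;> simp)
  rwa [show Sum.elim ![x] t ∘ ![Sum.inl 0, Sum.inr 0] = ![x, t 0] by
    ext i; fin_cases i <;> rfl] at this

theorem IsCurve.isFF (h : IsCurve k K) : IsFF k K 1 := ⟨h.fg, by rw [h.trdeg, Nat.cast_one]⟩

theorem isCurve_Ecl [Algebra.EssFiniteType k K] {z : K} (hz : Transcendental k z) :
    IsCurve k (Ecl k z) := by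
  have h1 : Algebra.EssFiniteType k k⟮z⟯ :=
    essFiniteType_iff.2 (fg_adjoin_of_finite (Set.finite_singleton z))
  have : Algebra.EssFiniteType k⟮z⟯ K := .of_comp k _ K
  have := finite_algebraicClosure k⟮z⟯ K
  have h2 : Algebra.EssFiniteType k (algebraicClosure k⟮z⟯ K) := .comp k k⟮z⟯ _
  have h3 : Algebra.trdeg k (algebraicClosure k⟮z⟯ K) = 1 := by
    open scoped IntermediateField.algebraAdjoinAdjoin in
    rw [FGAAux.trdeg_alg, ← trdeg_add_eq k (Algebra.adjoin k {z}),
      trdeg_eq_zero (R := Algebra.adjoin k {z}), add_zero]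
    simpa using (Polynomial.algEquivOfTranscendental k z hz).lift_trdeg_eq.symm
  exact ⟨h2, h3⟩

theorem self_mem_Ecl (z : K) : z ∈ Ecl k z :=
  (mem_Ecl k).2 (isAlgebraic_algebraMap (AdjoinSimple.gen k z))

theorem FGAAux.swap {x y : K} (h : AlgebraicIndependent k ![x, y]) :
    AlgebraicIndependent k ![y, x] := by
  have := h.comp _ (Equiv.swap 0 1).injective
  rwa [show ![x, y] ∘ Equiv.swap 0 1 = ![y, x] by ext i; fin_cases i <;> rfl] at this

theorem pair_iff {x y : K} :
    AlgebraicIndependent k ![x, y] ↔ Transcendental k x ∧ y ∉ Ecl k x := by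
  rw [show AlgebraicIndependent k ![x, y] ↔ AlgebraicIndependent k ![y, x] from
      ⟨FGAAux.swap, FGAAux.swap⟩,
    algebraicIndependent_equiv' (finSuccEquiv 1) (f := fun o => o.elim y ![x])
      (by ext i; fin_cases i <;> rfl),
    AlgebraicIndependent.option_iff, algebraicIndependent_iff_transcendental, mem_Ecl,
    isAlgebraic_adjoin_iff, Matrix.range_cons_empty]
  rfl

theorem pair_symm {x y : K} (h : AlgebraicIndependent k ![x, y]) :
    AlgebraicIndependent k ![y, x] := FGAAux.swap h

theorem FGAAux.mem_of_isAlgebraic {z y : K} (h : IsAlgebraic (Ecl k z) y) : y ∈ Ecl k z :=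
  (mem_Ecl k).2 (FGAAux.alg_of_alg h)

theorem FGAAux.Ecl_le {x y : K} (h : y ∈ Ecl k x) : Ecl k y ≤ Ecl k x := fun _ hw =>
  FGAAux.mem_of_isAlgebraic (IsAlgebraic.tower_top_of_subalgebra_le
    (A := k⟮y⟯.toSubalgebra) (B := (Ecl k x).toSubalgebra) (adjoin_simple_le_iff.2 h)
    ((mem_Ecl k).1 hw))

theorem Ecl_eq {x y : K} (hy : Transcendental k y) (h : y ∈ Ecl k x) : Ecl k y = Ecl k x := by
  refine le_antisymm (FGAAux.Ecl_le h) (FGAAux.Ecl_le ?_)
  by_contra hx
  exact (pair_iff.1 (pair_symm (pair_iff.2 ⟨hy, hx⟩))).2 h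

theorem mem_Ecl_of_pow {z y : K} {n : ℕ} (hn : 0 < n) (h : y ^ n ∈ Ecl k z) : y ∈ Ecl k z :=
  (mem_Ecl k).2 (((mem_Ecl k).1 h).of_pow hn)

theorem mem_Ecl_of_isAlgebraic {z y : K} (h : IsAlgebraic (Ecl k z) y) : y ∈ Ecl k z :=
  FGAAux.mem_of_isAlgebraic h

/-- `Ecl k z` is relatively algebraically closed, so `V (Ecl k z)` injects into `V K` -/
theorem cl_Ecl_eq_iff {ℓ : ℕ} [Fact ℓ.Prime] {z : K} {e e' : Ecl k z} (he : e ≠ 0) (he' : e' ≠ 0) :
    cl ℓ (e : K) = cl ℓ (e' : K) ↔ cl ℓ e = cl ℓ e' := by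
  have h1 : (e : K) ≠ 0 := fun h => he (Subtype.ext h)
  have h2 : (e' : K) ≠ 0 := fun h => he' (Subtype.ext h)
  rw [cl_eq_iff h1 h2, cl_eq_iff he he']
  constructor
  · rintro ⟨w, hw, h⟩
    have h3 : w ∈ Ecl k z := by
      refine mem_Ecl_of_pow (Fact.out : ℓ.Prime).pos ?_
      rw [show w ^ ℓ = e / e' by rw [h]; field_simp]
      exact div_mem e.2 e'.2
    exact ⟨⟨w, h3⟩, fun h0 => hw (congrArg Subtype.val h0), Subtype.ext h⟩
  · rintro ⟨w, hw, h⟩
    exact ⟨w, fun h0 => hw (Subtype.ext h0), congrArg Subtype.val h⟩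

theorem transcendental_iff [IsAlgClosed k] {x : K} :
    Transcendental k x ↔ x ∉ Set.range (algebraMap k K) := by
  refine not_congr ⟨fun h => ?_, ?_⟩
  · exact minpoly.mem_range_of_degree_eq_one k x
      (IsAlgClosed.degree_eq_one_of_irreducible k (minpoly.irreducible h.isIntegral))
  · rintro ⟨a, rfl⟩
    exact isAlgebraic_algebraMap a

/-- at most one member of a pencil is dependent on `z` -/
theorem subsingleton_pencil {x y z : K} (h : AlgebraicIndependent k ![x, y])
    (hz : Transcendental k z) :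
    {a : k | y - algebraMap k K a * x ∈ Ecl k z}.Subsingleton := by
  intro a ha b hb
  by_contra hab
  have h0 : algebraMap k K (b - a) ≠ 0 := by
    rw [map_ne_zero]
    exact sub_ne_zero.2 (Ne.symm hab)
  have h1 : x ∈ Ecl k z := by
    have := div_mem (sub_mem ha hb) ((Ecl k z).algebraMap_mem (b - a))
    rwa [show (y - algebraMap k K a * x - (y - algebraMap k K b * x)) / algebraMap k K (b - a)
      = x by rw [div_eq_iff h0, map_sub]; ring] at this
  have h2 : y ∈ Ecl k z := by
    simpa using add_mem ha (mul_mem ((Ecl k z).algebraMap_mem a) h1)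
  obtain ⟨h3, h4⟩ := pair_iff.1 h
  exact h4 (Ecl_eq h3 h1 ▸ h2)

end Vale.Agent.P019
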