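import Vale.Agent.P019.ValExt

/-! P019: monomial valuations. -/

namespace Vale.Agent.P019

namespace MXAux

open MvPolynomial

section aval

variable {F G ι : Type*} [Field F] [AddCommGroup G] [LinearOrder G] [IsOrderedAddMonoid G]
  {v : F → G}

omit [IsOrderedAddMonoid G] in
theorem v_one (hv : IsAVal v) : v 1 = 0 := by
  have := hv.mul 1 1 one_ne_zero one_ne_zero
  rw [mul_one] at this
  exact left_eq_add.1 this

theorem v_neg (hv : IsAVal v) {x : F} (hx : x ≠ 0) : v (-x) = v x := by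
  have h1 : (-1 : F) ≠ 0 := neg_ne_zero.2 one_ne_zero
  have h2 := hv.mul (-1) (-1) h1 h1
  rw [neg_mul_neg, mul_one, v_one hv] at h2
  have h3 : v (-1) = 0 := by
    rcases lt_trichotomy (v (-1)) 0 with h | h | h
    · exact absurd h2 (add_neg h h).ne'
    · exact h
    · exact absurd h2 (add_pos h h).ne
  rw [← neg_one_mul, hv.mul _ _ h1 hx, h3, zero_add]

omit [IsOrderedAddMonoid G] in
theorem v_add (hv : IsAVal v) {r : G → Prop} (hr : ∀ a b, r a → a ≤ b → r b) {x y : F}
    (hx : x = 0 ∨ r (v x)) (hy : y = 0 ∨ r (v y)) : x + y = 0 ∨ r (v (x + y)) := by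
  by_cases h0 : x = 0
  · rwa [h0, zero_add]
  by_cases h1 : y = 0
  · rwa [h1, add_zero]
  by_cases h2 : x + y = 0
  · exact Or.inl h2
  refine Or.inr (hr _ _ ?_ (hv.add x y h0 h1 h2))
  rcases min_choice (v x) (v y) with h | h
  · rw [h]
    exact hx.resolve_left h0
  · rw [h]
    exact hy.resolve_left h1

omit [IsOrderedAddMonoid G] in
theorem v_sum (hv : IsAVal v) {r : G → Prop} (hr : ∀ a b, r a → a ≤ b → r b) {κ : Type*}
    (s : Finset κ) (f : κ → F) (h : ∀ i ∈ s, f i = 0 ∨ r (v (f i))) :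
    ∑ i ∈ s, f i = 0 ∨ r (v (∑ i ∈ s, f i)) :=
  Finset.sum_induction f (fun x => x = 0 ∨ r (v x)) (fun _ _ => v_add hv hr) (Or.inl rfl) h

theorem v_add_eq (hv : IsAVal v) {x y : F} (hx : x ≠ 0) (hy : y = 0 ∨ v x < v y) :
    x + y ≠ 0 ∧ v (x + y) = v x := by
  by_cases h0 : y = 0
  · rw [h0, add_zero]
    exact ⟨hx, rfl⟩
  have h1 := hy.resolve_left h0
  have h2 : x + y ≠ 0 := fun h => by
    rw [eq_neg_of_add_eq_zero_left h, v_neg hv h0] at h1
    exact lt_irrefl _ h1
  have h3 := hv.add x y hx h0 h2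
  have h4 := hv.add (x + y) (-y) h2 (neg_ne_zero.2 h0) (by rwa [add_neg_cancel_right])
  rw [add_neg_cancel_right, v_neg hv h0] at h4
  exact ⟨h2, le_antisymm ((min_le_iff.1 h4).resolve_right h1.not_ge)
    (min_eq_left h1.le ▸ h3)⟩

/-- weight of a monomial -/
def mw (γ : ι → G) (m : ι →₀ ℕ) : G := m.sum fun i n => n • γ i

omit [LinearOrder G] [IsOrderedAddMonoid G] in
theorem mw_add (γ : ι → G) (a b : ι →₀ ℕ) : mw γ (a + b) = mw γ a + mw γ b :=
  Finsupp.sum_add_index' (fun _ => zero_smul _ _) fun _ _ _ => add_smul _ _ _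

/-- lower bound for all weights -/
def Lb (v : F → G) (γ : ι → G) (P : MvPolynomial ι F) (g : G) : Prop :=
  ∀ m ∈ P.support, g ≤ wt v γ P m

variable {γ : ι → G} {P Q : MvPolynomial ι F} {g h : G}

omit [IsOrderedAddMonoid G] in
theorem Lb.alt (hP : Lb v γ P g) (m : ι →₀ ℕ) :
    P.coeff m = 0 ∨ g ≤ v (P.coeff m) + mw γ m := by
  by_cases h : P.coeff m = 0
  · exact Or.inl h
  · exact Or.inr (hP m (mem_support_iff.2 h))

theorem Lb.add (hv : IsAVal v) (hP : Lb v γ P g) (hQ : Lb v γ Q g) : Lb v γ (P + Q) g := by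
  intro m hm
  have := v_add hv (r := fun a => g ≤ a + mw γ m)
    (fun a b h1 h2 => h1.trans (add_le_add h2 le_rfl)) (hP.alt m) (hQ.alt m)
  rw [← coeff_add] at this
  exact this.resolve_left (mem_support_iff.1 hm)

theorem Lb.neg (hv : IsAVal v) (hP : Lb v γ P g) : Lb v γ (-P) g := by
  intro m hm
  rw [support_neg] at hm
  have := hP m hm
  rwa [wt, coeff_neg, v_neg hv (mem_support_iff.1 hm)]

omit [IsOrderedAddMonoid G] in
theorem wt_mul (hv : IsAVal v) {a b : ι →₀ ℕ} (ha : P.coeff a ≠ 0) (hb : Q.coeff b ≠ 0) :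
    v (P.coeff a * Q.coeff b) + mw γ (a + b) = wt v γ P a + wt v γ Q b := by
  rw [hv.mul _ _ ha hb, mw_add, add_add_add_comm]
  rfl

theorem Lb.mul (hv : IsAVal v) (hP : Lb v γ P g) (hQ : Lb v γ Q h) :
    Lb v γ (P * Q) (g + h) := by
  classical
  intro m hm
  have := v_sum hv (r := fun a => g + h ≤ a + mw γ m)
    (fun a b h1 h2 => h1.trans (add_le_add h2 le_rfl))
    (Finset.HasAntidiagonal.antidiagonal m)
    (fun x => P.coeff x.1 * Q.coeff x.2) fun x hx => by
      by_cases h0 : P.coeff x.1 * Q.coeff x.2 = 0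
      · exact Or.inl h0
      · have h1 := left_ne_zero_of_mul h0
        have h2 := right_ne_zero_of_mul h0
        right
        rw [← Finset.HasAntidiagonal.mem_antidiagonal.1 hx, wt_mul hv h1 h2]
        exact add_le_add (hP _ (mem_support_iff.2 h1)) (hQ _ (mem_support_iff.2 h2))
  rw [← coeff_mul] at this
  exact this.resolve_left (mem_support_iff.1 hm)

omit [IsOrderedAddMonoid G] in
theorem min_monomial (m : ι →₀ ℕ) {c : F} (hc : c ≠ 0) :
    IsMinWt v γ (monomial m c) (v c + mw γ m) := by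
  classical
  have h1 : (monomial m c).support = {m} := by rw [support_monomial, if_neg hc]
  have h2 : wt v γ (monomial m c) m = v c + mw γ m := by
    rw [wt, coeff_monomial, if_pos rfl]
    rfl
  rw [IsMinWt, h1]
  exact ⟨⟨m, Finset.mem_singleton_self m, h2⟩, fun n hn => by
    rw [Finset.mem_singleton.1 hn, h2]⟩

omit [IsOrderedAddMonoid G] in
theorem min_ne (hP : IsMinWt v γ P g) : P ≠ 0 := by
  rintro rfl
  obtain ⟨⟨m, hm, -⟩, -⟩ := hP
  simp at hm

end aval

section res

variable {F F' ι : Type*} [Field F] [Field F'] [Algebra F F'] {O : ValuationSubring F'}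
  {t : ι → F'}

theorem val_le_iff {x y : F'} (hy : y ≠ 0) : O.valuation x ≤ O.valuation y ↔ x / y ∈ O := by
  rw [← O.valuation_le_one_iff, map_div₀,
    div_le_one₀ (zero_lt_iff.2 ((Valuation.ne_zero_iff _).2 hy))]

theorem res_prod (ht : ∀ i, t i ∈ O) (s : Finset ι) (n : ι → ℕ) :
    ∏ i ∈ s, t i ^ n i ∈ O ∧ res O (∏ i ∈ s, t i ^ n i) = ∏ i ∈ s, res O (t i) ^ n i := by
  classical
  induction s using Finset.induction_on with
  | empty => simp
  | insert a s ha ih =>
    rw [Finset.prod_insert ha, Finset.prod_insert ha]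
    have h1 := pow_mem (ht a) (n a)
    exact ⟨O.mul_mem _ _ h1 ih.1, by rw [res_mul h1 ih.1, ih.2, res_pow (ht a)]⟩

theorem red (ht : ∀ i, t i ∈ O) (S : Finset (ι →₀ ℕ)) (c : (ι →₀ ℕ) → F)
    (d : (ι →₀ ℕ) → resConst F O)
    (h : ∀ m ∈ S, algebraMap F F' (c m) ∈ O ∧ res O (algebraMap F F' (c m)) = d m) :
    aeval t (∑ m ∈ S, monomial m (c m)) ∈ O ∧ res O (aeval t (∑ m ∈ S, monomial m (c m))) =
      aeval (fun i => res O (t i)) (∑ m ∈ S, monomial m (d m)) := by
  classical
  induction S using Finset.induction_on with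
  | empty => simp
  | insert a S ha ih =>
    have h1 := ih fun m hm => h m (Finset.mem_insert_of_mem hm)
    have h2 := h a (Finset.mem_insert_self _ _)
    have h3 := res_prod ht a.support a
    have h4 := O.mul_mem _ _ h2.1 h3.1
    rw [Finset.sum_insert ha, Finset.sum_insert ha, map_add, map_add, aeval_monomial,
      aeval_monomial, Finsupp.prod, Finsupp.prod]
    exact ⟨O.add_mem _ _ h4 h1.1, by
      rw [res_add h4 h1.1, res_mul h2.1 h3.1, h1.2, h2.2, h3.2]; rfl⟩

theorem coeff_sum_monomial {R : Type*} [CommSemiring R] (S : Finset (ι →₀ ℕ)) (c : (ι →₀ ℕ) → R)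
    {m : ι →₀ ℕ} (hm : m ∈ S) : coeff m (∑ n ∈ S, monomial n (c n)) = c m := by
  classical
  simp [coeff_sum, coeff_monomial, hm]

end res

end MXAux

open MXAux MvPolynomial

theorem exists_isMinWt {F G ι : Type*} [Field F] [AddCommGroup G] [LinearOrder G] (v : F → G)
    (γ : ι → G) {P : MvPolynomial ι F} (hP : P ≠ 0) : ∃ g, IsMinWt v γ P g := by
  obtain ⟨m, hm, h⟩ := P.support.exists_min_image (wt v γ P) (support_nonempty.2 hP)
  exact ⟨_, ⟨m, hm, rfl⟩, h⟩

/-- Gauss lemma with weights: among the monomials of least weight take the largest ones for a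
monomial order (`MonomialOrder.lex` after choosing a well order on the finite type `ι`, or
`toLex`); their product is a monomial of `P * Q` of weight `g + h`. -/
theorem IsMinWt.mul {F G ι : Type*} [Field F] [AddCommGroup G] [LinearOrder G]
    [IsOrderedAddMonoid G] [Fintype ι] {v : F → G} (hv : IsAVal v) {γ : ι → G}
    {P Q : MvPolynomial ι F} {g h : G} (hP : IsMinWt v γ P g) (hQ : IsMinWt v γ Q h) :
    IsMinWt v γ (P * Q) (g + h) := by
  classical
  refine ⟨?_, Lb.mul hv hP.2 hQ.2⟩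
  obtain ⟨a, ha, b, hb, hu⟩ := UniqueSums.uniqueAdd_of_nonempty
    (A := P.support.filter fun m => wt v γ P m = g) (B := Q.support.filter fun m => wt v γ Q m = h)
    (hP.1.imp fun _ hm => Finset.mem_filter.2 hm) (hQ.1.imp fun _ hm => Finset.mem_filter.2 hm)
  obtain ⟨ha1, ha2⟩ := Finset.mem_filter.1 ha
  obtain ⟨hb1, hb2⟩ := Finset.mem_filter.1 hb
  have a0 := mem_support_iff.1 ha1
  have b0 := mem_support_iff.1 hb1
  have e1 := wt_mul (γ := γ) hv a0 b0
  rw [ha2, hb2] at e1
  have h1 := v_sum hv (r := fun x => v (P.coeff a * Q.coeff b) < x)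
    (fun _ _ h1 h2 => h1.trans_le h2)
    ((Finset.HasAntidiagonal.antidiagonal (a + b)).erase (a, b))
    (fun x => P.coeff x.1 * Q.coeff x.2) fun x hx => by
      by_cases h0 : P.coeff x.1 * Q.coeff x.2 = 0
      · exact Or.inl h0
      obtain ⟨x1, x2⟩ := Finset.mem_erase.1 hx
      have x3 := Finset.HasAntidiagonal.mem_antidiagonal.1 x2
      have h1 := left_ne_zero_of_mul h0
      have h2 := right_ne_zero_of_mul h0
      have h3 := hP.2 _ (mem_support_iff.2 h1)
      have h4 := hQ.2 _ (mem_support_iff.2 h2)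
      right
      refine lt_of_add_lt_add_right (a := mw γ (a + b)) ?_
      rw [e1, ← x3, wt_mul hv h1 h2]
      rcases h3.lt_or_eq with h5 | h5
      · exact add_lt_add_of_lt_of_le h5 h4
      rcases h4.lt_or_eq with h6 | h6
      · exact add_lt_add_of_le_of_lt h3 h6
      have := hu (Finset.mem_filter.2 ⟨mem_support_iff.2 h1, h5.symm⟩)
        (Finset.mem_filter.2 ⟨mem_support_iff.2 h2, h6.symm⟩) x3
      exact absurd (Prod.ext this.1 this.2) x1
  have h2 := v_add_eq hv (mul_ne_zero a0 b0) h1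
  rw [Finset.add_sum_erase _ (fun x : (ι →₀ ℕ) × (ι →₀ ℕ) => P.coeff x.1 * Q.coeff x.2)
    (Finset.HasAntidiagonal.mem_antidiagonal.2 rfl :
      (a, b) ∈ Finset.HasAntidiagonal.antidiagonal (a + b)), ← coeff_mul] at h2
  exact ⟨a + b, mem_support_iff.2 h2.1, by rw [wt, h2.2]; exact e1⟩

/-- the ring of all `P(t) / Q(t)` with `wt Q ≤ wt P` is a valuation ring of `F(t)`; extend it with
`exists_comap_eq`. -/
theorem exists_isMonVal {F F' G ι : Type*} [Field F] [Field F'] [Algebra F F'] [AddCommGroup G]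
    [LinearOrder G] [IsOrderedAddMonoid G] [Fintype ι] {v : F → G} (hv : IsAVal v) (γ : ι → G)
    {t : ι → F'} (ht : AlgebraicIndependent F t) : ∃ O, IsMonVal v γ t O := by
  let a := algebraMap (MvPolynomial ι F) (FractionRing (MvPolynomial ι F))
  have ai : Function.Injective a := IsFractionRing.injective _ _
  have a0 : ∀ {P}, P ≠ 0 → a P ≠ 0 := fun h => (map_ne_zero_iff a ai).2 h
  obtain ⟨u, hu⟩ := exists_isMinWt v γ (one_ne_zero : (1 : MvPolynomial ι F) ≠ 0)
  have z0 : (0 : FractionRing (MvPolynomial ι F)) ∈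
      {x | ∃ P Q h, IsMinWt v γ Q h ∧ x * a Q = a P ∧ Lb v γ P h} :=
    ⟨0, 1, u, hu, by simp, fun m hm => by simp at hm⟩
  let O₀ : ValuationSubring (FractionRing (MvPolynomial ι F)) :=
    { carrier := {x | ∃ P Q h, IsMinWt v γ Q h ∧ x * a Q = a P ∧ Lb v γ P h}
      mul_mem' := by
        rintro x y ⟨P, Q, h, h1, h2, h3⟩ ⟨P', Q', h', k1, k2, k3⟩
        exact ⟨P * P', Q * Q', h + h', h1.mul hv k1, by
          rw [map_mul, map_mul, ← h2, ← k2]; ring, h3.mul hv k3⟩
      one_mem' := ⟨1, 1, u, hu, one_mul _, hu.2⟩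
      add_mem' := by
        rintro x y ⟨P, Q, h, h1, h2, h3⟩ ⟨P', Q', h', k1, k2, k3⟩
        exact ⟨P * Q' + Q * P', Q * Q', h + h', h1.mul hv k1, by
          rw [map_add, map_mul, map_mul, map_mul, ← h2, ← k2]; ring,
          (h3.mul hv k1.2).add hv (Lb.mul hv h1.2 k3)⟩
      zero_mem' := z0
      neg_mem' := by
        rintro x ⟨P, Q, h, h1, h2, h3⟩
        exact ⟨-P, Q, h, h1, by rw [map_neg, ← h2, neg_mul], h3.neg hv⟩
      mem_or_inv_mem' := fun x => by
        obtain ⟨P, Q, hQ, rfl⟩ := IsFractionRing.div_surjective (A := MvPolynomial ι F) x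
        have hQ0 := nonZeroDivisors.ne_zero hQ
        by_cases hP : P = 0
        · left
          rw [hP, map_zero, zero_div]
          exact z0
        obtain ⟨g, hg⟩ := exists_isMinWt v γ hP
        obtain ⟨h, hh⟩ := exists_isMinWt v γ hQ0
        rcases le_total h g with k | k
        · exact Or.inl ⟨P, Q, h, hh, div_mul_cancel₀ _ (a0 hQ0), fun m hm => k.trans (hg.2 m hm)⟩
        · exact Or.inr ⟨Q, P, g, hg, by rw [inv_div]; exact div_mul_cancel₀ _ (a0 hP),
            fun m hm => k.trans (hh.2 m hm)⟩ }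
  have hi : Function.Injective (aeval t : MvPolynomial ι F →ₐ[F] F').toRingHom := ht
  obtain ⟨O, hO⟩ := exists_comap_eq
    (IsFractionRing.lift (K := FractionRing (MvPolynomial ι F)) hi) O₀
  refine ⟨O, fun P Q g h hg hh => ?_⟩
  have hQ := min_ne hh
  have e : a P / a Q ∈ O₀ ↔ aeval t P / aeval t Q ∈ O := by
    rw [← hO, ValuationSubring.mem_comap, map_div₀, IsFractionRing.lift_algebraMap,
      IsFractionRing.lift_algebraMap]
    rfl
  have hq : aeval t Q ≠ 0 := (map_ne_zero_iff _ hi).2 hQ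
  rw [val_le_iff hq, ← e]
  constructor
  · rintro ⟨P', Q', h', k1, k2, k3⟩
    have k4 : P * Q' = P' * Q := ai (by
      rw [map_mul, map_mul, ← k2, div_mul_eq_mul_div, div_mul_cancel₀ _ (a0 hQ)])
    obtain ⟨m, m1, m2⟩ := (hg.mul hv k1).1
    rw [k4] at m1 m2
    have k5 := k3.mul hv hh.2 m m1
    rw [m2, add_comm] at k5
    exact le_of_add_le_add_right k5
  · exact fun k => ⟨P, Q, h, hh, div_mul_cancel₀ _ (a0 hQ), fun m hm => k.trans (hg.2 m hm)⟩

/-- Gauss extension (weights `0` over `aval O`) -/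
theorem exists_isGauss {F F' ι : Type*} [Field F] [Field F'] [Algebra F F'] [Fintype ι]
    (O : ValuationSubring F) {t : ι → F'} (ht : AlgebraicIndependent F t) :
    ∃ O' : ValuationSubring F', O'.comap (algebraMap F F') = O ∧ IsGauss F O' t := by
  obtain ⟨O', h⟩ := exists_isMonVal (isAVal_aval O) (fun _ : ι => 0) ht
  have m0 : ∀ m : ι →₀ ℕ, mw (fun _ : ι => (0 : AG O)) m = 0 := fun m => by simp [mw]
  have h1 := min_monomial (v := aval O) (γ := fun _ : ι => 0) 0 one_ne_zero
  have e0 : ∀ c : F, aeval t (monomial 0 c) = algebraMap F F' c := fun c => aeval_C t c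
  refine ⟨O', ?_, fun i => ?_, fun P m => ?_⟩
  · ext x
    by_cases hx : x = 0
    · simp [hx]
    have h2 := h _ _ _ _ (min_monomial 0 hx) h1
    rw [e0, e0, m0, add_zero, add_zero, aval_le_iff O one_ne_zero hx, map_one, map_one, map_one,
      O.valuation_le_one_iff, O'.valuation_le_one_iff] at h2
    exact h2
  · have h2 := (h _ _ _ _ (min_monomial (v := aval O) (γ := fun _ : ι => 0) (Finsupp.single i 1)
      (one_ne_zero : (1 : F) ≠ 0)) h1).2 (by rw [m0, m0])
    rw [e0 1, map_one (algebraMap F F'), map_one O'.valuation, O'.valuation_le_one_iff] at h2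
    rwa [← aeval_X (R := F) t i]
  · by_cases hc : P.coeff m = 0
    · simp [hc]
    have hP : P ≠ 0 := fun hP => hc (by rw [hP, coeff_zero])
    obtain ⟨g, hg⟩ := exists_isMinWt (aval O) (fun _ : ι => 0) hP
    have h2 := h _ _ _ _ (min_monomial 0 hc) hg
    rw [e0, m0, ← m0 m] at h2
    exact h2.2 (hg.2 m (mem_support_iff.2 hc))

theorem IsGauss.exists_val_eq {F F' ι : Type*} [Field F] [Field F'] [Algebra F F']
    {O : ValuationSubring F'} {t : ι → F'} (h : IsGauss F O t) {P : MvPolynomial ι F}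
    (hP : P ≠ 0) : ∃ m ∈ P.support,
      O.valuation (MvPolynomial.aeval t P) = O.valuation (algebraMap F F' (P.coeff m)) := by
  obtain ⟨m, hm, h1⟩ := P.support.exists_max_image
    (fun m => O.valuation (algebraMap F F' (P.coeff m))) (support_nonempty.2 hP)
  refine ⟨m, hm, le_antisymm ?_ (h.2 P m)⟩
  rw [aeval_def, eval₂_eq]
  refine O.valuation.map_sum_le fun d hd => ?_
  rw [map_mul]
  exact (mul_le_of_le_one_right' ((O.valuation_le_one_iff _).2 (res_prod h.1 _ _).1)).trans
    (h1 d hd)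

/-- a Gauss extension has the same value group -/
theorem IsGauss.exists_val_adjoin {F F' ι : Type*} [Field F] [Field F'] [Algebra F F']
    {O : ValuationSubring F'} {t : ι → F'} (h : IsGauss F O t) {x : F'}
    (hx : x ∈ IntermediateField.adjoin F (Set.range t)) :
    ∃ a : F, O.valuation x = O.valuation (algebraMap F F' a) := by
  obtain ⟨r, s, rfl⟩ := (IntermediateField.mem_adjoin_range_iff F t x).1 hx
  by_cases hr : r = 0
  · exact ⟨0, by simp [hr]⟩
  by_cases hs : s = 0
  · exact ⟨0, by simp [hs]⟩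
  obtain ⟨m, -, h1⟩ := h.exists_val_eq hr
  obtain ⟨n, -, h2⟩ := h.exists_val_eq hs
  exact ⟨r.coeff m / s.coeff n, by rw [map_div₀, map_div₀, map_div₀, h1, h2]⟩

theorem isGauss_iff {F F' ι : Type*} [Field F] [Field F'] [Algebra F F']
    {O : ValuationSubring F'} {t : ι → F'} : IsGauss F O t ↔
      (∀ i, t i ∈ O) ∧ AlgebraicIndependent (resConst F O) (fun i => res O (t i)) := by
  refine and_congr_right fun ht => ⟨fun h => algebraicIndependent_iff.2 fun p hp => ?_,
    fun h P m => ?_⟩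
  · choose c hc using fun m => (p.coeff m).2
    have h1 := red ht p.support c (fun m => p.coeff m) fun m _ => hc m
    rw [← as_sum p, hp, res_eq_zero_iff h1.1] at h1
    refine support_eq_empty.1 (Finset.eq_empty_of_forall_notMem fun m hm => ?_)
    have h2 := (h _ m).trans_lt h1.2
    rw [coeff_sum_monomial _ _ hm, ← res_eq_zero_iff (hc m).1, (hc m).2] at h2
    exact mem_support_iff.1 hm (Subtype.ext h2)
  · by_cases hm : P.coeff m = 0
    · simp [hm]
    obtain ⟨n, hn, h1⟩ := P.support.exists_max_image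
      (fun m => O.valuation (algebraMap F F' (P.coeff m))) ⟨m, mem_support_iff.2 hm⟩
    have n0 := mem_support_iff.1 hn
    have n1 : algebraMap F F' (P.coeff n) ≠ 0 := (map_ne_zero _).2 n0
    classical
    have h2 : ∀ k ∈ P.support, algebraMap F F' (P.coeff k / P.coeff n) ∈ O := fun k hk => by
      rw [map_div₀]
      exact (val_le_iff n1).1 (h1 k hk)
    have h3 := red ht P.support (fun k => P.coeff k / P.coeff n)
      (fun k => if hk : k ∈ P.support then ⟨_, _, h2 k hk, rfl⟩ else 0)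
      fun k hk => ⟨h2 k hk, by rw [dif_pos hk]⟩
    have h4 := mt (algebraicIndependent_iff.1 h _) fun h0 => by
      have h5 := congrArg (coeff n) h0
      rw [coeff_sum_monomial _ (fun k => if hk : k ∈ P.support then
        (⟨_, _, h2 k hk, rfl⟩ : resConst F O) else 0) hn, dif_pos hn, coeff_zero] at h5
      have h6 := congrArg Subtype.val h5
      simp [div_self n0] at h6
    rw [← h3.2] at h4
    have h5 := val_eq_one_of_res h4
    have h6 : P = C (P.coeff n) * ∑ k ∈ P.support, monomial k (P.coeff k / P.coeff n) := by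
      rw [Finset.mul_sum]
      conv_lhs => rw [as_sum P]
      refine Finset.sum_congr rfl fun k _ => ?_
      rw [C_mul_monomial, mul_div_cancel₀ _ n0]
    have h7 : O.valuation (aeval t P) = O.valuation (algebraMap F F' (P.coeff n)) := by
      conv_lhs => rw [h6, map_mul, map_mul, h5, mul_one, aeval_C]
    rw [h7]
    exact h1 m (mem_support_iff.2 hm)

end Vale.Agent.P019
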