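import Vale.Agent.P019.ValH
import Vale.Agent.P019.MX
import Vale.Agent.P019.FGA

/-! P019: Abhyankar inequality. -/

open IsLocalRing IntermediateField

namespace Vale.Agent.P019

variable {ℓ : ℕ} [Fact ℓ.Prime] {k K : Type*} [Field k] [Field K] [Algebra k K]
  {O : ValuationSubring K}

namespace AIAux

theorem res_sum {α : Type*} (t : Finset α) (f : α → K) (hf : ∀ a ∈ t, f a ∈ O) :
    res O (∑ a ∈ t, f a) = ∑ a ∈ t, res O (f a) := by
  classical
  induction t using Finset.induction_on with
  | empty => simp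
  | insert a t ha ih =>
    rw [Finset.sum_insert ha, Finset.sum_insert ha, res_add (hf a (by simp))
      (sum_mem fun i hi => hf i (by simp [hi])), ih fun i hi => hf i (by simp [hi])]

theorem res_prod {α : Type*} (t : Finset α) (f : α → K) (hf : ∀ a ∈ t, f a ∈ O) :
    res O (∏ a ∈ t, f a) = ∏ a ∈ t, res O (f a) := by
  classical
  induction t using Finset.induction_on with
  | empty => simp
  | insert a t ha ih =>
    rw [Finset.prod_insert ha, Finset.prod_insert ha, res_mul (hf a (by simp))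
      (prod_mem fun i hi => hf i (by simp [hi])), ih fun i hi => hf i (by simp [hi])]

theorem group {ι' : Type*} {b : ι' → K} (hb : ∀ j, b j ∈ O)
    (hli : LinearIndependent (resConst k O) fun j => res O (b j)) (t : Finset ι') (c : ι' → k) :
    ∃ a : k, O.valuation (∑ j ∈ t, algebraMap k K (c j) * b j) = O.valuation (algebraMap k K a) ∧
      ∀ j ∈ t, O.valuation (algebraMap k K (c j)) ≤ O.valuation (algebraMap k K a) := by
  classical
  rcases t.eq_empty_or_nonempty with rfl | ht
  · exact ⟨0, by simp, by simp⟩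
  obtain ⟨j₀, hj₀, hm⟩ := t.exists_max_image (fun j => O.valuation (algebraMap k K (c j))) ht
  refine ⟨c j₀, ?_, hm⟩
  by_cases h0 : c j₀ = 0
  · rw [h0, map_zero, Finset.sum_eq_zero]
    intro j hj
    have h1 := hm j hj
    rw [h0, map_zero, map_zero, le_zero_iff, map_eq_zero] at h1
    rw [h1, zero_mul]
  have h0' : algebraMap k K (c j₀) ≠ 0 := by simpa using h0
  have hv : 0 < O.valuation (algebraMap k K (c j₀)) := zero_lt_iff.2 (by simpa using h0)
  have hd : ∀ j ∈ t, algebraMap k K (c j / c j₀) ∈ O := fun j hj => by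
    rw [← O.valuation_le_one_iff, map_div₀, map_div₀]
    exact div_le_one_of_le₀ (hm j hj) hv.le
  have h1 : res O (∑ j ∈ t, algebraMap k K (c j / c j₀) * b j) ≠ 0 := by
    intro h
    rw [res_sum _ _ fun j hj => O.mul_mem _ _ (hd j hj) (hb j)] at h
    have h2 := linearIndependent_iff'.1 hli t (fun j => if hj : j ∈ t then
      ⟨res O (algebraMap k K (c j / c j₀)), _, hd j hj, rfl⟩ else 0) (by
        rw [← h]
        refine Finset.sum_congr rfl fun j hj => ?_
        rw [dif_pos hj, res_mul (hd j hj) (hb j)]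
        rfl) j₀ hj₀
    rw [dif_pos hj₀] at h2
    have h3 := congrArg Subtype.val h2
    simp [div_self h0] at h3
  have h2 : ∑ j ∈ t, algebraMap k K (c j) * b j =
      algebraMap k K (c j₀) * ∑ j ∈ t, algebraMap k K (c j / c j₀) * b j := by
    rw [Finset.mul_sum]
    refine Finset.sum_congr rfl fun j _ => ?_
    rw [map_div₀]; field_simp
  rw [h2, map_mul, val_eq_one_of_res h1, mul_one]

theorem distinct {α : Type*} (s : Finset α) (x : α → K)
    (h : ∀ i ∈ s, ∀ j ∈ s, x i ≠ 0 → O.valuation (x i) = O.valuation (x j) → i = j)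
    {i : α} (hi : i ∈ s) : O.valuation (x i) ≤ O.valuation (∑ j ∈ s, x j) := by
  classical
  obtain ⟨j₀, hj₀, hm⟩ := s.exists_max_image (fun j => O.valuation (x j)) ⟨i, hi⟩
  by_cases h0 : x j₀ = 0
  · exact (hm i hi).trans (by rw [h0, map_zero]; exact zero_le)
  rw [O.valuation.map_sum_eq_of_lt hj₀ fun j hj => ?_]
  · exact hm i hi
  · rw [Finset.mem_sdiff, Finset.mem_singleton] at hj
    exact lt_of_le_of_ne (hm j hj.1) fun e => hj.2 (h j₀ hj₀ j hj.1 h0 e.symm).symm

theorem mono_ne {ι : Type*} [Fintype ι] {π : ι → K} (hπ : ValIndep k O π) (m : ι → ℤ) :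
    ∏ i, π i ^ m i ≠ 0 := Finset.prod_ne_zero_iff.2 fun i _ => zpow_ne_zero _ (hπ.1 i)

theorem mono_div {ι : Type*} [Fintype ι] {π : ι → K} (hπ : ValIndep k O π) (a a' : k)
    (m m' : ι → ℤ) : algebraMap k K (a / a') * ∏ i, π i ^ (m - m') i =
      (algebraMap k K a * ∏ i, π i ^ m i) / (algebraMap k K a' * ∏ i, π i ^ m' i) := by
  rw [map_div₀, mul_div_mul_comm, ← Finset.prod_div_distrib]
  congr 1
  exact Finset.prod_congr rfl fun i _ => zpow_sub₀ (hπ.1 i) _ _

theorem exp_eq {ι : Type*} [Fintype ι] {π : ι → K} (hπ : ValIndep k O π) {a a' : k}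
    {m m' : ι → ℤ} (h0 : O.valuation (algebraMap k K a * ∏ i, π i ^ m i) ≠ 0)
    (h : O.valuation (algebraMap k K a * ∏ i, π i ^ m i) =
      O.valuation (algebraMap k K a' * ∏ i, π i ^ m' i)) : m = m' := by
  have h1 := hπ.2 (m - m') (a / a') (by rw [mono_div hπ, map_div₀, ← h, div_self h0])
  funext i
  exact sub_eq_zero.1 (h1 i)

end AIAux

open AIAux

/-- group the terms by `p.1`; inside a group divide by the coefficient of largest value and reduce;
different groups have different values by `ValIndep`. -/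
theorem val_le_sum {ι ι' : Type*} [Fintype ι] {π : ι → K} (hπ : ValIndep k O π) {b : ι' → K}
    (hb : ∀ j, b j ∈ O) (hli : LinearIndependent (resConst k O) fun j => res O (b j))
    (s : Finset ((ι → ℤ) × ι')) (c : (ι → ℤ) × ι' → k) {p : (ι → ℤ) × ι'} (hp : p ∈ s) :
    O.valuation (algebraMap k K (c p) * ∏ i, π i ^ p.1 i) ≤
      O.valuation (∑ r ∈ s, algebraMap k K (c r) * (∏ i, π i ^ r.1 i) * b r.2) := by
  classical
  set c' : (ι → ℤ) × ι' → k := fun r => if r ∈ s then c r else 0 with hc'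
  choose a ha using fun m => group hb hli (s.image Prod.snd) (fun j => c' (m, j))
  have e : ∑ r ∈ s, algebraMap k K (c r) * (∏ i, π i ^ r.1 i) * b r.2 =
      ∑ m ∈ s.image Prod.fst, (∑ j ∈ s.image Prod.snd, algebraMap k K (c' (m, j)) * b j) *
        ∏ i, π i ^ m i := by
    simp only [Finset.sum_mul]
    rw [← Finset.sum_product', ← Finset.sum_subset Finset.subset_product]
    · refine Finset.sum_congr rfl fun r hr => ?_
      simp only [hc', Prod.mk.eta, if_pos hr]; ring
    · intro r _ hr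
      simp only [hc', Prod.mk.eta, if_neg hr, map_zero, zero_mul]
  have hv : ∀ m, O.valuation ((∑ j ∈ s.image Prod.snd, algebraMap k K (c' (m, j)) * b j) *
      ∏ i, π i ^ m i) = O.valuation (algebraMap k K (a m) * ∏ i, π i ^ m i) := fun m => by
    rw [map_mul, map_mul, (ha m).1]
  rw [e]
  refine le_trans ?_ (distinct _ _ (fun m _ m' _ h0 h => ?_) (Finset.mem_image_of_mem _ hp))
  · rw [hv, map_mul, map_mul]
    have := (ha p.1).2 p.2 (Finset.mem_image_of_mem _ hp)
    simp only [hc', Prod.mk.eta, if_pos hp] at this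
    exact mul_le_mul_left this _
  · rw [hv, hv] at h
    exact exp_eq hπ (by rw [← hv]; exact (Valuation.ne_zero_iff _).2 h0) h

namespace AIAux

theorem linInd {ι ι' : Type*} [Fintype ι] {π : ι → K} (hπ : ValIndep k O π) {b : ι' → K}
    (hb : ∀ j, b j ∈ O) (hli : LinearIndependent (resConst k O) fun j => res O (b j)) :
    LinearIndependent k fun r : (ι → ℤ) × ι' => (∏ i, π i ^ r.1 i) * b r.2 := by
  refine linearIndependent_iff'.2 fun s c hs p hp => ?_
  have h := val_le_sum hπ hb hli s c hp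
  simp only [Algebra.smul_def, ← mul_assoc] at hs
  rw [hs, map_zero, le_zero_iff, map_eq_zero, mul_eq_zero] at h
  simpa using h.resolve_right (mono_ne hπ _)

/-- monomials -/
def mon {σ A : Type*} [CommRing A] (t : σ → A) (m : σ →₀ ℕ) : A := m.prod fun i n => t i ^ n

theorem algInd_iff {σ R A : Type*} [CommRing R] [CommRing A] [Algebra R A] {t : σ → A} :
    AlgebraicIndependent R t ↔ LinearIndependent R (mon t) := by
  have e : mon t = (MvPolynomial.aeval t : MvPolynomial σ R →ₐ[R] A).toLinearMap ∘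
      MvPolynomial.basisMonomials σ R := by
    funext m
    simp [mon, MvPolynomial.coe_basisMonomials, MvPolynomial.aeval_monomial]
  rw [algebraicIndependent_iff_injective_aeval, e]
  exact ⟨fun h => (MvPolynomial.basisMonomials σ R).linearIndependent.map' _
    (LinearMap.ker_eq_bot.2 h), fun h => LinearMap.injective_of_linearIndependent
      (MvPolynomial.basisMonomials σ R).span_eq h⟩

theorem mon_mem {σ : Type*} {u : σ → K} (hu : ∀ i, u i ∈ O) (m : σ →₀ ℕ) : mon u m ∈ O :=
  prod_mem fun i _ => pow_mem (hu i) _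

theorem res_mon {σ : Type*} {u : σ → K} (hu : ∀ i, u i ∈ O) (m : σ →₀ ℕ) :
    res O (mon u m) = mon (fun i => res O (u i)) m := by
  unfold mon Finsupp.prod
  rw [res_prod _ _ fun i _ => pow_mem (hu i) _]
  exact Finset.prod_congr rfl fun i _ => res_pow (hu i) _

/-- splitting of exponents -/
noncomputable def spl {ι ι' : Type*} (m : ι ⊕ ι' →₀ ℕ) : (ι → ℤ) × (ι' →₀ ℕ) :=
  (fun i => (m (Sum.inl i) : ℤ), (Finsupp.sumFinsuppEquivProdFinsupp m).2)

theorem spl_inj {ι ι' : Type*} : Function.Injective (spl : (ι ⊕ ι' →₀ ℕ) → _) := by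
  intro m m' h
  ext (i | i)
  · exact Nat.cast_injective (R := ℤ) (congrFun (congrArg Prod.fst h) i)
  · exact DFunLike.congr_fun (congrArg Prod.snd h) i

theorem mon_elim {ι ι' : Type*} [Fintype ι] (π : ι → K) (u : ι' → K) (m : ι ⊕ ι' →₀ ℕ) :
    mon (Sum.elim π u) m = (∏ i, π i ^ (spl m).1 i) * mon u (spl m).2 := by
  obtain ⟨⟨m₁, m₂⟩, rfl⟩ := Finsupp.sumFinsuppEquivProdFinsupp.symm.surjective m
  simp only [spl, Equiv.apply_symm_apply, Finsupp.sumFinsuppEquivProdFinsupp_symm_inl,
    zpow_natCast]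
  refine (Finsupp.prod_sumElim m₁ m₂ _).trans ?_
  rw [Finsupp.prod_fintype _ _ (by simp)]
  rfl

theorem linInd_adjoin {σ α : Type*} {t : σ → K} {y : α → K}
    (h : LinearIndependent k fun r : (σ →₀ ℕ) × α => mon t r.1 * y r.2) :
    LinearIndependent (adjoin k (Set.range t)) y := by
  classical
  open scoped algebraAdjoinAdjoin in
  rw [← LinearIndependent.iff_fractionRing (Algebra.adjoin k (Set.range t))]
  refine linearIndependent_iff'.2 fun s g hg j hj => ?_
  have h1 : ∀ j, ∃ P : MvPolynomial σ k, MvPolynomial.aeval t P = g j := fun j =>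
    (AlgHom.mem_range _).1 (Algebra.adjoin_range_eq_range_aeval k t ▸ (g j).2)
  choose P hP using h1
  have h2 := linearIndependent_iff'.1 h ((s.biUnion fun j => (P j).support) ×ˢ s)
    (fun r => (P r.2).coeff r.1) (by
      rw [← hg, Finset.sum_product_right]
      refine Finset.sum_congr rfl fun i hi => ?_
      rw [Subalgebra.smul_def, ← hP, smul_eq_mul, MvPolynomial.aeval_def, MvPolynomial.eval₂_eq,
        Finset.sum_mul]
      symm
      refine Finset.sum_subset_zero_on_sdiff (Finset.subset_biUnion_of_mem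
        (fun j => (P j).support) hi) (fun m hm => ?_) fun m _ => ?_
      · rw [MvPolynomial.notMem_support_iff.1 (Finset.mem_sdiff.1 hm).2, zero_smul]
      · rw [Algebra.smul_def, mul_assoc]; rfl)
  have h3 : P j = 0 := by
    ext m
    by_contra hm
    exact hm (h2 (m, j) (Finset.mem_product.2 ⟨Finset.mem_biUnion.2
      ⟨j, hj, MvPolynomial.mem_support_iff.2 hm⟩, hj⟩))
  exact Subtype.ext (by rw [← hP, h3, map_zero]; rfl)

theorem valIndep_of_dvd [IsAlgClosed k] {ι : Type*} [Fintype ι] {π : ι → K}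
    (h0 : ∀ i, π i ≠ 0) (h : ∀ (m : ι → ℤ) (c : k),
      O.valuation (algebraMap k K c * ∏ i, π i ^ m i) = 1 → ∀ i, (ℓ : ℤ) ∣ m i) :
    ValIndep k O π := by
  have hp : ℓ.Prime := Fact.out
  have key : ∀ n : ℕ, ∀ (m : ι → ℤ) (c : k),
      O.valuation (algebraMap k K c * ∏ i, π i ^ m i) = 1 → ∀ i, (ℓ : ℤ) ^ n ∣ m i := by
    intro n
    induction n with
    | zero => intro m c _ i; simp
    | succ n ih =>
      intro m c hm i
      choose m' hm' using h m c hm
      obtain ⟨c', rfl⟩ := IsAlgClosed.exists_pow_nat_eq c hp.pos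
      have h1 : algebraMap k K (c' ^ ℓ) * ∏ i, π i ^ m i =
          (algebraMap k K c' * ∏ i, π i ^ m' i) ^ ℓ := by
        rw [mul_pow, map_pow, ← Finset.prod_pow]
        congr 1
        exact Finset.prod_congr rfl fun i _ => by rw [hm', mul_comm, zpow_mul, zpow_natCast]
      rw [h1, map_pow, pow_eq_one_iff_of_nonneg zero_le hp.ne_zero] at hm
      rw [hm', pow_succ']
      exact mul_dvd_mul_left _ (ih m' c' hm i)
  refine ⟨h0, fun m c hm i => Int.eq_zero_of_abs_lt_dvd (key (m i).natAbs m c hm i) ?_⟩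
  rw [Int.abs_eq_natAbs]
  exact_mod_cast Nat.lt_pow_self hp.one_lt

theorem cl_mono [IsAlgClosed k] {ι : Type*} [Fintype ι] {π : ι → K} (h0 : ∀ i, π i ≠ 0)
    (m : ι → ℤ) {c : k} (hc : algebraMap k K c ≠ 0) :
    cl ℓ (algebraMap k K c * ∏ i, π i ^ m i) = ∑ i, (m i : ZMod ℓ) • cl ℓ (π i) := by
  rw [cl_mul hc (Finset.prod_ne_zero_iff.2 fun i _ => zpow_ne_zero _ (h0 i)), cl_algebraMap,
    zero_add, cl_prod _ _ fun i _ => zpow_ne_zero _ (h0 i)]
  simp only [cl_zpow]

theorem poly_monomial {ι : Type*} [Fintype ι] {π : ι → K} (hπ : ValIndep k O π)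
    {P : MvPolynomial ι k} (hP : P ≠ 0) : ∃ (c : k) (m : ι → ℤ), c ≠ 0 ∧
      O.valuation (MvPolynomial.aeval π P / (algebraMap k K c * ∏ i, π i ^ m i) - 1) < 1 := by
  classical
  set x : (ι →₀ ℕ) → K := fun m => algebraMap k K (P.coeff m) * ∏ i, π i ^ ((m i : ℕ) : ℤ) with hx
  obtain ⟨m₀, hm₀, hm⟩ := P.support.exists_max_image (fun m => O.valuation (x m))
    (MvPolynomial.support_nonempty.2 hP)
  have hc := MvPolynomial.mem_support_iff.1 hm₀
  have h0 : x m₀ ≠ 0 := mul_ne_zero (by simpa using hc) (mono_ne hπ fun i => m₀ i)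
  have hv : O.valuation (x m₀) ≠ 0 := by simpa using h0
  refine ⟨P.coeff m₀, fun i => m₀ i, hc, ?_⟩
  have e : MvPolynomial.aeval π P = x m₀ + ∑ m ∈ P.support.erase m₀, x m := by
    rw [Finset.add_sum_erase _ _ hm₀, MvPolynomial.aeval_def, MvPolynomial.eval₂_eq']
    simp only [hx, zpow_natCast]
  change O.valuation (MvPolynomial.aeval π P / x m₀ - 1) < 1
  rw [e, add_div, div_self h0, add_sub_cancel_left, map_div₀, div_lt_one₀ (zero_lt_iff.2 hv)]
  refine O.valuation.map_sum_lt hv fun m hm' => ?_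
  rw [Finset.mem_erase] at hm'
  refine lt_of_le_of_ne (hm m hm'.2) fun h => hm'.1 ?_
  have h1 := exp_eq hπ hv h.symm
  ext i
  exact_mod_cast (congrFun h1 i).symm

end AIAux

theorem algebraicIndependent_of_valIndep {ι ι' : Type*} [Fintype ι] {π : ι → K}
    (hπ : ValIndep k O π) {u : ι' → K} (hu : IsGauss k O u) :
    AlgebraicIndependent k (Sum.elim π u) := by
  have h1 := algInd_iff.1 (isGauss_iff.1 hu).2
  have h2 := (linInd hπ (mon_mem hu.1) (by simpa only [res_mon hu.1] using h1)).comp _ spl_inj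
  rw [algInd_iff, funext (mon_elim π u)]
  exact h2

theorem ValIndep.algebraicIndependent {ι : Type*} [Fintype ι] {π : ι → K}
    (hπ : ValIndep k O π) : AlgebraicIndependent k π := by
  have h1 : IsGauss k O (Empty.elim : Empty → K) :=
    isGauss_iff.2 ⟨fun i => i.elim, algebraicIndependent_empty_type⟩
  have h2 := (algebraicIndependent_of_valIndep hπ h1).comp Sum.inl Sum.inl_injective
  rwa [Sum.elim_comp_inl] at h2

/-- every nonzero element of `k(π)` has the value of a monomial, and a unit is congruent to a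
constant -/
theorem ValIndep.exists_monomial {ι : Type*} [Fintype ι] {π : ι → K} (hπ : ValIndep k O π)
    {x : K} (hx : x ∈ adjoin k (Set.range π)) (h0 : x ≠ 0) : ∃ (c : k) (m : ι → ℤ),
      O.valuation (x / (algebraMap k K c * ∏ i, π i ^ m i) - 1) < 1 := by
  obtain ⟨P, Q, rfl⟩ := (mem_adjoin_range_iff k π x).1 hx
  have hP : P ≠ 0 := by rintro rfl; simp at h0
  have hQ : Q ≠ 0 := by rintro rfl; simp at h0
  obtain ⟨c, m, -, h⟩ := poly_monomial hπ hP
  obtain ⟨c', m', -, h'⟩ := poly_monomial hπ hQ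
  refine ⟨c / c', m - m', ?_⟩
  rw [mono_div hπ, div_div_div_comm]
  generalize MvPolynomial.aeval π P / (algebraMap k K c * ∏ i, π i ^ m i) = A at h
  generalize MvPolynomial.aeval π Q / (algebraMap k K c' * ∏ i, π i ^ m' i) = B at h'
  have hB : O.valuation B = 1 := by
    simpa using O.valuation.map_one_add_of_lt h'
  have hB0 : B ≠ 0 := by rintro rfl; simp at hB
  rw [div_sub_one hB0, map_div₀, hB, div_one, show A - B = (A - 1) - (B - 1) by ring]
  exact O.valuation.map_sub_lt h h'

/-- `m = ℓ ^ a m'` with `m'` not divisible by `ℓ`; values of `k` are divisible -/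
theorem valIndep_of_indepMod [IsAlgClosed k] {ι : Type*} [Fintype ι] {π : ι → K}
    (h0 : ∀ i, π i ≠ 0) (h : IndepMod (HO ℓ O) fun i => cl ℓ (π i)) : ValIndep k O π := by
  refine valIndep_of_dvd (ℓ := ℓ) h0 fun m c hm i => ?_
  have hc : algebraMap k K c ≠ 0 := by intro e; simp [e] at hm
  have h1 := cl_mem_HO (ℓ := ℓ) hm
  rw [cl_mono h0 m hc] at h1
  exact (ZMod.intCast_zmod_eq_zero_iff_dvd _ _).1 (h _ h1 i)

theorem card_le_of_valIndep {d : ℕ} (hK : IsFF k K d) {ι ι' : Type*} [Fintype ι] [Fintype ι']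
    {π : ι → K} (hπ : ValIndep k O π) {u : ι' → K} (hu : IsGauss k O u) :
    Fintype.card ι + Fintype.card ι' ≤ d := by
  simpa only [Fintype.card_sum] using hK.card_le (algebraicIndependent_of_valIndep hπ hu)

theorem isGauss_single [IsAlgClosed k] {t : K} (ht : t ∈ O) (h : res O t ∉ resConst k O) :
    IsGauss k O ![t] := by
  refine isGauss_iff.2 ⟨fun i => by fin_cases i; exact ht,
    algebraicIndependent_unique_type_iff.2 (transcendental_iff.2 ?_)⟩
  rintro ⟨r, hr⟩
  exact h (show res O t ∈ resConst k O from (show (r : ResidueField O) = res O t from hr) ▸ r.2)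

/-- Abhyankar places: lifts of residues that are linearly independent over `κ(u)` are linearly
independent over `k(π, u)` (`val_le_sum` applied to the family `u ^ n * b j`), so their number is
at most `[K : k(π, u)]`. -/
theorem finite_residue {d : ℕ} (hK : IsFF k K d) {ι ι' : Type*} [Fintype ι] [Fintype ι']
    {π : ι → K} (hπ : ValIndep k O π) {u : ι' → K} (hu : IsGauss k O u)
    (hd : Fintype.card ι + Fintype.card ι' = d) :
    FiniteDimensional (adjoin (resConst k O) (Set.range fun j => res O (u j))) (ResidueField O) := by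
  have hfin := hK.finite_adjoin (algebraicIndependent_of_valIndep hπ hu)
    (by rw [Fintype.card_sum, hd])
  rw [FiniteDimensional, ← Module.rank_lt_aleph0_iff]
  refine (rank_le (n := Module.finrank (adjoin k (Set.range (Sum.elim π u))) K)
    fun s hs => ?_).trans_lt Cardinal.natCast_lt_aleph0
  choose y hy hy' using fun r : s => res_surj (r : ResidueField O)
  have h1 := algInd_iff.1 (isGauss_iff.1 hu).2
  have hm : ∀ n, mon (fun j => res O (u j)) n ∈
      adjoin (resConst k O) (Set.range fun j => res O (u j)) := fun n =>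
    prod_mem fun i _ => pow_mem (subset_adjoin _ _ (Set.mem_range_self i)) _
  have h2 : LinearIndependent (resConst k O) fun n => (⟨_, hm n⟩ :
      adjoin (resConst k O) (Set.range fun j => res O (u j))) :=
    LinearIndependent.of_comp (IntermediateField.val _).toLinearMap h1
  have h3 := linearIndependent_smul h2 hs
  have h4 := linInd hπ (b := fun r : (ι' →₀ ℕ) × s => mon u r.1 * y r.2)
    (fun r => O.mul_mem _ _ (mon_mem hu.1 _) (hy _)) (by
      simp only [res_mul (mon_mem hu.1 _) (hy _), res_mon hu.1, hy']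
      exact h3)
  have h5 := h4.comp (fun r : (ι ⊕ ι' →₀ ℕ) × s => ((spl r.1).1, (spl r.1).2, r.2))
    (fun r r' e => by
      simp only [Prod.mk.injEq] at e
      exact Prod.ext (spl_inj (Prod.ext e.1 e.2.1)) e.2.2)
  have h6 := linInd_adjoin (k := k) (t := Sum.elim π u) (y := y) (by
    simp only [mon_elim, mul_assoc]
    exact h5)
  simpa using h6.fintype_card_le_finrank

theorem isFF_residue {d : ℕ} (hK : IsFF k K d) {ι ι' : Type*} [Fintype ι] [Fintype ι']
    {π : ι → K} (hπ : ValIndep k O π) {u : ι' → K} (hu : IsGauss k O u)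
    (hd : Fintype.card ι + Fintype.card ι' = d) :
    IsFF (resConst k O) (ResidueField O) (Fintype.card ι') := by
  have hfin := finite_residue hK hπ hu hd
  have h1 : Algebra.EssFiniteType (resConst k O)
      (adjoin (resConst k O) (Set.range fun j => res O (u j))) :=
    essFiniteType_iff.2 (fg_adjoin_of_finite (Set.finite_range _))
  refine ⟨Algebra.EssFiniteType.comp _
    (adjoin (resConst k O) (Set.range fun j => res O (u j))) _, ?_⟩
  have h2 := ((isGauss_iff.1 hu).2.isTranscendenceBasis_iff_isAlgebraic.2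
    (isAlgebraic_adjoin_iff_top.1 inferInstance)).lift_cardinalMk_eq_trdeg
  rw [Cardinal.mk_fintype, Cardinal.lift_natCast] at h2
  exact Cardinal.lift_eq_nat_iff.1 h2.symm

theorem isCurve_residue [IsAlgClosed k] {d : ℕ} (hK : IsFF k K (d + 1)) {π : Fin d → K}
    (hπ : ValIndep k O π) (h : ∃ r : ResidueField O, r ∉ resConst k O) :
    IsCurve (resConst k O) (ResidueField O) := by
  obtain ⟨r, hr⟩ := h
  obtain ⟨t, ht, rfl⟩ := res_surj r
  have h1 := isFF_residue hK hπ (isGauss_single ht hr) (by simp)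
  exact ⟨h1.fg, by simpa using h1.trdeg⟩

/-- If `x`, `y` are dependent, `y ^ n` has the value of `c x ^ j` with `n ≥ 1`; dividing by `ℓ` we
may take `n` prime to `ℓ` (as `cl x ∉ HO`); the unit `y ^ n / (c x ^ j)` is algebraic over `k(x)`,
so its residue is constant (else `x` and it are independent), so it lies in `k · U¹`. -/
theorem exists_sub_mem_TO [IsAlgClosed k] {x y : K} (hx : x ≠ 0) (hy : y ≠ 0)
    (hxy : ¬ AlgebraicIndependent k ![x, y]) (hH : cl ℓ x ∉ HO ℓ O) :
    ∃ j : ZMod ℓ, cl ℓ y - j • cl ℓ x ∈ TO ℓ O := by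
  have hsm : ∀ c : ZMod ℓ, c • cl ℓ x ∈ HO ℓ O → c = 0 := fun c hc => by
    by_contra h
    exact hH ((Submodule.smul_mem_iff _ h).1 hc)
  have h1 : ValIndep k O ![x] := valIndep_of_indepMod (ℓ := ℓ)
    (fun i => by fin_cases i; exact hx) fun c hc i => by
      fin_cases i
      exact hsm _ (by simpa using hc)
  have hne : ∀ i, ![x, y] i ≠ 0 := fun i => by fin_cases i <;> assumption
  obtain ⟨m, c, hm, hm1⟩ : ∃ (m : Fin 2 → ℤ) (c : k),
      O.valuation (algebraMap k K c * ∏ i, ![x, y] i ^ m i) = 1 ∧ (m 1 : ZMod ℓ) ≠ 0 := by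
    by_contra! h
    refine hxy (valIndep_of_dvd (ℓ := ℓ) (O := O) hne fun m c hm i => ?_).algebraicIndependent
    have hc : algebraMap k K c ≠ 0 := by intro e; simp [e] at hm
    have h2 := cl_mem_HO (ℓ := ℓ) hm
    rw [cl_mono hne m hc, Fin.sum_univ_two, h m c hm, zero_smul, add_zero] at h2
    rw [← ZMod.intCast_zmod_eq_zero_iff_dvd]
    fin_cases i
    · exact hsm _ h2
    · exact h m c hm
  have hc : algebraMap k K c ≠ 0 := by intro e; simp [e] at hm
  have hcl := cl_mono (ℓ := ℓ) hne m hc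
  have htr : Transcendental k x := h1.algebraicIndependent.transcendental 0
  have hyE : y ∈ Ecl k x := by
    by_contra h
    exact hxy (pair_iff.2 ⟨htr, h⟩)
  have hwE : algebraMap k K c * ∏ i, ![x, y] i ^ m i ∈ Ecl k x := by
    rw [Fin.prod_univ_two]
    exact mul_mem (IntermediateField.algebraMap_mem _ c)
      (mul_mem (zpow_mem (self_mem_Ecl x) _) (zpow_mem hyE _))
  generalize algebraMap k K c * ∏ i, ![x, y] i ^ m i = w at hm hcl hwE
  have hw := mem_of_val_eq_one hm
  have h2 : res O w ∈ resConst k O := by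
    by_contra h
    have h3 := (algebraicIndependent_of_valIndep h1 (isGauss_single hw h)).comp
      ![Sum.inl 0, Sum.inr 0] (by decide)
    refine (pair_iff.1 (show AlgebraicIndependent k ![x, w] from ?_)).2 hwE
    have e : Sum.elim ![x] ![w] ∘ ![Sum.inl 0, Sum.inr 0] = ![x, w] := by
      funext i
      fin_cases i <;> rfl
    rwa [e] at h3
  have h3 : cl ℓ w ∈ TO ℓ O := by
    have h4 := cl_algebraMap (ℓ := ℓ) (F := ResidueField O) (⟨res O w, h2⟩ : resConst k O)
    exact (cl_mem_TO_iff_res hm).2 h4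
  refine ⟨-(m 1 : ZMod ℓ)⁻¹ * m 0, ?_⟩
  have h4 := Submodule.smul_mem _ (m 1 : ZMod ℓ)⁻¹ h3
  rw [hcl, Fin.sum_univ_two, smul_add, smul_smul, smul_smul, inv_mul_cancel₀ hm1, one_smul] at h4
  rw [neg_mul, neg_smul, sub_neg_eq_add, add_comm]
  exact h4

end Vale.Agent.P019
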