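import Vale.Agent.P019.PL
import Vale.Agent.P019.MX

/-! P019: free extensions of an algebraically closed field are linearly disjoint. -/

open IntermediateField

namespace Vale.Agent.P019

namespace LDJAux

theorem val_aeval {κ Λ : Type*} [Field κ] [Field Λ] [Algebra κ Λ] {B : IntermediateField κ Λ}
    {ι : Type*} {t : ι → Λ} {O : ValuationSubring Λ} (hO : IsGauss B O t) (hκ : Triv κ O)
    (r : MvPolynomial ι κ) : MvPolynomial.aeval t r ∈ O ∧
      (r ≠ 0 → O.valuation (MvPolynomial.aeval t r) = 1) := by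
  have h1 : MvPolynomial.aeval t r ∈ O := by
    induction r using MvPolynomial.induction_on with
    | C a => rw [MvPolynomial.aeval_C]; exact hκ a
    | add p q hp hq => rw [map_add]; exact O.add_mem _ _ hp hq
    | mul_X p i hp => rw [map_mul, MvPolynomial.aeval_X]; exact O.mul_mem _ _ hp (hO.1 i)
  refine ⟨h1, fun hr => le_antisymm ((O.valuation_le_one_iff _).2 h1) ?_⟩
  obtain ⟨m, hm⟩ := MvPolynomial.ne_zero_iff.1 hr
  have h2 := hO.2 (MvPolynomial.map (algebraMap κ B) r) m
  rw [MvPolynomial.aeval_map_algebraMap, MvPolynomial.coeff_map,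
    ← IsScalarTower.algebraMap_apply, hκ.val_eq_one hm] at h2
  exact h2

theorem adjoin_le {κ Λ : Type*} [Field κ] [Field Λ] [Algebra κ Λ] {B : IntermediateField κ Λ}
    {ι : Type*} {t : ι → Λ} {O : ValuationSubring Λ} (hO : IsGauss B O t) (hκ : Triv κ O)
    {x : Λ} (hx : x ∈ adjoin κ (Set.range t)) : x ∈ O := by
  obtain ⟨r, s, rfl⟩ := (mem_adjoin_range_iff κ t x).1 hx
  by_cases hs : s = 0
  · simp [hs]
  · refine (O.valuation_le_one_iff _).1 ?_
    rw [map_div₀, (val_aeval hO hκ s).2 hs, div_one]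
    exact (O.valuation_le_one_iff _).2 (val_aeval hO hκ r).1

theorem mem_span {κ Λ : Type*} [Field κ] [Field Λ] [Algebra κ Λ] (A B : IntermediateField κ Λ)
    {ι : Type*} (b : Module.Basis ι κ B) {x : Λ}
    (hx : x ∈ Algebra.adjoin κ ((A : Set Λ) ∪ B)) :
    x ∈ Submodule.span A (Set.range (B.val ∘ b)) := by
  have hB : ∀ y ∈ B, y ∈ Submodule.span A (Set.range (B.val ∘ b)) := fun y hy => by
    have h1 : (⟨y, hy⟩ : B) ∈ Submodule.span κ (Set.range b) := by
      rw [b.span_eq]; trivial
    have h2 := Submodule.mem_map_of_mem (f := B.val.toLinearMap) h1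
    rw [Submodule.map_span, ← Set.range_comp] at h2
    exact Submodule.span_le_restrictScalars κ A _ h2
  have key : ∀ m ∈ Submodule.span A (Set.range (B.val ∘ b)),
      x * m ∈ Submodule.span A (Set.range (B.val ∘ b)) := by
    induction hx using Algebra.adjoin_induction with
    | mem x hx =>
      intro m hm
      rcases hx with hx | hx
      · exact Submodule.smul_mem _ (⟨x, hx⟩ : A) hm
      · induction hm using Submodule.span_induction with
        | mem m hm =>
          obtain ⟨i, rfl⟩ := hm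
          exact hB _ (B.mul_mem hx (b i).2)
        | zero => simp
        | add m m' _ _ h h' => rw [mul_add]; exact add_mem h h'
        | smul a m _ h => rw [mul_smul_comm]; exact Submodule.smul_mem _ a h
    | algebraMap r =>
      intro m hm
      exact Submodule.smul_mem _ (⟨algebraMap κ Λ r, A.algebraMap_mem r⟩ : A) hm
    | add x y _ _ h h' => intro m hm; rw [add_mul]; exact add_mem (h m hm) (h' m hm)
    | mul x y _ _ h h' => intro m hm; rw [mul_assoc]; exact h _ (h' m hm)
  simpa using key 1 (hB 1 B.one_mem)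

end LDJAux

/-- Let `a j ∈ A` be `κ`-independent and `∑ b j a j = 0` with `b j ∈ B` not all zero. Take a
rational place of `B` (`exists_rational_place`) and a Gauss extension `O` along `t`
(`exists_isGauss`); it contains `κ(t)`, hence `A`, and nonzero elements of `A` are units. Scale so
that all `b j ∈ O` and one is `1`; with `b j ≡ c j ∈ κ` get `∑ c j a j = 0`. -/
theorem linearDisjoint_of_free {κ Λ : Type*} [Field κ] [Field Λ] [Algebra κ Λ] [IsAlgClosed κ]
    (A B : IntermediateField κ Λ) {ι : Type*} [Fintype ι] (t : ι → Λ)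
    (hA : ∀ a ∈ A, IsAlgebraic (adjoin κ (Set.range t)) a) (ht : AlgebraicIndependent B t) :
    A.LinearDisjoint B := by
  classical
  obtain ⟨O₀, hO₀, hrat⟩ := exists_rational_place κ (F := B)
  obtain ⟨O, hcomap, hG⟩ := exists_isGauss O₀ ht
  subst hcomap
  have hκ : Triv κ O := fun a => by
    have h1 := hO₀ a
    rwa [ValuationSubring.mem_comap, ← IsScalarTower.algebraMap_apply] at h1
  have hAO : ∀ a ∈ A, a ∈ O := fun a ha =>
    mem_of_isAlgebraic (fun e => LDJAux.adjoin_le hG hκ e.2) (hA a ha)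
  have hA1 : ∀ a ∈ A, O.valuation a < 1 → a = 0 := fun a ha h => by
    by_contra h0
    exact (val_lt_one_iff_inv h0).1 h (hAO _ (A.inv_mem ha))
  let a := Module.Basis.ofVectorSpace κ A
  refine LinearDisjoint.of_basis_left a (linearIndependent_iff'.2 fun s g hg i hi => ?_)
  by_contra hne
  obtain ⟨j, hj, hmax⟩ := s.exists_max_image (fun k => O.valuation (g k : Λ)) ⟨i, hi⟩
  have hgj : g j ≠ 0 := by
    intro h0
    have h1 := hmax i hi
    simp only [h0, ZeroMemClass.coe_zero, map_zero, le_zero_iff, map_eq_zero] at h1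
    exact hne (Subtype.ext h1)
  have hgj' : (g j : Λ) ≠ 0 := fun h => hgj (Subtype.ext h)
  have hmem : ∀ k ∈ s, g k / g j ∈ O.comap (algebraMap B Λ) := fun k hk => by
    rw [ValuationSubring.mem_comap, ← O.valuation_le_one_iff, map_div₀, map_div₀]
    exact div_le_one_of_le₀ (hmax k hk) zero_le
  choose! c hc using fun k hk => hrat _ (hmem k hk)
  have hc' : ∀ k ∈ s, O.valuation ((g k : Λ) / g j - algebraMap κ Λ (c k)) < 1 := fun k hk => by
    have h1 := (comap_val_lt_one _ _ _).1 (hc k hk)
    rwa [map_sub, map_div₀, ← IsScalarTower.algebraMap_apply] at h1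
  have hsum : ((∑ k ∈ s, c k • a k : A) : Λ) =
      ∑ k ∈ s, -(((g k : Λ) / g j - algebraMap κ Λ (c k)) * (a k : Λ)) := by
    have h1 : ∑ k ∈ s, (g k : Λ) / g j * (a k : Λ) = 0 := by
      have h2 : ∑ k ∈ s, (g k : Λ) * (a k : Λ) = 0 := hg
      simp only [div_mul_eq_mul_div]
      rw [← Finset.sum_div, h2, zero_div]
    simp only [sub_mul, neg_sub, Finset.sum_sub_distrib, h1, sub_zero]
    rw [AddSubmonoidClass.coe_finsetSum]
    exact Finset.sum_congr rfl fun k _ => by rw [IntermediateField.coe_smul, Algebra.smul_def]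
  have hz : ∑ k ∈ s, c k • a k = 0 := by
    refine Subtype.ext (hA1 _ (∑ k ∈ s, c k • a k).2 ?_)
    rw [hsum]
    refine O.valuation.map_sum_lt one_ne_zero fun k hk => ?_
    rw [Valuation.map_neg, map_mul]
    exact mul_lt_one_of_nonneg_of_lt_one_left zero_le (hc' k hk)
      ((O.valuation_le_one_iff _).2 (hAO _ (a k).2))
  have h0 := linearIndependent_iff'.1 a.linearIndependent s c hz j hj
  have h1 := hc' j hj
  rw [h0, div_self hgj', map_zero, sub_zero, map_one] at h1
  exact lt_irrefl _ h1

/-- expand numerator and denominator of `z` in a `κ`-basis of `B` -/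
theorem mem_of_linearDisjoint {κ Λ : Type*} [Field κ] [Field Λ] [Algebra κ Λ]
    {A A' B : IntermediateField κ Λ} (hle : A ≤ A') (h : A'.LinearDisjoint B) {z : Λ}
    (hz : z ∈ A') (hz' : z ∈ A ⊔ B) : z ∈ A := by
  classical
  let b := Module.Basis.ofVectorSpace κ B
  have hb := h.linearIndependent_right b.linearIndependent
  rw [sup_def, mem_adjoin_iff_div] at hz'
  obtain ⟨p, hp, q, hq, hpq⟩ := hz'
  by_cases hq0 : q = 0
  · rw [hpq, hq0, div_zero]; exact A.zero_mem
  obtain ⟨f, hf⟩ := (Finsupp.mem_span_range_iff_exists_finsupp).1 (LDJAux.mem_span A B b hp)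
  obtain ⟨g, hg⟩ := (Finsupp.mem_span_range_iff_exists_finsupp).1 (LDJAux.mem_span A B b hq)
  have hf' : ∑ i ∈ f.support ∪ g.support, (f i : Λ) * (b i : Λ) = p := by
    rw [← hf, Finsupp.sum_of_support_subset f Finset.subset_union_left _ (by simp)]; rfl
  have hg' : ∑ i ∈ f.support ∪ g.support, (g i : Λ) * (b i : Λ) = q := by
    rw [← hg, Finsupp.sum_of_support_subset g Finset.subset_union_right _ (by simp)]; rfl
  have h1 := linearIndependent_iff'.1 hb (f.support ∪ g.support)
    (fun i => ⟨z * g i - f i, A'.sub_mem (A'.mul_mem hz (hle (g i).2)) (hle (f i).2)⟩) (by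
      change ∑ i ∈ f.support ∪ g.support, (z * g i - f i) * (b i : Λ) = 0
      simp only [sub_mul, mul_assoc, Finset.sum_sub_distrib]
      rw [← Finset.mul_sum, hf', hg', hpq, div_mul_cancel₀ _ hq0, sub_self])
  have hg0 : g ≠ 0 := by
    rintro rfl
    exact hq0 (by simpa using hg.symm)
  obtain ⟨i, hi⟩ := Finsupp.support_nonempty_iff.2 hg0
  have h2 : z * g i - f i = 0 := congrArg Subtype.val (h1 i (Finset.mem_union_right _ hi))
  have h3 : (g i : Λ) ≠ 0 := fun h => Finsupp.mem_support_iff.1 hi (Subtype.ext h)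
  rw [(eq_div_iff h3).2 (sub_eq_zero.1 h2)]
  exact A.div_mem (f i).2 (g i).2

end Vale.Agent.P019
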