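import Vale.Agent.P019.Base2

/-! P019: base change along an extension in which the base is separably closed. -/

open IntermediateField

namespace Vale.Agent.P019

variable {A B Λ : Type*} [Field A] [Field B] [Field Λ] [Algebra A B] [Algebra B Λ] [Algebra A Λ]
  [IsScalarTower A B Λ]

/-- the coefficients of a monic factor of a separable polynomial are separable over `A` -/
theorem minpoly_eq_map (h : separableClosure A B = ⊥) {x : Λ} (hx : IsSeparable A x) :
    minpoly B x = (minpoly A x).map (algebraMap A B) := by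
  have hi : IsIntegral A x := hx.isIntegral
  have hm : (minpoly B x).Monic := minpoly.monic hi.tower_top
  let Ω := AlgebraicClosure B
  have h1 : (minpoly B x).map (algebraMap B Ω)
      ∈ Polynomial.lifts (algebraMap (separableClosure A Ω) Ω) := by
    refine (IsAlgClosed.splits _).mem_lift_of_roots_mem_range (hm.map _) _ fun a ha => ?_
    have h2 : Polynomial.aeval a (minpoly B x) = 0 := by
      have := Polynomial.isRoot_of_mem_roots ha
      rwa [Polynomial.IsRoot.def, Polynomial.eval_map_algebraMap] at this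
    have h3 : Polynomial.aeval a (minpoly A x) = 0 := by
      rw [← Polynomial.aeval_map_algebraMap B]
      exact Polynomial.aeval_eq_zero_of_dvd_aeval_eq_zero
        (minpoly.dvd_map_of_isScalarTower A B x) h2
    exact ⟨⟨a, Polynomial.Separable.of_dvd hx (minpoly.dvd A a h3)⟩, rfl⟩
  refine (minpoly.map_algebraMap hi ?_).symm
  rw [Polynomial.lifts_iff_coeff_lifts] at h1 ⊢
  intro n
  obtain ⟨c, hc⟩ := h1 n
  rw [Polynomial.coeff_map] at hc
  have h2 : (minpoly B x).coeff n ∈ separableClosure A B :=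
    (map_mem_separableClosure_iff (IsScalarTower.toAlgHom A B Ω)).1 (by
      have : IsScalarTower.toAlgHom A B Ω ((minpoly B x).coeff n) = (c : Ω) := hc.symm
      rw [this]
      exact c.2)
  rw [h] at h2
  exact mem_bot.1 h2

namespace SDAux

theorem deg_eq {F : Type*} [Field F] [Algebra F Λ] (q : ℕ) [ExpChar F q] {S : Set Λ} {θ : Λ}
    (hθ : θ ∈ S) (hs : IsSeparable F θ) (hS : ∀ s ∈ S, ∃ n : ℕ, s ^ q ^ n ∈ F⟮θ⟯) :
    Field.finSepDegree F (adjoin F S) = (minpoly F θ).natDegree := by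
  have := expChar_of_injective_algebraMap (algebraMap F F⟮θ⟯).injective q
  have h1 : IsPurelyInseparable F⟮θ⟯ (adjoin F⟮θ⟯ S) :=
    (isPurelyInseparable_adjoin_iff_pow_mem F⟮θ⟯ Λ q).2 fun s hs => by
      obtain ⟨n, hn⟩ := hS s hs
      exact ⟨n, ⟨_, hn⟩, rfl⟩
  have h2 := (isSeparable_adjoin_simple_iff_isSeparable F Λ).2 hs
  have h3 := Field.finSepDegree_mul_finSepDegree_of_isAlgebraic F F⟮θ⟯ (adjoin F⟮θ⟯ S)
  rw [IsPurelyInseparable.finSepDegree_eq_one F⟮θ⟯ (adjoin F⟮θ⟯ S), mul_one,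
    Field.finSepDegree_eq_finrank_of_isSeparable, adjoin.finrank hs.isIntegral] at h3
  have h4 : (adjoin F⟮θ⟯ S).restrictScalars F = adjoin F S := by
    rw [adjoin_adjoin_left, Set.union_eq_right.2 (Set.singleton_subset_iff.2 hθ)]
  rw [← h4]
  exact h3.symm

theorem exists_prim (q : ℕ) [ExpChar A q] (Φ : IntermediateField A Λ) [FiniteDimensional A Φ] :
    ∃ θ ∈ Φ, IsSeparable A θ ∧ ∀ s ∈ Φ, ∃ n : ℕ, s ^ q ^ n ∈ A⟮θ⟯ := by
  obtain ⟨α, hα⟩ := Field.exists_primitive_element A (separableClosure A Φ)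
  let f : separableClosure A Φ →ₐ[A] Λ := Φ.val.comp (separableClosure A Φ).val
  have := expChar_of_injective_algebraMap (algebraMap A (separableClosure A Φ)).injective q
  refine ⟨f α, (α : Φ).2, (Algebra.IsSeparable.isSeparable A α).map f f.injective, fun s hs => ?_⟩
  obtain ⟨n, k, hk⟩ := IsPurelyInseparable.pow_mem (separableClosure A Φ) q (⟨s, hs⟩ : Φ)
  refine ⟨n, ?_⟩
  have h1 : f k ∈ A⟮α⟯.map f := ⟨k, by rw [hα]; trivial, rfl⟩
  rw [adjoin_map, Set.image_singleton] at h1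
  have h2 : f k = s ^ q ^ n := congrArg Subtype.val hk
  rwa [h2] at h1

end SDAux

/-- use a primitive element of the separable closure of `A` in `Φ` -/
theorem finSepDegree_adjoin (h : separableClosure A B = ⊥) (Φ : IntermediateField A Λ)
    [FiniteDimensional A Φ] :
    Field.finSepDegree B (adjoin B (Φ : Set Λ)) = Field.finSepDegree A Φ := by
  have := expChar_of_injective_algebraMap (algebraMap A B).injective (ringExpChar A)
  obtain ⟨θ, h1, h2, h3⟩ := SDAux.exists_prim (ringExpChar A) Φ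
  have h4 := SDAux.deg_eq (ringExpChar A) (S := (Φ : Set Λ)) h1 h2 h3
  have h5 : A⟮θ⟯ ≤ B⟮θ⟯.restrictScalars A := adjoin_simple_le_iff.2 (mem_adjoin_simple_self B θ)
  have h6 := SDAux.deg_eq (ringExpChar A) (S := (Φ : Set Λ)) h1 (h2.tower_top B) fun s hs => by
    obtain ⟨n, hn⟩ := h3 s hs
    exact ⟨n, h5 hn⟩
  rw [adjoin_self] at h4
  rw [h6, h4, minpoly_eq_map h h2, Polynomial.natDegree_map]

/-- with `Φ = A(S)`, `Φ' = Φ(z)` have the same compositum with `B`, so the same separable degree,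
so `z ^ p ^ e ∈ Φ` with `p` prime to `ℓ` -/
theorem exists_root_of_compositum {ℓ : ℕ} [Fact ℓ.Prime] (hℓ : (ℓ : A) ≠ 0)
    (h : separableClosure A B = ⊥) (S : Finset Λ) (hS : ∀ s ∈ S, IsAlgebraic A s) {y z : Λ}
    (hy : y ∈ adjoin A (S : Set Λ)) (hz : z ∈ adjoin B (S : Set Λ)) (hzy : z ^ ℓ = y) :
    ∃ z' ∈ adjoin A (S : Set Λ), z' ^ ℓ = y := by
  have hl0 : ℓ ≠ 0 := (Fact.out : ℓ.Prime).ne_zero
  by_cases hy0 : y = 0
  · exact ⟨0, zero_mem _, by rw [hy0, zero_pow hl0]⟩
  refine ⟨z, ?_, hzy⟩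
  have hfd : FiniteDimensional A (adjoin A (S : Set Λ)) :=
    finiteDimensional_adjoin fun s hs => (hS s hs).isIntegral
  have hSΦ : (S : Set Λ) ⊆ adjoin A (S : Set Λ) := subset_adjoin A _
  generalize adjoin A (S : Set Λ) = Φ at hy hfd hSΦ ⊢
  have hsep : IsSeparable Φ z := by
    have h1 : ((ℓ : ℕ) : Φ) ≠ 0 := by
      rw [← map_natCast (algebraMap A Φ)]
      exact (map_ne_zero _).2 hℓ
    have h2 : (⟨y, hy⟩ : Φ) ≠ 0 := fun h => hy0 (congrArg Subtype.val h)
    refine (Polynomial.separable_X_pow_sub_C _ h1 h2).of_dvd (minpoly.dvd Φ z ?_)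
    rw [map_sub, Polynomial.aeval_X_pow, Polynomial.aeval_C, hzy]
    exact sub_self y
  have h1 := (isSeparable_adjoin_simple_iff_isSeparable Φ Λ).2 hsep
  have h2 : FiniteDimensional Φ Φ⟮z⟯ := adjoin.finiteDimensional hsep.isIntegral
  have h3 : FiniteDimensional A (Φ⟮z⟯.restrictScalars A) := FiniteDimensional.trans A Φ Φ⟮z⟯
  have h4 : adjoin B ((Φ⟮z⟯.restrictScalars A : IntermediateField A Λ) : Set Λ)
      = adjoin B (Φ : Set Λ) := by
    refine le_antisymm (adjoin_le_iff.2 ?_) (adjoin.mono _ _ _ fun x hx => ?_)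
    · have h5 : Φ⟮z⟯.restrictScalars A ≤ (adjoin B (Φ : Set Λ)).restrictScalars A := by
        rw [restrictScalars_adjoin]
        refine adjoin_le_iff.2 (Set.union_subset (subset_adjoin B _) ?_)
        exact Set.singleton_subset_iff.2 (adjoin.mono _ _ _ hSΦ hz)
      exact h5
    · exact Φ⟮z⟯.algebraMap_mem ⟨x, hx⟩
  have h5 := finSepDegree_adjoin h (Φ⟮z⟯.restrictScalars A)
  rw [h4, finSepDegree_adjoin h Φ] at h5
  have h6 : Field.finSepDegree A Φ * Field.finSepDegree Φ Φ⟮z⟯ = Field.finSepDegree A Φ * 1 := by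
    rw [Field.finSepDegree_mul_finSepDegree_of_isAlgebraic A Φ Φ⟮z⟯, mul_one]
    exact h5.symm
  have h7 := isPurelyInseparable_of_finSepDegree_eq_one (mul_left_cancel₀ (NeZero.ne _) h6)
  have h8 := mem_adjoin_simple_self Φ z
  rw [eq_bot_of_isPurelyInseparable_of_isSeparable Φ⟮z⟯] at h8
  obtain ⟨c, rfl⟩ := mem_bot.1 h8
  exact c.2

/-- `A` is algebraically closed in a purely transcendental extension -/
theorem mem_bot_of_isAlgebraic {ι : Type*} {t : ι → Λ} (ht : AlgebraicIndependent A t) {x : Λ}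
    (hx : x ∈ adjoin A (Set.range t)) (ha : IsAlgebraic A x) :
    x ∈ Set.range (algebraMap A Λ) := by
  obtain ⟨P, Q, hPQ⟩ := (mem_adjoin_range_iff A t x).1 hx
  by_cases hQ : MvPolynomial.aeval t Q = 0
  · exact ⟨0, by rw [hPQ, hQ, div_zero, map_zero]⟩
  have hQ0 : Q ≠ 0 := fun h => hQ (by rw [h, map_zero])
  obtain ⟨m, hm⟩ := MvPolynomial.ne_zero_iff.1 hQ0
  let E := algebraicClosure A Λ
  let e : E := ⟨x, mem_algebraicClosure_iff.2 ha⟩
  have h1 : MvPolynomial.C e * MvPolynomial.map (algebraMap A E) Q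
      = MvPolynomial.map (algebraMap A E) P := by
    refine (ht.algebraicClosure : Function.Injective _) ?_
    rw [map_mul, MvPolynomial.aeval_C, MvPolynomial.aeval_map_algebraMap,
      MvPolynomial.aeval_map_algebraMap]
    exact (eq_div_iff hQ).1 hPQ
  have h2 := congrArg (fun R => ((MvPolynomial.coeff m R : E) : Λ)) h1
  simp only [MvPolynomial.coeff_C_mul, MvPolynomial.coeff_map] at h2
  refine ⟨P.coeff m / Q.coeff m, ?_⟩
  rw [map_div₀, div_eq_iff ((map_ne_zero _).2 hm)]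
  exact h2.symm

end Vale.Agent.P019
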