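import Vale.Agent.P019.FGA
import Vale.Agent.P019.LDJ
import Vale.Agent.P019.SD

/-! P019: the lemma of Zariski on pencils. -/

open IntermediateField

namespace Vale.Agent.P019

variable {k K : Type*} [Field k] [Field K] [Algebra k K] [IsAlgClosed k]

namespace ZARAux

theorem sep_mono {A B : IntermediateField k K} (h : A ≤ B) {u : K} (hu : IsSeparable A u) :
    IsSeparable B u := by
  letI : Algebra A B := (IntermediateField.inclusion h).toRingHom.toAlgebra
  haveI : IsScalarTower A B K := IsScalarTower.of_algebraMap_eq fun _ => rfl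
  exact hu.tower_top B

theorem alg_mono {A B : IntermediateField k K} (h : A ≤ B) {u : K} (hu : IsAlgebraic A u) :
    IsAlgebraic B u := by
  letI : Algebra A B := (IntermediateField.inclusion h).toRingHom.toAlgebra
  haveI : IsScalarTower A B K := IsScalarTower.of_algebraMap_eq fun _ => rfl
  exact hu.tower_top B

theorem finite_le_sep (F K : Type*) [Field F] [Field K] [Algebra F K] [Algebra.EssFiniteType F K] :
    {N : IntermediateField F K | N ≤ separableClosure F K}.Finite := by
  have hle : separableClosure F K ≤ algebraicClosure F K := le_algebraicClosure F K _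
  haveI := finite_algebraicClosure F K
  haveI : FiniteDimensional F (separableClosure F K) :=
    FiniteDimensional.of_injective (IntermediateField.inclusion hle).toLinearMap
      (IntermediateField.inclusion hle).injective
  haveI : Finite (IntermediateField F (separableClosure F K)) :=
    Field.finite_intermediateField_of_exists_primitive_element F _
      (Field.exists_primitive_element F _)
  refine (Set.finite_range
    (lift : IntermediateField F (separableClosure F K) → IntermediateField F K)).subset ?_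
  intro N hN
  exact ⟨restrict hN, lift_restrict hN⟩

theorem exists_pow_sep {F K : Type*} [Field F] [Field K] [Algebra F K] (q : ℕ) [ExpChar F q]
    {u : K} (hu : IsAlgebraic F u) : ∃ n : ℕ, IsSeparable F (u ^ q ^ n) := by
  obtain ⟨g, hg, m, hm⟩ := (minpoly.irreducible hu.isIntegral).hasSeparableContraction q
  refine ⟨m, hg.of_dvd (minpoly.dvd F _ ?_)⟩
  have := minpoly.aeval F u
  rwa [← hm, Polynomial.expand_aeval] at this

/-- the separable closure of `k(z)` -/
noncomputable def Es (k : Type*) {K : Type*} [Field k] [Field K] [Algebra k K] (z : K) :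
    IntermediateField k K := (separableClosure k⟮z⟯ K).restrictScalars k

theorem mem_Es {z u : K} : u ∈ Es k z ↔ IsSeparable k⟮z⟯ u := by
  rw [Es, mem_restrictScalars, mem_separableClosure_iff]

theorem Es_le_Ecl (z : K) : Es k z ≤ Ecl k z := fun _ hu =>
  (mem_Ecl k).2 (mem_Es.1 hu).isIntegral.isAlgebraic

theorem adjoin_le_Es (z : K) : k⟮z⟯ ≤ Es k z := fun u hu =>
  mem_Es.2 (isSeparable_algebraMap (⟨u, hu⟩ : k⟮z⟯))

theorem isGood_of_le {z : K} (hz : Transcendental k z) (h : Es k z ≤ k⟮z⟯) : IsGood k z := by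
  refine ⟨hz, fun u hu => ?_⟩
  haveI : ExpChar k⟮z⟯ (ringExpChar k) :=
    expChar_of_injective_algebraMap (algebraMap k k⟮z⟯).injective _
  obtain ⟨n, hn⟩ := exists_pow_sep (ringExpChar k) ((mem_Ecl k).1 hu)
  exact ⟨n, h (mem_Es.2 hn)⟩

theorem isGood_of_pair {z w : K} (h : AlgebraicIndependent k ![w, z])
    (hle : Es k z ≤ k⟮z⟯ ⊔ Es k w) : IsGood k z := by
  have hz : Transcendental k z := (pair_iff.1 (pair_symm h)).1
  have hd : (Es k z).LinearDisjoint (Es k w) := by
    refine linearDisjoint_of_free _ _ (fun _ : Unit => z) (fun a ha => ?_) ?_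
    · rw [Set.range_const]
      exact (mem_Ecl k).1 (Es_le_Ecl z ha)
    · rw [algebraicIndependent_unique_type_iff]
      intro ha
      exact (pair_iff.1 h).2 (mem_Ecl_of_isAlgebraic (alg_mono (Es_le_Ecl w) ha))
  exact isGood_of_le hz fun u hu => mem_of_linearDisjoint (adjoin_le_Es z) hd hu (hle hu)

theorem pencil_pair {x y : K} (h : AlgebraicIndependent k ![x, y]) {a b : k} (hab : a ≠ b) :
    AlgebraicIndependent k ![y - algebraMap k K b * x, y - algebraMap k K a * x] := by
  obtain ⟨hx, hy⟩ := pair_iff.1 h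
  have ht : Transcendental k (y - algebraMap k K b * x) := by
    refine (pair_iff.1 (pair_symm (pair_iff.2 ⟨hx, fun hm => hy ?_⟩))).1
    have := add_mem hm (mul_mem (IntermediateField.algebraMap_mem (Ecl k x) b) (self_mem_Ecl x))
    rwa [sub_add_cancel] at this
  refine pair_iff.2 ⟨ht, fun hm => hab ?_⟩
  exact subsingleton_pencil h ht hm (self_mem_Ecl _)

theorem exists_not_mem {S : Set k} (hS : S.Finite) : ∃ a, a ∉ S := hS.infinite_compl.nonempty

theorem mem_Geo {ℓ : ℕ} [Fact ℓ.Prime] {z : K} {v : V ℓ K} (hv : v ∈ Geo ℓ k z) :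
    ∃ e ∈ Ecl k z, e ≠ 0 ∧ cl ℓ e = v := by
  induction hv using Submodule.span_induction with
  | mem v hv =>
    obtain ⟨e, he, rfl⟩ := hv
    by_cases h0 : e = 0
    · exact ⟨1, one_mem _, one_ne_zero, by simp [h0]⟩
    · exact ⟨e, he, h0, rfl⟩
  | zero => exact ⟨1, one_mem _, one_ne_zero, cl_one⟩
  | add v w _ _ hv hw =>
    obtain ⟨e, he, h0, rfl⟩ := hv
    obtain ⟨e', he', h0', rfl⟩ := hw
    exact ⟨e * e', mul_mem he he', mul_ne_zero h0 h0', cl_mul h0 h0'⟩
  | smul c v _ hv =>
    obtain ⟨e, he, h0, rfl⟩ := hv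
    refine ⟨e ^ c.val, pow_mem he _, pow_ne_zero _ h0, ?_⟩
    rw [cl_pow, ZMod.natCast_zmod_val]

theorem map_mem_Ecl {K' : Type*} [Field K'] [Algebra k K'] [Algebra K K'] [IsScalarTower k K K']
    {z e : K} (he : e ∈ Ecl k z) : algebraMap K K' e ∈ Ecl k (algebraMap K K' z) := by
  rw [mem_Ecl] at he ⊢
  have hm : ∀ u ∈ k⟮z⟯, algebraMap K K' u ∈ k⟮algebraMap K K' z⟯ := by
    intro u hu
    have : k⟮algebraMap K K' z⟯ = (k⟮z⟯).map (IsScalarTower.toAlgHom k K K') := by
      rw [adjoin_map]; simp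
    rw [this]
    exact ⟨u, hu, rfl⟩
  let φ : k⟮z⟯ →+* k⟮algebraMap K K' z⟯ :=
    ((algebraMap K K').comp (algebraMap k⟮z⟯ K)).codRestrict _ fun u => hm u u.2
  exact he.ringHom_of_comp_eq φ (algebraMap K K') φ.injective (by ext; rfl)

theorem expChar_ne {ℓ : ℕ} [Fact ℓ.Prime] (hℓ : (ℓ : k) ≠ 0) :
    ((ringExpChar k : ℕ) : ZMod ℓ) ≠ 0 := by
  intro h
  rw [ZMod.natCast_eq_zero_iff] at h
  have hq : ExpChar k (ringExpChar k) := inferInstance
  generalize ringExpChar k = q at h hq
  cases hq with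
  | zero => exact (Fact.out : ℓ.Prime).ne_one (Nat.dvd_one.1 h)
  | prime hp =>
    have := (Nat.prime_dvd_prime_iff_eq Fact.out hp).1 h
    subst this
    exact hℓ (CharP.cast_eq_zero k ℓ)

end ZARAux

open ZARAux

/-- Let `E a` be the separable closure of `k(y - a x)` in `K`, of degree `m a`, and `M` the
separable closure of `k(x, y)` in `K`, a finite separable extension, with finitely many
intermediate fields. The fields `E a (x)` are intermediate of degree `m a`. If
`E a (x) = E b (x)` with `a ≠ b`, this field is the compositum `E a E b`, and `E a`, `E b` are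
linearly disjoint over `k` (`linearDisjoint_of_free`), so the degree over `k(x, y)` is `m a * m b`;
hence `m a = 1`. (Equivalently: `E a ⊆ k(y - a x) ⊔ E b` and `mem_of_linearDisjoint` once one
knows `E a (x) = E b (x) = E b (y - a x)`.) -/
theorem finite_not_isGood [Algebra.EssFiniteType k K] {x y : K}
    (h : AlgebraicIndependent k ![x, y]) :
    {a : k | ¬ IsGood k (y - algebraMap k K a * x)}.Finite := by
  let F : IntermediateField k K := adjoin k {x, y}
  haveI : Algebra.EssFiniteType F K := Algebra.EssFiniteType.of_comp k F K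
  have hx : x ∈ F := subset_adjoin _ _ (by simp)
  have hy : y ∈ F := subset_adjoin _ _ (by simp)
  have hz : ∀ a : k, k⟮y - algebraMap k K a * x⟯ ≤ F := fun a =>
    adjoin_simple_le_iff.2 (sub_mem hy (mul_mem (IntermediateField.algebraMap_mem F a) hx))
  let N : k → IntermediateField F K := fun a =>
    extendScalars (le_sup_left : F ≤ F ⊔ Es k (y - algebraMap k K a * x))
  refine Set.Finite.of_injOn (f := N) (fun a _ => ?_) (fun a ha b _ hab => ?_) (finite_le_sep F K)
  · change N a ≤ separableClosure F K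
    have : F ⊔ Es k (y - algebraMap k K a * x) ≤ (separableClosure F K).restrictScalars k := by
      refine sup_le (fun u hu => ?_) fun u hu => ?_
      · exact IntermediateField.algebraMap_mem (separableClosure F K) (⟨u, hu⟩ : F)
      · exact mem_separableClosure_iff.2 (sep_mono (hz a) (mem_Es.1 hu))
    exact fun u hu => this hu
  · by_contra hne
    refine ha (isGood_of_pair (pencil_pair h hne) fun u hu => ?_)
    have h1 : u ∈ N a := (le_sup_right : _ ≤ F ⊔ Es k (y - algebraMap k K a * x)) hu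
    rw [hab] at h1
    have h2 : F ⊔ Es k (y - algebraMap k K b * x) ≤
        k⟮y - algebraMap k K a * x⟯ ⊔ Es k (y - algebraMap k K b * x) := by
      refine sup_le ?_ le_sup_right
      set G := k⟮y - algebraMap k K a * x⟯ ⊔ Es k (y - algebraMap k K b * x)
      have ha' : y - algebraMap k K a * x ∈ G :=
        (le_sup_left : _ ≤ G) (mem_adjoin_simple_self k _)
      have hb' : y - algebraMap k K b * x ∈ G :=
        (le_sup_right : _ ≤ G) (adjoin_le_Es _ (mem_adjoin_simple_self k _))
      have hx' : x ∈ G := by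
        have h3 := mul_mem (IntermediateField.algebraMap_mem G (b - a)⁻¹) (sub_mem ha' hb')
        have h4 : algebraMap k K b - algebraMap k K a ≠ 0 := by
          rw [← map_sub, map_ne_zero]; exact sub_ne_zero.2 (Ne.symm hne)
        have e : algebraMap k K (b - a)⁻¹ *
            (y - algebraMap k K a * x - (y - algebraMap k K b * x)) = x := by
          rw [map_inv₀, map_sub]; field_simp; ring
        rwa [e] at h3
      have hy' : y ∈ G := by
        have := add_mem ha' (mul_mem (IntermediateField.algebraMap_mem G a) hx')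
        rwa [sub_add_cancel] at this
      refine adjoin_le_iff.2 ?_
      rintro u (rfl | rfl)
      exacts [hx', hy']
    exact h2 h1

theorem IsGood.neg {z : K} (h : IsGood k z) : IsGood k (-z) := by
  have e : k⟮-z⟯ = k⟮z⟯ := le_antisymm
    (adjoin_simple_le_iff.2 (neg_mem (mem_adjoin_simple_self k z)))
    (adjoin_simple_le_iff.2 (by simpa using neg_mem (mem_adjoin_simple_self k (-z))))
  have ht : Transcendental k (-z) := fun ha => h.1 (by simpa using ha.neg)
  refine ⟨ht, fun u hu => ?_⟩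
  rw [Ecl_eq ht (neg_mem (self_mem_Ecl z))] at hu
  rw [e]
  exact h.2 u hu

/-- `z = (y - a x) - ((y - z) - a x)` -/
theorem exists_good_add {d : ℕ} (hK : IsFF k K (d + 2)) (z : K) :
    ∃ z₁ z₂, IsGood k z₁ ∧ IsGood k z₂ ∧ z = z₁ + z₂ := by
  haveI := hK.fg
  obtain ⟨x, hx, hzx⟩ : ∃ x : K, Transcendental k x ∧ z ∈ Ecl k x := by
    by_cases hz : Transcendental k z
    · exact ⟨z, hz, self_mem_Ecl z⟩
    · obtain ⟨t, ht⟩ := hK.exists_basis
      refine ⟨t 0, ht.1.transcendental 0, (mem_Ecl k).2 ?_⟩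
      exact (not_not.1 hz).tower_top _
  obtain ⟨y, hy⟩ := hK.exists_pair hx
  have hy' : AlgebraicIndependent k ![x, y - z] := pair_iff.2 ⟨hx, fun hm => (pair_iff.1 hy).2 (by
    simpa using add_mem hm hzx)⟩
  obtain ⟨a, ha⟩ := exists_not_mem ((finite_not_isGood hy).union (finite_not_isGood hy'))
  simp only [Set.mem_union, Set.mem_setOf_eq, not_or, not_not] at ha
  exact ⟨_, _, ha.1, ha.2.neg, by ring⟩

/-- `y = y₀ - a x ^ 2` for almost all `a` -/
theorem exists_good_web {d : ℕ} (hK : IsFF k K (d + 2)) {x : K} (hx : Transcendental k x) :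
    ∃ y, AlgebraicIndependent k ![x, y] ∧ IsGood k y ∧ IsGood k (y - x) ∧ IsGood k (y / x) := by
  haveI := hK.fg
  obtain ⟨y, hy⟩ := hK.exists_pair hx
  have hy0 := (pair_iff.1 hy).2
  have hx0 : x ≠ 0 := by rintro rfl; exact hx isAlgebraic_zero
  have hx2 : Transcendental k (x ^ 2) := hx.pow two_pos
  have hE : Ecl k (x ^ 2) = Ecl k x := Ecl_eq hx2 (pow_mem (self_mem_Ecl x) 2)
  have h1 : AlgebraicIndependent k ![x ^ 2, y] := pair_iff.2 ⟨hx2, hE ▸ hy0⟩
  have h2 : AlgebraicIndependent k ![x ^ 2, y - x] := pair_iff.2 ⟨hx2, hE ▸ fun hm => hy0 (by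
    simpa using add_mem hm (self_mem_Ecl x))⟩
  have h3 : AlgebraicIndependent k ![x, y / x] := pair_iff.2 ⟨hx, fun hm => hy0 (by
    simpa [hx0] using mul_mem hm (self_mem_Ecl x))⟩
  obtain ⟨a, ha⟩ := exists_not_mem (((finite_not_isGood h1).union (finite_not_isGood h2)).union
    (finite_not_isGood h3))
  simp only [Set.mem_union, Set.mem_setOf_eq, not_or, not_not] at ha
  refine ⟨y - algebraMap k K a * x ^ 2, pair_iff.2 ⟨hx, fun hm => hy0 ?_⟩, ha.1.1, ?_, ?_⟩
  · have := add_mem hm (mul_mem (IntermediateField.algebraMap_mem (Ecl k x) a)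
      (pow_mem (self_mem_Ecl x) 2))
    rwa [sub_add_cancel] at this
  · have e : y - algebraMap k K a * x ^ 2 - x = y - x - algebraMap k K a * x ^ 2 := by ring
    exact e ▸ ha.1.2
  · have e : (y - algebraMap k K a * x ^ 2) / x = y / x - algebraMap k K a * x := by
      field_simp
    exact e ▸ ha.2

theorem exists_good_link {d : ℕ} (hK : IsFF k K (d + 2)) {x z : K} (hx : Transcendental k x)
    (hz : Transcendental k z) : ∃ y, AlgebraicIndependent k ![x, y] ∧
      AlgebraicIndependent k ![z, y] ∧ IsGood k y ∧ IsGood k (y - x) ∧ IsGood k (y - z) := by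
  haveI := hK.fg
  obtain ⟨y1, hy1⟩ := hK.exists_pair hz
  have hS := (subsingleton_pencil hy1 hx).finite
  obtain ⟨c, hc⟩ := exists_not_mem (hS.union (hS.preimage (f := fun c : k => c + 1)
    (add_left_injective 1).injOn))
  simp only [Set.mem_union, Set.mem_setOf_eq, not_or, Set.mem_preimage] at hc
  obtain ⟨y, hy⟩ : ∃ y, y = y1 - algebraMap k K c * z := ⟨_, rfl⟩
  have hy0 : y ∉ Ecl k x := hy ▸ hc.1
  have h1 : AlgebraicIndependent k ![x, y] := pair_iff.2 ⟨hx, hy0⟩
  have h2 : AlgebraicIndependent k ![x, y - x] := pair_iff.2 ⟨hx, fun hm => hy0 (by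
    simpa using add_mem hm (self_mem_Ecl x))⟩
  have h3 : AlgebraicIndependent k ![x, y - z] := pair_iff.2 ⟨hx, fun hm => hc.2 (by
    have e : y1 - algebraMap k K (c + 1) * z = y - z := by rw [hy, map_add, map_one]; ring
    rwa [e])⟩
  obtain ⟨a, ha⟩ := exists_not_mem ((((finite_not_isGood h1).union (finite_not_isGood h2)).union
    (finite_not_isGood h3)).union (subsingleton_pencil h1 hz).finite)
  simp only [Set.mem_union, Set.mem_setOf_eq, not_or, not_not] at ha
  refine ⟨y - algebraMap k K a * x, pair_iff.2 ⟨hx, fun hm => hy0 ?_⟩, pair_iff.2 ⟨hz, ha.2⟩,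
    ha.1.1.1, ?_, ?_⟩
  · have := add_mem hm (mul_mem (IntermediateField.algebraMap_mem (Ecl k x) a) (self_mem_Ecl x))
    rwa [sub_add_cancel] at this
  · have e : y - algebraMap k K a * x - x = y - x - algebraMap k K a * x := by ring
    exact e ▸ ha.1.1.2
  · have e : y - algebraMap k K a * x - z = y - z - algebraMap k K a * x := by ring
    exact e ▸ ha.1.2

/-- apply `finite_not_isGood` in `K(h ^ (1 / ℓ))`: if `h = e w ^ ℓ` with `e ∈ Ecl k z`, then an
`ℓ`-th root of `e` is purely inseparable over `k(z)`, so `e` is an `ℓ`-th power in `K` -/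
theorem finite_mem_Geo {ℓ : ℕ} [Fact ℓ.Prime] [Algebra.EssFiniteType k K] (hℓ : (ℓ : k) ≠ 0)
    {x y : K} (h : AlgebraicIndependent k ![x, y]) {v : V ℓ K} (hv : v ≠ 0) :
    {a : k | v ∈ Geo ℓ k (y - algebraMap k K a * x)}.Finite := by
  obtain ⟨g, hg0, rfl⟩ := cl_surj v
  have hirr : Irreducible (Polynomial.X ^ ℓ - Polynomial.C g) :=
    X_pow_sub_C_irreducible_of_prime Fact.out fun b hb =>
      hv ((cl_eq_zero_iff hg0).2 ⟨b, hb.symm⟩)
  haveI := Fact.mk hirr
  let K' := AdjoinRoot (Polynomial.X ^ ℓ - Polynomial.C g)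
  haveI : Module.Finite K K' := (AdjoinRoot.powerBasis hirr.ne_zero).finite
  haveI : Algebra.EssFiniteType k K' := Algebra.EssFiniteType.comp k K K'
  obtain ⟨ρ, hρ⟩ : ∃ ρ : K', ρ ^ ℓ = algebraMap K K' g := ⟨_, root_X_pow_sub_C_pow ℓ g⟩
  have h' : AlgebraicIndependent k ![algebraMap K K' x, algebraMap K K' y] := by
    have := h.map' (f := IsScalarTower.toAlgHom k K K') (algebraMap K K').injective
    have e : (IsScalarTower.toAlgHom k K K') ∘ ![x, y] = ![algebraMap K K' x, algebraMap K K' y] := by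
      ext i; fin_cases i <;> rfl
    rwa [e] at this
  refine (finite_not_isGood h').subset fun a ha hgood => ?_
  obtain ⟨e, he, he0, hcl⟩ := mem_Geo ha
  obtain ⟨w, hw0, hw⟩ := (cl_eq_iff he0 hg0).1 hcl
  have ez : algebraMap K K' y - algebraMap k K' a * algebraMap K K' x =
      algebraMap K K' (y - algebraMap k K a * x) := by
    rw [map_sub, map_mul, ← IsScalarTower.algebraMap_apply]
  rw [ez] at hgood
  have hu : (ρ * algebraMap K K' w) ^ ℓ = algebraMap K K' e := by
    rw [mul_pow, hρ, hw, map_mul, map_pow]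
  obtain ⟨n, hn⟩ := hgood.2 (ρ * algebraMap K K' w)
    (mem_Ecl_of_pow (Fact.out : ℓ.Prime).pos (hu ▸ map_mem_Ecl he))
  have hle : k⟮algebraMap K K' (y - algebraMap k K a * x)⟯ ≤
      (IsScalarTower.toAlgHom k K K').fieldRange := adjoin_simple_le_iff.2 ⟨_, rfl⟩
  obtain ⟨c, hc⟩ := hle hn
  have hc' : e ^ ringExpChar k ^ n = c ^ ℓ := by
    apply (algebraMap K K').injective
    rw [map_pow, map_pow, ← hu, ← pow_mul, mul_comm ℓ, pow_mul]
    exact congrArg (· ^ ℓ) hc.symm
  have h0 : cl ℓ (e ^ ringExpChar k ^ n) = 0 := by rw [hc', cl_pow_self]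
  rw [cl_pow, hcl, Nat.cast_pow] at h0
  exact hv ((smul_eq_zero.1 h0).resolve_left (pow_ne_zero _ (expChar_ne hℓ)))

end Vale.Agent.P019
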