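import Vale.Agent.P019.CORR
import Vale.Agent.P019.ZAR

/-! P019: the field homomorphism. -/

set_option linter.unusedSectionVars false

namespace Vale.Agent.P019

variable {ℓ : ℕ} [Fact ℓ.Prime] {k K l L : Type*} [Field k] [Field K] [Algebra k K] [IsAlgClosed k]
  [Field l] [Field L] [Algebra l L] [IsAlgClosed l] {Θ : V ℓ K ≃ₗ[ZMod ℓ] V ℓ L}

theorem exists_generic_pair (h : Compat Θ) (hm : cl ℓ (-1 : K) = 0) (hl : (ℓ : l) ≠ 0) {d : ℕ}
    (hL : IsFF l L (d + 2))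
    (S : Finset L) : ∃ (w : ValuationSubring L) (v : ValuationSubring K), IsPDiv l w ∧
      (∀ s ∈ S, GoodAt ℓ l w s) ∧ Flat Θ v w := by
  obtain ⟨S', -, hS'⟩ := exists_pdiv_of_hom hl hL S
  obtain ⟨χ⟩ := exists_algHom_adjoin (l := l) S'
  obtain ⟨w, h1, h2, -⟩ := hS' χ
  obtain ⟨v, hv⟩ := h.exists_flat hm (cl_neg_one l) (h1.condN hl)
  exact ⟨w, v, h1, h2, hv⟩

namespace ALPHAAux

theorem cong_add {v : ValuationSubring K} {x y : K} {a b : k}
    (hx : v.valuation (x - algebraMap k K a) < 1) (hy : v.valuation (y - algebraMap k K b) < 1) :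
    v.valuation (x + y - algebraMap k K (a + b)) < 1 := by
  rw [map_add, add_sub_add_comm]
  exact v.valuation.map_add_lt hx hy

theorem cong_mem {v : ValuationSubring K} (ht : Triv k v) {x : K} {a : k}
    (hx : v.valuation (x - algebraMap k K a) < 1) : v.valuation x ≤ 1 := by
  rw [v.valuation_le_one_iff]
  simpa using v.add_mem _ _ ((v.valuation_le_one_iff _).1 hx.le) (ht a)

theorem cong_mul {v : ValuationSubring K} (ht : Triv k v) {x y : K} {a b : k}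
    (hx : v.valuation (x - algebraMap k K a) < 1) (hy : v.valuation (y - algebraMap k K b) < 1) :
    v.valuation (x * y - algebraMap k K (a * b)) < 1 := by
  have e : x * y - algebraMap k K (a * b) =
      (x - algebraMap k K a) * y + algebraMap k K a * (y - algebraMap k K b) := by
    rw [map_mul]
    ring
  rw [e]
  refine v.valuation.map_add_lt ?_ ?_
  · rw [map_mul]
    exact (mul_le_of_le_one_right' (cong_mem ht hy)).trans_lt hx
  · rw [map_mul]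
    exact (mul_le_of_le_one_left' ((v.valuation_le_one_iff _).2 (ht a))).trans_lt hy

theorem cong_pow {v : ValuationSubring K} (ht : Triv k v) {x : K} {a : k}
    (hx : v.valuation (x - algebraMap k K a) < 1) (n : ℕ) :
    v.valuation (x ^ n - algebraMap k K (a ^ n)) < 1 := by
  induction n with
  | zero => simp
  | succ n ih =>
    rw [pow_succ, pow_succ]
    exact cong_mul ht ih hx

theorem pow_inj {R : Type*} [Field R] (p : ℕ) [ExpChar R p] (j : ℕ) {x y : R}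
    (h : x ^ p ^ j = y ^ p ^ j) : x = y :=
  (iterateFrobenius R p j).injective h

variable {β : k ≃+* l}

theorem graph_pow {z : K} {y : L} {j : ℕ} (h : Graph Θ β z y j) (i : ℕ) :
    Graph Θ β z (y ^ ringExpChar l ^ i) (j + i) := by
  obtain ⟨S, hS⟩ := h
  refine ⟨S, fun w v hw hg hv => ?_⟩
  obtain ⟨a, h1, h2⟩ := hS w v hw hg hv
  refine ⟨a, h1, ?_⟩
  rw [pow_add, pow_mul]
  exact cong_pow hw.triv h2 _

theorem graph_add {z z' : K} {y y' : L} {j : ℕ} (h : Graph Θ β z y j) (h' : Graph Θ β z' y' j) :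
    Graph Θ β (z + z') (y + y') j := by
  classical
  obtain ⟨S, hS⟩ := h
  obtain ⟨S', hS'⟩ := h'
  refine ⟨S ∪ S', fun w v hw hg hv => ?_⟩
  obtain ⟨a, h1, h2⟩ := hS w v hw (fun s hs => hg s (by simp [hs])) hv
  obtain ⟨a', h1', h2'⟩ := hS' w v hw (fun s hs => hg s (by simp [hs])) hv
  refine ⟨a + a', cong_add h1 h1', ?_⟩
  rw [map_add β, add_pow_expChar_pow]
  exact cong_add h2 h2'

theorem graph_mul [Algebra.EssFiniteType k K] (hG : GeoMatch k l Θ) (hk : (ℓ : k) ≠ 0)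
    (hl : (ℓ : l) ≠ 0) {z z' : K} {y y' : L} {j : ℕ} (h : Graph Θ β z y j)
    (h' : Graph Θ β z' y' j) : Graph Θ β (z * z') (y * y') j := by
  classical
  obtain ⟨S, hS⟩ := h
  obtain ⟨S', hS'⟩ := h'
  refine ⟨S ∪ S', fun w v hw hg hv => ?_⟩
  obtain ⟨a, h1, h2⟩ := hS w v hw (fun s hs => hg s (by simp [hs])) hv
  obtain ⟨a', h1', h2'⟩ := hS' w v hw (fun s hs => hg s (by simp [hs])) hv
  refine ⟨a * a', cong_mul (triv_of_flat hG hk hl hw hv) h1 h1', ?_⟩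
  rw [map_mul β, mul_pow]
  exact cong_mul hw.triv h2 h2'

theorem graph_const (a : k) : Graph Θ β (algebraMap k K a) (algebraMap l L (β a)) 0 :=
  ⟨∅, fun _ _ _ _ _ => ⟨a, by simp, by simp⟩⟩

theorem graph_unique [Algebra.EssFiniteType k K] (h : Compat Θ) (hG : GeoMatch k l Θ)
    (hk : (ℓ : k) ≠ 0) (hl : (ℓ : l) ≠ 0) {d : ℕ} (hL : IsFF l L (d + 2)) {z : K} {y y' : L}
    {j : ℕ} (h₁ : Graph Θ β z y j) (h₂ : Graph Θ β z y' j) : y = y' := by
  classical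
  by_contra hne
  obtain ⟨S, hS⟩ := h₁
  obtain ⟨S', hS'⟩ := h₂
  obtain ⟨w, v, hw, hg, hv⟩ :=
    exists_generic_pair h (cl_neg_one k) hl hL (insert (y - y')⁻¹ (S ∪ S'))
  obtain ⟨a, h1, h2⟩ := hS w v hw (fun s hs => hg s (by simp [hs])) hv
  obtain ⟨a', h1', h2'⟩ := hS' w v hw (fun s hs => hg s (by simp [hs])) hv
  obtain rfl := val_unique (triv_of_flat hG hk hl hw hv) h1 h1'
  obtain ⟨b, hb, -⟩ := hg _ (Finset.mem_insert_self _ _)
  have h3 := w.valuation.map_sub_lt h2 h2'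
  rw [sub_sub_sub_cancel_right] at h3
  have h4 := (mul_le_of_le_one_right' (cong_mem hw.triv hb)).trans_lt h3
  rw [← map_mul, mul_inv_cancel₀ (sub_ne_zero.2 hne), map_one] at h4
  exact lt_irrefl _ h4

theorem exists_restrict {l L Ω : Type*} [Field l] [Field L] [Field Ω] [Algebra l L] [Algebra l Ω]
    (ψ : L →ₐ[l] Ω) {S : Set L} {T : Set Ω} (h : ∀ s ∈ S, ψ s ∈ T) :
    ∃ ρ : Algebra.adjoin l S →ₐ[l] Algebra.adjoin l T, ∀ a, (ρ a : Ω) = ψ a := by
  refine ⟨(ψ.comp (Algebra.adjoin l S).val).codRestrict _ fun a => ?_, fun _ => rfl⟩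
  have h1 : (Algebra.adjoin l S).map ψ ≤ Algebra.adjoin l T := by
    rw [AlgHom.map_adjoin]
    exact Algebra.adjoin_mono (Set.image_subset_iff.2 h)
  exact h1 ⟨a, a.2, rfl⟩

end ALPHAAux

open ALPHAAux

/-- `Graph` is closed under sums, products, raising the exponent, contains the constants, and is
single valued (test `y - y'` and its inverse at a generic pair); every `z` is a sum of two good
elements. Define `α z` as the `p ^ j`-th root of `y` in `Perf L`. -/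
theorem exists_alpha (h : Compat Θ) (hG : GeoMatch k l Θ) (hk : (ℓ : k) ≠ 0) (hl : (ℓ : l) ≠ 0)
    {d : ℕ} (hK : IsFF k K (d + 2)) (hL : IsFF l L (d + 2)) (β : k ≃+* l)
    (hβ : ∀ z : K, IsGood k z → ∃ (y : L) (j : ℕ), Graph Θ β z y j) :
    ∃ α : K →+* Perf L, (∀ a : k, α (algebraMap k K a) = algebraMap L _ (algebraMap l L (β a))) ∧
      ∀ z : K, ∃ (y : L) (j : ℕ), algebraMap L _ y = α z ^ ringExpChar l ^ j ∧
        Graph Θ β z y j := by
  have := hK.fg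
  have : ExpChar (Perf L) (ringExpChar l) := expChar_of_injective_ringHom
    ((algebraMap L (Perf L)).comp (algebraMap l L)).injective _
  obtain ⟨R, hR⟩ : ∃ R : K → Perf L → Prop, ∀ z x, R z x ↔
      ∃ (y : L) (j : ℕ), algebraMap L _ y = x ^ ringExpChar l ^ j ∧ Graph Θ β z y j :=
    ⟨_, fun _ _ => Iff.rfl⟩
  have two : ∀ z x z' x', R z x → R z' x' → ∃ (y y' : L) (j : ℕ),
      algebraMap L _ y = x ^ ringExpChar l ^ j ∧ Graph Θ β z y j ∧
      algebraMap L _ y' = x' ^ ringExpChar l ^ j ∧ Graph Θ β z' y' j := by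
    intro z x z' x' h₁ h₂
    obtain ⟨y, j, a₁, a₂⟩ := (hR _ _).1 h₁
    obtain ⟨y', j', b₁, b₂⟩ := (hR _ _).1 h₂
    refine ⟨y ^ ringExpChar l ^ j', y' ^ ringExpChar l ^ j, j + j', ?_, graph_pow a₂ j', ?_,
      add_comm j' j ▸ graph_pow b₂ j⟩
    · rw [map_pow, a₁, ← pow_mul, pow_add]
    · rw [map_pow, b₁, ← pow_mul, pow_add, mul_comm]
  have uniq : ∀ z x x', R z x → R z x' → x = x' := fun z x x' h₁ h₂ => by
    obtain ⟨y, y', j, a₁, a₂, b₁, b₂⟩ := two _ _ _ _ h₁ h₂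
    refine pow_inj (ringExpChar l) j ?_
    rw [← a₁, ← b₁, graph_unique h hG hk hl hL a₂ b₂]
  have add : ∀ z x z' x', R z x → R z' x' → R (z + z') (x + x') := fun z x z' x' h₁ h₂ => by
    obtain ⟨y, y', j, a₁, a₂, b₁, b₂⟩ := two _ _ _ _ h₁ h₂
    exact (hR _ _).2 ⟨y + y', j, by rw [map_add, a₁, b₁, add_pow_expChar_pow], graph_add a₂ b₂⟩
  have mul : ∀ z x z' x', R z x → R z' x' → R (z * z') (x * x') := fun z x z' x' h₁ h₂ => by
    obtain ⟨y, y', j, a₁, a₂, b₁, b₂⟩ := two _ _ _ _ h₁ h₂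
    exact (hR _ _).2 ⟨y * y', j, by rw [map_mul, a₁, b₁, mul_pow], graph_mul hG hk hl a₂ b₂⟩
  have const : ∀ a : k, R (algebraMap k K a) (algebraMap L _ (algebraMap l L (β a))) := fun a =>
    (hR _ _).2 ⟨_, 0, by rw [pow_zero, pow_one], graph_const a⟩
  have good : ∀ z, IsGood k z → ∃ x, R z x := fun z hz => by
    obtain ⟨y, j, hy⟩ := hβ z hz
    obtain ⟨x, hx⟩ := (iterateFrobeniusEquiv (Perf L) (ringExpChar l) j).surjective
      (algebraMap L _ y)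
    exact ⟨x, (hR _ _).2 ⟨y, j, hx.symm, hy⟩⟩
  have tot : ∀ z, ∃ x, R z x := fun z => by
    obtain ⟨z₁, z₂, g₁, g₂, rfl⟩ := exists_good_add hK z
    obtain ⟨x₁, r₁⟩ := good _ g₁
    obtain ⟨x₂, r₂⟩ := good _ g₂
    exact ⟨_, add _ _ _ _ r₁ r₂⟩
  choose α hα using tot
  refine ⟨⟨⟨⟨α, uniq _ _ _ (hα 1) (by simpa using const 1)⟩,
    fun x y => uniq _ _ _ (hα _) (mul _ _ _ _ (hα x) (hα y))⟩,
    uniq _ _ _ (hα 0) (by simpa using const 0),
    fun x y => uniq _ _ _ (hα _) (add _ _ _ _ (hα x) (hα y))⟩,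
    fun a => uniq _ _ _ (hα _) (const a), fun z => (hR _ _).1 (hα z)⟩

/-- Otherwise an endomorphism `σ` of `Ω = AlgebraicClosure L` fixes `α (Ecl k z)` and moves `y`
(`exists_hom_ne`). Let `S₀ ⊆ Ecl k z` separate places (`exists_separating`), `y e` the elements of
`L` attached to `e ∈ S₀` (fixed by `σ`), `S'` from `exists_pdiv_of_hom`, `χ` a homomorphism to `l`
on `l[S', σ S', (σ y - y)⁻¹]`. The prime divisors `w₁`, `w₂` of `χ`, `χ ∘ σ` have flat partners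
`v₁`, `v₂` with the same values on `S₀`, so the same place on `Ecl k z`, so `w₁`, `w₂` have the same
place on `Ecl l z'` (`exists_corr`, `Corr.unique_right`), so `χ y = χ (σ y)`. -/
theorem exists_pow_eq_alpha (h : Compat Θ) (hG : GeoMatch k l Θ) (hk : (ℓ : k) ≠ 0)
    (hl : (ℓ : l) ≠ 0) {d : ℕ} (hK : IsFF k K (d + 2)) (hL : IsFF l L (d + 2)) (β : k ≃+* l)
    (α : K →+* Perf L)
    (h₁ : ∀ a : k, α (algebraMap k K a) = algebraMap L _ (algebraMap l L (β a)))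
    (h₂ : ∀ z : K, ∃ (y : L) (j : ℕ), algebraMap L _ y = α z ^ ringExpChar l ^ j ∧
      Graph Θ β z y j) {z : K} {z' : L} (hz : Partner k l Θ z z') {y : L} (hy : y ∈ Ecl l z') :
    ∃ e ∈ Ecl k z, ∃ j : ℕ, algebraMap L (Perf L) y ^ ringExpChar l ^ j = α e := by
  classical
  have := hK.fg
  have := hL.fg
  by_contra hne
  obtain ⟨ι, hι, hι'⟩ : ∃ ι : Perf L →+* AlgebraicClosure L, Function.Injective ι ∧
      ∀ x : L, ι (algebraMap L _ x) = algebraMap L _ x :=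
    ⟨(perfectClosure L (AlgebraicClosure L)).val.toRingHom, RingHom.injective _, fun _ => rfl⟩
  have : ExpChar (AlgebraicClosure L) (ringExpChar l) := expChar_of_injective_ringHom
    ((algebraMap L (AlgebraicClosure L)).comp (algebraMap l L)).injective _
  obtain ⟨σ, hσ, hσy⟩ := exists_hom_ne ((Ecl k z).toSubfield.map (ι.comp α))
    (y := algebraMap L (AlgebraicClosure L) y) fun n hn => by
      obtain ⟨e, he, h3⟩ := Subfield.mem_map.1 hn
      rw [ringExpChar.eq (AlgebraicClosure L) (ringExpChar l)] at h3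
      refine hne ⟨e, he, n, hι ?_⟩
      rw [map_pow, hι']
      exact h3.symm
  have hσ' : ∀ e ∈ Ecl k z, σ (ι (α e)) = ι (α e) := fun e he =>
    hσ _ (Subfield.mem_map.2 ⟨e, he, rfl⟩)
  obtain ⟨φ, hφ⟩ : ∃ φ : L →ₐ[l] AlgebraicClosure L, ∀ x, φ x = algebraMap L _ x :=
    ⟨IsScalarTower.toAlgHom l L _, fun _ => rfl⟩
  obtain ⟨ψ, hψ⟩ : ∃ ψ : L →ₐ[l] AlgebraicClosure L, ∀ x, ψ x = σ (algebraMap L _ x) :=
    ⟨⟨σ.comp (algebraMap L _), fun c => by
      obtain ⟨a, rfl⟩ := β.surjective c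
      have h3 := hσ' _ ((Ecl k z).algebraMap_mem a)
      rw [h₁, hι'] at h3
      exact h3⟩, fun _ => rfl⟩
  choose Y J hY T hT using h₂
  obtain ⟨S₀, -, hS₀⟩ := exists_separating (isCurve_Ecl hz.1)
  obtain ⟨S', hsub, hS'⟩ := exists_pdiv_of_hom hl hL
    (S₀.biUnion (fun e : Ecl k z => T e) ∪ S₀.image (fun e : Ecl k z => Y e) ∪ {y, z'})
  obtain ⟨χ⟩ := exists_algHom_adjoin (l := l)
    (insert (ψ y - φ y)⁻¹ (S'.image φ ∪ S'.image ψ))
  obtain ⟨ρ₁, hρ₁⟩ := exists_restrict φ (S := (S' : Set L))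
    (T := ((insert (ψ y - φ y)⁻¹ (S'.image φ ∪ S'.image ψ) : Finset _) : Set _))
    fun s hs => Finset.mem_coe.2 (Finset.mem_insert_of_mem
      (Finset.mem_union_left _ (Finset.mem_image_of_mem _ hs)))
  obtain ⟨ρ₂, hρ₂⟩ := exists_restrict ψ (S := (S' : Set L))
    (T := ((insert (ψ y - φ y)⁻¹ (S'.image φ ∪ S'.image ψ) : Finset _) : Set _))
    fun s hs => Finset.mem_coe.2 (Finset.mem_insert_of_mem
      (Finset.mem_union_right _ (Finset.mem_image_of_mem _ hs)))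
  obtain ⟨w₁, p₁, g₁, c₁⟩ := hS' (χ.comp ρ₁)
  obtain ⟨w₂, p₂, g₂, c₂⟩ := hS' (χ.comp ρ₂)
  obtain ⟨v₁, f₁⟩ := h.exists_flat (cl_neg_one k) (cl_neg_one l) (p₁.condN hl)
  obtain ⟨v₂, f₂⟩ := h.exists_flat (cl_neg_one k) (cl_neg_one l) (p₂.condN hl)
  have t₁ := triv_of_flat hG hk hl p₁ f₁
  have t₂ := triv_of_flat hG hk hl p₂ f₂
  obtain ⟨b₁, b₁', e₁, e₁', r₁⟩ := exists_corr hz t₁ p₁.triv f₁ (self_mem_Ecl z') hz.2.1
    (g₁ _ (by simp))
  obtain ⟨b₂, b₂', e₂, e₂', r₂⟩ := exists_corr hz t₂ p₂.triv f₂ (self_mem_Ecl z') hz.2.1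
    (g₂ _ (by simp))
  have hb : b₁ = b₂ := by
    refine Place.ext (hS₀ _ _ b₁.triv b₂.triv fun e he => ?_)
    have hTe : ∀ s ∈ T e, s ∈ S₀.biUnion (fun e : Ecl k z => T e) ∪
        S₀.image (fun e : Ecl k z => Y e) ∪ {y, z'} :=
      fun s hs => Finset.mem_union_left _ (Finset.mem_union_left _
        (Finset.mem_biUnion.2 ⟨e, he, hs⟩))
    obtain ⟨a₁, u₁, u₁'⟩ := hT e w₁ v₁ p₁ (fun s hs => g₁ s (hTe s hs)) f₁
    obtain ⟨a₂, u₂, u₂'⟩ := hT e w₂ v₂ p₂ (fun s hs => g₂ s (hTe s hs)) f₂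
    have hYe : Y e ∈ Algebra.adjoin l (S' : Set L) := Algebra.subset_adjoin (hsub
      (Finset.mem_union_left _ (Finset.mem_union_right _ (Finset.mem_image_of_mem _ he))))
    have q₁ := val_unique p₁.triv u₁' (c₁ ⟨_, hYe⟩)
    have q₂ := val_unique p₂.triv u₂' (c₂ ⟨_, hYe⟩)
    have q₃ : ρ₁ ⟨_, hYe⟩ = ρ₂ ⟨_, hYe⟩ := Subtype.ext (by
      rw [hρ₁, hρ₂, hφ, hψ]
      change algebraMap L _ (Y e) = σ (algebraMap L _ (Y e))
      rw [← hι', hY, map_pow, map_pow, hσ' _ e.2])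
    have q₄ : a₁ = a₂ := β.injective (pow_inj (ringExpChar l) (J e) (by
      rw [q₁, q₂, AlgHom.comp_apply, AlgHom.comp_apply, q₃]))
    subst q₄
    refine ⟨a₁, ?_, ?_⟩
    · rw [e₁, comap_val_lt_one]
      exact u₁
    · rw [e₂, comap_val_lt_one]
      exact u₂
  subst hb
  have hb' : w₁.comap (Ecl l z').val.toRingHom = w₂.comap (Ecl l z').val.toRingHom := by
    rw [← e₁', ← e₂', Corr.unique_right hz r₁ r₂]
  have hyS : y ∈ Algebra.adjoin l (S' : Set L) := Algebra.subset_adjoin (hsub (by simp))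
  have q₁ : (w₁.comap (Ecl l z').val.toRingHom).valuation
      (⟨y, hy⟩ - algebraMap l (Ecl l z') (χ.comp ρ₁ ⟨y, hyS⟩)) < 1 := by
    rw [comap_val_lt_one]
    exact c₁ ⟨y, hyS⟩
  rw [hb', comap_val_lt_one] at q₁
  have q₂ : χ (ρ₁ ⟨y, hyS⟩) = χ (ρ₂ ⟨y, hyS⟩) := val_unique p₂.triv q₁ (c₂ ⟨y, hyS⟩)
  have hδ : ψ y - φ y ≠ 0 := by
    rw [hψ, hφ]
    exact sub_ne_zero.2 hσy
  have q₃ : (ρ₂ ⟨y, hyS⟩ - ρ₁ ⟨y, hyS⟩) * ⟨(ψ y - φ y)⁻¹, Algebra.subset_adjoin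
      (Finset.mem_coe.2 (Finset.mem_insert_self _ _))⟩ = 1 := Subtype.ext (by
    rw [Subalgebra.coe_mul, Subalgebra.coe_sub, hρ₁, hρ₂]
    exact mul_inv_cancel₀ hδ)
  have q₄ := congrArg χ q₃
  rw [map_mul, map_sub, q₂, sub_self, zero_mul, map_one] at q₄
  exact zero_ne_one q₄

end Vale.Agent.P019
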