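import Vale.Agent.P019.ValExt

/-! P019: extensions of a valuation ring in an algebraic extension. -/

namespace Vale.Agent.P019

variable {K N : Type*} [Field K] [Field N] [Algebra K N]

namespace AP1Aux

theorem prod_le_one {ι : Type*} (P : ValuationSubring N) (s : Finset ι) (f : ι → N)
    (h : ∀ i ∈ s, f i ∈ P) : P.valuation (∏ i ∈ s, f i) ≤ 1 :=
  (P.valuation_le_one_iff _).2 (prod_mem h)

theorem prod_lt_one {ι : Type*} (P : ValuationSubring N) (s : Finset ι) (f : ι → N)
    (h : ∀ i ∈ s, f i ∈ P) {j : ι} (hj : j ∈ s) (hf : P.valuation (f j) < 1) :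
    P.valuation (∏ i ∈ s, f i) < 1 := by
  classical
  rw [← Finset.mul_prod_erase s f hj, map_mul]
  exact mul_lt_one_of_lt_of_le hf (prod_le_one P _ f fun i hi => h i (Finset.mem_of_mem_erase hi))

theorem key [Algebra.IsAlgebraic K N] (O : ValuationSubring K) (x : N) :
    ∃ y : N, ∀ P : ValuationSubring N, P.comap (algebraMap K N) = O →
      (x ∈ P → P.valuation (y - 1) < 1) ∧ (x ∉ P → P.valuation y < 1) := by
  classical
  by_cases hx : x = 0
  · exact ⟨1, fun P _ => ⟨fun _ => by simp, fun h => absurd (hx ▸ P.zero_mem) h⟩⟩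
  obtain ⟨p, hp0, hp⟩ := Algebra.IsAlgebraic.isAlgebraic (R := K) x
  set n := p.natDegree with hn
  obtain ⟨j0, hj0, hj0'⟩ := Finset.exists_max_image (Finset.range (n + 1))
    (fun i => O.valuation (p.coeff i)) ⟨0, by simp⟩
  obtain ⟨j, hj, hj'⟩ := Finset.exists_max_image ((Finset.range (n + 1)).filter
    fun i => O.valuation (p.coeff i) = O.valuation (p.coeff j0)) id
    ⟨j0, Finset.mem_filter.2 ⟨hj0, rfl⟩⟩
  obtain ⟨hj1, hj2⟩ := Finset.mem_filter.1 hj
  have hle : ∀ i ∈ Finset.range (n + 1), O.valuation (p.coeff i) ≤ O.valuation (p.coeff j) :=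
    fun i hi => hj2 ▸ hj0' i hi
  have hlt : ∀ i ∈ Finset.range (n + 1), j < i →
      O.valuation (p.coeff i) < O.valuation (p.coeff j) := fun i hi hji =>
    lt_of_le_of_ne (hle i hi) fun h =>
      absurd (hj' i (Finset.mem_filter.2 ⟨hi, h.trans hj2⟩)) (not_le.2 hji)
  have hc : p.coeff j ≠ 0 := fun h => by
    have := hle n (by simp)
    rw [h, map_zero, le_zero_iff, map_eq_zero] at this
    exact hp0 (Polynomial.leadingCoeff_eq_zero.1 this)
  have hc' : 0 < O.valuation (p.coeff j) := zero_lt_iff.2 ((map_ne_zero _).2 hc)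
  set a : ℕ → N := fun i => algebraMap K N (p.coeff i / p.coeff j) with ha
  have h0 : ∑ i ∈ Finset.range (n + 1), a i * x ^ i = 0 := by
    rw [Polynomial.aeval_eq_sum_range] at hp
    have := congrArg (fun t => (algebraMap K N (p.coeff j))⁻¹ * t) hp
    simp only [mul_zero, Finset.mul_sum, Algebra.smul_def] at this
    refine Eq.trans (Finset.sum_congr rfl fun i _ => ?_) this
    simp only [ha, map_div₀]
    ring
  have haj : a j = 1 := by simp only [ha, div_self hc, map_one]
  have hjn : j + 1 ≤ n + 1 := Finset.mem_range.1 hj1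
  rw [← Finset.sum_range_add_sum_Ico _ hjn, Finset.sum_range_succ, haj, one_mul] at h0
  refine ⟨-∑ i ∈ Finset.range j, a i * x⁻¹ ^ (j - i), fun P hP => ⟨fun h => ?_, fun h => ?_⟩⟩
  · have h1 : -∑ i ∈ Finset.range j, a i * x⁻¹ ^ (j - i) - 1
        = ∑ i ∈ Finset.Ico (j + 1) (n + 1), a i * x ^ (i - j) := by
      refine mul_right_cancel₀ (pow_ne_zero j hx) ?_
      have h2 : ∀ i ∈ Finset.range j, a i * x⁻¹ ^ (j - i) * x ^ j = a i * x ^ i := fun i hi => by
        obtain ⟨k, rfl⟩ := Nat.exists_eq_add_of_le (Finset.mem_range.1 hi).le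
        rw [Nat.add_sub_cancel_left, pow_add, inv_pow]
        field_simp
      have h3 : ∀ i ∈ Finset.Ico (j + 1) (n + 1), a i * x ^ (i - j) * x ^ j = a i * x ^ i :=
        fun i hi => by
          rw [mul_assoc, ← pow_add, Nat.sub_add_cancel (by have := (Finset.mem_Ico.1 hi).1; omega)]
      rw [sub_mul, neg_mul, Finset.sum_mul, Finset.sum_mul, Finset.sum_congr rfl h2,
        Finset.sum_congr rfl h3]
      linear_combination -h0
    rw [h1]
    refine Valuation.map_sum_lt _ one_ne_zero fun i hi => ?_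
    obtain ⟨h2, h3⟩ := Finset.mem_Ico.1 hi
    rw [map_mul]
    refine mul_lt_one_of_lt_of_le ?_ ((P.valuation_le_one_iff _).2 (pow_mem h _))
    rw [ha, ← comap_val_lt_one, hP, map_div₀, div_lt_one₀ hc']
    exact hlt i (Finset.mem_range.2 h3) h2
  · rw [Valuation.map_neg]
    refine Valuation.map_sum_lt _ one_ne_zero fun i hi => ?_
    have h2 := Finset.mem_range.1 hi
    have h3 : P.valuation x⁻¹ < 1 := by
      rw [val_lt_one_iff_inv (inv_ne_zero hx), inv_inv]; exact h
    rw [map_mul, map_pow, mul_comm]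
    refine mul_lt_one_of_lt_of_le (pow_lt_one₀ zero_le h3 (by omega)) ?_
    rw [P.valuation_le_one_iff, ha, ← ValuationSubring.mem_comap, hP, ← O.valuation_le_one_iff,
      map_div₀, div_le_one₀ hc']
    exact hle i (Finset.mem_range.2 (by omega))

theorem eq_of_le [Algebra.IsAlgebraic K N] {P P' : ValuationSubring N} (h : P ≤ P')
    (hc : P.comap (algebraMap K N) = P'.comap (algebraMap K N)) : P = P' := by
  refine le_antisymm h fun x hx => ?_
  by_contra h1
  obtain ⟨y, hy⟩ := key (P.comap (algebraMap K N)) x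
  have h2 := val_lt_one_of_le h ((hy P' hc.symm).1 hx)
  have h3 := Valuation.map_sub_lt _ ((hy P rfl).2 h1) h2
  simp at h3

theorem sep [Algebra.IsAlgebraic K N] (O : ValuationSubring K) (P P' : ValuationSubring N) :
    ∃ y : N, (∀ Q : ValuationSubring N, Q.comap (algebraMap K N) = O → y ∈ Q) ∧
      (P.comap (algebraMap K N) = O → P.valuation y = 1) ∧
      (P.comap (algebraMap K N) = O → P'.comap (algebraMap K N) = O → P ≠ P' →
        P'.valuation y < 1) := by
  by_cases h : P ≤ P'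
  · exact ⟨1, fun Q _ => Q.one_mem, fun _ => map_one _, fun h1 h2 h3 =>
      absurd (eq_of_le h (h1.trans h2.symm)) h3⟩
  obtain ⟨x, hx, hx'⟩ := SetLike.not_le_iff_exists.1 h
  obtain ⟨y, hy⟩ := key O x
  have h1 : ∀ Q : ValuationSubring N, Q.valuation (y - 1) < 1 → Q.valuation y = 1 := fun Q h => by
    simpa using Valuation.map_one_add_of_lt _ h
  refine ⟨y, fun Q hQ => (Q.valuation_le_one_iff _).1 ?_, fun h2 => h1 P ((hy P h2).1 hx),
    fun _ h2 _ => (hy P' h2).2 hx'⟩
  by_cases h2 : x ∈ Q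
  · exact (h1 Q ((hy Q hQ).1 h2)).le
  · exact ((hy Q hQ).2 h2).le

theorem comap_conj (P : ValuationSubring N) (σ : N ≃ₐ[K] N) :
    (P.comap (σ : N →+* N)).comap (algebraMap K N) = P.comap (algebraMap K N) := by
  ext x
  simp [ValuationSubring.mem_comap]

theorem lt_iff {P : ValuationSubring N} {σ : N ≃ₐ[K] N} (hσ : σ ∈ Dec K P) (x y : N) :
    P.valuation (σ x) < P.valuation (σ y) ↔ P.valuation x < P.valuation y := by
  have h : P.comap (σ : N →+* N) = P := by
    ext t
    exact hσ t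
  have := comap_val_lt (σ : N →+* N) P x y
  rw [h] at this
  exact this.symm

end AP1Aux

/-- Let `B` be the integral closure of `O = P ∩ K` in `N`. Every `x ∈ P` is `a / b` with
`a, b ∈ B`, `b` a unit of `P`: take `∑ c i x ^ i = 0` with `c i ∈ O`, `j` maximal with `c j` a unit
(after scaling), `y = c n x ^ (n - j) + ... + c j`, `z = c (j - 1) + ... + c 0 x ^ (1 - j)`, so that
`x y = -z`; both `y` and `z` lie in every extension of `O`, hence in `B`
(`iInf_valuationSubring_superset`), and `y` is a unit of `P`. So `P` is the localization of `B` at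
the maximal ideal `𝔪_P ∩ B`; distinct extensions give distinct maximal ideals; Chinese remainder. -/
theorem exists_sep_elem [Algebra.IsAlgebraic K N] (O : ValuationSubring K)
    (𝒜 ℬ : Finset (ValuationSubring N)) (hA : ∀ P ∈ 𝒜, P.comap (algebraMap K N) = O)
    (hB : ∀ P ∈ ℬ, P.comap (algebraMap K N) = O) (hd : Disjoint 𝒜 ℬ) :
    ∃ β : N, (∀ P : ValuationSubring N, P.comap (algebraMap K N) = O → β ∈ P) ∧
      (∀ P ∈ 𝒜, P.valuation β = 1) ∧ ∀ P ∈ ℬ, P.valuation β < 1 := by
  classical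
  choose y hy1 hy2 hy3 using AP1Aux.sep (N := N) O
  have hC : ∀ P ∈ 𝒜 ∪ ℬ, P.comap (algebraMap K N) = O := fun P hP =>
    (Finset.mem_union.1 hP).elim (hA P) (hB P)
  have h1 : ∀ P ∈ 𝒜, ∀ Q ∈ 𝒜 ∪ ℬ, Q ≠ P →
      Q.valuation (∏ P' ∈ (𝒜 ∪ ℬ).erase P, y P P') < 1 := fun P hP Q hQ hne =>
    AP1Aux.prod_lt_one Q _ _ (fun P' _ => hy1 P P' Q (hC Q hQ)) (Finset.mem_erase.2 ⟨hne, hQ⟩)
      (hy3 P Q (hA P hP) (hC Q hQ) hne.symm)
  refine ⟨∑ P ∈ 𝒜, ∏ P' ∈ (𝒜 ∪ ℬ).erase P, y P P',
    fun Q hQ => sum_mem fun P _ => prod_mem fun P' _ => hy1 P P' Q hQ, fun Q hQ => ?_,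
    fun Q hQ => ?_⟩
  · have h2 : Q.valuation (∏ P' ∈ (𝒜 ∪ ℬ).erase Q, y Q P') = 1 := by
      rw [map_prod]
      exact Finset.prod_eq_one fun P' _ => hy2 Q P' (hA Q hQ)
    rw [Valuation.map_sum_eq_of_lt _ hQ, h2]
    intro P hP
    obtain ⟨h3, h4⟩ := Finset.mem_sdiff.1 hP
    rw [h2]
    exact h1 P h3 Q (Finset.mem_union_left _ hQ) fun h => h4 (Finset.mem_singleton.2 h.symm)
  · exact Valuation.map_sum_lt _ one_ne_zero fun P hP => h1 P hP Q (Finset.mem_union_right _ hQ)
      fun h => Finset.disjoint_left.1 hd hP (h ▸ hQ)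

theorem eq_of_le_of_comap_eq [Algebra.IsAlgebraic K N] {P P' : ValuationSubring N} (h : P ≤ P')
    (hc : P.comap (algebraMap K N) = P'.comap (algebraMap K N)) : P = P' :=
  AP1Aux.eq_of_le h hc

/-- conjugacy of extensions: otherwise take `β` in `𝔪_P` and a unit at all conjugates of `P'`, and
look at its norm -/
theorem exists_conj [FiniteDimensional K N] [IsGalois K N] {P P' : ValuationSubring N}
    (h : P.comap (algebraMap K N) = P'.comap (algebraMap K N)) :
    ∃ σ : N ≃ₐ[K] N, ∀ x, x ∈ P' ↔ σ x ∈ P := by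
  classical
  by_contra hne
  obtain ⟨β, h1, h2, h3⟩ := exists_sep_elem (P.comap (algebraMap K N))
    (Finset.univ.image fun σ : N ≃ₐ[K] N => P.comap (σ : N →+* N)) {P'}
    (fun Q hQ => by
      obtain ⟨σ, -, rfl⟩ := Finset.mem_image.1 hQ
      exact AP1Aux.comap_conj P σ)
    (fun Q hQ => by rw [Finset.mem_singleton.1 hQ, h])
    (Finset.disjoint_singleton_right.2 fun hQ => by
      obtain ⟨σ, -, hσ⟩ := Finset.mem_image.1 hQ
      exact hne ⟨σ, fun x => by rw [← hσ]; rfl⟩)
  have h4 : P.valuation (algebraMap K N (Algebra.norm K β)) = 1 := by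
    rw [Algebra.norm_eq_prod_automorphisms, map_prod]
    exact Finset.prod_eq_one fun σ _ => (comap_val_eq_one (σ : N →+* N) P β).1
      (h2 _ (Finset.mem_image_of_mem _ (Finset.mem_univ σ)))
  rw [← comap_val_eq_one, h, comap_val_eq_one, Algebra.norm_eq_prod_automorphisms] at h4
  refine absurd h4 (AP1Aux.prod_lt_one P' _ _ (fun σ _ => ?_) (Finset.mem_univ 1)
    (h3 P' (Finset.mem_singleton_self _))).ne
  exact h1 (P'.comap (σ : N →+* N)) ((AP1Aux.comap_conj P' σ).trans h.symm)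

theorem Dec.val_eq {P : ValuationSubring N} [FiniteDimensional K N] {σ : N ≃ₐ[K] N}
    (hσ : σ ∈ Dec K P) (x : N) : P.valuation (σ x) = P.valuation x := by
  have h1 : ∀ τ ∈ Dec K P, ∀ y, ¬ P.valuation (τ y) < P.valuation y := by
    intro τ hτ y hy
    have h2 : ∀ n : ℕ, P.valuation ((τ ^ (n + 1)) y) < P.valuation y := by
      intro n
      induction n with
      | zero => simpa using hy
      | succ n ih =>
        rw [pow_succ', AlgEquiv.mul_apply]
        exact ((AP1Aux.lt_iff hτ _ _).2 ih).trans hy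
    obtain ⟨n, hn, h3⟩ := (isOfFinOrder_of_finite τ).exists_pow_eq_one
    have := h2 (n - 1)
    rw [Nat.sub_add_cancel hn, h3] at this
    exact lt_irrefl _ this
  refine le_antisymm (not_lt.1 fun h => h1 σ⁻¹ (inv_mem hσ) (σ x) ?_) (not_lt.1 (h1 σ hσ x))
  simpa using h

end Vale.Agent.P019
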