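import Vale.Agent.P019.AP1

/-! P019: the decomposition field has the same value group. -/

namespace Vale.Agent.P019

namespace AP2Aux

variable {K N : Type*} [Field K] [Field N] [Algebra K N]

theorem dom [DecidableEq N] (P : ValuationSubring N) {R S : Finset N} (hS : S ⊆ R)
    (h0 : ∀ a ∈ S, a ≠ 0) (h : ∀ a ∈ S, ∀ b ∈ R, b ∉ S → P.valuation b < P.valuation a) :
    P.valuation (∑ T ∈ R.powersetCard S.card, ∏ r ∈ T, r) = P.valuation (∏ r ∈ S, r) := by
  refine Valuation.map_sum_eq_of_lt _ (f := fun T : Finset N => ∏ r ∈ T, r)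
    (Finset.mem_powersetCard.2 ⟨hS, rfl⟩) fun T hT => ?_
  obtain ⟨h1, h2⟩ := Finset.mem_sdiff.1 hT
  obtain ⟨h3, h4⟩ := Finset.mem_powersetCard.1 h1
  have h5 : (T \ S).card = (S \ T).card := Finset.card_sdiff_comm h4
  have h6 : (T \ S).Nonempty := by
    rw [Finset.sdiff_nonempty]
    exact fun h7 => h2 (Finset.mem_singleton.2 (Finset.eq_of_subset_of_card_le h7 h4.ge))
  have h7 : (S \ T).Nonempty := Finset.card_pos.1 (h5 ▸ Finset.card_pos.2 h6)
  obtain ⟨b, hb, hb'⟩ := Finset.exists_max_image _ P.valuation h6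
  obtain ⟨a, ha, ha'⟩ := Finset.exists_min_image _ P.valuation h7
  have h8 := h a (Finset.mem_sdiff.1 ha).1 b (h3 (Finset.mem_sdiff.1 hb).1) (Finset.mem_sdiff.1 hb).2
  have h9 : ∏ r ∈ T \ S, P.valuation r < ∏ r ∈ S \ T, P.valuation r :=
    calc ∏ r ∈ T \ S, P.valuation r ≤ P.valuation b ^ (T \ S).card :=
          Finset.prod_le_pow_card _ _ _ hb'
      _ < P.valuation a ^ (T \ S).card :=
          pow_lt_pow_left₀ h8 zero_le (Finset.card_pos.2 h6).ne'
      _ ≤ _ := h5 ▸ Finset.pow_card_le_prod _ _ _ ha'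
  have h10 : 0 < ∏ r ∈ S ∩ T, P.valuation r := zero_lt_iff.2 (Finset.prod_ne_zero_iff.2
    fun r hr => (map_ne_zero _).2 (h0 r (Finset.mem_inter.1 hr).1))
  rw [map_prod, map_prod, ← Finset.prod_inter_mul_prod_sdiff T S,
    ← Finset.prod_inter_mul_prod_sdiff S T, Finset.inter_comm T S]
  exact mul_lt_mul_of_pos_left h9 h10

theorem esymm_mem [FiniteDimensional K N] [IsGalois K N] [DecidableEq N] {R : Finset N}
    (h : ∀ σ : N ≃ₐ[K] N, R.image σ = R) (k : ℕ) :
    ∃ x : K, algebraMap K N x = ∑ T ∈ R.powersetCard k, ∏ r ∈ T, r := by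
  refine (IsGalois.mem_range_algebraMap_iff_fixed _).2 fun σ => ?_
  simp only [map_sum, map_prod]
  rw [← Finset.esymm_map_val (fun r => σ r), ← Finset.esymm_map_val fun r => r, Multiset.map_id',
    ← Finset.image_val_of_injOn σ.injective.injOn, h]

theorem orbit [FiniteDimensional K N] [IsGalois K N] (P : ValuationSubring N) {z : N} (hz : z ≠ 0)
    (h : ∀ σ : N ≃ₐ[K] N, σ z ≠ z → P.valuation (σ z) ≠ P.valuation z) :
    ∃ x : K, P.valuation (algebraMap K N x) = P.valuation z := by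
  classical
  set R := Finset.univ.image fun σ : N ≃ₐ[K] N => σ z with hR
  have h1 : ∀ σ : N ≃ₐ[K] N, R.image σ = R := fun σ => by
    refine Finset.eq_of_subset_of_card_le (fun r hr => ?_)
      (Finset.card_image_of_injective _ σ.injective).ge
    obtain ⟨t, ht, rfl⟩ := Finset.mem_image.1 hr
    obtain ⟨τ, -, rfl⟩ := Finset.mem_image.1 ht
    exact Finset.mem_image.2 ⟨σ * τ, Finset.mem_univ _, rfl⟩
  have hzR : z ∈ R := Finset.mem_image.2 ⟨1, Finset.mem_univ _, rfl⟩
  set S := R.filter fun r => P.valuation z < P.valuation r with hS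
  have hzS : z ∉ S := fun h => lt_irrefl _ (Finset.mem_filter.1 h).2
  have h0 : ∀ a ∈ S, a ≠ 0 := fun a ha h => by
    have := (Finset.mem_filter.1 ha).2
    simp [h] at this
  have h2 := dom P (Finset.filter_subset _ R : S ⊆ R) h0 fun a ha b hb hb' =>
    (not_lt.1 fun h => hb' (Finset.mem_filter.2 ⟨hb, h⟩)).trans_lt (Finset.mem_filter.1 ha).2
  have h3 := dom P (Finset.insert_subset hzR (Finset.filter_subset _ R) : insert z S ⊆ R)
    (fun a ha => (Finset.mem_insert.1 ha).elim (fun h => h ▸ hz) (h0 a)) fun a ha b hb hb' => by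
      rw [Finset.mem_insert, not_or] at hb'
      have h4 : P.valuation b < P.valuation z := by
        refine lt_of_le_of_ne (not_lt.1 fun h => hb'.2 (Finset.mem_filter.2 ⟨hb, h⟩)) ?_
        obtain ⟨σ, -, rfl⟩ := Finset.mem_image.1 hb
        exact h σ hb'.1
      rcases Finset.mem_insert.1 ha with rfl | ha
      · exact h4
      · exact h4.trans (Finset.mem_filter.1 ha).2
  obtain ⟨x, hx⟩ := esymm_mem h1 S.card
  obtain ⟨y, hy⟩ := esymm_mem h1 (insert z S).card
  refine ⟨y / x, ?_⟩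
  rw [map_div₀, map_div₀, hx, hy, h2, h3, Finset.prod_insert hzS, map_mul, mul_div_assoc,
    div_self ((map_ne_zero _).2 (Finset.prod_ne_zero_iff.2 h0)), mul_one]

theorem sep [FiniteDimensional K N] (P : ValuationSubring N) :
    ∃ β : N, P.valuation β = 1 ∧ (∀ σ ∈ Dec K P, σ β = β) ∧
      ∀ σ : N ≃ₐ[K] N, σ ∉ Dec K P → P.valuation (σ β) < 1 := by
  classical
  obtain ⟨β, -, h2, h3⟩ := exists_sep_elem (P.comap (algebraMap K N)) {P}
    ((Finset.univ.filter fun σ : N ≃ₐ[K] N => σ ∉ Dec K P).image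
      fun σ : N ≃ₐ[K] N => P.comap (σ : N →+* N))
    (fun Q hQ => by rw [Finset.mem_singleton.1 hQ])
    (fun Q hQ => by
      obtain ⟨σ, -, rfl⟩ := Finset.mem_image.1 hQ
      exact AP1Aux.comap_conj P σ)
    (Finset.disjoint_singleton_left.2 fun hQ => by
      obtain ⟨σ, h1, hσ⟩ := Finset.mem_image.1 hQ
      exact (Finset.mem_filter.1 h1).2 fun x => SetLike.ext_iff.1 hσ x)
  have h4 := h2 P (Finset.mem_singleton_self _)
  have h5 : ∀ σ : N ≃ₐ[K] N, σ ∉ Dec K P → P.valuation (σ β) < 1 := fun σ hσ =>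
    (comap_val_lt_one (σ : N →+* N) P β).1
      (h3 _ (Finset.mem_image_of_mem _ (Finset.mem_filter.2 ⟨Finset.mem_univ _, hσ⟩)))
  refine ⟨∏ τ : Dec K P, τ.1 β, ?_, fun σ hσ => ?_, fun σ hσ => ?_⟩
  · rw [map_prod]
    exact Finset.prod_eq_one fun τ _ => (Dec.val_eq τ.2 β).trans h4
  · rw [map_prod]
    exact Equiv.prod_comp (Equiv.mulLeft (⟨σ, hσ⟩ : Dec K P)) fun τ : Dec K P => τ.1 β
  · rw [map_prod]
    have h6 : ∀ τ : Dec K P, P.valuation (σ (τ.1 β)) < 1 := fun τ =>
      h5 (σ * τ.1) fun h => hσ ((mul_mem_cancel_right τ.2).1 h)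
    exact AP1Aux.prod_lt_one P _ _ (fun τ _ => (P.valuation_le_one_iff _).1 (h6 τ).le)
      (Finset.mem_univ 1) (h6 1)

end AP2Aux

/-- Take `β` a unit at `P` and in the maximal ideal of the other conjugates (`exists_sep_elem`),
replace it by its product over `D = Dec K P`, so it is `D`-invariant and `v (σ β) > 0` for `σ ∉ D`.
For suitable `n` the conjugates `σ (β ^ n z)`, `σ ∈ G / D` nontrivial, have values different from
that of `z' = β ^ n z`. If `r` conjugates have smaller additive value than `z'`, the elementary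
symmetric functions `e r`, `e (r + 1) ∈ K` of the conjugates have a unique dominant term, and
`v z = v (e (r + 1) / e r)`. -/
theorem exists_val_eq_of_fixed {K N : Type*} [Field K] [Field N] [Algebra K N]
    [FiniteDimensional K N] [IsGalois K N] (P : ValuationSubring N) {z : N}
    (hz : ∀ σ ∈ Dec K P, σ z = z) :
    ∃ x : K, P.valuation (algebraMap K N x) = P.valuation z := by
  by_cases hz0 : z = 0
  · exact ⟨0, by rw [hz0, map_zero]⟩
  obtain ⟨β, h1, h2, h3⟩ := AP2Aux.sep (K := K) P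
  have hβ : β ≠ 0 := fun h => by simp [h] at h1
  have h4 : (⋃ σ : N ≃ₐ[K] N, {n : ℕ | σ ∉ Dec K P ∧
      P.valuation (σ β) ^ n * P.valuation (σ z) = P.valuation z}).Finite := by
    refine Set.finite_iUnion fun σ => Set.Subsingleton.finite fun m hm n hn => ?_
    have h5 := hm.2.trans hn.2.symm
    rw [mul_left_inj' ((map_ne_zero _).2 ((map_ne_zero _).2 hz0))] at h5
    exact pow_right_injective₀ (zero_lt_iff.2 ((map_ne_zero _).2 ((map_ne_zero _).2 hβ)))
      (h3 σ hm.1).ne h5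
  obtain ⟨n, hn⟩ := h4.exists_notMem
  have h5 : P.valuation (β ^ n * z) = P.valuation z := by rw [map_mul, map_pow, h1, one_pow, one_mul]
  rw [← h5]
  refine AP2Aux.orbit P (mul_ne_zero (pow_ne_zero _ hβ) hz0) fun σ hσ h => hn ?_
  refine Set.mem_iUnion.2 ⟨σ, fun h6 => hσ ?_, ?_⟩
  · rw [map_mul, map_pow, h2 σ h6, hz σ h6]
  · rwa [h5, map_mul, map_pow, map_mul, map_pow] at h

/-- local degree: the product of the conjugates of `z` over `D / (D ⊓ H)` is `D`-invariant -/
theorem exists_val_pow_eq {K N : Type*} [Field K] [Field N] [Algebra K N]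
    [FiniteDimensional K N] [IsGalois K N] (P : ValuationSubring N) (H : Subgroup (N ≃ₐ[K] N))
    {z : N} (hz : ∀ σ ∈ H, σ z = z) :
    ∃ x : K, P.valuation (algebraMap K N x) = P.valuation z ^ H.relIndex (Dec K P) := by
  classical
  let f : (Dec K P ⧸ H.subgroupOf (Dec K P)) → N := fun c =>
    Quotient.liftOn' c (fun d : Dec K P => d.1 z) fun d d' h => by
      have h1 := hz _ (Subgroup.mem_subgroupOf.1 (QuotientGroup.leftRel_apply.1 h))
      have h2 := congrArg d.1 h1
      rw [← AlgEquiv.mul_apply, Subgroup.coe_mul, Subgroup.coe_inv, mul_inv_cancel_left] at h2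
      exact h2.symm
  have h1 : ∀ (τ : Dec K P) c, τ.1 (f c) = f (τ • c) := fun τ c =>
    QuotientGroup.induction_on c fun d => rfl
  have h2 : ∀ c, P.valuation (f c) = P.valuation z := fun c =>
    QuotientGroup.induction_on c fun d => Dec.val_eq d.2 z
  let : Fintype (Dec K P ⧸ H.subgroupOf (Dec K P)) := Fintype.ofFinite _
  obtain ⟨x, hx⟩ := exists_val_eq_of_fixed P (z := ∏ c, f c) fun σ hσ => by
    rw [map_prod, Finset.prod_congr rfl fun c _ => h1 ⟨σ, hσ⟩ c]
    exact Equiv.prod_comp (MulAction.toPerm (⟨σ, hσ⟩ : Dec K P)) f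
  refine ⟨x, ?_⟩
  rw [hx, map_prod, Finset.prod_congr rfl fun c _ => h2 c, Finset.prod_const, Subgroup.relIndex,
    Subgroup.index_eq_card, Nat.card_eq_fintype_card, Finset.card_univ]

end Vale.Agent.P019
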