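import Vale.Agent.P019.Base2

/-! P019: elementary facts on `HO`, `TO`. -/

open IsLocalRing

set_option linter.unusedSectionVars false

namespace Vale.Agent.P019

variable {ℓ : ℕ} [Fact ℓ.Prime] {F F' : Type*} [Field F] [Field F'] {O : ValuationSubring F}

namespace ValHAux

theorem mem_span_iff (P : F → Prop) (h1 : P 1) (hmul : ∀ x y, P x → P y → P (x * y))
    (h0 : ∀ x, P x → x ≠ 0) {v : V ℓ F} :
    v ∈ Submodule.span (ZMod ℓ) {v | ∃ x : F, P x ∧ cl ℓ x = v} ↔ ∃ x, P x ∧ cl ℓ x = v := by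
  refine ⟨fun h => ?_, fun h => Submodule.subset_span h⟩
  induction h using Submodule.span_induction with
  | mem v hv => exact hv
  | zero => exact ⟨1, h1, cl_one⟩
  | add _ _ _ _ hx hy =>
    obtain ⟨x, hx, rfl⟩ := hx
    obtain ⟨y, hy, rfl⟩ := hy
    exact ⟨x * y, hmul x y hx hy, cl_mul (h0 x hx) (h0 y hy)⟩
  | smul c _ _ hx =>
    obtain ⟨x, hx, rfl⟩ := hx
    have hp : ∀ n : ℕ, P (x ^ n) := fun n => by
      induction n with
      | zero => rwa [pow_zero]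
      | succ n ih => rw [pow_succ]; exact hmul _ _ ih hx
    exact ⟨x ^ c.val, hp _, by rw [cl_pow, ZMod.natCast_zmod_val]⟩

theorem ne_zero_of_val {x : F} (hx : O.valuation x = 1) : x ≠ 0 := by
  rintro rfl
  simp at hx

theorem val_eq_one_iff {x : F} : O.valuation x = 1 ↔ x ≠ 0 ∧ x ∈ O ∧ x⁻¹ ∈ O := by
  refine ⟨fun h => ⟨ne_zero_of_val h, mem_of_val_eq_one h,
    mem_of_val_eq_one (by rw [map_inv₀, h, inv_one])⟩, fun ⟨h0, h1, h2⟩ => ?_⟩
  rw [← O.valuation_le_one_iff] at h1 h2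
  rw [map_inv₀, inv_le_one₀ (zero_lt_iff.2 (by simpa using h0))] at h2
  exact le_antisymm h1 h2

theorem val_lt_one_iff {x : F} : O.valuation x < 1 ↔ x = 0 ∨ x⁻¹ ∉ O := by
  by_cases h0 : x = 0
  · simp [h0]
  · rw [← O.valuation_le_one_iff, map_inv₀, inv_le_one₀ (zero_lt_iff.2 (by simpa using h0)), not_le]
    simp [h0]

theorem val_of_sub_one {x : F} (hx : O.valuation (x - 1) < 1) : O.valuation x = 1 := by
  have := O.valuation.map_one_add_of_lt hx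
  rwa [add_sub_cancel] at this

theorem sub_one_iff_res {x : F} (hx : O.valuation x = 1) :
    O.valuation (x - 1) < 1 ↔ res O x = 1 := by
  rw [← res_eq_iff (mem_of_val_eq_one hx) O.one_mem, res_one]

end ValHAux

open ValHAux

theorem mem_HO_iff_exists {v : V ℓ F} : v ∈ HO ℓ O ↔ ∃ u : F, O.valuation u = 1 ∧ cl ℓ u = v :=
  mem_span_iff (fun u => O.valuation u = 1) (map_one _)
    (fun x y hx hy => by rw [map_mul, hx, hy, mul_one]) fun _ => ne_zero_of_val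

theorem mem_TO_iff_exists {v : V ℓ F} :
    v ∈ TO ℓ O ↔ ∃ u : F, O.valuation (u - 1) < 1 ∧ cl ℓ u = v :=
  mem_span_iff (fun u => O.valuation (u - 1) < 1) (by simp)
    (fun x y hx hy => by
      have h1 := val_of_sub_one hx
      have h2 := val_of_sub_one hy
      rw [sub_one_iff_res (by rw [map_mul, h1, h2, mul_one]),
        res_mul (mem_of_val_eq_one h1) (mem_of_val_eq_one h2), (sub_one_iff_res h1).1 hx,
        (sub_one_iff_res h2).1 hy, mul_one])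
    fun _ hx => ne_zero_of_val (val_of_sub_one hx)

theorem cl_mem_HO_iff {x : F} (hx : x ≠ 0) :
    cl ℓ x ∈ HO ℓ O ↔ ∃ y : F, y ≠ 0 ∧ O.valuation x = O.valuation y ^ ℓ := by
  rw [mem_HO_iff_exists]
  constructor
  · rintro ⟨u, hu, e⟩
    obtain ⟨z, hz, rfl⟩ := (cl_eq_iff hx (ne_zero_of_val hu)).1 e.symm
    exact ⟨z, hz, by rw [map_mul, hu, one_mul, map_pow]⟩
  · rintro ⟨y, hy, e⟩
    refine ⟨x / y ^ ℓ, ?_, by rw [cl_div hx (pow_ne_zero _ hy), cl_pow_self, sub_zero]⟩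
    rw [map_div₀, map_pow, e, div_self (pow_ne_zero _ (by simpa using hy))]

theorem cl_mem_HO {x : F} (hx : O.valuation x = 1) : cl ℓ x ∈ HO ℓ O :=
  Submodule.subset_span ⟨x, hx, rfl⟩

theorem cl_mem_TO {x : F} (hx : O.valuation (x - 1) < 1) : cl ℓ x ∈ TO ℓ O :=
  Submodule.subset_span ⟨x, hx, rfl⟩

theorem TO_le_HO : TO ℓ O ≤ HO ℓ O := fun _ hv => by
  obtain ⟨x, hx, rfl⟩ := mem_TO_iff_exists.1 hv
  exact cl_mem_HO (val_of_sub_one hx)

theorem HO_mono {O' : ValuationSubring F} (h : O ≤ O') : HO ℓ O ≤ HO ℓ O' := fun _ hv => by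
  obtain ⟨x, hx, rfl⟩ := mem_HO_iff_exists.1 hv
  rw [val_eq_one_iff] at hx
  exact cl_mem_HO (val_eq_one_iff.2 ⟨hx.1, h hx.2.1, h hx.2.2⟩)

theorem TO_anti {O' : ValuationSubring F} (h : O ≤ O') : TO ℓ O' ≤ TO ℓ O := fun _ hv => by
  obtain ⟨x, hx, rfl⟩ := mem_TO_iff_exists.1 hv
  rw [val_lt_one_iff] at hx
  exact cl_mem_TO (val_lt_one_iff.2 (hx.imp id fun a b => a (h b)))

theorem HO_top : HO ℓ (⊤ : ValuationSubring F) = ⊤ := by
  refine top_unique fun v _ => ?_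
  obtain ⟨x, hx, rfl⟩ := cl_surj v
  exact cl_mem_HO (val_eq_one_iff.2 ⟨hx, trivial, trivial⟩)

theorem cl_sub_mem_HO {x y : F} (hx : x ≠ 0) (h : O.valuation x = O.valuation y) :
    cl ℓ x - cl ℓ y ∈ HO ℓ O := by
  have h1 : O.valuation y ≠ 0 := by rw [← h]; simpa using hx
  rw [← cl_div hx (by simpa using h1)]
  exact cl_mem_HO (by rw [map_div₀, h, div_self h1])

theorem cl_add_sub_mem_TO {x y : F} (h : O.valuation y < O.valuation x) :
    cl ℓ (x + y) - cl ℓ x ∈ TO ℓ O := by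
  have h1 : 0 < O.valuation x := zero_le.trans_lt h
  have hx : x ≠ 0 := by simpa using h1.ne'
  have h2 : O.valuation ((x + y) / x - 1) < 1 := by
    rw [show (x + y) / x - 1 = y / x by field_simp; ring, map_div₀, div_lt_one₀ h1]
    exact h
  have h3 : x + y ≠ 0 := fun h0 => ne_zero_of_val (val_of_sub_one h2) (by rw [h0, zero_div])
  rw [← cl_div h3 hx]
  exact cl_mem_TO h2

theorem cl_algebraMap {k : Type*} [Field k] [Algebra k F] [IsAlgClosed k] (a : k) :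
    cl ℓ (algebraMap k F a) = 0 := by
  obtain ⟨b, rfl⟩ := IsAlgClosed.exists_pow_nat_eq a (Fact.out : ℓ.Prime).pos
  rw [map_pow, cl_pow_self]

theorem cl_neg_one (k : Type*) [Field k] [Algebra k F] [IsAlgClosed k] : cl ℓ (-1 : F) = 0 := by
  have := cl_algebraMap (ℓ := ℓ) (F := F) (-1 : k)
  rwa [map_neg, map_one] at this

theorem cl_mem_TO_iff_res {x : F} (hx : O.valuation x = 1) :
    cl ℓ x ∈ TO ℓ O ↔ cl ℓ (res O x) = 0 := by
  have hℓ := (Fact.out : ℓ.Prime).ne_zero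
  rw [mem_TO_iff_exists]
  constructor
  · rintro ⟨u, hu, e⟩
    have hu1 := val_of_sub_one hu
    obtain ⟨z, hz, rfl⟩ := (cl_eq_iff (ne_zero_of_val hx) (ne_zero_of_val hu1)).1 e.symm
    rw [map_mul, hu1, one_mul, map_pow, pow_eq_one_iff_of_nonneg zero_le hℓ] at hx
    have hzO := mem_of_val_eq_one hx
    rw [res_mul (mem_of_val_eq_one hu1) (pow_mem hzO _), (sub_one_iff_res hu1).1 hu, one_mul,
      res_pow hzO, cl_pow_self]
  · intro h
    obtain ⟨r, hr⟩ := (cl_eq_zero_iff (res_ne_zero hx)).1 h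
    obtain ⟨z, hzO, rfl⟩ := res_surj r
    have hz : O.valuation z = 1 := val_eq_one_of_res fun h0 =>
      res_ne_zero hx (by rw [hr, h0, zero_pow hℓ])
    have hz' : O.valuation (z ^ ℓ) = 1 := by rw [map_pow, hz, one_pow]
    have hi : O.valuation (z ^ ℓ)⁻¹ = 1 := by rw [map_inv₀, hz', inv_one]
    refine ⟨x / z ^ ℓ, ?_, by
      rw [cl_div (ne_zero_of_val hx) (ne_zero_of_val hz'), cl_pow_self, sub_zero]⟩
    rw [div_eq_mul_inv, sub_one_iff_res (by rw [map_mul, hx, hi, mul_one]),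
      res_mul (mem_of_val_eq_one hx) (mem_of_val_eq_one hi), res_inv hz', res_pow hzO, ← hr,
      mul_inv_cancel₀ (res_ne_zero hx)]

/-- cases `x` unit or in the maximal ideal, or `x⁻¹` in the maximal ideal
(`1 - x = -x (1 - x⁻¹)`) -/
theorem acl_of_HT (hm : cl ℓ (-1 : F) = 0) {f g : Module.Dual (ZMod ℓ) (V ℓ F)}
    (hf : HO ℓ O ≤ LinearMap.ker f) (hg : TO ℓ O ≤ LinearMap.ker g) : Acl f g := by
  intro x hx0 hx1
  have hfT : TO ℓ O ≤ LinearMap.ker f := TO_le_HO.trans hf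
  have hx1' : 1 - x ≠ 0 := sub_ne_zero.2 hx1.symm
  rcases lt_trichotomy (O.valuation x) 1 with h | h | h
  · have h1 : cl ℓ (1 - x) ∈ TO ℓ O := cl_mem_TO (by simpa using h)
    rw [LinearMap.mem_ker.1 (hfT h1), LinearMap.mem_ker.1 (hg h1), mul_zero, zero_mul]
  · have h1 : f (cl ℓ x) = 0 := hf (cl_mem_HO h)
    rw [h1, zero_mul]
    rcases (O.valuation.map_sub_le (le_of_eq (map_one _)) h.le).lt_or_eq with h2 | h2
    · have h3 : cl ℓ x ∈ TO ℓ O := cl_mem_TO (by rwa [O.valuation.map_sub_swap])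
      rw [LinearMap.mem_ker.1 (hg h3), mul_zero]
    · rw [LinearMap.mem_ker.1 (hf (cl_mem_HO h2)), zero_mul]
  · have h1 : cl ℓ (1 - x⁻¹) ∈ TO ℓ O := cl_mem_TO (by
      simpa using inv_lt_one_of_one_lt₀ h)
    have e : 1 - x = -1 * x * (1 - x⁻¹) := by field_simp; ring
    have h2 : 1 - x⁻¹ ≠ 0 := by
      intro h2
      rw [h2, mul_zero] at e
      exact hx1' e
    have e2 : cl ℓ (1 - x) = cl ℓ x + cl ℓ (1 - x⁻¹) := by
      rw [e, cl_mul (by simp [hx0]) h2, cl_mul (by simp) hx0, hm, zero_add]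
    rw [e2, map_add, map_add, LinearMap.mem_ker.1 (hfT h1), LinearMap.mem_ker.1 (hg h1), add_zero,
      add_zero]

/-- incomparable valuation rings. Take `a ∈ O₁ \ O₂`, `b ∈ O₂ \ O₁`, `z = a / b` (so `z ∈ 𝔪₁`,
`z⁻¹ ∈ 𝔪₂`); for a unit `x` of `O₁` replace `z` by `z / x` if `x ∈ 𝔪₂`; then
`x' = (1 + z x) / (1 + z)` is a principal unit of `O₁` and `x' / x` one of `O₂`. -/
theorem HO_le_sup_TO {O₁ O₂ : ValuationSubring F} (h₁ : ¬ O₁ ≤ O₂) (h₂ : ¬ O₂ ≤ O₁) :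
    HO ℓ O₁ ≤ TO ℓ O₁ ⊔ TO ℓ O₂ := by
  intro v hv
  obtain ⟨x, hx, rfl⟩ := mem_HO_iff_exists.1 hv
  have hx0 := ne_zero_of_val hx
  obtain ⟨a, ha1, ha2⟩ := SetLike.not_le_iff_exists.1 h₁
  obtain ⟨b, hb2, hb1⟩ := SetLike.not_le_iff_exists.1 h₂
  have hb0 : b ≠ 0 := fun h => hb1 (h ▸ O₁.zero_mem)
  rw [← ValuationSubring.valuation_le_one_iff] at ha1 hb2
  rw [← ValuationSubring.valuation_le_one_iff, not_le] at ha2 hb1
  have hz1 : O₁.valuation (a / b) < 1 := by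
    rw [map_div₀, div_lt_one₀ (zero_lt_one.trans hb1)]
    exact ha1.trans_lt hb1
  have hz2 : 1 < O₂.valuation (a / b) := by
    rw [map_div₀, one_lt_div₀ (zero_lt_iff.2 (by simpa using hb0))]
    exact hb2.trans_lt ha2
  obtain ⟨z, k1, k2, k3⟩ : ∃ z, O₁.valuation z < 1 ∧ 1 < O₂.valuation z ∧
      1 < O₂.valuation (z * x) := by
    rcases le_or_gt 1 (O₂.valuation x) with h | h
    · refine ⟨a / b, hz1, hz2, ?_⟩
      rw [map_mul]
      exact hz2.trans_le (le_mul_of_one_le_right zero_le h)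
    · refine ⟨a / b / x, by rwa [map_div₀, hx, div_one], ?_, by rwa [div_mul_cancel₀ _ hx0]⟩
      rw [map_div₀, one_lt_div₀ (zero_lt_iff.2 (by simpa using hx0))]
      exact h.trans hz2
  have hz0 : z ≠ 0 := by
    rintro rfl
    simp at k2
  have m1 : cl ℓ (z * x + 1) ∈ TO ℓ O₁ := cl_mem_TO (by
    rwa [add_sub_cancel_right, map_mul, hx, mul_one])
  have m2 : cl ℓ (z + 1) ∈ TO ℓ O₁ := cl_mem_TO (by rwa [add_sub_cancel_right])
  have m3 : cl ℓ (z * x + 1) - cl ℓ (z * x) ∈ TO ℓ O₂ := cl_add_sub_mem_TO (by rwa [map_one])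
  have m4 : cl ℓ (z + 1) - cl ℓ z ∈ TO ℓ O₂ := cl_add_sub_mem_TO (by rwa [map_one])
  refine Submodule.mem_sup.2 ⟨_, sub_mem m1 m2, _, sub_mem m4 m3, ?_⟩
  rw [cl_mul hz0 hx0]
  abel

theorem cl_map_mem_HO (φ : F' →+* F) {x : F'} (h : cl ℓ x ∈ HO ℓ (O.comap φ)) :
    cl ℓ (φ x) ∈ HO ℓ O := by
  obtain ⟨u, hu, e⟩ := mem_HO_iff_exists.1 h
  rw [← Vmap_cl, ← e, Vmap_cl]
  rw [val_eq_one_iff] at hu
  exact cl_mem_HO (val_eq_one_iff.2 ⟨by simpa using hu.1, hu.2.1, by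
    rw [← map_inv₀]; exact hu.2.2⟩)

theorem cl_map_mem_TO (φ : F' →+* F) {x : F'} (h : cl ℓ x ∈ TO ℓ (O.comap φ)) :
    cl ℓ (φ x) ∈ TO ℓ O := by
  obtain ⟨u, hu, e⟩ := mem_TO_iff_exists.1 h
  rw [← Vmap_cl, ← e, Vmap_cl]
  rw [val_lt_one_iff] at hu
  refine cl_mem_TO (val_lt_one_iff.2 ?_)
  rw [← map_one φ, ← map_sub, ← map_inv₀]
  exact hu.imp (fun a => by rw [a, map_zero]) id

/-- `HO / TO` is `V` of the residue field -/
theorem exists_resV (O : ValuationSubring F) :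
    ∃ ρ : HO ℓ O →ₗ[ZMod ℓ] V ℓ (ResidueField O), Function.Surjective ρ ∧
      (∀ v : HO ℓ O, ρ v = 0 ↔ (v : V ℓ F) ∈ TO ℓ O) ∧
      ∀ (x : F) (hx : O.valuation x = 1), ρ ⟨cl ℓ x, cl_mem_HO hx⟩ = cl ℓ (res O x) := by
  have wd : ∀ x y : F, O.valuation x = 1 → O.valuation y = 1 → cl ℓ x = cl ℓ y →
      cl ℓ (res O x) = cl ℓ (res O y) := fun x y hx hy e => by
    have hi : O.valuation y⁻¹ = 1 := by rw [map_inv₀, hy, inv_one]
    have h1 := (cl_mem_TO_iff_res (ℓ := ℓ) (x := x * y⁻¹)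
      (by rw [map_mul, hx, hi, mul_one])).1 (by
        rw [← div_eq_mul_inv, cl_div (ne_zero_of_val hx) (ne_zero_of_val hy), e, sub_self]
        exact zero_mem _)
    rwa [res_mul (mem_of_val_eq_one hx) (mem_of_val_eq_one hi), res_inv hy, ← div_eq_mul_inv,
      cl_div (res_ne_zero hx) (res_ne_zero hy), sub_eq_zero] at h1
  choose u hu he using fun v : HO ℓ O => mem_HO_iff_exists.1 v.2
  let ρ : HO ℓ O →+ V ℓ (ResidueField O) := AddMonoidHom.mk' (fun v => cl ℓ (res O (u v)))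
    fun v w => by
      rw [← cl_mul (res_ne_zero (hu v)) (res_ne_zero (hu w)),
        ← res_mul (mem_of_val_eq_one (hu v)) (mem_of_val_eq_one (hu w))]
      refine wd _ _ (hu _) (by rw [map_mul, hu, hu, mul_one]) ?_
      rw [cl_mul (ne_zero_of_val (hu v)) (ne_zero_of_val (hu w)), he, he, he, Submodule.coe_add]
  have h3 : ∀ (x : F) (hx : O.valuation x = 1),
      ρ.toZModLinearMap ℓ ⟨cl ℓ x, cl_mem_HO hx⟩ = cl ℓ (res O x) := fun x hx =>
    wd _ _ (hu _) hx (he _)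
  refine ⟨ρ.toZModLinearMap ℓ, fun r => ?_, fun v => ?_, h3⟩
  · obtain ⟨s, hs, rfl⟩ := cl_surj r
    obtain ⟨x, -, rfl⟩ := res_surj s
    exact ⟨_, h3 x (val_eq_one_of_res hs)⟩
  · rw [← he v, cl_mem_TO_iff_res (hu v)]
    rfl

theorem exists_lift_functional (φ : Module.Dual (ZMod ℓ) (V ℓ (ResidueField O))) :
    ∃ ψ : Module.Dual (ZMod ℓ) (V ℓ F),
      ∀ x : F, O.valuation x = 1 → ψ (cl ℓ x) = φ (cl ℓ (res O x)) := by
  obtain ⟨ρ, -, -, h⟩ := exists_resV (ℓ := ℓ) O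
  obtain ⟨ψ, hψ⟩ := LinearMap.exists_extend (φ ∘ₗ ρ)
  refine ⟨ψ, fun x hx => ?_⟩
  rw [← h x hx]
  exact LinearMap.congr_fun hψ ⟨cl ℓ x, cl_mem_HO hx⟩

theorem exists_functional {H : Submodule (ZMod ℓ) (V ℓ F)} {v : V ℓ F} (h : v ∉ H) :
    ∃ φ : Module.Dual (ZMod ℓ) (V ℓ F), H ≤ LinearMap.ker φ ∧ φ v = 1 := by
  obtain ⟨f, hf, hf'⟩ := Submodule.exists_dual_map_eq_bot_of_notMem h inferInstance
  refine ⟨(f v)⁻¹ • f, fun w hw => ?_, by simp [hf]⟩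
  have : f w ∈ H.map f := Submodule.mem_map_of_mem hw
  rw [hf', Submodule.mem_bot] at this
  simp [this]

theorem mem_Geo_iff {k : Type*} [Field k] [Algebra k F] {z : F} {v : V ℓ F} :
    v ∈ Geo ℓ k z ↔ ∃ y ∈ Ecl k z, y ≠ 0 ∧ cl ℓ y = v := by
  have e : {v : V ℓ F | ∃ y ∈ Ecl k z, cl ℓ y = v} =
      {v | ∃ y : F, (y ∈ Ecl k z ∧ y ≠ 0) ∧ cl ℓ y = v} := by
    ext w
    constructor
    · rintro ⟨y, hy, rfl⟩
      by_cases h0 : y = 0
      · exact ⟨1, ⟨one_mem _, one_ne_zero⟩, by simp [h0]⟩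
      · exact ⟨y, ⟨hy, h0⟩, rfl⟩
    · rintro ⟨y, hy, rfl⟩
      exact ⟨y, hy.1, rfl⟩
  rw [Geo, e, mem_span_iff (fun y => y ∈ Ecl k z ∧ y ≠ 0) ⟨one_mem _, one_ne_zero⟩
    (fun x y hx hy => ⟨mul_mem hx.1 hy.1, mul_ne_zero hx.2 hy.2⟩) fun _ h => h.2]
  simp only [and_assoc]

end Vale.Agent.P019
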