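import Vale.Agent.P019.AP2
import Vale.Agent.P019.ValH

/-! P019: local degrees prime to `ℓ`. -/

open IsLocalRing

namespace Vale.Agent.P019

namespace AP3Aux

variable {ℓ : ℕ} [Fact ℓ.Prime]

theorem grp {G : Type*} [Group G] [Finite G] (D H : Subgroup G) (h : ℓ ∣ H.relIndex D) :
    ∃ (S S₁ : Subgroup G) (n : ℕ), S ≤ H ⊓ D ∧ ¬ ℓ ∣ S.relIndex (H ⊓ D) ∧ S₁ ≤ D ∧ S ≤ S₁ ∧
      Nat.card S₁ = ℓ ^ (n + 1) ∧ Nat.card S = ℓ ^ n := by
  obtain ⟨Q⟩ : Nonempty (Sylow ℓ (H ⊓ D : Subgroup G)) := inferInstance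
  obtain ⟨n, hn⟩ := IsPGroup.iff_card.mp Q.isPGroup'
  set S : Subgroup G := (Q : Subgroup (H ⊓ D : Subgroup G)).map (H ⊓ D).subtype with hS
  have hle : S ≤ H ⊓ D := Subgroup.map_subtype_le _
  have hcS : Nat.card S = ℓ ^ n := by
    rw [hS, Subgroup.card_map_of_injective (Subgroup.subtype_injective _), hn]
  have hidx : S.relIndex (H ⊓ D) = (Q : Subgroup (H ⊓ D : Subgroup G)).index := by
    rw [Subgroup.relIndex, hS, Subgroup.subgroupOf,
      Subgroup.comap_map_eq_self_of_injective (Subgroup.subtype_injective _)]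
  have hSD : S ≤ D := hle.trans inf_le_right
  have h1 : Nat.card (S.subgroupOf D) = ℓ ^ n := by
    rw [Nat.card_congr (Subgroup.subgroupOfEquivOfLe hSD).toEquiv, hcS]
  have h2 : ℓ ^ (n + 1) ∣ Nat.card D := by
    rw [← (S.subgroupOf D).card_mul_index, h1, pow_succ]
    refine Nat.mul_dvd_mul_left _ (h.trans ?_)
    rw [← Subgroup.inf_relIndex_right H D]
    exact Dvd.intro_left _ (Subgroup.relIndex_mul_relIndex S (H ⊓ D) D hle inf_le_right)
  obtain ⟨T, hT, hST⟩ := Sylow.exists_subgroup_card_pow_succ h2 h1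
  refine ⟨S, T.map D.subtype, n, hle, hidx ▸ Q.not_dvd_index, Subgroup.map_subtype_le _, ?_, ?_,
    hcS⟩
  · intro g hg
    exact ⟨⟨g, hSD hg⟩, hST hg, rfl⟩
  · rw [Subgroup.card_map_of_injective (Subgroup.subtype_injective _), hT]

theorem chi {G K : Type*} [Group G] [Finite G] [Field K] (T : Subgroup G) (n : ℕ)
    (hG : Nat.card G = ℓ ^ (n + 1)) (hT : Nat.card T = ℓ ^ n) {ζ : K}
    (hζ : IsPrimitiveRoot ζ ℓ) :
    ∃ χ : G →* Kˣ, (∀ g, χ g ^ ℓ = 1) ∧ (∀ g ∈ T, χ g = 1) ∧ ∃ g, χ g ≠ 1 := by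
  have hp : ℓ.Prime := Fact.out
  have : NeZero ℓ := ⟨hp.ne_zero⟩
  have hi : T.index = ℓ := by
    have := T.card_mul_index
    rw [hG, hT, pow_succ] at this
    exact Nat.eq_of_mul_eq_mul_left (pow_pos hp.pos n) this
  have hN : T.Normal := by
    apply Subgroup.normal_of_index_eq_minFac_card
    rw [hG, hi, hp.pow_minFac (Nat.succ_ne_zero n)]
  let e : (G ⧸ T) ≃* rootsOfUnity ℓ K := mulEquivOfPrimeCardEq hi hζ.card_rootsOfUnity
  refine ⟨((rootsOfUnity ℓ K).subtype.comp e.toMonoidHom).comp (QuotientGroup.mk' T),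
    fun g => (e (g : G ⧸ T)).2, fun g hg => ?_, ?_⟩
  · have : (g : G ⧸ T) = 1 := (QuotientGroup.eq_one_iff g).2 hg
    simp [this]
  · by_contra hc
    push Not at hc
    have : T = ⊤ := by
      rw [eq_top_iff]
      intro g _
      have h1 : e (g : G ⧸ T) = 1 := Subtype.ext (hc g)
      exact (QuotientGroup.eq_one_iff g).1 (e.map_eq_one_iff.1 h1)
    rw [this, Subgroup.index_top] at hi
    exact hp.ne_one hi.symm

variable {K N : Type*} [Field K] [Field N] [Algebra K N]

/-- Lagrange resolvent -/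
theorem resolvent (S : Subgroup (N ≃ₐ[K] N)) [Finite S] (χ : S →* Kˣ) :
    ∃ t : N, t ≠ 0 ∧ ∀ g : S, (g : N ≃ₐ[K] N) t = algebraMap K N (χ g) * t := by
  classical
  have := Fintype.ofFinite S
  have hli : LinearIndependent N (fun g : S => ((g : N ≃ₐ[K] N) : N →ₐ[K] N).toLinearMap) :=
    (linearIndependent_algHom_toLinearMap K N N).comp _
      (AlgEquiv.coe_toAlgHom_injective.comp Subtype.val_injective)
  have hne : ∑ g : S, algebraMap K N ((χ g)⁻¹ : Kˣ) •
      ((g : N ≃ₐ[K] N) : N →ₐ[K] N).toLinearMap ≠ 0 := by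
    intro h0
    have := Fintype.linearIndependent_iff.1 hli _ h0 1
    simp at this
  obtain ⟨u, hu⟩ := DFunLike.ne_iff.1 hne
  refine ⟨∑ g : S, algebraMap K N ((χ g)⁻¹ : Kˣ) * (g : N ≃ₐ[K] N) u, by simpa using hu,
    fun h => ?_⟩
  rw [map_sum, Finset.mul_sum]
  refine Fintype.sum_equiv (Equiv.mulLeft h) _ _ fun g => ?_
  rw [map_mul, AlgEquiv.commutes, ← mul_assoc, ← map_mul, ← Units.val_mul]
  simp

theorem exists_congr (P : ValuationSubring N)
    [IsAlgClosed (ResidueField (P.comap (algebraMap K N)))] {u : N} (hu : u ∈ P)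
    (halg : IsAlgebraic K u) : ∃ c : K, P.valuation (u - algebraMap K N c) < 1 := by
  obtain ⟨p, hp0, hpu⟩ := halg
  obtain ⟨j, hj, hmax⟩ := Finset.exists_max_image p.support
    (fun i => P.valuation (algebraMap K N (p.coeff i))) (Polynomial.support_nonempty.2 hp0)
  have hc : p.coeff j ≠ 0 := Polynomial.mem_support_iff.1 hj
  set O := P.comap (algebraMap K N) with hO
  have hmem : ∀ i, (Polynomial.C (p.coeff j)⁻¹ * p).coeff i ∈ O := by
    intro i
    rw [Polynomial.coeff_C_mul, hO, ValuationSubring.mem_comap, ← P.valuation_le_one_iff,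
      map_mul, map_mul, map_inv₀, map_inv₀]
    have h0 : 0 < P.valuation (algebraMap K N (p.coeff j)) := by
      rw [Valuation.pos_iff]; simpa using hc
    rw [inv_mul_le_iff₀ h0, mul_one]
    by_cases hi : i ∈ p.support
    · exact hmax i hi
    · rw [Polynomial.notMem_support_iff.1 hi]; simp
  obtain ⟨q, hq⟩ : ∃ q : Polynomial O, q.map O.subtype = Polynomial.C (p.coeff j)⁻¹ * p := by
    rw [← Polynomial.mem_lifts, Polynomial.lifts_iff_coeff_lifts]
    exact fun i => ⟨⟨_, hmem i⟩, rfl⟩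
  have hqj : q.coeff j = 1 := by
    apply Subtype.ext
    have := congrArg (fun r => Polynomial.coeff r j) hq
    simp only [Polynomial.coeff_map, Polynomial.coeff_C_mul, inv_mul_cancel₀ hc] at this
    exact this
  obtain ⟨ι, hι⟩ := exists_resMap (algebraMap K N) P
  let φ : O →+* P := ((algebraMap K N).comp O.subtype).codRestrict P fun x => x.2
  have h1 : q.eval₂ φ ⟨u, hu⟩ = 0 := by
    apply Subtype.ext
    have := Polynomial.hom_eval₂ q φ P.subtype ⟨u, hu⟩
    have h2 : P.subtype.comp φ = (algebraMap K N).comp O.subtype := rfl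
    rw [h2, ← Polynomial.eval₂_map, hq, ← Polynomial.aeval_def, map_mul] at this
    erw [hpu] at this
    rw [mul_zero] at this
    exact this
  have h2 : (residue P).comp φ = ι.comp (residue O) := by
    ext x
    have := hι x x.2
    rw [res_coe, res_of_mem (O := P) x.2] at this
    exact this.symm
  have h3 : ((q.map (residue O)).map ι).IsRoot (res P u) := by
    rw [Polynomial.IsRoot, Polynomial.eval_map, Polynomial.eval₂_map, ← h2, res_of_mem hu,
      ← Polynomial.hom_eval₂, h1, map_zero]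
  have h4 : q.map (residue O) ≠ 0 := by
    intro h0
    have := congrArg (fun r => Polynomial.coeff r j) h0
    simp [hqj] at this
  obtain ⟨r, hr⟩ := (IsAlgClosed.splits (q.map (residue O))).mem_range_of_isRoot h4 h3
  obtain ⟨c, hcO, rfl⟩ := res_surj r
  rw [hι c hcO] at hr
  exact ⟨c, (res_eq_iff hu hcO).1 hr.symm⟩

omit [Fact ℓ.Prime] in
theorem val_lt_of_root (P : ValuationSubring N) {w : N} (hw : w ^ ℓ = 1) (h1 : w ≠ 1)
    (hv : P.valuation (w - 1) < 1) : P.valuation (ℓ : N) < 1 := by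
  have hm : w - 1 ∈ P := (P.valuation_le_one_iff _).1 hv.le
  have hwP : w ∈ P := by simpa using P.add_mem _ _ hm P.one_mem
  have hs : ∑ i ∈ Finset.range ℓ, (⟨w, hwP⟩ : P) ^ i = 0 := by
    apply Subtype.ext
    have := mul_neg_geom_sum w ℓ
    rw [hw, sub_self, mul_eq_zero] at this
    simpa using this.resolve_left (sub_ne_zero.2 h1.symm)
  have hr : residue P ⟨w, hwP⟩ = 1 := by
    rw [← res_of_mem hwP, ← res_one, res_eq_iff hwP P.one_mem]
    exact hv
  have := congrArg (residue P) hs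
  simp only [map_sum, map_pow, hr, one_pow, Finset.sum_const, Finset.card_range, nsmul_eq_mul,
    mul_one, map_zero] at this
  rw [← map_natCast (residue P), residue_eq_zero_iff, ValuationSubring.valuation_lt_one_iff] at this
  simpa using this

theorem bezout {Γ : Type*} [CommGroupWithZero Γ] {g : Γ} (hg : g ≠ 0) {m : ℕ} (hm : ¬ ℓ ∣ m) :
    ∃ a b : ℤ, g = (g ^ m) ^ a * (g ^ ℓ) ^ b := by
  have hp : ℓ.Prime := Fact.out
  have hc : IsCoprime (m : ℤ) (ℓ : ℤ) :=
    Nat.isCoprime_iff_coprime.2 ((Nat.Prime.coprime_iff_not_dvd hp).2 hm).symm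
  obtain ⟨a, b, hab⟩ := hc
  refine ⟨a, b, ?_⟩
  rw [← zpow_natCast, ← zpow_natCast, ← zpow_mul, ← zpow_mul, ← zpow_add₀ hg, mul_comm _ a,
    mul_comm _ b, hab, zpow_one]

theorem descend (P : ValuationSubring N) (E : IntermediateField K N)
    (h : ValInj ℓ (algebraMap K E) (P.comap (algebraMap E N))) (k : ℕ) {e : E} (he : e ≠ 0)
    (hc : ∃ c : K, P.valuation (algebraMap K N c) = P.valuation (e : N) ^ ℓ ^ k) :
    ∃ c : K, P.valuation (algebraMap K N c) = P.valuation (e : N) := by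
  have hp : ℓ.Prime := Fact.out
  induction k with
  | zero => simpa using hc
  | succ k ih =>
    apply ih
    obtain ⟨c, hc⟩ := hc
    have hv : P.valuation (e : N) ≠ 0 := by simpa using he
    have hc0 : c ≠ 0 := by
      rintro rfl
      exact pow_ne_zero _ hv (by simpa using hc.symm)
    have h1 : cl ℓ (algebraMap K E c) ∈ HO ℓ (P.comap (algebraMap E N)) := by
      rw [cl_mem_HO_iff (by simpa using hc0)]
      refine ⟨e ^ ℓ ^ k, pow_ne_zero _ he, ?_⟩
      rw [← map_pow, comap_val_eq, ← IsScalarTower.algebraMap_apply, hc, ← pow_mul, ← pow_succ,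
        map_pow, map_pow]
      rfl
    obtain ⟨y, -, hy⟩ := (cl_mem_HO_iff hc0).1 (h c h1)
    rw [← map_pow, comap_val_eq, comap_val_eq, ← IsScalarTower.algebraMap_apply,
      ← IsScalarTower.algebraMap_apply, hc, map_pow, map_pow, pow_succ, pow_mul] at hy
    exact ⟨y, ((pow_left_inj₀ zero_le zero_le hp.ne_zero).1 hy).symm⟩

theorem map_Dec (P : ValuationSubring N) (E : IntermediateField K N) :
    (Dec E P).map (AlgEquiv.restrictScalarsHom K) = E.fixingSubgroup ⊓ Dec K P := by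
  ext σ
  constructor
  · rintro ⟨τ, hτ, rfl⟩
    exact ⟨(IntermediateField.mem_fixingSubgroup_iff _ _).2 fun x hx => τ.commutes ⟨x, hx⟩, hτ⟩
  · rintro ⟨h1, h2⟩
    exact ⟨E.fixingSubgroupEquiv ⟨σ, h1⟩, h2, rfl⟩

end AP3Aux

open AP3Aux

variable {ℓ : ℕ} [Fact ℓ.Prime] {K N : Type*} [Field K] [Field N] [Algebra K N]
  [FiniteDimensional K N] [IsGalois K N]

theorem valInj_of_relIndex (P : ValuationSubring N) (E : IntermediateField K N)
    (h : ¬ ℓ ∣ E.fixingSubgroup.relIndex (Dec K P)) :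
    ValInj ℓ (algebraMap K E) (P.comap (algebraMap E N)) := by
  intro x hx
  by_cases hx0 : x = 0
  · simp [hx0]
  obtain ⟨y, hy0, hy⟩ := (cl_mem_HO_iff (by simpa using hx0)).1 hx
  rw [← map_pow, comap_val_eq, ← IsScalarTower.algebraMap_apply, map_pow, map_pow] at hy
  obtain ⟨x', hx'⟩ := exists_val_pow_eq P E.fixingSubgroup (z := algebraMap E N y)
    fun σ hσ => (IntermediateField.mem_fixingSubgroup_iff _ _).1 hσ _ y.2
  have hv : P.valuation (algebraMap E N y) ≠ 0 := by simpa using hy0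
  have hx'0 : x' ≠ 0 := by
    rintro rfl
    exact pow_ne_zero _ hv (by simpa using hx'.symm)
  obtain ⟨a, b, hab⟩ := bezout hv h
  rw [← hx', ← hy] at hab
  rw [cl_mem_HO_iff hx0]
  refine ⟨x' ^ a * x ^ b, mul_ne_zero (zpow_ne_zero _ hx'0) (zpow_ne_zero _ hx0), ?_⟩
  rw [← map_pow, comap_val_eq, comap_val_eq, ← IsScalarTower.algebraMap_apply,
    ← IsScalarTower.algebraMap_apply, map_pow, map_pow, map_mul, map_mul, map_zpow₀, map_zpow₀,
    map_zpow₀, map_zpow₀, ← hab, hy]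

/-- Let `D = Dec K P`, `H' = D ⊓ H`, `S'` a Sylow `ℓ`-subgroup of `H'`. If `ℓ` divides the index,
there is `S₁ ≤ D` normalizing `S'` with `[S₁ : S'] = ℓ`, and an eigenvector `t ≠ 0` of `S₁` for a
nontrivial character trivial on `S'` (Lagrange resolvent). The value of `t` is that of an element
`y` fixed by `S₁`, and the unit `t / y` is congruent to an element of `K`. -/
theorem not_dvd_relIndex (P : ValuationSubring N) (E : IntermediateField K N) {ζ : K}
    (hζ : IsPrimitiveRoot ζ ℓ) (hℓ : P.valuation (ℓ : N) = 1)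
    [IsAlgClosed (ResidueField (P.comap (algebraMap K N)))]
    (h : ValInj ℓ (algebraMap K E) (P.comap (algebraMap E N))) :
    ¬ ℓ ∣ E.fixingSubgroup.relIndex (Dec K P) := by
  intro hd
  have hp : ℓ.Prime := Fact.out
  obtain ⟨S, S₁, n, hS, hnd, hS₁, hSS, hc1, hc⟩ := grp _ _ hd
  obtain ⟨χ, hχ, hχ1, σ, hσ⟩ := chi (S.subgroupOf S₁) n hc1
    (by rw [Nat.card_congr (Subgroup.subgroupOfEquivOfLe hSS).toEquiv, hc]) hζ
  obtain ⟨t, ht0, ht⟩ := resolvent S₁ χ
  have hvt : P.valuation t ≠ 0 := by simpa using ht0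
  obtain ⟨x, hx⟩ := exists_val_pow_eq (K := E) P (S.comap (AlgEquiv.restrictScalarsHom K))
    (z := t) fun τ hτ => by
      have := ht ⟨_, hSS hτ⟩
      rw [hχ1 _ hτ] at this
      simpa using this
  rw [Subgroup.relIndex_comap, map_Dec] at hx
  have hx0 : x ≠ 0 := by
    rintro rfl
    exact pow_ne_zero _ hvt (by simpa using hx.symm)
  obtain ⟨c, hc⟩ := exists_val_pow_eq (K := K) P ⊥ (z := algebraMap E N x) fun τ hτ => by
    rw [Subgroup.mem_bot.1 hτ]; rfl
  have hr : (⊥ : Subgroup (N ≃ₐ[K] N)).relIndex (Dec K P) ≠ 0 := by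
    rw [Subgroup.relIndex_bot_left]; exact Nat.card_pos.ne'
  obtain ⟨k, m, hm, hkm⟩ := Nat.exists_eq_pow_mul_and_not_dvd hr ℓ hp.ne_one
  obtain ⟨c', hc'⟩ := descend P E h k (pow_ne_zero m hx0) ⟨c, by
    rw [hc, hkm, mul_comm, pow_mul, IntermediateField.coe_pow, map_pow]; rfl⟩
  have hc'' : P.valuation (algebraMap K N c') =
      P.valuation t ^ (S.relIndex (E.fixingSubgroup ⊓ Dec K P) * m) := by
    rw [hc', IntermediateField.coe_pow, map_pow, pow_mul, ← hx]; rfl
  have hc'0 : algebraMap K N c' ≠ 0 := by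
    intro h0
    rw [h0, map_zero] at hc''
    exact pow_ne_zero _ hvt hc''.symm
  obtain ⟨a, b, hab⟩ := bezout hvt (hp.not_dvd_mul hnd hm)
  rw [← hc'', ← map_pow, ← map_zpow₀ P.valuation, ← map_zpow₀ P.valuation, ← map_mul] at hab
  set y := algebraMap K N c' ^ a * (t ^ ℓ) ^ b with hy
  have hy0 : y ≠ 0 := mul_ne_zero (zpow_ne_zero _ hc'0) (zpow_ne_zero _ (pow_ne_zero _ ht0))
  have hw : algebraMap K N (χ σ) ^ ℓ = 1 := by
    rw [← map_pow, ← Units.val_pow_eq_pow_val, hχ, Units.val_one, map_one]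
  have hσy : (σ : N ≃ₐ[K] N) y = y := by
    rw [hy, map_mul, map_zpow₀, map_zpow₀, AlgEquiv.commutes, map_pow, ht, mul_pow, hw, one_mul]
  have hu : P.valuation (t / y) = 1 := by
    rw [map_div₀, hab, div_self (hab ▸ hvt)]
  obtain ⟨d, hd⟩ := exists_congr (K := K) P (mem_of_val_eq_one hu) (Algebra.IsAlgebraic.isAlgebraic _)
  have hd' := hd
  rw [← Dec.val_eq (hS₁ σ.2), map_sub, map_div₀, hσy, ht, AlgEquiv.commutes] at hd'
  have h3 := P.valuation.map_sub_lt hd' hd
  have h4 : algebraMap K N (χ σ) * t / y - algebraMap K N d - (t / y - algebraMap K N d) =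
      (algebraMap K N (χ σ) - 1) * (t / y) := by ring
  rw [h4, map_mul, hu, mul_one] at h3
  have h5 : algebraMap K N (χ σ) ≠ 1 := by
    intro h0
    apply hσ
    apply Units.ext
    exact (algebraMap K N).injective (by simpa using h0)
  exact (val_lt_of_root P hw h5 h3).ne hℓ

end Vale.Agent.P019
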