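import Vale.Agent.P019.AP3
import Vale.Agent.P019.ValExt

/-! P019: lifting approximations of a valuation ring through a finite extension. -/

open IsLocalRing Filter

namespace Vale.Agent.P019

variable {ℓ : ℕ} [Fact ℓ.Prime]

/-- a subgroup `A ≤ D` acts on `D / (D ⊓ H)`, of cardinality prime to `ℓ`, so some orbit has
cardinality prime to `ℓ` -/
theorem exists_conj_relIndex {G : Type*} [Group G] [Finite G] {D H A : Subgroup G} (hA : A ≤ D)
    (h : ¬ ℓ ∣ H.relIndex D) :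
    ∃ d ∈ D, ¬ ℓ ∣ H.relIndex (A.map (MulAut.conj d).toMonoidHom) := by
  classical
  by_contra hc
  push Not at hc
  have h1 : ∀ x : D ⧸ H.subgroupOf D, ℓ ∣ (MulAction.stabilizer (A.subgroupOf D) x).index := by
    intro x
    obtain ⟨y, rfl⟩ := QuotientGroup.mk_surjective x
    have h2 : MulAction.stabilizer (A.subgroupOf D) (y : D ⧸ H.subgroupOf D) =
        ((H.comap (MulAut.conj (y⁻¹ : D).1).toMonoidHom).subgroupOf D).subgroupOf
          (A.subgroupOf D) := by
      ext a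
      rw [MulAction.mem_stabilizer_iff]
      change (((a.1 * y : D) : D ⧸ H.subgroupOf D) = y) ↔ _
      rw [eq_comm, QuotientGroup.eq]
      simp [Subgroup.mem_subgroupOf, mul_assoc]
    rw [h2]
    change ℓ ∣ Subgroup.relIndex _ _
    rw [Subgroup.relIndex_subgroupOf hA, Subgroup.relIndex_comap]
    exact hc _ (y⁻¹).2
  have := Fintype.ofFinite (Quotient (MulAction.orbitRel (A.subgroupOf D) (D ⧸ H.subgroupOf D)))
  apply h
  change ℓ ∣ Nat.card (D ⧸ H.subgroupOf D)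
  rw [Nat.card_congr (MulAction.selfEquivSigmaOrbitsQuotientStabilizer (A.subgroupOf D) _),
    Nat.card_sigma]
  exact Finset.dvd_sum fun ω _ => h1 _

namespace AP4Aux

variable {F₀ F F' : Type*} [Field F₀] [Field F] [Field F']

theorem of_comp {φ : F₀ →+* F} {ψ : F →+* F'} {O : ValuationSubring F'}
    (h : ValInj ℓ (ψ.comp φ) O) : ValInj ℓ φ (O.comap ψ) := fun x hx => by
  rw [ValuationSubring.comap_comap]
  exact h x (cl_map_mem_HO ψ hx)

omit [Fact ℓ.Prime] in
theorem comp {φ : F₀ →+* F} {ψ : F →+* F'} {O : ValuationSubring F'} (h : ValInj ℓ ψ O)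
    (h' : ValInj ℓ φ (O.comap ψ)) : ValInj ℓ (ψ.comp φ) O := fun x hx => by
  rw [← ValuationSubring.comap_comap]
  exact h' x (h _ hx)

theorem of_pow {ψ : F →+* F'} (h : ∀ y, ∃ q : ℕ, ¬ ℓ ∣ q ∧ ∃ x, ψ x = y ^ q)
    (O : ValuationSubring F') : ValInj ℓ ψ O := by
  intro x hx
  by_cases h0 : x = 0
  · rw [h0, cl_zero]
    exact zero_mem _
  obtain ⟨y, hy, h1⟩ := (cl_mem_HO_iff ((map_ne_zero ψ).2 h0)).1 hx
  obtain ⟨q, hq, w, hw⟩ := h y
  have hw0 : w ≠ 0 := by
    rintro rfl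
    exact pow_ne_zero q hy (by rw [← hw, map_zero])
  have h2 : cl ℓ (x ^ q) ∈ HO ℓ (O.comap ψ) := by
    refine (cl_mem_HO_iff (pow_ne_zero q h0)).2 ⟨w, hw0, ?_⟩
    rw [← map_pow, comap_val_eq, map_pow, map_pow, map_pow, map_pow, hw, h1, map_pow,
      ← pow_mul, ← pow_mul, mul_comm]
  rwa [cl_pow, Submodule.smul_mem_iff _ (mt (ZMod.natCast_eq_zero_iff q ℓ).1 hq)] at h2

variable {K N : Type*} [Field K] [Field N] [Algebra K N]

/-- translate of a valuation ring -/
def tl (σ : N ≃ₐ[K] N) (P : ValuationSubring N) : ValuationSubring N := P.comap (σ : N →+* N)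

theorem mem_tl {σ : N ≃ₐ[K] N} {P : ValuationSubring N} {x : N} : x ∈ tl σ P ↔ σ x ∈ P := Iff.rfl

theorem comap_tl (σ : N ≃ₐ[K] N) (P : ValuationSubring N) :
    (tl σ P).comap (algebraMap K N) = P.comap (algebraMap K N) := by
  ext x
  rw [ValuationSubring.mem_comap, ValuationSubring.mem_comap, mem_tl, AlgEquiv.commutes]

theorem dec_tl (d : N ≃ₐ[K] N) (P : ValuationSubring N) :
    Dec K (tl d⁻¹ P) = (Dec K P).map (MulAut.conj d).toMonoidHom := by
  ext τ
  constructor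
  · intro h
    refine ⟨d⁻¹ * τ * d, fun x => ?_, by simp [mul_assoc]⟩
    have h1 := h (d x)
    simpa [mem_tl] using h1
  · rintro ⟨a, ha, rfl⟩ x
    have h1 := ha (d⁻¹ x)
    simpa [mem_tl] using h1

theorem galois {K₀ : Type*} [Field K₀] [Algebra K₀ K] [Algebra K₀ N] [IsScalarTower K₀ K N]
    [FiniteDimensional K₀ N] [IsGalois K₀ N] {ζ : K₀} (hζ : IsPrimitiveRoot ζ ℓ)
    (O' : ValuationSubring K) (hℓ : O'.valuation (ℓ : K) = 1)
    [hc : IsAlgClosed (ResidueField (O'.comap (algebraMap K₀ K)))]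
    (hv : ValInj ℓ (algebraMap K₀ K) O')
    {ι : Type*} (𝒰 : Ultrafilter ι) (O₀ : ι → ValuationSubring K₀)
    (hlim : Lim 𝒰 O₀ (O'.comap (algebraMap K₀ K))) :
    ∃ O : ι → ValuationSubring K, (∀ i, (O i).comap (algebraMap K₀ K) = O₀ i) ∧ Lim 𝒰 O O' ∧
      ∀ᶠ i in (𝒰 : Filter ι), ValInj ℓ (algebraMap K₀ K) (O i) := by
  obtain ⟨P, rfl⟩ := exists_comap_eq (algebraMap K N) O'
  have ht : (algebraMap K N).comp (algebraMap K₀ K) = algebraMap K₀ N :=
    (IsScalarTower.algebraMap_eq K₀ K N).symm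
  rw [ValuationSubring.comap_comap, ht] at hc hlim
  choose P₁ hP₁ using fun i => exists_comap_eq (algebraMap K₀ N) (O₀ i)
  obtain ⟨Q, hQ⟩ := exists_lim 𝒰 P₁
  obtain ⟨σ, hσ⟩ := exists_conj (K := K₀) (P := Q) (P' := P) (by
    ext x
    rw [hlim x, ValuationSubring.mem_comap, hQ]
    exact eventually_congr (Eventually.of_forall fun i => by rw [← hP₁ i]; rfl))
  have hl : Lim 𝒰 (fun i => tl σ (P₁ i)) P := fun x => (hσ x).trans (hQ _)
  obtain ⟨A, hA⟩ := (Ultrafilter.eventually_exists_iff (f := 𝒰)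
    (P := fun A i => Dec K₀ (tl σ (P₁ i)) = A)).1 (Eventually.of_forall fun i => ⟨_, rfl⟩)
  have hAD : A ≤ Dec K₀ P := fun τ hτ x => by
    rw [hl, hl]
    refine eventually_congr (hA.mono fun i hi => ?_)
    rw [← hi] at hτ
    exact hτ x
  let E : IntermediateField K₀ N := (IsScalarTower.toAlgHom K₀ K N).fieldRange
  let e : K →+* E := (IsScalarTower.toAlgHom K₀ K N).toRingHom.codRestrict E
    fun x => ⟨x, rfl⟩
  have he : ∀ y : E, ∃ x, e x = y := by
    rintro ⟨_, x, rfl⟩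
    exact ⟨x, rfl⟩
  have h1 : (algebraMap E N).comp e = algebraMap K N := rfl
  have h2 : e.comp (algebraMap K₀ K) = algebraMap K₀ E :=
    RingHom.ext fun x => Subtype.ext (IsScalarTower.algebraMap_apply K₀ K N x).symm
  have hℓ1 : ¬ ℓ ∣ 1 := (Fact.out : ℓ.Prime).not_dvd_one
  have h3 := not_dvd_relIndex P E hζ
    (by rw [← map_natCast (algebraMap K N), ← comap_val_eq_one]; exact hℓ) (by
      rw [← h2]
      refine comp (of_pow (fun y => ⟨1, hℓ1, by simpa using he y⟩) _) ?_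
      rwa [ValuationSubring.comap_comap, h1])
  obtain ⟨d, hd, h4⟩ := exists_conj_relIndex hAD h3
  refine ⟨fun i => (tl d⁻¹ (tl σ (P₁ i))).comap (algebraMap K N), fun i => ?_, fun x => ?_,
    hA.mono fun i hi => ?_⟩
  · rw [ValuationSubring.comap_comap, ht, comap_tl, comap_tl, hP₁]
  · exact ((inv_mem hd : d⁻¹ ∈ Dec K₀ P) _).symm.trans (hl _)
  · have h5 := valInj_of_relIndex (ℓ := ℓ) (tl d⁻¹ (tl σ (P₁ i))) E (by rwa [dec_tl, hi])
    rw [← h2] at h5
    have h6 := of_comp h5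
    rwa [ValuationSubring.comap_comap, h1] at h6

end AP4Aux

/-- Separable case. Let `N` be the Galois closure, `P` over `O'`, `P i` over `O₀ i`. The ultralimit
of the `P i` is conjugate to `P`; after conjugating, `P i → P`. For most `i` the group
`Dec (P i)` is one group `A ≤ Dec P`. Conjugate by `d ∈ Dec P` from `exists_conj_relIndex`, and use
`not_dvd_relIndex`, `valInj_of_relIndex`. -/
theorem exists_lift_approx_sep {K₀ K : Type*} [Field K₀] [Field K] [Algebra K₀ K]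
    [FiniteDimensional K₀ K] [Algebra.IsSeparable K₀ K] {ζ : K₀} (hζ : IsPrimitiveRoot ζ ℓ)
    (O' : ValuationSubring K) (hℓ : O'.valuation (ℓ : K) = 1)
    [IsAlgClosed (ResidueField (O'.comap (algebraMap K₀ K)))] (hv : ValInj ℓ (algebraMap K₀ K) O')
    {ι : Type*} (𝒰 : Ultrafilter ι) (O₀ : ι → ValuationSubring K₀)
    (hlim : Lim 𝒰 O₀ (O'.comap (algebraMap K₀ K))) :
    ∃ O : ι → ValuationSubring K, (∀ i, (O i).comap (algebraMap K₀ K) = O₀ i) ∧ Lim 𝒰 O O' ∧
      ∀ᶠ i in (𝒰 : Filter ι), ValInj ℓ (algebraMap K₀ K) (O i) := by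
  have : IsSepClosure K₀ (SeparableClosure K) :=
    ⟨inferInstance, Algebra.IsSeparable.trans K₀ K _⟩
  exact AP4Aux.galois (N := IntermediateField.normalClosure K₀ K (SeparableClosure K))
    hζ O' hℓ hv 𝒰 O₀ hlim

/-- General case: pass to the separable closure `Kₛ` of `K₀` in `K`; valuation rings of `K` and of
`Kₛ` correspond (`x ∈ O ↔ x ^ p ^ e ∈ O`), and `p` is prime to `ℓ`. -/
theorem exists_lift_approx {K₀ K : Type*} [Field K₀] [Field K] [Algebra K₀ K]
    [FiniteDimensional K₀ K] {ζ : K₀} (hζ : IsPrimitiveRoot ζ ℓ)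
    (O' : ValuationSubring K) (hℓ : O'.valuation (ℓ : K) = 1)
    [IsAlgClosed (ResidueField (O'.comap (algebraMap K₀ K)))] (hv : ValInj ℓ (algebraMap K₀ K) O')
    {ι : Type*} (𝒰 : Ultrafilter ι) (O₀ : ι → ValuationSubring K₀)
    (hlim : Lim 𝒰 O₀ (O'.comap (algebraMap K₀ K))) :
    ∃ O : ι → ValuationSubring K, (∀ i, (O i).comap (algebraMap K₀ K) = O₀ i) ∧ Lim 𝒰 O O' ∧
      ∀ᶠ i in (𝒰 : Filter ι), ValInj ℓ (algebraMap K₀ K) (O i) := by
  let S := separableClosure K₀ K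
  have ht : (algebraMap S K).comp (algebraMap K₀ S) = algebraMap K₀ K :=
    (IsScalarTower.algebraMap_eq K₀ S K).symm
  have hp : ∀ y : K, ∃ q : ℕ, ¬ ℓ ∣ q ∧ ∃ x, algebraMap S K x = y ^ q := by
    intro y
    obtain ⟨p, hp⟩ := ExpChar.exists S
    obtain ⟨n, x, hx⟩ := IsPurelyInseparable.pow_mem S p y
    refine ⟨p ^ n, fun h => ?_, x, hx⟩
    have h1 := (Fact.out : ℓ.Prime).dvd_of_dvd_pow h
    cases hp with
    | zero => exact (Fact.out : ℓ.Prime).not_dvd_one h1
    | prime hp' =>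
      rw [(Nat.prime_dvd_prime_iff_eq Fact.out hp').1 h1, ← map_natCast (algebraMap S K),
        CharP.cast_eq_zero, map_zero, map_zero] at hℓ
      exact zero_ne_one hℓ
  have hc : IsAlgClosed (ResidueField ((O'.comap (algebraMap S K)).comap (algebraMap K₀ S))) := by
    rwa [ValuationSubring.comap_comap, ht]
  obtain ⟨Os, h1, h2, h3⟩ := exists_lift_approx_sep hζ (O'.comap (algebraMap S K))
    (by rw [comap_val_eq_one, map_natCast]; exact hℓ) (AP4Aux.of_comp (ht ▸ hv)) 𝒰 O₀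
    (by rwa [ValuationSubring.comap_comap, ht])
  choose O hO using fun i => exists_comap_eq (algebraMap S K) (Os i)
  refine ⟨O, fun i => by rw [← ht, ← ValuationSubring.comap_comap, hO, h1], fun y => ?_,
    h3.mono fun i hi => ?_⟩
  · obtain ⟨q, hq, x, hx⟩ := hp y
    have h4 : ∀ R : ValuationSubring K, y ∈ R ↔ x ∈ R.comap (algebraMap S K) := fun R => by
      rw [ValuationSubring.mem_comap, hx, ← R.valuation_le_one_iff, ← R.valuation_le_one_iff,
        map_pow, pow_le_one_iff (n := q) fun h => hq (h ▸ dvd_zero ℓ)]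
    rw [h4, h2]
    exact eventually_congr (Eventually.of_forall fun i => by rw [h4, hO])
  · rw [← ht]
    exact AP4Aux.comp (AP4Aux.of_pow hp _) (by rwa [hO])

end Vale.Agent.P019
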