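import Vale.Agent.P019.ValH
import Vale.Agent.P019.ValExt
import Vale.Agent.P019.Curve.Approx

/-! P019: discrete valuation rings. -/

namespace Vale.Agent.P019

variable {ℓ : ℕ} [Fact ℓ.Prime] {F : Type*} [Field F] {O : ValuationSubring F}

theorem IsDVR.ord_mul (h : IsDVR O) {x y : F} (hx : x ≠ 0) (hy : y ≠ 0) :
    ord O (x * y) = ord O x + ord O y := h.isOrd.mul hx hy

theorem IsDVR.ord_zpow (h : IsDVR O) (x : F) (n : ℤ) : ord O (x ^ n) = n * ord O x :=
  h.isOrd.zpow x n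

theorem IsDVR.val_le_iff (h : IsDVR O) {x y : F} (hx : x ≠ 0) (hy : y ≠ 0) :
    O.valuation x ≤ O.valuation y ↔ ord O y ≤ ord O x := h.isOrd.val_le_iff hx hy

theorem IsDVR.val_eq_one_iff (h : IsDVR O) {x : F} (hx : x ≠ 0) :
    O.valuation x = 1 ↔ ord O x = 0 := h.isOrd.val_eq_one_iff hx

theorem IsDVR.val_lt_one_iff (h : IsDVR O) {x : F} (hx : x ≠ 0) :
    O.valuation x < 1 ↔ 0 < ord O x := h.isOrd.val_lt_one_iff hx

theorem IsDVR.ne_top (h : IsDVR O) : O ≠ ⊤ := h.isOrd.ne_top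

theorem IsDVR.eq_of_le (h : IsDVR O) {O' : ValuationSubring F} (hle : O ≤ O') (h' : O' ≠ ⊤) :
    O' = O := by
  refine le_antisymm (fun x hx => by_contra fun hxO => h' (top_le_iff.1 fun y _ => ?_)) hle
  have o := h.isOrd
  have hx0 : x ≠ 0 := by rintro rfl; exact hxO O.zero_mem
  rcases eq_or_ne y 0 with rfl | hy
  · exact O'.zero_mem
  rw [o.mem_iff hx0, not_le] at hxO
  have hp : x ^ (ord O y).natAbs ≠ 0 := pow_ne_zero _ hx0
  rw [← div_mul_cancel₀ y hp]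
  refine O'.mul_mem _ _ (hle ((o.mem_iff (div_ne_zero hy hp)).2 ?_)) (pow_mem hx _)
  rw [o.div hy hp, o.pow]
  have h1 : -ord O y ≤ ((ord O y).natAbs : ℤ) := by omega
  have h2 : (0 : ℤ) ≤ ((ord O y).natAbs : ℤ) := by omega
  nlinarith

theorem IsDVR.cl_mem_HO_iff (h : IsDVR O) {x : F} (hx : x ≠ 0) :
    cl ℓ x ∈ HO ℓ O ↔ (ℓ : ℤ) ∣ ord O x := h.isOrd.cl_mem_HO_iff ℓ hx

theorem IsDVR.ordV_cl (h : IsDVR O) (x : F) : ordV ℓ O (cl ℓ x) = (ord O x : ZMod ℓ) := by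
  rw [ordV, dif_pos (h.isOrd.exists_dual ℓ)]
  exact (h.isOrd.exists_dual ℓ).choose_spec x

theorem IsDVR.ker_ordV (h : IsDVR O) : LinearMap.ker (ordV ℓ O) = HO ℓ O := by
  ext v
  obtain ⟨x, hx, rfl⟩ := cl_surj v
  rw [LinearMap.mem_ker, h.ordV_cl, h.cl_mem_HO_iff hx, ZMod.intCast_zmod_eq_zero_iff_dvd]

theorem IsDVR.isCoatom_HO (h : IsDVR O) : IsCoatom (HO ℓ O) := by
  rw [← h.ker_ordV]
  refine LinearMap.isCoatom_ker_of_surjective fun c => ?_
  obtain ⟨π, -, hπ⟩ := h.isOrd.exists_eq 1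
  exact ⟨c • cl ℓ π, by rw [map_smul, h.ordV_cl, hπ, Int.cast_one, smul_eq_mul, mul_one]⟩

namespace ValDVRAux

theorem of_pow {π : F} (h0 : π ≠ 0) (h1 : O.valuation π < 1) {N : ℕ} (hN : 0 < N)
    (h : ∀ x : F, x ≠ 0 → ∃ n : ℤ, O.valuation x ^ N = O.valuation π ^ n) : IsDVR O := by
  have hv0 : 0 < O.valuation π := zero_lt_iff.2 (by simpa using h0)
  choose! j hj using h
  have hanti : StrictAnti fun n : ℤ => O.valuation π ^ n := zpow_right_strictAnti₀ hv0 h1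
  refine dvr_of_hom O j (fun x y hx hy => ?_) (fun x hx => ?_) h0 ?_
  · apply hanti.injective
    beta_reduce
    rw [← hj _ (mul_ne_zero hx hy), zpow_add₀ hv0.ne', ← hj x hx, ← hj y hy, map_mul, mul_pow]
  · rw [← O.valuation_le_one_iff, ← pow_le_one_iff hN.ne', hj x hx, ← hanti.le_iff_ge]
    simp
  · have h1 := hj π h0
    rw [← zpow_natCast] at h1
    rw [← hanti.injective h1]
    exact_mod_cast hN

theorem sep {z w : ValuationSubring F} (hz : IsDVR z) (hw : IsDVR w) (hzw : z ≠ w) :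
    ∃ u : F, u ≠ 0 ∧ 0 < ord z u ∧ ord w u < 0 := by
  have oz := hz.isOrd
  have ow := hw.isOrd
  obtain ⟨x, hx1, hx2⟩ := SetLike.not_le_iff_exists.1 fun hle => hzw (oz.eq_of_le ow hle)
  obtain ⟨y, hy1, hy2⟩ := SetLike.not_le_iff_exists.1 fun hle => hzw (ow.eq_of_le oz hle).symm
  have hx0 : x ≠ 0 := by rintro rfl; exact hx2 (zero_mem _)
  have hy0 : y ≠ 0 := by rintro rfl; exact hy2 (zero_mem _)
  rw [oz.mem_iff hx0] at hx1
  rw [ow.mem_iff hx0] at hx2
  rw [ow.mem_iff hy0] at hy1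
  rw [oz.mem_iff hy0] at hy2
  refine ⟨x / y, div_ne_zero hx0 hy0, ?_, ?_⟩
  · rw [oz.div hx0 hy0]; omega
  · rw [ow.div hx0 hy0]; omega

theorem step1 {z : ValuationSubring F} (hd : IsDVR z) (S : Finset (ValuationSubring F))
    (hS : ∀ w ∈ S, IsDVR w) (hz : z ∉ S) :
    ∃ u : F, u ≠ 0 ∧ 0 < ord z u ∧ ∀ w ∈ S, ord w u < 0 := by
  classical
  have oz := hd.isOrd
  induction S using Finset.induction_on with
  | empty =>
    obtain ⟨π, h0, h1⟩ := oz.exists_eq 1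
    exact ⟨π, h0, by omega, by simp⟩
  | insert w S hw ih =>
    rw [Finset.mem_insert, not_or] at hz
    obtain ⟨u, hu0, hu1, hu2⟩ := ih (fun w hw => hS w (Finset.mem_insert_of_mem hw)) hz.2
    by_cases hwu : ord w u < 0
    · exact ⟨u, hu0, hu1, by simpa [hwu] using hu2⟩
    have hdw := hS w (Finset.mem_insert_self w S)
    obtain ⟨v, hv0, hv1, hv2⟩ := sep hd hdw hz.1
    obtain ⟨r, hr1, hr⟩ := approx_bound S fun w' => -ord w' u
    have ow := hdw.isOrd
    have hvr : v ^ r ≠ 0 := pow_ne_zero _ hv0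
    have hr' : (1 : ℤ) ≤ r := by exact_mod_cast hr1
    have a1 : ord w (v ^ r) < 0 := by rw [ow.pow]; nlinarith
    obtain ⟨a2, a3⟩ := ow.add_eq_of_lt hvr hu0 (by omega)
    refine ⟨v ^ r + u, a2, ?_, fun w' hw' => ?_⟩
    · have := oz.min_le_add hvr hu0 a2
      have a4 : 0 < ord z (v ^ r) := by rw [oz.pow]; positivity
      omega
    · have o' := (hS w' hw').isOrd
      rcases Finset.mem_insert.1 hw' with rfl | hw'
      · omega
      have b1 := hu2 w' hw'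
      have b2 := hr w' hw'
      rcases le_or_gt 0 (ord w' v) with b3 | b3
      · have b4 : 0 ≤ ord w' (v ^ r) := by rw [o'.pow]; positivity
        rw [add_comm, (o'.add_eq_of_lt hu0 hvr (by omega)).2]
        exact b1
      · have b4 : ord w' (v ^ r) ≤ -r := by rw [o'.pow]; nlinarith
        rw [(o'.add_eq_of_lt hvr hu0 (by omega)).2]
        omega

/-- a uniformizer at `z` that is a unit at the other rings -/
theorem step2 {z : ValuationSubring F} (hd : IsDVR z) (S : Finset (ValuationSubring F))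
    (hS : ∀ w ∈ S, IsDVR w) (hz : z ∉ S) :
    ∃ π : F, π ≠ 0 ∧ ord z π = 1 ∧ ∀ w ∈ S, ord w π = 0 := by
  obtain ⟨u, hu0, hu1, hu2⟩ := step1 hd S hS hz
  have oz := hd.isOrd
  obtain ⟨t, ht0, ht⟩ := oz.exists_eq 1
  obtain ⟨r, hr1, hr⟩ := approx_bound S fun w => -ord w t
  have hr' : (1 : ℤ) ≤ r := by exact_mod_cast hr1
  have hus : u ^ (r + 1) ≠ 0 := pow_ne_zero _ hu0
  have a0 : 1 < ord z (u ^ (r + 1)) := by rw [oz.pow]; push_cast; nlinarith
  obtain ⟨a1, a2⟩ := oz.add_eq_of_lt one_ne_zero hus (by rw [oz.one]; omega)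
  obtain ⟨a3, a4⟩ := oz.add_eq_of_lt ht0 hus (by omega)
  refine ⟨(t + u ^ (r + 1)) / (1 + u ^ (r + 1)), div_ne_zero a3 a1,
    by rw [oz.div a3 a1, a2, a4, oz.one, ht, sub_zero], fun w hw => ?_⟩
  have ow := (hS w hw).isOrd
  have b1 := hu2 w hw
  have b2 : ord w (u ^ (r + 1)) < -r := by rw [ow.pow]; push_cast; nlinarith
  have b3 := hr w hw
  rw [ow.div a3 a1, add_comm t, add_comm 1, (ow.add_eq_of_lt hus ht0 (by omega)).2,
    (ow.add_eq_of_lt hus one_ne_zero (by rw [ow.one]; omega)).2, sub_self]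

end ValDVRAux

theorem isDVR_of_cyclic {π : F} (h0 : π ≠ 0) (h1 : O.valuation π < 1)
    (h : ∀ x : F, x ≠ 0 → ∃ n : ℤ, O.valuation x = O.valuation π ^ n) :
    IsDVR O ∧ ord O π = 1 := by
  have hd : IsDVR O := ValDVRAux.of_pow h0 h1 one_pos fun x hx => by simpa using h x hx
  obtain ⟨t, ht0, ht⟩ := hd.isOrd.exists_eq 1
  obtain ⟨n, hn⟩ := h t ht0
  rw [← map_zpow₀, hd.isOrd.val_eq_iff ht0 (zpow_ne_zero _ h0), ht, hd.ord_zpow] at hn
  exact ⟨hd, Int.eq_one_of_mul_eq_one_left ((hd.val_lt_one_iff h0).1 h1).le hn.symm⟩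

theorem IsDVR.exists_cyclic (h : IsDVR O) : ∃ π : F, π ≠ 0 ∧ O.valuation π < 1 ∧ ord O π = 1 ∧
    ∀ x : F, x ≠ 0 → O.valuation x = O.valuation π ^ ord O x := by
  obtain ⟨π, h0, h1⟩ := h.isOrd.exists_eq 1
  refine ⟨π, h0, (h.val_lt_one_iff h0).2 (by omega), h1, fun x hx => ?_⟩
  rw [← map_zpow₀, h.isOrd.val_eq_iff hx (zpow_ne_zero _ h0), h.ord_zpow, h1, mul_one]

/-- In a relation of degree at most `n` two terms have the same value, so `n!` times the value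
group lies in the value group below; a nonzero subgroup of `ℤ` is cyclic. -/
theorem isDVR_of_finite {M : Type*} [Field M] [Algebra M F] [FiniteDimensional M F]
    (h : IsDVR (O.comap (algebraMap M F))) : IsDVR O := by
  obtain ⟨π, h0, h1, -, h2⟩ := h.exists_cyclic
  refine ValDVRAux.of_pow ((map_ne_zero (algebraMap M F)).2 h0) ((comap_val_lt_one _ O π).1 h1)
    (Module.finrank (⊥ : IntermediateField M F) F).factorial_pos fun x hx => ?_
  obtain ⟨m, hm, hm', c, hcK, hc0, he⟩ := dvr_exists_pow_eq O (⊥ : IntermediateField M F) hx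
  obtain ⟨a, rfl⟩ := IntermediateField.mem_bot.1 hcK
  have h3 := h2 a ((map_ne_zero _).1 hc0)
  rw [← map_zpow₀, comap_val_eq, map_zpow₀, map_zpow₀] at h3
  obtain ⟨k, hk⟩ := Nat.dvd_factorial hm hm'
  exact ⟨_ * k, by rw [hk, pow_mul, he, h3, zpow_mul, zpow_natCast]⟩

/-- weak approximation for finitely many discrete valuation rings -/
theorem exists_ord_eq {ι : Type*} [Fintype ι] (O : ι → ValuationSubring F)
    (h : ∀ i, IsDVR (O i)) (hinj : Function.Injective O) (n : ι → ℤ) :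
    ∃ x : F, x ≠ 0 ∧ ∀ i, ord (O i) x = n i := by
  classical
  choose π h0 h1 h2 using fun i => ValDVRAux.step2 (h i) ((Finset.univ.erase i).image O)
    (fun w hw => by obtain ⟨j, -, rfl⟩ := Finset.mem_image.1 hw; exact h j)
    fun hi => by
      obtain ⟨j, hj, hji⟩ := Finset.mem_image.1 hi
      exact Finset.ne_of_mem_erase hj (hinj hji)
  refine ⟨∏ j, π j ^ n j, Finset.prod_ne_zero_iff.2 fun j _ => zpow_ne_zero _ (h0 j), fun i => ?_⟩
  rw [(h i).isOrd.prod _ _ fun j _ => zpow_ne_zero _ (h0 j), Finset.sum_eq_single i,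
    (h i).ord_zpow, h1, mul_one]
  · intro j _ hj
    rw [(h i).ord_zpow, h2 j _ (Finset.mem_image_of_mem O (Finset.mem_erase.2
      ⟨hj.symm, Finset.mem_univ i⟩)), mul_zero]
  · simp

theorem IsDVR.eq_of_HO_le (h : IsDVR O) {O' : ValuationSubring F} (h' : IsDVR O')
    (hle : HO ℓ O ≤ HO ℓ O') : O = O' := by
  by_contra hne
  obtain ⟨π, h0, h1, h2⟩ := ValDVRAux.step2 h' {O} (by simpa using h) (by simpa using Ne.symm hne)
  have h3 := (h'.cl_mem_HO_iff h0).1 (hle ((h.cl_mem_HO_iff h0).2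
    (by rw [h2 O (Finset.mem_singleton_self O)]; exact dvd_zero _)))
  rw [h1] at h3
  exact (Fact.out : ℓ.Prime).not_dvd_one (by exact_mod_cast h3)

end Vale.Agent.P019
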