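import Vale.Agent.P019.FGA
import Vale.Agent.P019.ValDVR

/-! P019: few classes become `ℓ`-th powers in a finitely generated extension. -/

open IsLocalRing IntermediateField

namespace Vale.Agent.P019

variable {ℓ : ℕ} [Fact ℓ.Prime]

namespace F1Aux

/-- an element with separable minimal polynomial and a single conjugate is rational -/
theorem mem_range_of_conj {E A Ω : Type*} [Field E] [Field A] [Field Ω] [Algebra E A]
    [Algebra E Ω] [Algebra.IsAlgebraic E A] [IsAlgClosed Ω] {u : A} (hu : IsSeparable E u)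
    (ρ : A →ₐ[E] Ω) (h : ∀ σ : A →ₐ[E] Ω, σ u = ρ u) : u ∈ (algebraMap E A).range := by
  rw [← minpoly.natDegree_eq_one_iff,
    ← Polynomial.card_rootSet_eq_natDegree (K := Ω) hu (IsAlgClosed.splits _),
    Fintype.card_eq_one_iff]
  have e := Algebra.IsAlgebraic.range_eval_eq_rootSet_minpoly (F := E) Ω u
  refine ⟨⟨ρ u, e ▸ ⟨ρ, rfl⟩⟩, fun y => ?_⟩
  obtain ⟨σ, hσ⟩ := e.ge y.2
  exact Subtype.ext (hσ.symm.trans (h σ))

open Polynomial in
theorem roots_prod_pow {k : Type*} [Field k] (s : Finset k) (n : k → ℕ) :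
    (∏ b ∈ s, (X - C b) ^ n b) ≠ 0 ∧
      (∏ b ∈ s, (X - C b) ^ n b).roots = ∑ b ∈ s, n b • ({b} : Multiset k) := by
  classical
  induction s using Finset.induction_on with
  | empty => simp
  | insert a s ha ih =>
    have h := mul_ne_zero (pow_ne_zero (n a) (X_sub_C_ne_zero a)) ih.1
    rw [Finset.prod_insert ha, Finset.sum_insert ha, roots_mul h, ih.2, roots_pow, roots_X_sub_C]
    exact ⟨h, rfl⟩

open Polynomial in
/-- the classes of `t - a` are independent in `V k(t)` -/
theorem indep_gen {k K : Type*} [Field k] [Field K] [Algebra k K] {t : K}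
    (ht : Transcendental k t) :
    LinearIndependent (ZMod ℓ) fun a : k => cl ℓ (AdjoinSimple.gen k t - algebraMap k k⟮t⟯ a) := by
  classical
  have hinj : Function.Injective (aeval t : k[X] →ₐ[k] K) := transcendental_iff_injective.1 ht
  have hne : ∀ a : k, AdjoinSimple.gen k t - algebraMap k k⟮t⟯ a ≠ 0 := fun a h =>
    ht (by
      have : t = algebraMap k K a := congrArg Subtype.val (sub_eq_zero.1 h)
      rw [this]
      exact isAlgebraic_algebraMap a)
  rw [linearIndependent_iff']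
  intro s c hc a ha
  have h1 : cl ℓ (∏ b ∈ s, (AdjoinSimple.gen k t - algebraMap k k⟮t⟯ b) ^ (c b).val) = 0 := by
    rw [cl_prod _ _ fun b _ => pow_ne_zero _ (hne b), ← hc]
    exact Finset.sum_congr rfl fun b _ => by rw [cl_pow, ZMod.natCast_zmod_val]
  have h0 : (∏ b ∈ s, (AdjoinSimple.gen k t - algebraMap k k⟮t⟯ b) ^ (c b).val) ≠ 0 :=
    Finset.prod_ne_zero_iff.2 fun b _ => pow_ne_zero _ (hne b)
  obtain ⟨y, hy⟩ := (cl_eq_zero_iff h0).1 h1
  obtain ⟨p, q, hpq⟩ := (mem_adjoin_simple_iff k _).1 y.2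
  have hl : ℓ ≠ 0 := (Fact.out : ℓ.Prime).ne_zero
  have hy0 : (y : K) ≠ 0 := fun h => h0 (by
    rw [hy, show y = 0 from Subtype.ext h, zero_pow hl])
  have hq : aeval t q ≠ 0 := fun h => hy0 (by rw [hpq, h, div_zero])
  have hq' : q ≠ 0 := fun h => hq (by rw [h, map_zero])
  obtain ⟨r0, r1⟩ := roots_prod_pow s fun b => (c b).val
  have h2 : (∏ b ∈ s, (X - C b) ^ (c b).val) * q ^ ℓ = p ^ ℓ := by
    apply hinj
    have := congrArg (algebraMap k⟮t⟯ K) hy
    simp only [map_prod, map_pow, map_sub, AdjoinSimple.algebraMap_gen,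
      ← IsScalarTower.algebraMap_apply] at this
    simp only [map_mul, map_prod, map_pow, map_sub, aeval_X, aeval_C]
    rw [this, ← mul_pow, show algebraMap k⟮t⟯ K y = aeval t p / aeval t q from hpq,
      div_mul_cancel₀ _ hq]
  have h3 := congrArg (fun P : k[X] => P.roots.count a) h2
  simp only [roots_mul (mul_ne_zero r0 (pow_ne_zero ℓ hq')), r1, roots_pow, Multiset.count_add,
    Multiset.count_nsmul, Multiset.count_sum', Multiset.count_singleton, mul_ite, mul_one,
    mul_zero, Finset.sum_ite_eq, if_pos ha] at h3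
  have h4 := congrArg (Nat.cast : ℕ → ZMod ℓ) h3
  simpa using h4

theorem pair_of_indep {R M ι : Type*} [Ring R] [AddCommGroup M] [Module R M] {v : ι → M}
    (h : LinearIndependent R v) {i j : ι} (hij : i ≠ j) {x y : R} (e : x • v i + y • v j = 0) :
    x = 0 ∧ y = 0 := by
  have h2 := h.comp ![i, j] (by
    intro a b hab
    fin_cases a <;> fin_cases b <;> simp_all [eq_comm])
  have h3 : LinearIndependent R ![v i, v j] := by
    convert h2 using 1
    funext a
    fin_cases a <;> rfl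
  exact LinearIndependent.pair_iff.1 h3 x y e

end F1Aux

/-- If `e = w ^ ℓ` then `w` lies in the separable closure `Eₛ` of `E` in `K`, finite over `E`
(`finite_algebraicClosure`). Fix an embedding `ρ` of `Eₛ` into an algebraic closure; the function
`σ ↦ σ w / ρ w` on the finite set of embeddings takes values in the `ℓ`-th roots of unity and
determines `w` up to `Eˣ`. -/
theorem finite_ker_Vmap (E K : Type*) [Field E] [Field K] [Algebra E K]
    [Algebra.EssFiniteType E K] (hℓ : (ℓ : E) ≠ 0) :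
    {v : V ℓ E | Vmap ℓ (algebraMap E K) v = 0}.Finite := by
  classical
  have hl : 0 < ℓ := (Fact.out : ℓ.Prime).pos
  have := finite_algebraicClosure E K
  have key : ∀ v : V ℓ E, ∃ (e : E) (w : algebraicClosure E K), Vmap ℓ (algebraMap E K) v = 0 →
      e ≠ 0 ∧ cl ℓ e = v ∧ algebraMap E _ e = w ^ ℓ := fun v => by
    by_cases hv : Vmap ℓ (algebraMap E K) v = 0
    · obtain ⟨e, he, rfl⟩ := cl_surj v
      rw [Vmap_cl, cl_eq_zero_iff (by simpa using he)] at hv
      obtain ⟨w, hw⟩ := hv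
      refine ⟨e, ⟨w, mem_algebraicClosure_iff.2 (IsAlgebraic.of_pow hl ?_)⟩,
        fun _ => ⟨he, rfl, Subtype.ext hw⟩⟩
      rw [← hw]
      exact isAlgebraic_algebraMap e
    · exact ⟨0, 0, fun h => absurd h hv⟩
  choose e w h using key
  let ρ : algebraicClosure E K →ₐ[E] AlgebraicClosure E := IsAlgClosed.lift
  have hw : ∀ v, Vmap ℓ (algebraMap E K) v = 0 → w v ≠ 0 := fun v hv h0 => by
    have := (h v hv).2.2
    rw [h0, zero_pow hl.ne', map_eq_zero] at this
    exact (h v hv).1 this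
  refine Set.Finite.of_finite_image (f := fun v σ : _ => (σ (w v) / ρ (w v) : AlgebraicClosure E))
    (Set.Finite.subset (Set.Finite.pi'
      (t := fun _ : algebraicClosure E K →ₐ[E] AlgebraicClosure E =>
        ((Polynomial.nthRoots ℓ (1 : AlgebraicClosure E)).toFinset : Set (AlgebraicClosure E)))
      fun _ => Finset.finite_toSet _) ?_) ?_
  · rintro _ ⟨v, hv, rfl⟩ σ
    rw [Finset.mem_coe, Multiset.mem_toFinset, Polynomial.mem_nthRoots hl, div_pow, ← map_pow,
      ← map_pow, ← (h v hv).2.2, AlgHom.commutes, AlgHom.commutes, div_self]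
    simpa using (h v hv).1
  · intro v hv v' hv' hf
    obtain ⟨a1, a2, a3⟩ := h v hv
    obtain ⟨b1, b2, b3⟩ := h v' hv'
    have hs : IsSeparable E (w v / w v') := by
      refine (Polynomial.separable_X_pow_sub_C (e v / e v') hℓ (div_ne_zero a1 b1)).of_dvd
        (minpoly.dvd _ _ ?_)
      simp [div_pow, a3, b3]
    obtain ⟨c, hc⟩ := F1Aux.mem_range_of_conj hs ρ fun σ => by
      have e1 := congrFun hf σ
      have n1 : ρ (w v) ≠ 0 := by simpa using hw v hv
      have n2 : ρ (w v') ≠ 0 := by simpa using hw v' hv'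
      have n3 : σ (w v') ≠ 0 := by simpa using hw v' hv'
      rw [div_eq_div_iff n1 n2] at e1
      rw [map_div₀, map_div₀, div_eq_div_iff n3 n2, e1, mul_comm]
    rw [← a2, ← b2, cl_eq_iff a1 b1]
    refine ⟨c, fun h0 => ?_, (algebraMap E (algebraicClosure E K)).injective ?_⟩
    · rw [h0, map_zero] at hc
      exact div_ne_zero (hw v hv) (hw v' hv') hc.symm
    · rw [map_mul, map_pow, hc, a3, b3, ← mul_pow, mul_div_cancel₀ _ (hw v' hv')]

variable {k K : Type*} [Field k] [Field K] [Algebra k K] [IsAlgClosed k]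

/-- the classes of `t - a` are independent in `V k(t)` (orders at `t = a`); discard the finitely
many `a` occurring in the finite kernel of `V k(t) → V K`. -/
theorem exists_linearIndependent [Algebra.EssFiniteType k K] (hℓ : (ℓ : k) ≠ 0) {t : K}
    (ht : Transcendental k t) : ∃ S : Set k, S.Finite ∧
      LinearIndependent (ZMod ℓ) fun a : ↥Sᶜ => cl ℓ (t - algebraMap k K a) := by
  have : Algebra.EssFiniteType k⟮t⟯ K := Algebra.EssFiniteType.of_comp k _ K
  have hN := finite_ker_Vmap (ℓ := ℓ) k⟮t⟯ K (by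
    rw [← map_natCast (algebraMap k k⟮t⟯)]
    exact (map_ne_zero _).2 hℓ)
  have hC : {c : k →₀ ZMod ℓ | Finsupp.linearCombination (ZMod ℓ)
      (fun a : k => cl ℓ (t - algebraMap k K a)) c = 0}.Finite := by
    refine (hN.preimage (Function.Injective.injOn (F1Aux.indep_gen (ℓ := ℓ) ht))).subset
      fun c hc => ?_
    have e : (Vmap ℓ (algebraMap k⟮t⟯ K) ∘
        fun a : k => cl ℓ (AdjoinSimple.gen k t - algebraMap k k⟮t⟯ a))
        = fun a : k => cl ℓ (t - algebraMap k K a) := funext fun a => by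
      rw [Function.comp_apply, Vmap_cl, map_sub, AdjoinSimple.algebraMap_gen,
        ← IsScalarTower.algebraMap_apply]
    rw [Set.mem_preimage, Set.mem_ofPred_eq, Finsupp.apply_linearCombination, e]
    exact hc
  refine ⟨_, hC.biUnion fun c _ => c.support.finite_toSet, ?_⟩
  refine (linearIndepOn_iff (v := fun a : k => cl ℓ (t - algebraMap k K a))).2 fun c hc h0 => ?_
  ext a
  by_contra ha
  have ha' : a ∈ c.support := Finsupp.mem_support_iff.2 ha
  exact (Finsupp.mem_supported _ _).1 hc ha' (Set.mem_biUnion h0 ha')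

theorem infinite_Geo [Algebra.EssFiniteType k K] (hℓ : (ℓ : k) ≠ 0) {t : K}
    (ht : Transcendental k t) : ¬ FiniteDimensional (ZMod ℓ) (Geo ℓ k t) := by
  intro hfin
  obtain ⟨S, hS, hli⟩ := exists_linearIndependent hℓ ht
  have hm : ∀ a : k, cl ℓ (t - algebraMap k K a) ∈ Geo ℓ k t := fun a =>
    Submodule.subset_span ⟨_, sub_mem (self_mem_Ecl t) (IntermediateField.algebraMap_mem _ a), rfl⟩
  have h2 : LinearIndependent (ZMod ℓ) fun a : ↥Sᶜ => (⟨_, hm a⟩ : Geo ℓ k t) :=
    LinearIndependent.of_comp (Geo ℓ k t).subtype hli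
  exact hS.infinite_compl h2.finite

/-- take `u = (t - a) / (b - a)`, `1 - u = (b - t) / (b - a)` with `t` a lift of a nonconstant
residue and `a`, `b` lifts of suitable constants -/
theorem condN_of_residue {O : ValuationSubring K} (hℓ : O.valuation (ℓ : K) = 1)
    (hfg : Algebra.EssFiniteType (resConst k O) (ResidueField O))
    (h : ∃ r : ResidueField O, r ∉ resConst k O) : CondN (TO ℓ O) := by
  obtain ⟨r, hr⟩ := h
  have htr : Transcendental (resConst k O) r :=
    transcendental_iff.2 (by rintro ⟨a, rfl⟩; exact hr a.2)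
  obtain ⟨S, hS, hli⟩ := exists_linearIndependent (ℓ := ℓ) (natCast_resConst_ne_zero hℓ) htr
  obtain ⟨a, ha, b, hb, hab⟩ := hS.infinite_compl.nontrivial
  obtain ⟨t, ht, rfl⟩ := res_surj r
  obtain ⟨α, hα, ea⟩ := a.2
  obtain ⟨β, hβ, eb⟩ := b.2
  have v1 : O.valuation (t - algebraMap k K α) = 1 := val_eq_one_of_res (by
    rw [res_sub ht hα, ea, sub_ne_zero]
    exact fun h => hr (h ▸ a.2))
  have v2 : O.valuation (t - algebraMap k K β) = 1 := val_eq_one_of_res (by
    rw [res_sub ht hβ, eb, sub_ne_zero]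
    exact fun h => hr (h ▸ b.2))
  have n1 : t - algebraMap k K α ≠ 0 := fun h => by simp [h] at v1
  have n2 : t - algebraMap k K β ≠ 0 := fun h => by simp [h] at v2
  have n3 : algebraMap k K (β - α) ≠ 0 := by
    rw [map_ne_zero, sub_ne_zero]
    rintro rfl
    exact hab (Subtype.ext (ea.symm.trans eb))
  have n4 : algebraMap k K (α - β) ≠ 0 := by
    rw [← neg_sub, map_neg]
    exact neg_ne_zero.2 n3
  have e1 : 1 - (t - algebraMap k K α) / algebraMap k K (β - α)
      = (t - algebraMap k K β) / algebraMap k K (α - β) := by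
    rw [eq_div_iff n4, ← neg_sub β, map_neg]
    field_simp
    rw [map_sub]
    ring
  refine ⟨(t - algebraMap k K α) / algebraMap k K (β - α), div_ne_zero n1 n3, fun h => ?_,
    fun x y hxy => ?_⟩
  · rw [h, sub_self] at e1
    exact div_ne_zero n2 n4 e1.symm
  rw [e1, cl_div n1 n3, cl_div n2 n4, cl_algebraMap, cl_algebraMap, sub_zero, sub_zero] at hxy
  obtain ⟨ρ, -, hρ, hρ'⟩ := exists_resV (ℓ := ℓ) O
  have e2 := (hρ (x • ⟨_, cl_mem_HO v1⟩ + y • ⟨_, cl_mem_HO v2⟩)).2 hxy
  rw [map_add, map_smul, map_smul, hρ' _ v1, hρ' _ v2, res_sub ht hα, res_sub ht hβ, ea, eb] at e2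
  exact F1Aux.pair_of_indep hli (i := ⟨a, ha⟩) (j := ⟨b, hb⟩)
    (fun h => hab (congrArg Subtype.val h)) e2

theorem IsPDiv.condN {O : ValuationSubring K} (hℓ : (ℓ : k) ≠ 0) (h : IsPDiv k O) :
    CondN (TO ℓ O) := by
  obtain ⟨t, ht, ht'⟩ := h.trans
  refine condN_of_residue (k := k) ?_ h.fg ⟨res O t, ?_⟩
  · rw [← map_natCast (algebraMap k K)]
    exact h.triv.val_eq_one hℓ
  · rintro ⟨a, ha, e⟩
    exact ht' a ((res_eq_iff ht ha).1 e.symm)

/-- `Ecl k t` embeds in the residue field, which is finitely generated over it -/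
theorem IsPDiv.finite_Geo_inf {O : ValuationSubring K} (hℓ : (ℓ : k) ≠ 0) (h : IsPDiv k O) {t : K}
    (ht : t ∈ O) (ht' : ∀ a : k, ¬ O.valuation (t - algebraMap k K a) < 1) :
    ((Geo ℓ k t ⊓ TO ℓ O : Submodule (ZMod ℓ) (V ℓ K)) : Set (V ℓ K)).Finite := by
  have v1 : ∀ a : k, O.valuation (t - algebraMap k K a) = 1 := fun a =>
    le_antisymm ((O.valuation_le_one_iff _).2 (O.sub_mem ht (h.triv a))) (not_lt.1 (ht' a))
  have v2 : ∀ p : Polynomial k, p ≠ 0 → O.valuation (Polynomial.aeval t p) = 1 := fun p hp => by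
    rw [(IsAlgClosed.splits p).eq_prod_roots, map_mul, map_mul, Polynomial.aeval_C,
      h.triv.val_eq_one (by simpa using hp), one_mul, map_multiset_prod, map_multiset_prod,
      Multiset.map_map, Multiset.map_map]
    exact Multiset.prod_eq_one fun x hx => by
      obtain ⟨a, -, rfl⟩ := Multiset.mem_map.1 hx
      simpa using v1 a
  have m1 : ∀ e : k⟮t⟯, algebraMap k⟮t⟯ K e ∈ O := fun e => by
    obtain ⟨p, q, hpq⟩ := (mem_adjoin_simple_iff k _).1 e.2
    rw [show algebraMap k⟮t⟯ K e = _ from hpq]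
    by_cases hp : p = 0
    · simp [hp]
    by_cases hq : q = 0
    · simp [hq]
    exact mem_of_val_eq_one (by rw [map_div₀, v2 p hp, v2 q hq, div_one])
  have m2 : ∀ y ∈ Ecl k t, y ∈ O := fun y hy => mem_of_isAlgebraic m1 ((mem_Ecl k).1 hy)
  let φ : Ecl k t →+* ResidueField O := (residue O).comp
    ((algebraMap (Ecl k t) K).codRestrict O fun y => m2 y y.2)
  have hφ : ∀ y : Ecl k t, φ y = res O y := fun y => (res_of_mem (m2 y y.2)).symm
  let ψ : k →+* resConst k O := (φ.comp (algebraMap k _)).codRestrict _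
    fun a => ⟨a, h.triv a, (hφ (algebraMap k _ a)).symm⟩
  have hψ : Function.Surjective ψ := by
    rintro ⟨_, a, -, rfl⟩
    exact ⟨a, Subtype.ext (hφ (algebraMap k _ a))⟩
  have f0 := RingHom.EssFiniteType.comp (RingHom.FiniteType.of_surjective ψ hψ).essFiniteType
    (RingHom.essFiniteType_algebraMap.2 h.fg)
  have f1 : φ.EssFiniteType := RingHom.EssFiniteType.of_comp (algebraMap k _) f0
  let _ := φ.toAlgebra
  have : Algebra.EssFiniteType (Ecl k t) (ResidueField O) := f1
  have hN := finite_ker_Vmap (ℓ := ℓ) (Ecl k t) (ResidueField O) (by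
    rw [← map_natCast (algebraMap k (Ecl k t))]
    exact (map_ne_zero _).2 hℓ)
  refine (hN.image (Vmap ℓ (algebraMap (Ecl k t) K))).subset ?_
  rintro v ⟨hv, hv'⟩
  obtain ⟨y, hy, h0, rfl⟩ := mem_Geo_iff.1 hv
  refine ⟨cl ℓ (⟨y, hy⟩ : Ecl k t), ?_, Vmap_cl _ _⟩
  rw [Set.mem_ofPred_eq, Vmap_cl, show algebraMap (Ecl k t) (ResidueField O) ⟨y, hy⟩ = res O y from
    hφ _]
  exact (cl_mem_TO_iff_res ((val_eq_one_iff_mem h0).2 ⟨m2 y hy, m2 _ (inv_mem hy)⟩)).1 hv'

/-- the principal units `1 + a t` (`t` in the maximal ideal) are not all `ℓ`-th powers -/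
theorem exists_principal_unit [Algebra.EssFiniteType k K] (hℓ : (ℓ : k) ≠ 0)
    {O : ValuationSubring K} (h : O ≠ ⊤) (ht : Triv k O) :
    ∃ x : K, O.valuation (x - 1) < 1 ∧ cl ℓ x ≠ 0 := by
  obtain ⟨x, hx⟩ : ∃ x, x ∉ O := by
    by_contra hc
    exact h (eq_top_iff.2 fun x _ => by_contra fun hx => hc ⟨x, hx⟩)
  have x0 : x⁻¹ ≠ 0 := inv_ne_zero fun h0 => hx (h0 ▸ O.zero_mem)
  have v : O.valuation x⁻¹ < 1 := (val_lt_one_iff_inv x0).2 (by rwa [inv_inv])
  generalize x⁻¹ = t at x0 v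
  have htr : Transcendental k t := transcendental_iff.2 (by
    rintro ⟨a, rfl⟩
    exact v.ne (ht.val_eq_one (by simpa using x0)))
  obtain ⟨S, hS, hli⟩ := exists_linearIndependent (ℓ := ℓ) hℓ htr
  obtain ⟨a, ha⟩ := (hS.insert 0).infinite_compl.nonempty
  rw [Set.mem_compl_iff, Set.mem_insert_iff, not_or] at ha
  have n1 := hli.ne_zero ⟨a, ha.2⟩
  have n2 : t - algebraMap k K a ≠ 0 := fun h0 => n1 (by rw [h0, cl_zero])
  have n3 : -a ≠ 0 := neg_ne_zero.2 ha.1
  have n4 : algebraMap k K (-a) ≠ 0 := by simpa using ha.1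
  refine ⟨(t - algebraMap k K a) / algebraMap k K (-a), ?_, ?_⟩
  · rw [div_sub_one n4, map_div₀, ht.val_eq_one n3, div_one, map_neg, sub_neg_eq_add,
      sub_add_cancel]
    exact v
  · rwa [cl_div n2 n4, cl_algebraMap, sub_zero]

end Vale.Agent.P019
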