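import Vale.Agent.P019.APX0
import Vale.Agent.P019.AP4
import Vale.Agent.P019.F1

/-! P019: inertia functionals of flag valuations are limits of detectable ones. -/

namespace Vale.Agent.P019

namespace APXAux

open IntermediateField IsLocalRing Filter

variable {ℓ : ℕ} [Fact ℓ.Prime] {k K₀ K : Type*} [Field k] [Field K₀] [Field K] [Algebra k K₀]
  [Algebra k K] [Algebra K₀ K] [IsScalarTower k K₀ K] {O : ValuationSubring K}

theorem valIndep_iff {ι : Type*} [Fintype ι] {π : ι → K₀} :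
    ValIndep k (O.comap (algebraMap K₀ K)) π ↔ ValIndep k O fun i => algebraMap K₀ K (π i) := by
  simp only [ValIndep, comap_val_eq_one, map_mul (algebraMap K₀ K), map_prod (algebraMap K₀ K),
    map_zpow₀ (algebraMap K₀ K), ← IsScalarTower.algebraMap_apply, map_ne_zero]

theorem isGauss_map {ι : Type*} {u : ι → K₀} (h : IsGauss k (O.comap (algebraMap K₀ K)) u) :
    IsGauss k O fun i => algebraMap K₀ K (u i) :=
  ⟨h.1, fun P m => by
    have := (comap_val_le _ _ _ _).1 (h.2 P m)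
    rwa [← IsScalarTower.algebraMap_apply, ← MvPolynomial.aeval_algebraMap_apply] at this⟩

theorem exists_ext {f : K₀ →+* K} (hv : ValInj ℓ f O) {φ₀ : Module.Dual (ZMod ℓ) (V ℓ K₀)}
    (h : HO ℓ (O.comap f) ≤ LinearMap.ker φ₀) : ∃ φ : Module.Dual (ZMod ℓ) (V ℓ K),
      HO ℓ O ≤ LinearMap.ker φ ∧ ∀ x, φ (cl ℓ (f x)) = φ₀ (cl ℓ x) := by
  have h1 : φ₀ ∈ (LinearMap.ker ((HO ℓ O).mkQ ∘ₗ Vmap ℓ f)).dualAnnihilator := by
    rw [Submodule.mem_dualAnnihilator]
    intro v hv'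
    obtain ⟨x, -, rfl⟩ := cl_surj v
    rw [LinearMap.mem_ker, LinearMap.comp_apply, Vmap_cl, Submodule.mkQ_apply,
      Submodule.Quotient.mk_eq_zero] at hv'
    exact h (hv x hv')
  rw [← LinearMap.range_dualMap_eq_dualAnnihilator_ker] at h1
  obtain ⟨χ, rfl⟩ := h1
  refine ⟨χ ∘ₗ (HO ℓ O).mkQ, fun v hv => ?_, fun x => by simp [Vmap_cl]⟩
  simp [(Submodule.Quotient.mk_eq_zero _).2 hv]

variable [IsAlgClosed k]

theorem exists_decomp {d : ℕ} (hK : IsFF k K d) {π : Fin d → K} (h0 : ∀ i, π i ≠ 0)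
    (hπ : IndepMod (HO ℓ O) fun i => cl ℓ (π i)) (v : V ℓ K) : ∃ (u : K) (c : Fin d → ZMod ℓ),
      O.valuation u = 1 ∧ v = cl ℓ u + ∑ i, c i • cl ℓ (π i) := by
  obtain ⟨x, hx, rfl⟩ := cl_surj v
  by_contra hn
  have h : IndepMod (HO ℓ O) fun o : Option (Fin d) => cl ℓ (o.elim x π) := fun c hc => by
    rw [Fintype.sum_option] at hc
    have h1 : c none = 0 := by
      by_contra h1
      obtain ⟨u, hu, e⟩ := mem_HO_iff_exists.1 ((HO ℓ O).smul_mem (c none)⁻¹ hc)
      refine hn ⟨u, fun i => -((c none)⁻¹ * c (some i)), hu, ?_⟩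
      simp [e, smul_smul, h1, Finset.smul_sum]
    rw [h1, zero_smul, zero_add] at hc
    rintro (_ | i)
    exacts [h1, hπ _ hc i]
  have := hK.card_le (valIndep_of_indepMod (k := k)
    (by rintro (_ | i); exacts [hx, h0 i]) h).algebraicIndependent
  simp at this

omit [IsAlgClosed k] in
theorem exists_mon {ι : Type*} [Fintype ι] {π : ι → K} (htop : adjoin k (Set.range π) = ⊤)
    (hπ : ValIndep k O π) {x : K} (hx : x ≠ 0) : ∃ (c : k) (m : ι → ℤ),
      O.valuation (x / (algebraMap k K c * ∏ i, π i ^ m i) - 1) < 1 ∧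
      O.valuation x = O.valuation (algebraMap k K c * ∏ i, π i ^ m i) := by
  obtain ⟨c, m, h⟩ := hπ.exists_monomial (htop ▸ mem_top) hx
  have h1 := ValHAux.val_of_sub_one h
  rw [map_div₀] at h1
  exact ⟨c, m, h, eq_of_div_eq_one h1⟩

theorem closed {ι : Type*} [Fintype ι] {π : ι → K} (htop : adjoin k (Set.range π) = ⊤)
    (hπ : ValIndep k O π) : IsAlgClosed (ResidueField O) := by
  refine ValExtAux.of_equiv (RingEquiv.ofBijective (resConst k O).subtype
    ⟨Subtype.val_injective, fun r => ?_⟩)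
  obtain ⟨x, hx, rfl⟩ := res_surj r
  rcases eq_or_ne (res O x) 0 with h | h
  · exact ⟨0, h.symm⟩
  have h1 := val_eq_one_of_res h
  obtain ⟨c, m, h2, h3⟩ := exists_mon htop hπ (ValHAux.ne_zero_of_val h1)
  rw [h1] at h3
  simp only [hπ.2 m c h3.symm, zpow_zero, Finset.prod_const_one, mul_one] at h2 h3
  have h4 := mem_of_val_eq_one h3.symm
  refine ⟨⟨_, c, h4, rfl⟩, ((res_eq_iff hx h4).2 ?_).symm⟩
  rwa [div_sub_one (ValHAux.ne_zero_of_val h3.symm), map_div₀, ← h3, div_one] at h2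

theorem valInj {ι : Type*} [Fintype ι] {π : ι → K₀} (htop : adjoin k (Set.range π) = ⊤)
    (hV : ValIndep k (O.comap (algebraMap K₀ K)) π)
    (hπ : IndepMod (HO ℓ O) fun i => cl ℓ (algebraMap K₀ K (π i))) :
    ValInj ℓ (algebraMap K₀ K) O := fun x h => by
  rcases eq_or_ne x 0 with rfl | hx
  · simp
  obtain ⟨c, m, -, h1⟩ := exists_mon htop hV hx
  have hc : algebraMap k K₀ c ≠ 0 := fun hc => hx (by simpa [hc] using h1)
  have h2 := cl_sub_mem_HO (ℓ := ℓ) ((map_ne_zero _).2 hx) ((comap_val_eq _ _ _ _).1 h1)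
  rw [← Vmap_cl _ (_ * _), AIAux.cl_mono hV.1 m hc, map_sum] at h2
  simp only [map_smul, Vmap_cl] at h2
  have h3 := hπ _ (by simpa using sub_mem h h2)
  simpa [AIAux.cl_mono hV.1 m hc, h3] using cl_sub_mem_HO (ℓ := ℓ) hx h1

theorem main (hk : (ℓ : k) ≠ 0) {d : ℕ} (hK : IsFF k K (d + 2)) [FiniteDimensional K₀ K]
    (hℓ : O.valuation (ℓ : K) = 1) {π : Fin (d + 2) → K₀} (htop : adjoin k (Set.range π) = ⊤)
    (h0 : ∀ i, algebraMap K₀ K (π i) ≠ 0)
    (hπ : IndepMod (HO ℓ O) fun i => cl ℓ (algebraMap K₀ K (π i)))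
    {ψ : Module.Dual (ZMod ℓ) (V ℓ K)} (hψ : HO ℓ O ≤ LinearMap.ker ψ) : Approx ψ := by
  classical
  have hV : ValIndep k (O.comap (algebraMap K₀ K)) π := valIndep_iff.2 (valIndep_of_indepMod h0 hπ)
  have := closed htop hV
  have : NeZero (ℓ : k) := ⟨hk⟩
  obtain ⟨ζ, hζ⟩ := HasEnoughRootsOfUnity.exists_primitiveRoot k ℓ
  choose O₀ φ₀ hS hφ hc ρ u hρ hu using
    exists_approx_rat htop hV fun i => ψ (cl ℓ (algebraMap K₀ K (π i)))
  obtain ⟨O₁, h1, h2, h3⟩ := exists_lift_approx (hζ.map_of_injective (algebraMap k K₀).injective) O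
    hℓ (valInj htop hV hπ) (Ultrafilter.of atTop) O₀ fun x =>
      ((eventually_congr (((eventually_ge_atTop {x}).filter_mono (Ultrafilter.of_le _)).mono
        fun S h => hS S x (h (Finset.mem_singleton_self x)))).trans eventually_const).symm
  choose w c hw hv using exists_decomp hK h0 hπ
  intro T
  obtain ⟨S, h4, h5, h6⟩ := (h3.and (((h2.val_eq_one _).1 hℓ).and
    ((eventually_all_finset T).2 fun v _ => (h2.val_eq_one _).1 (hw v)))).exists
  obtain ⟨φ, h7, h8⟩ := exists_ext h4 ((h1 S).symm ▸ hφ S)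
  have h9 := isGauss_map ((h1 S).symm ▸ hu S)
  refine ⟨O₁ S, φ, condN_of_residue (k := k) h5 (isFF_residue hK
    (valIndep_iff.1 ((h1 S).symm ▸ hρ S)) h9 (by simp [add_comm, add_left_comm])).fg ⟨_, fun h =>
      (isGauss_iff.1 h9).2.transcendental 0 (isAlgebraic_algebraMap (⟨_, h⟩ : resConst k _))⟩,
    h7, fun v hT => ?_⟩
  rw [hv v]
  simp only [map_add, map_sum, map_smul, h8, hc, LinearMap.mem_ker.1 (h7 (cl_mem_HO (h6 v hT))),
    LinearMap.mem_ker.1 (hψ (cl_mem_HO (hw v)))]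

end APXAux

/-- Let `K₀ = k(π)`, so `K / K₀` is finite, the residue field of `O ∩ K₀` is that of `k`
(`ValIndep.exists_monomial`), `ValInj` holds, and `V K = HO O + span (cl π)` (else `d + 3`
independent values). Take an ultrafilter above `atTop` on `Finset K₀`, approximants `O₀ S`, `φ₀ S`
from `exists_approx_rat` with `c i = ψ (cl (π i))`, lift them with `exists_lift_approx`. For most
`S`: `ValInj` lets `φ₀ S` extend to a functional `φ S` on `V K` killing `HO (O S)`; `ℓ` is a unit;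
(N) holds by `isFF_residue` and `condN_of_residue`. For each `v`, `φ S v = ψ v` for most `S`:
true for units of `O` (`Lim.val_eq_one`) and for the `cl (π i)`. -/
theorem approx_of_indepMod {ℓ : ℕ} [Fact ℓ.Prime] {k K : Type*} [Field k] [Field K] [Algebra k K]
    [IsAlgClosed k] (hk : (ℓ : k) ≠ 0) {d : ℕ} (hK : IsFF k K (d + 2)) {O : ValuationSubring K}
    (hℓ : O.valuation (ℓ : K) = 1) {π : Fin (d + 2) → K} (h0 : ∀ i, π i ≠ 0)
    (hπ : IndepMod (HO ℓ O) fun i => cl ℓ (π i)) {ψ : Module.Dual (ZMod ℓ) (V ℓ K)}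
    (hψ : HO ℓ O ≤ LinearMap.ker ψ) : Approx ψ := by
  have := hK.finite_adjoin (valIndep_of_indepMod (k := k) h0 hπ).algebraicIndependent (by simp)
  refine APXAux.main (K₀ := IntermediateField.adjoin k (Set.range π)) hk hK hℓ
    (π := fun i => ⟨π i, IntermediateField.subset_adjoin _ _ ⟨i, rfl⟩⟩) ?_ h0 hπ hψ
  apply IntermediateField.lift_injective
  rw [IntermediateField.lift_adjoin, IntermediateField.lift_top, ← Set.range_comp]
  rfl

end Vale.Agent.P019
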