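import Mathlib

/-! P019: strict linear inequalities over a divisible ordered group (Fourier-Motzkin). -/

namespace Vale.Agent.P019

namespace DOAGAux

theorem comb {G : Type*} [AddCommGroup G] {n : ℕ} (a b : ℤ) (x y : G) (p q : Fin n → ℤ)
    (γ : Fin n → G) :
    (a • x + b • y) + ∑ i, (a • p + b • q) i • γ i
      = a • (x + ∑ i, p i • γ i) + b • (y + ∑ i, q i • γ i) := by
  simp only [Pi.add_apply, Pi.smul_apply, smul_eq_mul, add_smul, mul_smul, Finset.sum_add_distrib,
    smul_add, Finset.smul_sum]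
  abel

theorem aux {D G : Type*} [AddCommGroup D] [LinearOrder D] [IsOrderedAddMonoid D]
    [Nontrivial D] (hdiv : ∀ (x : D) (n : ℕ), 0 < n → ∃ y : D, n • y = x)
    [AddCommGroup G] [LinearOrder G] [IsOrderedAddMonoid G] (e : D →+ G)
    (he : ∀ x, 0 < e x → 0 < x) (n : ℕ) : ∀ (γ : Fin n → G) (S : Finset (D × (Fin n → ℤ))),
    (∀ p ∈ S, 0 < e p.1 + ∑ i, p.2 i • γ i) →
    ∃ δ : Fin n → D, ∀ p ∈ S, 0 < p.1 + ∑ i, p.2 i • δ i := by
  classical
  have hdz : ∀ (x : D) (a : ℤ), ∃ y : D, a ≠ 0 → a • y = x := by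
    intro x a
    by_cases ha : a = 0
    · exact ⟨0, fun h => absurd ha h⟩
    obtain ⟨y, hy⟩ := hdiv x a.natAbs (Int.natAbs_pos.2 ha)
    rcases Int.natAbs_eq a with h | h
    · exact ⟨y, fun _ => by rw [h, natCast_zsmul, hy]⟩
    · exact ⟨-y, fun _ => by rw [h, neg_smul, smul_neg, neg_neg, natCast_zsmul, hy]⟩
  choose dv hdv using hdz
  have : DenselyOrdered D := ⟨fun x y hxy => by
    have h := hdv (x + y) 2 (by norm_num)
    rw [two_smul] at h
    refine ⟨dv (x + y) 2, ?_, ?_⟩
    · by_contra h1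
      push Not at h1
      have := add_lt_add_of_le_of_lt h1 (h1.trans_lt hxy)
      exact absurd h this.ne
    · by_contra h1
      push Not at h1
      have := add_lt_add_of_lt_of_le (hxy.trans_le h1) h1
      exact absurd h this.ne'⟩
  induction n with
  | zero =>
    intro γ S h
    exact ⟨Fin.elim0, fun p hp => by simpa using he _ (by simpa using h p hp)⟩
  | succ n ih =>
    intro γ S h
    set A := S.filter fun p => 0 < p.2 0 with hA
    set B := S.filter fun p => p.2 0 < 0 with hB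
    set Z := S.filter fun p => p.2 0 = 0 with hZ
    obtain ⟨δ, hδ⟩ := ih (fun i => γ i.succ)
      (Z.image (fun p => (p.1, fun i => p.2 i.succ)) ∪ (A ×ˢ B).image fun t =>
        (t.1.2 0 • t.2.1 + (-t.2.2 0) • t.1.1,
          t.1.2 0 • (fun i => t.2.2 i.succ) + (-t.2.2 0) • fun i => t.1.2 i.succ)) (by
      intro p hp
      rcases Finset.mem_union.1 hp with hp | hp
      · obtain ⟨q, hq, rfl⟩ := Finset.mem_image.1 hp
        obtain ⟨h1, h2⟩ := Finset.mem_filter.1 hq
        have := h q h1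
        rwa [Fin.sum_univ_succ, h2, zero_smul, zero_add] at this
      · obtain ⟨⟨p, q⟩, hq, rfl⟩ := Finset.mem_image.1 hp
        obtain ⟨h1, h2⟩ := Finset.mem_product.1 hq
        obtain ⟨h3, h4⟩ := Finset.mem_filter.1 h1
        obtain ⟨h5, h6⟩ := Finset.mem_filter.1 h2
        have h7 := h p h3
        have h8 := h q h5
        rw [Fin.sum_univ_succ] at h7 h8
        have h9 := add_pos (zsmul_pos h8 h4) (zsmul_pos h7 (neg_pos.2 h6))
        simp only [map_add, map_zsmul]
        rw [comb]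
        refine h9.trans_eq ?_
        module)
    set Lf : D × (Fin (n + 1) → ℤ) → D := fun p => p.1 + ∑ i : Fin n, p.2 i.succ • δ i with hL
    obtain ⟨x, hx1, hx2⟩ := Finset.exists_between' (A.image fun p => dv (-Lf p) (p.2 0))
      (B.image fun p => dv (-Lf p) (p.2 0)) (by
      intro _ h1' _ h2'
      obtain ⟨p, h1, rfl⟩ := Finset.mem_image.1 h1'
      obtain ⟨q, h2, rfl⟩ := Finset.mem_image.1 h2'
      have h4 := (Finset.mem_filter.1 h1).2
      have h6 := (Finset.mem_filter.1 h2).2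
      have h7 := hδ _ (Finset.mem_union_right _ (Finset.mem_image_of_mem _
        (Finset.mem_product.2 (⟨h1, h2⟩ : (p, q).1 ∈ A ∧ (p, q).2 ∈ B))))
      simp only [] at h7
      rw [comb] at h7
      change 0 < p.2 0 • Lf q + (-q.2 0) • Lf p at h7
      have h8 := hdv (-Lf p) _ h4.ne'
      have h9 := hdv (-Lf q) _ h6.ne
      rw [← neg_eq_iff_eq_neg] at h8 h9
      rw [← h8, ← h9] at h7
      by_contra h10
      push Not at h10
      have h11 := zsmul_nonneg (sub_nonneg.2 h10) (mul_pos h4 (neg_pos.2 h6)).le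
      have h12 := add_pos_of_pos_of_nonneg h7 h11
      refine absurd h12 (not_lt.2 (le_of_eq ?_))
      module)
    refine ⟨Fin.cons x δ, fun p hp => ?_⟩
    rw [Fin.sum_univ_succ]
    simp only [Fin.cons_zero, Fin.cons_succ]
    have h0 : p.1 + (p.2 0 • x + ∑ i : Fin n, p.2 i.succ • δ i) = p.2 0 • x + Lf p := by
      simp only [hL]; abel
    rw [h0]
    rcases lt_trichotomy (p.2 0) 0 with h1 | h1 | h1
    · have h2 := hx2 _ (Finset.mem_image_of_mem _ (Finset.mem_filter.2 ⟨hp, h1⟩))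
      have h3 := zsmul_pos (sub_pos.2 h2) (neg_pos.2 h1)
      rw [smul_sub, neg_smul, neg_smul, hdv _ _ h1.ne] at h3
      refine h3.trans_eq ?_
      abel
    · rw [h1, zero_smul, zero_add]
      exact hδ _ (Finset.mem_union_left _ (Finset.mem_image_of_mem _
        (Finset.mem_filter.2 ⟨hp, h1⟩)))
    · have h2 := hx1 _ (Finset.mem_image_of_mem _ (Finset.mem_filter.2 ⟨hp, h1⟩))
      have h3 := zsmul_pos (sub_pos.2 h2) h1
      rw [smul_sub, hdv _ _ h1.ne'] at h3
      refine h3.trans_eq ?_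
      abel

end DOAGAux

/-- Induction on `n`, eliminating the last variable: pairs of a lower and an upper bound give new
strict inequalities in the other variables; a nontrivial divisible ordered group is dense without
endpoints. -/
theorem exists_solution {D G : Type*} [AddCommGroup D] [LinearOrder D] [IsOrderedAddMonoid D]
    [Nontrivial D] (hdiv : ∀ (x : D) (n : ℕ), 0 < n → ∃ y : D, n • y = x)
    [AddCommGroup G] [LinearOrder G] [IsOrderedAddMonoid G] (e : D →+ G) (he : StrictMono e)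
    {n : ℕ} (γ : Fin n → G) (S : Finset (D × (Fin n → ℤ)))
    (h : ∀ p ∈ S, 0 < e p.1 + ∑ i, p.2 i • γ i) :
    ∃ δ : Fin n → D, ∀ p ∈ S, 0 < p.1 + ∑ i, p.2 i • δ i :=
  DOAGAux.aux hdiv e (fun x hx => he.lt_iff_lt.1 (by rwa [map_zero])) n γ S h

/-- the homogeneous version, with integer solutions (same elimination, solving in `ℚ`) -/
theorem exists_int_solution {G : Type*} [AddCommGroup G] [LinearOrder G] [IsOrderedAddMonoid G]
    {n : ℕ} (γ : Fin n → G) (S : Finset (Fin n → ℤ)) (h : ∀ m ∈ S, 0 < ∑ i, m i • γ i) :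
    ∃ δ : Fin n → ℤ, ∀ m ∈ S, 0 < ∑ i, m i * δ i := by
  classical
  obtain ⟨δ, hδ⟩ := DOAGAux.aux (D := ℚ) (fun x k hk => ⟨x / k, by
      rw [nsmul_eq_mul]; field_simp⟩) (0 : ℚ →+ G) (fun x hx => by simp at hx) n γ
    (S.image fun m => (0, m)) (by
      intro p hp
      obtain ⟨m, hm, rfl⟩ := Finset.mem_image.1 hp
      simpa using h m hm)
  have hN : 0 < ∏ i, (δ i).den := Finset.prod_pos fun i _ => (δ i).den_pos
  have h1 : ∀ i, ∃ z : ℤ, (z : ℚ) = (∏ i, (δ i).den : ℕ) * δ i := fun i => by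
    obtain ⟨c, hc⟩ := Finset.dvd_prod_of_mem (fun i => (δ i).den) (Finset.mem_univ i)
    refine ⟨c * (δ i).num, ?_⟩
    rw [hc]
    push_cast
    rw [← Rat.mul_den_eq_num (δ i)]
    ring
  choose z hz using h1
  refine ⟨z, fun m hm => ?_⟩
  have h2 := hδ _ (Finset.mem_image_of_mem _ hm)
  simp only [zero_add, zsmul_eq_mul] at h2
  have h3 : (0 : ℚ) < ((∑ i, m i * z i : ℤ) : ℚ) := by
    have h4 := mul_pos (Nat.cast_pos.2 hN : (0 : ℚ) < _) h2
    rw [Finset.mul_sum] at h4
    push_cast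
    refine h4.trans_eq (Finset.sum_congr rfl fun i _ => ?_)
    rw [hz]; ring
  exact_mod_cast h3

end Vale.Agent.P019
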