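import Vale.Agent.P019.AI
import Vale.Agent.P019.DOAG

/-! P019: approximation of monomial valuations on a rational function field. -/

open IntermediateField

namespace Vale.Agent.P019

namespace APX0Aux

open MvPolynomial

variable {k K G ι : Type*} [Field k] [Field K] [Algebra k K] [AddCommGroup G] [Fintype ι]

/-- additive on nonzero elements -/
def Add (w : K → G) : Prop := ∀ x y, x ≠ 0 → y ≠ 0 → w (x * y) = w x + w y

/-- as a homomorphism on units -/
def Add.hom {w : K → G} (hw : Add w) : Additive Kˣ →+ G :=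
  AddMonoidHom.mk' (fun x => w (Additive.toMul x : Kˣ)) fun _ _ =>
    hw _ _ (Units.ne_zero _) (Units.ne_zero _)

theorem Add.one {w : K → G} (hw : Add w) : w 1 = 0 := map_zero hw.hom

theorem Add.mono {w : K → G} (hw : Add w) {π : ι → K} (h0 : ∀ i, π i ≠ 0) {a : K} (ha : a ≠ 0)
    (m : ι → ℤ) : w (a * ∏ i, π i ^ m i) = w a + ∑ i, m i • w (π i) := by
  rw [hw _ _ ha (Finset.prod_ne_zero_iff.2 fun i _ => zpow_ne_zero _ (h0 i))]
  have h := map_sum hw.hom (fun i => m i • Additive.ofMul (Units.mk0 (π i) (h0 i))) Finset.univ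
  simp only [map_zsmul] at h
  refine congrArg (w a + ·) (Eq.trans (congrArg w ?_) h)
  simp [toMul_sum]

theorem Add.exists_dual {ℓ : ℕ} {w : K → ZMod ℓ} (hw : Add w) :
    ∃ φ : Module.Dual (ZMod ℓ) (V ℓ K), ∀ x, x ≠ 0 → φ (cl ℓ x) = w x :=
  ⟨ModN.liftEquiv'.symm ⟨hw.hom, fun g => by rw [← Nat.cast_smul_eq_nsmul (ZMod ℓ)]; simp⟩,
    fun x hx => by rw [cl_of_ne hx]; rfl⟩

theorem zpow_sum' {x : K} (hx : x ≠ 0) (f : ι → ℤ) : x ^ ∑ j, f j = ∏ j, x ^ f j := by
  classical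
  induction (Finset.univ : Finset ι) using Finset.induction_on with
  | empty => simp
  | insert j s hj h => rw [Finset.sum_insert hj, Finset.prod_insert hj, zpow_add₀ hx, h]

theorem wt_eq (v : k → G) (γ : ι → G) (P : MvPolynomial ι k) (m : ι →₀ ℕ) :
    wt v γ P m = v (P.coeff m) + ∑ i, (m i : ℤ) • γ i := by
  rw [wt, Finsupp.sum_fintype _ _ (by simp)]
  simp

theorem aeval_mon (π : ι → K) (m : ι →₀ ℕ) (a : k) :
    aeval π (monomial m a) = algebraMap k K a * ∏ i, π i ^ (m i : ℤ) := by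
  rw [aeval_monomial, Finsupp.prod_fintype _ _ (by simp)]
  simp

variable [LinearOrder G] {v : k → G} {γ : ι → G} {π : ι → K} {O : ValuationSubring K}

theorem min_mon (v : k → G) (γ : ι → G) (m : ι →₀ ℕ) {a : k} (ha : a ≠ 0) :
    IsMinWt v γ (monomial m a) (v a + ∑ i, (m i : ℤ) • γ i) := by
  classical
  have h : wt v γ (monomial m a) m = v a + ∑ i, (m i : ℤ) • γ i := by
    rw [wt_eq, coeff_monomial, if_pos rfl]
  have hs : (monomial m a).support = {m} := by rw [support_monomial, if_neg ha]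
  rw [IsMinWt, hs]
  simp [h]

theorem min_ne {P : MvPolynomial ι k} {g : G} (h : IsMinWt v γ P g) : P ≠ 0 := by
  obtain ⟨m, hm, -⟩ := h.1
  exact support_nonempty.1 ⟨m, hm⟩

theorem aeval_ne (hi : AlgebraicIndependent k π) {P : MvPolynomial ι k} (h : P ≠ 0) :
    aeval π P ≠ 0 := fun h0 => h (hi.eq_zero_of_aeval_eq_zero P h0)

theorem laurent (hO : IsMonVal v γ π O) (h0 : ∀ i, π i ≠ 0) {σ : Type*} (s : Finset σ)
    (L : σ → ι → ℤ) (hL : Function.Injective L) (a : σ → k) {p : σ} (hp : p ∈ s) :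
    O.valuation (algebraMap k K (a p) * ∏ i, π i ^ L p i) ≤
      O.valuation (∑ r ∈ s, algebraMap k K (a r) * ∏ i, π i ^ L r i) := by
  classical
  rcases eq_or_ne (a p) 0 with ha | ha
  · simp [ha]
  let N : ι → ℤ := fun i => ∑ r ∈ s, |L r i|
  let M : σ → ι →₀ ℕ := fun r => Finsupp.equivFunOnFinite.symm fun i => (L r i + N i).toNat
  have hM : ∀ r ∈ s, ∀ i, (M r i : ℤ) = L r i + N i := fun r hr i => by
    have := Finset.single_le_sum (f := fun r => |L r i|) (fun r _ => abs_nonneg _) hr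
    exact Int.toNat_of_nonneg (by linarith [neg_abs_le (L r i)])
  have h1 : ∀ r ∈ s, aeval π (monomial (M r) (a r)) =
      (algebraMap k K (a r) * ∏ i, π i ^ L r i) * ∏ i, π i ^ N i := fun r hr => by
    rw [aeval_mon, mul_assoc, ← Finset.prod_mul_distrib]
    simp only [hM r hr, zpow_add₀ (h0 _)]
  have h2 : coeff (M p) (∑ r ∈ s, monomial (M r) (a r)) = a p := by
    rw [coeff_sum, Finset.sum_eq_single_of_mem p hp, coeff_monomial, if_pos rfl]
    intro r hr hrp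
    rw [coeff_monomial, if_neg fun h => hrp (hL (funext fun i => ?_))]
    have := hM r hr i
    rw [h, hM p hp] at this
    exact (add_right_cancel this).symm
  have h3 : M p ∈ (∑ r ∈ s, monomial (M r) (a r)).support := mem_support_iff.2 (h2 ▸ ha)
  obtain ⟨g, hg⟩ := exists_isMinWt v γ (support_nonempty.1 ⟨_, h3⟩)
  have h4 := hg.2 _ h3
  rw [wt_eq, h2] at h4
  have h5 := (hO _ _ _ _ (min_mon v γ (M p) ha) hg).2 h4
  rw [map_sum, Finset.sum_congr rfl h1, h1 p hp, ← Finset.sum_mul, map_mul, map_mul _ (∑ _ ∈ _, _)]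
    at h5
  refine le_of_mul_le_mul_right h5 (zero_lt_iff.2 ?_)
  exact (Valuation.ne_zero_iff _).2 (Finset.prod_ne_zero_iff.2 fun i _ => zpow_ne_zero _ (h0 i))

theorem exists_w [IsOrderedAddMonoid G] (hv : IsAVal v) (hi : AlgebraicIndependent k π)
    (htop : adjoin k (Set.range π) = ⊤) (hO : IsMonVal v γ π O) :
    ∃ w : K → G, Add w ∧ (∀ x, O.valuation x = 1 → w x = 0) ∧
      (∀ x, x ≠ 0 → w x = 0 → O.valuation x = 1) ∧
      ∀ P g, IsMinWt v γ P g → w (aeval π P) = g := by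
  let R : K → G → Prop := fun x g => ∃ P Q a b, IsMinWt v γ P a ∧ IsMinWt v γ Q b ∧
    x * aeval π Q = aeval π P ∧ g = a - b
  have key : ∀ x y g h, R x g → R y h → (O.valuation x ≤ O.valuation y ↔ h ≤ g) := by
    rintro x y _ _ ⟨P, Q, a, b, hP, hQ, e, rfl⟩ ⟨P', Q', a', b', hP', hQ', e', rfl⟩
    have h1 := hO _ _ _ _ (hP.mul hv hQ') (hP'.mul hv hQ)
    have h2 : 0 < O.valuation (aeval π Q * aeval π Q') := zero_lt_iff.2
      ((Valuation.ne_zero_iff _).2 (mul_ne_zero (aeval_ne hi (min_ne hQ)) (aeval_ne hi (min_ne hQ'))))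
    rw [map_mul (aeval π), map_mul (aeval π), ← e, ← e', mul_assoc, mul_assoc,
      mul_comm (aeval π Q'), map_mul, map_mul _ y, mul_le_mul_iff_left₀ h2] at h1
    rw [h1, sub_le_sub_iff]
  have ex : ∀ x : K, ∃ g, x ≠ 0 → R x g := fun x => by
    obtain ⟨P, Q, rfl⟩ := (mem_adjoin_range_iff k π x).1 (htop ▸ mem_top)
    by_cases hx : aeval π P / aeval π Q = 0
    · exact ⟨0, fun h => absurd hx h⟩
    rw [div_eq_zero_iff, not_or] at hx
    obtain ⟨a, ha⟩ := exists_isMinWt v γ (P := P) fun h => hx.1 (by simp [h])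
    obtain ⟨b, hb⟩ := exists_isMinWt v γ (P := Q) fun h => hx.2 (by simp [h])
    exact ⟨a - b, fun _ => ⟨P, Q, a, b, ha, hb, div_mul_cancel₀ _ hx.2, rfl⟩⟩
  choose w hw using ex
  have uq : ∀ x g, x ≠ 0 → R x g → w x = g := fun x g hx h =>
    le_antisymm ((key _ _ _ _ h (hw x hx)).1 le_rfl) ((key _ _ _ _ (hw x hx) h).1 le_rfl)
  have hadd : Add w := fun x y hx hy => by
    obtain ⟨P, Q, a, b, hP, hQ, e, f⟩ := hw x hx
    obtain ⟨P', Q', a', b', hP', hQ', e', f'⟩ := hw y hy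
    refine uq _ _ (mul_ne_zero hx hy) ⟨_, _, _, _, hP.mul hv hP', hQ.mul hv hQ', ?_, ?_⟩
    · rw [map_mul, map_mul, ← e, ← e', mul_mul_mul_comm]
    · rw [f, f', sub_add_sub_comm]
  have h1 := fun x hx => key x 1 _ _ (hw x hx) (hw 1 one_ne_zero)
  have h2 := fun x hx => key 1 x _ _ (hw 1 one_ne_zero) (hw x hx)
  simp only [hadd.one, map_one] at h1 h2
  refine ⟨w, hadd, fun x hx => ?_, fun x hx h => le_antisymm ((h1 x hx).2 h.ge) ((h2 x hx).2 h.le),
    fun P g h => uq _ _ (aeval_ne hi (min_ne h)) ⟨P, _, g, _, h, min_mon v γ 0 one_ne_zero, ?_, ?_⟩⟩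
  · have h0 : x ≠ 0 := by rintro rfl; simp at hx
    exact le_antisymm ((h2 x h0).1 hx.ge) ((h1 x h0).1 hx.le)
  · simp
  · simp [Add.one (w := v) hv.mul]

theorem aval_eq_iff {x y : K} (hx : x ≠ 0) (hy : y ≠ 0) :
    aval O x = aval O y ↔ O.valuation x = O.valuation y := by
  rw [le_antisymm_iff, le_antisymm_iff, aval_le_iff O hx hy, aval_le_iff O hy hx, and_comm]

theorem mon_ne (h0 : ∀ i, π i ≠ 0) {a : k} (ha : a ≠ 0) (m : ι → ℤ) :
    algebraMap k K a * ∏ i, π i ^ m i ≠ 0 :=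
  mul_ne_zero ((map_ne_zero _).2 ha) (Finset.prod_ne_zero_iff.2 fun i _ => zpow_ne_zero _ (h0 i))

theorem exp_eq (hπ : ValIndep k O π) {a b : k} (ha : a ≠ 0) (hb : b ≠ 0) {m n : ι → ℤ}
    (h : aval O (algebraMap k K a) + ∑ i, m i • aval O (π i) =
      aval O (algebraMap k K b) + ∑ i, n i • aval O (π i)) : m = n := by
  have hA : Add (aval O) := (isAVal_aval O).mul
  rw [← hA.mono hπ.1 ((map_ne_zero _).2 ha), ← hA.mono hπ.1 ((map_ne_zero _).2 hb),
    aval_eq_iff (mon_ne hπ.1 ha m) (mon_ne hπ.1 hb n),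
    ← div_eq_one_iff_eq ((Valuation.ne_zero_iff _).2 (mon_ne hπ.1 hb n)), ← map_div₀,
    mul_div_mul_comm, ← map_div₀, ← Finset.prod_div_distrib] at h
  simp only [← zpow_sub₀ (hπ.1 _)] at h
  exact funext fun i => sub_eq_zero.1 (hπ.2 _ _ h i)

theorem isMonVal_self (hπ : ValIndep k O π) :
    IsMonVal (fun a => aval O (algebraMap k K a)) (fun i => aval O (π i)) π O := by
  classical
  have hA : Add (aval O) := (isAVal_aval O).mul
  have key : ∀ P g, IsMinWt (fun a => aval O (algebraMap k K a)) (fun i => aval O (π i)) P g →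
      aval O (aeval π P) = g := by
    rintro P _ hP
    obtain ⟨⟨m, hm, rfl⟩, h⟩ := id hP
    have h0 := fun r (hr : r ∈ P.support) => mem_support_iff.1 hr
    have h1 := fun r hr => hA.mono hπ.1 ((map_ne_zero (algebraMap k K)).2 (h0 r hr)) fun i => r i
    rw [wt_eq, ← h1 m hm, aval_eq_iff (aeval_ne hπ.algebraicIndependent (min_ne hP))
      (mon_ne hπ.1 (h0 m hm) _)]
    conv_lhs => rw [P.as_sum, map_sum]
    simp only [aeval_mon]
    refine Valuation.map_sum_eq_of_lt _ hm fun r hr => ?_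
    obtain ⟨h2, h3⟩ := Finset.mem_sdiff.1 hr
    have h4 := h r h2
    rw [wt_eq, wt_eq] at h4
    rw [← not_le, ← aval_le_iff O (mon_ne hπ.1 (h0 r h2) _) (mon_ne hπ.1 (h0 m hm) _), h1 r h2,
      h1 m hm]
    intro h5
    have h6 := exp_eq hπ (h0 r h2) (h0 m hm) (le_antisymm h5 h4)
    exact h3 (Finset.mem_singleton.2 (Finsupp.ext fun i => Nat.cast_injective (congrFun h6 i)))
  intro P Q g h hP hQ
  rw [← aval_le_iff O (aeval_ne hπ.algebraicIndependent (min_ne hQ))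
    (aeval_ne hπ.algebraicIndependent (min_ne hP)), key P g hP, key Q h hQ]

theorem exists_weights {ℓ : ℕ} [Fact ℓ.Prime] [IsOrderedAddMonoid G] (D : AddSubgroup G)
    (hdiv : ∀ (x : D) (n : ℕ), 0 < n → ∃ y : D, n • y = x) {n : ℕ} (γ : Fin (n + 1) → G)
    (c : Fin (n + 1) → ZMod ℓ) (S : Finset (D × (Fin (n + 1) → ℤ)))
    (h : ∀ p ∈ S, 0 < (p.1 : G) + ∑ i, p.2 i • γ i) :
    ∃ (δ : Fin (n + 1) → D) (N : Fin (n + 1) → ℤ), N 0 ≠ 0 ∧ (∀ i, (N i : ZMod ℓ) = c i) ∧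
      ∀ p ∈ S, (0 : D ×ₗ ℤ) < toLex (p.1 + ∑ i, p.2 i • δ i, ∑ i, p.2 i * N i) := by
  classical
  have hℓ : (1 : ℤ) ≤ ℓ := by exact_mod_cast (Fact.out : ℓ.Prime).one_le
  let c' : Fin (n + 1) → ℤ := fun i => (c i).val + ℓ
  have h0 : 0 < c' 0 := by positivity
  have hc : ∀ i, (c' i : ZMod ℓ) = c i := fun i => by simp [c']
  rcases subsingleton_or_nontrivial D with hD | hD
  · obtain ⟨δ, hδ⟩ := exists_int_solution γ (S.image Prod.snd) fun m hm => by
      obtain ⟨p, hp, rfl⟩ := Finset.mem_image.1 hm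
      simpa [Subsingleton.elim p.1 0] using h p hp
    let M : ℤ := 1 + c' 0 + ∑ p ∈ S, |∑ i, p.2 i * c' i|
    have hs : 0 ≤ ∑ p ∈ S, |∑ i, p.2 i * c' i| := Finset.sum_nonneg fun p _ => abs_nonneg _
    have hM : M ≤ ℓ * M := le_mul_of_one_le_left (by positivity) hℓ
    refine ⟨0, fun i => ℓ * M * δ i + c' i, fun h1 => ?_, fun i => by simp [hc], fun p hp => ?_⟩
    · have := Int.le_of_dvd h0 ⟨-δ 0, show c' 0 = ℓ * M * -δ 0 by linarith⟩
      simp only [M] at hM
      linarith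
    · refine Prod.Lex.toLex_lt_toLex.2 (Or.inr ⟨Subsingleton.elim _ _, ?_⟩)
      have h1 := hδ _ (Finset.mem_image_of_mem _ hp)
      have h2 := Finset.single_le_sum (f := fun p : D × (Fin (n + 1) → ℤ) => |∑ i, p.2 i * c' i|)
        (fun p _ => abs_nonneg _) hp
      have h3 := le_mul_of_one_le_right (show 0 ≤ ℓ * M by positivity) h1
      have h4 := neg_abs_le (∑ i, p.2 i * c' i)
      simp only [mul_add, Finset.sum_add_distrib, mul_left_comm _ (ℓ * M), ← Finset.mul_sum]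
      simp only [M] at hM h3 ⊢
      change 0 < _
      linarith
  · obtain ⟨δ, hδ⟩ := exists_solution hdiv D.subtype (fun _ _ h => h) γ S h
    exact ⟨δ, c', h0.ne', hc, fun p hp => Prod.Lex.toLex_lt_toLex.2 (Or.inl (hδ p hp))⟩

end APX0Aux

/-- `O` is the monomial valuation with weights `γ i = aval O (π i)` over `O ∩ k`, distinct
monomials having distinct values. Membership of the finitely many `x = P(π) / Q(π) ∈ S` is decided
by finitely many strict inequalities `0 < δ + m • γ` (`δ` a value of `k`, `m ≠ 0`) between monomials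
of the `P`, `Q`, and by comparisons inside the value group `D = AG (O ∩ k)` of `k` (divisible).
New weights in `D ×ₗ ℤ` (`k` valued in `D × 0`): if `D` is nontrivial take `(δ i, n i)` with `δ`
from `exists_solution` and `n i ∈ [1, ℓ]` lifting `c i`; otherwise take `(0, n i)` with
`n i = ℓ N δ i + c' i`, `δ` from `exists_int_solution`, `N` large. In both cases `n 0 ≠ 0` and
`n i ≡ c i`. Let `O₁` be given by `exists_isMonVal`, `φ` the second coordinate mod `ℓ`,
`ρ = π 0`, `u j = π (j + 1) ^ |n 0| * π 0 ^ (∓ n (j + 1)) / (constant)` of value `0`. -/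
theorem exists_approx_rat {ℓ : ℕ} [Fact ℓ.Prime] {k K : Type*} [Field k] [Field K] [Algebra k K]
    [IsAlgClosed k] {d : ℕ} {π : Fin (d + 2) → K} (htop : adjoin k (Set.range π) = ⊤)
    {O : ValuationSubring K} (hπ : ValIndep k O π) (c : Fin (d + 2) → ZMod ℓ) (S : Finset K) :
    ∃ (O₁ : ValuationSubring K) (φ : Module.Dual (ZMod ℓ) (V ℓ K)),
      (∀ x ∈ S, x ∈ O₁ ↔ x ∈ O) ∧ HO ℓ O₁ ≤ LinearMap.ker φ ∧ (∀ i, φ (cl ℓ (π i)) = c i) ∧
      ∃ (ρ : Fin 1 → K) (u : Fin (d + 1) → K), ValIndep k O₁ ρ ∧ IsGauss k O₁ u := by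
  classical
  have hA : APX0Aux.Add (aval O) := (isAVal_aval O).mul
  have hne : ∀ {a : k}, a ≠ 0 → algebraMap k K a ≠ 0 := fun h => (map_ne_zero _).2 h
  have hk : APX0Aux.Add fun a : k => aval O (algebraMap k K a) := fun a b ha hb => by
    simp only [map_mul, hA _ _ (hne ha) (hne hb)]
  let D : AddSubgroup (AG O) := hk.hom.range
  have hD : ∀ g : D, ∃ a : k, a ≠ 0 ∧ aval O (algebraMap k K a) = g := fun ⟨_, a, h⟩ =>
    ⟨_, Units.ne_zero _, h⟩
  let v : k → D := fun a => if h : a = 0 then 0 else ⟨_, Additive.ofMul (Units.mk0 a h), rfl⟩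
  have hv : ∀ a, a ≠ 0 → (v a : AG O) = aval O (algebraMap k K a) := fun a h => by
    simp only [v, dif_neg h]
    rfl
  have hdiv : ∀ (x : D) (n : ℕ), 0 < n → ∃ y : D, n • y = x := by
    rintro ⟨_, a, rfl⟩ n hn
    obtain ⟨b, hb⟩ := IsAlgClosed.exists_pow_nat_eq ((Additive.toMul a : kˣ) : k) hn
    have h0 : b ≠ 0 := by
      rintro rfl
      exact Units.ne_zero _ (hb.symm.trans (zero_pow hn.ne'))
    refine ⟨⟨_, Additive.ofMul (Units.mk0 b h0), rfl⟩, Subtype.ext ?_⟩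
    exact (map_nsmul hk.hom _ _).symm.trans (congrArg hk.hom (Units.ext hb))
  have hi := hπ.algebraicIndependent
  choose P Q hPQ using fun x : K => (mem_adjoin_range_iff k π x).1 (htop ▸ mem_top)
  let mo : MvPolynomial (Fin (d + 2)) k → Finset (k × (Fin (d + 2) → ℤ)) := fun R =>
    R.support.image fun m => (R.coeff m, fun i => (m i : ℤ))
  let T := S.biUnion fun x => mo (P x) ∪ mo (Q x)
  have hT : ∀ p ∈ T, p.1 ≠ 0 := fun p hp => by
    obtain ⟨x, -, h⟩ := Finset.mem_biUnion.1 hp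
    rcases Finset.mem_union.1 h with h | h <;>
    · obtain ⟨m, hm, rfl⟩ := Finset.mem_image.1 h
      exact MvPolynomial.mem_support_iff.1 hm
  let W₀ : k × (Fin (d + 2) → ℤ) → AG O := fun p =>
    aval O (algebraMap k K p.1) + ∑ i, p.2 i • aval O (π i)
  obtain ⟨δ, N, hN0, hNc, hδ⟩ := APX0Aux.exists_weights D hdiv (fun i => aval O (π i)) c
    (((T ×ˢ T).filter fun p => W₀ p.1 < W₀ p.2).image fun p =>
      (v p.2.1 - v p.1.1, p.2.2 - p.1.2)) fun p hp => by
      obtain ⟨q, hq, rfl⟩ := Finset.mem_image.1 hp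
      obtain ⟨h1, h2⟩ := Finset.mem_filter.1 hq
      obtain ⟨h3, h4⟩ := Finset.mem_product.1 h1
      simp only [AddSubgroup.coe_sub, hv _ (hT _ h3), hv _ (hT _ h4), Pi.sub_apply, sub_smul,
        Finset.sum_sub_distrib, sub_add_sub_comm]
      exact sub_pos.2 h2
  let v₁ : k → D ×ₗ ℤ := fun a => toLex (v a, 0)
  let γ₁ : Fin (d + 2) → D ×ₗ ℤ := fun i => toLex (δ i, N i)
  have hW : ∀ (a : k) (m : Fin (d + 2) → ℤ), v₁ a + ∑ i, m i • γ₁ i =
      toLex (v a + ∑ i, m i • δ i, ∑ i, m i * N i) := fun a m =>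
    Prod.ext (congrArg (v a + ·) Prod.fst_sum) ((zero_add _).trans Prod.snd_sum)
  have hv₁ : IsAVal v₁ := by
    refine ⟨fun a b ha hb => Prod.ext (Subtype.ext ?_) (add_zero _).symm, fun a b ha hb hab => ?_⟩
    · exact (hv _ (mul_ne_zero ha hb)).trans
        ((hk a b ha hb).trans (congrArg₂ (· + ·) (hv a ha).symm (hv b hb).symm))
    · have h := (isAVal_aval O).add _ _ (hne ha) (hne hb) (by rw [← map_add]; exact hne hab)
      rw [← map_add, ← hv _ ha, ← hv _ hb, ← hv _ hab, min_le_iff] at h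
      exact min_le_iff.2 (h.imp (fun h => Prod.Lex.toLex_mono ⟨h, le_rfl⟩)
        fun h => Prod.Lex.toLex_mono ⟨h, le_rfl⟩)
  have hle : ∀ p ∈ T, ∀ q ∈ T, W₀ p ≤ W₀ q ↔
      v₁ p.1 + ∑ i, p.2 i • γ₁ i ≤ v₁ q.1 + ∑ i, q.2 i • γ₁ i := by
    have h1 : ∀ p ∈ T, ∀ q ∈ T, W₀ p < W₀ q →
        v₁ p.1 + ∑ i, p.2 i • γ₁ i < v₁ q.1 + ∑ i, q.2 i • γ₁ i := fun p hp q hq h => by
      have h2 := hδ _ (Finset.mem_image_of_mem _ (Finset.mem_filter.2
        ⟨Finset.mem_product.2 (show (p, q).1 ∈ T ∧ (p, q).2 ∈ T from ⟨hp, hq⟩), h⟩))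
      simp only [Pi.sub_apply, sub_smul, sub_mul, Finset.sum_sub_distrib, sub_add_sub_comm] at h2
      rw [hW, hW, ← sub_pos]
      exact h2
    refine fun p hp q hq => ⟨fun h => ?_, fun h => not_lt.1 fun h' => not_lt.2 h (h1 q hq p hp h')⟩
    rcases h.eq_or_lt with h | h
    · have h2 := APX0Aux.exp_eq hπ (hT p hp) (hT q hq) h
      simp only [W₀, h2, add_left_inj, ← hv _ (hT p hp), ← hv _ (hT q hq), Subtype.coe_inj] at h
      simp only [v₁, h, h2, le_refl]
    · exact (h1 p hp q hq h).le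
  obtain ⟨O₁, hO⟩ := exists_isMonVal hv₁ γ₁ hi
  obtain ⟨w, hw, hw0, hw1, hwP⟩ := APX0Aux.exists_w hv₁ hi htop hO
  have hm : ∀ (a : k) (m : Fin (d + 2) → ℤ), a ≠ 0 → w (algebraMap k K a * ∏ i, π i ^ m i) =
      toLex (v a + ∑ i, m i • δ i, ∑ i, m i * N i) := fun a m ha => by
    have h1 := hwP _ _ (APX0Aux.min_mon v₁ γ₁ 0 ha)
    have h2 := fun j => hwP _ _ (APX0Aux.min_mon v₁ γ₁ (Finsupp.single j 1) one_ne_zero)
    simp [APX0Aux.Add.one (w := v₁) hv₁.mul, Finsupp.single_apply,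
      MvPolynomial.aeval_monomial] at h1 h2
    simp only [hw.mono hπ.1 (hne ha), h1, h2, hW]
  obtain ⟨φ, hφ⟩ := APX0Aux.Add.exists_dual (w := fun x => (((ofLex (w x)).2 : ℤ) : ZMod ℓ))
    fun x y hx hy => by simp only [hw x y hx hy, ofLex_add, Prod.snd_add, Int.cast_add]
  let E : Fin (d + 1) → Fin (d + 2) → ℤ := fun j => Fin.cons (-N j.succ) (Pi.single j (N 0))
  choose b hb0 hb using fun j => hD (-∑ i, E j i • δ i)
  have hu : ∀ j, O₁.valuation (algebraMap k K (b j) * ∏ i, π i ^ E j i) = 1 := fun j => by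
    refine hw1 _ (APX0Aux.mon_ne hπ.1 (hb0 j) _) ?_
    rw [hm _ _ (hb0 j), show v (b j) = _ from Subtype.ext ((hv _ (hb0 j)).trans (hb j)),
      neg_add_cancel, Fin.sum_univ_succ]
    simp [E, Pi.single_apply, mul_comm]
  refine ⟨O₁, φ, fun x hx => ?_, Submodule.span_le.2 ?_, fun i => ?_, fun _ => π 0,
    fun j => algebraMap k K (b j) * ∏ i, π i ^ E j i, ⟨fun _ => hπ.1 0, fun m a h i => ?_⟩,
    fun j => mem_of_val_eq_one (hu j), fun R m => ?_⟩
  · rcases eq_or_ne x 0 with rfl | h0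
    · simp
    rw [hPQ x, Ne, div_eq_zero_iff, not_or] at h0
    have key : ∀ R, R ≠ 0 → mo R ⊆ T → ∃ p ∈ T,
        IsMinWt (fun a => aval O (algebraMap k K a)) (fun i => aval O (π i)) R (W₀ p) ∧
        IsMinWt v₁ γ₁ R (v₁ p.1 + ∑ i, p.2 i • γ₁ i) := fun R hR h => by
      obtain ⟨_, ⟨m, h1, rfl⟩, h2⟩ :=
        exists_isMinWt (fun a => aval O (algebraMap k K a)) (fun i => aval O (π i)) hR
      simp only [APX0Aux.wt_eq] at h2
      have h3 := fun r hr => h (Finset.mem_image_of_mem _ (a := r) hr)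
      simp only [IsMinWt, APX0Aux.wt_eq]
      exact ⟨_, h3 m h1, ⟨⟨m, h1, rfl⟩, h2⟩, ⟨m, h1, rfl⟩,
        fun r hr => (hle _ (h3 m h1) _ (h3 r hr)).1 (h2 r hr)⟩
    have hs := Finset.subset_biUnion_of_mem (fun x => mo (P x) ∪ mo (Q x)) hx
    obtain ⟨p, hp, p0, p1⟩ := key (P x) (fun h => h0.1 (by simp [h]))
      (Finset.subset_union_left.trans hs)
    obtain ⟨q, hq, q0, q1⟩ := key (Q x) (fun h => h0.2 (by simp [h]))
      (Finset.subset_union_right.trans hs)
    have h1 := fun O' : ValuationSubring K => zero_lt_iff.2 ((O'.valuation.ne_zero_iff).2 h0.2)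
    rw [hPQ x, ← O₁.valuation_le_one_iff, ← O.valuation_le_one_iff, map_div₀, map_div₀,
      div_le_one₀ (h1 _), div_le_one₀ (h1 _), hO _ _ _ _ p1 q1,
      APX0Aux.isMonVal_self hπ _ _ _ _ p0 q0, hle q hq p hp]
  · rintro _ ⟨x, hx, rfl⟩
    have h0 : x ≠ 0 := by rintro rfl; simp at hx
    simp [hφ x h0, hw0 x hx]
  · have h := hm 1 (Pi.single i 1) one_ne_zero
    simp [Pi.single_apply] at h
    simp [hφ _ (hπ.1 i), h, hNc]
  · have ha : a ≠ 0 := by rintro rfl; simp at h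
    have h1 := hm a (Pi.single 0 (m 0)) ha
    simp only [Fin.prod_univ_succ, Fin.prod_univ_zero, mul_one] at h
    rw [Fin.prod_univ_succ, Fin.sum_univ_succ (fun i => _ * N i)] at h1
    simp [hw0 _ h] at h1
    have h2 : (0 : ℤ) = m 0 * N 0 := congrArg (fun g => (ofLex g).2) h1
    rw [Subsingleton.elim i 0]
    exact (mul_eq_zero.1 h2.symm).resolve_right hN0
  · by_cases hm : m ∈ R.support
    swap
    · simp [MvPolynomial.notMem_support_iff.1 hm]
    have h1 : ∀ (r : Fin (d + 1) →₀ ℕ) (a : k), MvPolynomial.aeval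
        (fun j => algebraMap k K (b j) * ∏ i, π i ^ E j i) (MvPolynomial.monomial r a) =
        algebraMap k K (a * ∏ j, b j ^ (r j : ℤ)) * ∏ i, π i ^ ∑ j, E j i * r j := fun r a => by
      simp only [APX0Aux.aeval_mon, mul_zpow, Finset.prod_mul_distrib, map_mul, map_prod, map_zpow₀,
        mul_assoc, ← Finset.prod_zpow, ← zpow_mul]
      rw [Finset.prod_comm]
      simp only [APX0Aux.zpow_sum' (hπ.1 _)]
    have h2 := APX0Aux.laurent hO hπ.1 R.support (fun r i => ∑ j, E j i * r j) (fun r r' h => by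
      refine Finsupp.ext fun j => ?_
      simpa [E, Pi.single_apply, hN0] using congrFun h j.succ)
      (fun r => R.coeff r * ∏ j, b j ^ (r j : ℤ)) hm
    simp only [← h1] at h2
    rw [← map_sum, ← R.as_sum, APX0Aux.aeval_mon] at h2
    simpa only [map_mul _ (algebraMap k K (R.coeff m)), map_prod O₁.valuation, map_zpow₀, hu,
      one_zpow, Finset.prod_const_one, mul_one] using h2

end Vale.Agent.P019
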