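import Vale.Agent.P019.PL

/-! P019: generic extension of homomorphisms (Chevalley). -/

namespace Vale.Agent.P019

universe w

namespace CHAux

open Polynomial IntermediateField

variable {l L : Type*} [Field l] [Field L] [Algebra l L]

/-- generic extension of homomorphisms from `A` to `B` -/
def Ext (A B : Subalgebra l L) : Prop :=
  ∀ β : B, β ≠ 0 → ∃ δ : A, δ ≠ 0 ∧
    ∀ (Ω : Type w) [Field Ω] [IsAlgClosed Ω] [Algebra l Ω] (ψ : A →ₐ[l] Ω), ψ δ ≠ 0 →
      ∃ Ψ : B →ₐ[l] Ω, (∀ (a : A) (b : B), (a : L) = b → Ψ b = ψ a) ∧ Ψ β ≠ 0 ∧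
        ∀ 𝔓 : ValuationSubring Ω, (∀ a : A, ψ a ∈ 𝔓) → (ψ δ)⁻¹ ∈ 𝔓 →
          (∀ b : B, Ψ b ∈ 𝔓) ∧ (Ψ β)⁻¹ ∈ 𝔓

theorem Ext.refl (A : Subalgebra l L) : Ext.{w} A A := fun β hβ =>
  ⟨β, hβ, fun _ _ _ _ ψ hψ => ⟨ψ, fun _ _ h => by rw [Subtype.ext h], hψ, fun _ h h' => ⟨h, h'⟩⟩⟩

theorem Ext.trans {A B C : Subalgebra l L} (hAB : A ≤ B) (h : Ext.{w} A B) (h' : Ext.{w} B C) :
    Ext.{w} A C := by
  intro γ hγ
  obtain ⟨β, hβ, H'⟩ := h' γ hγ
  obtain ⟨δ, hδ, H⟩ := h β hβ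
  refine ⟨δ, hδ, fun Ω _ _ _ ψ hψ => ?_⟩
  obtain ⟨Ψ, h1, h2, h3⟩ := H Ω ψ hψ
  obtain ⟨Ψ', h1', h2', h3'⟩ := H' Ω Ψ h2
  refine ⟨Ψ', fun a c hac => ?_, h2', fun 𝔓 h4 h5 => h3' 𝔓 (h3 𝔓 h4 h5).1 (h3 𝔓 h4 h5).2⟩
  rw [h1' ⟨a, hAB a.2⟩ c hac, h1 a ⟨a, hAB a.2⟩ rfl]

theorem ext_trans [Infinite l] (A : Subalgebra l L) {y : L} (hy : Transcendental A y) :
    Ext.{w} A (Algebra.adjoin l ((A : Set L) ∪ {y})) := by
  set B := Algebra.adjoin l ((A : Set L) ∪ {y}) with hB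
  have hAB : ∀ a : A, (a : L) ∈ B := fun a => Algebra.subset_adjoin (Or.inl a.2)
  have hyB : y ∈ B := Algebra.subset_adjoin (Or.inr rfl)
  have hmem : ∀ p : A[X], (aeval y : A[X] →ₐ[A] L).toRingHom p ∈ B := fun p => by
    change aeval y p ∈ B
    induction p using Polynomial.induction_on' with
    | add p q hp hq => rw [map_add]; exact add_mem hp hq
    | monomial n a => rw [aeval_monomial]; exact mul_mem (hAB a) (pow_mem hyB n)
  let f : A[X] →+* B := (aeval y : A[X] →ₐ[A] L).toRingHom.codRestrict B hmem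
  have hf : ∀ p, (f p : L) = aeval y p := fun _ => rfl
  have hinj : Function.Injective f := fun p q h =>
    transcendental_iff_injective.1 hy (by rw [← hf, ← hf, h])
  have hsurj : Function.Surjective f := by
    rintro ⟨b, hb⟩
    have h1 : ∃ p : A[X], aeval y p = b := by
      induction hb using Algebra.adjoin_induction with
      | mem x hx =>
        rcases hx with hx | rfl
        · exact ⟨C ⟨x, hx⟩, by rw [aeval_C]; rfl⟩
        · exact ⟨X, aeval_X _⟩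
      | algebraMap r => exact ⟨C (algebraMap l A r), by rw [aeval_C]; rfl⟩
      | add x z _ _ h h' =>
        obtain ⟨p, rfl⟩ := h
        obtain ⟨q, rfl⟩ := h'
        exact ⟨p + q, map_add _ _ _⟩
      | mul x z _ _ h h' =>
        obtain ⟨p, rfl⟩ := h
        obtain ⟨q, rfl⟩ := h'
        exact ⟨p * q, map_mul _ _ _⟩
    obtain ⟨p, hp⟩ := h1
    exact ⟨p, Subtype.ext hp⟩
  let e := RingEquiv.ofBijective f ⟨hinj, hsurj⟩
  have he : ∀ (a : A) (b : B), (a : L) = b → e.symm b = C a := fun a b h => by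
    rw [RingEquiv.symm_apply_eq]
    refine Subtype.ext ?_
    change (b : L) = aeval y (C a)
    rw [aeval_C, ← h]; rfl
  intro β hβ
  have hp : e.symm β ≠ 0 := by simpa using hβ
  obtain ⟨c, hc⟩ : ∃ c : l, (e.symm β).eval (algebraMap l A c) ≠ 0 := by
    by_contra h
    push Not at h
    refine hp (eq_zero_of_infinite_isRoot _ ?_)
    refine (Set.infinite_range_of_injective (algebraMap l A).injective).mono ?_
    rintro _ ⟨c, rfl⟩
    exact h c
  refine ⟨_, hc, fun Ω _ _ _ ψ hψ => ?_⟩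
  let Ψ₀ : B →+* Ω :=
    (ψ.toRingHom.comp (evalRingHom (algebraMap l A c))).comp e.symm.toRingHom
  have h0 : ∀ b, Ψ₀ b = ψ ((e.symm b).eval (algebraMap l A c)) := fun _ => rfl
  have h1 : ∀ (a : A) (b : B), (a : L) = b → Ψ₀ b = ψ a := fun a b h => by
    rw [h0, he a b h, eval_C]
  refine ⟨{ Ψ₀ with commutes' := fun r => ?_ }, h1, hψ, fun 𝔓 h2 h3 => ⟨fun b => h2 _, h3⟩⟩
  exact (h1 (algebraMap l A r) _ rfl).trans (ψ.commutes r)

theorem integral_mem {Ω : Type*} [Field Ω] {A : Subalgebra l L} {O : ValuationSubring L}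
    (h : ∀ a : A, (a : L) ∈ O) (χ : O →+* Ω) {x : L} (hx : IsIntegral A x) :
    ∃ hx' : x ∈ O, ∀ 𝔓 : ValuationSubring Ω, (∀ a : A, χ ⟨a, h a⟩ ∈ 𝔓) → χ ⟨x, hx'⟩ ∈ 𝔓 := by
  obtain ⟨p, hp, hpx⟩ := hx
  have hx' : x ∈ O := mem_of_root (hp.map (algebraMap A L))
    (fun i => by rw [coeff_map]; exact h _) (by rw [eval_map]; exact hpx)
  refine ⟨hx', fun 𝔓 h𝔓 => ?_⟩
  let j : A →+* O := (algebraMap A L).codRestrict O h
  have h1 : p.eval₂ j ⟨x, hx'⟩ = 0 := by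
    apply O.subtype_injective
    rw [hom_eval₂, map_zero]
    exact hpx
  refine mem_of_root (hp.map (χ.comp j)) (fun i => by rw [coeff_map]; exact h𝔓 _) ?_
  rw [eval_map, ← hom_eval₂, h1, map_zero]

theorem ext_alg (A : Subalgebra l L) {y : L} (hy : IsAlgebraic A y) :
    Ext.{w} A (Algebra.adjoin l ((A : Set L) ∪ {y})) := by
  rintro ⟨β, hβB⟩ hβ
  have hβ0 : β ≠ 0 := fun h => hβ (Subtype.ext h)
  have halg : IsAlgebraic A β := by
    clear hβ hβ0
    induction hβB using Algebra.adjoin_induction with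
    | mem x hx =>
      rcases hx with hx | rfl
      · exact isAlgebraic_algebraMap (⟨x, hx⟩ : A)
      · exact hy
    | algebraMap r => exact isAlgebraic_algebraMap (algebraMap l A r)
    | add x z _ _ h h' => exact h.add h'
    | mul x z _ _ h h' => exact h.mul h'
  obtain ⟨a, ha, hay⟩ := hy.exists_integral_multiple
  obtain ⟨a', ha', haβ⟩ := (IsAlgebraic.inv_iff.2 halg).exists_integral_multiple
  refine ⟨a * a', mul_ne_zero ha ha', fun Ω _ _ _ ψ hψ => ?_⟩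
  obtain ⟨O, hO, χ, hχ, hker⟩ := exists_place A.toSubring ψ.toRingHom
  have hO' : ∀ a : A, (a : L) ∈ O := hO
  have hχ' : ∀ a : A, χ ⟨a, hO' a⟩ = ψ a := hχ
  rw [map_mul] at hψ
  obtain ⟨h1, h1'⟩ := integral_mem hO' χ hay
  obtain ⟨h2, h2'⟩ := integral_mem hO' χ haβ
  have ha0 : (a : L) ≠ 0 := fun h => ha (Subtype.ext h)
  have hainv : (a : L)⁻¹ ∈ O := by
    by_contra h
    have h3 := (hker ⟨a, hO' a⟩).2 ((val_lt_one_iff_inv ha0).2 h)
    rw [hχ'] at h3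
    exact left_ne_zero_of_mul hψ h3
  have hyO : y ∈ O := by
    have h3 := O.mul_mem _ _ hainv h1
    rwa [Algebra.smul_def, ← mul_assoc, show algebraMap A L a = a from rfl, inv_mul_cancel₀ ha0,
      one_mul] at h3
  have hBO : ∀ x ∈ Algebra.adjoin l ((A : Set L) ∪ {y}), x ∈ O := fun x hx => by
    induction hx using Algebra.adjoin_induction with
    | mem x hx =>
      rcases hx with hx | rfl
      · exact hO' ⟨x, hx⟩
      · exact hyO
    | algebraMap r => exact hO' (algebraMap l A r)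
    | add x z _ _ h h' => exact O.add_mem _ _ h h'
    | mul x z _ _ h h' => exact O.mul_mem _ _ h h'
  let j : Algebra.adjoin l ((A : Set L) ∪ {y}) →+* O :=
    (Algebra.adjoin l ((A : Set L) ∪ {y})).val.toRingHom.codRestrict O fun x => hBO x x.2
  have h3 : ∀ (a : A) (b : Algebra.adjoin l ((A : Set L) ∪ {y})), (a : L) = b →
      χ.comp j b = ψ a := fun a b h => by
    rw [← hχ', RingHom.comp_apply]
    exact congrArg χ (Subtype.ext h.symm)
  have h4 : χ ⟨_, h1⟩ = ψ a * χ ⟨y, hyO⟩ := by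
    rw [← hχ', ← map_mul]; rfl
  have h5 : χ ⟨_, h2⟩ * χ ⟨β, hBO β hβB⟩ = ψ a' := by
    rw [← hχ', ← map_mul]
    refine congrArg χ (Subtype.ext ?_)
    change (a' : L) * β⁻¹ * β = a'
    rw [mul_assoc, inv_mul_cancel₀ hβ0, mul_one]
  have h6 : χ ⟨β, hBO β hβB⟩ ≠ 0 := fun h => by
    rw [h, mul_zero] at h5
    exact right_ne_zero_of_mul hψ h5.symm
  refine ⟨{ χ.comp j with commutes' := fun r => ?_ }, h3, h6, fun 𝔓 h7 h8 => ⟨?_, ?_⟩⟩
  · exact (h3 (algebraMap l A r) _ rfl).trans (ψ.commutes r)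
  · have h9 : ∀ a : A, χ ⟨a, hO' a⟩ ∈ 𝔓 := fun a => by rw [hχ']; exact h7 a
    rintro ⟨x, hx⟩
    change χ ⟨x, hBO x hx⟩ ∈ 𝔓
    induction hx using Algebra.adjoin_induction with
    | mem x hx =>
      rcases hx with hx | rfl
      · exact h9 ⟨x, hx⟩
      · have h10 := 𝔓.mul_mem _ _ (𝔓.mul_mem _ _ h8 (h7 a')) (h1' 𝔓 h9)
        have h11 : (ψ (a * a'))⁻¹ * ψ a' * (ψ a * χ ⟨x, hyO⟩) = χ ⟨x, hyO⟩ := by
          have := left_ne_zero_of_mul hψ
          have := right_ne_zero_of_mul hψ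
          rw [map_mul]; field_simp
        rwa [h4, h11] at h10
    | algebraMap r => exact h9 (algebraMap l A r)
    | add x z hx hz h h' =>
      have h10 := 𝔓.add_mem _ _ h h'
      rwa [← map_add] at h10
    | mul x z hx hz h h' =>
      have h10 := 𝔓.mul_mem _ _ h h'
      rwa [← map_mul] at h10
  · have h9 : ∀ a : A, χ ⟨a, hO' a⟩ ∈ 𝔓 := fun a => by rw [hχ']; exact h7 a
    change (χ ⟨β, hBO β hβB⟩)⁻¹ ∈ 𝔓
    have h10 := 𝔓.mul_mem _ _ (𝔓.mul_mem _ _ h8 (h7 a)) (h2' 𝔓 h9)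
    have h11 : (ψ (a * a'))⁻¹ * ψ a * χ ⟨_, h2⟩ = (χ ⟨β, hBO β hβB⟩)⁻¹ := by
      have := left_ne_zero_of_mul hψ
      have := right_ne_zero_of_mul hψ
      rw [map_mul, (eq_div_iff h6).2 h5]; field_simp
    rwa [h11] at h10

theorem ext_finset [Infinite l] (A : Subalgebra l L) (S : Finset L) :
    Ext.{w} A (Algebra.adjoin l ((A : Set L) ∪ S)) := by
  classical
  induction S using Finset.induction_on with
  | empty =>
    rw [Finset.coe_empty, Set.union_empty, Algebra.adjoin_eq]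
    exact Ext.refl A
  | insert y S _ ih =>
    have h1 : Algebra.adjoin l ((A : Set L) ∪ (insert y S : Finset L)) =
        Algebra.adjoin l ((Algebra.adjoin l ((A : Set L) ∪ S) : Set L) ∪ {y}) := by
      simp only [Finset.coe_insert, Set.insert_eq, Algebra.adjoin_union, Algebra.adjoin_eq]
      rw [sup_assoc, sup_comm (Algebra.adjoin l {y})]
    rw [h1]
    refine Ext.trans (fun x hx => Algebra.subset_adjoin (Or.inl hx)) ih ?_
    by_cases hy : IsAlgebraic (Algebra.adjoin l ((A : Set L) ∪ S)) y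
    · exact ext_alg _ hy
    · exact ext_trans _ hy

theorem isAlgebraic_of_max {Ω : Type*} [Field Ω] {q : ℕ} {y : Ω} {F : Subfield Ω}
    (hF : Maximal (fun F : Subfield Ω => ∀ n : ℕ, y ^ q ^ n ∉ F) F) :
    Algebra.IsAlgebraic F⟮y⟯ Ω := by
  refine ⟨fun x => ?_⟩
  by_contra hx
  have hFG : F ≤ F⟮x⟯.toSubfield := fun e he => F⟮x⟯.algebraMap_mem ⟨e, he⟩
  have hx' : x ∉ F := fun h =>
    hx (isAlgebraic_algebraMap (⟨x, F⟮y⟯.algebraMap_mem ⟨x, h⟩⟩ : F⟮y⟯))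
  obtain ⟨n, hn⟩ : ∃ n : ℕ, y ^ q ^ n ∈ F⟮x⟯ := by
    by_contra h
    push Not at h
    exact hx' (hF.2 (y := F⟮x⟯.toSubfield) h hFG (mem_adjoin_simple_self F x))
  obtain ⟨r, s, hrs⟩ := (mem_adjoin_simple_iff F _).1 hn
  have hs : aeval x s ≠ 0 := fun h => hF.1 n (by rw [hrs, h, div_zero]; exact F.zero_mem)
  have hs0 : s ≠ 0 := by rintro rfl; exact hs (map_zero _)
  have h1 : r.map (algebraMap F F⟮y⟯) -
      C (AdjoinSimple.gen F y ^ q ^ n) * s.map (algebraMap F F⟮y⟯) = 0 := by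
    by_contra h
    refine hx ⟨_, h, ?_⟩
    rw [map_sub, map_mul, aeval_map_algebraMap, aeval_map_algebraMap, aeval_C, map_pow,
      AdjoinSimple.algebraMap_gen, hrs, div_mul_cancel₀ _ hs, sub_self]
  have h2 := congrArg (fun p => algebraMap F⟮y⟯ Ω (p.coeff s.natDegree)) h1
  simp only [coeff_sub, coeff_C_mul] at h2
  simp only [coeff_map, map_sub, map_mul, map_pow,
    AdjoinSimple.algebraMap_gen, coeff_zero, map_zero, ← IsScalarTower.algebraMap_apply] at h2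
  have h3 : algebraMap F Ω (s.coeff s.natDegree) ≠ 0 := by
    rw [Ne, map_eq_zero]
    exact leadingCoeff_ne_zero.2 hs0
  refine hF.1 n ?_
  rw [(eq_div_iff h3).2 (sub_eq_zero.1 h2).symm]
  exact F.div_mem (r.coeff _).2 (s.coeff _).2

theorem exists_algHom_ne {Ω : Type*} [Field Ω] [IsAlgClosed Ω] (F : Subfield Ω) {y : Ω}
    (hy : ∀ n : ℕ, y ^ ringExpChar Ω ^ n ∉ F) :
    ∃ τ : F⟮y⟯ →ₐ[F] Ω, τ (AdjoinSimple.gen F y) ≠ y := by
  classical
  by_cases h : IsAlgebraic F y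
  · have hq : ExpChar F (ringExpChar Ω) :=
      (RingHom.expChar_iff (algebraMap F Ω) (algebraMap F Ω).injective _).2 inferInstance
    obtain ⟨z, hz, hzy⟩ : ∃ z ∈ (minpoly F y).aroots Ω, z ≠ y := by
      by_contra h1
      push Not at h1
      have h2 : ((minpoly F y).aroots Ω).toFinset = {y} := by
        refine Finset.eq_singleton_iff_unique_mem.2 ⟨?_, fun z hz => h1 z (by simpa using hz)⟩
        rw [Multiset.mem_toFinset, mem_aroots]
        exact ⟨minpoly.ne_zero h.isIntegral, minpoly.aeval F y⟩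
      have h3 : (minpoly F y).natSepDegree = 1 := by
        rw [natSepDegree_eq_of_isAlgClosed Ω, h2, Finset.card_singleton]
      obtain ⟨n, e, he⟩ := (minpoly.natSepDegree_eq_one_iff_pow_mem (ringExpChar Ω)).1 h3
      exact hy n (he ▸ e.2)
    refine ⟨(algHomAdjoinIntegralEquiv F h.isIntegral).symm ⟨z, hz⟩, ?_⟩
    rwa [algHomAdjoinIntegralEquiv_symm_apply_gen]
  · replace h : Transcendental F y := h
    have h' : Transcendental F (y + 1) := fun h1 => h (by simpa using h1.sub isAlgebraic_one)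
    refine ⟨F⟮y + 1⟯.val.comp ((RatFunc.algEquivOfTranscendental _ h').toAlgHom.comp
      (RatFunc.algEquivOfTranscendental _ h).symm.toAlgHom), ?_⟩
    change ((RatFunc.algEquivOfTranscendental _ h' ((RatFunc.algEquivOfTranscendental _ h).symm
      (AdjoinSimple.gen F y)) : F⟮y + 1⟯) : Ω) ≠ y
    rw [RatFunc.algEquivOfTranscendental_symm_gen, RatFunc.algEquivOfTranscendental_X]
    simp

end CHAux

/-- Choose `t ⊆ S` maximal algebraically independent over `A`; each `y ∈ S` has `a y (t) * y`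
integral over `A[t]` with `a y ≠ 0`; choose `c ∈ l ^ t` with all `a y (c) ≠ 0` and let `δ` be their
product. Extend `ψ` by `t ↦ c` to `A[t]`, then to a place of `L` (`exists_place`), which contains
`B`. Elements `Ψ y` are roots of monic polynomials over `ψ(A)[1 / ψ δ]`. -/
theorem exists_extend_hom {l L : Type*} [Field l] [Field L] [Algebra l L] [Infinite l]
    (A B : Subalgebra l L) (hAB : A ≤ B) (S : Finset L)
    (hB : B = Algebra.adjoin l ((A : Set L) ∪ S)) :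
    ∃ δ : A, δ ≠ 0 ∧ ∀ (Ω : Type w) [Field Ω] [IsAlgClosed Ω] [Algebra l Ω] (ψ : A →ₐ[l] Ω),
      ψ δ ≠ 0 → ∃ Ψ : B →ₐ[l] Ω, (∀ a : A, Ψ ⟨a, hAB a.2⟩ = ψ a) ∧
        ∀ 𝔓 : ValuationSubring Ω, (∀ a : A, ψ a ∈ 𝔓) → (ψ δ)⁻¹ ∈ 𝔓 → ∀ b : B, Ψ b ∈ 𝔓 := by
  subst hB
  obtain ⟨δ, hδ, H⟩ := CHAux.ext_finset.{w} A S 1 one_ne_zero
  refine ⟨δ, hδ, fun Ω _ _ _ ψ hψ => ?_⟩
  obtain ⟨Ψ, h1, -, h2⟩ := H Ω ψ hψ
  exact ⟨Ψ, fun a => h1 a _ rfl, fun 𝔓 h3 h4 => (h2 𝔓 h3 h4).1⟩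

/-- Nullstellensatz -/
theorem exists_algHom_adjoin {l L : Type*} [Field l] [Field L] [Algebra l L] [IsAlgClosed l]
    (S : Finset L) : Nonempty (Algebra.adjoin l (S : Set L) →ₐ[l] l) := by
  obtain ⟨δ, hδ, H⟩ := exists_extend_hom (⊥ : Subalgebra l L) (Algebra.adjoin l (S : Set L))
    bot_le S (by rw [Algebra.adjoin_union, Algebra.adjoin_eq, bot_sup_eq])
  obtain ⟨Ψ, -⟩ := H l (Algebra.botEquiv l L).toAlgHom (by simpa using hδ)
  exact ⟨Ψ⟩

/-- An element that is not purely inseparable over `E` is moved by an `E`-endomorphism of an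
algebraically closed field. Take a transcendence basis `T` of `Ω` over `E(y)`; if `y` is algebraic
over `E` it is not purely inseparable over `E(T)`, otherwise it is separable of degree `2` over
`E(T)(y ^ 2 + y)`; `Ω` is normal algebraic over that field. -/
theorem exists_hom_ne {Ω : Type*} [Field Ω] [IsAlgClosed Ω] (E : Subfield Ω) {y : Ω}
    (hy : ∀ n : ℕ, y ^ ringExpChar Ω ^ n ∉ E) :
    ∃ σ : Ω →+* Ω, (∀ e ∈ E, σ e = e) ∧ σ y ≠ y := by
  obtain ⟨F, hEF, hF⟩ := zorn_le_nonempty₀ {F : Subfield Ω | ∀ n : ℕ, y ^ ringExpChar Ω ^ n ∉ F}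
    (fun c hc hchain x hx => ⟨sSup c, fun n h => by
      obtain ⟨s, hs, h'⟩ := (Subfield.mem_sSup_of_directedOn ⟨x, hx⟩ hchain.directedOn).1 h
      exact hc hs n h', fun z hz => le_sSup hz⟩) E hy
  have halg := CHAux.isAlgebraic_of_max hF
  obtain ⟨τ, hτ⟩ := CHAux.exists_algHom_ne F hF.1
  obtain ⟨φ, rfl⟩ := IsAlgClosed.surjective_domRestrict_of_isAlgebraic (E := Ω) τ
  exact ⟨φ, fun e he => φ.commutes ⟨e, hEF he⟩, hτ⟩

end Vale.Agent.P019
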