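import Vale.Agent.P019.ValDVR

/-! P019: unramified simple extensions of discretely valued subfields. -/

open Polynomial

namespace Vale.Agent.P019

namespace URAux

theorem simple_root {R k κ : Type*} [CommRing R] [Field k] [Field κ] [Algebra k κ] (ρ : R →+* k)
    (hρ : Function.Surjective ρ) {p : R} (hp : ∀ r, ρ r = 0 → p ∣ r) {t : κ} {g : R[X]}
    (hg : aeval t (g.map ρ) = 0) (hd : aeval t (g.derivative.map ρ) ≠ 0) :
    ∃ H : R[X], aeval t (H.map ρ) ≠ 0 ∧ ∀ P : R[X], aeval t (P.map ρ) = 0 →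
      ∃ Q S, P * H = Q * g + C p * S := by
  obtain ⟨h₁, e⟩ := minpoly.dvd k t hg
  obtain ⟨H, rfl⟩ := map_surjective ρ hρ h₁
  refine ⟨H, fun h => hd ?_, fun P hP => ?_⟩
  · rw [← derivative_map, e, derivative_mul, map_add, map_mul, map_mul, h, minpoly.aeval]
    ring
  · obtain ⟨q, e'⟩ := minpoly.dvd k t hP
    obtain ⟨Q, rfl⟩ := map_surjective ρ hρ q
    have h1 : (P * H - Q * g).map ρ = 0 := by
      rw [Polynomial.map_sub, Polynomial.map_mul, Polynomial.map_mul, e, e']; ring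
    obtain ⟨S, hS⟩ := (C_dvd_iff_dvd_coeff p (P * H - Q * g)).2 fun i => hp _ (by
      rw [← coeff_map, h1, coeff_zero])
    exact ⟨Q, S, by rw [← hS]; ring⟩

variable {F : Type*} [Field F] (O : ValuationSubring F) (A : Subfield F)

/-- the valuation ring of the subfield -/
def RR : Subring F := A.toSubring ⊓ O.toSubring

/-- its residue map -/
noncomputable def rho : RR O A →+* resConst A O where
  toFun r := ⟨res O r, ⟨r, r.2.1⟩, r.2.2, rfl⟩
  map_one' := Subtype.ext res_one
  map_mul' r s := Subtype.ext (res_mul r.2.2 s.2.2)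
  map_zero' := Subtype.ext res_zero
  map_add' r s := Subtype.ext (res_add r.2.2 s.2.2)

theorem rho_surj : Function.Surjective (rho O A) := by
  rintro ⟨_, a, ha, rfl⟩
  exact ⟨⟨a, a.2, ha⟩, rfl⟩

variable {O A}

theorem aeval_spec {t : F} (ht : t ∈ O) (P : (RR O A)[X]) :
    aeval t P ∈ O ∧ res O (aeval t P) = aeval (res O t) (P.map (rho O A)) := by
  induction P using Polynomial.induction_on' with
  | add p q hp hq =>
    rw [map_add, Polynomial.map_add, map_add, res_add hp.1 hq.1, hp.2, hq.2]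
    exact ⟨add_mem hp.1 hq.1, rfl⟩
  | monomial n a =>
    rw [aeval_monomial, Polynomial.map_monomial, aeval_monomial]
    have h1 : algebraMap (RR O A) F a ∈ O := a.2.2
    rw [res_mul h1 (pow_mem ht n), res_pow ht]
    exact ⟨mul_mem h1 (pow_mem ht n), rfl⟩

theorem coeff_spec (P : (RR O A)[X]) (i : ℕ) :
    (P.map (algebraMap (RR O A) F)).coeff i ∈ A ∧ (P.map (algebraMap (RR O A) F)).coeff i ∈ O := by
  rw [coeff_map]
  exact (P.coeff i).2

variable {π : F} (hπA : π ∈ A) (h0 : π ≠ 0) (h1 : O.valuation π < 1)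
  (hA : ∀ x ∈ A, x ≠ 0 → ∃ n : ℤ, O.valuation x = O.valuation π ^ n)
include h0 h1

omit h1 in
theorem val_pos : 0 < O.valuation π := zero_lt_iff.2 (by simpa using h0)

theorem anti : StrictAnti fun n : ℤ => O.valuation π ^ n := zpow_right_strictAnti₀ (val_pos h0) h1

include hA

theorem small {t : F} (ht : t ∈ O) (hi : IsIntegral (RR O A) t) (P : (RR O A)[X])
    (hP : aeval t P ≠ 0) : ∃ N : ℕ, O.valuation π ^ N < O.valuation (aeval t P) := by
  have h2 : IsIntegral (RR O A) (aeval t P) :=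
    adjoin_le_integralClosure hi (aeval_mem_adjoin_singleton _ _)
  obtain ⟨q, hq0, hq⟩ := h2.isAlgebraic.exists_nonzero_coeff_and_aeval_eq_zero
    (mem_nonZeroDivisors_of_ne_zero hP)
  have h3 := congrArg (aeval (aeval t P)) (X_mul_divX_add q)
  rw [hq, map_add, map_mul, aeval_X, aeval_C, add_eq_zero_iff_eq_neg] at h3
  have h4 := (O.valuation_le_one_iff _).2 (aeval_spec (aeval_spec ht P).1 q.divX).1
  obtain ⟨n, hn⟩ := hA (algebraMap (RR O A) F (q.coeff 0)) (q.coeff 0).2.1
    fun h => hq0 (Subtype.ext h)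
  have h5 : O.valuation π ^ n ≤ O.valuation (aeval t P) := by
    rw [← hn, ← Valuation.map_neg, ← h3, map_mul]
    exact mul_le_of_le_one_right' h4
  refine ⟨n.natAbs + 1, lt_of_lt_of_le ?_ h5⟩
  rw [← zpow_natCast]
  exact anti h0 h1 (by omega)

include hπA

theorem ker_rho (r : RR O A) (hr : rho O A r = 0) :
    (⟨π, hπA, (O.valuation_le_one_iff π).1 h1.le⟩ : RR O A) ∣ r := by
  have h2 : O.valuation (r : F) < 1 := (res_eq_zero_iff r.2.2).1 (congrArg Subtype.val hr)
  by_cases h3 : (r : F) = 0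
  · rw [show r = 0 from Subtype.ext h3]; exact dvd_zero _
  obtain ⟨n, hn⟩ := hA r r.2.1 h3
  have h4 : 0 < n := by
    refine (anti h0 h1).lt_iff_gt.1 ?_
    simpa [← hn] using h2
  refine ⟨⟨r / π, A.div_mem r.2.1 hπA, (O.valuation_le_one_iff _).1 ?_⟩, Subtype.ext ?_⟩
  · rw [map_div₀, div_le_one₀ (val_pos h0), hn]
    simpa using (anti h0 h1).antitone (show 1 ≤ n from h4)
  · change (r : F) = π * (r / π)
    rw [mul_div_cancel₀ _ h0]

theorem clear {t x : F} (hx : x ∈ Subring.closure ((A : Set F) ∪ {t})) :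
    ∃ (N : ℕ) (P : (RR O A)[X]), π ^ N * x = aeval t P := by
  let p : RR O A := ⟨π, hπA, (O.valuation_le_one_iff π).1 h1.le⟩
  have hp : ∀ n : ℕ, aeval t (C p ^ n) = π ^ n := fun n => by rw [map_pow, aeval_C]; rfl
  induction hx using Subring.closure_induction with
  | mem x hx =>
    rcases hx with hx | rfl
    · by_cases h3 : x = 0
      · exact ⟨0, 0, by simp [h3]⟩
      obtain ⟨n, hn⟩ := hA x hx h3
      refine ⟨n.natAbs, C ⟨π ^ n.natAbs * x, mul_mem (pow_mem hπA _) hx,
        (O.valuation_le_one_iff _).1 ?_⟩, by rw [aeval_C]; rfl⟩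
      rw [map_mul, map_pow, hn, ← zpow_natCast, ← zpow_add₀ (val_pos h0).ne']
      simpa using (anti h0 h1).antitone (show 0 ≤ (n.natAbs : ℤ) + n by omega)
    · exact ⟨0, X, by simp⟩
  | zero => exact ⟨0, 0, by simp⟩
  | one => exact ⟨0, 1, by simp⟩
  | add x y _ _ hx hy =>
    obtain ⟨N, P, hP⟩ := hx
    obtain ⟨M, Q, hQ⟩ := hy
    exact ⟨N + M, C p ^ M * P + C p ^ N * Q, by
      rw [map_add, map_mul, map_mul, hp, hp, ← hP, ← hQ]; ring⟩
  | neg x _ hx =>
    obtain ⟨N, P, hP⟩ := hx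
    exact ⟨N, -P, by rw [map_neg, ← hP]; ring⟩
  | mul x y _ _ hx hy =>
    obtain ⟨N, P, hP⟩ := hx
    obtain ⟨M, Q, hQ⟩ := hy
    exact ⟨N + M, P * Q, by rw [map_mul, ← hP, ← hQ]; ring⟩

omit hπA hA h0 h1 in
theorem descend {t : F} (ht : t ∈ O) {H : (RR O A)[X]} (hH : O.valuation (aeval t H) = 1)
    (hS : ∀ P : (RR O A)[X], O.valuation (aeval t P) < 1 →
      ∃ S : (RR O A)[X], aeval t P * aeval t H = π * aeval t S) (N : ℕ) :
    ∀ P : (RR O A)[X], O.valuation π ^ N < O.valuation (aeval t P) →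
      ∃ (m : ℕ) (S : (RR O A)[X]), O.valuation (aeval t S) = 1 ∧
        aeval t P * aeval t (H ^ m) = π ^ m * aeval t S := by
  induction N with
  | zero =>
    intro P hP
    rw [pow_zero] at hP
    exact absurd ((O.valuation_le_one_iff _).2 (aeval_spec ht P).1) (not_le.2 hP)
  | succ N ih =>
    intro P hP
    rcases ((O.valuation_le_one_iff _).2 (aeval_spec ht P).1).eq_or_lt with h | h
    · exact ⟨0, P, h, by simp⟩
    · obtain ⟨S, e⟩ := hS P h
      have h2 := congrArg O.valuation e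
      rw [map_mul, map_mul, hH, mul_one] at h2
      rw [h2, pow_succ'] at hP
      obtain ⟨m, S', h3, h4⟩ := ih S (lt_of_mul_lt_mul_left' hP)
      refine ⟨m + 1, S', h3, ?_⟩
      rw [pow_succ', map_mul, ← mul_assoc, e, mul_assoc, h4]; ring

end URAux

/-- Let `b = P(θ) ≠ 0`, `P` with coefficients in `A ∩ O`. If `b` is not a unit, the reduction of
`P` is divisible by the minimal polynomial `h` of the residue of `θ` over the residue field of
`A`; the reduction of `g` is `h h₁` with `h₁(θ)` a unit (simple root), so `P h₁ ≡ Q g` modulo `π`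
and `b h₁(θ) = π R(θ)`. This stops since `b` divides a nonzero constant of `A ∩ O` (it is integral
over `A ∩ O`). Every element of `A(θ)` is a quotient of two such `b`. -/
theorem exists_unit_repr {F : Type*} [Field F] (O : ValuationSubring F) (A : Subfield F) {π : F}
    (hπA : π ∈ A) (h0 : π ≠ 0) (h1 : O.valuation π < 1)
    (hA : ∀ x ∈ A, x ≠ 0 → ∃ n : ℤ, O.valuation x = O.valuation π ^ n)
    {θ : F} {g : F[X]} (hg : g.Monic) (hc : ∀ i, g.coeff i ∈ A ∧ g.coeff i ∈ O)
    (hθ : g.eval θ = 0) (hd : O.valuation (g.derivative.eval θ) = 1)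
    {x : F} (hx : x ∈ Subfield.closure ((A : Set F) ∪ {θ})) (hx0 : x ≠ 0) :
    ∃ (n : ℤ) (P Q : F[X]), (∀ i, P.coeff i ∈ A ∧ P.coeff i ∈ O) ∧
      (∀ i, Q.coeff i ∈ A ∧ Q.coeff i ∈ O) ∧ O.valuation (P.eval θ) = 1 ∧
      O.valuation (Q.eval θ) = 1 ∧ x = π ^ n * P.eval θ / Q.eval θ := by
  have hθO : θ ∈ O := mem_of_root hg (fun i => (hc i).2) hθ
  obtain ⟨g₀, rfl, -, hg₀⟩ := lifts_and_degree_eq_and_monic
    ((lifts_iff_coeff_lifts (f := algebraMap (URAux.RR O A) F) g).2 fun i => ⟨⟨_, hc i⟩, rfl⟩) hg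
  rw [derivative_map, eval_map_algebraMap] at hd
  rw [eval_map_algebraMap] at hθ
  have hi : IsIntegral (URAux.RR O A) θ := ⟨g₀, hg₀, hθ⟩
  obtain ⟨H, hH, hS⟩ := URAux.simple_root (URAux.rho O A) (URAux.rho_surj O A)
    (URAux.ker_rho hπA h0 h1 hA) (t := res O θ) (g := g₀)
    (by rw [← (URAux.aeval_spec hθO _).2, hθ, res_zero])
    (by rw [← (URAux.aeval_spec hθO _).2]; exact res_ne_zero hd)
  rw [← (URAux.aeval_spec hθO _).2] at hH
  have hH' := val_eq_one_of_res hH
  have key : ∀ y ∈ Subring.closure ((A : Set F) ∪ {θ}), y ≠ 0 →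
      ∃ (n : ℤ) (P Q : (URAux.RR O A)[X]), O.valuation (aeval θ P) = 1 ∧
        O.valuation (aeval θ Q) = 1 ∧ y * aeval θ Q = π ^ n * aeval θ P := by
    intro y hy hy0
    obtain ⟨N, P, hP⟩ := URAux.clear hπA h0 h1 hA hy
    obtain ⟨M, hM⟩ := URAux.small h0 h1 hA hθO hi P
      (hP ▸ mul_ne_zero (pow_ne_zero _ h0) hy0)
    obtain ⟨m, S, h2, h3⟩ := URAux.descend hθO hH' (fun P hP => by
      obtain ⟨Q, S, e⟩ := hS P (by
        rw [← (URAux.aeval_spec hθO _).2]
        exact (res_eq_zero_iff (URAux.aeval_spec hθO _).1).2 hP)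
      refine ⟨S, ?_⟩
      rw [← map_mul, e, map_add, map_mul, map_mul, hθ, aeval_C, mul_zero, zero_add]
      rfl) M P hM
    refine ⟨(m : ℤ) - N, S, H ^ m, h2, by rw [map_pow, map_pow, hH', one_pow], ?_⟩
    rw [zpow_sub₀ h0, zpow_natCast, zpow_natCast, div_mul_eq_mul_div, ← h3, ← hP,
      eq_div_iff (pow_ne_zero _ h0)]
    ring
  obtain ⟨y, hy, z, hz, rfl⟩ := Subfield.mem_closure_iff.1 hx
  obtain ⟨hy0, hz0⟩ := div_ne_zero_iff.1 hx0
  obtain ⟨n, P, Q, h2, h3, h4⟩ := key y hy hy0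
  obtain ⟨n', P', Q', h2', h3', h4'⟩ := key z hz hz0
  have hne : ∀ {u : F}, O.valuation u = 1 → u ≠ 0 := fun h e => by simp [e] at h
  refine ⟨n - n', (P * Q').map (algebraMap _ F), (Q * P').map (algebraMap _ F),
    URAux.coeff_spec _, URAux.coeff_spec _, ?_, ?_, ?_⟩
  · rw [eval_map_algebraMap, map_mul, map_mul, h2, h3', one_mul]
  · rw [eval_map_algebraMap, map_mul, map_mul, h3, h2', one_mul]
  · rw [eval_map_algebraMap, eval_map_algebraMap, map_mul, map_mul,
      (eq_div_iff (hne h3)).2 h4, (eq_div_iff (hne h3')).2 h4', zpow_sub₀ h0]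
    have := hne h3
    have := hne h3'
    have := hne h2'
    have := zpow_ne_zero n' h0
    field_simp

/-- Generic unramifiedness. Let `M(θ)` be the separable closure of `M` in `M'`, `g` the minimal
polynomial, `a g + b g' = 1`; let `S` be the set of nonzero coefficients of `g` and `b`. Use
`exists_unit_repr`, and `y ^ p ^ e ∈ M(θ)` for `y ∈ M'`, with `p` prime to `ℓ`. -/
theorem exists_unram {ℓ : ℕ} [Fact ℓ.Prime] (M M' : Type*) [Field M] [Field M'] [Algebra M M']
    [FiniteDimensional M M'] (hℓ : (ℓ : M) ≠ 0) : ∃ S : Finset M, (∀ s ∈ S, s ≠ 0) ∧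
      ∀ O : ValuationSubring M', IsDVR (O.comap (algebraMap M M')) →
        (∀ s ∈ S, O.valuation (algebraMap M M' s) = 1) → ValInj ℓ (algebraMap M M') O := by
  classical
  obtain ⟨α, hα⟩ := Field.exists_primitive_element M (separableClosure M M')
  have hK : separableClosure M M' = IntermediateField.adjoin M {(α : M')} := by
    rw [← IntermediateField.lift_adjoin_simple, hα, IntermediateField.lift_top]
  obtain ⟨a, b, hab⟩ : IsCoprime (minpoly M (α : M')) (minpoly M (α : M')).derivative := α.2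
  refine ⟨(minpoly M (α : M')).coeffs ∪ b.coeffs, fun s hs => ?_, fun O hO hS x hx => ?_⟩
  · rcases Finset.mem_union.1 hs with h | h <;>
    · obtain ⟨n, hn, rfl⟩ := mem_coeffs_iff.1 h
      exact mem_support_iff.1 hn
  have hco : ∀ p : M[X], p.coeffs ⊆ (minpoly M (α : M')).coeffs ∪ b.coeffs → ∀ i,
      (p.map (algebraMap M M')).coeff i ∈ O := fun p hp i => by
    rw [coeff_map]
    by_cases h : p.coeff i = 0
    · rw [h, map_zero]; exact O.zero_mem
    · exact mem_of_val_eq_one (hS _ (hp (coeff_mem_coeffs h)))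
  have hev : ∀ (p : M'[X]) {t : M'}, t ∈ O → (∀ i, p.coeff i ∈ O) → p.eval t ∈ O :=
    fun p t ht hp => by
      rw [eval_eq_sum_range]
      exact sum_mem fun i _ => mul_mem (hp i) (pow_mem ht i)
  have hmon := (minpoly.monic (Algebra.IsIntegral.isIntegral (R := M) (α : M'))).map
    (algebraMap M M')
  have hg := hco _ Finset.subset_union_left
  have hroot : ((minpoly M (α : M')).map (algebraMap M M')).eval (α : M') = 0 := by
    rw [eval_map_algebraMap, minpoly.aeval]
  have hαO := mem_of_root hmon hg hroot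
  have hd : O.valuation (((minpoly M (α : M')).map (algebraMap M M')).derivative.eval
      (α : M')) = 1 := by
    have h1 := congrArg (aeval (α : M')) hab
    rw [map_add, map_mul, map_mul, minpoly.aeval, mul_zero, zero_add, map_one,
      ← eval_map_algebraMap, ← eval_map_algebraMap, ← derivative_map] at h1
    have h2 := (O.valuation_le_one_iff _).2 (hev _ hαO (hco b Finset.subset_union_right))
    have h3 := (O.valuation_le_one_iff _).2 (hev
      ((minpoly M (α : M')).map (algebraMap M M')).derivative hαO fun i => by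
        rw [coeff_derivative]
        exact mul_mem (hg _) (add_mem (natCast_mem O i) O.one_mem))
    have h4 := congrArg O.valuation h1
    rw [map_mul, map_one] at h4
    exact le_antisymm h3 (h4.ge.trans (mul_le_of_le_one_left' h2))
  obtain ⟨π, hπ0, hπ1, -, hπ⟩ := hO.exists_cyclic
  have hval : ∀ u : M, u ≠ 0 → O.valuation (algebraMap M M' u) =
      O.valuation (algebraMap M M' π) ^ ord (O.comap (algebraMap M M')) u := fun u hu => by
    rw [← map_zpow₀, ← map_zpow₀, ← comap_val_eq, map_zpow₀]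
    exact hπ u hu
  have h0 : algebraMap M M' π ≠ 0 := by simpa using hπ0
  have h1 := (comap_val_lt_one _ O π).1 hπ1
  by_cases hx0 : x = 0
  · rw [hx0, cl_zero]; exact zero_mem _
  obtain ⟨y, hy0, hy⟩ := (cl_mem_HO_iff (by simpa using hx0)).1 hx
  obtain ⟨q, hq⟩ := ExpChar.exists (separableClosure M M')
  obtain ⟨e, w, hw⟩ := IsPurelyInseparable.pow_mem (separableClosure M M') q y
  have hmem : y ^ q ^ e ∈ Subfield.closure
      (((algebraMap M M').fieldRange : Set M') ∪ {(α : M')}) := by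
    have h2 : y ^ q ^ e ∈ separableClosure M M' := hw ▸ w.2
    rw [hK] at h2
    exact h2
  obtain ⟨n, P, Q, -, -, h2, h3, h4⟩ := exists_unit_repr O (algebraMap M M').fieldRange
    ⟨π, rfl⟩ h0 h1 (by rintro _ ⟨u, rfl⟩ hu; exact ⟨_, hval u (by simpa using hu)⟩) hmon
    (fun i => ⟨by rw [coeff_map]; exact ⟨_, rfl⟩, hg i⟩) hroot hd hmem (pow_ne_zero _ hy0)
  have h5 := congrArg O.valuation h4
  rw [map_div₀, map_mul, h2, h3, mul_one, div_one, map_zpow₀, map_pow] at h5
  have h6 : ord (O.comap (algebraMap M M')) x * (q ^ e : ℕ) = n * ℓ := by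
    refine (URAux.anti h0 h1).injective ?_
    rw [zpow_mul, zpow_mul, ← hval x hx0, hy, ← h5, zpow_natCast, zpow_natCast, ← pow_mul,
      ← pow_mul, mul_comm]
  have hp : ℓ.Prime := Fact.out
  refine (hO.cl_mem_HO_iff hx0).2 (((Nat.prime_iff_prime_int.1 hp).dvd_or_dvd
    (h6 ▸ dvd_mul_left (ℓ : ℤ) n)).resolve_right fun h => ?_)
  have h7 : ℓ ∣ q := hp.dvd_of_dvd_pow (Int.natCast_dvd_natCast.1 h)
  cases hq with
  | zero => exact hp.one_lt.ne' (Nat.dvd_one.1 h7)
  | prime hq =>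
    apply hℓ
    apply (algebraMap M (separableClosure M M')).injective
    rw [map_natCast, map_zero, (Nat.prime_dvd_prime_iff_eq hp hq).1 h7]
    exact CharP.cast_eq_zero _ q

end Vale.Agent.P019
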