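import Vale.Agent.P019.MODEL
import Vale.Agent.P019.UR
import Vale.Agent.P019.AI
import Vale.Agent.P019.PL

/-! P019: auxiliary facts for the blow-up of a smooth point. -/

open IntermediateField Polynomial

namespace Vale.Agent.P019.GPAux

theorem place {R F Ω : Type*} [CommRing R] [Field F] [Field Ω] [IsAlgClosed Ω] (ψ : R →+* F)
    (χ : R →+* Ω) (h : ∀ r, ψ r = 0 → χ r = 0) :
    ∃ O : ValuationSubring F, ∀ r, ψ r ∈ O ∧ (O.valuation (ψ r) < 1 ↔ χ r = 0) := by
  have hk : RingHom.ker ψ.rangeRestrict ≤ RingHom.ker χ := fun r hr =>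
    h r (congrArg Subtype.val hr)
  obtain ⟨O, hO, χ', h1, h2⟩ := exists_place ψ.range
    (ψ.rangeRestrict.liftOfSurjective ψ.rangeRestrict_surjective ⟨χ, hk⟩)
  refine ⟨O, fun r => ⟨hO (ψ.rangeRestrict r), ?_⟩⟩
  have h3 := h1 (ψ.rangeRestrict r)
  rw [RingHom.liftOfRightInverse_comp_apply] at h3
  have h4 := h2 ⟨_, hO (ψ.rangeRestrict r)⟩
  rw [h3] at h4
  exact h4.symm

theorem dvd_of_root {l L R : Type*} [Field l] [Field L] [Algebra l L] [CommRing R]
    (K : IntermediateField l L) (ψ : R →+* L) (hψ : Function.Injective ψ) (hK : ∀ r, ψ r ∈ K)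
    {θ : L} (hθ : IsIntegral K θ) {g : R[X]} (hg : g.Monic) (hr : g.eval₂ ψ θ = 0)
    (hd : g.natDegree ≤ (minpoly K θ).natDegree) {P : R[X]} (hP : P.eval₂ ψ θ = 0) : g ∣ P := by
  have : Nontrivial R := ψ.domain_nontrivial
  rw [← modByMonic_eq_zero_iff_dvd hg]
  by_contra h0
  have h1 : (P %ₘ g).eval₂ ψ θ = 0 := by
    have h2 := congrArg (eval₂ ψ θ) (modByMonic_add_div P g)
    rwa [eval₂_add, eval₂_mul, hr, zero_mul, add_zero, hP] at h2
  let ψ' : R →+* K := ψ.codRestrict K hK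
  have hψ' : Function.Injective ψ' := fun a b hab => hψ (congrArg Subtype.val hab)
  have h2 : aeval θ ((P %ₘ g).map ψ') = 0 := by
    rw [aeval_def, eval₂_map]
    exact h1
  have h3 := minpoly.degree_le_of_ne_zero K θ ((Polynomial.map_ne_zero_iff hψ').2 h0) h2
  rw [degree_map_eq_of_injective hψ'] at h3
  have h4 := h3.trans_lt (degree_modByMonic_lt P hg)
  rw [degree_eq_natDegree hg.ne_zero, degree_eq_natDegree (minpoly.ne_zero hθ)] at h4
  exact absurd hd (not_le.2 (by exact_mod_cast h4))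

variable {l L : Type*} [Field l] [Field L] [Algebra l L]

theorem minpoly_deg {d : ℕ} (M : Model l L d) :
    (minpoly (adjoin l (Set.range M.s)) M.θ).natDegree = M.f.natDegree := by
  have := M.finite
  rw [← M.finrank_eq, ← Field.primitive_element_iff_minpoly_natDegree_eq, eq_top_iff]
  intro x _
  have hx : x ∈ Subfield.closure
      (((adjoin l (Set.range M.s)).toSubfield : Set L) ∪ {M.θ}) := by
    rw [M.closure_eq_top]
    trivial
  refine (Subfield.closure_le (t := (adjoin l (Set.range M.s))⟮M.θ⟯.toSubfield)).2 ?_ hx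
  rintro y (hy | rfl)
  · exact (adjoin l (Set.range M.s))⟮M.θ⟯.algebraMap_mem ⟨y, hy⟩
  · exact mem_adjoin_simple_self _ _

/-- first order Taylor expansion -/
theorem taylor {σ : Type*} [Fintype σ] {O : ValuationSubring L} (ht : Triv l O) {x : σ → L}
    {c : σ → l} {ρ : O.ValueGroup} (hρ : ρ ≤ 1)
    (hx : ∀ o, O.valuation (x o - algebraMap l L (c o)) ≤ ρ) (g : MvPolynomial σ l) :
    O.valuation (MvPolynomial.aeval x g - algebraMap l L (MvPolynomial.eval c g) -
      ∑ o, algebraMap l L (MvPolynomial.eval c (MvPolynomial.pderiv o g)) *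
        (x o - algebraMap l L (c o))) ≤ ρ * ρ := by
  classical
  have hc : ∀ a : l, O.valuation (algebraMap l L a) ≤ 1 := fun a =>
    (O.valuation_le_one_iff _).2 (ht a)
  induction g using MvPolynomial.induction_on with
  | C a => simp
  | add p q hp hq =>
    refine le_trans (le_of_eq ?_) (O.valuation.map_add_le hp hq)
    congr 1
    simp only [map_add, add_mul, Finset.sum_add_distrib]
    ring
  | mul_X p n hp =>
    set D := ∑ o, algebraMap l L (MvPolynomial.eval c (MvPolynomial.pderiv o p)) *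
      (x o - algebraMap l L (c o)) with hD
    have h1 : O.valuation D ≤ ρ := by
      refine O.valuation.map_sum_le fun o _ => ?_
      rw [map_mul]
      exact (mul_le_mul' (hc _) (hx o)).trans_eq (one_mul _)
    have h2 : O.valuation (x n) ≤ 1 := by
      have := O.valuation.map_add_le ((hx n).trans hρ) (hc (c n))
      rwa [sub_add_cancel] at this
    have h3 : ∑ o, algebraMap l L (MvPolynomial.eval c (MvPolynomial.pderiv o
        (p * MvPolynomial.X n))) * (x o - algebraMap l L (c o)) =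
        D * algebraMap l L (c n) +
          algebraMap l L (MvPolynomial.eval c p) * (x n - algebraMap l L (c n)) := by
      rw [hD, Finset.sum_mul]
      simp only [MvPolynomial.pderiv_mul, map_add, map_mul, MvPolynomial.eval_X, add_mul,
        Finset.sum_add_distrib]
      congr 1
      · exact Finset.sum_congr rfl fun o _ => by ring
      · rw [Finset.sum_eq_single n]
        · simp
        · intro o _ ho
          simp [MvPolynomial.pderiv_X_of_ne ho.symm]
        · simp
    have h4 := mul_le_mul' h1 (hx n)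
    have h5 := (mul_le_mul' hp h2).trans_eq (mul_one _)
    rw [← map_mul] at h4 h5
    refine le_trans (le_of_eq ?_) (O.valuation.map_add_le h4 h5)
    congr 1
    rw [h3]
    simp only [map_mul, MvPolynomial.aeval_X, MvPolynomial.eval_X]
    ring

/-- the valuation attached to the divisor `π = 0` of `l[u][π]` -/
theorem core {ι : Type} [Fintype ι] {u : ι → L} {π θ : L} {K : IntermediateField l L}
    (hK : adjoin l (Set.range fun o : Option ι => o.elim π u) = K)
    (hind : AlgebraicIndependent l fun o : Option ι => o.elim π u) (hθ : IsIntegral K θ)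
    {g : (MvPolynomial ι l)[X][X]} (hg : g.Monic)
    (hr : g.eval₂ (aevalTower (MvPolynomial.aeval u) π).toRingHom θ = 0)
    (hd : g.natDegree ≤ (minpoly K θ).natDegree) {τ : L}
    (hτ : g.eval₂ (aevalTower (MvPolynomial.aeval u) 0).toRingHom τ = 0) :
    ∃ O : ValuationSubring L,
      (∀ P : (MvPolynomial ι l)[X][X],
        P.eval₂ (aevalTower (MvPolynomial.aeval u) π).toRingHom θ ∈ O ∧
        (O.valuation (P.eval₂ (aevalTower (MvPolynomial.aeval u) π).toRingHom θ) < 1 ↔
          P.eval₂ (aevalTower (MvPolynomial.aeval u) 0).toRingHom τ = 0)) ∧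
      Triv l O ∧ O.valuation π < 1 ∧
      (∀ p : MvPolynomial ι l, p ≠ 0 → O.valuation (MvPolynomial.aeval u p) = 1) ∧
      ∀ x ∈ K, x ≠ 0 → ∃ n : ℤ, O.valuation x = O.valuation π ^ n := by
  set ψ : (MvPolynomial ι l)[X] →ₐ[l] L := aevalTower (MvPolynomial.aeval u) π with hψ
  set χ : (MvPolynomial ι l)[X] →ₐ[l] L := aevalTower (MvPolynomial.aeval u) 0 with hχ
  have he : ∀ p, ψ (MvPolynomial.optionEquivLeft l ι p) =
      MvPolynomial.aeval (fun o : Option ι => o.elim π u) p := by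
    have : ψ.comp (MvPolynomial.optionEquivLeft l ι).toAlgHom =
        MvPolynomial.aeval (fun o : Option ι => o.elim π u) := by
      refine MvPolynomial.algHom_ext fun o => ?_
      cases o <;> simp [hψ]
    exact fun p => AlgHom.congr_fun this p
  have hinj : Function.Injective ψ := by
    intro a b hab
    obtain ⟨a, rfl⟩ := (MvPolynomial.optionEquivLeft l ι).surjective a
    obtain ⟨b, rfl⟩ := (MvPolynomial.optionEquivLeft l ι).surjective b
    rw [he, he] at hab
    rw [hind hab]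
  have hmem : ∀ r, ψ r ∈ K := by
    intro r
    obtain ⟨r, rfl⟩ := (MvPolynomial.optionEquivLeft l ι).surjective r
    rw [he, ← hK, mem_adjoin_range_iff]
    exact ⟨r, 1, by simp⟩
  obtain ⟨O, hO⟩ := place (R := (MvPolynomial ι l)[X][X]) (eval₂RingHom ψ.toRingHom θ)
    ((algebraMap L (AlgebraicClosure L)).comp (eval₂RingHom χ.toRingHom τ)) fun P hP => by
      obtain ⟨Q, rfl⟩ := dvd_of_root K ψ.toRingHom hinj hmem hθ hg hr hd hP
      rw [RingHom.comp_apply, coe_eval₂RingHom, eval₂_mul, hτ, zero_mul, map_zero]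
  have hO' : ∀ P : (MvPolynomial ι l)[X][X], P.eval₂ ψ.toRingHom θ ∈ O ∧
      (O.valuation (P.eval₂ ψ.toRingHom θ) < 1 ↔ P.eval₂ χ.toRingHom τ = 0) := fun P => by
    have := hO P
    rwa [RingHom.comp_apply, map_eq_zero] at this
  have hO1 : ∀ r, ψ r ∈ O ∧ (O.valuation (ψ r) < 1 ↔ r.coeff 0 = 0) := fun r => by
    have h1 := hO' (C r)
    rw [eval₂_C, eval₂_C] at h1
    have h2 : χ r = ψ (C (r.coeff 0)) := by
      rw [hχ, hψ, aevalTower_C]
      exact eval₂_at_zero _
    have h3 : χ r = 0 ↔ r.coeff 0 = 0 := by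
      rw [h2, map_eq_zero_iff _ hinj, C_eq_zero]
    exact ⟨h1.1, h1.2.trans h3⟩
  have hO2 : ∀ r, r.coeff 0 ≠ 0 → O.valuation (ψ r) = 1 := fun r hr =>
    le_antisymm ((O.valuation_le_one_iff _).2 (hO1 r).1) (not_lt.1 (mt (hO1 r).2.1 hr))
  have hX : ψ X = π := aevalTower_X _ _
  have hO3 : ∀ r, r ≠ 0 → ∃ n : ℕ, O.valuation (ψ r) = O.valuation π ^ n := fun r hr => by
    obtain ⟨q, h1, h2⟩ := exists_eq_pow_rootMultiplicity_mul_and_not_dvd r hr 0
    rw [map_zero, sub_zero] at h1 h2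
    rw [X_dvd_iff] at h2
    refine ⟨rootMultiplicity 0 r, ?_⟩
    conv_lhs => rw [h1]
    rw [map_mul, map_mul, hO2 q h2, mul_one, map_pow, hX, map_pow]
  have hπ : O.valuation π ≠ 0 := by
    rw [Ne, map_eq_zero, ← hX, map_eq_zero_iff _ hinj]
    exact X_ne_zero
  refine ⟨O, hO', fun a => ?_, ?_, fun p hp => ?_, fun x hx hx0 => ?_⟩
  · rw [← ψ.commutes a]
    exact (hO1 _).1
  · rw [← hX]
    exact (hO1 X).2.2 coeff_X_zero
  · have := hO2 (C p) (by rwa [coeff_C_zero])
    rwa [hψ, aevalTower_C] at this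
  · rw [← hK, mem_adjoin_range_iff] at hx
    obtain ⟨p, q, rfl⟩ := hx
    rw [← he, ← he] at hx0 ⊢
    obtain ⟨n, hn⟩ := hO3 (MvPolynomial.optionEquivLeft l ι p) fun h => hx0 (by simp [h])
    obtain ⟨m, hm⟩ := hO3 (MvPolynomial.optionEquivLeft l ι q) fun h => hx0 (by simp [h])
    exact ⟨n - m, by rw [map_div₀, hn, hm, zpow_sub₀ hπ, zpow_natCast, zpow_natCast]⟩

theorem chi_root {B : Subalgebra l L} (χ : B →ₐ[l] l) {σ : Type*} (x : σ → B) (θ : B)
    {f : (MvPolynomial σ l)[X]} (h : f.eval₂ (MvPolynomial.aeval fun o => (x o : L) :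
      MvPolynomial σ l →ₐ[l] L).toRingHom θ = 0) :
    f.eval₂ (MvPolynomial.eval fun o => χ (x o)) (χ θ) = 0 := by
  have h1 : f.eval₂ (MvPolynomial.aeval x : MvPolynomial σ l →ₐ[l] B).toRingHom θ = 0 := by
    apply Subtype.val_injective
    have h2 := hom_eval₂ f (MvPolynomial.aeval x : MvPolynomial σ l →ₐ[l] B).toRingHom
      B.val.toRingHom θ
    refine h2.trans (Eq.trans ?_ h)
    congr 1
    exact congrArg AlgHom.toRingHom (MvPolynomial.comp_aeval x B.val)
  have h2 := hom_eval₂ f (MvPolynomial.aeval x : MvPolynomial σ l →ₐ[l] B).toRingHom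
    χ.toRingHom θ
  rw [h1, map_zero] at h2
  refine Eq.trans ?_ h2.symm
  congr 1
  exact (congrArg AlgHom.toRingHom (MvPolynomial.comp_aeval x χ)).symm

theorem chi_ne {B : Subalgebra l L} (χ : B →ₐ[l] l) {σ : Type*} (x : σ → B)
    {g : MvPolynomial σ l} (h : MvPolynomial.aeval (fun o => (x o : L)) g ≠ 0)
    (hi : (MvPolynomial.aeval (fun o => (x o : L)) g)⁻¹ ∈ B) :
    MvPolynomial.eval (fun o => χ (x o)) g ≠ 0 := by
  have h1 : ((MvPolynomial.aeval x g : B) : L) = MvPolynomial.aeval (fun o => (x o : L)) g :=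
    MvPolynomial.comp_aeval_apply x B.val g
  have h2 : MvPolynomial.aeval x g * ⟨_, hi⟩ = 1 := Subtype.ext (by
    rw [Subalgebra.coe_mul, h1]
    exact mul_inv_cancel₀ h)
  have h3 := congrArg χ h2
  rw [map_mul, map_one, MvPolynomial.comp_aeval_apply] at h3
  exact left_ne_zero_of_mul_eq_one h3

/-- the elements congruent to their values -/
def cong {B : Subalgebra l L} (χ : B →ₐ[l] l) {O : ValuationSubring L} (ht : Triv l O) :
    Subalgebra l L where
  carrier := {b | ∃ hb : b ∈ B, O.valuation (b - algebraMap l L (χ ⟨b, hb⟩)) < 1}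
  mul_mem' := by
    rintro a b ⟨ha, ha'⟩ ⟨hb, hb'⟩
    refine ⟨mul_mem ha hb, ?_⟩
    have hc : ∀ a : l, O.valuation (algebraMap l L a) ≤ 1 := fun a =>
      (O.valuation_le_one_iff _).2 (ht a)
    have h1 : O.valuation b ≤ 1 := by
      have := O.valuation.map_add_le hb'.le (hc (χ ⟨b, hb⟩))
      rwa [sub_add_cancel] at this
    have h2 := (mul_le_mul' le_rfl h1).trans_lt ((mul_one _).trans_lt ha')
    have h3 := (mul_le_mul' (hc (χ ⟨a, ha⟩)) le_rfl).trans_lt ((one_mul _).trans_lt hb')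
    rw [← map_mul] at h2 h3
    refine lt_of_eq_of_lt ?_ (O.valuation.map_add_lt h2 h3)
    congr 1
    rw [show (⟨a * b, mul_mem ha hb⟩ : B) = ⟨a, ha⟩ * ⟨b, hb⟩ from rfl, map_mul, map_mul]
    ring
  add_mem' := by
    rintro a b ⟨ha, ha'⟩ ⟨hb, hb'⟩
    refine ⟨add_mem ha hb, lt_of_eq_of_lt ?_ (O.valuation.map_add_lt ha' hb')⟩
    congr 1
    rw [show (⟨a + b, add_mem ha hb⟩ : B) = ⟨a, ha⟩ + ⟨b, hb⟩ from rfl, map_add, map_add]
    ring
  algebraMap_mem' := fun a => by
    refine ⟨B.algebraMap_mem a, ?_⟩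
    rw [show (⟨algebraMap l L a, B.algebraMap_mem a⟩ : B) = algebraMap l B a from rfl,
      AlgHom.commutes]
    simp

theorem inv_mem_cong {B : Subalgebra l L} (χ : B →ₐ[l] l) {O : ValuationSubring L}
    (ht : Triv l O) {q : L} (hq : q ∈ cong χ ht) (h0 : q ≠ 0) (hi : q⁻¹ ∈ B) :
    q⁻¹ ∈ cong χ ht := by
  obtain ⟨hq, hq'⟩ := hq
  refine ⟨hi, ?_⟩
  have h1 : χ ⟨q, hq⟩ * χ ⟨q⁻¹, hi⟩ = 1 := by
    rw [← map_mul, ← map_one χ]
    congr 1
    exact Subtype.ext (mul_inv_cancel₀ h0)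
  have h2 := ht.val_eq_one (left_ne_zero_of_mul_eq_one h1)
  have h3 := ht.val_eq_one (right_ne_zero_of_mul_eq_one h1)
  have h4 : O.valuation q = 1 := by
    have := O.valuation.map_add_eq_of_lt_right (hq'.trans_eq h2.symm)
    rwa [sub_add_cancel, h2] at this
  have h5 : q⁻¹ - algebraMap l L (χ ⟨q⁻¹, hi⟩) =
      -(q⁻¹ * algebraMap l L (χ ⟨q⁻¹, hi⟩) * (q - algebraMap l L (χ ⟨q, hq⟩))) := by
    have h6 := congrArg (algebraMap l L) h1
    rw [map_mul, map_one] at h6
    have h7 := inv_mul_cancel₀ h0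
    linear_combination (algebraMap l L (χ ⟨q⁻¹, hi⟩)) * h7 - q⁻¹ * h6
  rw [h5, Valuation.map_neg, map_mul, map_mul, map_inv₀, h4, h3, inv_one, one_mul, one_mul]
  exact hq'

end Vale.Agent.P019.GPAux
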