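import Vale.Agent.P019.MODEL
import Vale.Agent.P019.UR
import Vale.Agent.P019.AI
import Vale.Agent.P019.PL
import Vale.Agent.P019.GPAux

/-! P019: prime divisors centered at generic points. -/

open IntermediateField

namespace Vale.Agent.P019

variable {ℓ : ℕ} [Fact ℓ.Prime] {l L : Type*} [Field l] [Field L] [Algebra l L] [IsAlgClosed l]

/-- The blow-up of a smooth point. Let `O₀` be the monomial valuation of `l(s)` with weight `1` on
all `s j - c j` (trivial on `l`; `exists_isMonVal` with `G = ℤ`), `B = O₀[θ] ≅ O₀[X] / (f)`, and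
`O` a valuation ring of `L` centered at the kernel of `B → residue field of O₀`, `θ ↦ t`
(`exists_place`). By `exists_unit_repr`, `O` is a DVR with uniformizer `s 0 - c 0`; the
`(s (j + 1) - c (j + 1)) / (s 0 - c 0)` are Gauss, so `isFF_residue` applies. -/
theorem exists_order_valuation {d : ℕ} (M : Model l L (d + 2)) (c : Fin (d + 2) → l) (t : l)
    (hf : M.f.eval₂ (MvPolynomial.eval c) t = 0) (hΔ : MvPolynomial.eval c M.Δ ≠ 0) :
    ∃ O : ValuationSubring L, IsPDiv l O ∧ O.valuation (M.θ - algebraMap l L t) < 1 ∧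
      (∀ j, ord O (M.s j - algebraMap l L (c j)) = 1) ∧
      ∀ a : Fin (d + 2) → l, a ≠ 0 →
        ord O (∑ j, algebraMap l L (a j) * (M.s j - algebraMap l L (c j))) = 1 := by
  classical
  set π : L := M.s 0 - algebraMap l L (c 0) with hπ
  have hπ0 : π ≠ 0 := fun h => M.indep.transcendental 0 (by
    rw [sub_eq_zero.1 h]
    exact isAlgebraic_algebraMap _)
  set u : Fin (d + 1) → L := fun j => (M.s j.succ - algebraMap l L (c j.succ)) / π with hu
  have hπu : ∀ j, π * u j = M.s j.succ - algebraMap l L (c j.succ) := fun j =>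
    mul_div_cancel₀ _ hπ0
  have hK : adjoin l (Set.range fun o : Option (Fin (d + 1)) => o.elim π u) =
      adjoin l (Set.range M.s) := by
    refine le_antisymm (adjoin_le_iff.2 ?_) (adjoin_le_iff.2 ?_)
    · have h1 : ∀ j, M.s j - algebraMap l L (c j) ∈ adjoin l (Set.range M.s) := fun j =>
        sub_mem (subset_adjoin _ _ ⟨j, rfl⟩) (IntermediateField.algebraMap_mem _ _)
      rintro _ ⟨_ | j, rfl⟩
      · exact h1 0
      · exact div_mem (h1 _) (h1 0)
    · have h1 : ∀ o : Option (Fin (d + 1)), o.elim π u ∈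
          adjoin l (Set.range fun o : Option (Fin (d + 1)) => o.elim π u) := fun o =>
        subset_adjoin _ _ ⟨o, rfl⟩
      rintro _ ⟨j, rfl⟩
      rw [← sub_add_cancel (M.s j) (algebraMap l L (c j))]
      refine add_mem ?_ (IntermediateField.algebraMap_mem _ _)
      refine Fin.cases (h1 none) (fun j => ?_) j
      rw [← hπu]
      exact mul_mem (h1 none) (h1 (some j))
  have hfin := M.finite
  have hind : AlgebraicIndependent l fun o : Option (Fin (d + 1)) => o.elim π u := by
    have : Algebra.IsAlgebraic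
        (Algebra.adjoin l (Set.range fun o : Option (Fin (d + 1)) => o.elim π u)) L := by
      rw [← isAlgebraic_adjoin_iff_top, hK]
      infer_instance
    refine (Algebra.IsAlgebraic.isTranscendenceBasis_of_lift_le_trdeg_of_finite l _ ?_).1
    rw [M.isFF.trdeg]
    simp [add_assoc, one_add_one_eq_two]
  let φ : MvPolynomial (Fin (d + 2)) l →ₐ[l] Polynomial (MvPolynomial (Fin (d + 1)) l) :=
    MvPolynomial.aeval fun j => algebraMap l _ (c j) +
      Fin.cases Polynomial.X (fun j => Polynomial.X * Polynomial.C (MvPolynomial.X j)) j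
  have h1 : (Polynomial.aevalTower (MvPolynomial.aeval u) π).comp φ = MvPolynomial.aeval M.s := by
    refine MvPolynomial.algHom_ext fun j => ?_
    simp only [φ, AlgHom.comp_apply, MvPolynomial.aeval_X, map_add, AlgHom.commutes]
    refine Fin.cases ?_ (fun j => ?_) j
    · simp [hπ]
    · simp [mul_comm (u j) π, hπu]
  have h2 : (Polynomial.aevalTower (MvPolynomial.aeval u) (0 : L)).comp φ =
      (Algebra.ofId l L).comp (MvPolynomial.aeval c) := by
    refine MvPolynomial.algHom_ext fun j => ?_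
    simp only [φ, AlgHom.comp_apply, MvPolynomial.aeval_X, map_add, AlgHom.commutes]
    refine Fin.cases ?_ (fun j => ?_) j
    · simp
    · simp
  have h3 : ∀ P : Polynomial (MvPolynomial (Fin (d + 2)) l), (P.map φ.toRingHom).eval₂
      (Polynomial.aevalTower (MvPolynomial.aeval u) π).toRingHom M.θ = M.evl P := fun P => by
    rw [Polynomial.eval₂_map, Model.evl, ← h1]
    rfl
  have h4 : ∀ P : Polynomial (MvPolynomial (Fin (d + 2)) l), (P.map φ.toRingHom).eval₂
      (Polynomial.aevalTower (MvPolynomial.aeval u) (0 : L)).toRingHom (algebraMap l L t) =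
        algebraMap l L (P.eval₂ (MvPolynomial.eval c) t) := fun P => by
    rw [Polynomial.eval₂_map, Polynomial.hom_eval₂]
    congr 1
    exact congrArg AlgHom.toRingHom h2
  obtain ⟨O, H0, ht, hπ1, hu1, hA⟩ := GPAux.core hK hind (Algebra.IsIntegral.isIntegral M.θ)
    (M.monic.map φ.toRingHom) ((h3 _).trans M.root)
    (Polynomial.natDegree_map_le.trans (GPAux.minpoly_deg M).ge)
    ((h4 _).trans (by rw [hf, map_zero]))
  have H : ∀ P, M.evl P ∈ O ∧
      (O.valuation (M.evl P) < 1 ↔ P.eval₂ (MvPolynomial.eval c) t = 0) := fun P => by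
    have := H0 (P.map φ.toRingHom)
    rwa [h3, h4, map_eq_zero] at this
  have hd : O.valuation (M.evl M.f.derivative) = 1 := by
    refine le_antisymm ((O.valuation_le_one_iff _).2 (H _).1) (not_lt.1 fun h => hΔ ?_)
    obtain ⟨a, b, hab⟩ := M.bezout
    have h5 := congrArg (Polynomial.eval₂ (MvPolynomial.eval c) t) hab
    rwa [Polynomial.eval₂_C, Polynomial.eval₂_add, Polynomial.eval₂_mul, Polynomial.eval₂_mul, hf,
      (H _).2.1 h, mul_zero, mul_zero, add_zero] at h5
  have hcyc : ∀ x : L, x ≠ 0 → ∃ n : ℤ, O.valuation x = O.valuation π ^ n := by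
    intro x hx
    obtain ⟨n, P, Q, -, -, hP, hQ, rfl⟩ := exists_unit_repr O
      (adjoin l (Set.range M.s)).toSubfield (π := π)
      (by
        rw [← hK]
        exact subset_adjoin _ _ ⟨none, rfl⟩) hπ0 hπ1 hA (θ := M.θ)
      (M.monic.map
        (MvPolynomial.aeval M.s : MvPolynomial (Fin (d + 2)) l →ₐ[l] L).toRingHom)
      (fun i => by
        rw [Polynomial.coeff_map]
        refine ⟨(mem_adjoin_range_iff _ _ _).2 ⟨M.f.coeff i, 1, by simp⟩, ?_⟩
        have := (H (Polynomial.C (M.f.coeff i))).1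
        rwa [Model.evl, Polynomial.coe_eval₂RingHom, Polynomial.eval₂_C] at this)
      (by
        rw [Polynomial.eval_map]
        exact M.root)
      (by
        rw [Polynomial.derivative_map, Polynomial.eval_map]
        exact hd) (x := x) (by rw [M.closure_eq_top]; trivial) hx
    exact ⟨n, by rw [map_div₀, map_mul, hP, hQ, map_zpow₀, mul_one, div_one]⟩
  obtain ⟨hO, ho⟩ := isDVR_of_cyclic hπ0 hπ1 hcyc
  have hc : ∀ a : l, O.valuation (algebraMap l L a) ≤ 1 := fun a =>
    (O.valuation_le_one_iff _).2 (ht a)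
  have hu2 : ∀ j (a : l), O.valuation (u j - algebraMap l L a) = 1 := fun j a => by
    have := hu1 (MvPolynomial.X j - MvPolynomial.C a) fun h => by
      simpa using congrArg (MvPolynomial.pderiv j) h
    simpa using this
  have hu3 : ∀ j, u j ∈ O := fun j => mem_of_val_eq_one (by simpa using hu2 j 0)
  have hG : IsGauss l O u := by
    refine ⟨hu3, fun P m => ?_⟩
    rcases eq_or_ne P 0 with rfl | hP
    · simp
    · rw [hu1 P hP]
      exact hc _
  have hV : ValIndep l O fun _ : Unit => π := by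
    refine ⟨fun _ => hπ0, fun m a h i => ?_⟩
    have ha : a ≠ 0 := by
      rintro rfl
      simp at h
    rw [map_mul, ht.val_eq_one ha, one_mul, Finset.univ_unique, Finset.prod_singleton,
      hO.val_eq_one_iff (zpow_ne_zero _ hπ0), hO.ord_zpow, ho, mul_one] at h
    exact h
  have hlin : ∀ a : Fin (d + 2) → l, a ≠ 0 →
      ord O (∑ j, algebraMap l L (a j) * (M.s j - algebraMap l L (c j))) = 1 := by
    intro a ha
    have h5 := hu1 (MvPolynomial.C (a 0) + ∑ j, MvPolynomial.C (a j.succ) * MvPolynomial.X j)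
      fun h => ha (funext fun j => by
        refine Fin.cases ?_ (fun j => ?_) j
        · simpa using congrArg MvPolynomial.constantCoeff h
        · simpa [Pi.single_apply] using congrArg (MvPolynomial.pderiv j) h)
    set w := MvPolynomial.aeval u
      (MvPolynomial.C (a 0) + ∑ j, MvPolynomial.C (a j.succ) * MvPolynomial.X j)  with hw
    have hw0 : w ≠ 0 := by
      rintro h
      simp [h] at h5
    have h6 : ∑ j, algebraMap l L (a j) * (M.s j - algebraMap l L (c j)) = π * w := by
      rw [Fin.sum_univ_succ, hw]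
      simp only [map_add, map_sum, map_mul, MvPolynomial.aeval_C, MvPolynomial.aeval_X, mul_add,
        Finset.mul_sum, ← hπu, ← hπ]
      congr 1
      · ring
      · exact Finset.sum_congr rfl fun j _ => by ring
    rw [h6, hO.ord_mul hπ0 hw0, ho, (hO.val_eq_one_iff hw0).1 h5, add_zero]
  refine ⟨O, ⟨hO, ht, ⟨u 0, hu3 0, fun a => (hu2 0 a).not_lt⟩,
    (isFF_residue M.isFF hV hG (by simp [add_left_comm])).fg⟩, ?_, fun j => ?_, hlin⟩
  · have := (H (Polynomial.X - Polynomial.C (MvPolynomial.C t))).2.2 (by simp)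
    simpa [Model.evl] using this
  · have := hlin (Pi.single j 1) (by simp)
    simpa [Pi.single_apply, apply_ite (algebraMap l L)] using this

/-- Taylor expansion to first order: if `g(s, y) = 0`, `s ≡ c`, `y ≡ a`, then
`∑ ∂ j g (c, a) (s j - c j) + ∂ g (c, a) (y - a)` has order at least `2` -/
theorem ord_eq_one_of_deriv {n : ℕ} {O : ValuationSubring L} (hO : IsDVR O) (ht : Triv l O)
    {s : Fin n → L} {c : Fin n → l} (hs : ∀ j, O.valuation (s j - algebraMap l L (c j)) < 1)
    (hlin : ∀ a : Fin n → l, a ≠ 0 →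
      ord O (∑ j, algebraMap l L (a j) * (s j - algebraMap l L (c j))) = 1)
    {y : L} {a : l} (hy : O.valuation (y - algebraMap l L a) < 1)
    {g : MvPolynomial (Option (Fin n)) l} (hg : MvPolynomial.aeval (fun o => o.elim y s) g = 0)
    {i : Fin n}
    (hi : MvPolynomial.eval (fun o => o.elim a c) (MvPolynomial.pderiv (some i) g) ≠ 0) :
    y - algebraMap l L a ≠ 0 ∧ ord O (y - algebraMap l L a) = 1 := by
  obtain ⟨π, hπ0, hπ1, ho, -⟩ := hO.exists_cyclic
  have hc : ∀ a : l, O.valuation (algebraMap l L a) ≤ 1 := fun a =>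
    (O.valuation_le_one_iff _).2 (ht a)
  have hle : ∀ x : L, O.valuation x < 1 → O.valuation x ≤ O.valuation π := fun x hx => by
    rcases eq_or_ne x 0 with rfl | h0
    · simp
    · rw [hO.val_le_iff h0 hπ0, ho]
      exact (hO.val_lt_one_iff h0).1 hx
  have h2 : ∀ x : L, x ≠ 0 →
      (O.valuation x ≤ O.valuation π * O.valuation π ↔ 2 ≤ ord O x) := fun x hx => by
    rw [← map_mul, hO.val_le_iff hx (mul_ne_zero hπ0 hπ0), hO.ord_mul hπ0 hπ0, ho]
    rfl
  have hx : ∀ o : Option (Fin n),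
      O.valuation (o.elim y s - algebraMap l L (o.elim a c)) ≤ O.valuation π := by
    rintro (_ | j)
    · exact hle _ hy
    · exact hle _ (hs j)
  have hT := GPAux.taylor ht hπ1.le hx g
  rw [hg] at hT
  set D := ∑ o : Option (Fin n), algebraMap l L (MvPolynomial.eval (fun o => o.elim a c)
    (MvPolynomial.pderiv o g)) * (o.elim y s - algebraMap l L (o.elim a c)) with hD
  have hD1 : O.valuation D ≤ O.valuation π := by
    refine O.valuation.map_sum_le fun o _ => ?_
    rw [map_mul]
    exact (mul_le_mul' (hc _) (hx o)).trans_eq (one_mul _)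
  have hg0 : MvPolynomial.eval (fun o : Option (Fin n) => o.elim a c) g = 0 := by
    by_contra h
    have h3 := O.valuation.map_add_le
      (hT.trans ((mul_le_mul' hπ1.le le_rfl).trans_eq (one_mul _))) hD1
    rw [sub_add_cancel, zero_sub, Valuation.map_neg, ht.val_eq_one h] at h3
    exact absurd hπ1 (not_lt.2 h3)
  rw [hg0, map_zero, sub_zero, zero_sub, Valuation.map_neg, hD, Fintype.sum_option] at hT
  have h3 := hlin (fun j => MvPolynomial.eval (fun o : Option (Fin n) => o.elim a c)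
    (MvPolynomial.pderiv (some j) g)) fun h => hi (congrFun h i)
  by_contra hcon
  have h4 : O.valuation (y - algebraMap l L a) ≤ O.valuation π * O.valuation π := by
    rcases eq_or_ne (y - algebraMap l L a) 0 with h0 | h0
    · simp [h0]
    · have h5 := (hO.val_lt_one_iff h0).1 hy
      have h6 : ord O (y - algebraMap l L a) ≠ 1 := fun h => hcon ⟨h0, h⟩
      rw [h2 _ h0]
      omega
  have h5 := (mul_le_mul' (hc (MvPolynomial.eval (fun o : Option (Fin n) => o.elim a c)
    (MvPolynomial.pderiv none g))) h4).trans_eq (one_mul _)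
  rw [← map_mul] at h5
  have h6 := O.valuation.map_sub_le hT h5
  simp only [Option.elim, add_sub_cancel_left] at h6 h3
  rw [h2 _ fun h => by simp [h, hO.isOrd.1] at h3, h3] at h6
  omega

/-- Take a model; put in `S'` the elements `s`, `θ`, `Δ(s)⁻¹`, for transcendental `y ∈ S` the
`y₀` and `(∂ i g (s, y₀))⁻¹` of `exists_deriv_ne_zero`, and inverses of denominators `Q(s)` of all
these elements. The `b` with `b ≡ χ b` form a subalgebra. -/
theorem exists_pdiv_of_hom (hl : (ℓ : l) ≠ 0) {d : ℕ} (hL : IsFF l L (d + 2)) (S : Finset L) :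
    ∃ S' : Finset L, S ⊆ S' ∧ ∀ χ : Algebra.adjoin l (S' : Set L) →ₐ[l] l,
      ∃ O : ValuationSubring L, IsPDiv l O ∧ (∀ y ∈ S, GoodAt ℓ l O y) ∧
        ∀ b : Algebra.adjoin l (S' : Set L), O.valuation (b - algebraMap l L (χ b)) < 1 := by
  classical
  obtain ⟨M⟩ := exists_model hL
  have hs := hL.isTranscendenceBasis M.indep (by simp)
  have hT : ∀ y : L, ∃ (y₀ : L) (j : ℕ) (g : MvPolynomial (Option (Fin (d + 2))) l)
      (i : Fin (d + 2)), Transcendental l y → y = y₀ ^ ringExpChar l ^ j ∧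
      MvPolynomial.aeval (fun o => o.elim y₀ M.s) g = 0 ∧
      MvPolynomial.aeval (fun o => o.elim y₀ M.s) (MvPolynomial.pderiv (some i) g) ≠ 0 := by
    intro y
    by_cases hy : Transcendental l y
    · obtain ⟨y₀, j, g, i, h⟩ := exists_deriv_ne_zero hs hy
      exact ⟨y₀, j, g, i, fun _ => h⟩
    · exact ⟨0, 0, 0, 0, fun h => absurd h hy⟩
  choose y₀ e g i hT using hT
  choose P Q hQ hPQ using M.gen
  have hne : ∀ q : MvPolynomial (Fin (d + 2)) l, q ≠ 0 → MvPolynomial.aeval M.s q ≠ 0 :=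
    fun q hq => (map_ne_zero_iff _ M.indep).2 hq
  let z : L → L := fun y =>
    MvPolynomial.aeval (fun o => o.elim (y₀ y) M.s) (MvPolynomial.pderiv (some (i y)) (g y))
  let S₁ : Finset L := S ∪ S.image y₀ ∪ S.image (fun y => (z y)⁻¹) ∪ Finset.univ.image M.s ∪
    {M.θ, (MvPolynomial.aeval M.s M.Δ)⁻¹}
  let S' : Finset L := S₁ ∪ S₁.image fun y => (MvPolynomial.aeval M.s (Q y))⁻¹
  refine ⟨S', fun y hy => by simp [S', S₁, hy], fun χ => ?_⟩
  have m0 : ∀ y ∈ S₁, y ∈ Algebra.adjoin l (S' : Set L) := fun y hy =>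
    Algebra.subset_adjoin (Finset.mem_union_left _ hy)
  have m1 : ∀ y ∈ S₁, (MvPolynomial.aeval M.s (Q y))⁻¹ ∈ Algebra.adjoin l (S' : Set L) :=
    fun y hy => Algebra.subset_adjoin (Finset.mem_union_right _ (Finset.mem_image_of_mem _ hy))
  have m2 : ∀ j, M.s j ∈ S₁ := fun j => by simp [S₁]
  have m3 : M.θ ∈ S₁ := by simp [S₁]
  have m4 : (MvPolynomial.aeval M.s M.Δ)⁻¹ ∈ S₁ := by simp [S₁]
  have m5 : ∀ y ∈ S, y ∈ S₁ := fun y hy => by simp [S₁, hy]
  have m6 : ∀ y ∈ S, y₀ y ∈ S₁ := fun y hy => by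
    simp only [S₁, Finset.mem_union]
    exact Or.inl (Or.inl (Or.inl (Or.inr (Finset.mem_image_of_mem _ hy))))
  have m7 : ∀ y ∈ S, (z y)⁻¹ ∈ S₁ := fun y hy => by
    simp only [S₁, Finset.mem_union]
    exact Or.inl (Or.inl (Or.inr (Finset.mem_image_of_mem _ hy)))
  let sB : Fin (d + 2) → Algebra.adjoin l (S' : Set L) := fun j => ⟨M.s j, m0 _ (m2 j)⟩
  let θB : Algebra.adjoin l (S' : Set L) := ⟨M.θ, m0 _ m3⟩
  obtain ⟨O, hO, hθ, hs1, hlin⟩ := exists_order_valuation M (fun j => χ (sB j)) (χ θB)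
    (GPAux.chi_root χ sB θB M.root)
    (GPAux.chi_ne χ sB (hne _ M.Δne) (m0 _ m4))
  have hs2 : ∀ j, O.valuation (M.s j - algebraMap l L (χ (sB j))) < 1 := fun j => by
    have h0 : M.s j - algebraMap l L (χ (sB j)) ≠ 0 := fun h => by
      simpa [h, hO.dvr.isOrd.1] using hs1 j
    rw [hO.dvr.val_lt_one_iff h0, hs1]
    exact one_pos
  have hall : ∀ b : Algebra.adjoin l (S' : Set L), O.valuation (b - algebraMap l L (χ b)) < 1 := by
    let C := GPAux.cong χ hO.triv
    have c1 : ∀ q, MvPolynomial.aeval M.s q ∈ C := fun q => by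
      have h1 : Algebra.adjoin l (Set.range M.s) ≤ C := Algebra.adjoin_le (by
        rintro _ ⟨j, rfl⟩
        exact ⟨m0 _ (m2 j), hs2 j⟩)
      rw [Algebra.adjoin_range_eq_range_aeval] at h1
      exact h1 ⟨q, rfl⟩
    have c2 : ∀ y ∈ S₁, (MvPolynomial.aeval M.s (Q y))⁻¹ ∈ C := fun y hy =>
      GPAux.inv_mem_cong χ hO.triv (c1 _) (hne _ (hQ y)) (m1 y hy)
    have c3 : ∀ y ∈ S₁, y ∈ C := fun y hy => by
      rw [(eq_mul_inv_iff_mul_eq₀ (hne _ (hQ y))).2 (hPQ y), Polynomial.eval₂_eq_sum_range]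
      exact mul_mem (sum_mem fun n _ => mul_mem (c1 _) (pow_mem (show M.θ ∈ C from ⟨_, hθ⟩) n))
        (c2 y hy)
    have c4 : Algebra.adjoin l (S' : Set L) ≤ C := Algebra.adjoin_le fun y hy => by
      rcases Finset.mem_union.1 hy with h | h
      · exact c3 y h
      · obtain ⟨y, hy', rfl⟩ := Finset.mem_image.1 h
        exact c2 y hy'
    exact fun b => (c4 b.2).2
  refine ⟨O, hO, fun y hy => ⟨χ ⟨y, m0 y (m5 y hy)⟩, hall ⟨y, _⟩, fun ht => ?_⟩, hall⟩
  obtain ⟨h1, h2, h3⟩ := hT y ht
  let yB : Algebra.adjoin l (S' : Set L) := ⟨y₀ y, m0 _ (m6 y hy)⟩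
  have h4 := GPAux.chi_ne χ (fun o : Option (Fin (d + 2)) => o.elim yB sB)
    (g := MvPolynomial.pderiv (some (i y)) (g y))
  have e1 : (fun o : Option (Fin (d + 2)) => ((o.elim yB sB : Algebra.adjoin l (S' : Set L)) : L))
      = fun o => o.elim (y₀ y) M.s := funext fun o => by cases o <;> rfl
  have e2 : (fun o : Option (Fin (d + 2)) => χ (o.elim yB sB)) =
      fun o => o.elim (χ yB) fun j => χ (sB j) := funext fun o => by cases o <;> rfl
  rw [e1, e2] at h4
  obtain ⟨h5, h6⟩ := ord_eq_one_of_deriv hO.dvr hO.triv hs2 hlin (hall yB) h2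
    (h4 h3 (m0 _ (m7 y hy)))
  have := expChar_of_injective_algebraMap (algebraMap l L).injective (ringExpChar l)
  have h7 : (⟨y, m0 y (m5 y hy)⟩ : Algebra.adjoin l (S' : Set L)) = yB ^ ringExpChar l ^ e y :=
    Subtype.ext h1
  have h8 : y - algebraMap l L (χ ⟨y, m0 y (m5 y hy)⟩) =
      (y₀ y - algebraMap l L (χ yB)) ^ ringExpChar l ^ e y := by
    rw [sub_pow_expChar_pow, h7, map_pow, map_pow, ← h1]
  rw [h8, hO.dvr.cl_mem_HO_iff (pow_ne_zero _ h5), ← zpow_natCast, hO.dvr.ord_zpow, h6, mul_one,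
    Int.natCast_dvd_natCast]
  intro h9
  have hp : ℓ.Prime := Fact.out
  have h10 := hp.dvd_of_dvd_pow h9
  exact (ringExpChar.expChar l).casesOn (motive := fun q _ => ℓ ∣ q → False)
    (fun h => hp.ne_one (Nat.dvd_one.1 h))
    (fun _ _ h => hl ((CharP.cast_eq_zero_iff l _ ℓ).2
      (((Nat.prime_dvd_prime_iff_eq hp ‹_›).1 h) ▸ dvd_rfl))) h10

end Vale.Agent.P019
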