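import Vale.Agent.P019.H2Web3
import Vale.Agent.P019.GP

/-! P019: the web theorem for abstract curves. -/

open IntermediateField Filter TensorProduct

namespace Vale.Agent.P019.H2

universe u

variable {l L C₂ C₃ α : Type*} {C₁ : Type u} [Field l] [IsAlgClosed l] [Field L] [Algebra l L]
  [Field C₁] [Algebra l C₁] [Field C₂] [Algebra l C₂] [Field C₃] [Algebra l C₃] [Infinite α]

theorem web_aux {ℓ : ℕ} [Fact ℓ.Prime] (hl : (ℓ : l) ≠ 0) {d : ℕ} (hL : IsFF l L (d + 2))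
    (h₁ : IsCurve l C₁) (h₂ : IsCurve l C₂) (h₃ : IsCurve l C₃)
    (ι₁ : C₁ →ₐ[l] L) (ι₂ : C₂ →ₐ[l] L) (ι₃ : C₃ →ₐ[l] L)
    (hLD : Function.Injective (Algebra.TensorProduct.productMap ι₁ ι₃))
    (P₁ : α → Place l C₁) (P₂ : α → Place l C₂) (P₃ : α → Place l C₃)
    (g : α → α ≃ α) (Bad : Set α) (hB : Bad.Finite) (i₁ : Set.InjOn P₁ Badᶜ)
    (i₂ : Set.InjOn P₂ Badᶜ) (i₃ : Set.InjOn P₃ Badᶜ) (S : Finset L)
    (H : ∀ w : ValuationSubring L, IsPDiv l w → (∀ s ∈ S, GoodAt ℓ l w s) →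
      ∃ u ∉ Bad, ∃ r ∉ Bad, g r u ∉ Bad ∧ w.comap ι₁.toRingHom = (P₁ u).O ∧
        w.comap ι₃.toRingHom = (P₃ r).O ∧ w.comap ι₂.toRingHom = (P₂ (g r u)).O) :
    (∀ᶠ r in cofinite, (∀ e₂, ∃ e₁ j, GRel P₁ (fun u => P₂ (g r u)) e₁ e₂ j) ∧
      (∀ e₁, ∃ e₂ j, GRel (fun u => P₂ (g r u)) P₁ e₂ e₁ j) ∧
      ∀ᶠ u in cofinite, ∀ e₁ e₂ j, GRel P₁ (fun u => P₂ (g r u)) e₁ e₂ j →
        (e₂ ∈ (P₂ (g r u)).O ↔ e₁ ∈ (P₁ u).O)) ∧
    ∀ᶠ u in cofinite, ∀ᶠ r in cofinite, ∀ e₁ e₂ j, GRel P₁ (fun u => P₂ (g r u)) e₁ e₂ j →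
      (e₂ ∈ (P₂ (g r u)).O ↔ e₁ ∈ (P₁ u).O) := by
  classical
  obtain ⟨S₁, -, s₁⟩ := exists_separating h₁
  obtain ⟨S₂, -, s₂⟩ := exists_separating h₂
  obtain ⟨S₃, -, s₃⟩ := exists_separating h₃
  have := h₂.fg
  obtain ⟨G, hG⟩ := fg_top l C₂
  obtain ⟨S', hS', hχ⟩ := exists_pdiv_of_hom hl hL
    (S ∪ S₁.image ι₁ ∪ (S₂ ∪ G).image ι₂ ∪ S₃.image ι₃)
  have t₁ := tendsto_of_injOn hB i₁
  have t₂ := tendsto_of_injOn hB i₂
  have t₃ := tendsto_of_injOn hB i₃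
  let Ω := AlgebraicClosure C₁
  let ι := algebraMap C₁ Ω
  let B := Algebra.adjoin l (S' : Set L)
  let A₁ := Algebra.adjoin l (S₁ : Set C₁)
  let A₃ := Algebra.adjoin l (S₃ : Set C₃)
  have hι : ∀ a : l, ι (algebraMap l C₁ a) = algebraMap l Ω a := fun a =>
    (IsScalarTower.algebraMap_apply l C₁ Ω a).symm
  have htr : ∀ u (𝔓 : ValuationSubring Ω), 𝔓.comap ι = (P₁ u).O → Triv l 𝔓 := fun u 𝔓 h =>
    (triv_comap ι hι).1 (h ▸ (P₁ u).triv)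
  have b₁ : A₁ ≤ B.comap ι₁ := Algebra.adjoin_le fun s hs =>
    Algebra.subset_adjoin (hS' (by simp [Finset.mem_image_of_mem ι₁ hs]))
  have b₂ : Algebra.adjoin l ((S₂ ∪ G : Finset C₂) : Set C₂) ≤ B.comap ι₂ :=
    Algebra.adjoin_le fun s hs => Algebra.subset_adjoin (hS' (Finset.mem_union_left _
      (Finset.mem_union_right _ (Finset.mem_image_of_mem ι₂ hs))))
  have b₃ : A₃ ≤ B.comap ι₃ := Algebra.adjoin_le fun s hs =>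
    Algebra.subset_adjoin (hS' (by simp [Finset.mem_image_of_mem ι₃ hs]))
  let μ : A₁ ⊗[l] A₃ →ₐ[l] L :=
    Algebra.TensorProduct.productMap (ι₁.comp A₁.val) (ι₃.comp A₃.val)
  have hμ : Function.Injective μ := by
    have h1 := hLD.comp (map_injective_of_flat_flat A₁.val.toLinearMap A₃.val.toLinearMap
      Subtype.val_injective Subtype.val_injective)
    convert h1 using 1
    ext τ
    induction τ with
    | zero => simp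
    | tmul a b => rfl
    | add x y hx hy => simp only [map_add, Function.comp_apply] at *; rw [hx, hy]
  have hAB : μ.range ≤ B := by
    rintro _ ⟨τ, rfl⟩
    induction τ with
    | zero => simp
    | tmul a b => exact B.mul_mem (b₁ a.2) (b₃ b.2)
    | add x y hx hy => rw [map_add]; exact B.add_mem hx hy
  obtain ⟨⟨_, τ₀, rfl⟩, hδ0, hδ⟩ := exists_extend_hom.{u} μ.range B hAB S'
    (le_antisymm (Algebra.adjoin_mono Set.subset_union_right)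
      (Algebra.adjoin_le (Set.union_subset hAB Algebra.subset_adjoin)))
  obtain ⟨s, hs⟩ := τ₀.exists_finset
  have hne : ∑ p ∈ s, ι₁ p.1 * ι₃ p.2 ≠ 0 := by
    intro h
    refine hδ0 (Subtype.ext ?_)
    change μ τ₀ = 0
    rw [hs, map_sum, ← h]
    rfl
  obtain ⟨φ₁, hφ₁⟩ := exists_functional_sum ι₁ ι₃ s (fun p => p.1) (fun p => p.2) hne
  obtain ⟨φ₃, hφ₃⟩ := exists_functional_sum ι₃ ι₁ s (fun p => p.2) (fun p => p.1)
    (by simpa only [mul_comm] using hne)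
  have d₁ := dbl h₁ h₃ t₁ t₃ s _ _ φ₁ hφ₁
  have d₃ := dbl h₃ h₁ t₃ t₁ s _ _ φ₃ hφ₃
  let Gd : α → α → Prop := fun r u => (u ∉ Bad ∧ ∀ s ∈ S₁, s ∈ (P₁ u).O) ∧
    ∑ p ∈ s, ev l (P₁ u).O (p.1 : C₁) * ev l (P₃ r).O (p.2 : C₃) ≠ 0
  have e₁ : ∀ᶠ u in cofinite, u ∉ Bad ∧ ∀ s ∈ S₁, s ∈ (P₁ u).O :=
    hB.eventually_cofinite_notMem.and
      ((eventually_all_finset _).2 fun s _ => t₁.eventually (eventually_mem h₁ s))
  have e₃ : ∀ᶠ r in cofinite, (r ∉ Bad ∧ ∀ s ∈ S₃, s ∈ (P₃ r).O) ∧ ∀ᶠ u in cofinite, Gd r u :=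
    (hB.eventually_cofinite_notMem.and
      ((eventually_all_finset _).2 fun s _ => t₃.eventually (eventually_mem h₃ s))).and
      (d₁.mono fun r hr => e₁.and hr)
  have main : ∀ r, ((r ∉ Bad ∧ ∀ s ∈ S₃, s ∈ (P₃ r).O) ∧ ∀ᶠ u in cofinite, Gd r u) →
      (∀ e₂, ∃ e₁ j, GRel P₁ (fun u => P₂ (g r u)) e₁ e₂ j) ∧
      (∀ e₁, ∃ e₂ j, GRel (fun u => P₂ (g r u)) P₁ e₂ e₁ j) ∧
      ∀ u, Gd r u → ∀ e₁ e₂ j, GRel P₁ (fun u => P₂ (g r u)) e₁ e₂ j →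
        (e₂ ∈ (P₂ (g r u)).O ↔ e₁ ∈ (P₁ u).O) := by
    rintro r ⟨⟨hr, hr₃⟩, hG'⟩
    obtain ⟨χ₃, hχ₃⟩ := exists_valueHom (P₃ r).triv (fun x hx => (P₃ r).exists_val h₃ hx) A₃.val
      (mem_adjoin (P₃ r).triv A₃.val hr₃)
    let ν : A₁ ⊗[l] A₃ →ₐ[l] Ω := Algebra.TensorProduct.productMap
      ((IsScalarTower.toAlgHom l C₁ Ω).comp A₁.val) ((Algebra.ofId l Ω).comp χ₃)
    have hν : ∀ a b, ν (a ⊗ₜ b) = ι a * algebraMap l Ω (χ₃ b) := fun a b => rfl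
    let ψ : μ.range →ₐ[l] Ω := ν.comp (AlgEquiv.ofInjective μ hμ).symm.toAlgHom
    have hψ : ∀ τ, ψ ⟨μ τ, τ, rfl⟩ = ν τ := fun τ =>
      congrArg ν ((AlgEquiv.ofInjective μ hμ).symm_apply_apply τ)
    have k₁ : ∀ u, Gd r u → ∀ 𝔓 : ValuationSubring Ω, 𝔓.comap ι = (P₁ u).O →
        (∀ a, ψ a ∈ 𝔓) ∧ 𝔓.valuation (ψ ⟨μ τ₀, τ₀, rfl⟩) = 1 := fun u hu 𝔓 h => by
      have ha := mem_adjoin (P₁ u).triv A₁.val hu.1.2
      constructor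
      · rintro ⟨_, τ, rfl⟩
        rw [show ψ ⟨_, τ, rfl⟩ = ν τ from hψ τ]
        induction τ with
        | zero => rw [map_zero]; exact 𝔓.zero_mem
        | tmul a b =>
          rw [hν]
          exact 𝔓.mul_mem _ _ (by have := ha a; rwa [← h] at this) (htr u 𝔓 h _)
        | add x y hx hy => rw [map_add]; exact 𝔓.add_mem _ _ hx hy
      · refine HV.val_one (htr u 𝔓 h) ?_ hu.2
        rw [hψ, hs, map_sum]
        refine HV.sum s fun p _ => ?_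
        rw [hν, show ev l (P₃ r).O (p.2 : C₃) = χ₃ p.2 from ev_eq (P₃ r).triv (hχ₃ p.2)]
        exact HV.mul (htr u 𝔓 h) ((hv_comap ι hι _).1 (h ▸ (P₁ u).val_sub_ev h₁ (ha p.1)))
          (hv_const _ _)
    obtain ⟨Ψ, hΨ, hΨ'⟩ := hδ Ω ψ (by
      obtain ⟨u, hu⟩ := hG'.exists
      obtain ⟨𝔓, h⟩ := exists_comap_eq ι (P₁ u).O
      intro h0
      have := (k₁ u hu 𝔓 h).2
      rw [show ψ ⟨μ τ₀, τ₀, rfl⟩ = 0 from h0, map_zero] at this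
      exact zero_ne_one this)
    have hΨν : ∀ τ h, Ψ ⟨μ τ, h⟩ = ν τ := fun τ _ => (hΨ ⟨μ τ, τ, rfl⟩).trans (hψ τ)
    refine exists_phi h₁ h₂ t₁ (t₂.comp (g r).injective.tendsto_cofinite) i₁ (B₂ := g r ⁻¹' Bad)
      (fun u hu u' hu' h => (g r).injective (i₂ hu hu' h)) ι₂ Ψ s₂
      (fun s hs => b₂ (Algebra.subset_adjoin (by simp [hs]))) (fun e => ?_)
      (kf (g := fun r u => g r u) i₃ ι₁ ι₂ ι₃ (fun χ => ?_) s₁ s₃ hr Ψ (fun s hs => ?_)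
        (fun s hs => ?_)) hG' fun u hu => ⟨hu.1.1, fun 𝔓 h => hΨ' 𝔓 (k₁ u hu 𝔓 h).1 ?_⟩
    · obtain ⟨x, hx, y, hy, he⟩ := mem_adjoin_iff_div.1 (hG ▸ mem_top : e ∈ adjoin l (G : Set C₂))
      have h1 : Algebra.adjoin l (G : Set C₂) ≤ B.comap ι₂ :=
        (Algebra.adjoin_mono (by simp)).trans b₂
      exact ⟨x, y, h1 hx, h1 hy, he⟩
    · obtain ⟨w, h1, h2, h3⟩ := hχ χ
      exact ⟨w, h3, H w h1 fun s hs => h2 s (by simp [hs])⟩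
    · have h1 := hΨν ((⟨s, Algebra.subset_adjoin hs⟩ : A₁) ⊗ₜ 1) (hAB ⟨_, rfl⟩)
      refine ⟨b₁ (Algebra.subset_adjoin hs), ?_⟩
      rw [hν, map_one, map_one, mul_one] at h1
      rw [← h1]
      congr 2
      simp [μ]
    · have h1 := hΨν (1 ⊗ₜ (⟨s, Algebra.subset_adjoin hs⟩ : A₃)) (hAB ⟨_, rfl⟩)
      refine ⟨b₃ (Algebra.subset_adjoin hs), _, hχ₃ ⟨s, Algebra.subset_adjoin hs⟩, ?_⟩
      rw [hν, OneMemClass.coe_one, map_one, one_mul] at h1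
      rw [← h1]
      congr 2
      simp [μ]
    · refine mem_of_val_eq_one ?_
      rw [map_inv₀]
      exact inv_eq_one.2 (k₁ u hu 𝔓 h).2
  refine ⟨e₃.mono fun r hr => ⟨(main r hr).1, (main r hr).2.1, hr.2.mono (main r hr).2.2⟩, ?_⟩
  filter_upwards [e₁, d₃] with u h1 h2
  filter_upwards [e₃, h2] with r h3 h4
  exact (main r h3).2.2 u ⟨h1, by simpa only [mul_comm] using h4⟩

end Vale.Agent.P019.H2
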