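import Vale.Agent.P019.GP
import Vale.Agent.P019.CH
import Vale.Agent.P019.CV
import Vale.Agent.P019.LDJ
import Vale.Agent.P019.H2Web4

/-! P019: a web of three curves gives correspondences that are isomorphisms of perfect closures.

Let `E i = Ecl l (x i)`, `S i ⊆ E i` from `exists_separating` (enlarged to generate `E i`), `A i = l[S i]`,
`B = l[S']` from `exists_pdiv_of_hom` for `S ∪ S 1 ∪ S 2 ∪ S 3`, `A = l[S 1 ∪ S 3]`, `δ ∈ A` from
`exists_extend_hom` with `Ω = AlgebraicClosure (E 1)`. As `E 1`, `E 3` are linearly disjoint,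
`A ≅ A 1 ⊗ A 3`, and for almost all `r` there is `ψ r = id ⊗ ev (P₃ r) : A → Ω`. Write
`δ = ∑ a i b i`, `δ(u, r) = ∑ ev (P₁ u) (a i) * ev (P₃ r) (b i)`; then for almost all `r` it is
nonzero for almost all `u`, and conversely. Let `Ψ r : B → Ω` extend `ψ r`.
Key fact: if `δ(u, r) ≠ 0`, `u, r ∉ Bad`, `S 1 ⊆ P₁ u`, and `𝔓` is a valuation ring of `Ω` over
`P₁ u` (residue field `l`), then `χ = value ∘ Ψ r` is a homomorphism `B → l`; the prime divisor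
`O` given by `χ` restricts to `P₁ u`, `P₃ r` (separation), so to `P₂ (g r u)`, and the values on
`S 2` at `P₂ (g r u)` are those of `Ψ r` at `𝔓`. So `Ψ r` is injective on `A 2` (else constant on
`S 2`), extends to `E 2`, and pulls `𝔓` back to `P₂ (g r u)`. For `σ` an `E 1`-automorphism of
`Ω`, the rings `𝔓` and `σ⁻¹ 𝔓` both lie over `P₁ u`, so `σ (Ψ e) - Ψ e` vanishes at some ring
over `P₁ u` for infinitely many `u`, so is `0` (else its norm is a unit almost everywhere); hence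
`Ψ (E 2)` is purely inseparable over `E 1` (`exists_hom_ne`). For `σ` fixing
`Ψ (E 2)`: `𝔓' = σ⁻¹ 𝔓` contains `Ψ B` for almost all `u` (integrality over `Ψ (E 2)`); apply `H` to
the prime divisor of `value at 𝔓' ∘ Ψ`: `r' = r`, `g r u' = g r u`, so `𝔓'` lies over `P₁ u`. -/

open Filter

namespace Vale.Agent.P019

theorem web {ℓ : ℕ} [Fact ℓ.Prime] {k l L : Type*} [Infinite k] [Field l] [Field L] [Algebra l L]
    [IsAlgClosed l] (hl : (ℓ : l) ≠ 0) {d : ℕ} (hL : IsFF l L (d + 2)) {x₁ x₂ x₃ : L}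
    (h₂ : Transcendental l x₂) (h₁₃ : AlgebraicIndependent l ![x₁, x₃])
    (P₁ : k → Place l (Ecl l x₁)) (P₂ : k → Place l (Ecl l x₂)) (P₃ : k → Place l (Ecl l x₃))
    (g : k → k ≃ k) (Bad : Set k) (hB : Bad.Finite) (i₁ : Set.InjOn P₁ Badᶜ)
    (i₂ : Set.InjOn P₂ Badᶜ) (i₃ : Set.InjOn P₃ Badᶜ) (S : Finset L)
    (H : ∀ w : ValuationSubring L, IsPDiv l w → (∀ s ∈ S, GoodAt ℓ l w s) →
      ∃ u ∉ Bad, ∃ r ∉ Bad, g r u ∉ Bad ∧ w.comap (Ecl l x₁).val.toRingHom = (P₁ u).O ∧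
        w.comap (Ecl l x₃).val.toRingHom = (P₃ r).O ∧
        w.comap (Ecl l x₂).val.toRingHom = (P₂ (g r u)).O) :
    (∀ᶠ r in cofinite, (∀ e₂, ∃ e₁ j, GRel P₁ (fun u => P₂ (g r u)) e₁ e₂ j) ∧
      (∀ e₁, ∃ e₂ j, GRel (fun u => P₂ (g r u)) P₁ e₂ e₁ j) ∧
      ∀ᶠ u in cofinite, ∀ e₁ e₂ j, GRel P₁ (fun u => P₂ (g r u)) e₁ e₂ j →
        (e₂ ∈ (P₂ (g r u)).O ↔ e₁ ∈ (P₁ u).O)) ∧
    ∀ᶠ u in cofinite, ∀ᶠ r in cofinite, ∀ e₁ e₂ j, GRel P₁ (fun u => P₂ (g r u)) e₁ e₂ j →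
      (e₂ ∈ (P₂ (g r u)).O ↔ e₁ ∈ (P₁ u).O) := by
  have := hL.fg
  have h₁ := (pair_iff.1 h₁₃).1
  have h₃ := pair_iff.1 (pair_symm h₁₃)
  have hLD : (Ecl l x₁).LinearDisjoint (Ecl l x₃) := by
    refine linearDisjoint_of_free _ _ (fun _ : Unit => x₁) (fun a ha => ?_) ?_
    · rw [Set.range_const]
      exact (mem_Ecl l).1 ha
    · exact algebraicIndependent_unique_type_iff.2 fun h => h₃.2 (mem_Ecl_of_isAlgebraic h)
  rw [IntermediateField.linearDisjoint_iff', Subalgebra.linearDisjoint_iff_injective] at hLD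
  exact H2.web_aux hl hL (isCurve_Ecl h₁) (isCurve_Ecl h₂) (isCurve_Ecl h₃.1) (Ecl l x₁).val
    (Ecl l x₂).val (Ecl l x₃).val hLD P₁ P₂ P₃ g Bad hB i₁ i₂ i₃ S H

end Vale.Agent.P019
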