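import Vale.Agent.P019.CORR
import Vale.Agent.P019.WEB
import Vale.Agent.P019.AFF2
import Vale.Agent.P019.ZAR

/-! P019: the isomorphism of constant fields. -/

open Filter

set_option linter.unusedSectionVars false

namespace Vale.Agent.P019

variable {ℓ : ℕ} [Fact ℓ.Prime] {k K l L : Type*} [Field k] [Field K] [Algebra k K] [IsAlgClosed k]
  [Field l] [Field L] [Algebra l L] [IsAlgClosed l] {Θ : V ℓ K ≃ₗ[ZMod ℓ] V ℓ L}

/-- hypothesis `H` of `web` from `IsParam.exists_generic` and `Compat.exists_flat` -/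
theorem web_of_law (h : Compat Θ) (hG : GeoMatch k l Θ) (hk : (ℓ : k) ≠ 0) (hl : (ℓ : l) ≠ 0)
    {d : ℕ} (hK : IsFF k K (d + 2)) (hL : IsFF l L (d + 2)) {x₁ x₂ x₃ : K} {y₁ y₂ y₃ : L}
    (p₁ : Partner k l Θ x₁ y₁) (p₂ : Partner k l Θ x₂ y₂) (p₃ : Partner k l Θ x₃ y₃)
    (h₁₃ : AlgebraicIndependent k ![x₁, x₃]) {P₁ : k → Place l (Ecl l y₁)}
    {P₂ : k → Place l (Ecl l y₂)} {P₃ : k → Place l (Ecl l y₃)} (q₁ : IsParam Θ x₁ P₁)
    (q₂ : IsParam Θ x₂ P₂) (q₃ : IsParam Θ x₃ P₃) (g : k → k ≃ k)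
    (law : ∀ (v : ValuationSubring K) (u r : k), Triv k v → r ≠ 0 →
      v.valuation (x₁ - algebraMap k K u) < 1 → v.valuation (x₃ - algebraMap k K r) < 1 →
      v.valuation (x₂ - algebraMap k K (g r u)) < 1) :
    (∀ᶠ r in cofinite, (∀ e₂, ∃ e₁ j, GRel P₁ (fun u => P₂ (g r u)) e₁ e₂ j) ∧
      (∀ e₁, ∃ e₂ j, GRel (fun u => P₂ (g r u)) P₁ e₂ e₁ j) ∧
      ∀ᶠ u in cofinite, ∀ e₁ e₂ j, GRel P₁ (fun u => P₂ (g r u)) e₁ e₂ j →
        (e₂ ∈ (P₂ (g r u)).O ↔ e₁ ∈ (P₁ u).O)) ∧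
    ∀ᶠ u in cofinite, ∀ᶠ r in cofinite, ∀ e₁ e₂ j, GRel P₁ (fun u => P₂ (g r u)) e₁ e₂ j →
      (e₂ ∈ (P₂ (g r u)).O ↔ e₁ ∈ (P₁ u).O) := by
  classical
  have := hK.fg
  have := hL.fg
  obtain ⟨B₁, hB₁, i₁⟩ := (q₁.cofBij p₁).1
  obtain ⟨B₂, hB₂, i₂⟩ := (q₂.cofBij p₂).1
  obtain ⟨B₃, hB₃, i₃⟩ := (q₃.cofBij p₃).1
  have hB : (B₁ ∪ B₂ ∪ B₃ ∪ {0}).Finite := ((hB₁.union hB₂).union hB₃).union (Set.finite_singleton 0)
  obtain ⟨S₁, hS₁⟩ := q₁.exists_generic hG hk hl p₁ hB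
  obtain ⟨S₂, hS₂⟩ := q₂.exists_generic hG hk hl p₂ hB
  obtain ⟨S₃, hS₃⟩ := q₃.exists_generic hG hk hl p₃ hB
  refine web hl hL p₂.2.1 (p₁.pair hk p₃ h₁₃) P₁ P₂ P₃ g _ hB
    (i₁.mono fun u hu h => hu (Or.inl (Or.inl (Or.inl h))))
    (i₂.mono fun u hu h => hu (Or.inl (Or.inl (Or.inr h))))
    (i₃.mono fun u hu h => hu (Or.inl (Or.inr h))) (S₁ ∪ S₂ ∪ S₃) fun w hw hS => ?_
  obtain ⟨v, hv⟩ := h.exists_flat (cl_neg_one k) (cl_neg_one l) (hw.condN hl)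
  have ht := triv_of_flat hG hk hl hw hv
  obtain ⟨u, hu, a₁, b₁⟩ := hS₁ w v hw (fun s hs => hS s (by simp [hs])) hv
  obtain ⟨u₂, hu₂, a₂, b₂⟩ := hS₂ w v hw (fun s hs => hS s (by simp [hs])) hv
  obtain ⟨r, hr, a₃, b₃⟩ := hS₃ w v hw (fun s hs => hS s (by simp [hs])) hv
  obtain rfl : u₂ = g r u := val_unique ht a₂ (law v u r ht (fun e => hr (Or.inr e)) a₁ a₃)
  exact ⟨u, hu, r, hr, hu₂, b₁, b₃, b₂⟩

namespace BETAAux

theorem web_add (h : Compat Θ) (hG : GeoMatch k l Θ) (hk : (ℓ : k) ≠ 0) (hl : (ℓ : l) ≠ 0)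
    {d : ℕ} (hK : IsFF k K (d + 2)) (hL : IsFF l L (d + 2)) {x y : K} {x' y' : L}
    (p₁ : Partner k l Θ x x') (p₂ : Partner k l Θ y y') (hxy : AlgebraicIndependent k ![x, y])
    (hg : IsGood k (y - x)) {P₁ : k → Place l (Ecl l x')} {P₂ : k → Place l (Ecl l y')}
    (q₁ : IsParam Θ x P₁) (q₂ : IsParam Θ y P₂) :
    (∀ᶠ r in cofinite, (∀ e₂, ∃ e₁ j, GRel P₁ (fun u => P₂ (u + r)) e₁ e₂ j) ∧
      (∀ e₁, ∃ e₂ j, GRel (fun u => P₂ (u + r)) P₁ e₂ e₁ j) ∧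
      ∀ᶠ u in cofinite, ∀ e₁ e₂ j, GRel P₁ (fun u => P₂ (u + r)) e₁ e₂ j →
        (e₂ ∈ (P₂ (u + r)).O ↔ e₁ ∈ (P₁ u).O)) ∧
    ∀ᶠ u in cofinite, ∀ᶠ r in cofinite, ∀ e₁ e₂ j, GRel P₁ (fun u => P₂ (u + r)) e₁ e₂ j →
      (e₂ ∈ (P₂ (u + r)).O ↔ e₁ ∈ (P₁ u).O) := by
  obtain ⟨w', p₃⟩ := hG.1 _ hg.1
  obtain ⟨P₃, q₃⟩ := exists_isParam h hG hk hl hK hL p₃ hg
  have h₁₃ : AlgebraicIndependent k ![x, y - x] :=
    pair_iff.2 ⟨p₁.1, fun hm => (pair_iff.1 hxy).2 (by simpa using add_mem hm (self_mem_Ecl x))⟩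
  exact web_of_law h hG hk hl hK hL p₁ p₂ p₃ h₁₃ q₁ q₂ q₃ (fun r => Equiv.addRight r)
    fun v u r _ _ a₁ a₃ => by
      have e : y - algebraMap k K (Equiv.addRight r u) =
          x - algebraMap k K u + (y - x - algebraMap k K r) := by
        rw [Equiv.coe_addRight, map_add]
        ring
      rw [e]
      exact v.valuation.map_add_lt a₁ a₃

theorem web_mul (h : Compat Θ) (hG : GeoMatch k l Θ) (hk : (ℓ : k) ≠ 0) (hl : (ℓ : l) ≠ 0)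
    {d : ℕ} (hK : IsFF k K (d + 2)) (hL : IsFF l L (d + 2)) {x y : K} {x' y' : L}
    (p₁ : Partner k l Θ x x') (p₂ : Partner k l Θ y y') (hxy : AlgebraicIndependent k ![x, y])
    (hg : IsGood k (y / x)) {P₁ : k → Place l (Ecl l x')} {P₂ : k → Place l (Ecl l y')}
    (q₁ : IsParam Θ x P₁) (q₂ : IsParam Θ y P₂) :
    ∀ᶠ r in cofinite, (∀ e₂, ∃ e₁ j, GRel P₁ (fun u => P₂ (u * r)) e₁ e₂ j) ∧
      ∀ e₁, ∃ e₂ j, GRel (fun u => P₂ (u * r)) P₁ e₂ e₁ j := by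
  classical
  obtain ⟨w', p₃⟩ := hG.1 _ hg.1
  obtain ⟨P₃, q₃⟩ := exists_isParam h hG hk hl hK hL p₃ hg
  have hx : x ≠ 0 := fun e => p₁.1 (e ▸ isAlgebraic_zero)
  have h₁₃ : AlgebraicIndependent k ![x, y / x] :=
    pair_iff.2 ⟨p₁.1, fun hm => (pair_iff.1 hxy).2 (by
      simpa [hx] using mul_mem hm (self_mem_Ecl x))⟩
  obtain ⟨g, hg⟩ : ∃ g : k → k ≃ k, ∀ r, r ≠ 0 → ∀ u, g r u = u * r :=
    ⟨fun r => if hr : r = 0 then Equiv.refl k else Equiv.mulRight₀ r hr, fun r hr u => by simp [hr]⟩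
  have key := (web_of_law h hG hk hl hK hL p₁ p₂ p₃ h₁₃ q₁ q₂ q₃ g fun v u r ht hr a₁ a₃ => by
    have e : y - algebraMap k K (g r u) =
        (x - algebraMap k K u) * (y / x) + algebraMap k K u * (y / x - algebraMap k K r) := by
      rw [hg r hr, map_mul]
      field_simp
      ring
    have b₁ : v.valuation (y / x) ≤ 1 := by
      rw [v.valuation_le_one_iff]
      simpa using v.add_mem _ _ ((v.valuation_le_one_iff _).1 a₃.le) (ht r)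
    have b₂ : v.valuation (algebraMap k K u) ≤ 1 := (v.valuation_le_one_iff _).2 (ht u)
    rw [e]
    refine v.valuation.map_add_lt ?_ ?_
    · rw [map_mul]
      exact (mul_le_of_le_one_right' b₁).trans_lt a₁
    · rw [map_mul]
      exact (mul_le_of_le_one_left' b₂).trans_lt a₃).1
  filter_upwards [key, eventually_cofinite_ne 0] with r h1 h2
  simp only [hg r h2] at h1
  exact ⟨h1.1, h1.2.1⟩

section

variable {C C' : Type*} [Field C] [Field C'] [Algebra l C] [Algebra l C']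

theorem stable {P : k → Place l C} {Q Q' : k → Place l C'} {m : k → k} (hm : Function.Injective m)
    (hQ : ∀ u, Q (m u) = Q' u) (hA : ∀ e₂, ∃ e₁ j, GRel P Q' e₁ e₂ j)
    (hB : ∀ e₁, ∃ e₂ j, GRel Q P e₂ e₁ j) (e : C) : ∃ e' j, GRel P (fun u => P (m u)) e' e j := by
  obtain ⟨e₂, j₂, h₂⟩ := hB e
  obtain ⟨e₁, j₁, h₁⟩ := hA e₂
  refine ⟨e₁, j₂ + j₁, ?_⟩
  filter_upwards [h₁, hm.tendsto_cofinite.eventually h₂] with u a b
  rw [a, ← hQ, b, ← pow_mul, pow_add]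

theorem tendsto_of_cofBij {P : k → Place l C} (hP : CofBij P) : Tendsto P cofinite cofinite := by
  obtain ⟨S, hS, hi⟩ := hP.1
  refine Tendsto.cofinite_of_finite_preimage_singleton fun z => ?_
  refine (hS.union (Set.Subsingleton.finite (s := Sᶜ ∩ P ⁻¹' {z}) ?_)).subset ?_
  · exact fun a ha b hb => hi ha.1 hb.1 (ha.2.trans hb.2.symm)
  · intro u hu
    by_cases h : u ∈ S
    · exact Or.inl h
    · exact Or.inr ⟨h, hu⟩

theorem ev_pow (hC : IsCurve l C) (z : Place l C) {e : C} (he : e ∈ z.O) (n : ℕ) :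
    ev l z.O (e ^ n) = ev l z.O e ^ n := by
  induction n with
  | zero => simpa using z.ev_algebraMap 1
  | succ n ih => rw [pow_succ, z.ev_mul hC (pow_mem he n) he, ih, pow_succ]

theorem pow_mem_iff (z : Place l C) (e : C) (j : ℕ) : e ^ ringExpChar l ^ j ∈ z.O ↔ e ∈ z.O := by
  rw [← z.O.valuation_le_one_iff, ← z.O.valuation_le_one_iff, map_pow]
  exact pow_le_one_iff (expChar_pow_pos l (ringExpChar l) j).ne'

end

end BETAAux

open BETAAux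

/-- translations of the parameter preserve the germs: `t = r - r'` with `r`, `r'` generic for the
web `(x, y, y - x)` -/
theorem translation_stable (h : Compat Θ) (hG : GeoMatch k l Θ) (hk : (ℓ : k) ≠ 0)
    (hl : (ℓ : l) ≠ 0) {d : ℕ} (hK : IsFF k K (d + 2)) (hL : IsFF l L (d + 2)) {x : K} {x' : L}
    (p : Partner k l Θ x x') {P : k → Place l (Ecl l x')} (q : IsParam Θ x P) (t : k)
    (e : Ecl l x') : ∃ e' j, GRel P (fun u => P (u + t)) e' e j := by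
  obtain ⟨y, hxy, g₁, g₂, -⟩ := exists_good_web hK p.1
  obtain ⟨y', p₂⟩ := hG.1 _ g₁.1
  obtain ⟨P₂, q₂⟩ := exists_isParam h hG hk hl hK hL p₂ g₁
  have W := (web_add h hG hk hl hK hL p p₂ hxy g₂ q q₂).1
  obtain ⟨r, h1, h2⟩ := (W.and ((add_right_injective t).tendsto_cofinite.eventually W)).exists
  exact stable (Q := fun u => P₂ (u + r)) (add_left_injective t) (fun u => by rw [add_assoc])
    h2.1 h1.2.1 e

/-- Use `exists_good_web` and `exists_coordinate`. Uniformity: fix generic `r₁` and `u₀`; for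
almost all `t`, use the uniform clause at `(u₀ + t, r₁)` for `(e ^ p ^ j₂, e₂, 0)` and at
`(u₀, t + r₁)` for `(e' ^ p ^ j₂, e₂, j)`, where `e₂` is attached to `e` at `r₁`. -/
theorem exists_coordinate_of_param (h : Compat Θ) (hG : GeoMatch k l Θ) (hk : (ℓ : k) ≠ 0)
    (hl : (ℓ : l) ≠ 0) {d : ℕ} (hK : IsFF k K (d + 2)) (hL : IsFF l L (d + 2)) {x : K} {x' : L}
    (p : Partner k l Θ x x') {P : k → Place l (Ecl l x')} (q : IsParam Θ x P) :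
    ∃ (β : k ≃+* l) (s : Ecl l x'), ∀ᶠ u in cofinite, ev l (P u).O s = β u := by
  have := hK.fg
  have := hL.fg
  have hC := isCurve_Ecl p.2.1
  have hP := q.cofBij p
  obtain ⟨y, hxy, g₁, g₂, g₃⟩ := exists_good_web hK p.1
  obtain ⟨y', p₂⟩ := hG.1 _ g₁.1
  obtain ⟨P₂, q₂⟩ := exists_isParam h hG hk hl hK hL p₂ g₁
  refine exists_coordinate hC hP (translation_stable h hG hk hl hK hL p q) (fun c hc e => ?_) ?_
  · have W := web_mul h hG hk hl hK hL p p₂ hxy g₃ q q₂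
    obtain ⟨r, h1, h2⟩ := (W.and ((mul_right_injective₀ hc).tendsto_cofinite.eventually W)).exists
    exact stable (Q := fun u => P₂ (u * r)) (mul_right_injective₀ hc)
      (fun u => by rw [mul_comm c u, mul_assoc]) h2.1 h1.2 e
  obtain ⟨W₁, W₂⟩ := web_add h hG hk hl hK hL p p₂ hxy g₂ q q₂
  obtain ⟨r, -, hB, hU₁⟩ := W₁.exists
  obtain ⟨u₀, hU₂⟩ := W₂.exists
  refine ⟨u₀, ?_⟩
  filter_upwards [(add_right_injective u₀).tendsto_cofinite.eventually hU₁,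
    (add_left_injective r).tendsto_cofinite.eventually hU₂] with t a₁ a₂ e e' j hr
  obtain ⟨e₂, j₂, h₂⟩ := hB e
  have b₁ := a₁ (e ^ ringExpChar l ^ j₂) e₂ 0 (by
    filter_upwards [h₂, (tendsto_of_cofBij hP).eventually (eventually_mem hC e)] with u c₁ c₂
    rw [ev_pow hC _ c₂, pow_zero, pow_one, c₁])
  have b₂ := a₂ (e' ^ ringExpChar l ^ j₂) e₂ j (by
    filter_upwards [hr, (add_left_injective t).tendsto_cofinite.eventually h₂,
      (tendsto_of_cofBij hP).eventually (eventually_mem hC e')] with u c₁ c₂ c₃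
    rw [ev_pow hC _ c₃, c₁, ← add_assoc, c₂, ← pow_mul, ← pow_mul, mul_comm])
  rw [pow_mem_iff] at b₁ b₂
  rw [← b₁, ← b₂, add_assoc]

/-- Fix a good `x₀` with coordinate `β`. For good `z` take `y` from `exists_good_link`; the webs
`(x₀, y, y - x₀)` and `(z, y, y - z)` with a common generic `r` transport `s` to `Ecl l z'`. -/
theorem exists_beta (h : Compat Θ) (hG : GeoMatch k l Θ) (hk : (ℓ : k) ≠ 0)
    (hl : (ℓ : l) ≠ 0) {d : ℕ} (hK : IsFF k K (d + 2)) (hL : IsFF l L (d + 2)) :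
    ∃ β : k ≃+* l, ∀ z : K, IsGood k z → ∃ (y : L) (j : ℕ), Graph Θ β z y j := by
  have := hK.fg
  have := hL.fg
  obtain ⟨x, -, gx, -⟩ := exists_good_add hK 0
  obtain ⟨x', px⟩ := hG.1 _ gx.1
  obtain ⟨Px, qx⟩ := exists_isParam h hG hk hl hK hL px gx
  obtain ⟨β, s, hs⟩ := exists_coordinate_of_param h hG hk hl hK hL px qx
  refine ⟨β, fun z gz => ?_⟩
  obtain ⟨z', pz⟩ := hG.1 _ gz.1
  obtain ⟨Pz, qz⟩ := exists_isParam h hG hk hl hK hL pz gz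
  obtain ⟨y, hxy, hzy, gy, g₁, g₂⟩ := exists_good_link hK gx.1 gz.1
  obtain ⟨y', py⟩ := hG.1 _ gy.1
  obtain ⟨Py, qy⟩ := exists_isParam h hG hk hl hK hL py gy
  obtain ⟨r, h1, h2⟩ := ((web_add h hG hk hl hK hL px py hxy g₁ qx qy).1.and
    (web_add h hG hk hl hK hL pz py hzy g₂ qz qy).1).exists
  obtain ⟨e₂, j₂, h₂⟩ := h1.2.1 s
  obtain ⟨e₁, j₁, h₁⟩ := h2.1 e₂
  have hC := isCurve_Ecl pz.2.1
  have hev : ∀ᶠ u in cofinite, e₁ ∈ (Pz u).O ∧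
      ev l (Pz u).O e₁ = β u ^ ringExpChar l ^ (j₂ + j₁) := by
    filter_upwards [h₁, h₂, hs, (tendsto_of_cofBij (qz.cofBij pz)).eventually
      (eventually_mem hC e₁)] with u c₁ c₂ c₃ c₄
    exact ⟨c₄, by rw [c₁, c₂, c₃, ← pow_mul, pow_add]⟩
  obtain ⟨S, hS⟩ := qz.exists_generic hG hk hl pz (eventually_cofinite.1 hev)
  refine ⟨e₁, j₂ + j₁, S, fun w v hw hg hv => ?_⟩
  obtain ⟨u, hu, a₁, a₂⟩ := hS w v hw hg hv
  obtain ⟨b₁, b₂⟩ := not_not.1 hu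
  refine ⟨u, a₁, ?_⟩
  have b₃ := (Pz u).val_sub_ev hC b₁
  rw [b₂, ← a₂, comap_val_lt_one] at b₃
  exact b₃

end Vale.Agent.P019
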