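import Vale.Agent.P019.ValH
import Vale.Agent.P019.ValExt

/-! P019: composite valuation rings. -/

open IsLocalRing

namespace Vale.Agent.P019

variable {ℓ : ℕ} [Fact ℓ.Prime] {F : Type*} [Field F] {O : ValuationSubring F}
  {P : ValuationSubring (ResidueField O)}

theorem comp_le : comp O P ≤ O := fun _ h => h.1

theorem exists_comp {O' : ValuationSubring F} (h : O' ≤ O) : ∃ P, comp O P = O' := by
  refine ⟨{ carrier := {r | ∃ x ∈ O', res O x = r}
            mul_mem' := ?_, one_mem' := ⟨1, O'.one_mem, res_one⟩, add_mem' := ?_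
            zero_mem' := ⟨0, O'.zero_mem, res_zero⟩, neg_mem' := ?_, mem_or_inv_mem' := ?_ }, ?_⟩
  · rintro _ _ ⟨x, hx, rfl⟩ ⟨y, hy, rfl⟩
    exact ⟨x * y, O'.mul_mem _ _ hx hy, res_mul (h hx) (h hy)⟩
  · rintro _ _ ⟨x, hx, rfl⟩ ⟨y, hy, rfl⟩
    exact ⟨x + y, O'.add_mem _ _ hx hy, res_add (h hx) (h hy)⟩
  · rintro _ ⟨x, hx, rfl⟩
    exact ⟨-x, O'.neg_mem _ hx, res_neg (h hx)⟩
  · intro r
    obtain ⟨x, -, rfl⟩ := res_surj r
    by_cases h0 : res O x = 0
    · exact Or.inl ⟨0, O'.zero_mem, by rw [h0, res_zero]⟩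
    · rcases O'.mem_or_inv_mem x with hx | hx
      · exact Or.inl ⟨x, hx, rfl⟩
      · exact Or.inr ⟨x⁻¹, hx, res_inv (val_eq_one_of_res h0)⟩
  · ext x
    refine ⟨?_, fun hx => ⟨h hx, x, hx, rfl⟩⟩
    rintro ⟨hx, y, hy, e⟩
    have h1 := val_lt_one_of_le h ((res_eq_iff hx (h hy)).1 e.symm)
    simpa using O'.add_mem _ _ ((O'.valuation_le_one_iff _).1 h1.le) hy

theorem comp_eq_iff : comp O P = O ↔ P = ⊤ := by
  constructor
  · intro h
    refine top_unique fun r _ => ?_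
    obtain ⟨x, hx, rfl⟩ := res_surj r
    exact (mem_comp.1 (h.ge hx)).2
  · rintro rfl
    exact le_antisymm comp_le fun x hx => ⟨hx, trivial⟩

theorem comp_val_lt_one {x : F} :
    (comp O P).valuation x < 1 ↔ x ∈ O ∧ P.valuation (res O x) < 1 := by
  by_cases h0 : x = 0
  · simp [h0]
  rw [val_lt_one_iff_inv h0, mem_comp]
  rcases lt_trichotomy (O.valuation x) 1 with h | h | h
  · have hx := (O.valuation_le_one_iff x).1 h.le
    have h1 := (val_lt_one_iff_inv h0).1 h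
    simp [hx, h1, (res_eq_zero_iff hx).2 h]
  · obtain ⟨h1, h2⟩ := (val_eq_one_iff_mem h0).1 h
    rw [val_lt_one_iff_inv (res_ne_zero h), res_inv h]
    simp [h1, h2]
  · have hi : O.valuation x⁻¹ < 1 := by rw [map_inv₀]; exact inv_lt_one_of_one_lt₀ h
    have hx := (O.valuation_le_one_iff _).1 hi.le
    have h1 : x ∉ O := fun h1 => h.not_ge ((O.valuation_le_one_iff _).2 h1)
    simp [hx, h1, (res_eq_zero_iff hx).2 hi]

theorem comp_val_eq_one {x : F} :
    (comp O P).valuation x = 1 ↔ O.valuation x = 1 ∧ P.valuation (res O x) = 1 := by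
  by_cases h : O.valuation x = 1
  · have h0 : x ≠ 0 := by rintro rfl; simp at h
    obtain ⟨h1, h2⟩ := (val_eq_one_iff_mem h0).1 h
    rw [val_eq_one_iff_mem h0, val_eq_one_iff_mem (res_ne_zero h), mem_comp, mem_comp, res_inv h]
    simp [h, h1, h2]
  · exact ⟨fun h1 => absurd (val_eq_one_of_le comp_le h1) h, fun h1 => absurd h1.1 h⟩

theorem cl_mem_HO_comp {x : F} (hx : O.valuation x = 1) :
    cl ℓ x ∈ HO ℓ (comp O P) ↔ cl ℓ (res O x) ∈ HO ℓ P := by
  have hl : ℓ ≠ 0 := (Fact.out : ℓ.Prime).ne_zero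
  have h0 : x ≠ 0 := by rintro rfl; simp at hx
  have key : ∀ y : F, O.valuation y = 1 →
      ((comp O P).valuation x = (comp O P).valuation y ^ ℓ ↔
        P.valuation (res O x) = P.valuation (res O y) ^ ℓ) := by
    intro y hy
    have hy0 : y ≠ 0 := by rintro rfl; simp at hy
    have hi : O.valuation (y ^ ℓ)⁻¹ = 1 := by rw [map_inv₀, map_pow, hy, one_pow, inv_one]
    have h1 : O.valuation (x * (y ^ ℓ)⁻¹) = 1 := by rw [map_mul, hx, hi, mul_one]
    have h2 := comp_val_eq_one (P := P) (x := x * (y ^ ℓ)⁻¹)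
    rw [res_mul (mem_of_val_eq_one hx) (mem_of_val_eq_one hi),
      res_inv (by rw [map_pow, hy, one_pow]), res_pow (mem_of_val_eq_one hy), and_iff_right h1,
      map_mul, map_mul, map_inv₀, map_inv₀, map_pow, map_pow,
      mul_inv_eq_one₀ (pow_ne_zero _ ((Valuation.ne_zero_iff _).2 hy0)),
      mul_inv_eq_one₀ (pow_ne_zero _ ((Valuation.ne_zero_iff _).2 (res_ne_zero hy)))] at h2
    exact h2
  rw [cl_mem_HO_iff h0, cl_mem_HO_iff (res_ne_zero hx)]
  constructor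
  · rintro ⟨y, hy0, hy⟩
    have h1 : (comp O P).valuation (x * (y ^ ℓ)⁻¹) = 1 := by
      rw [map_mul, map_inv₀, map_pow, hy,
        mul_inv_cancel₀ (pow_ne_zero _ ((Valuation.ne_zero_iff _).2 hy0))]
    have h2 := val_eq_one_of_le comp_le h1
    rw [map_mul, hx, one_mul, map_inv₀, inv_eq_one, map_pow, pow_eq_one_iff_left hl] at h2
    exact ⟨res O y, res_ne_zero h2, (key y h2).1 hy⟩
  · rintro ⟨r, hr0, hr⟩
    obtain ⟨y, -, rfl⟩ := res_surj r
    have h2 := val_eq_one_of_res hr0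
    exact ⟨y, by rintro rfl; simp at h2, (key y h2).2 hr⟩

theorem HO_comp_le_ker {ψ : Module.Dual (ZMod ℓ) (V ℓ F)}
    {φ : Module.Dual (ZMod ℓ) (V ℓ (ResidueField O))}
    (h : ∀ x : F, O.valuation x = 1 → ψ (cl ℓ x) = φ (cl ℓ (res O x))) :
    HO ℓ (comp O P) ≤ LinearMap.ker ψ ↔ HO ℓ P ≤ LinearMap.ker φ := by
  constructor
  · intro H v hv
    obtain ⟨r, hr, rfl⟩ := mem_HO_iff_exists.1 hv
    obtain ⟨x, -, rfl⟩ := res_surj r
    have hx := val_eq_one_of_res (O := O) (x := x) (by intro h0; simp [h0] at hr)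
    rw [LinearMap.mem_ker, ← h x hx]
    exact H (cl_mem_HO (comp_val_eq_one.2 ⟨hx, hr⟩))
  · intro H v hv
    obtain ⟨x, hx, rfl⟩ := mem_HO_iff_exists.1 hv
    obtain ⟨h1, h2⟩ := comp_val_eq_one.1 hx
    rw [LinearMap.mem_ker, h x h1]
    exact H (cl_mem_HO h2)

end Vale.Agent.P019
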