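import Vale.Agent.P019.APX
import Vale.Agent.P019.AC
import Vale.Agent.P019.ValComp

/-! P019: matched valuations and transfer to residue fields. -/

open IsLocalRing

namespace Vale.Agent.P019

variable {ℓ : ℕ} [Fact ℓ.Prime] {K L : Type*} [Field K] [Field L] {Θ : V ℓ K ≃ₗ[ZMod ℓ] V ℓ L}

namespace TRAux

theorem map_symm_eq {A : Submodule (ZMod ℓ) (V ℓ K)} {B : Submodule (ZMod ℓ) (V ℓ L)}
    (h : A.map Θ.toLinearMap = B) : B.map Θ.symm.toLinearMap = A := by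
  subst h
  ext a
  simp only [Submodule.mem_map, LinearEquiv.coe_coe]
  constructor
  · rintro ⟨_, ⟨b, hb, rfl⟩, rfl⟩
    rwa [LinearEquiv.symm_apply_apply]
  · intro ha
    exact ⟨Θ a, ⟨a, ha, rfl⟩, Θ.symm_apply_apply a⟩

theorem le_map_of_symm {A : Submodule (ZMod ℓ) (V ℓ K)} {B : Submodule (ZMod ℓ) (V ℓ L)}
    (h : B.map Θ.symm.toLinearMap ≤ A) : B ≤ A.map Θ.toLinearMap := fun b hb =>
  ⟨Θ.symm b, h ⟨b, hb, rfl⟩, Θ.apply_symm_apply b⟩

omit [Fact ℓ.Prime] in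
theorem res_natCast (w : ValuationSubring L) (n : ℕ) : res w (n : L) = (n : ResidueField w) := by
  have h : (n : L) = ((n : w) : L) := by simp
  rw [h, res_coe, map_natCast]

omit [Fact ℓ.Prime] in
theorem val_eq_one_of_sub {w : ValuationSubring L} {u : L} (h : w.valuation (u - 1) < 1) :
    w.valuation u = 1 := by
  have h1 : w.valuation (u - 1) < w.valuation (1 : L) := by rwa [map_one]
  have h2 := Valuation.map_add_eq_of_lt_right w.valuation h1
  rwa [sub_add_cancel, map_one] at h2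

theorem exists_unit {w : ValuationSubring L} {φ : Module.Dual (ZMod ℓ) (V ℓ (ResidueField w))}
    {ψ : Module.Dual (ZMod ℓ) (V ℓ L)} (hφ : φ ≠ 0)
    (hψ : ∀ x : L, w.valuation x = 1 → ψ (cl ℓ x) = φ (cl ℓ (res w x))) :
    ∃ t : L, w.valuation t = 1 ∧ ψ (cl ℓ t) ≠ 0 := by
  by_contra hn
  push Not at hn
  refine hφ (LinearMap.ext fun a => ?_)
  obtain ⟨r, hr, rfl⟩ := cl_surj a
  obtain ⟨x, -, rfl⟩ := res_surj r
  have hx := val_eq_one_of_res hr
  rw [← hψ x hx, hn x hx, LinearMap.zero_apply]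

theorem indepMod_cons {H H' : Submodule (ZMod ℓ) (V ℓ L)} (hle : H' ≤ H) {n : ℕ}
    {π : Fin n → L} (hπ : IndepMod H fun i => cl ℓ (π i)) {ψ : Module.Dual (ZMod ℓ) (V ℓ L)}
    (hψ : H' ≤ LinearMap.ker ψ) {t : L} (ht : cl ℓ t ∈ H) (htψ : ψ (cl ℓ t) ≠ 0) :
    IndepMod H' fun i => cl ℓ ((Fin.cons t π : Fin (n + 1) → L) i) := by
  intro c hc
  rw [Fin.sum_univ_succ] at hc
  simp only [Fin.cons_zero, Fin.cons_succ] at hc
  have h1 : ∑ i : Fin n, c i.succ • cl ℓ (π i) ∈ H :=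
    (Submodule.add_mem_iff_right _ (Submodule.smul_mem _ _ ht)).1 (hle hc)
  have h2 := hπ _ h1
  simp only [h2, zero_smul, Finset.sum_const_zero, add_zero] at hc
  have h3 := hψ hc
  rw [LinearMap.mem_ker, map_smul, smul_eq_mul] at h3
  intro i
  refine Fin.cases ?_ (fun j => h2 j) i
  exact (mul_eq_zero.1 h3).resolve_right htψ

theorem mem_of_map_eq {A : Submodule (ZMod ℓ) (V ℓ K)} {B : Submodule (ZMod ℓ) (V ℓ L)}
    (h : A.map Θ.toLinearMap = B) {a : V ℓ K} (ha : a ∈ A) : Θ a ∈ B := by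
  rw [← h]
  exact ⟨a, ha, rfl⟩

theorem exists_of_map_eq {A : Submodule (ZMod ℓ) (V ℓ K)} {B : Submodule (ZMod ℓ) (V ℓ L)}
    (h : A.map Θ.toLinearMap = B) {b : V ℓ L} (hb : b ∈ B) : ∃ a ∈ A, Θ a = b := by
  rw [← h] at hb
  exact hb

end TRAux

open TRAux

theorem Matched.symm {v : ValuationSubring K} {w : ValuationSubring L} (h : Matched Θ v w) :
    Matched Θ.symm w v := ⟨map_symm_eq h.1, map_symm_eq h.2⟩

theorem Matched.exists_resIso {v : ValuationSubring K} {w : ValuationSubring L}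
    (h : Matched Θ v w) : ∃ θ, ResIso Θ v w θ ∧ ResIso Θ.symm w v θ.symm := by
  obtain ⟨ρ, hs, hk, hc⟩ := exists_resV (ℓ := ℓ) v
  obtain ⟨ρ', hs', hk', hc'⟩ := exists_resV (ℓ := ℓ) w
  let e : HO ℓ v ≃ₗ[ZMod ℓ] HO ℓ w := Θ.ofSubmodules (HO ℓ v) (HO ℓ w) h.2
  have he : ∀ a : HO ℓ v, (e a : V ℓ L) = Θ a := fun a => rfl
  have hT : ∀ a : V ℓ K, Θ a ∈ TO ℓ w ↔ a ∈ TO ℓ v := by
    intro a
    rw [← h.1]
    constructor
    · rintro ⟨b, hb, hab⟩
      rwa [← Θ.injective hab]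
    · intro ha
      exact ⟨a, ha, rfl⟩
  have hker : (LinearMap.ker ρ).map e.toLinearMap = LinearMap.ker ρ' := by
    ext b
    simp only [Submodule.mem_map, LinearMap.mem_ker, LinearEquiv.coe_coe]
    constructor
    · rintro ⟨a, ha, rfl⟩
      rw [hk', he, hT, ← hk]
      exact ha
    · intro hb
      refine ⟨e.symm b, ?_, e.apply_symm_apply b⟩
      rw [hk, ← hT, ← he, e.apply_symm_apply, ← hk']
      exact hb
  let θ : V ℓ (ResidueField v) ≃ₗ[ZMod ℓ] V ℓ (ResidueField w) :=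
    ((ρ.quotKerEquivOfSurjective hs).symm.trans
      (Submodule.Quotient.equiv _ _ e hker)).trans (ρ'.quotKerEquivOfSurjective hs')
  have hθ : ∀ a : HO ℓ v, θ (ρ a) = ρ' (e a) := by
    intro a
    have h1 : (ρ.quotKerEquivOfSurjective hs).symm (ρ a) = Submodule.Quotient.mk a := by
      rw [LinearEquiv.symm_apply_eq]
      rfl
    simp only [θ, LinearEquiv.trans_apply, h1]
    rfl
  have key : ResIso Θ v w θ := by
    intro x y hx hy hxy
    rw [← hc x hx, hθ, ← hc' y hy]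
    congr 1
    exact Subtype.ext hxy
  refine ⟨θ, key, fun y x hy hx hxy => ?_⟩
  rw [LinearEquiv.symm_apply_eq] at hxy ⊢
  exact (key x y hx hy hxy.symm).symm

/-- Let `v` be flat for `w` and `w'` flat for `v` (in the other direction; (N) passes to `TO v`).
Then `TO w' ≤ TO w`, `HO w' ≤ HO w`. If `w`, `w'` were incomparable, `HO w ≤ TO w`
(`HO_le_sup_TO`); `w < w'` contradicts `MinPos`, `w' < w` contradicts `href`. So `w' = w`. -/
theorem exists_matched (h : Compat Θ) (hm : cl ℓ (-1 : K) = 0) (hm' : cl ℓ (-1 : L) = 0)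
    {w : ValuationSubring L} (hN : CondN (TO ℓ w)) (hHT : ¬ HO ℓ w ≤ TO ℓ w) (hmin : MinPos ℓ w)
    (href : ∀ O : ValuationSubring L, O < w → ¬ TO ℓ O ≤ TO ℓ w) : ∃ v, Matched Θ v w := by
  obtain ⟨v, hv⟩ := h.exists_flat hm hm' hN
  have hNv : CondN (TO ℓ v) :=
    (h.condN_comap hN).mono (Submodule.map_le_iff_le_comap.1 hv.1)
  obtain ⟨w', hw'⟩ := h.symm.exists_flat hm' hm hNv
  have h1 := le_map_of_symm hw'.1
  have h2 := le_map_of_symm hw'.2
  have hT : TO ℓ w' ≤ TO ℓ w := h1.trans hv.1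
  have hH : HO ℓ w' ≤ HO ℓ w := h2.trans hv.2
  have hww : w' = w := by
    by_contra hne
    by_cases ha : w ≤ w'
    · obtain ⟨π, -, hπ, hO⟩ := hmin
      exact hπ (hH (cl_mem_HO (hO w' (lt_of_le_of_ne ha (Ne.symm hne)))))
    · by_cases hb : w' ≤ w
      · exact href w' (lt_of_le_of_ne hb hne) hT
      · exact hHT ((HO_le_sup_TO ha hb).trans (sup_le le_rfl hT))
  subst hww
  exact ⟨v, le_antisymm hv.1 h1, le_antisymm hv.2 h2⟩

/-- a proper refinement gives a nontrivial valuation ring of the residue field, containing the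
constants (`triv_of_finAlg`); use `exists_principal_unit` -/
theorem not_TO_le_of_lt {l : Type*} [Field l] [Algebra l L] [IsAlgClosed l]
    {w : ValuationSubring L} (hℓ : w.valuation (ℓ : L) = 1) (hfin : FinAlg (resConst l w))
    (hfg : Algebra.EssFiniteType (resConst l w) (ResidueField w)) {O : ValuationSubring L}
    (hO : O < w) : ¬ TO ℓ O ≤ TO ℓ w := by
  intro hle
  obtain ⟨P, rfl⟩ := exists_comp hO.le
  have hP : P ≠ ⊤ := fun hP => hO.ne (comp_eq_iff.2 hP)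
  obtain ⟨r, hr, hr0⟩ := exists_principal_unit (ℓ := ℓ) (k := resConst l w)
    (natCast_resConst_ne_zero hℓ) hP (triv_of_finAlg hfin P)
  obtain ⟨x, hx, rfl⟩ := res_surj r
  have hx1 : w.valuation x = 1 := by
    refine val_eq_one_of_res fun h0 => hr0 ?_
    rw [h0, cl_zero]
  have hm : cl ℓ x ∈ TO ℓ (comp w P) := by
    refine cl_mem_TO (comp_val_lt_one.2 ⟨w.sub_mem hx w.one_mem, ?_⟩)
    rwa [res_sub hx w.one_mem, res_one]
  exact hr0 ((cl_mem_TO_iff_res hx1).1 (hle hm))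

/-- Given `P`, `φ` on the residue field of `w`: lift `φ` to `ψ` (`exists_lift_functional`), let
`O' = comp w P`, `t` a unit of `w` with `φ (cl (res t)) ≠ 0`. Then `π, t` are independent modulo
`HO O'`, so `ψ` is approximable and `ψ ∘ Θ` kills `HO O''` for some `O''`
(`Compat.exists_of_approx`). It kills `TO v` but not `HO v`, so `O'' < v` by `HO_le_sup_TO`;
write `O'' = comp v Q`. -/
theorem trProp_of_matched {k l : Type*} [Field k] [Field l] [Algebra k K] [Algebra l L]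
    [IsAlgClosed k] [IsAlgClosed l] (h : Compat Θ) (hl : (ℓ : l) ≠ 0) {d : ℕ}
    (hL : IsFF l L (d + 2)) {v : ValuationSubring K} {w : ValuationSubring L}
    (hvw : Matched Θ v w) {π : Fin (d + 1) → L} (h0 : ∀ i, π i ≠ 0)
    (hπ : IndepMod (HO ℓ w) fun i => cl ℓ (π i))
    {θ : V ℓ (ResidueField v) ≃ₗ[ZMod ℓ] V ℓ (ResidueField w)} (hθ : ResIso Θ v w θ) :
    TRProp θ := by
  intro P hP φ hφ hker
  obtain ⟨ψ, hψ⟩ := exists_lift_functional (O := w) φ
  have hO' : HO ℓ (comp w P) ≤ LinearMap.ker ψ := (HO_comp_le_ker hψ).2 hker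
  have hℓ : (comp w P).valuation (ℓ : L) = 1 := by
    refine comp_val_eq_one.2 ⟨val_eq_one_of_res ?_, ?_⟩
    · rw [res_natCast]
      intro hz
      rw [hz, map_zero] at hP
      exact zero_ne_one hP
    · rwa [res_natCast]
  obtain ⟨t, ht, htφ⟩ := exists_unit hφ hψ
  have ht0 : t ≠ 0 := by
    rintro rfl
    rw [map_zero] at ht
    exact zero_ne_one ht
  have h0' : ∀ i, (Fin.cons t π : Fin (d + 1 + 1) → L) i ≠ 0 := fun i =>
    Fin.cases (motive := fun i => (Fin.cons t π : Fin (d + 1 + 1) → L) i ≠ 0) ht0 h0 i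
  have hπ' := indepMod_cons (HO_mono (comp_le (P := P))) hπ hO' (cl_mem_HO ht) htφ
  obtain ⟨O, hO⟩ := h.exists_of_approx (cl_neg_one k) (cl_neg_one l)
    (approx_of_indepMod hl hL hℓ h0' hπ' hO')
  have hT : TO ℓ v ≤ LinearMap.ker (ψ ∘ₗ Θ.toLinearMap) := by
    intro a ha
    obtain ⟨u, hu, hua⟩ := mem_TO_iff_exists.1 (mem_of_map_eq hvw.1 ha)
    have hu1 := val_eq_one_of_sub hu
    rw [LinearMap.mem_ker, LinearMap.comp_apply, LinearEquiv.coe_coe, ← hua, hψ u hu1,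
      (cl_mem_TO_iff_res hu1).1 (cl_mem_TO hu), map_zero]
  have hH : ¬ HO ℓ v ≤ LinearMap.ker (ψ ∘ₗ Θ.toLinearMap) := by
    intro hle
    obtain ⟨a, ha, hat⟩ := exists_of_map_eq hvw.2 (cl_mem_HO ht)
    have h1 := hle ha
    rw [LinearMap.mem_ker, LinearMap.comp_apply, LinearEquiv.coe_coe, hat] at h1
    exact htφ h1
  have h1 : ¬ v ≤ O := fun hle => hH ((HO_mono hle).trans hO)
  have h2 : O ≤ v := by
    by_contra hn
    exact hH ((HO_le_sup_TO h1 hn).trans (sup_le hT (TO_le_HO.trans hO)))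
  obtain ⟨Q, rfl⟩ := exists_comp h2
  refine ⟨Q, fun hQ => h1 (comp_eq_iff.2 hQ).ge, (HO_comp_le_ker fun x hx => ?_).1 hO⟩
  obtain ⟨y, hy, hxy⟩ := mem_HO_iff_exists.1 (mem_of_map_eq hvw.2 (cl_mem_HO hx))
  rw [LinearMap.comp_apply, LinearMap.comp_apply, LinearEquiv.coe_coe, LinearEquiv.coe_coe,
    hθ x y hx hy hxy.symm, ← hxy, hψ y hy]

end Vale.Agent.P019
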