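import Vale.Agent.P019.Z0
import Vale.Agent.P019.Curve.JRank
import Vale.Agent.P019.Curve.Minima
import Vale.Agent.P019.Curve.RH
import Vale.Agent.P019.Curve.SepElt
import Vale.Agent.P019.Curve.Riemann

/-! P019, curves over the algebraic closure of a finite field: the number of visible points of
`t - b` is bounded in terms of five fibres and the rank of the unramified classes.
Riemann-Hurwitz inequality for the separable part of `t` (an invisible point of a fibre has
ramification index at least `2`), and `g ≤ r`. -/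

open IntermediateField Module

namespace Vale.Agent.P019

universe u

section aux

variable {κ C : Type*} [Field κ] [Field C] [Algebra κ C] [IsAlgClosed κ]

omit [IsAlgClosed κ] in
theorem transcendental_sub_const {s : C} (hs : Transcendental κ s) (b : κ) :
    Transcendental κ (s - algebraMap κ C b) := by
  intro h
  apply hs
  have := h.add (isAlgebraic_algebraMap b)
  simpa using this

omit [IsAlgClosed κ] in
theorem adjoin_sub_const (s : C) (b : κ) : κ⟮s - algebraMap κ C b⟯ = κ⟮s⟯ := by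
  apply le_antisymm
  · rw [adjoin_simple_le_iff]
    exact sub_mem (mem_adjoin_simple_self κ s) (IntermediateField.algebraMap_mem _ b)
  · rw [adjoin_simple_le_iff]
    have := add_mem (mem_adjoin_simple_self κ (s - algebraMap κ C b))
      (IntermediateField.algebraMap_mem κ⟮s - algebraMap κ C b⟯ b)
    simpa using this

omit [IsAlgClosed κ] in
theorem adjoin_inv_self (s : C) : κ⟮s⁻¹⟯ = κ⟮s⟯ := by
  apply le_antisymm
  · rw [adjoin_simple_le_iff]
    exact inv_mem (mem_adjoin_simple_self κ s)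
  · rw [adjoin_simple_le_iff]
    have := inv_mem (mem_adjoin_simple_self κ s⁻¹)
    simpa using this

theorem mem_vis_iff (h : IsCurve κ C) (ℓ : ℕ) {x : C} (hx : x ≠ 0) (z : Place κ C) :
    z ∈ vis ℓ κ x ↔ ¬ (ℓ : ℤ) ∣ ord z.O x := by
  rw [vis, Set.mem_setOf_eq, (place_isDVR h z).isOrd.cl_mem_HO_iff ℓ hx]

theorem vis_finite (h : IsCurve κ C) (ℓ : ℕ) {x : C} (hx : x ≠ 0) : (vis ℓ κ x).Finite := by
  refine (ord_support_finite h x).subset fun z hz => ?_
  rw [mem_vis_iff h ℓ hx] at hz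
  rw [Function.mem_support]
  intro h0
  exact hz (by rw [h0]; exact dvd_zero _)

theorem vis_ncard_le (h : IsCurve κ C) (ℓ : ℕ) {x : C} (hx : Transcendental κ x) :
    (vis ℓ κ x).ncard ≤ 2 * finrank κ⟮x⟯ C := by
  have hx0 : x ≠ 0 := by
    rintro rfl
    exact hx isAlgebraic_zero
  have hx' : Transcendental κ x⁻¹ := fun h' => hx (by simpa using h'.inv)
  have h1 := ncard_zeros_le h hx
  have h2 := ncard_zeros_le h hx'
  rw [adjoin_inv_self] at h2
  have hsub : vis ℓ κ x ⊆ {z : Place κ C | z.O.valuation x < 1} ∪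
      {z : Place κ C | z.O.valuation x⁻¹ < 1} := by
    intro z hz
    rw [mem_vis_iff h ℓ hx0] at hz
    have ho := (place_isDVR h z).isOrd
    have hne : ord z.O x ≠ 0 := fun h0 => hz (by rw [h0]; exact dvd_zero _)
    simp only [Set.mem_union, Set.mem_setOf_eq]
    rw [ho.val_lt_one_iff hx0, ho.val_lt_one_iff (inv_ne_zero hx0), ho.inv]
    omega
  have h3 := Set.ncard_le_ncard hsub ((finite_zeros h hx0).union (finite_zeros h (inv_ne_zero hx0)))
  have h4 := Set.ncard_union_le {z : Place κ C | z.O.valuation x < 1}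
    {z : Place κ C | z.O.valuation x⁻¹ < 1}
  omega

theorem two_mul_zeros_le (h : IsCurve κ C) (ℓ : ℕ) [hℓ : Fact ℓ.Prime] {x : C}
    (hx : Transcendental κ x) :
    2 * {z : Place κ C | z.O.valuation x < 1}.ncard ≤
      2 * (vis ℓ κ x).ncard + finrank κ⟮x⟯ C := by
  classical
  have hx0 : x ≠ 0 := by
    rintro rfl
    exact hx isAlgebraic_zero
  have hfin : ({z : Place κ C | z.O.valuation x < 1} \ vis ℓ κ x).Finite :=
    (finite_zeros h hx0).subset Set.diff_subset
  have htwo : ∀ z ∈ hfin.toFinset, 2 ≤ ord z.O x := by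
    intro z hz
    obtain ⟨h1, h2⟩ := hfin.mem_toFinset.1 hz
    rw [mem_vis_iff h ℓ hx0, not_not] at h2
    have h3 := ((place_isDVR h z).isOrd.val_lt_one_iff hx0).1 h1
    have h4 := Int.le_of_dvd h3 h2
    have h5 : (2 : ℤ) ≤ ℓ := by exact_mod_cast hℓ.out.two_le
    omega
  have h1 := sum_ord_zeros_le h hx hfin.toFinset fun z hz => by have := htwo z hz; omega
  have h2 : (hfin.toFinset.card : ℤ) * 2 ≤ ∑ z ∈ hfin.toFinset, ord z.O x := by
    have := Finset.card_nsmul_le_sum hfin.toFinset (fun z => ord z.O x) 2 htwo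
    simpa using this
  have h3 : {z : Place κ C | z.O.valuation x < 1}.ncard ≤
      ({z : Place κ C | z.O.valuation x < 1} \ vis ℓ κ x).ncard + (vis ℓ κ x).ncard :=
    (Set.ncard_le_ncard (Set.subset_diff_union _ _) (hfin.union (vis_finite h ℓ hx0))).trans
      (Set.ncard_union_le _ _)
  rw [Set.ncard_eq_toFinset_card _ hfin] at h3
  have h4 : hfin.toFinset.card * 2 ≤ finrank κ⟮x⟯ C := by exact_mod_cast h2.trans h1
  omega

theorem vis_pow (h : IsCurve κ C) (ℓ : ℕ) [hℓ : Fact ℓ.Prime] {x : C} (hx : x ≠ 0) {q : ℕ}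
    (hq : ¬ ℓ ∣ q) : vis ℓ κ (x ^ q) = vis ℓ κ x := by
  ext z
  rw [mem_vis_iff h ℓ hx, mem_vis_iff h ℓ (pow_ne_zero _ hx), (place_isDVR h z).isOrd.pow,
    (Nat.prime_iff_prime_int.1 hℓ.out).dvd_mul, Int.natCast_dvd_natCast]
  tauto

omit [IsAlgClosed κ] in
theorem not_dvd_expChar_pow (ℓ : ℕ) [Fact ℓ.Prime] (hℓ : (ℓ : κ) ≠ 0) (p e : ℕ)
    [hE : ExpChar κ p] : ¬ ℓ ∣ p ^ e := by
  intro hd
  have hd' := (Fact.out : ℓ.Prime).dvd_of_dvd_pow hd
  cases hE with
  | zero => exact (Fact.out : ℓ.Prime).one_lt.ne' (Nat.dvd_one.1 hd')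
  | prime hp' =>
    have hlp : ℓ = p := (Nat.prime_dvd_prime_iff_eq Fact.out hp').1 hd'
    exact hℓ (by rw [hlp]; exact CharP.cast_eq_zero κ _)

end aux

theorem vis_bound (ℓ : ℕ) [Fact ℓ.Prime] : ∃ N : ℕ → ℕ → ℕ,
    ∀ (κ C : Type u) [Field κ] [Field C] [Algebra κ C] [IsAlgClosed κ],
      IsCurve κ C → FinAlg κ → (ℓ : κ) ≠ 0 → ∀ (r v : ℕ) (t : C), Transcendental κ t →
      FiniteDimensional (ZMod ℓ) (Unr ℓ κ C) → Module.finrank (ZMod ℓ) (Unr ℓ κ C) ≤ r →
      ∀ a : Fin 5 → κ, Function.Injective a →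
      (∀ i, (vis ℓ κ (t - algebraMap κ C (a i))).ncard ≤ v) →
      ∀ b : κ, (vis ℓ κ (t - algebraMap κ C b)).ncard ≤ N r v := by
  classical
  refine ⟨fun r v => 2 * (4 * r + 10 * v), ?_⟩
  intro κ C _ _ _ _ h hκ hℓ r v t ht _ hr a ha hv b
  obtain ⟨g, hg⟩ := exists_isGenus h
  obtain ⟨-, hgr, -⟩ := unr_rank h hκ ℓ hℓ hg
  obtain ⟨s, e, hs, rfl, hsep⟩ := exists_sep_root h ht
  set p := ringExpChar κ with hp
  haveI : ExpChar κ p := ringExpChar.expChar κ
  haveI : ExpChar C p := expChar_of_injective_algebraMap (algebraMap κ C).injective p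
  have hq0 : 0 < p ^ e := pow_pos (expChar_pos κ p) e
  have hq : ¬ ℓ ∣ p ^ e := not_dvd_expChar_pow ℓ hℓ p e
  have hroot : ∀ c : κ, ∃ c' : κ, c' ^ p ^ e = c := fun c => IsAlgClosed.exists_pow_nat_eq c hq0
  choose ρ hρ using hroot
  have hvis : ∀ c : κ, vis ℓ κ (s ^ p ^ e - algebraMap κ C c) =
      vis ℓ κ (s - algebraMap κ C (ρ c)) := by
    intro c
    have h0 : s - algebraMap κ C (ρ c) ≠ 0 := by
      intro h0
      exact transcendental_sub_const hs (ρ c) (h0 ▸ isAlgebraic_zero)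
    rw [← vis_pow h ℓ h0 hq, sub_pow_expChar_pow, ← map_pow, hρ]
  have hinj : Function.Injective fun i => ρ (a i) := by
    intro i j hij
    apply ha
    rw [← hρ (a i), ← hρ (a j)]
    exact congrArg (· ^ p ^ e) hij
  obtain ⟨ω, d, hω, hd, hsum⟩ := exists_minima h hg hs
  have hRH := disc_bound h hs ω d hω hd (Finset.univ.image fun i => ρ (a i))
  rw [Finset.sum_image fun i _ j _ hij => hinj hij] at hRH
  have hfib : ∀ i, 2 * ({z : Place κ C |
      z.O.valuation (s - algebraMap κ C (ρ (a i))) < 1}.ncard : ℤ) ≤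
        2 * v + finrank κ⟮s⟯ C := by
    intro i
    have h1 := two_mul_zeros_le h ℓ (transcendental_sub_const hs (ρ (a i)))
    rw [adjoin_sub_const] at h1
    have h2 := hv i
    rw [hvis] at h2
    have h3 : 2 * {z : Place κ C | z.O.valuation (s - algebraMap κ C (ρ (a i))) < 1}.ncard ≤
        2 * v + finrank κ⟮s⟯ C := by omega
    exact_mod_cast h3
  rw [Fin.sum_univ_five] at hRH
  have h0 := hfib 0
  have h1 := hfib 1
  have h2 := hfib 2
  have h3 := hfib 3
  have h4 := hfib 4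
  have hn : finrank κ⟮s⟯ C ≤ 4 * r + 10 * v := by
    push_cast at hsum
    omega
  have h5 := vis_ncard_le h ℓ (transcendental_sub_const hs (ρ b))
  rw [adjoin_sub_const] at h5
  rw [hvis]
  show _ ≤ 2 * (4 * r + 10 * v)
  omega

end Vale.Agent.P019
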