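import Vale.Agent.P019.GV
import Vale.Agent.P019.TR
import Vale.Agent.P019.Z2

/-! P019: equality of dimensions and boundedness of the visible divisors. -/

open IsLocalRing

namespace Vale.Agent.P019

namespace BNDAux

variable {ℓ : ℕ} [Fact ℓ.Prime]

theorem not_HO_le_TO {F : Type*} [Field F] (hm : cl ℓ (-1 : F) = 0) {w : ValuationSubring F}
    (hN : CondN (TO ℓ w)) : ¬ HO ℓ w ≤ TO ℓ w := by
  intro hle
  obtain ⟨u, hu0, hu1, hu⟩ := hN
  rcases lt_trichotomy (w.valuation u) 1 with h | h | h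
  · have h1 : cl ℓ (1 - u) ∈ TO ℓ w := cl_mem_TO (by simpa using h)
    exact one_ne_zero (hu 0 1 (by simpa using h1)).2
  · exact one_ne_zero (hu 1 0 (by simpa using hle (cl_mem_HO h))).1
  · have h1 : cl ℓ (-u + 1) - cl ℓ (-u) ∈ TO ℓ w := cl_add_sub_mem_TO (by simpa using h)
    have h2 : cl ℓ (-u) = cl ℓ u := by
      rw [← neg_one_mul, cl_mul (by simp) hu0, hm, zero_add]
    rw [h2, show -u + 1 = 1 - u by ring] at h1
    refine one_ne_zero (hu (-1) 1 ?_).2
    rw [neg_one_smul, one_smul, neg_add_eq_sub]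
    exact h1

theorem exists_not_mem {κ C : Type*} [Field κ] [Field C] [Algebra κ C] (h : IsCurve κ C) :
    ∃ r : C, r ∉ Set.range (algebraMap κ C) := by
  by_contra hc
  push Not at hc
  have : Algebra.IsAlgebraic κ C := ⟨fun x => by
    obtain ⟨a, rfl⟩ := hc x
    exact isAlgebraic_algebraMap a⟩
  have := h.trdeg
  rw [trdeg_eq_zero] at this
  exact zero_ne_one this

theorem cl_res_eq_zero {k F : Type*} [Field k] [Field F] [Algebra k F] [IsAlgClosed k]
    {v : ValuationSubring F} {r : ResidueField v} (hr : r ∈ resConst k v) : cl ℓ r = 0 :=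
  cl_algebraMap (k := resConst k v) ⟨r, hr⟩

variable {K L : Type*} [Field K] [Field L] {Θ : V ℓ K ≃ₗ[ZMod ℓ] V ℓ L}

theorem mem_map_iff {H : Submodule (ZMod ℓ) (V ℓ K)} {x : V ℓ K} :
    Θ x ∈ H.map Θ.toLinearMap ↔ x ∈ H := by
  constructor
  · rintro ⟨y, hy, h⟩
    rw [← Θ.injective h]
    exact hy
  · exact fun h => ⟨x, h, rfl⟩

theorem indepMod_of_map {ι : Type*} [Fintype ι] {H : Submodule (ZMod ℓ) (V ℓ K)} {x : ι → V ℓ K}
    {y : ι → V ℓ L} (hxy : ∀ i, Θ (x i) = y i) (h : IndepMod (H.map Θ.toLinearMap) y) :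
    IndepMod H x := by
  intro c hc
  refine h c ?_
  have := (mem_map_iff (Θ := Θ)).2 hc
  simpa [map_sum, hxy] using this

theorem exists_lift_indep {v : ValuationSubring K} {w : ValuationSubring L} (h : Matched Θ v w)
    {ι : Type*} [Fintype ι] {π : ι → L} (hπ : IndepMod (HO ℓ w) fun i => cl ℓ (π i)) :
    ∃ π' : ι → K, (∀ i, π' i ≠ 0) ∧ IndepMod (HO ℓ v) fun i => cl ℓ (π' i) := by
  choose π' h0 hπ' using fun i => cl_surj (Θ.symm (cl ℓ (π i)))
  refine ⟨π', h0, indepMod_of_map (Θ := Θ) (y := fun i => cl ℓ (π i)) (fun i => ?_) ?_⟩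
  · simp [hπ']
  · rw [h.2]; exact hπ

theorem ncard_vis_eq {κ C κ' F : Type*} [Field κ] [Field C] [Algebra κ C] [Field κ'] [Field F]
    [Algebra κ' F] {θ : V ℓ C ≃ₗ[ZMod ℓ] V ℓ F} (e : Place κ C ≃ Place κ' F)
    (he : ∀ z, (HO ℓ z.O).map θ.toLinearMap = HO ℓ (e z).O) {x : C} {y : F}
    (hxy : θ (cl ℓ x) = cl ℓ y) : (vis ℓ κ x).ncard = (vis ℓ κ' y).ncard := by
  have : vis ℓ κ' y = e '' vis ℓ κ x := by
    ext z
    obtain ⟨z, rfl⟩ := e.surjective z
    rw [e.injective.mem_set_image]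
    simp only [vis, Set.mem_ofPred_eq]
    rw [← he, ← hxy, mem_map_iff]
  rw [this, Set.ncard_image_of_injective _ e.injective]

theorem map_Unr {κ C κ' F : Type*} [Field κ] [Field C] [Algebra κ C] [Field κ'] [Field F]
    [Algebra κ' F] {θ : V ℓ C ≃ₗ[ZMod ℓ] V ℓ F} (e : Place κ C ≃ Place κ' F)
    (he : ∀ z, (HO ℓ z.O).map θ.toLinearMap = HO ℓ (e z).O) :
    (Unr ℓ κ C).map θ.toLinearMap = Unr ℓ κ' F := by
  ext y
  obtain ⟨x, rfl⟩ := θ.surjective y
  rw [mem_map_iff]
  simp only [Unr, Submodule.mem_iInf]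
  constructor
  · intro h z
    obtain ⟨z, rfl⟩ := e.surjective z
    rw [← he, mem_map_iff]
    exact h z
  · intro h z
    have := h (e z)
    rwa [← he, mem_map_iff] at this

theorem indepMod_pair {ι : Type*} [Fintype ι] {H : Submodule (ZMod ℓ) (V ℓ K)} {x : ι → V ℓ K}
    (h : IndepMod H x) {i j : ι} (hij : i ≠ j) : IndepMod H ![x i, x j] := by
  classical
  intro c hc
  have := h (Pi.single i (c 0) + Pi.single j (c 1)) (by
    simpa [add_smul, Finset.sum_add_distrib, Pi.single_apply, ite_smul] using hc)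
  have h0 := this i
  have h1 := this j
  simp only [Pi.add_apply, Pi.single_eq_same, Pi.single_eq_of_ne hij, Pi.single_eq_of_ne hij.symm,
    add_zero, zero_add] at h0 h1
  intro m
  fin_cases m
  · exact h0
  · exact h1

theorem not_mem_of_indepMod {ι : Type*} [Fintype ι] {H : Submodule (ZMod ℓ) (V ℓ K)}
    {x : ι → V ℓ K} (h : IndepMod H x) (i : ι) : x i ∉ H := by
  classical
  intro hi
  have := h (Pi.single i 1) (by simpa [Pi.single_apply, ite_smul] using hi) i
  simp at this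

end BNDAux

open BNDAux

variable {ℓ : ℕ} [Fact ℓ.Prime] {k K l L : Type*} [Field k] [Field K] [Algebra k K] [IsAlgClosed k]
  [Field l] [Field L] [Algebra l L] [IsAlgClosed l] {Θ : V ℓ K ≃ₗ[ZMod ℓ] V ℓ L}

/-- a good valuation is matched (`condN_of_residue`, `exists_matched`, `not_TO_le_of_lt`) -/
theorem exists_matched_of_good (h : Compat Θ) {w : ValuationSubring L}
    (hℓ : w.valuation (ℓ : L) = 1) (hfin : FinAlg (resConst l w))
    (hc : IsCurve (resConst l w) (ResidueField w)) (hmin : MinPos ℓ w) :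
    ∃ v, Matched Θ v w ∧ ∃ r : ResidueField v, r ∉ resConst k v := by
  have hN : CondN (TO ℓ w) := by
    refine condN_of_residue (k := l) hℓ hc.fg ?_
    obtain ⟨r, hr⟩ := exists_not_mem hc
    exact ⟨r, fun h' => hr ⟨⟨r, h'⟩, rfl⟩⟩
  have hHT := not_HO_le_TO (cl_neg_one l) hN
  obtain ⟨v, hv⟩ := exists_matched h (cl_neg_one k) (cl_neg_one l) hN hHT hmin
    fun O hO => not_TO_le_of_lt hℓ hfin hc.fg hO
  refine ⟨v, hv, ?_⟩
  by_contra hcon
  push Not at hcon
  apply hHT
  rw [← hv.1, ← hv.2]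
  refine Submodule.map_mono fun x hx => ?_
  obtain ⟨u, hu, rfl⟩ := mem_HO_iff_exists.1 hx
  exact (cl_mem_TO_iff_res hu).2 (cl_res_eq_zero (hcon _))

/-- `d' + 1` independent values and a nonconstant residue on the side of `K` -/
theorem dim_le (h : Compat Θ) (hl : (ℓ : l) ≠ 0) {d d' : ℕ} (hK : IsFF k K d)
    (hL : IsFF l L (d' + 2)) : d' + 2 ≤ d := by
  obtain ⟨M⟩ := exists_model hL
  obtain ⟨R, B₀, B, -, hw⟩ := exists_good_valuation (ℓ := ℓ) hl M
  obtain ⟨w, hℓ, hfin, hc, hmin, ⟨π, -, hπ⟩, -⟩ := hw ∅ (by simp)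
  obtain ⟨v, hv, r, hr⟩ := exists_matched_of_good (k := k) h hℓ hfin hc hmin
  obtain ⟨π', h0, hπ'⟩ := exists_lift_indep hv hπ
  obtain ⟨t, ht, rfl⟩ := res_surj r
  have := card_le_of_valIndep hK (valIndep_of_indepMod h0 hπ') (isGauss_single ht hr)
  simp only [Fintype.card_fin] at this
  omega

/-- if the classes of `τ - a`, `τ - b` are independent modulo `TO`, then `τ - a` and `a - b` have
the same value -/
theorem val_sub_eq {v : ValuationSubring K} {τ : K} {a b : k} (hab : a ≠ b)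
    (h : IndepMod (TO ℓ v) ![cl ℓ (τ - algebraMap k K a), cl ℓ (τ - algebraMap k K b)]) :
    v.valuation (τ - algebraMap k K a) = v.valuation (algebraMap k K (a - b)) := by
  have _ := hab
  rcases lt_trichotomy (v.valuation (τ - algebraMap k K a)) (v.valuation (algebraMap k K (a - b)))
    with h1 | h1 | h1
  · have h2 := cl_add_sub_mem_TO (ℓ := ℓ) h1
    rw [cl_algebraMap, sub_zero, show algebraMap k K (a - b) + (τ - algebraMap k K a) =
      τ - algebraMap k K b by rw [map_sub]; ring] at h2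
    have := h ![0, 1] (by simpa using h2) 1
    simp at this
  · exact h1
  · have h2 := cl_add_sub_mem_TO (ℓ := ℓ) h1
    rw [show τ - algebraMap k K a + algebraMap k K (a - b) = τ - algebraMap k K b by
      rw [map_sub]; ring] at h2
    have := h ![-1, 1] (by simpa [neg_add_eq_sub] using h2) 1
    simp at this

/-- Let `S₀` come from `exists_linearIndependent`; fix `a 0, ..., a 4`, `a 0 + e`, `a 0 + ℓ e`
outside `S₀` and representatives `u i` of `Θ (cl (τ - a i))`. For a further `a`, take a good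
valuation `w` for all products of these, matched with `v`. By `val_sub_eq` all differences have
the same value, `ℓ` is a unit for `v`, and `t = (τ - a 0) / e` is a unit with nonconstant residue;
the residue field `C` of `v` is a curve (`isCurve_residue`), `TRProp` holds both ways
(`trProp_of_matched`), the constants are `FinAlg` (`finAlg_of_trProp`), places correspond
(`exists_place_equiv`), so visible sets and `Unr` correspond; apply `vis_bound` to the residue of
`t`: `D = N R (B₀ + max B (u i))`. -/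
theorem exists_degree_bound (h : Compat Θ) (hk : (ℓ : k) ≠ 0) (hl : (ℓ : l) ≠ 0) {d : ℕ}
    (hK : IsFF k K (d + 2)) (M : Model l L (d + 2)) {τ : K} (hτ : Transcendental k τ) :
    ∃ (D : ℕ) (S : Set k), S.Finite ∧ ∀ a ∉ S, ∀ u : L, u ≠ 0 →
      Θ (cl ℓ (τ - algebraMap k K a)) = cl ℓ u → ∀ W π, M.IsDiv W π → cl ℓ u ∉ HO ℓ W →
        π.totalDegree ≤ D := by
  classical
  have := hK.fg
  obtain ⟨R, B₀, B, -, hgood⟩ := exists_good_valuation (ℓ := ℓ) hl M
  obtain ⟨S, hS, hind⟩ := exists_linearIndependent (ℓ := ℓ) hk hτ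
  obtain ⟨N, hN⟩ := vis_bound ℓ
  choose u₀ hu₀ hΘ using fun a : k => cl_surj (Θ (cl ℓ (τ - algebraMap k K a)))
  have hSc : (Sᶜ : Set k).Infinite := hS.infinite_compl
  obtain ⟨a₀, ha₀⟩ := hSc.nonempty
  obtain ⟨e, he⟩ : ∃ e : k, e ≠ 0 ∧ a₀ + e ∉ S ∧ a₀ + ℓ * e ∉ S := by
    have f1 : ((fun e : k => a₀ + e) ⁻¹' S).Finite :=
      hS.preimage (add_right_injective a₀).injOn
    have f2 : ((fun e : k => a₀ + ℓ * e) ⁻¹' S).Finite :=
      hS.preimage fun x _ y _ hxy => mul_left_cancel₀ hk (add_left_cancel hxy)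
    obtain ⟨e, he⟩ := (((Set.finite_singleton (0 : k)).union f1).union f2).infinite_compl.nonempty
    simp only [Set.mem_compl_iff, Set.mem_union, Set.mem_singleton_iff, Set.mem_preimage,
      not_or] at he
    exact ⟨e, he.1.1, he.1.2, he.2⟩
  obtain ⟨he0, he1, he2⟩ := he
  let p : Fin 5 → k := fun i => hSc.natEmbedding _ i
  have hp : ∀ i, p i ∉ S := fun i => (hSc.natEmbedding _ i).2
  have hpi : Function.Injective p := fun i j hij =>
    Fin.ext ((hSc.natEmbedding _).injective (Subtype.ext hij))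
  refine ⟨N R (B₀ + Finset.univ.sup fun i => B (u₀ (p i))), S, hS, ?_⟩
  intro a ha u hu hau W π hW hvis
  let A : Finset k := {a₀, a₀ + e, a₀ + ℓ * e, a} ∪ Finset.univ.image p
  have hA : ∀ b ∈ A, b ∉ S := by
    intro b hb
    simp only [A, Finset.mem_union, Finset.mem_insert, Finset.mem_singleton, Finset.mem_image,
      Finset.mem_univ, true_and] at hb
    rcases hb with (rfl | rfl | rfl | rfl) | ⟨i, rfl⟩
    exacts [ha₀, he1, he2, ha, hp i]
  have m0 : a₀ ∈ A := by simp [A]
  have m1 : a₀ + e ∈ A := by simp [A]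
  have m2 : a₀ + ℓ * e ∈ A := by simp [A]
  have m3 : a ∈ A := by simp [A]
  have m4 : ∀ i, p i ∈ A := fun i => by simp [A]
  let U : Finset L := (insert u (Finset.univ.image fun i => u₀ (p i))) ∪
    Finset.univ.image fun c : A → Fin ℓ => ∏ b : A, u₀ b ^ (c b : ℕ)
  have hU : ∀ x ∈ U, x ≠ 0 := by
    intro x hx
    simp only [U, Finset.mem_union, Finset.mem_insert, Finset.mem_image, Finset.mem_univ,
      true_and] at hx
    rcases hx with (rfl | ⟨i, rfl⟩) | ⟨c, rfl⟩
    · exact hu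
    · exact hu₀ _
    · exact Finset.prod_ne_zero_iff.2 fun b _ => pow_ne_zero _ (hu₀ _)
  obtain ⟨w, hwℓ, hfin, hc, hmin, ⟨ϖ, hϖ0, hϖ⟩, hfd, hR, Bad, hBad, hB₀, hw⟩ := hgood U hU
  obtain ⟨v, hv, hr⟩ := exists_matched_of_good (k := k) h hwℓ hfin hc hmin
  have hli : LinearIndependent (ZMod ℓ) fun b : A => cl ℓ (u₀ b) := by
    have h1 := hind.comp (fun b : A => (⟨b, hA b b.2⟩ : ↥Sᶜ))
      (fun b b' hb => Subtype.ext (congrArg (fun x : ↥Sᶜ => (x : k)) hb))
    have h2 := h1.map' Θ.toLinearMap Θ.ker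
    have h3 : (fun b : A => cl ℓ (u₀ b)) = Θ.toLinearMap ∘
        ((fun a : ↥Sᶜ => cl ℓ (τ - algebraMap k K a)) ∘ fun b : A => (⟨b, hA b b.2⟩ : ↥Sᶜ)) :=
      funext fun b => hΘ b
    rw [h3]
    exact h2
  have hT : IndepMod (TO ℓ w) fun b : A => cl ℓ (u₀ b) :=
    indepMod_TO_of_products (fun b => hu₀ _) hli fun c =>
      (hw _ (Finset.mem_union_right _ (Finset.mem_image.2 ⟨c, Finset.mem_univ _, rfl⟩))).2.1
  have hT' : IndepMod (TO ℓ v) fun b : A => cl ℓ (τ - algebraMap k K b) :=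
    indepMod_of_map (Θ := Θ) (fun b => (hΘ b).symm) (by rw [hv.1]; exact hT)
  have hval : ∀ b ∈ A, ∀ b' ∈ A, b ≠ b' →
      v.valuation (τ - algebraMap k K b) = v.valuation (algebraMap k K (b - b')) :=
    fun b hb b' hb' hne => val_sub_eq hne
      (indepMod_pair hT' (i := ⟨b, hb⟩) (j := ⟨b', hb'⟩) fun h' => hne (congrArg Subtype.val h'))
  have he0' : v.valuation (algebraMap k K e) ≠ 0 := by simpa using he0
  have hv0 : v.valuation (τ - algebraMap k K a₀) = v.valuation (algebraMap k K e) := by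
    rw [hval _ m0 _ m1 (by simpa using he0)]
    simp
  have hvb : ∀ b ∈ A, v.valuation (τ - algebraMap k K b) = v.valuation (algebraMap k K e) := by
    intro b hb
    by_cases hb0 : b = a₀
    · rw [hb0, hv0]
    · rw [hval _ hb _ m0 hb0, ← hv0, hval _ m0 _ hb (Ne.symm hb0), ← neg_sub, map_neg,
        Valuation.map_neg]
  have hvℓ : v.valuation (ℓ : K) = 1 := by
    have := hval _ m0 _ m2 (by simpa using ⟨hk, he0⟩)
    rw [hv0, show a₀ - (a₀ + ℓ * e) = -(ℓ * e) by ring, map_neg, Valuation.map_neg, map_mul,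
      map_mul, map_natCast] at this
    exact (mul_right_cancel₀ he0' (by rw [← this, one_mul])).symm
  -- normalized functions and constants
  have hunit : ∀ b ∈ A, v.valuation ((τ - algebraMap k K b) / algebraMap k K e) = 1 :=
    fun b hb => by rw [map_div₀, hvb b hb, div_self he0']
  have hmem : ∀ b ∈ A, algebraMap k K ((b - a₀) / e) ∈ v := by
    intro b hb
    have : algebraMap k K ((b - a₀) / e) = (τ - algebraMap k K a₀) / algebraMap k K e -
        (τ - algebraMap k K b) / algebraMap k K e := by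
      rw [map_div₀, map_sub]; ring
    rw [this]
    exact v.sub_mem (mem_of_val_eq_one (hunit _ m0)) (mem_of_val_eq_one (hunit _ hb))
  let c : ∀ b ∈ A, resConst k v := fun b hb =>
    ⟨res v (algebraMap k K ((b - a₀) / e)), _, hmem b hb, rfl⟩
  set t : ResidueField v := res v ((τ - algebraMap k K a₀) / algebraMap k K e) with ht
  have htc : ∀ b (hb : b ∈ A), t - algebraMap (resConst k v) (ResidueField v) (c b hb) =
      res v ((τ - algebraMap k K b) / algebraMap k K e) := by
    intro b hb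
    change t - res v (algebraMap k K ((b - a₀) / e)) = _
    rw [ht, ← res_sub (mem_of_val_eq_one (hunit _ m0)) (hmem b hb), map_div₀, map_sub]
    congr 1
    ring
  have hτb : ∀ b : k, τ - algebraMap k K b ≠ 0 := fun b hb =>
    hτ (by rw [sub_eq_zero.1 hb]; exact isAlgebraic_algebraMap b)
  have hcl : ∀ b : k, cl ℓ ((τ - algebraMap k K b) / algebraMap k K e) =
      cl ℓ (τ - algebraMap k K b) := fun b => by
    rw [cl_div (hτb b) (by simpa using he0), cl_algebraMap, sub_zero]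
  have htr : Transcendental (resConst k v) t := by
    rw [transcendental_iff]
    rintro ⟨r, hr'⟩
    refine not_mem_of_indepMod hT' ⟨a₀, m0⟩ ?_
    change cl ℓ (τ - algebraMap k K a₀) ∈ _
    rw [← hcl, cl_mem_TO_iff_res (hunit _ m0), ← ht, ← hr']
    exact cl_algebraMap r
  obtain ⟨ϖ', hϖ0', hϖ'⟩ := exists_lift_indep hv hϖ
  have hC : IsCurve (resConst k v) (ResidueField v) :=
    isCurve_residue hK (valIndep_of_indepMod hϖ0' hϖ') hr
  obtain ⟨θ, hθ, hθ'⟩ := hv.exists_resIso
  have t1 : TRProp θ := trProp_of_matched (k := k) h hl M.isFF hv hϖ0 hϖ hθ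
  have t2 : TRProp θ.symm := trProp_of_matched (k := l) h.symm hk hK hv.symm hϖ0' hϖ' hθ'
  have hκ : (ℓ : resConst k v) ≠ 0 := natCast_resConst_ne_zero hvℓ
  have hκ' : (ℓ : resConst l w) ≠ 0 := natCast_resConst_ne_zero hwℓ
  have hfin' : FinAlg (resConst k v) := finAlg_of_trProp hC hc hκ hfin t2
  obtain ⟨ε, hε⟩ := exists_place_equiv hC hc hκ hκ' hfin' hfin t1 t2
  have hUnr := map_Unr ε hε
  have eqv := (θ.submoduleMap (Unr ℓ (resConst k v) (ResidueField v)))
  rw [hUnr] at eqv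
  have hvis_eq : ∀ b (hb : b ∈ A) (y : L), w.valuation y = 1 →
      Θ (cl ℓ (τ - algebraMap k K b)) = cl ℓ y →
      (vis ℓ (resConst k v) (t - algebraMap _ _ (c b hb))).ncard =
        (vis ℓ (resConst l w) (res w y)).ncard := by
    intro b hb y hy hby
    rw [htc b hb]
    exact ncard_vis_eq ε hε (hθ _ _ (hunit b hb) hy (by rw [hcl, hby]))
  have key := hN (resConst k v) (ResidueField v) hC hfin' hκ R
    (B₀ + Finset.univ.sup fun i => B (u₀ (p i))) t htr (eqv.symm.finiteDimensional)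
    (by rw [eqv.finrank_eq]; exact hR) (fun i => c (p i) (m4 i)) ?_ ?_ (c a m3)
  · have hu' := hw u (by simp [U])
    rw [hvis_eq a m3 u hu'.1 hau] at key
    exact (hu'.2.2.2 W π hW hvis).trans key
  · intro i j hij
    by_contra hne
    have h1 : res v (algebraMap k K ((p i - a₀) / e)) = res v (algebraMap k K ((p j - a₀) / e)) :=
      congrArg Subtype.val hij
    rw [res_eq_iff (hmem _ (m4 i)) (hmem _ (m4 j)), ← map_sub, ← sub_div,
      show p i - a₀ - (p j - a₀) = p i - p j by ring, map_div₀, map_div₀,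
      ← hval _ (m4 i) _ (m4 j) (fun h' => hne (hpi h')), hvb _ (m4 i), div_self he0'] at h1
    exact lt_irrefl _ h1
  · intro i
    have hu' := hw (u₀ (p i)) (by simp [U])
    rw [hvis_eq _ (m4 i) _ hu'.1 (hΘ _).symm]
    calc (vis ℓ (resConst l w) (res w (u₀ (p i)))).ncard
        = ((vis ℓ (resConst l w) (res w (u₀ (p i))) ∩ Bad) ∪
            (vis ℓ (resConst l w) (res w (u₀ (p i))) \ Bad)).ncard := by
          rw [Set.inter_union_sdiff]
      _ ≤ _ := Set.ncard_union_le _ _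
      _ ≤ _ := add_le_add ((Set.ncard_le_ncard Set.inter_subset_right hBad).trans hB₀)
          (hu'.2.2.1.trans (Finset.le_sup (f := fun i => B (u₀ (p i))) (Finset.mem_univ i)))

end Vale.Agent.P019
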