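import Vale.Agent.P019.Base2

/-! P019: generic lines, elementary conditions. -/

open Filter

namespace Vale.Agent.P019

variable {l : Type*} [Field l]

namespace GENAux

open Polynomial

section general

variable {A B : Type*} [CommRing A] [Algebra l A] [CommRing B] [Algebra l B]

/-- restriction to a line with coefficients in an algebra -/
noncomputable def LL (l : Type*) [Field l] {A : Type*} [CommRing A] [Algebra l A] {d : ℕ}
    (q c : Fin d → A) : MvPolynomial (Fin d) l →ₐ[l] A[X] :=
  MvPolynomial.aeval fun j => C (c j) + C (q j) * X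

theorem LL_X {d : ℕ} (q c : Fin d → A) (j : Fin d) :
    LL l q c (MvPolynomial.X j) = C (c j) + C (q j) * X := by simp [LL]

theorem map_LL {d : ℕ} (φ : A →ₐ[l] B) (q c : Fin d → A) (g : MvPolynomial (Fin d) l) :
    (LL l q c g).map (φ : A →+* B) = LL l (fun j => φ (q j)) (fun j => φ (c j)) g := by
  have : (mapAlgHom φ).comp (LL l q c) = LL l (fun j => φ (q j)) (fun j => φ (c j)) :=
    MvPolynomial.algHom_ext fun j => by simp [LL_X]
  exact DFunLike.congr_fun this g

theorem lin_deg (a b : A) : (C a + C b * X).natDegree ≤ 1 := by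
  compute_degree

theorem prod_pow {ι : Type*} (s : Finset ι) (m : ι → ℕ) (q c : ι → A) :
    (∏ j ∈ s, (C (c j) + C (q j) * X) ^ m j).natDegree ≤ ∑ j ∈ s, m j ∧
      (∏ j ∈ s, (C (c j) + C (q j) * X) ^ m j).coeff (∑ j ∈ s, m j) = ∏ j ∈ s, q j ^ m j := by
  classical
  induction s using Finset.induction_on with
  | empty => simp
  | insert a s ha ih =>
    have h1 : ((C (c a) + C (q a) * X) ^ m a).natDegree ≤ m a :=
      natDegree_pow_le.trans (by simpa using Nat.mul_le_mul_left (m a) (lin_deg (c a) (q a)))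
    have h2 := coeff_pow_of_natDegree_le (m := m a) (lin_deg (c a) (q a))
    rw [mul_one] at h2
    rw [Finset.prod_insert ha, Finset.sum_insert ha, Finset.prod_insert ha]
    refine ⟨natDegree_mul_le.trans (add_le_add h1 ih.1), ?_⟩
    rw [coeff_mul_add_eq_of_natDegree_le h1 ih.1, ih.2, h2]
    simp [coeff_C]

theorem LL_monomial {d : ℕ} (q c : Fin d → A) (m : Fin d →₀ ℕ) (a : l) :
    LL l q c (MvPolynomial.monomial m a) =
      C (algebraMap l A a) * ∏ j, (C (c j) + C (q j) * X) ^ m j := by
  rw [LL, MvPolynomial.aeval_monomial, Finsupp.prod_fintype _ _ (by simp)]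
  rfl

theorem deg_eq {d : ℕ} (m : Fin d →₀ ℕ) : ∑ j, m j = m.degree := by
  rw [Finsupp.degree_eq_sum]

theorem deg_le {d : ℕ} {g : MvPolynomial (Fin d) l} {m : Fin d →₀ ℕ} (hm : m ∈ g.support) :
    ∑ j, m j ≤ g.totalDegree := by
  have := MvPolynomial.le_totalDegree hm
  rwa [Finsupp.sum_fintype _ _ (by simp)] at this

theorem natDegree_LL_le {d : ℕ} (q c : Fin d → A) (g : MvPolynomial (Fin d) l) :
    (LL l q c g).natDegree ≤ g.totalDegree := by
  conv_lhs => rw [g.as_sum, map_sum]
  refine natDegree_sum_le_of_forall_le _ _ fun m hm => ?_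
  rw [LL_monomial]
  exact (natDegree_C_mul_le _ _).trans ((prod_pow _ _ _ _).1.trans (deg_le hm))

theorem coeff_LL {d : ℕ} (q c : Fin d → A) (g : MvPolynomial (Fin d) l) :
    (LL l q c g).coeff g.totalDegree =
      MvPolynomial.aeval q (MvPolynomial.homogeneousComponent g.totalDegree g) := by
  classical
  generalize hD : g.totalDegree = D
  conv_lhs => rw [g.as_sum, map_sum, finsetSum_coeff]
  rw [MvPolynomial.homogeneousComponent_apply, map_sum, Finset.sum_filter]
  refine Finset.sum_congr rfl fun m hm => ?_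
  rw [LL_monomial, coeff_C_mul]
  split_ifs with h
  · rw [← h, ← deg_eq, (prod_pow _ _ _ _).2, MvPolynomial.aeval_monomial,
      Finsupp.prod_fintype _ _ (by simp)]
  · have h1 : ∑ j, m j < D := lt_of_le_of_ne (hD ▸ deg_le hm) (by rwa [deg_eq])
    rw [coeff_eq_zero_of_natDegree_lt ((prod_pow _ _ _ _).1.trans_lt h1), mul_zero]

theorem derivative_LL {d : ℕ} (q c : Fin d → A) (g : MvPolynomial (Fin d) l) :
    derivative (LL l q c g) = ∑ j, C (q j) * LL l q c (MvPolynomial.pderiv j g) := by
  classical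
  induction g using MvPolynomial.induction_on with
  | C a => simp [LL]
  | add p r hp hr => simp [hp, hr, mul_add, Finset.sum_add_distrib]
  | mul_X p i hp =>
    have h1 : ∀ j, LL l q c (MvPolynomial.pderiv j (p * MvPolynomial.X i)) =
        LL l q c (MvPolynomial.pderiv j p) * LL l q c (MvPolynomial.X i) +
          if j = i then LL l q c p else 0 := by
      intro j
      rw [MvPolynomial.pderiv_mul, map_add, map_mul, map_mul, MvPolynomial.pderiv_X]
      by_cases h : j = i
      · simp [h]
      · simp [h, Ne.symm h]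
    simp only [h1, mul_add, Finset.sum_add_distrib, mul_ite, mul_zero, Finset.sum_ite_eq',
      Finset.mem_univ, if_true]
    have h2 : derivative (LL l q c (MvPolynomial.X i)) = C (q i) := by
      rw [LL_X]; simp
    rw [map_mul, derivative_mul, hp, Finset.sum_mul, h2, mul_comm (LL l q c p)]
    simp only [mul_assoc]

end general

theorem bezout {A : Type*} [CommRing A] [IsDomain A] [IsGCDMonoid A] {P Q : A[X]}
    (hP : Irreducible P) (hd : P.natDegree ≠ 0) (h : ¬ P ∣ Q) :
    ∃ a b : A[X], ∃ g : A, g ≠ 0 ∧ P * a + Q * b = C g := by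
  have hp := hP.isPrimitive hd
  have hi := IsFractionRing.injective A (FractionRing A)
  have h1 := (hp.irreducible_iff_irreducible_map_fraction_map (K := FractionRing A)).1 hP
  have h2 := (hp.dvd_iff_fraction_map_dvd_fraction_map (FractionRing A) (q := Q)).not.1 h
  have h3 := h1.coprime_iff_not_dvd.2 h2
  obtain ⟨a, b, -, -, e⟩ := exists_mul_add_mul_eq_C_resultant P Q le_rfl le_rfl (Or.inl hd)
  refine ⟨a, b, _, fun h0 => ?_, e⟩
  have h4 := resultant_map_map P Q P.natDegree Q.natDegree (algebraMap A (FractionRing A))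
  rw [h0, map_zero, ← natDegree_map_eq_of_injective hi P,
    ← natDegree_map_eq_of_injective hi Q] at h4
  exact (resultant_eq_zero_iff.1 h4).2 h3

/-- the shear -/
noncomputable def sh {d : ℕ} (q : Fin d → l) :
    MvPolynomial (Fin (d + 1)) l →ₐ[l] MvPolynomial (Fin (d + 1)) l :=
  MvPolynomial.aeval (Fin.cons (MvPolynomial.X 0) fun j =>
    MvPolynomial.X j.succ + MvPolynomial.C (q j) * MvPolynomial.X 0)

theorem sh_sh {d : ℕ} (q q' : Fin d → l) (h : ∀ j, q j + q' j = 0) :
    (sh q).comp (sh q') = AlgHom.id _ _ := by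
  refine MvPolynomial.algHom_ext fun j => ?_
  refine Fin.cases ?_ (fun j => ?_) j
  · simp [sh]
  · simp only [sh, AlgHom.comp_apply, MvPolynomial.aeval_X, Fin.cons_succ, map_add, map_mul,
      MvPolynomial.aeval_C, Fin.cons_zero, MvPolynomial.algebraMap_eq, AlgHom.id_apply]
    rw [add_assoc, ← add_mul, ← map_add, h]
    simp

/-- the universal restriction to lines with direction `(1, q)` -/
noncomputable def TT {d : ℕ} (q : Fin d → l) :
    MvPolynomial (Fin (d + 1)) l ≃ₐ[l] (MvPolynomial (Fin d) l)[X] :=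
  (AlgEquiv.ofAlgHom (sh q) (sh fun j => -q j) (sh_sh _ _ (by simp)) (sh_sh _ _ (by simp))).trans
    (MvPolynomial.finSuccEquiv l d)

theorem TT_eq {d : ℕ} (q : Fin d → l) (g : MvPolynomial (Fin (d + 1)) l) :
    TT q g = LL l (fun j => MvPolynomial.C ((Fin.cons 1 q : Fin (d + 1) → l) j))
      (Fin.cons 0 MvPolynomial.X) g := by
  have : (TT q : _ →ₐ[l] _) = LL l (fun j => MvPolynomial.C ((Fin.cons 1 q : Fin (d + 1) → l) j))
      (Fin.cons 0 MvPolynomial.X) := by
    refine MvPolynomial.algHom_ext fun j => ?_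
    refine Fin.cases ?_ (fun j => ?_) j
    · simp [TT, sh, LL_X, MvPolynomial.finSuccEquiv_X_zero]
    · simp [TT, sh, LL_X, MvPolynomial.finSuccEquiv_apply]
  exact DFunLike.congr_fun this g

theorem map_TT {d : ℕ} (q c : Fin d → l) (g : MvPolynomial (Fin (d + 1)) l) :
    (TT q g).map (MvPolynomial.eval c) = lr (Fin.cons 1 q) (Fin.cons 0 c) g := by
  have := map_LL (l := l) (MvPolynomial.aeval c) (fun j => MvPolynomial.C
    ((Fin.cons 1 q : Fin (d + 1) → l) j)) (Fin.cons 0 MvPolynomial.X) g
  rw [TT_eq]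
  refine this.trans ?_
  have h1 : (fun j => MvPolynomial.aeval c (MvPolynomial.C (σ := Fin d)
      ((Fin.cons 1 q : Fin (d + 1) → l) j))) = (Fin.cons 1 q : Fin (d + 1) → l) := by
    funext j; simp
  have h2 : (fun j => MvPolynomial.aeval c ((Fin.cons 0 MvPolynomial.X :
      Fin (d + 1) → MvPolynomial (Fin d) l) j)) = (Fin.cons 0 c : Fin (d + 1) → l) := by
    funext j
    refine Fin.cases ?_ (fun j => ?_) j <;> simp
  rw [h1, h2]
  rfl

theorem coprime_of {d : ℕ} (q : Fin d → l) {P Q : (MvPolynomial (Fin d) l)[X]}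
    (hP : Irreducible P) (hd : P.natDegree ≠ 0) (h : ¬ P ∣ Q) :
    ∃ g : MvPolynomial (Fin d) l, g ≠ 0 ∧ ∀ c : Fin d → l, MvPolynomial.eval c g ≠ 0 →
      IsCoprime (P.map (MvPolynomial.eval c)) (Q.map (MvPolynomial.eval c)) := by
  have _ := q
  obtain ⟨a, b, g, hg, e⟩ := bezout hP hd h
  refine ⟨g, hg, fun c hc => ?_⟩
  have h1 := congrArg (Polynomial.map (MvPolynomial.eval c)) e
  rw [Polynomial.map_add, Polynomial.map_mul, Polynomial.map_mul, map_C] at h1
  refine ⟨C (MvPolynomial.eval c g)⁻¹ * a.map (MvPolynomial.eval c),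
    C (MvPolynomial.eval c g)⁻¹ * b.map (MvPolynomial.eval c), ?_⟩
  rw [mul_assoc, mul_assoc, ← mul_add, mul_comm (a.map _), mul_comm (b.map _), h1, ← map_mul,
    inv_mul_cancel₀ hc, map_one]

theorem hom_ne_zero {σ : Type*} {g : MvPolynomial σ l} (hg : g ≠ 0) :
    MvPolynomial.homogeneousComponent g.totalDegree g ≠ 0 := by
  classical
  obtain ⟨m, hm, e⟩ := Finset.exists_mem_eq_sup g.support
    (MvPolynomial.support_nonempty.2 hg) (fun s => s.sum fun _ e => e)
  intro h
  have h1 := congrArg (MvPolynomial.coeff m) h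
  rw [MvPolynomial.coeff_homogeneousComponent, if_pos, MvPolynomial.coeff_zero] at h1
  · exact MvPolynomial.mem_support_iff.1 hm h1
  · rw [MvPolynomial.totalDegree, e]; rfl

theorem eval_smul_hom {d n : ℕ} {H : MvPolynomial (Fin d) l} (hH : H.IsHomogeneous n)
    (a : l) (x : Fin d → l) :
    MvPolynomial.eval (fun j => a * x j) H = a ^ n * MvPolynomial.eval x H := by
  rw [MvPolynomial.eval_eq', MvPolynomial.eval_eq', Finset.mul_sum]
  refine Finset.sum_congr rfl fun m hm => ?_
  have h1 : ∑ j, m j = n := by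
    rw [deg_eq]
    by_contra h
    exact MvPolynomial.mem_support_iff.1 hm (hH.coeff_eq_zero h)
  simp only [mul_pow, Finset.prod_mul_distrib, Finset.prod_pow_eq_pow_sum, h1]
  ring

theorem eval_dehom {d : ℕ} (H : MvPolynomial (Fin (d + 1)) l) (q : Fin d → l) :
    MvPolynomial.eval q (MvPolynomial.aeval (Fin.cons 1 MvPolynomial.X :
      Fin (d + 1) → MvPolynomial (Fin d) l) H) = MvPolynomial.eval (Fin.cons 1 q) H := by
  have : (MvPolynomial.aeval q : MvPolynomial (Fin d) l →ₐ[l] l).comp (MvPolynomial.aeval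
      (Fin.cons 1 MvPolynomial.X : Fin (d + 1) → MvPolynomial (Fin d) l)) =
      MvPolynomial.aeval (Fin.cons 1 q : Fin (d + 1) → l) := by
    refine MvPolynomial.algHom_ext fun j => ?_
    refine Fin.cases ?_ (fun j => ?_) j <;> simp
  exact DFunLike.congr_fun this H

theorem dehom_ne_zero [Infinite l] {d n : ℕ} {H : MvPolynomial (Fin (d + 1)) l}
    (hH : H.IsHomogeneous n) (h0 : H ≠ 0) : MvPolynomial.aeval (Fin.cons 1 MvPolynomial.X :
      Fin (d + 1) → MvPolynomial (Fin d) l) H ≠ 0 := by
  intro h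
  have h1 : MvPolynomial.X 0 * H = 0 := by
    refine MvPolynomial.funext fun x => ?_
    rw [map_mul, map_zero, MvPolynomial.eval_X]
    by_cases hx : x 0 = 0
    · rw [hx, zero_mul]
    · have h2 := eval_dehom H fun j => (x 0)⁻¹ * x j.succ
      rw [h, map_zero] at h2
      have h3 := eval_smul_hom hH (x 0) (Fin.cons 1 fun j => (x 0)⁻¹ * x j.succ)
      have h4 : (fun j => x 0 * (Fin.cons 1 fun j : Fin d => (x 0)⁻¹ * x j.succ :
          Fin (d + 1) → l) j) = x := by
        funext j
        refine Fin.cases ?_ (fun j => ?_) j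
        · simp
        · simp [hx]
      rw [h4, ← h2] at h3
      rw [h3, mul_zero, mul_zero]
  exact h0 ((mul_eq_zero.1 h1).resolve_left (MvPolynomial.X_ne_zero _))

theorem totalDegree_ne_zero {σ : Type*} {π : MvPolynomial σ l} (hπ : Irreducible π) :
    π.totalDegree ≠ 0 := by
  intro h
  rw [MvPolynomial.totalDegree_eq_zero_iff_eq_C] at h
  by_cases h0 : π.coeff 0 = 0
  · exact hπ.ne_zero (by rw [h, h0, map_zero])
  · exact hπ.not_isUnit (by rw [h]; exact (IsUnit.mk0 _ h0).map _)

theorem exists_pderiv [IsAlgClosed l] {σ : Type*} {π : MvPolynomial σ l} (hπ : Irreducible π) :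
    ∃ j, MvPolynomial.pderiv j π ≠ 0 := by
  classical
  by_contra! h
  have h1 : ∀ m ∈ π.support, ∀ j, ringChar l ∣ m j := by
    intro m hm j
    rw [← ringChar.spec]
    by_cases hj : m j = 0
    · simp [hj]
    · have h2 := MvPolynomial.coeff_pderiv (i := j) π (m - Finsupp.single j 1)
      have h3 : m - Finsupp.single j 1 + Finsupp.single j 1 = m :=
        tsub_add_cancel_of_le (Finsupp.single_le_iff.2 (Nat.one_le_iff_ne_zero.2 hj))
      rw [h j, h3, MvPolynomial.coeff_zero] at h2
      have h4 := (mul_eq_zero.1 h2.symm).resolve_left (MvPolynomial.mem_support_iff.1 hm)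
      have h5 : m j = (m - Finsupp.single j 1 : σ →₀ ℕ) j + 1 := by
        conv_lhs => rw [← h3]
        simp
      rw [h5]
      exact_mod_cast h4
  rcases CharP.char_is_prime_or_zero l (ringChar l) with hp | hp
  · have := Fact.mk hp
    choose r hr using fun a : l => IsAlgClosed.exists_pow_nat_eq a hp.pos
    have h2 : (∑ m ∈ π.support, MvPolynomial.monomial
        (m.mapRange (· / ringChar l) (by simp)) (r (π.coeff m))) ^ ringChar l = π := by
      rw [sum_pow_char]
      conv_rhs => rw [π.as_sum]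
      refine Finset.sum_congr rfl fun m hm => ?_
      rw [MvPolynomial.monomial_pow, hr]
      congr 2
      ext j
      simp [Nat.mul_div_cancel' (h1 m hm j)]
    rw [← h2] at hπ
    exact not_irreducible_pow hp.ne_one hπ
  · refine totalDegree_ne_zero hπ ?_
    rw [MvPolynomial.totalDegree_eq_zero_iff]
    intro m hm j
    have := h1 m hm j
    rwa [hp, zero_dvd_iff] at this

end GENAux

open GENAux

theorem genF_succ' {n : ℕ} {P : (Fin (n + 1) → l) → Prop} :
    (∀ᶠ q in genF l (n + 1), P q) ↔ ∀ᶠ a in cofinite, ∀ᶠ b in genF l n, P (Fin.cons a b) := by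
  rw [genF, eventually_bind]
  simp only [eventually_map]

instance genF_neBot [Infinite l] (n : ℕ) : (genF l n).NeBot := by
  induction n with
  | zero => rw [genF]; infer_instance
  | succ n ih =>
    rw [neBot_iff, Ne, ← eventually_false_iff_eq_bot, genF_succ']
    simp [ih.ne, Set.infinite_univ]

theorem genF_succ {n : ℕ} {P : (Fin (n + 1) → l) → Prop} :
    (∀ᶠ q in genF l (n + 1), P q) ↔ ∀ᶠ a in cofinite, ∀ᶠ b in genF l n, P (Fin.cons a b) :=
  genF_succ'

theorem eventually_eval_ne_zero {n : ℕ} {g : MvPolynomial (Fin n) l} (hg : g ≠ 0) :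
    ∀ᶠ q in genF l n, MvPolynomial.eval q g ≠ 0 := by
  induction n with
  | zero =>
    refine Eventually.of_forall fun q => ?_
    rw [MvPolynomial.eq_C_of_isEmpty g] at hg ⊢
    simpa using hg
  | succ n ih =>
    rw [genF_succ]
    have h1 : MvPolynomial.finSuccEquiv l n g ≠ 0 := by simpa using hg
    have h2 := (Polynomial.finite_setOfPred_isRoot h1).preimage
      (MvPolynomial.C_injective (Fin n) l).injOn
    filter_upwards [h2.compl_mem_cofinite] with a ha
    filter_upwards [ih (g := (MvPolynomial.finSuccEquiv l n g).eval (MvPolynomial.C a)) ha]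
      with b hb
    rw [MvPolynomial.eval_eq_eval_mv_eval', Polynomial.eval_map]
    rw [← Polynomial.eval₂_at_apply, MvPolynomial.eval_C] at hb
    exact hb

theorem GenLine.mono {d : ℕ} {P Q : (Fin (d + 1) → l) → (Fin (d + 1) → l) → Prop}
    (h : GenLine d P) (hPQ : ∀ q c, P q c → Q q c) : GenLine d Q :=
  Eventually.mono h fun _ ⟨g, hg, h1⟩ => ⟨g, hg, fun c hc => hPQ _ _ (h1 c hc)⟩

theorem GenLine.and {d : ℕ} {P Q : (Fin (d + 1) → l) → (Fin (d + 1) → l) → Prop}
    (h : GenLine d P) (h' : GenLine d Q) : GenLine d fun q c => P q c ∧ Q q c :=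
  Eventually.mono (Eventually.and h h') fun _ ⟨⟨g, hg, h1⟩, ⟨g', hg', h2⟩⟩ =>
    ⟨g * g', mul_ne_zero hg hg', fun c hc => by
      rw [map_mul] at hc
      exact ⟨h1 c (left_ne_zero_of_mul hc), h2 c (right_ne_zero_of_mul hc)⟩⟩

theorem genLine_forall {d : ℕ} {α : Type*} (s : Finset α)
    {P : α → (Fin (d + 1) → l) → (Fin (d + 1) → l) → Prop} (h : ∀ a ∈ s, GenLine d (P a)) :
    GenLine d fun q c => ∀ a ∈ s, P a q c := by
  classical
  induction s using Finset.induction_on with
  | empty => exact Eventually.of_forall fun q => ⟨1, one_ne_zero, fun c _ => by simp⟩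
  | insert a s _ ih =>
    refine ((h a (by simp)).and (ih fun b hb => h b (by simp [hb]))).mono fun q c hc b hb => ?_
    rcases Finset.mem_insert.1 hb with rfl | hb
    · exact hc.1
    · exact hc.2 b hb

theorem GenLine.exists [Infinite l] {d : ℕ} {P : (Fin (d + 1) → l) → (Fin (d + 1) → l) → Prop}
    (h : GenLine d P) : ∃ q c, q 0 = 1 ∧ c 0 = 0 ∧ P q c := by
  obtain ⟨q, g, hg, h1⟩ := Eventually.exists h
  obtain ⟨c, hc⟩ := (eventually_eval_ne_zero hg).exists
  exact ⟨_, _, rfl, rfl, h1 c hc⟩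

/-- for every `q` the substitution `s 0 ↦ X`, `s (j + 1) ↦ z j + q j X` is an isomorphism onto
`l[z][X]`; take a nonzero coefficient -/
theorem genLine_ne_zero {d : ℕ} {g : MvPolynomial (Fin (d + 1)) l} (hg : g ≠ 0) :
    GenLine d fun q c => lr q c g ≠ 0 := by
  refine Eventually.of_forall fun q => ⟨(TT q g).leadingCoeff, ?_, fun c hc h => hc ?_⟩
  · simpa using hg
  · rw [← map_TT] at h
    rw [Polynomial.leadingCoeff, ← Polynomial.coeff_map, h, Polynomial.coeff_zero]

theorem GENAux.top_ne_zero [Infinite l] {d : ℕ} {g : MvPolynomial (Fin (d + 1)) l}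
    (hg : g ≠ 0) : ∀ᶠ q in genF l d, MvPolynomial.eval (Fin.cons 1 q)
      (MvPolynomial.homogeneousComponent g.totalDegree g) ≠ 0 := by
  filter_upwards [eventually_eval_ne_zero (dehom_ne_zero
    (MvPolynomial.homogeneousComponent_isHomogeneous _ g) (hom_ne_zero hg))] with q hq
  rwa [eval_dehom] at hq

theorem GENAux.natDegree_TT [Infinite l] {d : ℕ} {g : MvPolynomial (Fin (d + 1)) l}
    (hg : g ≠ 0) : ∀ᶠ q in genF l d, (TT q g).natDegree = g.totalDegree := by
  filter_upwards [top_ne_zero hg] with q hq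
  refine le_antisymm (by rw [TT_eq]; exact natDegree_LL_le _ _ _) ?_
  refine le_trans ?_ (Polynomial.natDegree_map_le (f := MvPolynomial.eval (0 : Fin d → l)))
  rw [map_TT]
  exact Polynomial.le_natDegree_of_ne_zero (((coeff_LL _ _ g).trans_ne hq))

/-- the coefficient of `X ^ D` is the top form at `(1, q)` -/
theorem genLine_natDegree [Infinite l] {d : ℕ} (g : MvPolynomial (Fin (d + 1)) l) :
    GenLine d fun q c => (lr q c g).natDegree = g.totalDegree := by
  by_cases hg : g = 0
  · exact Eventually.of_forall fun q => ⟨1, one_ne_zero, fun c _ => by simp [hg]⟩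
  filter_upwards [top_ne_zero hg] with q hq
  exact ⟨1, one_ne_zero, fun c _ => le_antisymm (natDegree_LL_le _ _ g)
    (Polynomial.le_natDegree_of_ne_zero ((coeff_LL _ _ g).trans_ne hq))⟩

theorem natDegree_lr_le {d : ℕ} (q c : Fin d → l) (g : MvPolynomial (Fin d) l) :
    (lr q c g).natDegree ≤ g.totalDegree := natDegree_LL_le q c g

/-- For generic `q` the transform of `π` in `l[z][X]` is irreducible with constant leading
coefficient (or `π` is constant, impossible), and does not divide the transform of `ρ`; so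
`a π + b ρ = g(z) ≠ 0` (Gauss lemma, clear denominators). -/
theorem genLine_isCoprime [Infinite l] {d : ℕ} {π ρ : MvPolynomial (Fin (d + 1)) l}
    (hπ : Irreducible π) (h : ¬ π ∣ ρ) : GenLine d fun q c => IsCoprime (lr q c π) (lr q c ρ) := by
  filter_upwards [natDegree_TT hπ.ne_zero] with q hq
  obtain ⟨g, hg, h1⟩ := coprime_of q (P := TT q π) (Q := TT q ρ)
    ((MulEquiv.irreducible_iff (TT q)).2 hπ) (hq.trans_ne (totalDegree_ne_zero hπ))
    (by rwa [map_dvd_iff])
  exact ⟨g, hg, fun c hc => by simpa only [map_TT] using h1 c hc⟩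

/-- the derivative of `lr q c π` is `lr q c (∑ q j ∂ j π)`; some `∂ j π ≠ 0` as `l` is perfect -/
theorem genLine_separable [IsAlgClosed l] {d : ℕ} {π : MvPolynomial (Fin (d + 1)) l}
    (hπ : Irreducible π) : GenLine d fun q c => (lr q c π).Separable := by
  obtain ⟨j, hj⟩ := exists_pderiv hπ
  obtain ⟨m, hm⟩ := MvPolynomial.ne_zero_iff.1 hj
  have hH : (∑ i, MvPolynomial.C ((MvPolynomial.pderiv i π).coeff m) * MvPolynomial.X i :
      MvPolynomial (Fin (d + 1)) l).IsHomogeneous 1 :=
    MvPolynomial.IsHomogeneous.sum _ _ _ fun i _ => MvPolynomial.isHomogeneous_C_mul_X _ _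
  have hH0 : (∑ i, MvPolynomial.C ((MvPolynomial.pderiv i π).coeff m) * MvPolynomial.X i :
      MvPolynomial (Fin (d + 1)) l) ≠ 0 := by
    intro h
    have := congrArg (MvPolynomial.eval (Pi.single j 1)) h
    simp [Pi.single_apply] at this
    exact hm this
  filter_upwards [natDegree_TT hπ.ne_zero, eventually_eval_ne_zero (dehom_ne_zero hH hH0)]
    with q hq hq'
  rw [eval_dehom] at hq'
  have hd := hq.trans_ne (totalDegree_ne_zero hπ)
  have e : Polynomial.derivative (TT q π) = TT q (∑ i, MvPolynomial.C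
      ((Fin.cons 1 q : Fin (d + 1) → l) i) * MvPolynomial.pderiv i π) := by
    rw [TT_eq, derivative_LL, map_sum]
    refine Finset.sum_congr rfl fun i _ => ?_
    rw [map_mul, ← TT_eq]
    congr 1
    exact ((TT q).commutes _).symm
  have h0 : Polynomial.derivative (TT q π) ≠ 0 := by
    rw [e]
    intro h
    have h1 := congrArg (MvPolynomial.coeff m) ((map_eq_zero_iff _ (TT q).injective).1 h)
    apply hq'
    simpa [MvPolynomial.coeff_sum, mul_comm] using h1
  obtain ⟨g, hg, h1⟩ := coprime_of q (P := TT q π) (Q := Polynomial.derivative (TT q π))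
    ((MulEquiv.irreducible_iff (TT q)).2 hπ) hd fun h =>
      (Polynomial.natDegree_derivative_lt hd).not_ge (Polynomial.natDegree_le_of_dvd h h0)
  refine ⟨g, hg, fun c hc => ?_⟩
  have h2 := h1 c hc
  rw [← Polynomial.derivative_map, map_TT] at h2
  exact h2

end Vale.Agent.P019
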