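import Vale.Agent.P019.ZAR
import Vale.Agent.P019.GEN

/-! P019: Bertini irreducibility, field form. -/

open IntermediateField Filter

namespace Vale.Agent.P019

namespace BZAux

section transfer

variable {F F' Ω : Type*} [Field F] [Field F'] [Field Ω] [Algebra F Ω] [Algebra F' Ω]

theorem exists_hom (h : ∀ a : F, ∃ b : F', algebraMap F' Ω b = algebraMap F Ω a) :
    ∃ φ : F →+* F', ∀ a, algebraMap F' Ω (φ a) = algebraMap F Ω a := by
  choose f hf using h
  have hi := (algebraMap F' Ω).injective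
  refine ⟨⟨⟨⟨f, hi ?_⟩, fun a b => hi ?_⟩, hi ?_, fun a b => hi ?_⟩, hf⟩ <;> simp [hf]

theorem deg_le_of_coeff {θ : Ω} (hθ : IsIntegral F θ)
    (h : ∀ i, ∃ b : F', algebraMap F' Ω b = algebraMap F Ω ((minpoly F θ).coeff i)) :
    (minpoly F' θ).natDegree ≤ (minpoly F θ).natDegree := by
  have hl : (minpoly F θ).map (algebraMap F Ω) ∈ Polynomial.lifts (algebraMap F' Ω) := by
    rw [Polynomial.lifts_iff_coeff_lifts]
    intro n
    rw [Polynomial.coeff_map]
    exact h n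
  obtain ⟨g, hg, hdeg, hmon⟩ := Polynomial.lifts_and_natDegree_eq_and_monic hl
    ((minpoly.monic hθ).map _)
  rw [Polynomial.natDegree_map] at hdeg
  rw [← hdeg]
  refine Polynomial.natDegree_le_of_dvd (minpoly.dvd F' θ ?_) hmon.ne_zero
  rw [Polynomial.aeval_def, Polynomial.eval₂_eq_eval_map, hg, ← Polynomial.eval₂_eq_eval_map,
    ← Polynomial.aeval_def, minpoly.aeval]

theorem isAlgebraic_of (h : ∀ a : F, ∃ b : F', algebraMap F' Ω b = algebraMap F Ω a) {θ : Ω}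
    (hθ : IsAlgebraic F θ) : IsAlgebraic F' θ := by
  obtain ⟨φ, hφ⟩ := exists_hom h
  let _ := φ.toAlgebra
  have : IsScalarTower F F' Ω := .of_algebraMap_eq fun a => (hφ a).symm
  exact hθ.tower_top F'

theorem isSeparable_of (h : ∀ a : F, ∃ b : F', algebraMap F' Ω b = algebraMap F Ω a) {θ : Ω}
    (hθ : IsSeparable F θ) : IsSeparable F' θ := by
  obtain ⟨φ, hφ⟩ := exists_hom h
  let _ := φ.toAlgebra
  have : IsScalarTower F F' Ω := .of_algebraMap_eq fun a => (hφ a).symm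
  exact hθ.tower_top F'

theorem deg_eq (h : ∀ a : F, ∃ b : F', algebraMap F' Ω b = algebraMap F Ω a)
    (h' : ∀ b : F', ∃ a : F, algebraMap F Ω a = algebraMap F' Ω b) {θ : Ω}
    (hθ : IsIntegral F θ) : (minpoly F' θ).natDegree = (minpoly F θ).natDegree :=
  le_antisymm (deg_le_of_coeff hθ fun _ => h _)
    (deg_le_of_coeff (isAlgebraic_of h hθ.isAlgebraic).isIntegral fun _ => h' _)

end transfer

section keep

variable {A R Ω : Type*} [Field A] [Field R] [Field Ω] [Algebra A R] [Algebra R Ω] [Algebra A Ω]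
  [IsScalarTower A R Ω]

theorem keep_fin {θ : Ω} (hθ : IsSeparable R θ) (h : separableClosure A R⟮θ⟯ = ⊥)
    (Φ : IntermediateField A Ω) [FiniteDimensional A Φ] :
    (minpoly R θ).natDegree ≤ (minpoly (adjoin R (Φ : Set Ω)) θ).natDegree := by
  have hR : separableClosure A R = ⊥ := by
    refine bot_unique fun w hw => ?_
    have : algebraMap R R⟮θ⟯ w ∈ separableClosure A R⟮θ⟯ :=
      (map_mem_separableClosure_iff (IsScalarTower.toAlgHom A R R⟮θ⟯)).2 hw
    rw [h, IntermediateField.mem_bot] at this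
    obtain ⟨a, ha⟩ := this
    rw [IntermediateField.mem_bot]
    refine ⟨a, (algebraMap R R⟮θ⟯).injective ?_⟩
    rw [← ha, ← IsScalarTower.algebraMap_apply]
  have : IsScalarTower A R⟮θ⟯ Ω := .of_algebraMap_eq fun a => rfl
  have e1 := finSepDegree_adjoin h Φ
  have e2 := finSepDegree_adjoin hR Φ
  have halg : ∀ w ∈ (Φ : Set Ω), IsIntegral A w := fun w hw =>
    (IntermediateField.isIntegral_iff (x := (⟨w, hw⟩ : Φ))).1 (Algebra.IsIntegral.isIntegral _)
  have : Algebra.IsAlgebraic R⟮θ⟯ (adjoin R⟮θ⟯ (Φ : Set Ω)) :=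
    isAlgebraic_adjoin fun w hw => (halg w hw).tower_top
  have hθN : IsIntegral (adjoin R (Φ : Set Ω)) θ := hθ.isIntegral.tower_top
  have : Algebra.IsAlgebraic (adjoin R (Φ : Set Ω)) (adjoin R (Φ : Set Ω))⟮θ⟯ :=
    isAlgebraic_adjoin_simple hθN
  have t1 := Field.finSepDegree_mul_finSepDegree_of_isAlgebraic R R⟮θ⟯ (adjoin R⟮θ⟯ (Φ : Set Ω))
  have t2 := Field.finSepDegree_mul_finSepDegree_of_isAlgebraic R (adjoin R (Φ : Set Ω))
    (adjoin R (Φ : Set Ω))⟮θ⟯
  have hEq : (adjoin R⟮θ⟯ (Φ : Set Ω)).restrictScalars R =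
      ((adjoin R (Φ : Set Ω))⟮θ⟯).restrictScalars R := by
    rw [adjoin_adjoin_left, adjoin_adjoin_left, Set.union_comm]
  have e3 : Field.finSepDegree R (adjoin R⟮θ⟯ (Φ : Set Ω)) =
      Field.finSepDegree R (adjoin R (Φ : Set Ω))⟮θ⟯ :=
    Field.finSepDegree_eq_of_equiv R _ _ (equivOfEq hEq)
  rw [e1, finSepDegree_adjoin_simple_eq_natSepDegree R Ω hθ.isIntegral.isAlgebraic,
    Polynomial.Separable.natSepDegree_eq_natDegree hθ] at t1
  rw [e2, finSepDegree_adjoin_simple_eq_natSepDegree _ Ω hθN.isAlgebraic, ← e3, ← t1,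
    mul_comm] at t2
  have hpos : 0 < Field.finSepDegree A Φ := Nat.pos_of_ne_zero (NeZero.ne _)
  rw [← Nat.eq_of_mul_eq_mul_right hpos t2]
  exact Polynomial.natSepDegree_le_natDegree _

theorem keep {θ : Ω} (hθ : IsSeparable R θ) (h : separableClosure A R⟮θ⟯ = ⊥)
    {S : Set Ω} (hS : ∀ w ∈ S, IsIntegral A w) :
    (minpoly (adjoin R S) θ).natDegree = (minpoly R θ).natDegree := by
  classical
  refine le_antisymm (deg_le_of_coeff hθ.isIntegral fun i => ⟨algebraMap R _ _, rfl⟩) ?_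
  have hθL : IsIntegral (adjoin R S) θ := hθ.isIntegral.tower_top
  choose T hT hT' using fun i => exists_finset_of_mem_adjoin ((minpoly (adjoin R S) θ).coeff i).2
  let T₀ : Finset Ω := (minpoly (adjoin R S) θ).support.biUnion T
  have hT₀ : (T₀ : Set Ω) ⊆ S := by
    intro w hw
    obtain ⟨i, -, hi⟩ := Finset.mem_biUnion.1 hw
    exact hT i hi
  have : FiniteDimensional A (adjoin A (T₀ : Set Ω)) :=
    finiteDimensional_adjoin fun w hw => hS w (hT₀ hw)
  refine (keep_fin hθ h (adjoin A (T₀ : Set Ω))).trans (deg_le_of_coeff hθL fun i => ?_)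
  by_cases hi : i ∈ (minpoly (adjoin R S) θ).support
  · refine ⟨⟨_, adjoin.mono R _ _ ?_ (hT' i)⟩, rfl⟩
    intro w hw
    exact subset_adjoin A _ (Finset.mem_biUnion.2 ⟨i, hi, hw⟩)
  · exact ⟨0, by rw [Polynomial.notMem_support_iff.1 hi, map_zero, map_zero]⟩

end keep

section step

variable {κ Ω : Type*} [Field κ] [Field Ω] [Algebra κ Ω]

theorem indep_shift {m : ℕ} {x y : Ω} {t : Fin m → Ω}
    (h : AlgebraicIndependent κ (Fin.cons x (Fin.cons y t) : Fin (m + 2) → Ω)) (a : κ) :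
    AlgebraicIndependent κ⟮y - algebraMap κ Ω a * x⟯ (Fin.cons x t : Fin (m + 1) → Ω) := by
  let f : Fin (m + 1) ⊕ Unit → MvPolynomial (Fin (m + 2)) κ :=
    Sum.elim (Fin.cons (MvPolynomial.X 0) fun j => MvPolynomial.X j.succ.succ)
      fun _ => MvPolynomial.X 1 - MvPolynomial.C a * MvPolynomial.X 0
  let g : Fin (m + 2) → MvPolynomial (Fin (m + 1) ⊕ Unit) κ :=
    Fin.cons (MvPolynomial.X (Sum.inl 0))
      (Fin.cons (MvPolynomial.X (Sum.inr ()) + MvPolynomial.C a * MvPolynomial.X (Sum.inl 0))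
        fun j => MvPolynomial.X (Sum.inl j.succ))
  have hgf : (MvPolynomial.aeval g).comp (MvPolynomial.aeval f) =
      AlgHom.id κ (MvPolynomial (Fin (m + 1) ⊕ Unit) κ) := by
    refine MvPolynomial.algHom_ext ?_
    rintro (i | i)
    · refine Fin.cases ?_ (fun j => ?_) i <;> simp [f, g]
    · simp [f, g]
  have hinj : Function.Injective ((MvPolynomial.aeval
      (Fin.cons x (Fin.cons y t) : Fin (m + 2) → Ω)).comp (MvPolynomial.aeval (R := κ) f)) := by
    rw [AlgHom.coe_comp]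
    refine (algebraicIndependent_iff_injective_aeval.1 h).comp
      (Function.LeftInverse.injective (g := MvPolynomial.aeval g) fun p => ?_)
    exact DFunLike.congr_fun hgf p
  have hcomp : (MvPolynomial.aeval (Fin.cons x (Fin.cons y t) : Fin (m + 2) → Ω)).comp
      (MvPolynomial.aeval (R := κ) f) = MvPolynomial.aeval (Sum.elim
        (Fin.cons x t : Fin (m + 1) → Ω) fun _ : Unit => y - algebraMap κ Ω a * x) := by
    refine MvPolynomial.algHom_ext ?_
    rintro (i | i)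
    · refine Fin.cases ?_ (fun j => ?_) i <;> simp [f]
    · simp [f]
  rw [hcomp] at hinj
  have h2 := (AlgebraicIndependent.sumElim_iff.1 hinj).2
  rw [Set.range_const] at h2
  exact algebraicIndependent_adjoin_iff.2 h2

theorem adjoin_shift {m : ℕ} (x y : Ω) (t : Fin m → Ω) (a : κ) :
    (adjoin κ⟮y - algebraMap κ Ω a * x⟯
        (Set.range (Fin.cons x t : Fin (m + 1) → Ω))).restrictScalars κ =
      adjoin κ (Set.range (Fin.cons x (Fin.cons y t) : Fin (m + 2) → Ω)) := by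
  rw [adjoin_adjoin_left]
  apply le_antisymm
  · rw [adjoin_le_iff]
    have hx : x ∈ adjoin κ (Set.range (Fin.cons x (Fin.cons y t) : Fin (m + 2) → Ω)) :=
      subset_adjoin _ _ ⟨0, rfl⟩
    have hy : y ∈ adjoin κ (Set.range (Fin.cons x (Fin.cons y t) : Fin (m + 2) → Ω)) :=
      subset_adjoin _ _ ⟨1, rfl⟩
    rintro w (rfl | ⟨i, rfl⟩)
    · exact sub_mem hy (mul_mem (IntermediateField.algebraMap_mem _ a) hx)
    · refine Fin.cases hx (fun j => subset_adjoin _ _ ⟨j.succ.succ, rfl⟩) i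
  · rw [adjoin_le_iff]
    have hx : x ∈ adjoin κ ({y - algebraMap κ Ω a * x} ∪
        Set.range (Fin.cons x t : Fin (m + 1) → Ω)) := subset_adjoin _ _ (Or.inr ⟨0, rfl⟩)
    have hz : y - algebraMap κ Ω a * x ∈ adjoin κ ({y - algebraMap κ Ω a * x} ∪
        Set.range (Fin.cons x t : Fin (m + 1) → Ω)) := subset_adjoin _ _ (Or.inl rfl)
    rintro w ⟨i, rfl⟩
    refine Fin.cases hx (fun j => Fin.cases ?_ (fun j => subset_adjoin _ _
      (Or.inr ⟨j.succ, rfl⟩)) j) i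
    have := add_mem hz (mul_mem (IntermediateField.algebraMap_mem _ a) hx)
    rwa [sub_add_cancel] at this

/-- goodness inside a subfield gives separable closedness -/
theorem mem_of_good {K : IntermediateField κ Ω} {z : K} (hz : IsGood κ z) {w : Ω} (hw : w ∈ K)
    (hs : IsSeparable κ⟮(z : Ω)⟯ w) : w ∈ κ⟮(z : Ω)⟯ := by
  have hl : lift κ⟮z⟯ = κ⟮(z : Ω)⟯ := lift_adjoin_simple κ K z
  have h1 : IsAlgebraic κ⟮z⟯ w := by
    refine isAlgebraic_of (fun b => ?_) hs.isIntegral.isAlgebraic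
    have hb : (b : Ω) ∈ lift κ⟮z⟯ := by rw [hl]; exact b.2
    obtain ⟨c, hc, hcb⟩ := hb
    exact ⟨⟨c, hc⟩, hcb⟩
  have h2 : IsAlgebraic κ⟮z⟯ (⟨w, hw⟩ : K) :=
    (isAlgebraic_algebraMap_iff (algebraMap K Ω).injective).1 h1
  obtain ⟨n, hn⟩ := hz.2 _ ((mem_Ecl κ).2 h2)
  have h3 : w ^ ringExpChar κ ^ n ∈ κ⟮(z : Ω)⟯ := by
    rw [← hl]
    exact ⟨_, hn, by simp⟩
  have : ExpChar κ⟮(z : Ω)⟯ (ringExpChar κ) :=
    expChar_of_injective_algebraMap (algebraMap κ _).injective _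
  have h4 := (minpoly.natSepDegree_eq_one_iff_pow_mem (F := κ⟮(z : Ω)⟯) (x := w)
    (ringExpChar κ)).2 ⟨n, ⟨_, h3⟩, rfl⟩
  rw [Polynomial.Separable.natSepDegree_eq_natDegree hs, minpoly.natDegree_eq_one_iff] at h4
  obtain ⟨c, hc⟩ := h4
  exact hc ▸ c.2

theorem keep_Ecl {ι : Type*} {z θ : Ω} {u : ι → Ω}
    (hθ : IsSeparable (adjoin κ⟮z⟯ (Set.range u)) θ)
    (h : ∀ w ∈ (adjoin κ⟮z⟯ (Set.range u))⟮θ⟯, IsSeparable κ⟮z⟯ w → w ∈ κ⟮z⟯) :
    (minpoly (adjoin (Ecl κ z) (Set.range u)) θ).natDegree =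
      (minpoly (adjoin κ⟮z⟯ (Set.range u)) θ).natDegree := by
  have : IsScalarTower κ⟮z⟯ (adjoin κ⟮z⟯ (Set.range u))⟮θ⟯ Ω := .of_algebraMap_eq fun a => rfl
  have hsep : separableClosure κ⟮z⟯ (adjoin κ⟮z⟯ (Set.range u))⟮θ⟯ = ⊥ := by
    refine bot_unique fun w hw => ?_
    have := h w w.2 (mem_separableClosure_iff.1 ((map_mem_separableClosure_iff
      (IsScalarTower.toAlgHom κ⟮z⟯ (adjoin κ⟮z⟯ (Set.range u))⟮θ⟯ Ω)).2 hw))
    exact IntermediateField.mem_bot.2 ⟨⟨_, this⟩, rfl⟩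
  rw [← keep hθ hsep (S := (Ecl κ z : Set Ω)) fun w hw => ((mem_Ecl κ).1 hw).isIntegral]
  have hEq : (adjoin (Ecl κ z) (Set.range u)).toSubfield =
      (adjoin (adjoin κ⟮z⟯ (Set.range u)) (Ecl κ z : Set Ω)).toSubfield := by
    rw [adjoin_toSubfield, adjoin_toSubfield]
    apply le_antisymm
    · rw [Subfield.closure_le]
      rintro w (⟨c, rfl⟩ | hw)
      · exact Subfield.subset_closure (Or.inr c.2)
      · exact Subfield.subset_closure (Or.inl ⟨⟨w, subset_adjoin _ _ hw⟩, rfl⟩)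
    · rw [Subfield.closure_le]
      rintro w (⟨c, rfl⟩ | hw)
      · have hc : (c : Ω) ∈ (adjoin κ⟮z⟯ (Set.range u)).toSubfield := c.2
        rw [adjoin_toSubfield] at hc
        refine Subfield.closure_mono (Set.union_subset_union_left _ ?_) hc
        rintro _ ⟨e, rfl⟩
        exact ⟨⟨_, (mem_Ecl κ).2 (isAlgebraic_algebraMap e)⟩, rfl⟩
      · exact Subfield.subset_closure (Or.inl ⟨⟨w, hw⟩, rfl⟩)
  refine deg_eq (fun c => ⟨⟨c, ?_⟩, rfl⟩) (fun c => ⟨⟨c, ?_⟩, rfl⟩) hθ.isIntegral.tower_top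
  · rw [← mem_toSubfield, hEq]; exact c.2
  · rw [← mem_toSubfield, ← hEq]; exact c.2

end step

end BZAux

open BZAux

variable {κ Ω : Type*} [Field κ] [Field Ω] [Algebra κ Ω] [IsAlgClosed κ] [IsAlgClosed Ω]

/-- One step. Let `K = κ(x, y, t, θ)`, `z = y - a x` good in `K` (`finite_not_isGood`),
`A = κ(z)`, separably closed in `K` and in `A(x, t)`. For `F' / A` finite,
`finSepDegree_adjoin` gives `[K F' : K]ₛ = [F' : A]ₛ = [F'(x, t) : A(x, t)]ₛ`, so `θ` keeps its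
degree over `F'(x, t)`, hence over `κ'(x, t)` with `κ'` the algebraic closure of `A` in `Ω`. -/
theorem bertini_step {m : ℕ} {x y : Ω} {t : Fin m → Ω}
    (h : AlgebraicIndependent κ (Fin.cons x (Fin.cons y t) : Fin (m + 2) → Ω)) {θ : Ω}
    (hθ : IsSeparable (adjoin κ (Set.range (Fin.cons x (Fin.cons y t) : Fin (m + 2) → Ω))) θ) :
    ∀ᶠ a in cofinite,
      AlgebraicIndependent (Ecl κ (y - algebraMap κ Ω a * x)) (Fin.cons x t : Fin (m + 1) → Ω) ∧
      (minpoly (adjoin (Ecl κ (y - algebraMap κ Ω a * x))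
          (Set.range (Fin.cons x t : Fin (m + 1) → Ω))) θ).natDegree =
        (minpoly (adjoin κ (Set.range (Fin.cons x (Fin.cons y t) : Fin (m + 2) → Ω))) θ).natDegree := by
  let K : IntermediateField κ Ω :=
    adjoin κ (Set.range (Fin.cons x (Fin.cons y t) : Fin (m + 2) → Ω) ∪ {θ})
  have : Algebra.EssFiniteType κ K :=
    essFiniteType_iff.2 (fg_adjoin_of_finite ((Set.finite_range _).union (Set.finite_singleton θ)))
  have hx : x ∈ K := subset_adjoin _ _ (Or.inl ⟨0, rfl⟩)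
  have hy : y ∈ K := subset_adjoin _ _ (Or.inl ⟨1, rfl⟩)
  have hxy : AlgebraicIndependent κ ![(⟨x, hx⟩ : K), ⟨y, hy⟩] := by
    refine AlgebraicIndependent.of_comp K.val ?_
    have h2 := h.comp (Fin.castLE (by omega : 2 ≤ m + 2)) (Fin.castLE_injective _)
    have e : (Fin.cons x (Fin.cons y t) : Fin (m + 2) → Ω) ∘ Fin.castLE (by omega : 2 ≤ m + 2) =
        K.val ∘ ![(⟨x, hx⟩ : K), ⟨y, hy⟩] := by
      funext i
      fin_cases i <;> rfl
    rwa [e] at h2
  refine (Filter.eventually_cofinite.2 (finite_not_isGood hxy)).mono fun a ha => ?_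
  refine ⟨(indep_shift h a).algebraicClosure, ?_⟩
  have hsh := adjoin_shift x y t a
  have m1 : ∀ c : adjoin κ (Set.range (Fin.cons x (Fin.cons y t) : Fin (m + 2) → Ω)),
      ∃ b : adjoin κ⟮y - algebraMap κ Ω a * x⟯ (Set.range (Fin.cons x t : Fin (m + 1) → Ω)),
        algebraMap _ Ω b = algebraMap _ Ω c := fun c =>
    ⟨⟨c, by rw [← mem_restrictScalars κ, hsh]; exact c.2⟩, rfl⟩
  have m2 : ∀ b : adjoin κ⟮y - algebraMap κ Ω a * x⟯ (Set.range (Fin.cons x t : Fin (m + 1) → Ω)),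
      ∃ c : adjoin κ (Set.range (Fin.cons x (Fin.cons y t) : Fin (m + 2) → Ω)),
        algebraMap _ Ω c = algebraMap _ Ω b := fun b =>
    ⟨⟨b, by rw [← hsh]; exact b.2⟩, rfl⟩
  rw [keep_Ecl (isSeparable_of m1 hθ) ?_, deg_eq m1 m2 hθ.isIntegral]
  intro w hw hs
  refine mem_of_good ha ?_ hs
  have hw' : w ∈ (((adjoin κ⟮y - algebraMap κ Ω a * x⟯
      (Set.range (Fin.cons x t : Fin (m + 1) → Ω)))⟮θ⟯).restrictScalars
        κ⟮y - algebraMap κ Ω a * x⟯).restrictScalars κ := hw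
  rw [adjoin_adjoin_left, adjoin_adjoin_left, ← Set.union_assoc, adjoin_union,
    ← adjoin_adjoin_left, hsh, ← adjoin_union] at hw'
  exact hw'

namespace BZAux

universe u

/-- the statement proved by induction -/
def Stmt (l κ Ω : Type*) [Field l] [Field κ] [Field Ω] [Algebra κ Ω] [Algebra l Ω] (d : ℕ) :
    Prop :=
  ∀ (s : Fin (d + 1) → Ω) (θ : Ω), AlgebraicIndependent κ s →
    IsSeparable (adjoin κ (Set.range s)) θ →
    ∀ᶠ q in genF l d, ∃ κ' : IntermediateField κ Ω, IsAlgClosed κ' ∧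
      (∀ j : Fin d, s j.succ - algebraMap l Ω (q j) * s 0 ∈ κ') ∧ Transcendental κ' (s 0) ∧
      (minpoly κ'⟮s 0⟯ θ).natDegree = (minpoly (adjoin κ (Set.range s)) θ).natDegree

variable {l : Type*} [Field l]

theorem stmt_zero [Algebra l Ω] : Stmt l κ Ω 0 := by
  intro s θ h hθ
  have hb : IsAlgClosed (⊥ : IntermediateField κ Ω) := by
    rw [← (IsAlgClosed.algebraicClosure_eq_bot_iff κ Ω).2 inferInstance]
    exact (algebraicClosure.isAlgClosure κ Ω).isAlgClosed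
  refine Eventually.of_forall fun q => ⟨⊥, hb,
    fun j => j.elim0, fun ha => h.transcendental 0 (isAlgebraic_of (fun c => ?_) ha), ?_⟩
  · exact IntermediateField.mem_bot.1 c.2
  · have e : ((⊥ : IntermediateField κ Ω)⟮s 0⟯).restrictScalars κ = adjoin κ (Set.range s) := by
      have hr : Set.range s = {s 0} := by
        ext w
        exact ⟨fun ⟨i, hi⟩ => by rw [← hi, Fin.fin_one_eq_zero i]; rfl, fun hw => ⟨0, hw.symm⟩⟩
      rw [restrictScalars_adjoin, hr, adjoin_union, adjoin_self, bot_sup_eq]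
    refine deg_eq (fun c => ⟨⟨c, ?_⟩, rfl⟩) (fun c => ⟨⟨c, ?_⟩, rfl⟩) hθ.isIntegral
    · rw [← mem_restrictScalars κ, e]; exact c.2
    · rw [← e]; exact c.2

theorem stmt_succ [Algebra l κ] [Algebra l Ω] [IsScalarTower l κ Ω] {d : ℕ}
    (H : ∀ F : IntermediateField κ Ω, IsAlgClosed F → Stmt l F Ω d) : Stmt l κ Ω (d + 1) := by
  intro s θ h hθ
  obtain ⟨x, y, t, rfl⟩ : ∃ (x y : Ω) (t : Fin d → Ω), s = Fin.cons x (Fin.cons y t) :=
    ⟨s 0, s 1, fun j => s j.succ.succ, by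
      funext i
      refine Fin.cases rfl (fun j => Fin.cases rfl (fun _ => rfl) j) i⟩
  rw [genF_succ]
  refine ((algebraMap l κ).injective.tendsto_cofinite.eventually (bertini_step h hθ)).mono
    fun a ha => ?_
  obtain ⟨h1, h2⟩ := ha
  have hc : IsAlgClosed (Ecl κ (y - algebraMap κ Ω (algebraMap l κ a) * x)) :=
    (algebraicClosure.isAlgClosure κ⟮y - algebraMap κ Ω (algebraMap l κ a) * x⟯ Ω).isAlgClosed
  have hs : IsSeparable (adjoin (Ecl κ (y - algebraMap κ Ω (algebraMap l κ a) * x))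
      (Set.range (Fin.cons x t : Fin (d + 1) → Ω))) θ := by
    refine isSeparable_of (fun c => ⟨⟨c, ?_⟩, rfl⟩) hθ
    obtain ⟨c, hc2⟩ := c
    change c ∈ _
    rw [← adjoin_shift x y t (algebraMap l κ a), mem_restrictScalars, ← mem_toSubfield,
      adjoin_toSubfield] at hc2
    rw [← mem_toSubfield, adjoin_toSubfield]
    refine Subfield.closure_mono (Set.union_subset_union_left _ ?_) hc2
    rintro _ ⟨e, rfl⟩
    exact ⟨⟨_, (mem_Ecl κ).2 (isAlgebraic_algebraMap e)⟩, rfl⟩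
  refine (H _ hc _ θ h1 hs).mono ?_
  rintro b ⟨κ', k1, k2, k3, k4⟩
  refine ⟨κ'.restrictScalars κ, k1, fun j => Fin.cases ?_ (fun i => k2 i) j, k3, k4.trans h2⟩
  change y - algebraMap l Ω a * x ∈ κ'
  rw [IsScalarTower.algebraMap_apply l κ Ω a]
  exact κ'.algebraMap_mem ⟨_, self_mem_Ecl (y - algebraMap κ Ω (algebraMap l κ a) * x)⟩

theorem stmt_aux {Ω : Type u} [Field Ω] [IsAlgClosed Ω] [Algebra l Ω] (d : ℕ) :
    ∀ (κ : Type u) [Field κ] [IsAlgClosed κ] [Algebra κ Ω] [Algebra l κ] [IsScalarTower l κ Ω],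
      Stmt l κ Ω d := by
  induction d with
  | zero => intro κ _ _ _ _ _; exact stmt_zero
  | succ d ih =>
    intro κ _ _ _ _ _
    refine stmt_succ fun F hF => ?_
    have : IsScalarTower l F Ω := .of_algebraMap_eq fun a => rfl
    exact ih F

end BZAux

/-- iterate `bertini_step` (induction on `d`, generalizing `κ`; `Ecl κ z` is algebraically closed
inside `Ω`) -/
theorem bertini_iter {l : Type*} [Field l] [Algebra l κ] [Algebra l Ω] [IsScalarTower l κ Ω]
    {d : ℕ} {s : Fin (d + 1) → Ω} (h : AlgebraicIndependent κ s) {θ : Ω}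
    (hθ : IsSeparable (adjoin κ (Set.range s)) θ) :
    ∀ᶠ q in genF l d, ∃ κ' : IntermediateField κ Ω, IsAlgClosed κ' ∧
      (∀ j : Fin d, s j.succ - algebraMap l Ω (q j) * s 0 ∈ κ') ∧ Transcendental κ' (s 0) ∧
      (minpoly κ'⟮s 0⟯ θ).natDegree = (minpoly (adjoin κ (Set.range s)) θ).natDegree := by
  cases d with
  | zero => exact stmt_zero s θ h hθ
  | succ d =>
    refine stmt_succ (fun F hF => ?_) s θ h hθ
    have : IsScalarTower l F Ω := .of_algebraMap_eq fun a => rfl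
    exact stmt_aux d F

end Vale.Agent.P019
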