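import Vale.Agent.P019.Defs

/-! P019: working definitions and their elementary API. -/

open IsLocalRing IntermediateField

namespace Vale.Agent.P019

section classes

variable (ℓ : ℕ) {F F' : Type*} [Field F] [Field F']

open Classical in
/-- class of a field element (junk value `0` at `0`). -/
noncomputable def cl (x : F) : V ℓ F := if h : x = 0 then 0 else cls ℓ (Units.mk0 x h)

variable {ℓ}

theorem cls_mul (x y : Fˣ) : cls ℓ (x * y) = cls ℓ x + cls ℓ y := by
  simp [cls, ofMul_mul]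

theorem cls_one : cls ℓ (1 : Fˣ) = 0 := by
  simp [cls]

@[simp] theorem cl_zero : cl ℓ (0 : F) = 0 := by simp [cl]

theorem cl_coe (x : Fˣ) : cl ℓ (x : F) = cls ℓ x := by
  simp [cl]

theorem cl_of_ne {x : F} (h : x ≠ 0) : cl ℓ x = cls ℓ (Units.mk0 x h) := by simp [cl, h]

@[simp] theorem cl_one : cl ℓ (1 : F) = 0 := by
  have := cl_coe (ℓ := ℓ) (1 : Fˣ)
  rw [Units.val_one] at this
  rw [this, cls_one]

theorem cl_mul {x y : F} (hx : x ≠ 0) (hy : y ≠ 0) : cl ℓ (x * y) = cl ℓ x + cl ℓ y := by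
  rw [cl_of_ne hx, cl_of_ne hy, ← cls_mul, ← cl_coe]; simp

theorem cl_inv (x : F) : cl ℓ x⁻¹ = -cl ℓ x := by
  by_cases hx : x = 0
  · simp [hx]
  · have := cl_mul (ℓ := ℓ) (inv_ne_zero hx) hx
    rw [inv_mul_cancel₀ hx, cl_one] at this
    exact eq_neg_of_add_eq_zero_left this.symm

theorem cl_div {x y : F} (hx : x ≠ 0) (hy : y ≠ 0) : cl ℓ (x / y) = cl ℓ x - cl ℓ y := by
  rw [div_eq_mul_inv, cl_mul hx (inv_ne_zero hy), cl_inv, sub_eq_add_neg]

theorem cl_pow (x : F) (n : ℕ) : cl ℓ (x ^ n) = (n : ZMod ℓ) • cl ℓ x := by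
  by_cases hx : x = 0
  · subst hx
    rcases n with _ | n <;> simp
  · induction n with
    | zero => simp
    | succ n ih => rw [pow_succ, cl_mul (pow_ne_zero _ hx) hx, ih]; simp [add_smul]

theorem cl_zpow (x : F) (n : ℤ) : cl ℓ (x ^ n) = (n : ZMod ℓ) • cl ℓ x := by
  rcases n with n | n
  · simp [cl_pow]
  · rw [zpow_negSucc, cl_inv, cl_pow, Int.cast_negSucc, neg_smul]

theorem cl_prod {ι : Type*} (s : Finset ι) (x : ι → F) (hx : ∀ i ∈ s, x i ≠ 0) :
    cl ℓ (∏ i ∈ s, x i) = ∑ i ∈ s, cl ℓ (x i) := by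
  classical
  induction s using Finset.induction_on with
  | empty => simp
  | insert a s ha ih =>
    rw [Finset.prod_insert ha, Finset.sum_insert ha, cl_mul (hx a (by simp))
      (Finset.prod_ne_zero_iff.2 fun i hi => hx i (by simp [hi])), ih fun i hi => hx i (by simp [hi])]

theorem cl_surj (v : V ℓ F) : ∃ x : F, x ≠ 0 ∧ cl ℓ x = v := by
  obtain ⟨a, rfl⟩ := Submodule.mkQ_surjective _ v
  exact ⟨((Additive.toMul a : Fˣ) : F), Units.ne_zero _, by rw [cl_coe]; rfl⟩

theorem cl_eq_zero_iff {x : F} (hx : x ≠ 0) : cl ℓ x = 0 ↔ ∃ y : F, x = y ^ ℓ := by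
  rw [cl_of_ne hx]
  change (Submodule.Quotient.mk _ : V ℓ F) = 0 ↔ _
  rw [Submodule.Quotient.mk_eq_zero]
  constructor
  · rintro ⟨a, ha⟩
    refine ⟨((Additive.toMul a : Fˣ) : F), ?_⟩
    have h2 : (Additive.toMul a) ^ ℓ = Units.mk0 x hx := by
      have := congrArg Additive.toMul ha
      simpa using this
    have := congrArg Units.val h2
    simpa using this.symm
  · rintro ⟨y, rfl⟩
    by_cases hy : y = 0
    · have hl : ℓ = 0 := by
        by_contra h
        exact hx (by simp [hy, h])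
      refine ⟨0, ?_⟩
      apply Additive.toMul.injective
      ext
      simp [hl]
    · refine ⟨Additive.ofMul (Units.mk0 y hy), ?_⟩
      apply Additive.toMul.injective
      ext
      simp

theorem cl_pow_self (x : F) : cl ℓ (x ^ ℓ) = 0 := by
  rw [cl_pow]; simp

theorem cl_eq_iff {x y : F} (hx : x ≠ 0) (hy : y ≠ 0) :
    cl ℓ x = cl ℓ y ↔ ∃ z : F, z ≠ 0 ∧ x = y * z ^ ℓ := by
  rw [← sub_eq_zero, ← cl_div hx hy, cl_eq_zero_iff (div_ne_zero hx hy)]
  constructor
  · rintro ⟨z, hz⟩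
    by_cases h0 : z = 0
    · refine ⟨1, one_ne_zero, ?_⟩
      have hl : ℓ = 0 := by
        by_contra h
        exact div_ne_zero hx hy (by simp [hz, h0, h])
      rw [hl, pow_zero] at hz
      rw [one_pow, mul_one]
      exact (div_eq_one_iff_eq hy).1 hz
    · exact ⟨z, h0, by rw [← hz]; field_simp⟩
  · rintro ⟨z, -, hz⟩
    exact ⟨z, by rw [hz]; field_simp⟩

variable (ℓ)

/-- the map on `V` induced by a field homomorphism -/
noncomputable def Vmap (φ : F →+* F') : V ℓ F →ₗ[ZMod ℓ] V ℓ F' :=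
  ModN.liftEquiv'.symm
    ⟨(ModN.mkQ ℓ).comp (MonoidHom.toAdditive (Units.map (φ : F →* F'))), fun g => by
      rw [← Nat.cast_smul_eq_nsmul (ZMod ℓ)]; simp⟩

variable {ℓ}

theorem Vmap_cl (φ : F →+* F') (x : F) : Vmap ℓ φ (cl ℓ x) = cl ℓ (φ x) := by
  by_cases hx : x = 0
  · simp [hx]
  · have hx' : φ x ≠ 0 := by simpa using hx
    rw [cl_of_ne hx, cl_of_ne hx']
    have : Units.mk0 (φ x) hx' = Units.map (φ : F →* F') (Units.mk0 x hx) := by ext; simp
    rw [this]
    rfl

/-- alternating pairs of functionals -/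
def Acl (f g : Module.Dual (ZMod ℓ) (V ℓ F)) : Prop :=
  ∀ x : F, x ≠ 0 → x ≠ 1 → f (cl ℓ x) * g (cl ℓ (1 - x)) = f (cl ℓ (1 - x)) * g (cl ℓ x)

/-- the only consequence of compatibility that the proof uses -/
def Compat (Θ : V ℓ F ≃ₗ[ZMod ℓ] V ℓ F') : Prop :=
  ∀ f g : Module.Dual (ZMod ℓ) (V ℓ F'), Acl f g ↔ Acl (f ∘ₗ Θ.toLinearMap) (g ∘ₗ Θ.toLinearMap)

variable (ℓ)

/-- classes of units of a valuation ring -/
def HO (O : ValuationSubring F) : Submodule (ZMod ℓ) (V ℓ F) :=
  Submodule.span (ZMod ℓ) {v | ∃ x : F, O.valuation x = 1 ∧ cl ℓ x = v}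

/-- classes of principal units of a valuation ring -/
def TO (O : ValuationSubring F) : Submodule (ZMod ℓ) (V ℓ F) :=
  Submodule.span (ZMod ℓ) {v | ∃ x : F, O.valuation (x - 1) < 1 ∧ cl ℓ x = v}

variable {ℓ}

/-- linear independence modulo a subspace -/
def IndepMod {ι : Type*} [Fintype ι] (H : Submodule (ZMod ℓ) (V ℓ F)) (x : ι → V ℓ F) : Prop :=
  ∀ c : ι → ZMod ℓ, ∑ i, c i • x i ∈ H → ∀ i, c i = 0

/-- condition (N): some `u`, `1 - u` are independent modulo `T` -/
def CondN (T : Submodule (ZMod ℓ) (V ℓ F)) : Prop :=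
  ∃ u : F, u ≠ 0 ∧ u ≠ 1 ∧
    ∀ a b : ZMod ℓ, a • cl ℓ u + b • cl ℓ (1 - u) ∈ T → a = 0 ∧ b = 0

/-- `ψ` is a pointwise limit of inertia functionals of valuations satisfying (N) -/
def Approx (ψ : Module.Dual (ZMod ℓ) (V ℓ F)) : Prop :=
  ∀ S : Finset (V ℓ F), ∃ (O : ValuationSubring F) (φ : Module.Dual (ZMod ℓ) (V ℓ F)),
    CondN (TO ℓ O) ∧ HO ℓ O ≤ LinearMap.ker φ ∧ ∀ v ∈ S, φ v = ψ v

/-- `v` on `F` and `w` on `F'` are matched by `Θ` -/
def Matched (Θ : V ℓ F ≃ₗ[ZMod ℓ] V ℓ F') (v : ValuationSubring F) (w : ValuationSubring F') :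
    Prop :=
  (TO ℓ v).map Θ.toLinearMap = TO ℓ w ∧ (HO ℓ v).map Θ.toLinearMap = HO ℓ w

/-- no `ℓ`-torsion in the quotient of value groups along `φ` -/
def ValInj (ℓ : ℕ) (φ : F →+* F') (O : ValuationSubring F') : Prop :=
  ∀ x : F, cl ℓ (φ x) ∈ HO ℓ O → cl ℓ x ∈ HO ℓ (O.comap φ)

end classes

section residues

variable {F : Type*} [Field F]

open Classical in
/-- residue map, with junk value `0` outside the ring -/
noncomputable def res (O : ValuationSubring F) (x : F) : ResidueField O :=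
  if h : x ∈ O then residue O ⟨x, h⟩ else 0

variable {O : ValuationSubring F}

theorem res_of_mem {x : F} (h : x ∈ O) : res O x = residue O ⟨x, h⟩ := by simp [res, h]

theorem res_coe (x : O) : res O (x : F) = residue O x := res_of_mem x.2

@[simp] theorem res_zero : res O 0 = 0 := by
  rw [res_of_mem O.zero_mem]; exact map_zero (residue O)

@[simp] theorem res_one : res O 1 = 1 := by
  rw [res_of_mem O.one_mem]; exact map_one (residue O)

theorem res_add {x y : F} (hx : x ∈ O) (hy : y ∈ O) : res O (x + y) = res O x + res O y := by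
  rw [res_of_mem hx, res_of_mem hy, res_of_mem (O.add_mem _ _ hx hy), ← map_add]; rfl

theorem res_mul {x y : F} (hx : x ∈ O) (hy : y ∈ O) : res O (x * y) = res O x * res O y := by
  rw [res_of_mem hx, res_of_mem hy, res_of_mem (O.mul_mem _ _ hx hy), ← map_mul]; rfl

theorem res_neg {x : F} (hx : x ∈ O) : res O (-x) = -res O x := by
  rw [res_of_mem hx, res_of_mem (O.neg_mem _ hx), ← map_neg]; rfl

theorem res_sub {x y : F} (hx : x ∈ O) (hy : y ∈ O) : res O (x - y) = res O x - res O y := by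
  rw [sub_eq_add_neg, res_add hx (O.neg_mem _ hy), res_neg hy, sub_eq_add_neg]

theorem res_pow {x : F} (hx : x ∈ O) (n : ℕ) : res O (x ^ n) = res O x ^ n := by
  induction n with
  | zero => simp
  | succ n ih => rw [pow_succ, res_mul (pow_mem hx n) hx, ih, pow_succ]

theorem res_eq_zero_iff {x : F} (hx : x ∈ O) : res O x = 0 ↔ O.valuation x < 1 := by
  rw [res_of_mem hx, residue_eq_zero_iff, ValuationSubring.valuation_lt_one_iff]

theorem res_ne_zero {x : F} (hx : O.valuation x = 1) : res O x ≠ 0 := by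
  rw [Ne, res_eq_zero_iff ((O.valuation_le_one_iff x).1 hx.le), hx]; exact lt_irrefl _

theorem val_eq_one_of_res {x : F} (hx : res O x ≠ 0) : O.valuation x = 1 := by
  have h : x ∈ O := by
    by_contra h
    exact hx (by simp [res, h])
  rw [Ne, res_eq_zero_iff h] at hx
  exact le_antisymm ((O.valuation_le_one_iff x).2 h) (not_lt.1 hx)

theorem mem_of_val_eq_one {x : F} (hx : O.valuation x = 1) : x ∈ O :=
  (O.valuation_le_one_iff x).1 hx.le

theorem res_inv {x : F} (hx : O.valuation x = 1) : res O x⁻¹ = (res O x)⁻¹ := by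
  have h0 : x ≠ 0 := by rintro rfl; simp at hx
  have hi : O.valuation x⁻¹ = 1 := by rw [map_inv₀, hx, inv_one]
  have := res_mul (mem_of_val_eq_one hi) (mem_of_val_eq_one hx)
  rw [inv_mul_cancel₀ h0, res_one] at this
  exact eq_inv_of_mul_eq_one_left this.symm

theorem res_surj (r : ResidueField O) : ∃ x ∈ O, res O x = r := by
  obtain ⟨x, rfl⟩ := residue_surjective r
  exact ⟨x, x.2, res_coe x⟩

theorem res_eq_iff {x y : F} (hx : x ∈ O) (hy : y ∈ O) :
    res O x = res O y ↔ O.valuation (x - y) < 1 := by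
  rw [← sub_eq_zero, ← res_sub hx hy, res_eq_zero_iff (O.sub_mem hx hy)]

/-- residues of constants -/
def resConst (k : Type*) [Field k] [Algebra k F] (O : ValuationSubring F) :
    Subfield (ResidueField O) where
  carrier := {r | ∃ a : k, algebraMap k F a ∈ O ∧ res O (algebraMap k F a) = r}
  mul_mem' := by
    rintro _ _ ⟨a, ha, rfl⟩ ⟨b, hb, rfl⟩
    exact ⟨a * b, by rw [map_mul]; exact O.mul_mem _ _ ha hb, by rw [map_mul, res_mul ha hb]⟩
  one_mem' := ⟨1, by simp, by simp⟩
  add_mem' := by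
    rintro _ _ ⟨a, ha, rfl⟩ ⟨b, hb, rfl⟩
    exact ⟨a + b, by rw [map_add]; exact O.add_mem _ _ ha hb, by rw [map_add, res_add ha hb]⟩
  zero_mem' := ⟨0, by simp, by simp⟩
  neg_mem' := by
    rintro _ ⟨a, ha, rfl⟩
    exact ⟨-a, by rw [map_neg]; exact O.neg_mem _ ha, by rw [map_neg, res_neg ha]⟩
  inv_mem' := by
    rintro _ ⟨a, ha, rfl⟩
    by_cases h : res O (algebraMap k F a) = 0
    · exact ⟨0, by simp, by simp [h]⟩
    · have hv := val_eq_one_of_res h
      refine ⟨a⁻¹, ?_, by rw [map_inv₀, res_inv hv]⟩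
      rw [map_inv₀]
      exact mem_of_val_eq_one (by rw [map_inv₀, hv, inv_one])

theorem mem_resConst {k : Type*} [Field k] [Algebra k F] {r : ResidueField O} :
    r ∈ resConst k O ↔ ∃ a : k, algebraMap k F a ∈ O ∧ res O (algebraMap k F a) = r := Iff.rfl

/-- composite of `O` with a valuation ring `P` of its residue field -/
def comp (O : ValuationSubring F) (P : ValuationSubring (ResidueField O)) :
    ValuationSubring F where
  carrier := {x | x ∈ O ∧ res O x ∈ P}
  mul_mem' := fun {x y} hx hy =>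
    ⟨O.mul_mem _ _ hx.1 hy.1, by rw [res_mul hx.1 hy.1]; exact P.mul_mem _ _ hx.2 hy.2⟩
  one_mem' := ⟨O.one_mem, by rw [res_one]; exact P.one_mem⟩
  add_mem' := fun {x y} hx hy =>
    ⟨O.add_mem _ _ hx.1 hy.1, by rw [res_add hx.1 hy.1]; exact P.add_mem _ _ hx.2 hy.2⟩
  zero_mem' := ⟨O.zero_mem, by rw [res_zero]; exact P.zero_mem⟩
  neg_mem' := fun {x} hx => ⟨O.neg_mem _ hx.1, by rw [res_neg hx.1]; exact P.neg_mem _ hx.2⟩
  mem_or_inv_mem' := fun x => by
    rcases lt_trichotomy (O.valuation x) 1 with h | h | h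
    · have hx := (O.valuation_le_one_iff x).1 h.le
      exact Or.inl ⟨hx, by rw [(res_eq_zero_iff hx).2 h]; exact P.zero_mem⟩
    · have hi : O.valuation x⁻¹ = 1 := by rw [map_inv₀, h, inv_one]
      rcases P.mem_or_inv_mem (res O x) with h' | h'
      · exact Or.inl ⟨mem_of_val_eq_one h, h'⟩
      · exact Or.inr ⟨mem_of_val_eq_one hi, by rw [res_inv h]; exact h'⟩
    · have hi : O.valuation x⁻¹ < 1 := by rw [map_inv₀]; exact inv_lt_one_of_one_lt₀ h
      have hx := (O.valuation_le_one_iff _).1 hi.le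
      exact Or.inr ⟨hx, by rw [(res_eq_zero_iff hx).2 hi]; exact P.zero_mem⟩

theorem mem_comp {P : ValuationSubring (ResidueField O)} {x : F} :
    x ∈ comp O P ↔ x ∈ O ∧ res O x ∈ P := Iff.rfl

open Classical in
/-- the value in `k` of `x` at `O` (junk `0` if there is none) -/
noncomputable def ev (k : Type*) [Field k] [Algebra k F] (O : ValuationSubring F) (x : F) : k :=
  if h : ∃ a : k, O.valuation (x - algebraMap k F a) < 1 then h.choose else 0

/-- `O` contains the constants -/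
def Triv (k : Type*) [Field k] [Algebra k F] (O : ValuationSubring F) : Prop :=
  ∀ a : k, algebraMap k F a ∈ O

/-- values of `π` are rationally independent modulo the values of `k` -/
def ValIndep (k : Type*) [Field k] [Algebra k F] (O : ValuationSubring F) {ι : Type*} [Fintype ι]
    (π : ι → F) : Prop :=
  (∀ i, π i ≠ 0) ∧ ∀ (m : ι → ℤ) (c : k),
    O.valuation (algebraMap k F c * ∏ i, π i ^ m i) = 1 → ∀ i, m i = 0

/-- every nonzero element is a root of unity (algebraic over a finite prime field) -/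
def FinAlg (κ : Type*) [Field κ] : Prop := ∀ a : κ, a ≠ 0 → ∃ n : ℕ, 0 < n ∧ a ^ n = 1

/-- `o` is the normalized discrete valuation with ring `O` -/
def IsOrd (O : ValuationSubring F) (o : F → ℤ) : Prop :=
  o 0 = 0 ∧ (∀ x y, x ≠ 0 → y ≠ 0 → o (x * y) = o x + o y) ∧
    (∀ x, x ≠ 0 → (x ∈ O ↔ 0 ≤ o x)) ∧ ∃ π, π ≠ 0 ∧ o π = 1

/-- discrete valuation rings -/
def IsDVR (O : ValuationSubring F) : Prop := ∃ o, IsOrd O o

open Classical in
/-- normalized order function -/
noncomputable def ord (O : ValuationSubring F) : F → ℤ :=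
  if h : IsDVR O then h.choose else 0

theorem IsDVR.isOrd (h : IsDVR O) : IsOrd O (ord O) := by
  rw [ord, dif_pos h]; exact h.choose_spec

end residues

section curves

/-- function fields of curves -/
structure IsCurve (κ C : Type*) [Field κ] [Field C] [Algebra κ C] : Prop where
  fg : Algebra.EssFiniteType κ C
  trdeg : Algebra.trdeg κ C = 1

/-- places of `C / κ` -/
@[ext] structure Place (κ C : Type*) [Field κ] [Field C] [Algebra κ C] where
  /-- the valuation ring -/
  O : ValuationSubring C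
  ne_top : O ≠ ⊤
  triv : Triv κ O

variable (ℓ : ℕ) (κ : Type*) {C : Type*} [Field κ] [Field C] [Algebra κ C]

/-- places where the order of `x` is not divisible by `ℓ` -/
def vis (x : C) : Set (Place κ C) := {z | cl ℓ x ∉ HO ℓ z.O}

variable (C) in
/-- unramified classes -/
def Unr : Submodule (ZMod ℓ) (V ℓ C) := ⨅ z : Place κ C, HO ℓ z.O

end curves

section geo

variable (ℓ : ℕ) (k : Type*) {K : Type*} [Field k] [Field K] [Algebra k K]

/-- the relative algebraic closure of `k(z)` in `K` -/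
noncomputable def Ecl (z : K) : IntermediateField k K := (algebraicClosure k⟮z⟯ K).restrictScalars k

theorem mem_Ecl {z y : K} : y ∈ Ecl k z ↔ IsAlgebraic k⟮z⟯ y := by
  rw [Ecl, mem_restrictScalars, mem_algebraicClosure_iff]

/-- image of `Ecl k z` in `V` -/
def Geo (z : K) : Submodule (ZMod ℓ) (V ℓ K) :=
  Submodule.span (ZMod ℓ) {v | ∃ y ∈ Ecl k z, cl ℓ y = v}

/-- `k(z)` is separably closed in `K` -/
def IsGood (z : K) : Prop :=
  Transcendental k z ∧ ∀ y ∈ Ecl k z, ∃ n : ℕ, y ^ ringExpChar k ^ n ∈ k⟮z⟯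

/-- prime divisors -/
structure IsPDiv (O : ValuationSubring K) : Prop where
  dvr : IsDVR O
  triv : Triv k O
  trans : ∃ t ∈ O, ∀ a : k, ¬ O.valuation (t - algebraMap k K a) < 1
  fg : Algebra.EssFiniteType (resConst k O) (ResidueField O)

/-- `y` has a value `a` in `k` at `O`, and `y - a` has order prime to `ℓ` if `y` is not constant -/
def GoodAt (O : ValuationSubring K) (y : K) : Prop :=
  ∃ a : k, O.valuation (y - algebraMap k K a) < 1 ∧
    (Transcendental k y → cl ℓ (y - algebraMap k K a) ∉ HO ℓ O)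

variable (K) in
/-- an affine hypersurface model of `K / k`, separable over `k(s)` -/
structure Model (d : ℕ) where
  /-- separating transcendence basis -/
  s : Fin d → K
  /-- integral primitive element -/
  θ : K
  /-- its minimal polynomial -/
  f : Polynomial (MvPolynomial (Fin d) k)
  /-- a discriminant -/
  Δ : MvPolynomial (Fin d) k
  indep : AlgebraicIndependent k s
  monic : f.Monic
  irr : Irreducible f
  root : f.eval₂ (MvPolynomial.aeval s : MvPolynomial (Fin d) k →ₐ[k] K).toRingHom θ = 0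
  gen : ∀ y : K, ∃ (P : Polynomial (MvPolynomial (Fin d) k)) (Q : MvPolynomial (Fin d) k), Q ≠ 0 ∧
    y * MvPolynomial.aeval s Q =
      P.eval₂ (MvPolynomial.aeval s : MvPolynomial (Fin d) k →ₐ[k] K).toRingHom θ
  bezout : ∃ a b, Polynomial.C Δ = a * f + b * Polynomial.derivative f
  Δne : Δ ≠ 0

variable {k}

/-- evaluation of a polynomial in `s`, `θ` -/
noncomputable def Model.evl {d : ℕ} (M : Model k K d) :
    Polynomial (MvPolynomial (Fin d) k) →+* K :=
  Polynomial.eval₂RingHom (MvPolynomial.aeval M.s : MvPolynomial (Fin d) k →ₐ[k] K).toRingHom M.θ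

/-- `W` is a divisor of the model lying over the prime `π`, away from the discriminant -/
def Model.IsDiv {d : ℕ} (M : Model k K d) (W : ValuationSubring K)
    (π : MvPolynomial (Fin d) k) : Prop :=
  Irreducible π ∧ ¬ π ∣ M.Δ ∧ ∀ g : MvPolynomial (Fin d) k,
    MvPolynomial.aeval M.s g ∈ W ∧ (W.valuation (MvPolynomial.aeval M.s g) < 1 ↔ π ∣ g)

end geo

end Vale.Agent.P019
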