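import Vale.Agent.P019.Base

/-! P019: more working definitions. -/

open IsLocalRing IntermediateField Filter

namespace Vale.Agent.P019

universe u

/-- function field of transcendence degree `d` -/
structure IsFF (k K : Type*) [Field k] [Field K] [Algebra k K] (d : ℕ) : Prop where
  fg : Algebra.EssFiniteType k K
  trdeg : Algebra.trdeg k K = d

section val

variable {F : Type*} [Field F]

/-- ultralimit of valuation rings -/
def Lim {ι : Type*} (𝒰 : Ultrafilter ι) (O : ι → ValuationSubring F) (O' : ValuationSubring F) :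
    Prop :=
  ∀ x, x ∈ O' ↔ ∀ᶠ i in (𝒰 : Filter ι), x ∈ O i

/-- additive valuation on the nonzero elements, with values in an ordered group -/
structure IsAVal {G : Type*} [AddCommGroup G] [LinearOrder G] (v : F → G) : Prop where
  mul : ∀ x y, x ≠ 0 → y ≠ 0 → v (x * y) = v x + v y
  add : ∀ x y, x ≠ 0 → y ≠ 0 → x + y ≠ 0 → min (v x) (v y) ≤ v (x + y)

/-- additive value group of a valuation ring -/
abbrev AG (O : ValuationSubring F) : Type _ := (Additive (O.ValueGroup)ˣ)ᵒᵈ

open Classical in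
/-- additive valuation of a valuation ring (junk `0` at `0`) -/
noncomputable def aval (O : ValuationSubring F) (x : F) : AG O :=
  if h : x = 0 then 0 else
    OrderDual.toDual (Additive.ofMul (Units.mk0 (O.valuation x) (by simpa using h)))

/-- weight of the monomial `m` of `P` -/
noncomputable def wt {G ι : Type*} [AddCommGroup G] (v : F → G) (γ : ι → G)
    (P : MvPolynomial ι F) (m : ι →₀ ℕ) : G :=
  v (P.coeff m) + m.sum fun i n => n • γ i

/-- `g` is the least weight of a monomial of `P` -/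
def IsMinWt {G ι : Type*} [AddCommGroup G] [LinearOrder G] (v : F → G) (γ : ι → G)
    (P : MvPolynomial ι F) (g : G) : Prop :=
  (∃ m ∈ P.support, wt v γ P m = g) ∧ ∀ m ∈ P.support, g ≤ wt v γ P m

/-- `O` induces on `F[t]` the monomial valuation with weights `γ` over `v` -/
def IsMonVal {G ι F' : Type*} [AddCommGroup G] [LinearOrder G] [Field F'] [Algebra F F']
    (v : F → G) (γ : ι → G) (t : ι → F') (O : ValuationSubring F') : Prop :=
  ∀ (P Q : MvPolynomial ι F) (g h : G), IsMinWt v γ P g → IsMinWt v γ Q h →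
    (O.valuation (MvPolynomial.aeval t P) ≤ O.valuation (MvPolynomial.aeval t Q) ↔ h ≤ g)

/-- Gauss property: `t` lies in `O` and is residually algebraically independent over `F` -/
def IsGauss (F : Type*) {ι F' : Type*} [Field F] [Field F'] [Algebra F F']
    (O : ValuationSubring F') (t : ι → F') : Prop :=
  (∀ i, t i ∈ O) ∧ ∀ (P : MvPolynomial ι F) (m : ι →₀ ℕ),
    O.valuation (algebraMap F F' (P.coeff m)) ≤ O.valuation (MvPolynomial.aeval t P)

open Classical in
/-- the order modulo `ℓ` as a functional -/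
noncomputable def ordV (ℓ : ℕ) (O : ValuationSubring F) : Module.Dual (ZMod ℓ) (V ℓ F) :=
  if h : ∃ φ : Module.Dual (ZMod ℓ) (V ℓ F), ∀ x, φ (cl ℓ x) = (ord O x : ZMod ℓ) then h.choose
  else 0

/-- decomposition group -/
def Dec (K : Type*) [Field K] [Algebra K F] (P : ValuationSubring F) : Subgroup (F ≃ₐ[K] F) where
  carrier := {σ | ∀ x, σ x ∈ P ↔ x ∈ P}
  mul_mem' := fun {σ τ} hσ hτ x => (hσ (τ x)).trans (hτ x)
  one_mem' := fun _ => Iff.rfl
  inv_mem' := fun {σ} hσ x => by
    have := hσ (σ⁻¹ x)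
    simpa using this.symm

end val

section transfer

variable {ℓ : ℕ} {F F' : Type*} [Field F] [Field F']

/-- `v` is obtained from `w` by the local theory -/
def Flat (Θ : V ℓ F ≃ₗ[ZMod ℓ] V ℓ F') (v : ValuationSubring F) (w : ValuationSubring F') :
    Prop :=
  (TO ℓ v).map Θ.toLinearMap ≤ TO ℓ w ∧ (HO ℓ v).map Θ.toLinearMap ≤ HO ℓ w

/-- `θ` is the isomorphism induced by `Θ` on residue fields -/
def ResIso (Θ : V ℓ F ≃ₗ[ZMod ℓ] V ℓ F') (v : ValuationSubring F) (w : ValuationSubring F')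
    (θ : V ℓ (ResidueField v) ≃ₗ[ZMod ℓ] V ℓ (ResidueField w)) : Prop :=
  ∀ (x : F) (y : F'), v.valuation x = 1 → w.valuation y = 1 → Θ (cl ℓ x) = cl ℓ y →
    θ (cl ℓ (res v x)) = cl ℓ (res w y)

/-- inertia functionals pull back to inertia functionals -/
def TRProp (θ : V ℓ F ≃ₗ[ZMod ℓ] V ℓ F') : Prop :=
  ∀ P : ValuationSubring F', P.valuation (ℓ : F') = 1 →
    ∀ φ : Module.Dual (ZMod ℓ) (V ℓ F'), φ ≠ 0 → HO ℓ P ≤ LinearMap.ker φ →
      ∃ Q : ValuationSubring F, Q ≠ ⊤ ∧ HO ℓ Q ≤ LinearMap.ker (φ ∘ₗ θ.toLinearMap)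

/-- valuation rings whose value group has a least positive element, not divisible by `ℓ` -/
def MinPos (ℓ : ℕ) (w : ValuationSubring F) : Prop :=
  ∃ π : F, π ≠ 0 ∧ cl ℓ π ∉ HO ℓ w ∧ ∀ O : ValuationSubring F, w < O → O.valuation π = 1

end transfer

section geo

variable {ℓ : ℕ} (k l : Type*) {K L : Type*} [Field k] [Field K] [Algebra k K]
  [Field l] [Field L] [Algebra l L]

/-- `z` and `z'` generate matched one-dimensional subfields -/
def Partner (Θ : V ℓ K ≃ₗ[ZMod ℓ] V ℓ L) (z : K) (z' : L) : Prop :=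
  Transcendental k z ∧ Transcendental l z' ∧ (Geo ℓ k z).map Θ.toLinearMap = Geo ℓ l z'

/-- `Θ` matches the one-dimensional subfields -/
def GeoMatch (Θ : V ℓ K ≃ₗ[ZMod ℓ] V ℓ L) : Prop :=
  (∀ z, Transcendental k z → ∃ z', Partner k l Θ z z') ∧
    ∀ z', Transcendental l z' → ∃ z, Partner k l Θ z z'

variable {k l}

/-- corresponding places -/
def Corr (Θ : V ℓ K ≃ₗ[ZMod ℓ] V ℓ L) {z : K} {z' : L} (b : Place k (Ecl k z))
    (b' : Place l (Ecl l z')) : Prop :=
  ∀ (e : Ecl k z) (e' : Ecl l z'), e ≠ 0 → e' ≠ 0 → Θ (cl ℓ (e : K)) = cl ℓ (e' : L) →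
    (cl ℓ e ∈ HO ℓ b.O ↔ cl ℓ e' ∈ HO ℓ b'.O)

/-- `z` takes the value `u` at the place `b` of `Ecl k z` -/
def ValAt {z : K} (b : Place k (Ecl k z)) (u : k) : Prop :=
  ∀ e : Ecl k z, (e : K) = z → b.O.valuation (e - algebraMap k (Ecl k z) u) < 1

/-- `P` parametrizes almost all places of the partner field by values of `z` -/
def IsParam (Θ : V ℓ K ≃ₗ[ZMod ℓ] V ℓ L) (z : K) {z' : L} (P : k → Place l (Ecl l z')) : Prop :=
  (∀ᶠ u in cofinite, ∃ b : Place k (Ecl k z), Corr Θ b (P u) ∧ ValAt b u) ∧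
    ∀ᶠ b' in cofinite, b' ∈ Set.range P

/-- a bijection between cofinite subsets -/
def CofBij {α β : Type*} (P : α → β) : Prop :=
  (∃ S : Set α, S.Finite ∧ Set.InjOn P Sᶜ) ∧ ∀ᶠ b in cofinite, b ∈ Set.range P

/-- relation between germs of functions: `e₁ ∘ P₁ = (e₂ ∘ P₂) ^ p ^ j` almost everywhere -/
def GRel {α C₁ C₂ : Type*} [Field C₁] [Field C₂] [Algebra l C₁] [Algebra l C₂]
    (P₁ : α → Place l C₁) (P₂ : α → Place l C₂) (e₁ : C₁) (e₂ : C₂) (j : ℕ) : Prop :=
  ∀ᶠ u in cofinite, ev l (P₁ u).O e₁ = ev l (P₂ u).O e₂ ^ ringExpChar l ^ j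

/-- the graph of the field homomorphism: at generic points `y = β(z) ^ p ^ j` -/
def Graph (Θ : V ℓ K ≃ₗ[ZMod ℓ] V ℓ L) (β : k ≃+* l) (z : K) (y : L) (j : ℕ) : Prop :=
  ∃ S : Finset L, ∀ (w : ValuationSubring L) (v : ValuationSubring K), IsPDiv l w →
    (∀ s ∈ S, GoodAt ℓ l w s) → Flat Θ v w →
      ∃ a : k, v.valuation (z - algebraMap k K a) < 1 ∧
        w.valuation (y - algebraMap l L (β a ^ ringExpChar l ^ j)) < 1

end geo

section lines

variable {l : Type*} [Field l]

/-- iterated cofinite filter -/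
def genF (l : Type*) : (n : ℕ) → Filter (Fin n → l)
  | 0 => ⊤
  | n + 1 => (cofinite : Filter l).bind fun a => (genF l n).map fun b => Fin.cons a b

/-- restriction of a polynomial to the line `c + X q` -/
noncomputable def lr {d : ℕ} (q c : Fin d → l) : MvPolynomial (Fin d) l →ₐ[l] Polynomial l :=
  MvPolynomial.aeval fun j => Polynomial.C (c j) + Polynomial.C (q j) * Polynomial.X

/-- a property of generic lines through `(0, c)` with direction `(1, q)` -/
def GenLine (d : ℕ) (P : (Fin (d + 1) → l) → (Fin (d + 1) → l) → Prop) : Prop :=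
  ∀ᶠ q in genF l d, ∃ g : MvPolynomial (Fin d) l, g ≠ 0 ∧
    ∀ c : Fin d → l, MvPolynomial.eval c g ≠ 0 → P (Fin.cons 1 q) (Fin.cons 0 c)

/-- coefficients in `μ` -/
def IntM {ι : Type*} (μ : ValuationSubring l) (P : MvPolynomial ι l) : Prop :=
  ∀ m, P.coeff m ∈ μ

/-- coefficients in `μ` -/
def IntM2 {ι : Type*} (μ : ValuationSubring l) (A : Polynomial (MvPolynomial ι l)) : Prop :=
  ∀ i, IntM μ (A.coeff i)

/-- coefficients in `μ` -/
def IntP (μ : ValuationSubring l) (p : Polynomial l) : Prop := ∀ i, p.coeff i ∈ μ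

/-- coefficients in `μ`, nonzero reduction -/
def UnitP (μ : ValuationSubring l) (p : Polynomial l) : Prop :=
  IntP μ p ∧ ∃ i, μ.valuation (p.coeff i) = 1

/-- coprime reductions -/
def CopP (μ : ValuationSubring l) (p p' : Polynomial l) : Prop :=
  IntP μ p ∧ IntP μ p' ∧ ∃ a b, IntP μ a ∧ IntP μ b ∧ a * p + b * p' = 1

/-- every reduction of `f` from `A` to a field is irreducible -/
def IrrRed (A : Subring l) (f : Polynomial (Polynomial l)) : Prop :=
  ∀ (κ : Type u) [Field κ] (φ : A →+* κ) (f₀ : Polynomial (Polynomial A)),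
    f₀.map (Polynomial.mapRingHom A.subtype) = f → Irreducible (f₀.map (Polynomial.mapRingHom φ))

variable {L : Type*} [Field L] [Algebra l L]

/-- the transversal coordinates of a line -/
def lineZ {d : ℕ} (s : Fin (d + 1) → L) (q c : Fin (d + 1) → l) (j : Fin d) : L :=
  s j.succ - algebraMap l L (q j.succ) * s 0 - algebraMap l L (c j.succ)

/-- valuations attached to a line and a valuation `μ` of the constants -/
structure IsLineVal {d : ℕ} (μ : ValuationSubring l) (s : Fin (d + 2) → L) (q c : Fin (d + 2) → l)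
    (w : ValuationSubring L) : Prop where
  comap : w.comap (algebraMap l L) = μ
  qc : ∀ j, q j ∈ μ ∧ c j ∈ μ
  red : ∀ P : MvPolynomial (Fin (d + 2)) l, IntM μ P → MvPolynomial.aeval s P ∈ w ∧
    w.valuation (MvPolynomial.aeval s P - Polynomial.aeval (s 0) (lr q c P)) < 1
  gauss : ∀ (p : Polynomial l) (i : ℕ),
    w.valuation (algebraMap l L (p.coeff i)) ≤ w.valuation (Polynomial.aeval (s 0) p)
  resid : ∀ x ∈ adjoin l (Set.range s), w.valuation x = 1 → ∃ p p' : Polynomial l,
    UnitP μ p ∧ UnitP μ p' ∧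
      w.valuation (x - Polynomial.aeval (s 0) p / Polynomial.aeval (s 0) p') < 1
  indep : ValIndep l w (lineZ s q c)
  value : ∀ x ∈ adjoin l (Set.range s), x ≠ 0 → ∃ (a : l) (m : Fin (d + 1) → ℤ),
    w.valuation x = w.valuation (algebraMap l L a * ∏ j, lineZ s q c j ^ m j)
  pos : w.valuation (lineZ s q c (Fin.last d)) < 1
  least : ∀ x ∈ adjoin l (Set.range s), w.valuation x < 1 →
    w.valuation x ≤ w.valuation (lineZ s q c (Fin.last d))

end lines

/-- a line and a constant reduction adapted to a model -/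
structure LineData (ℓ : ℕ) {l : Type*} {L : Type u} [Field l] [Field L] [Algebra l L] {d : ℕ}
    (M : Model l L (d + 2)) (q c : Fin (d + 2) → l) (μ : ValuationSubring l)
    (w : ValuationSubring L) : Prop where
  line : IsLineVal μ M.s q c w
  q0 : q 0 = 1
  c0 : c 0 = 0
  intf : IntM2 μ M.f
  intb : ∃ a b, IntM2 μ a ∧ IntM2 μ b ∧
    Polynomial.C M.Δ = a * M.f + b * Polynomial.derivative M.f
  intΔ : IntM μ M.Δ
  unitΔ : UnitP μ (lr q c M.Δ)
  irr : IrrRed.{u} μ.toSubring (M.f.map (lr q c).toRingHom)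
  fin : FinAlg (ResidueField μ)
  ell : μ.valuation (ℓ : l) = 1

end Vale.Agent.P019
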