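import Vale.Agent.P019.FGA
import Vale.Agent.P019.UR
import Vale.Agent.P019.MX
import Vale.Agent.P019.Curve.DVR

/-! P019: `Geo` determines the one-dimensional subfield. -/

namespace Vale.Agent.P019

namespace GIAux

open IntermediateField Polynomial

theorem exists_base {F K : Type*} [Field F] [Field K] [Algebra F K] [Algebra.EssFiniteType F K]
    {x : K} (hx : Transcendental F x) :
    ∃ L : IntermediateField F K, Transcendental L x ∧ FiniteDimensional L⟮x⟯ K := by
  have h1 : AlgebraicIndepOn F id ({x} : Set K) :=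
    (algebraicIndependent_singleton_iff (⟨x, rfl⟩ : ({x} : Set K))).2 hx
  obtain ⟨B, hxB, hB⟩ := exists_isTranscendenceBasis_superset h1
  have hx' : x ∈ B := hxB rfl
  refine ⟨adjoin F (((↑) : B → K) '' {⟨x, hx'⟩}ᶜ), ?_, ?_⟩
  · rw [IntermediateField.transcendental_adjoin_iff]
    exact hB.1.transcendental_adjoin (i := ⟨x, hx'⟩) (by simp)
  · set L := adjoin F (((↑) : B → K) '' {⟨x, hx'⟩}ᶜ)
    have hal := hB.isAlgebraic_field
    have hle : adjoin F (Set.range ((↑) : B → K)) ≤ L⟮x⟯.restrictScalars F := by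
      rw [adjoin_le_iff]
      rintro _ ⟨b, rfl⟩
      by_cases hb : b = ⟨x, hx'⟩
      · subst hb
        exact mem_adjoin_simple_self L _
      · exact L⟮x⟯.algebraMap_mem ⟨b, subset_adjoin F _ ⟨b, hb, rfl⟩⟩
    have : Algebra.IsAlgebraic L⟮x⟯ K := ⟨fun z => by
      have h2 : IsAlgebraic (L⟮x⟯.restrictScalars F) z :=
        (hal.isAlgebraic z).ringHom_of_comp_eq (inclusion hle).toRingHom (RingHom.id K)
          (inclusion hle).injective rfl
      exact h2⟩
    have : Algebra.EssFiniteType L K := Algebra.EssFiniteType.of_comp F _ _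
    have : Algebra.EssFiniteType L⟮x⟯ K := Algebra.EssFiniteType.of_comp L _ _
    exact Algebra.finite_of_essFiniteType_of_isAlgebraic

variable {L K : Type*} [Field L] [Field K] [Algebra L K]

theorem val_aeval {O : ValuationSubring K} (h : Triv L O) {x : K} {a : L}
    (hx : O.valuation (x - algebraMap L K a) < 1) {r : L[X]} (hr : r.eval a ≠ 0) :
    O.valuation (aeval x r) = 1 := by
  obtain ⟨q, hq⟩ := X_sub_C_dvd_sub_C_eval (p := r) (a := a)
  have hxO : x ∈ O := by
    have := O.add_mem _ _ ((O.valuation_le_one_iff _).1 hx.le) (h a)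
    rwa [sub_add_cancel] at this
  have e : aeval x r = (x - algebraMap L K a) * aeval x q + algebraMap L K (r.eval a) := by
    have := congrArg (aeval x) hq
    simp only [map_sub, map_mul, aeval_X, aeval_C] at this
    rw [← this, sub_add_cancel]
  have h2 : O.valuation ((x - algebraMap L K a) * aeval x q) <
      O.valuation (algebraMap L K (r.eval a)) := by
    rw [dvr_val_const h hr, map_mul]
    exact lt_of_le_of_lt
      (mul_le_of_le_one_right' ((O.valuation_le_one_iff _).2 (dvr_aeval_mem h hxO q))) hx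
  rw [e, O.valuation.map_add_eq_of_lt_right h2, dvr_val_const h hr]

theorem exists_poly {x : K} (S : Finset L⟮x⟯) (hS : ∀ s ∈ S, s ≠ 0) :
    ∃ P : L[X], P ≠ 0 ∧ ∀ (O : ValuationSubring K) (a : L), Triv L O →
      O.valuation (x - algebraMap L K a) < 1 → P.eval a ≠ 0 →
        ∀ s ∈ S, O.valuation (s : K) = 1 := by
  classical
  choose r q hrq using fun s : L⟮x⟯ => (mem_adjoin_simple_iff L (s : K)).1 s.2
  refine ⟨∏ s ∈ S, r s * q s, Finset.prod_ne_zero_iff.2 fun s hs => ?_,
    fun O a hO ha hP s hs => ?_⟩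
  · have h0 : (s : K) ≠ 0 := fun h => hS s hs (Subtype.ext h)
    refine mul_ne_zero (fun h => h0 ?_) fun h => h0 ?_
    · rw [hrq, h, map_zero, zero_div]
    · rw [hrq, h, map_zero, div_zero]
  · rw [eval_prod, Finset.prod_ne_zero_iff] at hP
    have h1 := hP s hs
    rw [eval_mul] at h1
    rw [hrq, map_div₀, val_aeval hO ha (left_ne_zero_of_mul h1),
      val_aeval hO ha (right_ne_zero_of_mul h1), div_one]

theorem dvr_comap {O : ValuationSubring K} (h : Triv L O) {x : K} (hx : Transcendental L x)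
    {a : L} (ha : O.valuation (x - algebraMap L K a) < 1) :
    IsDVR (O.comap (algebraMap L⟮x⟯ K)) ∧
      ord (O.comap (algebraMap L⟮x⟯ K)) (AdjoinSimple.gen L x - algebraMap L L⟮x⟯ a) = 1 := by
  have e : algebraMap L⟮x⟯ K (AdjoinSimple.gen L x - algebraMap L L⟮x⟯ a) =
      x - algebraMap L K a := by
    rw [map_sub]; rfl
  refine isDVR_of_cyclic (fun h0 => ?_) (by rw [comap_val_lt_one, e]; exact ha) fun c hc => ?_
  · rw [h0, map_zero, eq_comm, sub_eq_zero] at e
    exact hx (e ▸ isAlgebraic_algebraMap a)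
  · have hle : L⟮x⟯ ≤ L⟮x - algebraMap L K a⟯ := by
      rw [adjoin_simple_le_iff]
      have := add_mem (mem_adjoin_simple_self L (x - algebraMap L K a))
        (L⟮x - algebraMap L K a⟯.algebraMap_mem a)
      rwa [sub_add_cancel] at this
    obtain ⟨j, hj⟩ := dvr_val_adjoin h ha (hle c.2) fun h0 => hc (Subtype.ext h0)
    refine ⟨j, ?_⟩
    rw [← map_zpow₀, comap_val_eq, map_zpow₀, map_zpow₀, e]
    exact hj

end GIAux

variable {ℓ : ℕ} [Fact ℓ.Prime] {k K : Type*} [Field k] [Field K] [Algebra k K] [IsAlgClosed k]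

open IntermediateField in
/-- Extend `x, y` to a transcendence basis `t`, `M = k(t)`, `S` from `exists_unram`. For all but
finitely many `a` the elements of `S` are units for the monomial valuation with weight `1` on
`x - a` and `0` on the other variables (trivial on `k`). It contains `k(y)`, hence `Ecl k y`, while
`cl (x - a) ∉ HO`. -/
theorem not_Geo_le [Algebra.EssFiniteType k K] (hℓ : (ℓ : k) ≠ 0) {x y : K}
    (h : AlgebraicIndependent k ![x, y]) : ¬ Geo ℓ k x ≤ Geo ℓ k y := by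
  intro hle
  have hx : Transcendental k⟮y⟯ x := fun ha => (pair_iff.1 (pair_symm h)).2 ((mem_Ecl k).2 ha)
  have : Algebra.EssFiniteType k⟮y⟯ K := Algebra.EssFiniteType.of_comp k _ _
  obtain ⟨L, hL, hfin⟩ := GIAux.exists_base hx
  have hℓ' : (ℓ : L⟮x⟯) ≠ 0 := fun h0 => hℓ ((algebraMap k K).injective (by
    have := congrArg (algebraMap L⟮x⟯ K) h0
    rw [map_natCast, map_zero] at this
    rw [map_natCast, map_zero, this]))
  obtain ⟨S, hS0, hS⟩ := exists_unram L⟮x⟯ K hℓ'
  obtain ⟨P, hP0, hP⟩ := GIAux.exists_poly S hS0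
  let ι : k →+* L := (algebraMap k⟮y⟯ L).comp (algebraMap k k⟮y⟯)
  obtain ⟨a, ha⟩ := ((Polynomial.finite_setOfPred_isRoot hP0).preimage
    (f := ι) ι.injective.injOn).exists_notMem
  have hxa : Transcendental L (x - algebraMap L K (ι a)) := fun hal =>
    hL (by simpa using hal.add (isAlgebraic_algebraMap (ι a)))
  obtain ⟨z, hz⟩ := place_exists_zero hxa
  obtain ⟨hd, ho⟩ := GIAux.dvr_comap z.triv hL hz
  have hV := hS z.O hd (hP z.O (ι a) z.triv hz ha)
  have e : algebraMap L⟮x⟯ K (AdjoinSimple.gen L x - algebraMap L L⟮x⟯ (ι a)) =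
      x - algebraMap k K a := by
    rw [map_sub]; rfl
  have h0 : AdjoinSimple.gen L x - algebraMap L L⟮x⟯ (ι a) ≠ 0 := fun h0 => by
    rw [h0, hd.isOrd.zero] at ho
    exact zero_ne_one ho
  have h1 : cl ℓ (x - algebraMap k K a) ∈ Geo ℓ k y :=
    hle (Submodule.subset_span ⟨_, sub_mem (self_mem_Ecl x) ((Ecl k x).algebraMap_mem a), rfl⟩)
  have hE : ∀ w ∈ Ecl k y, w ∈ z.O := fun w hw =>
    mem_of_isAlgebraic (E := k⟮y⟯) (fun c => z.triv (algebraMap k⟮y⟯ L c)) ((mem_Ecl k).1 hw)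
  obtain ⟨w, hw, hw0, hcl⟩ := mem_Geo_iff.1 h1
  have h2 : cl ℓ (x - algebraMap k K a) ∈ HO ℓ z.O := by
    rw [← hcl]
    exact cl_mem_HO ((val_eq_one_iff_mem hw0).2 ⟨hE w hw, hE _ (inv_mem hw)⟩)
  have h3 := hV _ (e ▸ h2)
  rw [hd.cl_mem_HO_iff h0, ho, Int.natCast_dvd_ofNat] at h3
  exact (Fact.out : ℓ.Prime).one_lt.ne' (Nat.dvd_one.1 h3)

theorem Ecl_eq_of_Geo_le [Algebra.EssFiniteType k K] (hℓ : (ℓ : k) ≠ 0) {x y : K}
    (hx : Transcendental k x) (hy : Transcendental k y) (h : Geo ℓ k x ≤ Geo ℓ k y) :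
    Ecl k x = Ecl k y := by
  by_cases hm : x ∈ Ecl k y
  · exact Ecl_eq hx hm
  · exact absurd h (not_Geo_le hℓ (pair_symm (pair_iff.2 ⟨hy, hm⟩)))

end Vale.Agent.P019
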