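import Vale.Agent.P019.GP
import Vale.Agent.P019.CH
import Vale.Agent.P019.CV
import Vale.Agent.P019.BND
import Vale.Agent.P019.GI

/-! P019: corresponding places. -/

open Filter

namespace Vale.Agent.P019

variable {ℓ : ℕ} [Fact ℓ.Prime] {k K l L : Type*} [Field k] [Field K] [Algebra k K] [IsAlgClosed k]
  [Field l] [Field L] [Algebra l L] [IsAlgClosed l] {Θ : V ℓ K ≃ₗ[ZMod ℓ] V ℓ L}

namespace CORRAux

theorem triv_comap {z : K} {O : ValuationSubring K} (h : Triv k O) :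
    Triv k (O.comap (Ecl k z).val.toRingHom) := fun a => h a

theorem trans_coe {z : K} {e : Ecl k z} : Transcendental k e ↔ Transcendental k (e : K) :=
  (transcendental_algebraMap_iff (R := k) (S := Ecl k z) (A := K)
    (algebraMap (Ecl k z) K).injective).symm

theorem trans_sub {F : Type*} [Field F] [Algebra k F] {t : F} (ht : Transcendental k t) (u : k) :
    Transcendental k (t - algebraMap k F u) := by
  rw [P019.transcendental_iff] at ht ⊢
  rintro ⟨a, ha⟩
  exact ht ⟨a + u, by rw [map_add, ha, sub_add_cancel]⟩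

theorem sub_ne {F : Type*} [Field F] [Algebra k F] {t : F} (ht : Transcendental k t) (u : k) :
    t - algebraMap k F u ≠ 0 := by
  intro h
  have := trans_sub ht u
  rw [h] at this
  exact this isAlgebraic_zero

theorem mem_of_val {F : Type*} [Field F] [Algebra k F] {O : ValuationSubring F} (h : Triv k O)
    {t : F} {a : k} (ha : O.valuation (t - algebraMap k F a) < 1) : t ∈ O := by
  have h1 : t - algebraMap k F a ∈ O := (O.valuation_le_one_iff _).1 ha.le
  have := O.add_mem _ _ h1 (h a)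
  rwa [sub_add_cancel] at this

/-- a discrete hyperplane is the preimage of a subspace -/
theorem HO_iff {C : Type*} [Field C] {O : ValuationSubring C} (hO : IsDVR O) {W : Type*}
    [AddCommGroup W] [Module (ZMod ℓ) W] (φ : V ℓ C →ₗ[ZMod ℓ] W) (H : Submodule (ZMod ℓ) W)
    (hle : ∀ x : C, cl ℓ x ∈ HO ℓ O → φ (cl ℓ x) ∈ H) {x₀ : V ℓ C} (h₀ : φ x₀ ∉ H) (x : V ℓ C) :
    x ∈ HO ℓ O ↔ φ x ∈ H := by
  have h1 : HO ℓ O ≤ H.comap φ := by
    intro v hv
    obtain ⟨y, -, rfl⟩ := cl_surj v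
    exact hle y hv
  have h2 : H.comap φ ≠ ⊤ := by
    intro h
    have : x₀ ∈ H.comap φ := h ▸ Submodule.mem_top
    exact h₀ this
  have h3 : H.comap φ = HO ℓ O := by
    by_contra hne
    exact h2 (hO.isCoatom_HO.2 _ (lt_of_le_of_ne h1 (Ne.symm hne)))
  rw [← h3]
  rfl

theorem val_poly {C : Type*} [Field C] [Algebra k C] (ζ : C) (u : k) {p : Polynomial k}
    (hp : p ≠ 0) : ∃ i : ℕ, ∀ O : ValuationSubring C, Triv k O →
      O.valuation (ζ - algebraMap k C u) < 1 →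
      O.valuation (Polynomial.aeval ζ p) = O.valuation (ζ - algebraMap k C u) ^ i := by
  obtain ⟨q, hq, hnd⟩ := Polynomial.exists_eq_pow_rootMultiplicity_mul_and_not_dvd p hp u
  refine ⟨Polynomial.rootMultiplicity u p, fun O hO hv => ?_⟩
  have hζ : ζ ∈ O := mem_of_val hO hv
  obtain ⟨r, hr⟩ := Polynomial.X_sub_C_dvd_sub_C_eval (a := u) (p := q)
  have hq0 : q.eval u ≠ 0 := fun h => hnd (Polynomial.dvd_iff_isRoot.2 h)
  have h1 : Polynomial.aeval ζ q =
      algebraMap k C (q.eval u) + (ζ - algebraMap k C u) * Polynomial.aeval ζ r := by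
    have := congrArg (Polynomial.aeval ζ) hr
    simp only [map_sub, map_mul, Polynomial.aeval_X, Polynomial.aeval_C] at this
    rw [← this]; ring
  have h2 : O.valuation ((ζ - algebraMap k C u) * Polynomial.aeval ζ r) < 1 := by
    rw [map_mul]
    exact mul_lt_one_of_lt_of_le hv ((O.valuation_le_one_iff _).2 (dvr_aeval_mem hO hζ r))
  have h3 : O.valuation (Polynomial.aeval ζ q) = 1 := by
    rw [h1, Valuation.map_add_eq_of_lt_left _ (by rw [hO.val_eq_one hq0]; exact h2),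
      hO.val_eq_one hq0]
  have h4 := congrArg (Polynomial.aeval ζ) hq
  simp only [map_sub, map_mul, map_pow, Polynomial.aeval_X, Polynomial.aeval_C] at h4
  rw [h4, map_mul, map_pow, h3, mul_one]

theorem rat_mem {C : Type*} [Field C] [Algebra k C] {ζ : C} {u : k}
    (h0 : ζ - algebraMap k C u ≠ 0) {O O' : ValuationSubring C} (hO : Triv k O) (hO' : Triv k O')
    (hv : O.valuation (ζ - algebraMap k C u) < 1) (hv' : O'.valuation (ζ - algebraMap k C u) < 1)
    (r s : Polynomial k) (h : Polynomial.aeval ζ r / Polynomial.aeval ζ s ∈ O) :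
    Polynomial.aeval ζ r / Polynomial.aeval ζ s ∈ O' := by
  by_cases hr : r = 0
  · simp [hr]
  by_cases hs : s = 0
  · simp [hs]
  obtain ⟨i, hi⟩ := val_poly ζ u hr
  obtain ⟨j, hj⟩ := val_poly ζ u hs
  have p1 : 0 < O.valuation (ζ - algebraMap k C u) := by
    rw [Valuation.pos_iff]; exact h0
  have p2 : 0 < O'.valuation (ζ - algebraMap k C u) := by
    rw [Valuation.pos_iff]; exact h0
  rw [← O.valuation_le_one_iff, map_div₀, hi O hO hv, hj O hO hv,
    div_le_one₀ (pow_pos p1 j), pow_le_pow_iff_right_of_lt_one₀ p1 hv] at h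
  rw [← O'.valuation_le_one_iff, map_div₀, hi O' hO' hv', hj O' hO' hv',
    div_le_one₀ (pow_pos p2 j), pow_le_pow_iff_right_of_lt_one₀ p2 hv']
  exact h

theorem mem_of_pow {C : Type*} [Field C] {O : ValuationSubring C} {y : C} {m : ℕ} (hm : 0 < m)
    (h : y ^ m ∈ O) : y ∈ O := by
  rw [← O.valuation_le_one_iff, map_pow, pow_le_one_iff_of_nonneg zero_le hm.ne'] at h
  exact (O.valuation_le_one_iff _).1 h

/-- evaluation at a place on a finitely generated subalgebra -/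
theorem exists_evHom {C : Type*} [Field C] [Algebra k C] (hC : IsCurve k C) (b : Place k C)
    (A : Subalgebra k C) (hA : ∀ a ∈ A, a ∈ b.O) :
    ∃ ψ : A →ₐ[k] k, ∀ a : A, ψ a = ev k b.O a :=
  ⟨{ toFun := fun a => ev k b.O a
     map_one' := by
       have := Place.ev_algebraMap b (1 : k)
       rwa [map_one] at this
     map_mul' := fun x y => Place.ev_mul hC b (hA _ x.2) (hA _ y.2)
     map_zero' := by
       have := Place.ev_algebraMap b (0 : k)
       rwa [map_zero] at this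
     map_add' := fun x y => Place.ev_add hC b (hA _ x.2) (hA _ y.2)
     commutes' := fun a => Place.ev_algebraMap b a }, fun _ => rfl⟩

/-- independence of pairs modulo a subspace that meets the span in a finite set -/
theorem exists_indep {α W : Type*} [AddCommGroup W] [Module (ZMod ℓ) W] {f : α → W} {S : Set α}
    (hS : S.Finite) (hli : LinearIndependent (ZMod ℓ) fun a : ↥Sᶜ => f a) {N : Set W}
    (hN : N.Finite) : ∃ S' : Set α, S'.Finite ∧ ∀ a ∉ S', ∀ b ∉ S', a ≠ b →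
      ∀ c₁ c₂ : ZMod ℓ, c₁ • f a + c₂ • f b ∈ N → c₁ = 0 := by
  classical
  have hfin : ((Finsupp.linearCombination (ZMod ℓ) fun a : ↥Sᶜ => f a) ⁻¹' N).Finite :=
    hN.preimage (Function.Injective.injOn hli)
  have hfin2 := hfin.biUnion (t := fun g : ↥Sᶜ →₀ ZMod ℓ => (g.support : Set ↥Sᶜ))
    fun g _ => g.support.finite_toSet
  refine ⟨S ∪ Subtype.val '' _, hS.union (hfin2.image Subtype.val), ?_⟩
  intro a ha b hb hab c₁ c₂ hc
  by_contra hc₁
  have ha' : a ∈ Sᶜ := fun h => ha (Or.inl h)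
  have hb' : b ∈ Sᶜ := fun h => hb (Or.inl h)
  refine ha (Or.inr ⟨⟨a, ha'⟩, ?_, rfl⟩)
  refine Set.mem_biUnion (x := Finsupp.single ⟨a, ha'⟩ c₁ + Finsupp.single ⟨b, hb'⟩ c₂) ?_ ?_
  · simpa using hc
  · have hne : (⟨b, hb'⟩ : ↥Sᶜ) ≠ ⟨a, ha'⟩ := fun h => hab (congrArg Subtype.val h).symm
    simp [Finsupp.single_eq_of_ne hne.symm, hc₁]

end CORRAux

open CORRAux

theorem Partner.symm {z : K} {z' : L} (h : Partner k l Θ z z') : Partner l k Θ.symm z' z := by
  refine ⟨h.2.1, h.1, ?_⟩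
  rw [← h.2.2, ← Submodule.map_comp]
  simp

theorem GeoMatch.symm (h : GeoMatch k l Θ) : GeoMatch l k Θ.symm :=
  ⟨fun z hz => (h.2 z hz).imp fun _ h' => h'.symm, fun z hz => (h.1 z hz).imp fun _ h' => h'.symm⟩

theorem Partner.pair [Algebra.EssFiniteType k K] (hk : (ℓ : k) ≠ 0) {x y : K} {x' y' : L}
    (hx : Partner k l Θ x x') (hy : Partner k l Θ y y') (h : AlgebraicIndependent k ![x, y]) :
    AlgebraicIndependent l ![x', y'] := by
  rw [pair_iff]
  refine ⟨hx.2.1, fun hy' => not_Geo_le hk h ?_⟩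
  have h1 : Geo ℓ l y' = Geo ℓ l x' := by
    unfold Geo
    rw [Ecl_eq hy.2.1 hy']
  have h2 : (Geo ℓ k x).map Θ.toLinearMap = (Geo ℓ k y).map Θ.toLinearMap := by
    rw [hx.2.2, hy.2.2, h1]
  exact (Submodule.map_injective_of_injective Θ.injective h2).le

/-- almost every place of `Ecl k z` comes from a prime divisor (`exists_separating`,
`exists_pdiv_of_hom`, `exists_extend_hom`) -/
theorem eventually_exists_pdiv (hk : (ℓ : k) ≠ 0) {d : ℕ} (hK : IsFF k K (d + 2)) {z : K}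
    (hz : Transcendental k z) (S : Finset K) : ∀ᶠ b : Place k (Ecl k z) in cofinite,
      ∃ O : ValuationSubring K, IsPDiv k O ∧ (∀ y ∈ S, GoodAt ℓ k O y) ∧
        O.comap (Ecl k z).val.toRingHom = b.O := by
  classical
  haveI := hK.fg
  have hC := isCurve_Ecl hz
  obtain ⟨S₀, -, hS₀⟩ := exists_separating hC
  obtain ⟨S', hS', hχ⟩ := exists_pdiv_of_hom hk hK (S ∪ S₀.image (fun e : Ecl k z => (e : K)))
  let A₀ : Subalgebra k (Ecl k z) := Algebra.adjoin k (S₀ : Set (Ecl k z))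
  let A : Subalgebra k K := A₀.map (Ecl k z).val
  have hAB : A ≤ Algebra.adjoin k (S' : Set K) := by
    change (Algebra.adjoin k (S₀ : Set (Ecl k z))).map (Ecl k z).val ≤ _
    rw [AlgHom.map_adjoin]
    refine Algebra.adjoin_mono ?_
    rintro _ ⟨e, he, rfl⟩
    exact hS' (Finset.mem_union_right _ (Finset.mem_image_of_mem _ he))
  have hB : Algebra.adjoin k (S' : Set K) = Algebra.adjoin k ((A : Set K) ∪ S') := by
    refine le_antisymm (Algebra.adjoin_mono Set.subset_union_right) (Algebra.adjoin_le ?_)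
    exact Set.union_subset hAB Algebra.subset_adjoin
  obtain ⟨δ, hδ, hext⟩ := exists_extend_hom A _ hAB S' hB
  let e : A₀ ≃ₐ[k] A := A₀.equivMapOfInjective (Ecl k z).val (Ecl k z).val.injective
  have hδ₀ : ((e.symm δ : A₀) : Ecl k z) ≠ 0 := by
    intro h
    have : e.symm δ = 0 := Subtype.ext h
    exact hδ (by simpa using this)
  have h1 : ∀ᶠ b : Place k (Ecl k z) in cofinite, ∀ s ∈ S₀, s ∈ b.O :=
    (Filter.eventually_all_finset S₀).2 fun s _ => eventually_mem hC s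
  have h2 : ∀ᶠ b : Place k (Ecl k z) in cofinite, ev k b.O ((e.symm δ : A₀) : Ecl k z) ≠ 0 := by
    rw [Filter.eventually_cofinite]
    simpa using finite_ev_eq_zero hC hδ₀
  filter_upwards [h1, h2] with b hb1 hb2
  have hA₀ : ∀ a ∈ A₀, a ∈ b.O := by
    intro a ha
    induction ha using Algebra.adjoin_induction with
    | mem x hx => exact hb1 x hx
    | algebraMap r => exact b.triv r
    | add x y _ _ hx hy => exact b.O.add_mem _ _ hx hy
    | mul x y _ _ hx hy => exact b.O.mul_mem _ _ hx hy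
  obtain ⟨ψ, hψ⟩ := exists_evHom hC b A₀ hA₀
  obtain ⟨Ψ, hΨ, -⟩ := hext k (ψ.comp (e.symm : A →ₐ[k] A₀)) (by
    change ψ (e.symm δ) ≠ 0
    rw [hψ]; exact hb2)
  obtain ⟨O, hO, hg, hv⟩ := hχ Ψ
  refine ⟨O, hO, fun y hy => hg y (Finset.mem_union_left _ hy), ?_⟩
  refine hS₀ _ _ (triv_comap hO.triv) b.triv fun s hs => ⟨ev k b.O s, ?_, ?_⟩
  · rw [comap_val_lt_one]
    have hs' : s ∈ A₀ := Algebra.subset_adjoin hs
    have h3 := hv ⟨(e ⟨s, hs'⟩ : A), hAB (e ⟨s, hs'⟩).2⟩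
    rw [hΨ] at h3
    have h4 : (ψ.comp (e.symm : A →ₐ[k] A₀)) (e ⟨s, hs'⟩) = ev k b.O s := by
      change ψ (e.symm (e ⟨s, hs'⟩)) = _
      rw [e.symm_apply_apply, hψ]
    rw [h4] at h3
    exact h3
  · exact Place.val_sub_ev hC b (hb1 s hs)

/-- Let `t` be residually nonconstant for `w`, `z` a partner. `Geo z ⊓ TO v` is finite
(`IsPDiv.finite_Geo_inf`), so for `a ≠ b` outside a finite set the classes of `z - a`, `z - b` are
independent modulo `TO v`, and `val_sub_eq` makes `v (a - b)` constant; take `a`, `a + e`,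
`a + c e`. -/
theorem triv_of_flat [Algebra.EssFiniteType k K] (hG : GeoMatch k l Θ) (hk : (ℓ : k) ≠ 0)
    (hl : (ℓ : l) ≠ 0) {v : ValuationSubring K} {w : ValuationSubring L} (hw : IsPDiv l w)
    (h : Flat Θ v w) : Triv k v := by
  obtain ⟨t, ht, ht'⟩ := hw.trans
  have htt : Transcendental l t := by
    rw [P019.transcendental_iff]
    rintro ⟨a, ha⟩
    exact ht' a (by rw [ha, sub_self, map_zero]; exact zero_lt_one)
  obtain ⟨z, hz⟩ := hG.2 t htt
  have hfin := hw.finite_Geo_inf hl ht ht'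
  have hN : ((Geo ℓ k z ⊓ TO ℓ v : Submodule (ZMod ℓ) (V ℓ K)) : Set (V ℓ K)).Finite := by
    refine (hfin.preimage (f := Θ) Θ.injective.injOn).subset fun x hx => ?_
    refine ⟨?_, h.1 ⟨x, hx.2, rfl⟩⟩
    rw [← hz.2.2]
    exact ⟨x, hx.1, rfl⟩
  obtain ⟨S, hS, hli⟩ := P019.exists_linearIndependent hk hz.1
  obtain ⟨S', hS', hind⟩ :=
    exists_indep (f := fun a : k => cl ℓ (z - algebraMap k K a)) hS hli hN
  have hgeo : ∀ a : k, cl ℓ (z - algebraMap k K a) ∈ Geo ℓ k z := fun a =>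
    mem_Geo_iff.2 ⟨_, (Ecl k z).sub_mem (self_mem_Ecl z) ((Ecl k z).algebraMap_mem a),
      sub_ne hz.1 a, rfl⟩
  have hval : ∀ a ∉ S', ∀ b ∉ S', a ≠ b →
      v.valuation (z - algebraMap k K a) = v.valuation (algebraMap k K (a - b)) := by
    intro a ha b hb hab
    refine val_sub_eq (ℓ := ℓ) hab fun c hc => ?_
    have hc' : c 0 • cl ℓ (z - algebraMap k K a) + c 1 • cl ℓ (z - algebraMap k K b) ∈ TO ℓ v := by
      simpa [Fin.sum_univ_two] using hc
    have hg : c 0 • cl ℓ (z - algebraMap k K a) + c 1 • cl ℓ (z - algebraMap k K b) ∈ Geo ℓ k z :=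
      Submodule.add_mem _ (Submodule.smul_mem _ _ (hgeo a)) (Submodule.smul_mem _ _ (hgeo b))
    have e0 := hind a ha b hb hab (c 0) (c 1) ⟨hg, hc'⟩
    have e1 := hind b hb a ha hab.symm (c 1) (c 0) (by rw [add_comm]; exact ⟨hg, hc'⟩)
    intro i
    fin_cases i
    · exact e0
    · exact e1
  intro c
  by_cases hc : c = 0
  · rw [hc, map_zero]; exact v.zero_mem
  obtain ⟨a, ha⟩ := hS'.exists_notMem
  have f1 : ((fun e : k => a - e) ⁻¹' S').Finite :=
    hS'.preimage (Function.Injective.injOn sub_right_injective)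
  have f2 : ((fun e : k => a - c * e) ⁻¹' S').Finite :=
    hS'.preimage (Function.Injective.injOn
      (sub_right_injective.comp (mul_right_injective₀ hc)))
  obtain ⟨e, he⟩ := ((f1.union f2).union (Set.finite_singleton 0)).exists_notMem
  simp only [Set.mem_union, Set.mem_preimage, Set.mem_singleton_iff, not_or] at he
  obtain ⟨⟨he1, he2⟩, he0⟩ := he
  have g1 := hval a ha _ he1 (fun h => he0 (by linear_combination h))
  have g2 := hval a ha _ he2 (fun h => mul_ne_zero hc he0 (by linear_combination h))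
  rw [g1, sub_sub_cancel, sub_sub_cancel, map_mul, map_mul] at g2
  have p : v.valuation (algebraMap k K e) ≠ 0 := by simpa using he0
  have : v.valuation (algebraMap k K c) = 1 := (mul_eq_right₀ p).1 g2.symm
  exact mem_of_val_eq_one this

/-- the hyperplanes `HO` of the restricted places are the preimages of `HO w` -/
theorem exists_corr [Algebra.EssFiniteType k K] [Algebra.EssFiniteType l L] {z : K} {z' : L}
    (hz : Partner k l Θ z z') {v : ValuationSubring K} {w : ValuationSubring L} (hv : Triv k v)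
    (hw : Triv l w) (h : Flat Θ v w) {y : L} (hy : y ∈ Ecl l z') (hy' : Transcendental l y)
    (hg : GoodAt ℓ l w y) : ∃ (b : Place k (Ecl k z)) (b' : Place l (Ecl l z')),
      b.O = v.comap (Ecl k z).val.toRingHom ∧ b'.O = w.comap (Ecl l z').val.toRingHom ∧
      Corr Θ b b' := by
  obtain ⟨a, ha, hH⟩ := hg
  have hH := hH hy'
  have hπ0 : y - algebraMap l L a ≠ 0 := sub_ne hy' a
  have hπ : y - algebraMap l L a ∈ Ecl l z' := (Ecl l z').sub_mem hy ((Ecl l z').algebraMap_mem a)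
  have hgeo : cl ℓ (y - algebraMap l L a) ∈ (Geo ℓ k z).map Θ.toLinearMap := by
    rw [hz.2.2]
    exact mem_Geo_iff.2 ⟨_, hπ, hπ0, rfl⟩
  obtain ⟨x, hx, hxe⟩ := hgeo
  obtain ⟨e₀, he₀, he₀0, rfl⟩ := mem_Geo_iff.1 hx
  have hxe' : Θ (cl ℓ e₀) = cl ℓ (y - algebraMap l L a) := hxe
  have n1 : w.comap (Ecl l z').val.toRingHom ≠ ⊤ := by
    intro ht
    apply hH
    have := cl_map_mem_HO (ℓ := ℓ) (O := w) (Ecl l z').val.toRingHom (x := ⟨_, hπ⟩)
      (by rw [ht, HO_top]; trivial)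
    exact this
  have n2 : v.comap (Ecl k z).val.toRingHom ≠ ⊤ := by
    intro ht
    apply hH
    have := cl_map_mem_HO (ℓ := ℓ) (O := v) (Ecl k z).val.toRingHom (x := ⟨_, he₀⟩)
      (by rw [ht, HO_top]; trivial)
    rw [← hxe']
    exact h.2 ⟨_, this, rfl⟩
  let b : Place k (Ecl k z) := ⟨_, n2, triv_comap hv⟩
  let b' : Place l (Ecl l z') := ⟨_, n1, triv_comap hw⟩
  refine ⟨b, b', rfl, rfl, fun e e' _ _ hee => ?_⟩
  have i1 := HO_iff (Place.isDVR (isCurve_Ecl hz.1) b)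
    (Θ.toLinearMap ∘ₗ Vmap ℓ (Ecl k z).val.toRingHom) (HO ℓ w)
    (fun x hx => by
      rw [LinearMap.comp_apply, Vmap_cl]
      exact h.2 ⟨_, cl_map_mem_HO _ hx, rfl⟩)
    (x₀ := cl ℓ (⟨e₀, he₀⟩ : Ecl k z)) (by
      rw [LinearMap.comp_apply, Vmap_cl]
      change Θ (cl ℓ e₀) ∉ _
      rw [hxe']; exact hH) (cl ℓ e)
  have i2 := HO_iff (Place.isDVR (isCurve_Ecl hz.2.1) b')
    (Vmap ℓ (Ecl l z').val.toRingHom) (HO ℓ w)
    (fun x hx => by
      rw [Vmap_cl]
      exact cl_map_mem_HO _ hx)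
    (x₀ := cl ℓ (⟨_, hπ⟩ : Ecl l z')) (by
      rw [Vmap_cl]
      exact hH) (cl ℓ e')
  rw [i1, i2, LinearMap.comp_apply, Vmap_cl, Vmap_cl]
  change Θ (cl ℓ (e : K)) ∈ _ ↔ cl ℓ (e' : L) ∈ _
  rw [hee]

theorem Corr.symm {z : K} {z' : L} {b : Place k (Ecl k z)} {b' : Place l (Ecl l z')}
    (h : Corr Θ b b') : Corr Θ.symm b' b :=
  fun e' e he' he hee =>
  (h e e' he he' (by rw [← hee]; exact Θ.apply_symm_apply _)).symm

theorem Corr.unique_right [Algebra.EssFiniteType l L] {z : K} {z' : L} (hz : Partner k l Θ z z')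
    {b : Place k (Ecl k z)} {b₁ b₂ : Place l (Ecl l z')} (h₁ : Corr Θ b b₁) (h₂ : Corr Θ b b₂) :
    b₁ = b₂ := by
  have hC := isCurve_Ecl hz.2.1
  refine Place.ext ((Place.isDVR hC b₁).eq_of_HO_le (ℓ := ℓ) (Place.isDVR hC b₂) fun x hx => ?_)
  obtain ⟨e', he', rfl⟩ := cl_surj x
  have hgeo : cl ℓ (e' : L) ∈ (Geo ℓ k z).map Θ.toLinearMap := by
    rw [hz.2.2]
    exact mem_Geo_iff.2 ⟨_, e'.2, fun h => he' (Subtype.ext h), rfl⟩
  obtain ⟨x, hx', hxe⟩ := hgeo
  obtain ⟨e, he, he0, rfl⟩ := mem_Geo_iff.1 hx'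
  have he0' : (⟨e, he⟩ : Ecl k z) ≠ 0 := fun h => he0 (congrArg Subtype.val h)
  exact (h₂ ⟨e, he⟩ e' he0' he' hxe).1 ((h₁ ⟨e, he⟩ e' he0' he' hxe).2 hx)

theorem Corr.unique_left [Algebra.EssFiniteType k K] {z : K} {z' : L} (hz : Partner k l Θ z z')
    {b₁ b₂ : Place k (Ecl k z)} {b' : Place l (Ecl l z')} (h₁ : Corr Θ b₁ b') (h₂ : Corr Θ b₂ b') :
    b₁ = b₂ :=
  Corr.unique_right hz.symm h₁.symm h₂.symm

/-- for good `z` a place of `Ecl k z` is determined by the value of `z` -/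
theorem IsGood.place_eq {z : K} (hz : IsGood k z) {b₁ b₂ : Place k (Ecl k z)} {u : k}
    (h₁ : ValAt b₁ u) (h₂ : ValAt b₂ u) : b₁ = b₂ := by
  have key : ∀ b₁ b₂ : Place k (Ecl k z), ValAt b₁ u → ValAt b₂ u → b₁.O ≤ b₂.O := by
    intro b₁ b₂ h₁ h₂ y hy
    obtain ⟨n, hn⟩ := hz.2 y y.2
    obtain ⟨r, s, hrs⟩ := (IntermediateField.mem_adjoin_simple_iff k _).1 hn
    let ζ : Ecl k z := ⟨z, self_mem_Ecl z⟩
    have hζ : Transcendental k ζ := trans_coe.2 hz.1
    have e : y ^ ringExpChar k ^ n = Polynomial.aeval ζ r / Polynomial.aeval ζ s := by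
      apply (Ecl k z).val.injective
      rw [map_pow, map_div₀]
      have a1 := Polynomial.aeval_algHom_apply (Ecl k z).val ζ r
      have a2 := Polynomial.aeval_algHom_apply (Ecl k z).val ζ s
      exact hrs.trans (congrArg₂ (· / ·) a1 a2)
    refine mem_of_pow (expChar_pow_pos k (ringExpChar k) n) ?_
    rw [e]
    refine rat_mem (sub_ne hζ u) b₁.triv b₂.triv (h₁ ζ rfl) (h₂ ζ rfl) r s ?_
    rw [← e]
    exact pow_mem hy _
  exact Place.ext (le_antisymm (key _ _ h₁ h₂) (key _ _ h₂ h₁))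

theorem ValAt.unique {z : K} {b : Place k (Ecl k z)} {u u' : k} (h : ValAt b u)
    (h' : ValAt b u') : u = u' :=
  val_unique b.triv (h ⟨z, self_mem_Ecl z⟩ rfl) (h' ⟨z, self_mem_Ecl z⟩ rfl)

theorem exists_valAt [Algebra.EssFiniteType k K] {z : K} (hz : Transcendental k z) (u : k) :
    ∃ b : Place k (Ecl k z), ValAt b u := by
  have hζ : Transcendental k (⟨z, self_mem_Ecl z⟩ : Ecl k z) := trans_coe.2 hz
  obtain ⟨b, hb⟩ := exists_zero (isCurve_Ecl hz) (trans_sub hζ u)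
  refine ⟨b, fun e he => ?_⟩
  have : e = ⟨z, self_mem_Ecl z⟩ := Subtype.ext he
  rw [this]
  exact hb

/-- almost all places on either side have a partner (`eventually_exists_pdiv`,
`Compat.exists_flat`, `triv_of_flat`, `exists_corr`, for `Θ` and `Θ.symm`) -/
theorem eventually_exists_corr (h : Compat Θ) (hG : GeoMatch k l Θ) (hk : (ℓ : k) ≠ 0)
    (hl : (ℓ : l) ≠ 0) {d : ℕ} (hK : IsFF k K (d + 2)) (hL : IsFF l L (d + 2)) {z : K} {z' : L}
    (hz : Partner k l Θ z z') :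
    ∀ᶠ b' : Place l (Ecl l z') in cofinite, ∃ b : Place k (Ecl k z), Corr Θ b b' := by
  haveI := hK.fg
  haveI := hL.fg
  filter_upwards [eventually_exists_pdiv hl hL hz.2.1 {z'}] with b' ⟨w, hw, hg, hb'⟩
  obtain ⟨v, hv⟩ := h.exists_flat (cl_neg_one k) (cl_neg_one l) (hw.condN hl)
  obtain ⟨b, b'', -, e, hc⟩ := exists_corr hz (triv_of_flat hG hk hl hw hv) hw.triv hv
    (self_mem_Ecl z') hz.2.1 (hg z' (Finset.mem_singleton_self _))
  have : b'' = b' := Place.ext (e.trans hb')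
  exact ⟨b, this ▸ hc⟩

theorem exists_isParam (h : Compat Θ) (hG : GeoMatch k l Θ) (hk : (ℓ : k) ≠ 0)
    (hl : (ℓ : l) ≠ 0) {d : ℕ} (hK : IsFF k K (d + 2)) (hL : IsFF l L (d + 2)) {z : K} {z' : L}
    (hz : Partner k l Θ z z') (hg : IsGood k z) :
    ∃ P : k → Place l (Ecl l z'), IsParam Θ z P := by
  classical
  haveI := hK.fg
  haveI := hL.fg
  have h1 := eventually_exists_corr h hG hk hl hK hL hz
  have h2 : ∀ᶠ b : Place k (Ecl k z) in cofinite, ∃ b' : Place l (Ecl l z'), Corr Θ b b' :=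
    (eventually_exists_corr h.symm hG.symm hl hk hL hK hz.symm).mono
      fun b hb => hb.imp fun b' hb' => hb'.symm
  obtain ⟨b₀, -⟩ := exists_valAt hz.2.1 (0 : l)
  have hch : ∀ u : k, ∃ b' : Place l (Ecl l z'),
      (∃ b'' : Place l (Ecl l z'), ∃ b : Place k (Ecl k z), Corr Θ b b'' ∧ ValAt b u) →
        ∃ b : Place k (Ecl k z), Corr Θ b b' ∧ ValAt b u := by
    intro u
    by_cases hu : ∃ b'' : Place l (Ecl l z'), ∃ b : Place k (Ecl k z), Corr Θ b b'' ∧ ValAt b u
    · obtain ⟨b'', hb''⟩ := hu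
      exact ⟨b'', fun _ => hb''⟩
    · exact ⟨b₀, fun h => (hu h).elim⟩
  choose P hP using hch
  refine ⟨P, ?_, ?_⟩
  · rw [Filter.eventually_cofinite] at h2 ⊢
    refine (h2.biUnion (t := fun b => {u : k | ValAt b u}) fun b _ =>
      Set.Subsingleton.finite fun u hu u' hu' => ValAt.unique hu hu').subset fun u hu => ?_
    obtain ⟨b, hb⟩ := exists_valAt hz.1 u
    refine Set.mem_biUnion (x := b) ?_ hb
    rintro ⟨b', hb'⟩
    exact hu (hP u ⟨b', b, hb', hb⟩)
  · have h3 := eventually_mem (isCurve_Ecl hz.1) (⟨z, self_mem_Ecl z⟩ : Ecl k z)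
    have h4 : ∀ᶠ b' : Place l (Ecl l z') in cofinite, ∀ b : Place k (Ecl k z), Corr Θ b b' →
        (⟨z, self_mem_Ecl z⟩ : Ecl k z) ∈ b.O := by
      rw [Filter.eventually_cofinite] at h3 ⊢
      refine (h3.biUnion (t := fun b => {b' : Place l (Ecl l z') | Corr Θ b b'}) fun b _ =>
        Set.Subsingleton.finite fun u hu u' hu' => Corr.unique_right hz hu hu').subset
        fun b' hb' => ?_
      simp only [Set.mem_setOf_eq, not_forall] at hb'
      obtain ⟨b, hb, hb2⟩ := hb'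
      exact Set.mem_biUnion (x := b) hb2 hb
    filter_upwards [h1, h4] with b' ⟨b, hb⟩ hb4
    obtain ⟨u, hu⟩ := Place.exists_val (isCurve_Ecl hz.1) b (hb4 b hb)
    have hu' : ValAt b u := fun e he => by
      have : e = ⟨z, self_mem_Ecl z⟩ := Subtype.ext he
      rw [this]
      exact hu
    obtain ⟨b₂, hb₂, hu₂⟩ := hP u ⟨b', b, hb, hu'⟩
    have e : b₂ = b := hg.place_eq hu₂ hu'
    exact ⟨u, Corr.unique_right hz (e ▸ hb₂) hb⟩

theorem IsParam.cofBij [Algebra.EssFiniteType k K] {z : K} {z' : L} (hz : Partner k l Θ z z')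
    {P : k → Place l (Ecl l z')} (h : IsParam Θ z P) : CofBij P := by
  refine ⟨⟨_, Filter.eventually_cofinite.1 h.1, fun u hu u' hu' e => ?_⟩, h.2⟩
  simp only [Set.mem_compl_iff, Set.mem_setOf_eq, not_not] at hu hu'
  obtain ⟨b, hb, hv⟩ := hu
  obtain ⟨b₂, hb₂, hv₂⟩ := hu'
  have e' : b = b₂ := Corr.unique_left hz hb (e ▸ hb₂)
  exact hv.unique (e' ▸ hv₂)

theorem IsParam.eventually_eq [Algebra.EssFiniteType l L] {z : K} {z' : L}
    (hz : Partner k l Θ z z') (hg : IsGood k z) {P P' : k → Place l (Ecl l z')}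
    (h : IsParam Θ z P) (h' : IsParam Θ z P') : ∀ᶠ u in cofinite, P u = P' u := by
  filter_upwards [h.1, h'.1] with u ⟨b, hb, hv⟩ ⟨b₂, hb₂, hv₂⟩
  have e : b = b₂ := hg.place_eq hv hv₂
  exact Corr.unique_right hz hb (e ▸ hb₂)

/-- at a generic point the restricted place is `P u` with `u` the value of `z`, outside any given
finite set (exclude finitely many places by functions with poles there) -/
theorem IsParam.exists_generic [Algebra.EssFiniteType k K] [Algebra.EssFiniteType l L]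
    (hG : GeoMatch k l Θ) (hk : (ℓ : k) ≠ 0) (hl : (ℓ : l) ≠ 0) {z : K} {z' : L}
    (hz : Partner k l Θ z z') {P : k → Place l (Ecl l z')} (h : IsParam Θ z P) {Bad : Set k}
    (hB : Bad.Finite) : ∃ S : Finset L, ∀ (w : ValuationSubring L) (v : ValuationSubring K),
      IsPDiv l w → (∀ s ∈ S, GoodAt ℓ l w s) → Flat Θ v w → ∃ u ∉ Bad,
        v.valuation (z - algebraMap k K u) < 1 ∧ w.comap (Ecl l z').val.toRingHom = (P u).O := by
  classical
  have f1 := Filter.eventually_cofinite.1 h.1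
  have f2 := Filter.eventually_cofinite.1 h.2
  have f3 := ((f1.union hB).image P).union f2
  have hf : ∀ b' : Place l (Ecl l z'), ∃ f : Ecl l z', f ∉ b'.O := fun b' => by
    by_contra hc
    push Not at hc
    exact b'.ne_top (top_unique fun x _ => hc x)
  choose f hf using hf
  refine ⟨insert z' (f3.toFinset.image fun b' => (f b' : L)), fun w v hw hg hv => ?_⟩
  obtain ⟨b, b', e, e', hc⟩ := exists_corr hz (triv_of_flat hG hk hl hw hv) hw.triv hv
    (self_mem_Ecl z') hz.2.1 (hg z' (Finset.mem_insert_self _ _))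
  have hb' : b' ∉ f3.toFinset := by
    intro hb'
    obtain ⟨a, ha, -⟩ := hg (f b') (Finset.mem_insert_of_mem (Finset.mem_image_of_mem _ hb'))
    apply hf b'
    rw [e']
    exact mem_of_val hw.triv ha
  rw [Set.Finite.mem_toFinset, Set.mem_union, not_or] at hb'
  obtain ⟨u, rfl⟩ := not_not.1 hb'.2
  have hu : ¬ (_ ∨ _) := fun hu => hb'.1 ⟨u, hu, rfl⟩
  rw [not_or] at hu
  obtain ⟨b₂, hb₂, hv₂⟩ := not_not.1 hu.1
  have e2 : b₂ = b := Corr.unique_left hz hb₂ hc
  refine ⟨u, hu.2, ?_, e'.symm⟩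
  have := hv₂ ⟨z, self_mem_Ecl z⟩ rfl
  rw [e2, e, comap_val_lt_one] at this
  exact this

end Vale.Agent.P019
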