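import Vale.Agent.P019.UR
import Vale.Agent.P019.MX

/-! P019: constant field extensions are unramified. -/

namespace Vale.Agent.P019

namespace CXAux

open Polynomial

theorem exists_finset {Λ : Type*} [Field Λ] (N Ω : Subfield Λ) {z : Λ}
    (hz : z ∈ Subfield.closure ((N : Set Λ) ∪ Ω)) :
    ∃ T : Finset Λ, (T : Set Λ) ⊆ Ω ∧ z ∈ Subfield.closure ((N : Set Λ) ∪ T) := by
  classical
  have h2 : ∀ {T T' : Finset Λ} {x y : Λ}, x ∈ Subfield.closure ((N : Set Λ) ∪ T) →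
      y ∈ Subfield.closure ((N : Set Λ) ∪ T') →
      x ∈ Subfield.closure ((N : Set Λ) ∪ (T ∪ T' : Finset Λ)) ∧
        y ∈ Subfield.closure ((N : Set Λ) ∪ (T ∪ T' : Finset Λ)) := fun hx hy =>
    ⟨Subfield.closure_mono (Set.union_subset_union_right _ (by simp)) hx,
      Subfield.closure_mono (Set.union_subset_union_right _ (by simp)) hy⟩
  induction hz using Subfield.closure_induction with
  | mem x hx =>
    rcases hx with hx | hx
    · exact ⟨∅, by simp, Subfield.subset_closure (Or.inl hx)⟩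
    · exact ⟨{x}, by simpa using hx, Subfield.subset_closure (Or.inr (by simp))⟩
  | one => exact ⟨∅, by simp, one_mem _⟩
  | add x y _ _ hx hy =>
    obtain ⟨T, h1, hx⟩ := hx
    obtain ⟨T', h1', hy⟩ := hy
    exact ⟨T ∪ T', by simp [h1, h1'], add_mem (h2 hx hy).1 (h2 hx hy).2⟩
  | neg x _ hx =>
    obtain ⟨T, h1, hx⟩ := hx
    exact ⟨T, h1, neg_mem hx⟩
  | inv x _ hx =>
    obtain ⟨T, h1, hx⟩ := hx
    exact ⟨T, h1, inv_mem hx⟩
  | mul x y _ _ hx hy =>
    obtain ⟨T, h1, hx⟩ := hx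
    obtain ⟨T', h1', hy⟩ := hy
    exact ⟨T ∪ T', by simp [h1, h1'], mul_mem (h2 hx hy).1 (h2 hx hy).2⟩

theorem exists_basis {F Λ : Type*} [Field F] [Field Λ] [Algebra F Λ] (T : Finset Λ) :
    ∃ (n : ℕ) (t : Fin n → Λ), (∀ i, t i ∈ T) ∧ AlgebraicIndependent F t ∧
      ∀ θ ∈ T, IsAlgebraic (IntermediateField.adjoin F (Set.range t)) θ := by
  obtain ⟨I, hI⟩ := (AlgebraicIndependent.matroid F Λ).exists_isBasis (T : Set Λ)
  obtain ⟨h1, h2, h3⟩ := AlgebraicIndependent.matroid_isBasis_iff.1 hI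
  have : Finite I := (T.finite_toSet.subset h2).to_subtype
  obtain ⟨n, ⟨e⟩⟩ := Finite.exists_equiv_fin I
  have hr : Set.range (fun i => (e.symm i : Λ)) = I := by
    ext x
    exact ⟨fun ⟨i, hi⟩ => hi ▸ (e.symm i).2, fun hx => ⟨e ⟨x, hx⟩, by simp⟩⟩
  refine ⟨n, fun i => e.symm i, fun i => h2 (e.symm i).2, h1.comp _ e.symm.injective,
    fun θ hθ => ?_⟩
  rw [hr]
  exact IntermediateField.isAlgebraic_adjoin_iff.2 (h3 θ hθ)

theorem step {E Λ : Type*} [Field E] [Field Λ] [Algebra E Λ] (q : ℕ) [ExpChar Λ q]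
    (O : ValuationSubring Λ) (hE : ∀ e : E, algebraMap E Λ e ∈ O) (A : Subfield Λ) {π : Λ}
    (hπA : π ∈ A) (h0 : π ≠ 0) (h1 : O.valuation π < 1) (hEA : ∀ e : E, algebraMap E Λ e ∈ A)
    (hA : ∀ x ∈ A, x ≠ 0 → ∃ n : ℤ, O.valuation x = O.valuation π ^ n) {θ : Λ}
    (hθ : IsAlgebraic E θ) : ∃ (A' : Subfield Λ) (m : ℕ), A ≤ A' ∧ θ ^ q ^ m ∈ A' ∧
      ∀ x ∈ A', x ≠ 0 → ∃ n : ℤ, O.valuation x = O.valuation π ^ n := by
  have : ExpChar E q := (algebraMap E Λ).expChar (algebraMap E Λ).injective q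
  obtain ⟨g, hs, m, hg⟩ := (minpoly.irreducible hθ.isIntegral).hasSeparableContraction q
  have hm : g.Monic := by
    rw [← monic_expand_iff (expChar_pow_pos E q m), hg]; exact minpoly.monic hθ.isIntegral
  have hz : aeval (θ ^ q ^ m) g = 0 := by rw [← expand_aeval, hg, minpoly.aeval]
  have hd := hs.aeval_derivative_ne_zero hz
  have ha : IsAlgebraic E (aeval (θ ^ q ^ m) g.derivative) :=
    (IsIntegral.of_mem_of_fg _ (hθ.isIntegral.pow _).fg_adjoin_singleton _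
      (aeval_mem_adjoin_singleton E _)).isAlgebraic
  refine ⟨Subfield.closure ((A : Set Λ) ∪ {θ ^ q ^ m}), m,
    fun x hx => Subfield.subset_closure (Or.inl hx), Subfield.subset_closure (Or.inr rfl),
    fun x hx hx0 => ?_⟩
  obtain ⟨n, P, Q, -, -, hP, hQ, rfl⟩ := exists_unit_repr O A hπA h0 h1 hA
    (g := g.map (algebraMap E Λ)) (hm.map _)
    (fun i => by rw [coeff_map]; exact ⟨hEA _, hE _⟩) (by rw [eval_map_algebraMap, hz])
    (by
      rw [derivative_map, eval_map_algebraMap]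
      exact (val_eq_one_iff_mem hd).2 ⟨mem_of_isAlgebraic hE ha, mem_of_isAlgebraic hE ha.inv⟩)
    hx hx0
  exact ⟨n, by rw [map_div₀, map_mul, hP, hQ, map_zpow₀, mul_one, div_one]⟩

theorem tower {E Λ : Type*} [Field E] [Field Λ] [Algebra E Λ] (q : ℕ) [ExpChar Λ q]
    (O : ValuationSubring Λ) (hE : ∀ e : E, algebraMap E Λ e ∈ O) (A : Subfield Λ) {π : Λ}
    (hπA : π ∈ A) (h0 : π ≠ 0) (h1 : O.valuation π < 1) (hEA : ∀ e : E, algebraMap E Λ e ∈ A)
    (hA : ∀ x ∈ A, x ≠ 0 → ∃ n : ℤ, O.valuation x = O.valuation π ^ n) (T : Finset Λ)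
    (hT : ∀ θ ∈ T, IsAlgebraic E θ) : ∃ (A' : Subfield Λ) (m : ℕ), A ≤ A' ∧
      (∀ θ ∈ T, θ ^ q ^ m ∈ A') ∧
      ∀ x ∈ A', x ≠ 0 → ∃ n : ℤ, O.valuation x = O.valuation π ^ n := by
  classical
  induction T using Finset.induction_on with
  | empty => exact ⟨A, 0, le_rfl, by simp, hA⟩
  | insert θ T _ ih =>
    obtain ⟨A1, m1, a1, a2, a3⟩ := ih fun x hx => hT x (Finset.mem_insert_of_mem hx)
    obtain ⟨A2, m2, b1, b2, b3⟩ := step q O hE A1 (a1 hπA) h0 h1 (fun e => a1 (hEA e)) a3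
      (hT θ (Finset.mem_insert_self _ _))
    refine ⟨A2, m1 + m2, a1.trans b1, fun x hx => ?_, b3⟩
    rcases Finset.mem_insert.1 hx with rfl | hx
    · rw [add_comm, pow_add, pow_mul]; exact pow_mem b2 _
    · rw [pow_add, pow_mul]; exact pow_mem (b1 (a2 x hx)) _

end CXAux

/-- `z` involves a finite set `T ⊆ Ω`; let `t ⊆ T` be a transcendence basis of `F(T) / F`. It is
independent over `N`. Take a Gauss extension `O'` of `O` along `t` to `Λ`; it contains `F(t)`,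
hence `F(T)`, and `N(t)` has value group generated by a uniformizer `π` of `O`. For `θ ∈ T` some
`θ ^ p ^ e` is separable over `F(t)`, with `g'(θ ^ p ^ e)` a nonzero element of `F(T)`, a unit;
by `exists_unit_repr` and induction `N(t)(T ^ p ^ e)` has value group generated by `π`, and it
contains `z ^ p ^ e`. So `ℓ ∣ p ^ e ord u`. -/
theorem cl_mem_HO_of_const_ext {ℓ : ℕ} [Fact ℓ.Prime] {Λ : Type*} [Field Λ] (hℓ : (ℓ : Λ) ≠ 0)
    (F N Ω : Subfield Λ) (hFN : F ≤ N) (hFΩ : F ≤ Ω)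
    (hfree : ∀ (n : ℕ) (t : Fin n → Λ), (∀ i, t i ∈ Ω) → AlgebraicIndependent F t →
      AlgebraicIndependent N t)
    (O : ValuationSubring N) (hO : IsDVR O) (hF : ∀ x : N, (x : Λ) ∈ F → x ∈ O) {u : N} {z : Λ}
    (hz : z ∈ Subfield.closure ((N : Set Λ) ∪ Ω)) (hzu : z ^ ℓ = u) : cl ℓ u ∈ HO ℓ O := by
  by_cases hu : u = 0
  · rw [hu, cl_zero]; exact zero_mem _
  have hp : ℓ.Prime := Fact.out
  obtain ⟨q, hq⟩ := ExpChar.exists Λ
  obtain ⟨T, hT, hz⟩ := CXAux.exists_finset N Ω hz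
  obtain ⟨n, t, ht1, ht2, ht3⟩ := CXAux.exists_basis (F := F) T
  obtain ⟨O', rfl, hG⟩ := exists_isGauss O (hfree n t (fun i => hT (ht1 i)) ht2)
  have hGF : IsGauss F O' t := by
    refine ⟨hG.1, fun P m => ?_⟩
    have h := hG.2 (P.map (Subfield.inclusion hFN)) m
    rw [MvPolynomial.coeff_map, MvPolynomial.aeval_def, MvPolynomial.eval₂_map] at h
    exact h
  have hE : ∀ e : IntermediateField.adjoin F (Set.range t), algebraMap _ Λ e ∈ O' := by
    intro e
    obtain ⟨a, ha⟩ := hGF.exists_val_adjoin e.2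
    rw [← O'.valuation_le_one_iff]
    exact ha.trans_le ((O'.valuation_le_one_iff _).2 (hF ⟨a, hFN a.2⟩ a.2))
  obtain ⟨π, h0, h1, -, hπ⟩ := hO.exists_cyclic
  have hv : ∀ x : N, x ≠ 0 → O'.valuation (x : Λ)
      = O'.valuation (π : Λ) ^ ord (O'.comap (algebraMap N Λ)) x := by
    intro x hx
    have h := hπ x hx
    rw [← map_zpow₀, comap_val_eq, map_zpow₀, map_zpow₀] at h
    exact h
  have h0' : (π : Λ) ≠ 0 := fun h => h0 (Subtype.ext h)
  have h1' : O'.valuation (π : Λ) < 1 := (comap_val_lt_one _ _ _).1 h1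
  have hN : ∀ x : N, (x : Λ) ∈ (IntermediateField.adjoin N (Set.range t)).toSubfield :=
    fun x => (IntermediateField.adjoin N (Set.range t)).algebraMap_mem x
  have hle0 : (IntermediateField.adjoin F (Set.range t)).toSubfield
      ≤ (IntermediateField.adjoin N (Set.range t)).toSubfield := by
    rw [IntermediateField.adjoin_toSubfield, IntermediateField.adjoin_toSubfield]
    refine Subfield.closure_mono (Set.union_subset_union_left _ ?_)
    rintro _ ⟨a, rfl⟩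
    exact ⟨⟨a, hFN a.2⟩, rfl⟩
  have hA : ∀ x ∈ (IntermediateField.adjoin N (Set.range t)).toSubfield, x ≠ 0 →
      ∃ n : ℤ, O'.valuation x = O'.valuation (π : Λ) ^ n := by
    intro x hx hx0
    obtain ⟨a, ha⟩ := hG.exists_val_adjoin hx
    have ha0 : a ≠ 0 := by
      rintro rfl
      rw [map_zero, map_zero] at ha
      exact hx0 (by simpa using ha)
    exact ⟨_, ha.trans (hv a ha0)⟩
  obtain ⟨A, m, a1, a2, a3⟩ := CXAux.tower q O' hE
    (IntermediateField.adjoin N (Set.range t)).toSubfield (hN π) h0' h1' (fun e => hle0 e.2)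
    hA T ht3
  have hle : Subfield.closure ((N : Set Λ) ∪ T) ≤ A.comap (iterateFrobenius Λ q m) := by
    refine Subfield.closure_le.2 fun x hx => ?_
    change iterateFrobenius Λ q m x ∈ A
    rw [iterateFrobenius_def]
    rcases hx with hx | hx
    · exact pow_mem (a1 (hN ⟨x, hx⟩)) _
    · exact a2 x hx
  have hw : z ^ q ^ m ∈ A := hle hz
  have hz0 : z ≠ 0 := by
    rintro rfl
    rw [zero_pow hp.ne_zero] at hzu
    exact hu (Subtype.ext hzu.symm)
  obtain ⟨k, hk⟩ := a3 _ hw (pow_ne_zero _ hz0)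
  have e1 : O'.valuation (π : Λ) ^ (ord (O'.comap (algebraMap N Λ)) u * (q ^ m : ℕ))
      = O'.valuation (π : Λ) ^ (k * (ℓ : ℕ)) := by
    rw [zpow_mul, zpow_mul, ← hk, ← hv u hu, ← hzu, zpow_natCast, zpow_natCast, map_pow, map_pow,
      ← pow_mul, ← pow_mul, mul_comm]
  have e2 := (zpow_right_inj₀ (zero_lt_iff.2 (by simpa using h0')) h1'.ne).1 e1
  rw [hO.cl_mem_HO_iff hu]
  have e3 : (ℓ : ℤ) ∣ ord (O'.comap (algebraMap N Λ)) u * (q ^ m : ℕ) := ⟨k, by rw [e2, mul_comm]⟩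
  refine ((Nat.prime_iff_prime_int.1 hp).dvd_or_dvd e3).resolve_right fun h => ?_
  have e4 : ℓ ∣ q := hp.dvd_of_dvd_pow (by exact_mod_cast h)
  cases hq with
  | zero => exact hp.one_lt.ne' (Nat.dvd_one.1 e4)
  | prime hq =>
    rw [(Nat.prime_dvd_prime_iff_eq hp hq).1 e4] at hℓ
    exact hℓ (CharP.cast_eq_zero Λ q)

end Vale.Agent.P019
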