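import Vale.Agent.P019.H2Res
import Vale.Agent.P019.UR

/-! P019: properties of almost all extensions of a family of valuation rings. -/

open IsLocalRing IntermediateField Filter

namespace Vale.Agent.P019.H2

variable {L N α : Type*} [Field L] [Field N] [Algebra L N] {𝓕 : Filter α}
  {W : α → ValuationSubring L}

theorem ev_poly (hW : ∀ y : L, y ≠ 0 → ∀ᶠ i in 𝓕, (W i).valuation y = 1) {ι : Type*} (t : ι → N)
    {P : MvPolynomial ι L} (hP : P ≠ 0) : ∀ᶠ i in 𝓕, ∀ O : ValuationSubring N,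
      O.comap (algebraMap L N) = W i → IsGauss L O t →
        O.valuation (MvPolynomial.aeval t P) = 1 := by
  have : ∀ᶠ i in 𝓕, ∀ m ∈ P.support, (W i).valuation (P.coeff m) = 1 :=
    (eventually_all_finset _).2 fun m hm => hW _ (MvPolynomial.mem_support_iff.1 hm)
  filter_upwards [this] with i hi O hO ht
  obtain ⟨m, hm, h⟩ := ht.exists_val_eq hP
  rw [h, ← comap_val_eq_one, hO]
  exact hi m hm

theorem ev_adjoin (hW : ∀ y : L, y ≠ 0 → ∀ᶠ i in 𝓕, (W i).valuation y = 1) {ι : Type*}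
    (t : ι → N) {x : N} (hx : x ∈ adjoin L (Set.range t)) (h0 : x ≠ 0) :
    ∀ᶠ i in 𝓕, ∀ O : ValuationSubring N,
      O.comap (algebraMap L N) = W i → IsGauss L O t → O.valuation x = 1 := by
  obtain ⟨r, s, rfl⟩ := (mem_adjoin_range_iff L t x).1 hx
  have hr : r ≠ 0 := by rintro rfl; simp at h0
  have hs : s ≠ 0 := by rintro rfl; simp at h0
  filter_upwards [ev_poly hW t hr, ev_poly hW t hs] with i h1 h2 O hO ht
  rw [map_div₀, h1 O hO ht, h2 O hO ht, div_one]

theorem ev_mem (hW : ∀ y : L, y ≠ 0 → ∀ᶠ i in 𝓕, (W i).valuation y = 1) {ι : Type*}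
    (t : ι → N) {x : N} (hx : IsAlgebraic (adjoin L (Set.range t)) x) :
    ∀ᶠ i in 𝓕, ∀ O : ValuationSubring N,
      O.comap (algebraMap L N) = W i → IsGauss L O t → x ∈ O := by
  set K := adjoin L (Set.range t)
  have : ∀ᶠ i in 𝓕, ∀ j ∈ (minpoly K x).support, ∀ O : ValuationSubring N,
      O.comap (algebraMap L N) = W i → IsGauss L O t →
        O.valuation ((minpoly K x).coeff j : N) = 1 :=
    (eventually_all_finset _).2 fun j hj => ev_adjoin hW t ((minpoly K x).coeff j).2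
      (by simpa using Polynomial.mem_support_iff.1 hj)
  filter_upwards [this] with i hi O hO ht
  refine mem_of_root (g := (minpoly K x).map (algebraMap K N))
    ((minpoly.monic hx.isIntegral).map _) (fun j => ?_) ?_
  · rw [Polynomial.coeff_map]
    by_cases hj : j ∈ (minpoly K x).support
    · exact mem_of_val_eq_one (hi j hj O hO ht)
    · rw [Polynomial.notMem_support_iff.1 hj, map_zero]; exact O.zero_mem
  · rw [Polynomial.eval_map_algebraMap, minpoly.aeval]

theorem isGauss_empty (O : ValuationSubring N) {ι : Type*} [IsEmpty ι] (t : ι → N) :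
    IsGauss L O t :=
  isGauss_iff.2 ⟨fun i => isEmptyElim i, algebraicIndependent_empty_type⟩

theorem ev_mem_alg (hW : ∀ y : L, y ≠ 0 → ∀ᶠ i in 𝓕, (W i).valuation y = 1) {x : N}
    (hx : IsAlgebraic L x) :
    ∀ᶠ i in 𝓕, ∀ O : ValuationSubring N, O.comap (algebraMap L N) = W i → x ∈ O := by
  filter_upwards [ev_mem hW (Empty.elim : Empty → N) (hx.tower_top _)] with i hi O hO
  exact hi O hO (isGauss_empty O _)

theorem ev_val_alg (hW : ∀ y : L, y ≠ 0 → ∀ᶠ i in 𝓕, (W i).valuation y = 1) {x : N}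
    (hx : IsAlgebraic L x) (h0 : x ≠ 0) :
    ∀ᶠ i in 𝓕, ∀ O : ValuationSubring N, O.comap (algebraMap L N) = W i → O.valuation x = 1 := by
  filter_upwards [ev_mem_alg hW hx, ev_mem_alg hW hx.inv] with i h1 h2 O hO
  exact (val_eq_one_iff_mem h0).2 ⟨h1 O hO, h2 O hO⟩

theorem ev_valInj {ℓ : ℕ} [Fact ℓ.Prime] (hℓ : (ℓ : L) ≠ 0)
    (hW : ∀ y : L, y ≠ 0 → ∀ᶠ i in 𝓕, (W i).valuation y = 1) {ι : Type*} (t : ι → N)
    [FiniteDimensional (adjoin L (Set.range t)) N] :
    ∀ᶠ i in 𝓕, ∀ O : ValuationSubring N, O.comap (algebraMap L N) = W i → IsGauss L O t →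
      IsDVR (W i) → IsDVR O ∧
        ∀ u : L, cl ℓ (algebraMap L N u) ∈ HO ℓ O → cl ℓ u ∈ HO ℓ (W i) := by
  set K := adjoin L (Set.range t)
  have hK : (ℓ : K) ≠ 0 := by
    rw [← map_natCast (algebraMap L K)]
    exact (map_ne_zero _).2 hℓ
  obtain ⟨S, hS0, hS⟩ := exists_unram (ℓ := ℓ) K N hK
  have : ∀ᶠ i in 𝓕, ∀ s ∈ S, ∀ O : ValuationSubring N,
      O.comap (algebraMap L N) = W i → IsGauss L O t → O.valuation (s : N) = 1 :=
    (eventually_all_finset _).2 fun s hs => ev_adjoin hW t s.2 (by simpa using hS0 s hs)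
  filter_upwards [this] with i hi O hO ht hd
  have hval : ∀ x : K, x ≠ 0 → ∃ a : L, a ≠ 0 ∧
      O.valuation (algebraMap K N x) = O.valuation (algebraMap L N a) := fun x hx => by
    obtain ⟨a, ha⟩ := ht.exists_val_adjoin x.2
    refine ⟨a, ?_, ha⟩
    rintro rfl
    simp [hx] at ha
  have hdK : IsDVR (O.comap (algebraMap K N)) := by
    obtain ⟨π, h0, h1, -, h2⟩ := hd.exists_cyclic
    refine (isDVR_of_cyclic (π := algebraMap L K π) (by simpa using h0) ?_ fun x hx => ?_).1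
    · rw [comap_val_lt_one, ← IsScalarTower.algebraMap_apply, ← comap_val_lt_one, hO]
      exact h1
    · obtain ⟨a, ha0, ha⟩ := hval x hx
      refine ⟨ord (W i) a, ?_⟩
      rw [← map_zpow₀, ← map_zpow₀, comap_val_eq, ← IsScalarTower.algebraMap_apply, ha,
        ← comap_val_eq, hO, map_zpow₀]
      exact h2 a ha0
  refine ⟨isDVR_of_finite hdK, fun u hu => ?_⟩
  by_cases hu0 : u = 0
  · rw [hu0, cl_zero]; exact zero_mem _
  rw [IsScalarTower.algebraMap_apply L K N] at hu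
  have h3 := hS O hdK (fun s hs => hi s hs O hO ht) _ hu
  obtain ⟨y, hy0, hy⟩ := (cl_mem_HO_iff (by simpa using hu0)).1 h3
  obtain ⟨a, ha0, ha⟩ := hval y hy0
  refine (cl_mem_HO_iff hu0).2 ⟨a, ha0, ?_⟩
  rw [← map_pow, comap_val_eq, ← IsScalarTower.algebraMap_apply, map_pow, map_pow, ha] at hy
  rw [← map_pow, ← hO, comap_val_eq, map_pow, map_pow]
  exact hy

end Vale.Agent.P019.H2
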