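import Vale.Agent.P019.H2Res

/-! P019: freeness of the parameter field. -/

open IsLocalRing IntermediateField Filter

namespace Vale.Agent.P019.H2

variable {F Λ : Type*} [Field F] [Field Λ] [Algebra F Λ]

theorem exists_lift_poly {σ : Type*} (Q : MvPolynomial σ Λ)
    (h : ∀ m, Q.coeff m ∈ Set.range (algebraMap F Λ)) :
    ∃ Q' : MvPolynomial σ F, MvPolynomial.map (algebraMap F Λ) Q' = Q := by
  refine MvPolynomial.mem_range_map_iff_coeffs_subset.2 fun c hc => ?_
  obtain ⟨m, -, rfl⟩ := MvPolynomial.mem_coeffs_iff.1 hc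
  exact h m

theorem not_indep {σ : Type*} {Q : MvPolynomial σ Λ} (h0 : Q ≠ 0)
    (h : ∀ m, Q.coeff m ∈ Set.range (algebraMap F Λ)) {s : σ → Λ}
    (hs : MvPolynomial.eval s Q = 0) : ¬ AlgebraicIndependent F s := by
  intro hi
  obtain ⟨Q', rfl⟩ := exists_lift_poly Q h
  rw [MvPolynomial.eval_map, ← MvPolynomial.aeval_def] at hs
  exact h0 (by rw [hi.eq_zero_of_aeval_eq_zero Q' hs, map_zero])

theorem alg_of_not_indep {σ : Type*} {s : σ → Λ} {j₀ : σ}
    (hs : AlgebraicIndependent F (fun j : {j // j ≠ j₀} => s j))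
    (hn : ¬ AlgebraicIndependent F s) (j : σ) :
    IsAlgebraic (adjoin F (Set.range fun j : {j // j ≠ j₀} => s j)) (s j) := by
  by_cases hj : j = j₀
  · subst hj
    rw [isAlgebraic_adjoin_iff]
    by_contra h
    refine hn ((AlgebraicIndependent.iff_transcendental_adjoin_image j).2 ⟨hs, ?_⟩)
    have : s '' {j}ᶜ = Set.range fun i : {i // i ≠ j} => s i := by
      rw [Set.image_eq_range]; rfl
    rw [this]
    exact h
  · exact isAlgebraic_algebraMap (⟨s j, subset_adjoin _ _ ⟨⟨j, hj⟩, rfl⟩⟩ :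
      adjoin F (Set.range fun j : {j // j ≠ j₀} => s j))

theorem indep_swap {ι ι' : Type*} {t : ι → Λ} {s : ι' → Λ} (ht : AlgebraicIndependent F t)
    (hs : AlgebraicIndependent (adjoin F (Set.range t)) s) :
    AlgebraicIndependent (adjoin F (Set.range s)) t := by
  have h1 := ht.sumElim (algebraicIndependent_adjoin_iff.1 hs)
  have h2 : AlgebraicIndependent F (Sum.elim t s) := by
    refine (algebraicIndependent_equiv' (Equiv.sumComm ι ι') ?_).2 h1
    ext (i | i) <;> rfl
  exact algebraicIndependent_adjoin_iff.2 (AlgebraicIndependent.sumElim_iff.1 h2).2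

theorem free (F Ω N : Subfield Λ) (hFΩ : F ≤ Ω) {ι ι' : Type*} {s : ι' → Λ}
    (hs : AlgebraicIndependent Ω s) (hN : ∀ y ∈ N, IsAlgebraic (adjoin F (Set.range s)) y)
    {t : ι → Λ} (htΩ : ∀ i, t i ∈ Ω) (ht : AlgebraicIndependent F t) :
    AlgebraicIndependent N t := by
  have h1 : (adjoin F (Set.range t)).toSubfield ≤ Ω := by
    refine adjoin_le_subfield _ _ ?_ ?_
    · rintro _ ⟨a, rfl⟩
      exact hFΩ a.2
    · rintro _ ⟨i, rfl⟩
      exact htΩ i
  have h2 := indep_swap ht (indep_mono (fun r => ⟨⟨r, h1 r.2⟩, rfl⟩) hs)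
  exact indep_mono (fun y => ⟨⟨y, mem_algebraicClosure_iff.2 (hN y y.2)⟩, rfl⟩)
    h2.algebraicClosure

theorem alg_model {l L : Type*} [Field l] [Field L] [Algebra l L] [Algebra L Λ] [Algebra l Λ]
    [IsScalarTower l L Λ] {d : ℕ} (M : Model l L d) (K : Type*) [Field K] [Algebra K Λ]
    (hl : ∀ a : l, algebraMap l Λ a ∈ Set.range (algebraMap K Λ))
    (hs : ∀ j, IsAlgebraic K (algebraMap L Λ (M.s j))) (y : L) :
    IsAlgebraic K (algebraMap L Λ y) := by
  have := M.finite
  have h1 : IsAlgebraic (adjoin l (Set.range M.s)) (algebraMap L Λ y) :=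
    (Algebra.IsAlgebraic.isAlgebraic y).algebraMap
  have h2 : (adjoin l (Set.range M.s)).toSubfield ≤
      (algebraicClosure K Λ).toSubfield.comap (algebraMap L Λ) := by
    refine adjoin_le_subfield _ _ ?_ ?_
    · rintro _ ⟨a, rfl⟩
      obtain ⟨b, hb⟩ := hl a
      change algebraMap L Λ (algebraMap l L a) ∈ algebraicClosure K Λ
      rw [← IsScalarTower.algebraMap_apply, ← hb]
      exact IntermediateField.algebraMap_mem _ b
    · rintro _ ⟨j, rfl⟩
      exact mem_algebraicClosure_iff.2 (hs j)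
  have h3 : IsAlgebraic (algebraicClosure K Λ) (algebraMap L Λ y) :=
    alg_mono (fun r => ⟨⟨algebraMap L Λ r, h2 r.2⟩, rfl⟩) h1
  exact h3.restrictScalars K

end Vale.Agent.P019.H2
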