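import Vale.Agent.P019.SEL
import Vale.Agent.P019.CX
import Vale.Agent.P019.LDJ
import Vale.Agent.P019.CH
import Vale.Agent.P019.H2Ev
import Vale.Agent.P019.H2Free

/-! P019: the parameter field meets `L`. -/

open Filter IntermediateField

namespace Vale.Agent.P019

/-- Residue step. In the residue field of `O`, the residues of the coefficients of `Q` are
algebraic over `l(t)`, and `t` is independent over `l(s)`; so these two fields are linearly
disjoint over `l` (`linearDisjoint_of_free`). Expanding the coefficients in an `l`-basis gives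
polynomials of degree at most `D` vanishing at the residue of `s`, i.e. multiples `λ π`. -/
theorem val_coeff_sub_lt {l L N : Type*} [Field l] [Field L] [Field N] [Algebra l L] [Algebra L N]
    [Algebra l N] [IsScalarTower l L N] [IsAlgClosed l] {d : ℕ} {M : Model l L d}
    {O : ValuationSubring N} {π : MvPolynomial (Fin d) l}
    (hπ : M.IsDiv (O.comap (algebraMap L N)) π) {α₀ : Fin d →₀ ℕ} (h1 : π.coeff α₀ = 1)
    {Q : MvPolynomial (Fin d) N} (hQ : ∀ m, Q.coeff m ∈ O) (hdeg : Q.totalDegree ≤ π.totalDegree)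
    (hQ1 : Q.coeff α₀ = 1) (hQ0 : MvPolynomial.eval (fun j => algebraMap L N (M.s j)) Q = 0)
    {n : ℕ} {t : Fin n → N} (ht : IsGauss L O t)
    (halg : ∀ m, IsAlgebraic (adjoin (resConst l O) (Set.range fun i => res O (t i)))
      (res O (Q.coeff m))) (m : Fin d →₀ ℕ) :
    O.valuation (Q.coeff m - algebraMap l N (π.coeff m)) < 1 := by
  classical
  have hmem : ∀ g : MvPolynomial (Fin d) l, algebraMap L N (MvPolynomial.aeval M.s g) ∈ O :=
    fun g => (hπ.2.2 g).1
  have htr : Triv l O := fun a => by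
    have := hmem (MvPolynomial.C a)
    rwa [MvPolynomial.aeval_C, ← IsScalarTower.algebraMap_apply] at this
  have hs : ∀ j, algebraMap L N (M.s j) ∈ O := fun j => by simpa using hmem (MvPolynomial.X j)
  let ρ : l → resConst l O := fun a => ⟨res O (algebraMap l N a), a, htr a, rfl⟩
  have hρ : Function.Surjective ρ := by
    rintro ⟨_, a, -, rfl⟩
    exact ⟨a, rfl⟩
  have hρm : ∀ a b, ρ (a * b) = ρ a * ρ b := fun a b =>
    Subtype.ext (by simp only [ρ, map_mul]; exact res_mul (htr a) (htr b))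
  let A : IntermediateField (resConst l O) (IsLocalRing.ResidueField O) :=
    adjoin (resConst l O) (Set.range fun m => res O (Q.coeff m))
  let B : IntermediateField (resConst l O) (IsLocalRing.ResidueField O) :=
    adjoin (resConst l O) (Set.range fun j => res O (algebraMap L N (M.s j)))
  have hLD : A.LinearDisjoint B := by
    refine linearDisjoint_of_free A B (fun i => res O (t i)) (fun a ha => ?_) ?_
    · have : A ≤ (algebraicClosure (adjoin (resConst l O) (Set.range fun i => res O (t i)))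
          (IsLocalRing.ResidueField O)).restrictScalars (resConst l O) := by
        refine adjoin_le_iff.2 ?_
        rintro _ ⟨m, rfl⟩
        exact mem_algebraicClosure_iff.2 (halg m)
      exact mem_algebraicClosure_iff.1 (this ha)
    · refine H2.indep_mono (fun b => ?_) (isGauss_iff.1 ht).2
      have : B.toSubfield ≤ resConst L O := by
        refine adjoin_le_subfield _ _ ?_ ?_
        · rintro _ ⟨⟨_, a, ha, rfl⟩, rfl⟩
          exact ⟨algebraMap l L a, by rwa [← IsScalarTower.algebraMap_apply],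
            by rw [← IsScalarTower.algebraMap_apply]; rfl⟩
        · rintro _ ⟨j, rfl⟩
          exact ⟨M.s j, hs j, rfl⟩
      exact ⟨⟨b, this b.2⟩, rfl⟩
  let q : (Fin d →₀ ℕ) → A := fun m => ⟨res O (Q.coeff m), subset_adjoin _ _ ⟨m, rfl⟩⟩
  let b : (Fin d →₀ ℕ) → B := fun m => ⟨∏ j, res O (algebraMap L N (M.s j)) ^ m j,
    prod_mem fun j _ => pow_mem (S := B) (subset_adjoin _ _ (Set.mem_range_self j)) _⟩
  have h0 : ∑ m ∈ Q.support, (q m : IsLocalRing.ResidueField O) * b m = 0 := by
    have := H2.res_eval hQ hs (T := Q.support) le_rfl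
    rw [hQ0, res_zero] at this
    exact this.symm
  have key : ∀ φ : A →ₗ[resConst l O] resConst l O, φ (q m) = ρ (π.coeff m) * φ 1 := by
    intro φ
    choose c hc using fun m => hρ (φ (q m))
    let g : MvPolynomial (Fin d) l := ∑ m ∈ Q.support, MvPolynomial.monomial m (c m)
    have hg0 : ∀ m, g.coeff m = if m ∈ Q.support then c m else 0 := fun m => by
      simp [g, MvPolynomial.coeff_sum, MvPolynomial.coeff_monomial]
    have hg : ∀ m, ρ (g.coeff m) = φ (q m) := fun m => by
      rw [hg0]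
      split_ifs with h
      · exact hc m
      · have : q m = 0 := Subtype.ext (by
          simp only [q, MvPolynomial.notMem_support_iff.1 h, res_zero]; rfl)
        rw [this, map_zero]
        exact Subtype.ext (by simp [ρ])
    have hsup : g.support ⊆ Q.support := fun m hm => by
      by_contra h
      exact MvPolynomial.mem_support_iff.1 hm (by rw [hg0, if_neg h])
    have hdiv : π ∣ g := by
      refine (hπ.2.2 g).2.1 ((comap_val_lt_one _ _ _).2 ((res_eq_zero_iff (hmem g)).1 ?_))
      have e1 : algebraMap L N (MvPolynomial.aeval M.s g) = MvPolynomial.eval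
          (fun j => algebraMap L N (M.s j)) (MvPolynomial.map (algebraMap l N) g) := by
        rw [MvPolynomial.eval_map, ← MvPolynomial.aeval_def]
        exact (MvPolynomial.aeval_algebraMap_apply N M.s g).symm
      rw [e1, H2.res_eval (fun m => by rw [MvPolynomial.coeff_map]; exact htr _) hs
        ((MvPolynomial.support_map_subset _ _).trans hsup), ← H2.sum_functional hLD _ q b h0 φ]
      refine Finset.sum_congr rfl fun m _ => ?_
      rw [MvPolynomial.coeff_map, ← hg]
      rfl
    obtain ⟨h, hh⟩ := hdiv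
    obtain ⟨a, ha⟩ : ∃ a, h = MvPolynomial.C a := by
      by_cases h0 : h = 0
      · exact ⟨0, by simp [h0]⟩
      · have h2 := MvPolynomial.totalDegree_mul_of_isDomain hπ.1.ne_zero h0
        have h3 : g.totalDegree ≤ Q.totalDegree := Finset.sup_mono hsup
        rw [← hh] at h2
        exact ⟨_, MvPolynomial.totalDegree_eq_zero_iff_eq_C.1 (by omega)⟩
    have hc' : ∀ m, g.coeff m = π.coeff m * a := fun m => by
      rw [hh, ha, mul_comm, MvPolynomial.coeff_C_mul, mul_comm]
    have hq1 : q α₀ = 1 := Subtype.ext (by simp only [q, hQ1, res_one]; rfl)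
    rw [← hg, hc', hρm, ← hq1, ← hg, hc', h1, one_mul]
  have : q m - ρ (π.coeff m) • (1 : A) = 0 := by
    refine H2.eq_zero_of_functional (κ := resConst l O) fun φ => ?_
    rw [map_sub, map_smul, key φ, smul_eq_mul, sub_self]
  rw [← res_eq_iff (hQ m) (htr _)]
  have h2 := congrArg Subtype.val (sub_eq_zero.1 this)
  simpa [q, ρ, Subfield.smul_def] using h2

namespace CSTAux

theorem ev_congr {ℓ : ℕ} [Fact ℓ.Prime] {l L Λ : Type*} [Field l] [Field L] [Field Λ]
    [Algebra l L] [Algebra L Λ] [Algebra l Λ] [IsScalarTower l L Λ] [IsAlgClosed l]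
    (hl : (ℓ : l) ≠ 0) {d : ℕ} {M : Model l L d} {W : ℕ → ValuationSubring L}
    {π : ℕ → MvPolynomial (Fin d) l} {D : ℕ} {α₀ : Fin d →₀ ℕ} {j₀ : Fin d}
    (hW : DivSeq M W π D α₀ j₀) (Ω : IntermediateField l Λ) (N : IntermediateField L Λ)
    [Algebra.EssFiniteType L N] (Q : MvPolynomial (Fin d) N)
    (hQ : ∀ m, ((Q.coeff m : N) : Λ) ∈ Ω) (hdeg : Q.totalDegree ≤ D) (hQ1 : Q.coeff α₀ = 1)
    (hQ0 : MvPolynomial.eval (fun j => algebraMap L N (M.s j)) Q = 0)
    (hs : AlgebraicIndependent Ω (fun j : {j // j ≠ j₀} => algebraMap L Λ (M.s j)))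
    (u : ℕ → L) (hu : ∀ i, cl ℓ (u i) ∉ HO ℓ (W i))
    (hz : ∀ i, ∃ z ∈ adjoin Ω (Set.range (algebraMap L Λ)), z ^ ℓ = algebraMap L Λ (u i))
    (hfree : ∀ (n : ℕ) (t : Fin n → Λ), (∀ i, t i ∈ Ω.toSubfield) →
      AlgebraicIndependent ↥(N.toSubfield ⊓ Ω.toSubfield) t → AlgebraicIndependent N.toSubfield t)
    {n : ℕ} {t : Fin n → N} (htΩ : ∀ i, (t i : Λ) ∈ Ω) (ht : IsTranscendenceBasis L t) :
    ∀ᶠ i in cofinite, ∀ O : ValuationSubring N, O.comap (algebraMap L N) = W i → IsGauss L O t →
      ∀ m, O.valuation (Q.coeff m - algebraMap l N ((π i).coeff m)) < 1 := by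
  have halg := ht.isAlgebraic_field
  have : IsScalarTower l N Λ := IsScalarTower.of_algebraMap_eq fun a => rfl
  have : Algebra.EssFiniteType (adjoin L (Set.range t)) N := Algebra.EssFiniteType.of_comp L _ _
  have : FiniteDimensional (adjoin L (Set.range t)) N :=
    Algebra.finite_of_essFiniteType_of_isAlgebraic
  have hL : (ℓ : L) ≠ 0 := by
    rw [← map_natCast (algebraMap l L)]
    exact (map_ne_zero _).2 hl
  have hΛ : (ℓ : Λ) ≠ 0 := by
    rw [← map_natCast (algebraMap l Λ)]
    exact (map_ne_zero _).2 hl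
  have h1 : ∀ᶠ i in cofinite, ∀ m ∈ Q.support, ∀ O : ValuationSubring N,
      O.comap (algebraMap L N) = W i → IsGauss L O t → Q.coeff m ∈ O :=
    (eventually_all_finset _).2 fun m _ => H2.ev_mem hW.unit t (halg.1 _)
  filter_upwards [h1, H2.ev_valInj hL hW.unit t] with i h1 h2 O hO hg
  have hQO : ∀ m, Q.coeff m ∈ O := fun m => by
    by_cases hm : m ∈ Q.support
    · exact h1 m hm O hO hg
    · rw [MvPolynomial.notMem_support_iff.1 hm]; exact O.zero_mem
  obtain ⟨hd, hinj⟩ := h2 O hO hg (hW.isDiv i).isDVR.1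
  have hdiv : M.IsDiv (O.comap (algebraMap L N)) (π i) := hO ▸ hW.isDiv i
  have htr : Triv l O := fun a => by
    have := (hdiv.2.2 (MvPolynomial.C a)).1
    rw [MvPolynomial.aeval_C] at this
    rw [IsScalarTower.algebraMap_apply l L N]
    exact this
  obtain ⟨x, hxΩ, hx⟩ : ∃ x : N, (x : Λ) ∈ Ω ∧ x ∉ O := by
    by_contra! h
    obtain ⟨z, hz, hzu⟩ := hz i
    refine hu i (hinj _ ?_)
    refine cl_mem_HO_of_const_ext hΛ (N.toSubfield ⊓ Ω.toSubfield) N.toSubfield Ω.toSubfield
      inf_le_left inf_le_right hfree O hd (fun x hx => h x hx.2) (z := z) ?_ hzu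
    refine adjoin_le_subfield Ω _ ?_ ?_ hz
    · rintro _ ⟨a, rfl⟩
      exact Subfield.subset_closure (Or.inr a.2)
    · rintro _ ⟨a, rfl⟩
      exact Subfield.subset_closure (Or.inl (N.algebraMap_mem a))
  refine val_coeff_sub_lt hdiv (hW.coeff i) hQO (hdeg.trans (hW.deg i).ge) hQ1 hQ0 hg fun m => ?_
  by_contra hm
  have ht1 : AlgebraicIndependent (resConst l O) (fun i => res O (t i)) := by
    refine H2.indep_mono ?_ (isGauss_iff.1 hg).2
    rintro ⟨_, a, ha, rfl⟩
    rw [IsScalarTower.algebraMap_apply l L N] at ha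
    exact ⟨⟨_, algebraMap l L a, ha, rfl⟩,
      congrArg (res O) (IsScalarTower.algebraMap_apply l L N a).symm⟩
  have hg2 : IsGauss l O (fun o : Option (Fin n) => o.elim (Q.coeff m) t) := by
    refine isGauss_iff.2 ⟨?_, ?_⟩
    · rintro (_ | j)
      · exact hQO m
      · exact hg.1 j
    · have := (ht1.option_iff_transcendental (res O (Q.coeff m))).2
        (transcendental_adjoin_iff.1 hm)
      convert this using 2 with o
      cases o <;> rfl
  have h3 := (algebraicIndependent_of_valIndep (H2.valIndep_single htr hx) hg2).map'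
    (f := IsScalarTower.toAlgHom l N Λ) Subtype.val_injective
  have h4 := h3.sumElim_of_tower (S := Ω) (by
    rintro _ ⟨o, rfl⟩
    rcases o with j | _ | j
    · fin_cases j
      exact ⟨⟨x, hxΩ⟩, rfl⟩
    · exact ⟨⟨_, hQ m⟩, rfl⟩
    · exact ⟨⟨_, htΩ j⟩, rfl⟩) hs
  have h5 : AlgebraicIndependent l (Sum.elim (fun j : {j // j ≠ j₀} => algebraMap L N (M.s j))
      (Sum.elim ![x] fun o : Option (Fin n) => o.elim (Q.coeff m) t)) := by
    refine AlgebraicIndependent.of_comp (IsScalarTower.toAlgHom l N Λ) ?_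
    convert h4 using 1
    ext (j | j) <;> rfl
  have h6 := (M.isFF.isTranscendenceBasis M.indep (Fintype.card_fin d)).sumElim_comp ht
  have h7 := h5.lift_cardinalMk_le_trdeg
  rw [← h6.lift_cardinalMk_eq_trdeg, Cardinal.lift_le, Cardinal.mk_fintype, Cardinal.mk_fintype,
    Nat.cast_le] at h7
  have := j₀.pos
  simp only [Fintype.card_sum, Fintype.card_option, Fintype.card_fin, Fintype.card_subtype_compl,
    Fintype.card_subtype_eq] at h7
  omega

theorem exists_pow_mem {L N : Type*} [Field L] [Field N] [Algebra L N] [Algebra.IsAlgebraic L N]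
    {W : ℕ → ValuationSubring L} (hW : ∀ y : L, y ≠ 0 → ∀ᶠ i in cofinite, (W i).valuation y = 1)
    {τ : N} {a : ℕ → L} (h : ∀ᶠ i in cofinite, ∀ O : ValuationSubring N,
      O.comap (algebraMap L N) = W i → O.valuation (τ - algebraMap L N (a i)) < 1) :
    ∃ (c : L) (q : ℕ), 0 < q ∧ algebraMap L N c = τ ^ q := by
  let Ω := AlgebraicClosure N
  by_contra hn
  obtain ⟨σ, hσ, hne⟩ := exists_hom_ne (algebraMap L Ω).fieldRange (y := algebraMap N Ω τ) (by
    rintro n ⟨c, hc⟩
    refine hn ⟨c, ringExpChar Ω ^ n, expChar_pow_pos Ω _ n, (algebraMap N Ω).injective ?_⟩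
    rw [map_pow, ← hc, IsScalarTower.algebraMap_apply L N Ω])
  have hσ' : ∀ c : L, σ (algebraMap L Ω c) = algebraMap L Ω c := fun c => hσ _ ⟨c, rfl⟩
  have : Algebra.IsAlgebraic L Ω := Algebra.IsAlgebraic.trans L N Ω
  obtain ⟨i, h1, h2⟩ := (h.and (H2.ev_val_alg hW (Algebra.IsAlgebraic.isAlgebraic
    (σ (algebraMap N Ω τ) - algebraMap N Ω τ)) (sub_ne_zero.2 hne))).exists
  obtain ⟨P, hP⟩ := exists_comap_eq (algebraMap L Ω) (W i)
  have h3 := h1 (P.comap (algebraMap N Ω)) (by
    rw [← hP]; ext x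
    simp only [ValuationSubring.mem_comap, IsScalarTower.algebraMap_apply L N Ω])
  have h4 := h1 (P.comap (σ.comp (algebraMap N Ω))) (by
    rw [← hP]; ext x
    simp only [ValuationSubring.mem_comap, RingHom.comp_apply,
      ← IsScalarTower.algebraMap_apply L N Ω, hσ'])
  rw [comap_val_lt_one, map_sub, ← IsScalarTower.algebraMap_apply] at h3
  rw [comap_val_lt_one, map_sub, RingHom.comp_apply, RingHom.comp_apply,
    ← IsScalarTower.algebraMap_apply, hσ'] at h4
  have h5 := P.valuation.map_sub_lt h4 h3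
  rw [sub_sub_sub_cancel_right, h2 P hP] at h5
  exact lt_irrefl _ h5

end CSTAux

/-- Let `T` be the finite set of coefficients of `Q`, `F = l(T)`, `N = L(T)`, `t ⊆ T` a
transcendence basis of `N / L`, `n = |t|`. Since `s'` is a transcendence basis of `N / F`,
`trdeg F / l = n + 1`. For almost all `i`, and every valuation ring `O` of `N` over `W i` with
`IsGauss L O t`: the elements of `T` lie in `O`, `O` is a DVR and `ValInj` holds over `L`
(`exists_unram` for `N / L(t)`), so `cl (u i) ∉ HO O`; by `cl_mem_HO_of_const_ext`, `F ⊄ O`, so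
some `x ∈ F` has value `≠ 1` and the residues of `T` are algebraic over `l(t)`
(`algebraicIndependent_of_valIndep`); by `val_coeff_sub_lt` every element of `T` is congruent to a
constant. Hence `n = 0`. If `τ ∈ T` had two distinct conjugates over `L` in an algebraic closure,
their difference would be a unit above `W i` for almost all `i`, but both are congruent to the
same coefficient of `π i`. So `τ ^ p ^ e ∈ L`, and some `τ ∈ T` is transcendental over `l`. -/
theorem exists_mem_param {ℓ : ℕ} [Fact ℓ.Prime] {l L Λ : Type*} [Field l] [Field L] [Field Λ]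
    [Algebra l L] [Algebra L Λ] [Algebra l Λ] [IsScalarTower l L Λ] [IsAlgClosed l]
    (hl : (ℓ : l) ≠ 0) {d : ℕ} {M : Model l L d} {W : ℕ → ValuationSubring L}
    {π : ℕ → MvPolynomial (Fin d) l} {D : ℕ} {α₀ : Fin d →₀ ℕ} {j₀ : Fin d}
    (hW : DivSeq M W π D α₀ j₀) (Ω : IntermediateField l Λ) (Q : MvPolynomial (Fin d) Λ)
    (hQ : ∀ m, Q.coeff m ∈ Ω) (hdeg : Q.totalDegree ≤ D) (hQ1 : Q.coeff α₀ = 1)
    (hQ0 : MvPolynomial.eval (fun j => algebraMap L Λ (M.s j)) Q = 0)
    (hs : AlgebraicIndependent Ω (fun j : {j // j ≠ j₀} => algebraMap L Λ (M.s j)))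
    (u : ℕ → L) (hu : ∀ i, cl ℓ (u i) ∉ HO ℓ (W i))
    (hz : ∀ i, ∃ z ∈ adjoin Ω (Set.range (algebraMap L Λ)), z ^ ℓ = algebraMap L Λ (u i)) :
    ∃ c : L, Transcendental l c ∧ algebraMap L Λ c ∈ Ω := by
  classical
  let N : IntermediateField L Λ := adjoin L (Set.range fun m => Q.coeff m)
  have hfin : (Set.range fun m => Q.coeff m).Finite := by
    refine ((Q.support.finite_toSet.image fun m => Q.coeff m).insert 0).subset ?_
    rintro _ ⟨m, rfl⟩
    by_cases hm : m ∈ Q.support
    · exact Or.inr ⟨m, hm, rfl⟩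
    · exact Or.inl (MvPolynomial.notMem_support_iff.1 hm)
  have : Algebra.EssFiniteType L N := essFiniteType_iff.2 (fg_adjoin_of_finite hfin)
  have : IsScalarTower l N Λ := IsScalarTower.of_algebraMap_eq fun a => rfl
  have hQne : Q ≠ 0 := by rintro rfl; simp at hQ1
  have hQN : ∀ m, Q.coeff m ∈ N := fun m => subset_adjoin _ _ ⟨m, rfl⟩
  obtain ⟨Q', hQ'⟩ := H2.exists_lift_poly (F := N) Q fun m => ⟨⟨_, hQN m⟩, rfl⟩
  have hc : ∀ m, ((Q'.coeff m : N) : Λ) = Q.coeff m := fun m => by
    rw [← hQ', MvPolynomial.coeff_map]; rfl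
  have hfree : ∀ (n : ℕ) (t : Fin n → Λ), (∀ i, t i ∈ Ω.toSubfield) →
      AlgebraicIndependent ↥(N.toSubfield ⊓ Ω.toSubfield) t →
        AlgebraicIndependent N.toSubfield t := by
    intro n t htΩ ht
    set F := N.toSubfield ⊓ Ω.toSubfield
    have hsF : AlgebraicIndependent F (fun j : {j // j ≠ j₀} => algebraMap L Λ (M.s j)) :=
      H2.indep_mono (fun r => ⟨⟨r, r.2.2⟩, rfl⟩) hs
    have hQF : ∀ m, Q.coeff m ∈ F := fun m => ⟨hQN m, hQ m⟩
    have h1 := H2.alg_of_not_indep (s := fun j => algebraMap L Λ (M.s j)) hsF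
      (H2.not_indep hQne (fun m => ⟨⟨_, hQF m⟩, rfl⟩) hQ0)
    set K := adjoin F (Set.range fun j : {j // j ≠ j₀} => algebraMap L Λ (M.s j))
    refine H2.free F Ω.toSubfield N.toSubfield inf_le_right hs (fun y hy => ?_) htΩ ht
    have h2 : N.toSubfield ≤ (algebraicClosure K Λ).toSubfield := by
      refine adjoin_le_subfield _ _ ?_ ?_
      · rintro _ ⟨a, rfl⟩
        refine mem_algebraicClosure_iff.2 (H2.alg_model M K (fun b => ?_) h1 a)
        exact ⟨algebraMap F K ⟨_, (algebraMap l N b).2, Ω.algebraMap_mem b⟩, rfl⟩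
      · rintro _ ⟨m, rfl⟩
        exact (algebraicClosure K Λ).algebraMap_mem (algebraMap F K ⟨_, hQF m⟩)
    exact mem_algebraicClosure_iff.1 (h2 hy)
  have htop : adjoin L (Set.range fun m => Q'.coeff m) = ⊤ := by
    apply lift_injective
    rw [lift_adjoin, IntermediateField.lift_top, ← Set.range_comp]
    exact congrArg (fun f => adjoin L (Set.range f)) (funext hc)
  have : Algebra.IsAlgebraic (Algebra.adjoin L (Set.range fun m => Q'.coeff m)) N := by
    rw [← isAlgebraic_adjoin_iff_top, htop]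
    exact ⟨fun x => isAlgebraic_algebraMap (⟨x, mem_top⟩ : (⊤ : IntermediateField L N))⟩
  obtain ⟨T, hT, hTb⟩ := exists_isTranscendenceBasis_subset (R := L)
    (Set.range fun m => Q'.coeff m)
  have hTfin : T.Finite := by
    refine (hfin.preimage (f := Subtype.val) Subtype.val_injective.injOn).subset ?_
    intro x hx
    obtain ⟨m, rfl⟩ := hT hx
    exact ⟨m, (hc m).symm⟩
  have := hTfin.to_subtype
  obtain ⟨n, ⟨e⟩⟩ := Finite.exists_equiv_fin T
  have ht : IsTranscendenceBasis L (fun i => (e.symm i : N)) :=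
    (isTranscendenceBasis_equiv' e.symm rfl).2 hTb
  have hev := CSTAux.ev_congr hl hW Ω N Q' (fun m => hc m ▸ hQ m)
    (by
      refine le_trans ?_ hdeg
      rw [← hQ']
      exact Finset.sup_mono (MvPolynomial.support_map_of_injective _
        (algebraMap N Λ).injective).ge)
    (Subtype.ext (by rw [hc, hQ1]; rfl))
    (by
      apply (algebraMap N Λ).injective
      rw [map_zero, ← hQ0, ← hQ', MvPolynomial.eval_map]
      exact MvPolynomial.eval₂_comp_left (algebraMap N Λ) (RingHom.id N) _ Q')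
    hs u hu hz hfree (fun i => by
      obtain ⟨m, hm⟩ := hT (e.symm i).2
      rw [← hm, hc]
      exact hQ m) ht
  have hempty : IsEmpty (Fin n) := ⟨fun j => by
    obtain ⟨i, hi⟩ := hev.exists
    obtain ⟨O, hO, hg⟩ := exists_isGauss (W i) ht.1
    obtain ⟨m, hm⟩ := hT (e.symm j).2
    have h1 := hi O hO hg m
    have h2 := hg.2 (MvPolynomial.X j - MvPolynomial.C (algebraMap l L ((π i).coeff m)))
      (Finsupp.single j 1)
    have h3 : (0 : Fin n →₀ ℕ) ≠ Finsupp.single j 1 :=
      (Finsupp.single_ne_zero.2 one_ne_zero).symm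
    simp only [MvPolynomial.coeff_sub, MvPolynomial.coeff_X, MvPolynomial.coeff_C, if_neg h3,
      sub_zero, if_true, map_one, map_sub, MvPolynomial.aeval_X, MvPolynomial.aeval_C,
      ← IsScalarTower.algebraMap_apply] at h2
    rw [← hm] at h2
    exact not_lt.2 h2 h1⟩
  have := ht.isEmpty_iff_isAlgebraic.1 hempty
  obtain ⟨m, hm⟩ : ∃ m, Q.coeff m ∉ Set.range (algebraMap l Λ) := by
    by_contra! h
    exact H2.not_indep hQne h hQ0
      (M.indep.map' (f := IsScalarTower.toAlgHom l L Λ) (algebraMap L Λ).injective)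
  obtain ⟨c, q, hq, hcq⟩ := CSTAux.exists_pow_mem hW.unit (τ := Q'.coeff m)
    (a := fun i => algebraMap l L ((π i).coeff m)) (hev.mono fun i hi O hO => by
      rw [← IsScalarTower.algebraMap_apply]
      exact hi O hO (H2.isGauss_empty O _) m)
  have h1 : algebraMap L Λ c = Q.coeff m ^ q := by
    rw [IsScalarTower.algebraMap_apply L N Λ, hcq, map_pow, ← hc]; rfl
  refine ⟨c, ?_, h1 ▸ pow_mem (hQ m) q⟩
  rw [← transcendental_algebraMap_iff (algebraMap L Λ).injective, h1]
  exact (transcendental_iff.2 hm).pow hq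


end Vale.Agent.P019
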