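import Mathlib

/-! Definitions used in the statement of P019. -/

open scoped TensorProduct

namespace Vale.Agent.P019

/-- `V ℓ F = F^× / (F^×)^ℓ`, written additively; a vector space over `ZMod ℓ`. -/
abbrev V (ℓ : ℕ) (F : Type*) [Field F] : Type _ := ModN (Additive Fˣ) ℓ

/-- The class `[x]` of a unit `x` in `V ℓ F`. -/
def cls (ℓ : ℕ) {F : Type*} [Field F] (x : Fˣ) : V ℓ F := ModN.mkQ ℓ (Additive.ofMul x)

/-- The span `R_F` of the Steinberg tensors `[x] ⊗ [1 - x]`, `x ≠ 0, 1`. -/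
def Rel (ℓ : ℕ) (F : Type*) [Field F] : Submodule (ZMod ℓ) (V ℓ F ⊗[ZMod ℓ] V ℓ F) :=
  Submodule.span (ZMod ℓ)
    {t | ∃ x y : Fˣ, (y : F) = 1 - (x : F) ∧ t = cls ℓ x ⊗ₜ[ZMod ℓ] cls ℓ y}

/-- The perfect closure `F^i` of `F`, inside an algebraic closure. -/
abbrev Perf (F : Type*) [Field F] : Type _ := perfectClosure F (AlgebraicClosure F)

end Vale.Agent.P019
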