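import Vale.Agent.P019.CORR
import Vale.Agent.P019.ZAR

/-! P019: a compatible automorphism preserving every `Geo z` is a scalar. -/

namespace Vale.Agent.P019

variable {ℓ : ℕ} [Fact ℓ.Prime] {k K : Type*} [Field k] [Field K] [Algebra k K] [IsAlgClosed k]
  {Θ : V ℓ K ≃ₗ[ZMod ℓ] V ℓ K}

namespace FINAux

theorem poly {t : K} (ht : t ≠ 0) {p : Polynomial k} (hp : p ≠ 0) :
    ∃ m : ℤ, ∀ O : ValuationSubring K, IsDVR O → Triv k O → ord O t = 1 →
      ord O (Polynomial.aeval t p) = m := by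
  obtain ⟨q, hq1, hq2⟩ := Polynomial.exists_eq_pow_rootMultiplicity_mul_and_not_dvd p hp 0
  generalize Polynomial.rootMultiplicity 0 p = m at hq1
  rw [map_zero, sub_zero] at hq1 hq2
  rw [Polynomial.X_dvd_iff] at hq2
  refine ⟨m, fun O hO hT hz => ?_⟩
  have oz := hO.isOrd
  have hc : algebraMap k K (q.coeff 0) ≠ 0 := by simpa using hq2
  have e : Polynomial.aeval t q = algebraMap k K (q.coeff 0) + t * Polynomial.aeval t q.divX := by
    conv_lhs => rw [← Polynomial.X_mul_divX_add q]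
    rw [map_add, map_mul, Polynomial.aeval_X, Polynomial.aeval_C, add_comm]
  have key : Polynomial.aeval t q ≠ 0 ∧ ord O (Polynomial.aeval t q) = 0 := by
    rw [e]
    by_cases h0 : Polynomial.aeval t q.divX = 0
    · rw [h0, mul_zero, add_zero]
      exact ⟨hc, oz.const hT _⟩
    · have a1 := (oz.mem_iff h0).1 (dvr_aeval_mem hT ((oz.mem_iff ht).2 (by omega)) q.divX)
      have := oz.add_eq_of_lt hc (mul_ne_zero ht h0)
        (by rw [oz.const hT, oz.mul ht h0]; omega)
      rwa [oz.const hT] at this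
  rw [hq1, map_mul, map_pow, Polynomial.aeval_X, oz.mul (pow_ne_zero _ ht) key.1, key.2, oz.pow,
    add_zero, hz, mul_one]

theorem rat {t : K} (ht : t ≠ 0) {c : K} (hc : c ∈ IntermediateField.adjoin k {t}) :
    ∃ m : ℤ, ∀ O : ValuationSubring K, IsDVR O → Triv k O → ord O t = 1 → ord O c = m := by
  by_cases h0 : c = 0
  · exact ⟨0, fun O hO _ _ => h0 ▸ hO.isOrd.zero⟩
  obtain ⟨r, s, hrs⟩ := (IntermediateField.mem_adjoin_simple_iff k c).1 hc
  have hr : Polynomial.aeval t r ≠ 0 := fun h1 => h0 (by rw [hrs, h1, zero_div])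
  have hs : Polynomial.aeval t s ≠ 0 := fun h1 => h0 (by rw [hrs, h1, div_zero])
  obtain ⟨m, hm⟩ := poly ht (p := r) (by rintro rfl; exact hr (map_zero _))
  obtain ⟨j, hj⟩ := poly ht (p := s) (by rintro rfl; exact hs (map_zero _))
  refine ⟨m - j, fun O h1 h2 h3 => ?_⟩
  rw [hrs, h1.isOrd.div hr hs, hm O h1 h2 h3, hj O h1 h2 h3]

theorem ne_zero {z : K} (hz : Transcendental k z) : z ≠ 0 := by
  rintro rfl
  exact hz isAlgebraic_zero

theorem cl_mem_Geo {z y : K} (hy : y ∈ Ecl k z) : cl ℓ y ∈ Geo ℓ k z :=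
  Submodule.subset_span ⟨y, hy, rfl⟩

end FINAux

open FINAux

/-- `v'` contains `k` (`triv_of_flat`). If `t ∈ v` has nonconstant residue then
`Geo t ⊓ TO v` is finite, so `Geo t ⊓ TO v'` is finite, so `v'` is trivial on `Ecl k t` (otherwise
`exists_sub_mem_TO`-type codimension at most `1`: the restriction is a place with residue field
`k`). Such `t` generate `v` additively, so `v ≤ v'`; `v' ≠ ⊤` as `HO v ≠ ⊤`. -/
theorem eq_of_flat [Algebra.EssFiniteType k K] (hk : (ℓ : k) ≠ 0)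
    (hG : ∀ z, Transcendental k z → (Geo ℓ k z).map Θ.toLinearMap = Geo ℓ k z)
    {v v' : ValuationSubring K} (hv : IsPDiv k v) (h : Flat Θ v' v) : v' = v := by
  have hGM : GeoMatch k k Θ :=
    ⟨fun z hz => ⟨z, hz, hz, hG z hz⟩, fun z hz => ⟨z, hz, hz, hG z hz⟩⟩
  have hT := triv_of_flat hGM hk hk hv h
  have key : ∀ t ∈ v, (∀ a : k, ¬ v.valuation (t - algebraMap k K a) < 1) → t ∈ v' := by
    intro t ht ht'
    have htr : Transcendental k t := transcendental_iff.2 (by
      rintro ⟨a, rfl⟩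
      exact ht' a (by simp))
    have h0 := ne_zero htr
    have hfin := hv.finite_Geo_inf hk ht ht'
    by_contra hn
    have hs : v'.valuation t⁻¹ < 1 := by
      rw [val_lt_one_iff_inv (inv_ne_zero h0), inv_inv]
      exact hn
    obtain ⟨S, hS, hli⟩ := exists_linearIndependent (ℓ := ℓ) hk htr
    have : Infinite ↥Sᶜ := hS.infinite_compl.to_subtype
    refine hfin.not_infinite (Set.infinite_of_injective_forall_mem
      (f := fun a : ↥Sᶜ => Θ (cl ℓ (t - algebraMap k K a) - cl ℓ t))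
      (fun a b hab => hli.injective (sub_left_injective (Θ.injective hab))) fun a => ⟨?_, ?_⟩)
    · rw [← hG t htr]
      exact ⟨_, Submodule.sub_mem _ (cl_mem_Geo (sub_mem (self_mem_Ecl t)
        (IntermediateField.algebraMap_mem _ _))) (cl_mem_Geo (self_mem_Ecl t)), rfl⟩
    · refine h.1 ⟨_, ?_, rfl⟩
      have h1 : t - algebraMap k K a ≠ 0 := fun e => ht' a (by rw [e]; simp)
      rw [← cl_div h1 h0]
      refine cl_mem_TO ?_
      rw [show (t - algebraMap k K a) / t - 1 = -(algebraMap k K a * t⁻¹) by field_simp; ring,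
        Valuation.map_neg, map_mul]
      exact lt_of_le_of_lt (mul_le_of_le_one_left' ((v'.valuation_le_one_iff _).2 (hT a))) hs
  refine hv.dvr.eq_of_le (fun x hx => ?_) ?_
  · by_cases hx' : ∀ a : k, ¬ v.valuation (x - algebraMap k K a) < 1
    · exact key x hx hx'
    · push Not at hx'
      obtain ⟨a, ha⟩ := hx'
      obtain ⟨t, ht, ht'⟩ := hv.trans
      have h1 := key (x + t) (v.add_mem _ _ hx ht) fun b hb => ht' (b - a) (by
        have := v.valuation.map_sub_lt hb ha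
        rwa [show x + t - algebraMap k K b - (x - algebraMap k K a) = t - algebraMap k K (b - a) by
          rw [map_sub]; ring] at this)
      simpa using v'.sub_mem h1 (key t ht ht')
  · rintro rfl
    have h2 := h.2
    rw [HO_top, Submodule.map_top, LinearEquiv.range] at h2
    exact hv.dvr.isCoatom_HO.1 (top_le_iff.1 h2)

theorem exists_scalar (h : Compat Θ) [Algebra.EssFiniteType k K] (hk : (ℓ : k) ≠ 0)
    (hG : ∀ z, Transcendental k z → (Geo ℓ k z).map Θ.toLinearMap = Geo ℓ k z)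
    {v : ValuationSubring K} (hv : IsPDiv k v) :
    ∃ c : ZMod ℓ, ∀ x, ordV ℓ v (Θ x) = c * ordV ℓ v x := by
  obtain ⟨v', hv'⟩ := h.exists_flat (cl_neg_one k) (cl_neg_one k) (hv.condN hk)
  obtain rfl := eq_of_flat hk hG hv hv'
  obtain ⟨π, -, -, hπ, -⟩ := hv.dvr.exists_cyclic
  refine ⟨ordV ℓ v' (Θ (cl ℓ π)), fun x => ?_⟩
  have h1 : x - ordV ℓ v' x • cl ℓ π ∈ HO ℓ v' := by
    rw [← hv.dvr.ker_ordV, LinearMap.mem_ker, map_sub, map_smul, hv.dvr.ordV_cl, hπ]
    simp
  have h2 : Θ (x - ordV ℓ v' x • cl ℓ π) ∈ HO ℓ v' := hv'.2 ⟨_, h1, rfl⟩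
  rw [← hv.dvr.ker_ordV, LinearMap.mem_ker, map_sub, map_sub, map_smul, map_smul, sub_eq_zero]
    at h2
  rw [h2, smul_eq_mul, mul_comm]

/-- `z = π - a π ^ 2 y` is good for almost all `a`, of order `1` at both; both valuations restrict
to the place `z = 0` of `Ecl k z`, where `ord v e = ord v' e` (compare `p ^ n`-th powers in
`k(z)`) -/
theorem exists_good_uniformizer {d : ℕ} (hK : IsFF k K (d + 2)) {v v' : ValuationSubring K}
    (hv : IsPDiv k v) (hv' : IsPDiv k v') : ∃ z : K, Transcendental k z ∧ ord v z = 1 ∧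
      ∀ e ∈ Ecl k z, ord v e = ord v' e := by
  have := hK.fg
  have o := hv.dvr.isOrd
  have o' := hv'.dvr.isOrd
  obtain ⟨π, h0, h1, h2⟩ : ∃ π : K, π ≠ 0 ∧ ord v π = 1 ∧ ord v' π = 1 := by
    by_cases e : v = v'
    · subst e
      obtain ⟨π, h0, h1⟩ := o.exists_eq 1
      exact ⟨π, h0, h1, h1⟩
    · obtain ⟨π, h0, h1⟩ := exists_ord_eq ![v, v'] (by
        intro i
        fin_cases i
        exacts [hv.dvr, hv'.dvr]) (by
        intro i j hij
        fin_cases i <;> fin_cases j <;> simp_all [eq_comm]) fun _ => 1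
      exact ⟨π, h0, h1 0, h1 1⟩
  have hπ : Transcendental k π := transcendental_iff.2 (by
    rintro ⟨a, rfl⟩
    rw [o.const hv.triv] at h1
    omega)
  obtain ⟨y, hy⟩ := hK.exists_pair hπ
  have hy' := (pair_iff.1 hy).2
  have hy0 : y ≠ 0 := fun e => hy' (e ▸ zero_mem _)
  set N : ℕ := 2 + (ord v y).natAbs + (ord v' y).natAbs with hN
  have hx : AlgebraicIndependent k ![π ^ N * y, π] := pair_symm (pair_iff.2 ⟨hπ, fun hm => hy' (by
    have := div_mem hm (pow_mem (self_mem_Ecl (k := k) π) N)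
    rwa [mul_div_cancel_left₀ _ (pow_ne_zero _ h0)] at this)⟩)
  obtain ⟨a, ha⟩ := ((finite_not_isGood hx).union (Set.finite_singleton 0)).infinite_compl.nonempty
  simp only [Set.mem_compl_iff, Set.mem_union, Set.mem_setOf_eq, Set.mem_singleton_iff, not_or,
    not_not] at ha
  have ha0 : algebraMap k K a ≠ 0 := by simpa using ha.2
  have hx0 : π ^ N * y ≠ 0 := mul_ne_zero (pow_ne_zero _ h0) hy0
  have key : ∀ O : ValuationSubring K, IsPDiv k O → ord O π = 1 → 2 ≤ (N : ℤ) + ord O y →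
      ord O (π - algebraMap k K a * (π ^ N * y)) = 1 := fun O hO g1 g2 => by
    have oO := hO.dvr.isOrd
    rw [sub_eq_add_neg, (oO.add_eq_of_lt h0 (neg_ne_zero.2 (mul_ne_zero ha0 hx0)) ?_).2, g1]
    rw [oO.neg, oO.mul ha0 hx0, oO.const hO.triv, oO.mul (pow_ne_zero _ h0) hy0, oO.pow, g1]
    omega
  have k1 := key v hv h1 (by omega)
  have k2 := key v' hv' h2 (by omega)
  refine ⟨_, ha.1.1, k1, fun e he => ?_⟩
  obtain ⟨n, hn⟩ := ha.1.2 e he
  obtain ⟨m, hm⟩ := rat (ne_zero ha.1.1) hn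
  have e1 := hm v hv.dvr hv.triv k1
  rw [← hm v' hv'.dvr hv'.triv k2, o.pow, o'.pow] at e1
  exact mul_left_cancel₀ (by exact_mod_cast (pow_pos (expChar_pos k _) n).ne') e1

/-- `D = Θ - c` takes values in a finite set (`finite_model_unr`, `Model.IsDiv.isPDiv`) and
preserves `Geo`; by `finite_mem_Geo`, `D (cl (y - a x)) = 0` for almost all `a`; write
`z = (y - a z ^ 2) / (y / z - a z)`. -/
theorem exists_eq_smul (h : Compat Θ) (hk : (ℓ : k) ≠ 0) {d : ℕ} (hK : IsFF k K (d + 2))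
    (hG : ∀ z, Transcendental k z → (Geo ℓ k z).map Θ.toLinearMap = Geo ℓ k z) :
    ∃ c : ZMod ℓ, c ≠ 0 ∧ ∀ x, Θ x = c • x := by
  have := hK.fg
  obtain ⟨c, hc⟩ : ∃ c : ZMod ℓ, ∀ v, IsPDiv k v → ∀ x, ordV ℓ v (Θ x) = c * ordV ℓ v x := by
    by_cases hex : ∃ v : ValuationSubring K, IsPDiv k v
    · obtain ⟨v, hv⟩ := hex
      obtain ⟨c, hc⟩ := exists_scalar h hk hG hv
      refine ⟨c, fun v' hv' => ?_⟩
      obtain ⟨c', hc'⟩ := exists_scalar h hk hG hv'
      obtain ⟨z, hz, h1, h2⟩ := exists_good_uniformizer hK hv hv'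
      have h3 : Θ (cl ℓ z) ∈ Geo ℓ k z := by
        rw [← hG z hz]
        exact ⟨_, cl_mem_Geo (self_mem_Ecl z), rfl⟩
      obtain ⟨e, he, -, he'⟩ := mem_Geo_iff.1 h3
      have a1 := hc (cl ℓ z)
      have a2 := hc' (cl ℓ z)
      rw [← he', hv.dvr.ordV_cl, hv.dvr.ordV_cl, h1] at a1
      rw [← he', hv'.dvr.ordV_cl, hv'.dvr.ordV_cl, ← h2 e he, ← h2 z (self_mem_Ecl z), h1, a1,
        Int.cast_one, mul_one, mul_one] at a2
      rwa [a2]
    · exact ⟨0, fun v hv => absurd ⟨v, hv⟩ hex⟩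
  obtain ⟨M⟩ := exists_model hK
  have hU := finite_model_unr hk M
  set U := (⨅ (W : ValuationSubring K) (π : MvPolynomial (Fin (d + 2)) k) (_ : M.IsDiv W π),
    HO ℓ W : Submodule (ZMod ℓ) (V ℓ K)) with hUd
  have hUf : (U : Set (V ℓ K)).Finite := by
    have : NeZero ℓ := ⟨(Fact.out : ℓ.Prime).ne_zero⟩
    have : Finite U := Module.finite_of_finite (ZMod ℓ)
    exact Set.toFinite _
  have hD : ∀ x, Θ x - c • x ∈ U := fun x => by
    simp only [hUd, Submodule.mem_iInf]
    intro W π hW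
    have hP := hW.isPDiv (by omega)
    rw [← hP.dvr.ker_ordV, LinearMap.mem_ker, map_sub, map_smul, hc W hP, smul_eq_mul, sub_self]
  have pencil : ∀ x y : K, AlgebraicIndependent k ![x, y] →
      {a : k | ¬ (y - algebraMap k K a * x ≠ 0 ∧
        Θ (cl ℓ (y - algebraMap k K a * x)) = c • cl ℓ (y - algebraMap k K a * x))}.Finite := by
    intro x y hxy
    have f1 : (⋃ u ∈ (U : Set (V ℓ K)) \ {0},
        {a : k | u ∈ Geo ℓ k (y - algebraMap k K a * x)}).Finite :=
      hUf.diff.biUnion fun u hu => finite_mem_Geo hk hxy hu.2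
    refine ((finite_not_isGood hxy).union f1).subset fun a ha => ?_
    by_contra hn
    simp only [Set.mem_union, Set.mem_setOf_eq, not_or, not_not, Set.mem_iUnion, not_exists] at hn
    refine ha ⟨ne_zero hn.1.1, sub_eq_zero.1 ?_⟩
    by_contra h0
    refine hn.2 _ ⟨hD _, h0⟩ (Submodule.sub_mem _ ?_
      (Submodule.smul_mem _ _ (cl_mem_Geo (self_mem_Ecl _))))
    rw [← hG _ hn.1.1]
    exact ⟨_, cl_mem_Geo (self_mem_Ecl _), rfl⟩
  have main : ∀ x, Θ x = c • x := fun x => by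
    obtain ⟨z, h0, rfl⟩ := cl_surj x
    by_cases hz : Transcendental k z
    · obtain ⟨y, hy⟩ := hK.exists_pair hz
      have hy' := (pair_iff.1 hy).2
      have hz2 : Transcendental k (z ^ 2) := hz.pow two_pos
      have p1 : AlgebraicIndependent k ![z ^ 2, y] := pair_iff.2 ⟨hz2, by
        rwa [Ecl_eq hz2 (pow_mem (self_mem_Ecl z) 2)]⟩
      have p2 : AlgebraicIndependent k ![z, y / z] := pair_iff.2 ⟨hz, fun hm => hy' (by
        have := mul_mem hm (self_mem_Ecl (k := k) z)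
        rwa [div_mul_cancel₀ _ h0] at this)⟩
      obtain ⟨a, ha⟩ := ((pencil _ _ p1).union (pencil _ _ p2)).infinite_compl.nonempty
      simp only [Set.mem_compl_iff, Set.mem_union, Set.mem_setOf_eq, not_or, not_not] at ha
      have e : cl ℓ z = cl ℓ (y - algebraMap k K a * z ^ 2) -
          cl ℓ (y / z - algebraMap k K a * z) := by
        rw [← cl_div ha.1.1 ha.2.1]
        congr 1
        rw [eq_div_iff ha.2.1]
        field_simp
      rw [e, map_sub, ha.1.2, ha.2.2, smul_sub]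
    · obtain ⟨a, rfl⟩ := not_not.1 (transcendental_iff.not.1 hz)
      rw [cl_algebraMap, map_zero, smul_zero]
  refine ⟨c, ?_, main⟩
  rintro rfl
  obtain ⟨t, ht⟩ := hK.exists_basis
  refine infinite_Geo hk (ht.1.transcendental 0) ?_
  have hs : Subsingleton (V ℓ K) := ⟨fun a b => Θ.injective (by rw [main, main]; simp)⟩
  infer_instance

end Vale.Agent.P019
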