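import Vale.Agent.P019.ValH
import Vale.Agent.P019.ValExt

/-! P019: an inert Kummer extension detects a class modulo principal units. -/

namespace Vale.Agent.P019

/-- If `y = (1 + m) z ^ ℓ`, then `t' = t / z` has `t' ^ ℓ ≡ 1`, so `t' ≡ ζ ^ j`; since `σ`
preserves `w'` and fixes `z`, `ζ`, also `ζ t' ≡ ζ ^ j`, so `ζ ≡ 1` and
`ℓ = ∏ (1 - ζ ^ i) ≡ 0`. -/
theorem not_mem_TO_of_inert {ℓ : ℕ} [Fact ℓ.Prime] {L L' : Type*} [Field L] [Field L']
    [Algebra L L'] {w' : ValuationSubring L'} (hℓ : w'.valuation (ℓ : L') = 1) {ζ : L}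
    (hζ : IsPrimitiveRoot ζ ℓ) {y : L} (hy : y ≠ 0) {t : L'} (ht : t ^ ℓ = algebraMap L L' y)
    (σ : L' ≃ₐ[L] L') (hσ : σ t = algebraMap L L' ζ * t) (hw : ∀ x, σ x ∈ w' ↔ x ∈ w') :
    cl ℓ y ∉ TO ℓ (w'.comap (algebraMap L L')) := by
  intro hT
  have hp : ℓ.Prime := Fact.out
  obtain ⟨u, hu, e⟩ := mem_TO_iff_exists.1 hT
  have hu0 : u ≠ 0 := by rintro rfl; simp at hu
  obtain ⟨z, hz0, hz⟩ := (cl_eq_iff hy hu0).1 e.symm
  rw [comap_val_lt_one, map_sub, map_one] at hu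
  have hz' : algebraMap L L' z ≠ 0 := (map_ne_zero _).2 hz0
  have hζ' := hζ.map_of_injective (algebraMap L L').injective
  obtain ⟨s, hs⟩ : ∃ s, s = t / algebraMap L L' z := ⟨_, rfl⟩
  have hs1 : s ^ ℓ = algebraMap L L' u := by
    rw [hs, div_pow, ht, hz, map_mul, map_pow, mul_div_cancel_right₀ _ (pow_ne_zero _ hz')]
  have hs2 : σ s = algebraMap L L' ζ * s := by
    rw [hs, map_div₀, hσ, σ.commutes, mul_div_assoc]
  have hσζ := σ.commutes ζ
  generalize algebraMap L L' ζ = c at hζ' hs2 hσζ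
  have hvs : w'.valuation s = 1 := by
    have := w'.valuation.map_one_add_of_lt hu
    rwa [add_sub_cancel, ← hs1, map_pow, pow_eq_one_iff_left hp.ne_zero] at this
  have hvc : w'.valuation c = 1 := by
    have := congrArg w'.valuation hζ'.pow_eq_one
    rwa [map_pow, map_one, pow_eq_one_iff_left hp.ne_zero] at this
  have hprod := congrArg (Polynomial.eval s) (X_pow_sub_C_eq_prod hζ' hp.pos (one_pow ℓ))
  simp only [Polynomial.eval_sub, Polynomial.eval_pow, Polynomial.eval_X, Polynomial.eval_C,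
    Polynomial.eval_prod, mul_one] at hprod
  obtain ⟨j, -, hj⟩ : ∃ j ∈ Finset.range ℓ, w'.valuation (s - c ^ j) < 1 := by
    by_contra hn
    push Not at hn
    rw [← hs1, hprod, map_prod] at hu
    exact hu.not_ge (Finset.one_le_prod' hn)
  have hj2 : w'.valuation (c * s - c ^ j) < 1 := by
    have e2 : c * s - c ^ j = σ (s - c ^ j) := by rw [map_sub, map_pow, hs2, hσζ]
    rw [e2]
    by_cases h0 : s - c ^ j = 0
    · simp [h0]
    · rw [val_lt_one_iff_inv ((map_ne_zero _).2 h0), ← map_inv₀, hw]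
      exact (val_lt_one_iff_inv h0).1 hj
  have h1 : w'.valuation (1 - c) < 1 := by
    have := w'.valuation.map_sub_lt hj hj2
    rwa [show s - c ^ j - (c * s - c ^ j) = (1 - c) * s by ring, map_mul, hvs, mul_one] at this
  have h2 : ∀ i : ℕ, w'.valuation (1 - c ^ i) < 1 := by
    intro i
    induction i with
    | zero => simp
    | succ i ih =>
      rw [show 1 - c ^ (i + 1) = (1 - c ^ i) * c + (1 - c) by ring]
      exact w'.valuation.map_add_lt (by rwa [map_mul, hvc, mul_one]) h1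
  have h3 := w'.valuation.map_sum_lt (s := Finset.range ℓ) one_ne_zero fun i _ => h2 i
  rw [Finset.sum_sub_distrib, hζ'.geom_sum_eq_zero hp.one_lt, sub_zero, Finset.sum_const,
    Finset.card_range, nsmul_eq_mul, mul_one, hℓ] at h3
  exact lt_irrefl _ h3

/-- the Kummer extension `AdjoinRoot (X ^ ℓ - C y)` -/
theorem exists_kummer {ℓ : ℕ} [Fact ℓ.Prime] {L : Type*} [Field L] {ζ : L}
    (hζ : IsPrimitiveRoot ζ ℓ) {y : L} (hy : cl ℓ y ≠ 0) :
    Irreducible (Polynomial.X ^ ℓ - Polynomial.C y) ∧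
    (Polynomial.X ^ ℓ - Polynomial.C y).Separable ∧
    ∃ σ : AdjoinRoot (Polynomial.X ^ ℓ - Polynomial.C y) ≃ₐ[L]
        AdjoinRoot (Polynomial.X ^ ℓ - Polynomial.C y),
      σ (AdjoinRoot.root _) = algebraMap L _ ζ * AdjoinRoot.root _ := by
  have hp : ℓ.Prime := Fact.out
  have : NeZero ℓ := ⟨hp.ne_zero⟩
  have hi : Irreducible (Polynomial.X ^ ℓ - Polynomial.C y) :=
    X_pow_sub_C_irreducible_of_prime hp fun b hb => hy (by rw [← hb, cl_pow_self])
  refine ⟨hi, Polynomial.separable_X_pow_sub_C_of_irreducible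
    ⟨ζ, (mem_primitiveRoots hp.pos).2 hζ⟩ y hi,
    autAdjoinRootXPowSubC ℓ y (rootsOfUnity.mkOfPowEq ζ hζ.pow_eq_one), ?_⟩
  rw [autAdjoinRootXPowSubC_root, Algebra.smul_def]
  rfl

end Vale.Agent.P019
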