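import Vale.Agent.P019.Base2

/-! P019: the theorem of Noether-Ostrowski. -/

open Polynomial

namespace Vale.Agent.P019

universe u

namespace NOAux

variable {R T : Type*} [CommRing R] [CommRing T]

/-- generic monic polynomial of degree `i` -/
noncomputable def gen (N i : ℕ) (x : ℕ → ℕ → R) : R[X][X] :=
  X ^ i + ∑ a ∈ Finset.range i, monomial a (∑ b ∈ Finset.range (N + 1), monomial b (x a b))

theorem gen_map (N i : ℕ) (x : ℕ → ℕ → R) (ψ : R →+* T) :
    (gen N i x).map (mapRingHom ψ) = gen N i fun a b => ψ (x a b) := by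
  simp [gen, Polynomial.map_sum]

theorem degree_low (N i : ℕ) (x : ℕ → ℕ → R) :
    degree (∑ a ∈ Finset.range i,
      monomial a (∑ b ∈ Finset.range (N + 1), monomial b (x a b)) : R[X][X]) < i := by
  rw [degree_lt_iff_coeff_zero]
  intro m hm
  rw [finsetSum_coeff]
  refine Finset.sum_eq_zero fun a ha => ?_
  rw [coeff_monomial, if_neg]
  have := Finset.mem_range.1 ha
  omega

theorem gen_monic (N i : ℕ) (x : ℕ → ℕ → R) : (gen N i x).Monic :=
  monic_X_pow_add (degree_low N i x)

theorem gen_natDegree [Nontrivial R] (N i : ℕ) (x : ℕ → ℕ → R) : (gen N i x).natDegree = i := by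
  rw [gen, natDegree_add_eq_left_of_degree_lt, natDegree_X_pow]
  rw [degree_X_pow]
  exact degree_low N i x

theorem gen_eq {N : ℕ} {g : R[X][X]} (hg : g.Monic) (hd : ∀ a, (g.coeff a).natDegree ≤ N)
    (x : ℕ → ℕ → R) (hx : ∀ a < g.natDegree, ∀ b ≤ N, x a b = (g.coeff a).coeff b) :
    gen N g.natDegree x = g := by
  conv_rhs => rw [hg.as_sum]
  unfold gen
  congr 1
  refine Finset.sum_congr rfl fun a ha => ?_
  rw [C_mul_X_pow_eq_monomial]
  congr 1
  conv_rhs => rw [as_sum_range' (g.coeff a) (N + 1) (Nat.lt_succ_of_le (hd a))]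
  refine Finset.sum_congr rfl fun b hb => ?_
  rw [hx a (Finset.mem_range.1 ha) b (Nat.lt_succ_iff.1 (Finset.mem_range.1 hb))]

theorem coeff_swap (p : R[X][X]) (a b : ℕ) :
    ((Bivariate.swap p).coeff a).coeff b = (p.coeff b).coeff a := by
  induction p using Polynomial.induction_on' with
  | add p q hp hq => simp only [map_add, coeff_add, hp, hq]
  | monomial n c =>
    induction c using Polynomial.induction_on' with
    | add p q hp hq => simp only [map_add, coeff_add, hp, hq]
    | monomial m r =>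
      rw [Bivariate.swap_monomial_monomial]
      simp only [coeff_monomial]
      split_ifs <;> simp [coeff_monomial, *]

theorem swap_deg {p : R[X][X]} {N : ℕ} :
    (Bivariate.swap p).natDegree ≤ N ↔ ∀ a, (p.coeff a).natDegree ≤ N := by
  simp only [natDegree_le_iff_coeff_eq_zero]
  constructor
  · intro h a b hb
    rw [← coeff_swap, h b hb, coeff_zero]
  · intro h b hb
    ext a
    rw [coeff_swap, h a b hb, coeff_zero]

theorem inner_of_dvd [IsDomain R] {g p : R[X][X]} (hp : p ≠ 0) (h : g ∣ p) {N : ℕ}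
    (hN : ∀ a, (p.coeff a).natDegree ≤ N) : ∀ a, (g.coeff a).natDegree ≤ N :=
  swap_deg.1 ((natDegree_le_of_dvd (_root_.map_dvd (Bivariate.swap (R := R)) h)
    ((map_ne_zero_iff _ Bivariate.swap.injective).2 hp)).trans (swap_deg.2 hN))

/-- the variables -/
abbrev Var (N : ℕ) := Bool × Fin (N + 1) × Fin (N + 1)

/-- the variable attached to a coefficient -/
def ix (N : ℕ) (s : Bool) (a b : ℕ) : Var N := (s, Fin.ofNat (N + 1) a, Fin.ofNat (N + 1) b)

/-- the generic relation -/
noncomputable def rel (N i j : ℕ) (f : R[X][X]) : (MvPolynomial (Var N) R)[X][X] :=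
  gen N i (fun a b => MvPolynomial.X (ix N false a b)) *
    gen N j (fun a b => MvPolynomial.X (ix N true a b)) - f.map (mapRingHom MvPolynomial.C)

theorem rel_eval (N i j : ℕ) (f : R[X][X]) (ψ : MvPolynomial (Var N) R →+* T) :
    (rel N i j f).map (mapRingHom ψ) =
      gen N i (fun a b => ψ (MvPolynomial.X (ix N false a b))) *
        gen N j (fun a b => ψ (MvPolynomial.X (ix N true a b))) -
          f.map (mapRingHom (ψ.comp MvPolynomial.C)) := by
  rw [rel, Polynomial.map_sub, Polynomial.map_mul, gen_map, gen_map, Polynomial.map_map,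
    mapRingHom_comp]

theorem rel_map (N i j : ℕ) (f : R[X][X]) (φ : R →+* T) :
    (rel N i j f).map (mapRingHom (MvPolynomial.map φ)) = rel N i j (f.map (mapRingHom φ)) := by
  rw [rel_eval, rel, Polynomial.map_map, mapRingHom_comp, MvPolynomial.map_comp_C]
  simp only [MvPolynomial.map_X]

/-- the coefficients of the generic relation -/
noncomputable def co (N i j : ℕ) (f : R[X][X]) (ab : ℕ × ℕ) : MvPolynomial (Var N) R :=
  ((rel N i j f).coeff ab.1).coeff ab.2

theorem co_zero_iff (N i j : ℕ) (f : R[X][X]) (ψ : MvPolynomial (Var N) R →+* T) :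
    (∀ ab, ψ (co N i j f ab) = 0) ↔ (rel N i j f).map (mapRingHom ψ) = 0 := by
  constructor
  · intro h
    ext a b
    simpa [co] using h (a, b)
  · intro h ab
    have := congrArg (fun p => (p.coeff ab.1).coeff ab.2) h
    simpa [co] using this

theorem one_mem {M : Type*} [Field M] (f : M[X][X]) (hf : f.Monic)
    (hirr : Irreducible (f.map (mapRingHom (algebraMap M (AlgebraicClosure M)))))
    (N : ℕ) {i j : ℕ} (hi : i ≠ 0) (hj : j ≠ 0) :
    (1 : MvPolynomial (Var N) M) ∈ Ideal.span (Set.range (co N i j f)) := by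
  by_contra h
  obtain ⟨m, hm, hle⟩ := Ideal.exists_le_maximal _ ((Ideal.ne_top_iff_one _).2 h)
  obtain ⟨x, rfl⟩ :=
    MvPolynomial.eq_vanishingIdeal_singleton_of_isMaximal (AlgebraicClosure M) hm
  have h0 := (co_zero_iff N i j f (MvPolynomial.aeval x : _ →ₐ[M] _).toRingHom).1 fun ab =>
    (MvPolynomial.mem_vanishingIdeal_singleton_iff x _).1 (hle (Ideal.subset_span ⟨ab, rfl⟩))
  have e : (MvPolynomial.aeval x : MvPolynomial (Var N) M →ₐ[M] _).toRingHom.comp MvPolynomial.C
      = algebraMap M (AlgebraicClosure M) := by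
    ext r
    simp
  rw [rel_eval, e, sub_eq_zero] at h0
  have := (((hf.map _).irreducible_iff_natDegree).1 hirr).2 _ _ (gen_monic _ _ _)
    (gen_monic _ _ _) h0
  rw [gen_natDegree, gen_natDegree] at this
  tauto

theorem descend {M σ ι : Type*} [Field M] (e : ι → MvPolynomial σ M)
    (h : (1 : MvPolynomial σ M) ∈ Ideal.span (Set.range e)) :
    ∃ S : Finset M, ∀ A : Subring M, (∀ s ∈ S, s ∈ A) → ∀ e₀ : ι → MvPolynomial σ A,
      (∀ k, MvPolynomial.map A.subtype (e₀ k) = e k) →
        (1 : MvPolynomial σ A) ∈ Ideal.span (Set.range e₀) := by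
  classical
  obtain ⟨c, hc⟩ := Finsupp.mem_ideal_span_range_iff_exists_finsupp.1 h
  refine ⟨c.support.biUnion fun k => (c k).coeffs, fun A hA e₀ he => ?_⟩
  have hl : ∀ k ∈ c.support, ∃ d : MvPolynomial σ A, MvPolynomial.map A.subtype d = c k :=
    fun k hk => MvPolynomial.mem_range_map_iff_coeffs_subset.2 fun s hs =>
      ⟨⟨s, hA s (Finset.mem_biUnion.2 ⟨k, hk, hs⟩)⟩, rfl⟩
  choose! d hd using hl
  have h1 : ∑ k ∈ c.support, d k * e₀ k = 1 := by
    apply MvPolynomial.map_injective A.subtype A.subtype_injective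
    rw [map_one, ← hc, map_sum, Finsupp.sum]
    exact Finset.sum_congr rfl fun k hk => by rw [map_mul, hd k hk, he]
  rw [← h1]
  exact Ideal.sum_mem _ fun k _ => Ideal.mul_mem_left _ _ (Ideal.subset_span ⟨k, rfl⟩)

end NOAux

open NOAux in
/-- Let `n` be the degree of `f` and `δ` a bound for the degrees of its coefficients. For
`0 < i < n` consider generic monic `G`, `H` of degrees `i`, `n - i` with coefficients of degree at
most `δ`; the coefficients of `G H - f` have no common zero in the algebraic closure, so `1` is a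
combination of them (Nullstellensatz). Let `S` contain the coefficients of `f` and of these
combinations, and push the identities along `φ`. A monic factorization over a field `κ` has
coefficients of degree at most `δ` (degree in the inner variable is additive). -/
theorem exists_irrRed {M : Type*} [Field M] (f : M[X][X]) (hf : f.Monic)
    (hirr : Irreducible (f.map (mapRingHom (algebraMap M (AlgebraicClosure M))))) :
    ∃ S : Finset M, ∀ A : Subring M, (∀ s ∈ S, s ∈ A) → IrrRed.{u} A f := by
  classical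
  obtain ⟨N, hN1, hN2⟩ : ∃ N, f.natDegree ≤ N ∧ ∀ a, (f.coeff a).natDegree ≤ N :=
    ⟨max f.natDegree (Bivariate.swap f).natDegree, le_max_left _ _,
      swap_deg.1 (le_max_right _ _)⟩
  have hS : ∀ i : ℕ, ∃ S : Finset M, i ≠ 0 → f.natDegree - i ≠ 0 → ∀ A : Subring M,
      (∀ s ∈ S, s ∈ A) → ∀ e₀ : ℕ × ℕ → MvPolynomial (Var N) A,
      (∀ k, MvPolynomial.map A.subtype (e₀ k) = co N i (f.natDegree - i) f k) →
        (1 : MvPolynomial (Var N) A) ∈ Ideal.span (Set.range e₀) := by
    intro i
    by_cases h : i ≠ 0 ∧ f.natDegree - i ≠ 0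
    · obtain ⟨S, hS⟩ := descend _ (one_mem f hf hirr N h.1 h.2)
      exact ⟨S, fun _ _ => hS⟩
    · exact ⟨∅, fun h1 h2 => (h ⟨h1, h2⟩).elim⟩
  choose S hS using hS
  refine ⟨(Finset.range f.natDegree).biUnion S, fun A hA κ _ φ f₀ hf₀ => ?_⟩
  have hinj : Function.Injective (mapRingHom A.subtype) :=
    Polynomial.map_injective _ A.subtype_injective
  have hm₀ : f₀.Monic := monic_of_injective hinj (hf₀ ▸ hf)
  have hd₀ : f₀.natDegree = f.natDegree := by
    rw [← hf₀, natDegree_map_eq_of_injective hinj]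
  have hmF : (f₀.map (mapRingHom φ)).Monic := hm₀.map _
  have hdF : (f₀.map (mapRingHom φ)).natDegree = f.natDegree := by
    rw [hm₀.natDegree_map, hd₀]
  have hiF : ∀ a, ((f₀.map (mapRingHom φ)).coeff a).natDegree ≤ N := fun a => by
    have := hN2 a
    rw [← hf₀, coeff_map, coe_mapRingHom,
      natDegree_map_eq_of_injective A.subtype_injective] at this
    rw [coeff_map, coe_mapRingHom]
    exact natDegree_map_le.trans this
  refine hmF.irreducible_iff_natDegree.2 ⟨fun h1 => ?_, fun g h hg hh hgh => ?_⟩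
  · rw [h1, natDegree_one] at hdF
    rw [hf.natDegree_eq_zero.1 hdF.symm, Polynomial.map_one] at hirr
    exact not_irreducible_one hirr
  by_contra hne
  rw [not_or] at hne
  have hsum : g.natDegree + h.natDegree = f.natDegree := by
    rw [← hg.natDegree_mul hh, hgh, hdF]
  have hh' : f.natDegree - g.natDegree = h.natDegree := by omega
  have h1 := hS g.natDegree hne.1 (hh' ▸ hne.2) A
    (fun s hs => hA s (Finset.mem_biUnion.2 ⟨_, Finset.mem_range.2 (by omega), hs⟩))
    (co N g.natDegree (f.natDegree - g.natDegree) f₀) fun k => by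
      rw [← hf₀, co, co, ← rel_map]
      simp
  rw [hh'] at h1
  let y : Var N → κ := fun v => ((if v.1 then h else g).coeff v.2.1).coeff v.2.2
  have hig := inner_of_dvd hmF.ne_zero ⟨h, hgh.symm⟩ hiF
  have hih := inner_of_dvd hmF.ne_zero ⟨g, by rw [← hgh, mul_comm]⟩ hiF
  have h0 := (co_zero_iff N g.natDegree h.natDegree f₀ (MvPolynomial.eval₂Hom φ y)).2 (by
    have e : (MvPolynomial.eval₂Hom φ y).comp MvPolynomial.C = φ := by
      ext r
      simp
    rw [rel_eval, e, gen_eq hg hig, gen_eq hh hih, hgh, sub_self]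
    · intro a ha b hb
      simp [y, ix, Nat.mod_eq_of_lt (show a < N + 1 by omega),
        Nat.mod_eq_of_lt (show b < N + 1 by omega)]
    · intro a ha b hb
      simp [y, ix, Nat.mod_eq_of_lt (show a < N + 1 by omega),
        Nat.mod_eq_of_lt (show b < N + 1 by omega)])
  have hle : Ideal.span (Set.range (co N g.natDegree h.natDegree f₀)) ≤
      RingHom.ker (MvPolynomial.eval₂Hom φ y) :=
    Ideal.span_le.2 (by rintro _ ⟨k, rfl⟩; exact h0 k)
  have := hle h1
  rw [RingHom.mem_ker, map_one] at this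
  exact one_ne_zero this

end Vale.Agent.P019
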