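import Vale.Agent.P019.BZ
import Vale.Agent.P019.NO
import Vale.Agent.P019.MODEL

/-! P019: restriction of a model to a generic line stays irreducible. -/

open Polynomial IntermediateField Filter

namespace Vale.Agent.P019

namespace LINEAux

variable {l : Type*} [Field l] {d : ℕ}

/-- the substitution `s 0 ↦ X`, `s (j + 1) ↦ z j + q j X` -/
noncomputable def tau (q : Fin d → l) :
    MvPolynomial (Fin (d + 1)) l →ₐ[l] (MvPolynomial (Fin d) l)[X] :=
  MvPolynomial.aeval (Fin.cons X fun j => C (MvPolynomial.X j) + C (MvPolynomial.C (q j)) * X)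

theorem eval_tau (q c : Fin d → l) :
    (mapRingHom (MvPolynomial.eval c)).comp (tau q).toRingHom =
      (lr (Fin.cons 1 q) (Fin.cons 0 c)).toRingHom := by
  refine MvPolynomial.ringHom_ext (fun a => ?_) fun i => ?_
  · simp [tau, lr]
  · refine Fin.cases ?_ (fun j => ?_) i <;> simp [tau, lr]

theorem minpoly_eq {Ω : Type*} [Field Ω] [Algebra l Ω] {s : Fin d → Ω}
    (hs : AlgebraicIndependent l s) {θ : Ω} {f : (MvPolynomial (Fin d) l)[X]} (hm : f.Monic)
    (hi : Irreducible f)
    (h0 : f.eval₂ (MvPolynomial.aeval s : MvPolynomial (Fin d) l →ₐ[l] Ω).toRingHom θ = 0)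
    {Δ : MvPolynomial (Fin d) l} (hΔ : Δ ≠ 0) (hb : ∃ a b, C Δ = a * f + b * derivative f) :
    IsSeparable (adjoin l (Set.range s)) θ ∧
      (minpoly (adjoin l (Set.range s)) θ).natDegree = f.natDegree := by
  set e := hs.aevalEquivField.toRingEquiv with he
  set ψ : MvPolynomial (Fin d) l →+* adjoin l (Set.range s) :=
    e.toRingHom.comp (algebraMap _ (FractionRing (MvPolynomial (Fin d) l))) with hψ
  have h1 : Irreducible (f.map ψ) := by
    rw [hψ, ← Polynomial.map_map]
    exact (MulEquiv.irreducible_iff (mapEquiv e)).2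
      (hm.irreducible_iff_irreducible_map_fraction_map.1 hi)
  have h2 : aeval θ (f.map ψ) = 0 := by
    rw [aeval_def, eval₂_map, ← h0]
    congr 1
    exact RingHom.ext fun a => hs.aevalEquivField_algebraMap_apply_coe a
  have h3 := minpoly.eq_of_irreducible_of_monic h1 h2 (hm.map _)
  refine ⟨?_, by rw [← h3, hm.natDegree_map]⟩
  obtain ⟨a, b, hab⟩ := hb
  have h4 : ψ Δ ≠ 0 := (map_ne_zero_iff ψ (e.injective.comp
    (IsFractionRing.injective (MvPolynomial (Fin d) l) _))).2 hΔ
  have h5 := congrArg (Polynomial.map ψ) hab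
  rw [map_C, Polynomial.map_add, Polynomial.map_mul, Polynomial.map_mul, ← derivative_map] at h5
  rw [IsSeparable, ← h3]
  refine ⟨C (ψ Δ)⁻¹ * a.map ψ, C (ψ Δ)⁻¹ * b.map ψ, ?_⟩
  rw [mul_assoc, mul_assoc, ← mul_add, ← h5, ← C_mul, inv_mul_cancel₀ h4, C_1]

theorem irr_of_deg {κ Ω : Type*} [Field κ] [Field Ω] [Algebra κ Ω] {x θ : Ω} {F : κ[X][X]}
    (hm : F.Monic) (h0 : F.eval₂ (aeval x : κ[X] →ₐ[κ] Ω).toRingHom θ = 0)
    (hd : (minpoly κ⟮x⟯ θ).natDegree = F.natDegree) : Irreducible F := by
  set e : κ[X] →+* κ⟮x⟯ := (aeval (AdjoinSimple.gen κ x) : κ[X] →ₐ[κ] κ⟮x⟯).toRingHom with he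
  have h2 : aeval θ (F.map e) = 0 := by
    rw [aeval_def, eval₂_map, ← h0]
    congr 1
    exact RingHom.ext fun a => (aeval_algebraMap_apply Ω (AdjoinSimple.gen κ x) a).symm
  have hi : IsIntegral κ⟮x⟯ θ := ⟨_, hm.map e, h2⟩
  have h3 : F.map e = minpoly κ⟮x⟯ θ :=
    minpoly.unique_of_degree_le_degree_minpoly _ _ (hm.map e) h2 (by
      rw [degree_eq_natDegree (hm.map e).ne_zero, degree_eq_natDegree (minpoly.ne_zero hi),
        hm.natDegree_map, hd])
  exact hm.irreducible_of_irreducible_map e _ (h3 ▸ minpoly.irreducible hi)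

theorem spread {κ : Type*} [Field κ] [IsAlgClosed κ] {F : (MvPolynomial (Fin d) l)[X][X]}
    (hm : F.Monic) (ζ : MvPolynomial (Fin d) l →+* κ) (hζ : Function.Injective ζ)
    (hi : Irreducible (F.map (mapRingHom ζ))) :
    ∃ g : MvPolynomial (Fin d) l, g ≠ 0 ∧ ∀ c : Fin d → l, MvPolynomial.eval c g ≠ 0 →
      Irreducible (F.map (mapRingHom (MvPolynomial.eval c))) := by
  set R := MvPolynomial (Fin d) l
  set K := FractionRing R
  let _ : Algebra K κ := (IsFractionRing.lift hζ : K →+* κ).toAlgebra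
  set ι : AlgebraicClosure K →ₐ[K] κ := IsAlgClosed.lift
  have hmK := hm.map (mapRingHom (algebraMap R K))
  have h1 : Irreducible ((F.map (mapRingHom (algebraMap R K))).map
      (mapRingHom (algebraMap K (AlgebraicClosure K)))) := by
    refine (hmK.map _).irreducible_of_irreducible_map (mapRingHom ι.toRingHom) _ ?_
    rw [Polynomial.map_map, Polynomial.map_map, mapRingHom_comp, mapRingHom_comp]
    have e : (ι.toRingHom.comp (algebraMap K (AlgebraicClosure K))).comp (algebraMap R K) = ζ :=
      RingHom.ext fun a => (ι.commutes _).trans (IsFractionRing.lift_algebraMap hζ a)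
    rwa [e]
  obtain ⟨S, hS⟩ := exists_irrRed _ hmK h1
  obtain ⟨g, hg⟩ := IsLocalization.exist_integer_multiples_of_finset (nonZeroDivisors R) S
  refine ⟨g, nonZeroDivisors.ne_zero g.2, fun c hc => ?_⟩
  set T : Submonoid R := (nonZeroDivisors l).comap (MvPolynomial.eval c)
  have hT : T ≤ nonZeroDivisors R := fun b hb => mem_nonZeroDivisors_of_ne_zero fun h =>
    nonZeroDivisors.ne_zero hb (by rw [h, map_zero])
  set A := Localization.subalgebra.ofField K T hT
  have hu : ∀ y : T, IsUnit (MvPolynomial.eval c (y : R)) := fun y =>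
    (nonZeroDivisors.ne_zero y.2).isUnit
  have h2 := hS A.toSubring (fun x hx => ?_) l (IsLocalization.lift (S := A) hu)
    (F.map (mapRingHom (algebraMap R A))) (by rw [Polynomial.map_map, mapRingHom_comp]; rfl)
  · rw [Polynomial.map_map, mapRingHom_comp] at h2
    have e : (IsLocalization.lift (S := A) hu).comp (algebraMap R A) = MvPolynomial.eval c :=
      IsLocalization.lift_comp hu
    exact e ▸ h2
  · obtain ⟨a, ha⟩ := hg x hx
    have h3 : algebraMap R K g ≠ 0 :=
      (map_ne_zero_iff _ (IsFractionRing.injective _ _)).2 (nonZeroDivisors.ne_zero g.2)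
    refine ⟨a, g, mem_nonZeroDivisors_of_ne_zero hc, ?_⟩
    rw [ha, Algebra.smul_def, mul_comm, inv_mul_cancel_left₀ h3]

theorem indep_z {Ω : Type*} [Field Ω] [Algebra l Ω] {s : Fin (d + 1) → Ω}
    (hs : AlgebraicIndependent l s) (q : Fin d → l) :
    AlgebraicIndependent l fun j : Fin d => s j.succ - algebraMap l Ω (q j) * s 0 := by
  set σ : MvPolynomial (Fin d) l →ₐ[l] MvPolynomial (Fin (d + 1)) l := MvPolynomial.aeval
    fun j => MvPolynomial.X j.succ - MvPolynomial.C (q j) * MvPolynomial.X 0 with hσ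
  have h1 : (MvPolynomial.aeval (Fin.cons 0 MvPolynomial.X : Fin (d + 1) → _)).comp σ =
      AlgHom.id l (MvPolynomial (Fin d) l) := MvPolynomial.algHom_ext fun j => by simp [hσ]
  have h2 : Function.Injective σ := fun P Q h => by
    have h4 := AlgHom.congr_fun h1 P
    rw [AlgHom.comp_apply, h] at h4
    exact h4.symm.trans (AlgHom.congr_fun h1 Q)
  have h3 : MvPolynomial.aeval (fun j : Fin d => s j.succ - algebraMap l Ω (q j) * s 0) =
      (MvPolynomial.aeval s).comp σ := MvPolynomial.algHom_ext fun j => by simp [hσ]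
  rw [algebraicIndependent_iff_injective_aeval, h3]
  exact Function.Injective.comp (g := MvPolynomial.aeval s) hs h2

end LINEAux

open LINEAux in
/-- Work in `Ω = AlgebraicClosure L`. For generic `q` (`bertini_iter` with `κ = l`) the transform
of `f` in `M[X][Y]`, `M = l(z)` the fraction field of `l[z]`, `z j = s (j + 1) - q j s 0`, is
irreducible over `κ' ⊇ M` (it is monic of the degree of the minimal polynomial of `θ` over
`κ'(s 0)`; Gauss lemma), hence over the algebraic closure of `M`, which embeds in `κ'`. Apply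
`exists_irrRed`, let `g` be a common denominator of `S`, `A = l[z][1 / g]`, and `φ` the evaluation
at `c`. -/
theorem genLine_irreducible {l L : Type*} [Field l] [Field L] [Algebra l L] [IsAlgClosed l] {d : ℕ}
    (M : Model l L (d + 1)) : GenLine d fun q c => Irreducible (M.f.map (lr q c).toRingHom) := by
  set Ω := AlgebraicClosure L
  set j : L →ₐ[l] Ω := IsScalarTower.toAlgHom l L Ω
  set s : Fin (d + 1) → Ω := j ∘ M.s
  have hs : AlgebraicIndependent l s := M.indep.map' j.injective
  have h0 : M.f.eval₂ (MvPolynomial.aeval s : _ →ₐ[l] Ω).toRingHom (j M.θ) = 0 := by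
    have h := congrArg j.toRingHom M.root
    rw [hom_eval₂, map_zero] at h
    rw [← h]
    congr 1
    exact RingHom.ext fun a => (MvPolynomial.comp_aeval_apply _ j a).symm
  obtain ⟨h1, h2⟩ := minpoly_eq hs M.monic M.irr h0 M.Δne M.bezout
  filter_upwards [bertini_iter (l := l) hs h1] with q ⟨κ, hκ, hz, _, hd⟩
  set ζ : MvPolynomial (Fin d) l →ₐ[l] κ := MvPolynomial.aeval fun i => ⟨_, hz i⟩ with hζ
  have e : κ.val.comp ζ = MvPolynomial.aeval fun i => s i.succ - algebraMap l Ω (q i) * s 0 :=
    MvPolynomial.algHom_ext fun i => by simp [hζ]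
  have hi : Function.Injective ζ := Function.Injective.of_comp (f := κ.val) (by
    have h := indep_z hs q
    rw [algebraicIndependent_iff_injective_aeval, ← e] at h
    exact h)
  have hm := M.monic.map (tau q).toRingHom
  have h4 : ((M.f.map (tau q).toRingHom).map (mapRingHom ζ.toRingHom)).eval₂
      (aeval (s 0) : κ[X] →ₐ[κ] Ω).toRingHom (j M.θ) = 0 := by
    rw [eval₂_map, eval₂_map, ← h0]
    congr 1
    refine MvPolynomial.ringHom_ext (fun a => ?_) fun i => ?_
    · simp [tau, hζ]
    · refine Fin.cases ?_ (fun i => ?_) i <;> simp [tau, hζ]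
  obtain ⟨g, hg, h⟩ := spread hm ζ.toRingHom hi (irr_of_deg (hm.map _) h4
    (by rw [hd, h2, hm.natDegree_map, M.monic.natDegree_map]))
  refine ⟨g, hg, fun c hc => ?_⟩
  have h3 := h c hc
  rwa [Polynomial.map_map, eval_tau] at h3

end Vale.Agent.P019
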