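import Vale.Agent.P019.AP4
import Vale.Agent.P019.AI
import Vale.Agent.P019.PL
import Vale.Agent.P019.ValDVR
import Vale.Agent.P019.Z0

/-! P019: the constants of the residue curve carry no valuation. -/

open IntermediateField Filter IsLocalRing

namespace Vale.Agent.P019

namespace NOVALAux

open Polynomial

variable {κ K : Type*} [Field κ] [Field K] [Algebra κ K]

/-- `s` is smaller than all constants -/
def Sm (κ : Type*) {K : Type*} [Field κ] [Field K] [Algebra κ K] (O : ValuationSubring K)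
    (s : K) : Prop :=
  ∀ c : κ, c ≠ 0 → O.valuation s < O.valuation (algebraMap κ K c)

theorem val_pos (O : ValuationSubring K) {x : K} (hx : x ≠ 0) : 0 < O.valuation x :=
  zero_lt_iff.2 (by simpa using hx)

theorem val_div_lt (O : ValuationSubring K) {x y : K} (hy : y ≠ 0) :
    O.valuation (x / y) < 1 ↔ O.valuation x < O.valuation y := by
  rw [map_div₀, div_lt_one₀ (val_pos O hy)]

theorem Sm.mul_lt {O : ValuationSubring K} {s : K} (h : Sm κ O s) (p : κ[X]) {c : κ}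
    (hc : c ≠ 0) : O.valuation (s * aeval s p) < O.valuation (algebraMap κ K c) := by
  have hc' : algebraMap κ K c ≠ 0 := by simpa using hc
  induction p using Polynomial.induction_on' with
  | add p q hp hq => rw [map_add, mul_add]; exact O.valuation.map_add_lt hp hq
  | monomial n a =>
    by_cases ha : a = 0
    · simpa [ha] using val_pos O hc'
    have ha' : algebraMap κ K a ≠ 0 := by simpa using ha
    have h1 : O.valuation s ≤ 1 := by simpa using (h 1 one_ne_zero).le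
    have h2 := h (c / a) (div_ne_zero hc ha)
    rw [map_div₀, map_div₀, lt_div_iff₀ (val_pos O ha')] at h2
    rw [aeval_monomial, ← mul_assoc, map_mul, map_mul, map_pow]
    exact (mul_le_of_le_one_right' (pow_le_one' h1 n)).trans_lt h2

theorem exists_poly (s : K) (p : κ[X]) (hp : p ≠ 0) : ∃ (n : ℕ) (c : κ), c ≠ 0 ∧
    ∀ O : ValuationSubring K, Sm κ O s →
      O.valuation (aeval s p) = O.valuation (algebraMap κ K c * s ^ n) := by
  obtain ⟨q, hq, hq0⟩ := exists_eq_pow_rootMultiplicity_mul_and_not_dvd p hp 0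
  rw [C_0, sub_zero] at hq hq0
  rw [X_dvd_iff] at hq0
  refine ⟨rootMultiplicity 0 p, q.coeff 0, hq0, fun O hO => ?_⟩
  have h1 : O.valuation (aeval s q) = O.valuation (algebraMap κ K (q.coeff 0)) := by
    conv_lhs => rw [← X_mul_divX_add q, map_add, map_mul, aeval_X, aeval_C]
    exact O.valuation.map_add_eq_of_lt_right (hO.mul_lt _ hq0)
  conv_lhs => rw [hq]
  rw [map_mul, map_mul, h1, map_pow, aeval_X, map_mul, mul_comm]

theorem exists_rat {s : K} (hgen : ∀ x : K, ∃ p q : κ[X], x = aeval s p / aeval s q)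
    (hs : s ≠ 0) {x : K} (hx : x ≠ 0) : ∃ (m : ℤ) (c : κ), c ≠ 0 ∧
    ∀ O : ValuationSubring K, Sm κ O s →
      O.valuation x = O.valuation (algebraMap κ K c * s ^ m) := by
  obtain ⟨p, q, rfl⟩ := hgen x
  have hp : p ≠ 0 := by rintro rfl; simp at hx
  have hq : q ≠ 0 := by rintro rfl; simp at hx
  obtain ⟨n, c, hc, h⟩ := exists_poly s p hp
  obtain ⟨n', c', hc', h'⟩ := exists_poly s q hq
  refine ⟨(n : ℤ) - n', c / c', div_ne_zero hc hc', fun O hO => ?_⟩
  rw [map_div₀, h O hO, h' O hO, ← map_div₀, zpow_sub₀ hs, map_div₀ (algebraMap κ K),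
    div_mul_div_comm, zpow_natCast, zpow_natCast]

theorem Sm.lt_one {O : ValuationSubring K} {s : K} (h : Sm κ O s) (c : κ) {m : ℤ} (hm : 0 < m) :
    O.valuation (algebraMap κ K c * s ^ m) < 1 := by
  obtain ⟨n, rfl⟩ : ∃ n : ℕ, m = ((n + 1 : ℕ) : ℤ) := ⟨(m - 1).toNat, by omega⟩
  have := h.mul_lt (monomial n c) one_ne_zero
  rw [aeval_monomial, map_one, map_one] at this
  rw [zpow_natCast, pow_succ, ← mul_assoc, mul_comm]
  exact this

theorem le_of_sm {s : K} (hgen : ∀ x : K, ∃ p q : κ[X], x = aeval s p / aeval s q) (hs : s ≠ 0)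
    {O O' : ValuationSubring K} (h : Sm κ O s) (h' : Sm κ O' s)
    (hc : ∀ c : κ, algebraMap κ K c ∈ O → algebraMap κ K c ∈ O') : O ≤ O' := by
  intro x hx
  by_cases h0 : x = 0
  · rw [h0]; exact O'.zero_mem
  obtain ⟨m, c, hc0, hm⟩ := exists_rat hgen hs h0
  rw [← ValuationSubring.valuation_le_one_iff] at hx ⊢
  rw [hm O h] at hx
  rw [hm O' h']
  rcases lt_trichotomy m 0 with h1 | h1 | h1
  · have h2 := h.lt_one c⁻¹ (neg_pos.2 h1)
    rw [map_inv₀, zpow_neg, ← mul_inv, map_inv₀, inv_lt_one₀ (val_pos O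
      (mul_ne_zero (by simpa using hc0) (zpow_ne_zero _ hs)))] at h2
    exact absurd hx h2.not_ge
  · rw [h1, zpow_zero, mul_one, ValuationSubring.valuation_le_one_iff] at hx ⊢
    exact hc c hx
  · exact (h'.lt_one c h1).le

theorem isMinWt_monomial {G : Type*} [AddCommGroup G] [LinearOrder G] (v : κ → G) (γ : Unit → G)
    (m : Unit →₀ ℕ) {c : κ} (hc : c ≠ 0) :
    IsMinWt v γ (MvPolynomial.monomial m c) (v c + m.sum fun i n => n • γ i) := by
  classical
  have h : (MvPolynomial.monomial m c).support = {m} := by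
    rw [MvPolynomial.support_monomial, if_neg hc]
  rw [IsMinWt, h]
  simp [wt]

theorem exists_mon (ν : ValuationSubring κ) {s : K} (hs : Transcendental κ s) (γ : AG ν) :
    ∃ O : ValuationSubring K, O.comap (algebraMap κ K) = ν ∧ ∀ c : κ, c ≠ 0 →
      (γ < aval ν c → O.valuation (algebraMap κ K c) < O.valuation s) ∧
      (aval ν c ≤ γ → O.valuation s < O.valuation (algebraMap κ K c)) := by
  have hv : IsAVal (fun c : κ => (toLex (aval ν c, (0 : ℤ)) : AG ν ×ₗ ℤ)) :=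
    ⟨fun x y hx hy => by rw [(isAVal_aval ν).mul x y hx hy, ← toLex_add]; simp,
     fun x y hx hy hxy => by
      rcases min_le_iff.1 ((isAVal_aval ν).add x y hx hy hxy) with h | h
      · exact min_le_iff.2 (Or.inl (Prod.Lex.toLex_mono ⟨h, le_rfl⟩))
      · exact min_le_iff.2 (Or.inr (Prod.Lex.toLex_mono ⟨h, le_rfl⟩))⟩
  obtain ⟨O, hO⟩ := exists_isMonVal hv (fun _ : Unit => toLex (γ, (1 : ℤ)))
    (t := fun _ : Unit => s) (algebraicIndependent_unique_type_iff.2 hs)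
  have a1 : aval ν 1 = 0 := by
    have := (isAVal_aval ν).mul 1 1 one_ne_zero one_ne_zero
    rw [mul_one] at this
    exact left_eq_add.1 this
  have hC : ∀ c : κ, c ≠ 0 → IsMinWt (fun c : κ => (toLex (aval ν c, (0 : ℤ)) : AG ν ×ₗ ℤ))
      (fun _ : Unit => toLex (γ, (1 : ℤ))) (MvPolynomial.C c) (toLex (aval ν c, 0)) :=
    fun c hc => by
      simpa using isMinWt_monomial (fun c : κ => (toLex (aval ν c, (0 : ℤ)) : AG ν ×ₗ ℤ))
        (fun _ : Unit => toLex (γ, (1 : ℤ))) 0 hc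
  have hX : IsMinWt (fun c : κ => (toLex (aval ν c, (0 : ℤ)) : AG ν ×ₗ ℤ))
      (fun _ : Unit => toLex (γ, (1 : ℤ))) (MvPolynomial.X ()) (toLex (γ, 1)) := by
    have := isMinWt_monomial (fun c : κ => (toLex (aval ν c, (0 : ℤ)) : AG ν ×ₗ ℤ))
      (fun _ : Unit => toLex (γ, (1 : ℤ))) (Finsupp.single () 1) one_ne_zero
    rw [Finsupp.sum_single_index (by simp), one_smul, a1] at this
    have e : (toLex ((0 : AG ν), (0 : ℤ)) : AG ν ×ₗ ℤ) = 0 := rfl
    rwa [e, zero_add] at this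
  refine ⟨O, ?_, fun c hc => ⟨fun h => ?_, fun h => ?_⟩⟩
  · ext c
    by_cases hc : c = 0
    · simp [hc]
    have := hO _ _ _ _ (hC c hc) (hC 1 one_ne_zero)
    rw [MvPolynomial.aeval_C, MvPolynomial.aeval_C, map_one, map_one,
      ValuationSubring.valuation_le_one_iff, Prod.Lex.toLex_le_toLex] at this
    rw [ValuationSubring.mem_comap, this, ← ValuationSubring.valuation_le_one_iff,
      ← ν.valuation.map_one, ← aval_le_iff ν one_ne_zero hc]
    simp [le_iff_lt_or_eq]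
  · have := hO _ _ _ _ hX (hC c hc)
    rw [MvPolynomial.aeval_C, MvPolynomial.aeval_X, Prod.Lex.toLex_le_toLex] at this
    refine not_le.1 fun h1 => ?_
    rcases this.1 h1 with h2 | h2
    · exact absurd h h2.not_gt
    · exact h.ne' h2.1
  · have := hO _ _ _ _ (hC c hc) hX
    rw [MvPolynomial.aeval_C, MvPolynomial.aeval_X, Prod.Lex.toLex_le_toLex] at this
    refine not_le.1 fun h1 => ?_
    rcases this.1 h1 with h2 | h2
    · exact absurd h h2.not_ge
    · exact absurd h2.2 (by norm_num)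

theorem not_mem_HO {ℓ : ℕ} [Fact ℓ.Prime] [IsAlgClosed κ] {s : K}
    (hgen : ∀ x : K, ∃ p q : κ[X], x = aeval s p / aeval s q) (hs : s ≠ 0)
    {O : ValuationSubring K} (h : ∀ c : κ, c ≠ 0 → O.valuation s ≠ O.valuation (algebraMap κ K c)) :
    cl ℓ s ∉ HO ℓ O := by
  have hI : ∀ (m : ℤ) (c : κ), O.valuation (algebraMap κ K c * s ^ m) = 1 → m = 0 := by
    intro m c hm
    by_contra h0
    have hc : c ≠ 0 := by rintro rfl; simp at hm
    obtain ⟨d, hd⟩ : ∃ d : κ, c * d ^ m = 1 := by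
      obtain ⟨n, rfl | rfl⟩ := m.eq_nat_or_neg
      · obtain ⟨d, hd⟩ := IsAlgClosed.exists_pow_nat_eq c⁻¹ (n := n) (by omega)
        exact ⟨d, by rw [zpow_natCast, hd, mul_inv_cancel₀ hc]⟩
      · obtain ⟨d, hd⟩ := IsAlgClosed.exists_pow_nat_eq c (n := n) (by omega)
        exact ⟨d, by rw [zpow_neg, zpow_natCast, hd, mul_inv_cancel₀ hc]⟩
    have hd0 : d ≠ 0 := by rintro rfl; simp [zero_zpow m h0] at hd
    have h1 := congrArg (fun a => O.valuation (algebraMap κ K a)) hd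
    simp only [map_mul, map_zpow₀, map_one] at h1 hm
    have h2 := mul_left_cancel₀ (val_pos O (by simpa using hc)).ne' (hm.trans h1.symm)
    exact h d hd0 ((zpow_left_inj₀ zero_le zero_le h0).1 h2)
  have hV : ValIndep κ O (fun _ : Unit => s) :=
    ⟨fun _ => hs, fun m c hm i => hI (m i) c (by simpa using hm)⟩
  intro hH
  obtain ⟨y, hy, hy1⟩ := (cl_mem_HO_iff hs).1 hH
  obtain ⟨c, m, hm⟩ := hV.exists_monomial (x := y)
    (by rw [Set.range_const]; exact (mem_adjoin_simple_iff κ y).2 (hgen y)) hy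
  have h1 : O.valuation (y / (algebraMap κ K c * ∏ i, s ^ m i)) = 1 := by
    have := O.valuation.map_eq_of_sub_lt (x := 1) (by rwa [map_one])
    rwa [map_one] at this
  have h2 : algebraMap κ K c * ∏ i, s ^ m i ≠ 0 := fun h0 => by
    rw [h0, div_zero, map_zero] at h1
    exact zero_ne_one h1
  rw [map_div₀, div_eq_one_iff_eq (val_pos O h2).ne', Fintype.prod_unique] at h1
  have h3 := hI (m default * ℓ - 1) (c ^ ℓ) (by
    rw [zpow_sub_one₀ hs, ← mul_assoc, zpow_mul, zpow_natCast, map_pow, ← mul_pow, map_mul,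
      map_pow, ← h1, ← hy1, map_inv₀, mul_inv_cancel₀ (val_pos O hs).ne'])
  have h4 : (ℓ : ℤ) ∣ 1 := ⟨m default, by linarith⟩
  exact (Fact.out : ℓ.Prime).one_lt.ne' (Nat.dvd_one.1 (by exact_mod_cast h4))

/-- the composite of a place with a valuation of the constants -/
theorem exists_composite [IsAlgClosed κ] (hC : IsCurve κ K) (ν : ValuationSubring κ) :
    ∃ (t : K) (O : ValuationSubring K), Transcendental κ t ∧ O.comap (algebraMap κ K) = ν ∧
      Sm κ O t ∧ (∀ y : K, y ≠ 0 → ∃ (c : κ) (m : ℤ), c ≠ 0 ∧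
        O.valuation y = O.valuation (algebraMap κ K c * t ^ m)) ∧
      ∀ x ∈ O, ∃ a : κ, O.valuation (x - algebraMap κ K a) < 1 := by
  obtain ⟨t₀, ht₀⟩ := hC.exists_transcendental
  obtain ⟨z, -⟩ := exists_zero hC ht₀
  obtain ⟨t, ht, ht1, -, ht2⟩ := (z.isDVR hC).exists_cyclic
  obtain ⟨P, hP⟩ := exists_comap_eq
    ((residue z.O).comp ((algebraMap κ K).codRestrict z.O z.triv)) ν
  have hlt : ∀ x y : K, z.O.valuation y = 1 → z.O.valuation x < 1 →
      (comp z.O P).valuation x < (comp z.O P).valuation y := fun x y hy hx => by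
    have hy0 : y ≠ 0 := by rintro rfl; simp at hy
    rw [← val_div_lt _ hy0]
    exact val_lt_one_of_le comp_le (by rwa [map_div₀, hy, div_one])
  refine ⟨t, comp z.O P, ?_, ?_, fun c hc => hlt _ _ (z.triv.val_eq_one hc) ht1,
    fun y hy => ?_, fun x hx => ?_⟩
  · rw [transcendental_iff_not_mem_range]
    rintro ⟨a, rfl⟩
    exact ht1.ne (z.triv.val_eq_one (by simpa using ht))
  · ext c
    rw [ValuationSubring.mem_comap, mem_comp, ← hP, ValuationSubring.mem_comap,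
      res_of_mem (z.triv c)]
    exact ⟨fun h => h.2, fun h => ⟨z.triv c, h⟩⟩
  · have h0 : t ^ ord z.O y ≠ 0 := zpow_ne_zero _ ht
    have h1 : z.O.valuation (y / t ^ ord z.O y) = 1 := by
      rw [map_div₀, map_zpow₀, ← ht2 y hy, div_self (val_pos _ hy).ne']
    obtain ⟨a, ha⟩ := z.exists_val hC (mem_of_val_eq_one h1)
    have ha0 : a ≠ 0 := by
      rintro rfl
      rw [map_zero, sub_zero, h1] at ha
      exact lt_irrefl _ ha
    refine ⟨a, ord z.O y, ha0, ?_⟩
    rw [map_mul, ← (comp z.O P).valuation.map_eq_of_sub_lt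
      (hlt _ _ (z.triv.val_eq_one ha0) ha), ← map_mul, div_mul_cancel₀ _ h0]
  · obtain ⟨a, ha⟩ := z.exists_val hC (comp_le hx)
    exact ⟨a, val_lt_one_of_le comp_le ha⟩

theorem isAlgClosed_res [IsAlgClosed κ] {O : ValuationSubring K}
    (h : ∀ x ∈ O, ∃ a : κ, O.valuation (x - algebraMap κ K a) < 1) :
    IsAlgClosed (ResidueField O) := by
  have h1 : resConst κ O = ⊤ := by
    refine eq_top_iff.2 fun r _ => ?_
    obtain ⟨x, hx, rfl⟩ := res_surj r
    obtain ⟨a, ha⟩ := h x hx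
    have h2 : algebraMap κ K a ∈ O := by
      have := O.sub_mem hx ((O.valuation_le_one_iff _).1 ha.le)
      rwa [sub_sub_cancel] at this
    exact ⟨a, h2, ((res_eq_iff hx h2).2 ha).symm⟩
  exact IsAlgClosed.of_ringEquiv (resConst κ O) _
    ((RingEquiv.subfieldCongr h1).trans Subfield.topEquiv)

end NOVALAux

open NOVALAux

variable {ℓ : ℕ} [Fact ℓ.Prime] {κ C κ' F : Type*} [Field κ] [Field C] [Algebra κ C]
  [IsAlgClosed κ] [Field κ'] [Field F] [Algebra κ' F] [IsAlgClosed κ']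

/-- Let `z₀` be a place with uniformizer `t`, `O'` the composite of `z₀` with `ν`
(`x ∈ O'` iff `x ∈ z₀` and its value lies in `ν`). For `γ ∈ AG ν` let `O₀ γ` be the monomial
valuation of `κ(t)` with values in `AG ν ×ₗ ℤ`, `t` of weight `(γ, 1)`. Along an ultrafilter above
`atTop`, `O₀ γ → O' ∩ κ(t)`. Lift by `exists_lift_approx`; for most `γ`, `cl t ∉ HO (z γ)`. -/
theorem exists_family (hC : IsCurve κ C) (hℓ : (ℓ : κ) ≠ 0) {ν : ValuationSubring κ}
    (hν : ν ≠ ⊤) (hνℓ : ν.valuation (ℓ : κ) = 1) :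
    ∃ (t : C) (A : Set (AG ν)) (z : AG ν → ValuationSubring C), t ≠ 0 ∧ A.Infinite ∧
      ∀ γ ∈ A, (z γ).valuation (ℓ : C) = 1 ∧ cl ℓ t ∉ HO ℓ (z γ) ∧ ∀ c : κ, c ≠ 0 →
        (γ < aval ν c → (z γ).valuation (algebraMap κ C c) < (z γ).valuation t) ∧
        (aval ν c ≤ γ → (z γ).valuation t < (z γ).valuation (algebraMap κ C c)) := by
  obtain ⟨t, O', ht, hO', hsm, hval, hres⟩ := exists_composite hC ν
  have := hC.finiteDimensional ht
  have ht0 : t ≠ 0 := by rintro rfl; exact ht isAlgebraic_zero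
  set s : κ⟮t⟯ := AdjoinSimple.gen κ t with hs
  have hst : algebraMap κ⟮t⟯ C s = t := rfl
  have hca : ∀ c : κ, algebraMap κ⟮t⟯ C (algebraMap κ κ⟮t⟯ c) = algebraMap κ C c :=
    fun c => (IsScalarTower.algebraMap_apply κ κ⟮t⟯ C c).symm
  have hs0 : s ≠ 0 := fun h => ht0 (by rw [← hst, h, map_zero])
  have hstr : Transcendental κ s := fun h => ht (hst ▸ h.algebraMap)
  have hgen : ∀ x : κ⟮t⟯, ∃ p q : Polynomial κ,
      x = Polynomial.aeval s p / Polynomial.aeval s q := fun x => by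
    obtain ⟨p, q, h⟩ := (mem_adjoin_simple_iff κ (x : C)).1 x.2
    refine ⟨p, q, (algebraMap κ⟮t⟯ C).injective ?_⟩
    rw [map_div₀, ← Polynomial.aeval_algebraMap_apply, ← Polynomial.aeval_algebraMap_apply]
    exact h
  have hell : ∀ O : ValuationSubring C, O.comap (algebraMap κ C) = ν →
      O.valuation (ℓ : C) = 1 := fun O hO => by
    rw [← map_natCast (algebraMap κ C), ← comap_val_eq_one, hO, hνℓ]
  choose O₀ hO₀ hO₁ using exists_mon ν hstr
  have : Nontrivial (AG ν) := by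
    obtain ⟨x, hx⟩ : ∃ x, x ∉ ν := by
      by_contra h
      push Not at h
      exact hν (eq_top_iff.2 fun x _ => h x)
    have hx0 : x ≠ 0 := by rintro rfl; exact hx ν.zero_mem
    refine ⟨aval ν 1, aval ν x, fun h => hx ?_⟩
    have := (aval_le_iff ν one_ne_zero hx0).1 h.le
    rwa [map_one, ValuationSubring.valuation_le_one_iff] at this
  set 𝒰 : Ultrafilter (AG ν) := Ultrafilter.of atTop with h𝒰
  have hU : (𝒰 : Filter (AG ν)) ≤ atTop := Ultrafilter.of_le _
  have hlim : Lim 𝒰 O₀ (O'.comap (algebraMap κ⟮t⟯ C)) := by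
    obtain ⟨O'', h⟩ := exists_lim 𝒰 O₀
    have h1 : Sm κ O'' s := fun c hc => by
      have hc' : algebraMap κ κ⟮t⟯ c ≠ 0 := by simpa using hc
      rw [← val_div_lt _ hc', h.val_lt_one]
      filter_upwards [hU (eventually_ge_atTop (aval ν c))] with γ hγ
      exact (val_div_lt _ hc').2 ((hO₁ γ c hc).2 hγ)
    have h2 : Sm κ (O'.comap (algebraMap κ⟮t⟯ C)) s := fun c hc => by
      rw [comap_val_lt, hca]; exact hsm c hc
    have h3 : ∀ c : κ, algebraMap κ κ⟮t⟯ c ∈ O'' ↔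
        algebraMap κ κ⟮t⟯ c ∈ O'.comap (algebraMap κ⟮t⟯ C) := fun c => by
      have e : ∀ γ, algebraMap κ κ⟮t⟯ c ∈ O₀ γ ↔ c ∈ ν := fun γ => by
        rw [← hO₀ γ, ValuationSubring.mem_comap]
      rw [h, ValuationSubring.mem_comap, hca, ← ValuationSubring.mem_comap, hO']
      simp only [e, eventually_const]
    rwa [le_antisymm (le_of_sm hgen hs0 h1 h2 fun c => (h3 c).1)
      (le_of_sm hgen hs0 h2 h1 fun c => (h3 c).2)] at h
  have : IsAlgClosed (ResidueField (O'.comap (algebraMap κ⟮t⟯ C))) :=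
    isAlgClosed_res (κ := κ) fun x hx => by
      obtain ⟨a, ha⟩ := hres _ hx
      exact ⟨a, by rwa [comap_val_lt_one, map_sub, hca]⟩
  have hv : ValInj ℓ (algebraMap κ⟮t⟯ C) O' := fun x hx => by
    by_cases h0 : x = 0
    · rw [h0, cl_zero]; exact zero_mem _
    obtain ⟨y, hy, hxy⟩ := (cl_mem_HO_iff (by simpa using h0)).1 hx
    obtain ⟨c, m, hc, hm⟩ := hval y hy
    refine (cl_mem_HO_iff h0).2 ⟨algebraMap κ κ⟮t⟯ c * s ^ m,
      mul_ne_zero (by simpa using hc) (zpow_ne_zero _ hs0), ?_⟩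
    rw [← map_pow, comap_val_eq, hxy, hm, map_pow, map_pow, map_mul (algebraMap κ⟮t⟯ C), hca,
      map_zpow₀, hst]
  have : NeZero (ℓ : κ) := ⟨hℓ⟩
  obtain ⟨ζ, hζ⟩ := HasEnoughRootsOfUnity.exists_primitiveRoot κ ℓ
  obtain ⟨z, hz, -, hA⟩ := exists_lift_approx
    (hζ.map_of_injective (algebraMap κ κ⟮t⟯).injective) O' (hell O' hO') hv 𝒰 O₀ hlim
  refine ⟨t, {γ | ValInj ℓ (algebraMap κ⟮t⟯ C) (z γ)}, z, ht0, fun hfin => ?_,
    fun γ hγ => ⟨hell _ ?_, fun hH => ?_, fun c hc => ?_⟩⟩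
  · exact (Ultrafilter.compl_mem_iff_notMem.1
      ((hU.trans atTop_le_cofinite) hfin.compl_mem_cofinite)) hA
  · rw [← hO₀ γ, ← hz γ, ValuationSubring.comap_comap, ← IsScalarTower.algebraMap_eq]
  · have h1 := hγ s hH
    rw [hz γ] at h1
    refine not_mem_HO hgen hs0 (fun c hc => ?_) h1
    rcases lt_or_ge γ (aval ν c) with h | h
    · exact ((hO₁ γ c hc).1 h).ne'
    · exact ((hO₁ γ c hc).2 h).ne
  · have h1 := hO₁ γ c hc
    rwa [← hz γ, comap_val_lt, comap_val_lt, hca] at h1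

theorem finite_vis (hC : IsCurve κ C) (x : C) : (vis ℓ κ x).Finite := by
  by_cases hx : x = 0
  · refine Set.finite_empty.subset fun z hz => hz ?_
    rw [hx, cl_zero]; exact zero_mem _
  · exact (finite_support hC hx).subset fun z hz h => hz (cl_mem_HO h)

theorem NOVALAux.exists_place_ker (hF : IsCurve κ' F) (hfin : FinAlg κ')
    {θ : V ℓ F ≃ₗ[ZMod ℓ] V ℓ C} (h : TRProp θ) {P : ValuationSubring C}
    (hP : P.valuation (ℓ : C) = 1) {φ : Module.Dual (ZMod ℓ) (V ℓ C)} (h0 : φ ≠ 0)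
    (hφ : HO ℓ P ≤ LinearMap.ker φ) :
    ∃ q : Place κ' F, HO ℓ q.O = (LinearMap.ker φ).comap θ.toLinearMap := by
  obtain ⟨Q, hQ, hle⟩ := h P hP φ h0 hφ
  rw [LinearMap.ker_comp] at hle
  refine ⟨⟨Q, hQ, triv_of_finAlg hfin Q⟩, ?_⟩
  have hc := (Place.isDVR hF ⟨Q, hQ, triv_of_finAlg hfin Q⟩).isCoatom_HO (ℓ := ℓ)
  refine ((hc.le_iff.1 hle).resolve_left fun htop => h0 (LinearMap.ext fun v => ?_)).symm
  have : θ.symm v ∈ (LinearMap.ker φ).comap θ.toLinearMap := htop ▸ Submodule.mem_top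
  simpa using this

/-- Otherwise take `exists_family`, functionals `φ γ` killing `HO (z γ)` with `φ γ (cl t) = 1`.
By `TRProp`, `ker (φ γ ∘ θ) = HO q` for a place `q` visible for the preimage of `cl t`; there are
finitely many such `q`, so `φ γ = φ γ'` for some `γ < γ'`; evaluate at `t + c` with
`aval ν c = γ'`. -/
theorem finAlg_of_trProp (hC : IsCurve κ C) (hF : IsCurve κ' F) (hℓ : (ℓ : κ) ≠ 0)
    (hfin : FinAlg κ') {θ : V ℓ F ≃ₗ[ZMod ℓ] V ℓ C} (h : TRProp θ) : FinAlg κ := by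
  by_contra hn
  obtain ⟨ν, hν, hνℓ⟩ := exists_nontrivial_valuation hℓ hn
  obtain ⟨t, A, z, -, hA, hz⟩ := exists_family hC hℓ hν hνℓ
  have h1 : ∀ γ : A, ∃ (φ : Module.Dual (ZMod ℓ) (V ℓ C)) (q : Place κ' F),
      HO ℓ (z γ) ≤ LinearMap.ker φ ∧ φ (cl ℓ t) = 1 ∧
        HO ℓ q.O = (LinearMap.ker φ).comap θ.toLinearMap := fun γ => by
    obtain ⟨φ, h2, h3⟩ := exists_functional (hz γ γ.2).2.1
    obtain ⟨q, hq⟩ := exists_place_ker hF hfin h (hz γ γ.2).1
      (φ := φ) (by rintro rfl; simp at h3) h2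
    exact ⟨φ, q, h2, h3, hq⟩
  choose φ q hφ hφt hq using h1
  obtain ⟨y, -, hy⟩ := cl_surj (θ.symm (cl ℓ t))
  have h2 : ∀ γ, q γ ∈ vis ℓ κ' y := fun γ hγ => by
    rw [hq, hy] at hγ
    have : φ γ (cl ℓ t) = 0 := by simpa using hγ
    exact one_ne_zero ((hφt γ).symm.trans this)
  have := hA.to_subtype
  obtain ⟨γ, γ', hlt, he⟩ := Set.Finite.exists_lt_map_eq_of_forall_mem h2 (finite_vis hF y)
  have h3 : LinearMap.ker (φ γ) = LinearMap.ker (φ γ') :=
    Submodule.comap_injective_of_surjective (f := θ.toLinearMap) θ.surjective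
      (by rw [← hq, ← hq, he])
  obtain ⟨c, hc, hcγ⟩ := aval_surj ν γ'
  have h4 := hφ γ (TO_le_HO (cl_add_sub_mem_TO (((hz γ γ.2).2.2 c hc).1 (hcγ ▸ hlt))))
  have h5 := hφ γ' (TO_le_HO (cl_add_sub_mem_TO (((hz γ' γ'.2).2.2 c hc).2 hcγ.le)))
  rw [cl_algebraMap, sub_zero, add_comm, ← h3] at h5
  rw [LinearMap.mem_ker, map_sub, LinearMap.mem_ker.1 h5, hφt, zero_sub, neg_eq_zero] at h4
  exact one_ne_zero h4

theorem NOVALAux.exists_place_map (hC : IsCurve κ C) (hF : IsCurve κ' F) (hℓ : (ℓ : κ) ≠ 0)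
    (hfin' : FinAlg κ') {θ : V ℓ C ≃ₗ[ZMod ℓ] V ℓ F} (h' : TRProp θ.symm) (z : Place κ C) :
    ∃ q : Place κ' F, (HO ℓ z.O).map θ.toLinearMap = HO ℓ q.O := by
  have hd := z.isDVR hC
  have h1 : z.O.valuation (ℓ : C) = 1 := by
    rw [← map_natCast (algebraMap κ C)]; exact z.triv.val_eq_one hℓ
  obtain ⟨q, hq⟩ := exists_place_ker hF hfin' h' h1 (φ := ordV ℓ z.O) (fun h0 => by
    have := hd.ker_ordV (ℓ := ℓ)
    rw [h0, LinearMap.ker_zero] at this
    exact hd.isCoatom_HO.1 this.symm) hd.ker_ordV.ge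
  exact ⟨q, by rw [hq, hd.ker_ordV, Submodule.map_equiv_eq_comap_symm]⟩

/-- places correspond through their hyperplanes `HO` (use `ordV`, `IsDVR.isCoatom_HO`,
`IsDVR.eq_of_HO_le`) -/
theorem exists_place_equiv (hC : IsCurve κ C) (hF : IsCurve κ' F) (hℓ : (ℓ : κ) ≠ 0)
    (hℓ' : (ℓ : κ') ≠ 0) (hfin : FinAlg κ) (hfin' : FinAlg κ') {θ : V ℓ C ≃ₗ[ZMod ℓ] V ℓ F}
    (h : TRProp θ) (h' : TRProp θ.symm) :
    ∃ e : Place κ C ≃ Place κ' F, ∀ z, (HO ℓ z.O).map θ.toLinearMap = HO ℓ (e z).O := by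
  choose f hf using exists_place_map hC hF hℓ hfin' h'
  choose g hg using exists_place_map hF hC hℓ' hfin (θ := θ.symm) h
  refine ⟨⟨f, g, fun z => Place.ext ?_, fun q => Place.ext ?_⟩, hf⟩
  · refine ((g (f z)).isDVR hC).eq_of_HO_le (ℓ := ℓ) (z.isDVR hC) (le_of_eq ?_)
    rw [← hg, ← hf, ← Submodule.map_comp]; simp
  · refine ((f (g q)).isDVR hF).eq_of_HO_le (ℓ := ℓ) (q.isDVR hF) (le_of_eq ?_)
    rw [← hf, ← hg, ← Submodule.map_comp]; simp

end Vale.Agent.P019
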