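import Vale.Agent.P019.Z0
import Vale.Agent.P019.Curve.JRank
import Vale.Agent.P019.Curve.GenusUp
import Vale.Agent.P019.Curve.Riemann

/-! P019, curves over the algebraic closure of a finite field: the rank of the unramified classes
is bounded in terms of a plane model (`r ≤ 2 g`, `g` bounded by the degrees). -/

open Polynomial IntermediateField

namespace Vale.Agent.P019

universe u

theorem unr_bound (ℓ : ℕ) [Fact ℓ.Prime] : ∃ R : ℕ → ℕ → ℕ,
    ∀ (κ C : Type u) [Field κ] [Field C] [Algebra κ C] [IsAlgClosed κ],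
      FinAlg κ → (ℓ : κ) ≠ 0 → ∀ (n δ : ℕ) (σ θ : C) (f : κ[X][X]), Transcendental κ σ →
      f.Monic → Irreducible f → f.natDegree ≤ n → (∀ i, (f.coeff i).natDegree ≤ δ) →
      f.eval₂ (aeval σ : κ[X] →ₐ[κ] C).toRingHom θ = 0 → adjoin κ {σ, θ} = ⊤ →
      FiniteDimensional (ZMod ℓ) (Unr ℓ κ C) ∧ Module.finrank (ZMod ℓ) (Unr ℓ κ C) ≤ R n δ := by
  refine ⟨fun n δ => 2 * (n * n * δ), ?_⟩
  intro κ C _ _ _ _ hκ hℓ n δ σ θ f hσ hf _ hn hδ hroot htop
  have h : IsCurve κ C := isCurve_of_model hσ hf hroot htop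
  obtain ⟨g, hg⟩ := exists_isGenus h
  obtain ⟨h1, -, h3⟩ := unr_rank h hκ ℓ hℓ hg
  have h4 := genus_le h hg hσ hf hn hδ hroot htop
  exact ⟨h1, h3.trans (Nat.mul_le_mul_left 2 h4)⟩

end Vale.Agent.P019
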