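import Vale.Agent.P019.GVb
import Vale.Agent.P019.KUM
import Vale.Agent.P019.LINE
import Vale.Agent.P019.Z4
import Vale.Agent.P019.NOVAL

/-! P019: existence of good valuations. -/

open IsLocalRing Polynomial

namespace Vale.Agent.P019

universe u

namespace GVAux

section filt

variable {l : Type*} [Field l]

/-- conditions that hold once finitely many elements are integral -/
def evF (l : Type*) [Field l] : Filter (ValuationSubring l) where
  sets := {X | ∃ S : Finset l, ∀ μ : ValuationSubring l, (∀ s ∈ S, s ∈ μ) → μ ∈ X}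
  univ_sets := ⟨∅, fun _ _ => trivial⟩
  sets_of_superset := fun ⟨S, hS⟩ h => ⟨S, fun μ hμ => h (hS μ hμ)⟩
  inter_sets := fun ⟨S, hS⟩ ⟨T, hT⟩ => by
    classical
    exact ⟨S ∪ T, fun μ hμ => ⟨hS μ fun s hs => hμ s (Finset.mem_union_left _ hs),
      hT μ fun s hs => hμ s (Finset.mem_union_right _ hs)⟩⟩

theorem ev_iff {P : ValuationSubring l → Prop} : (∀ᶠ μ in evF l, P μ) ↔
    ∃ S : Finset l, ∀ μ : ValuationSubring l, (∀ s ∈ S, s ∈ μ) → P μ := Iff.rfl

theorem ev_mem (x : l) : ∀ᶠ μ in evF l, x ∈ μ :=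
  ev_iff.2 ⟨{x}, fun _ h => h x (Finset.mem_singleton_self x)⟩

theorem ev_unit {x : l} (hx : x ≠ 0) : ∀ᶠ μ in evF l, μ.valuation x = 1 :=
  ((ev_mem x).and (ev_mem x⁻¹)).mono fun _ h => (val_eq_one_iff_mem hx).2 h

theorem ev_intP (p : l[X]) : ∀ᶠ μ in evF l, IntP μ p := by
  refine ((Filter.eventually_all_finset p.support).2 fun i _ => ev_mem (p.coeff i)).mono
    fun μ h i => ?_
  by_cases hi : i ∈ p.support
  · exact h i hi
  · rw [notMem_support_iff.1 hi]; exact μ.zero_mem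

theorem ev_intM {ι : Type*} (p : MvPolynomial ι l) : ∀ᶠ μ in evF l, IntM μ p := by
  refine ((Filter.eventually_all_finset p.support).2 fun i _ => ev_mem (p.coeff i)).mono
    fun μ h i => ?_
  by_cases hi : i ∈ p.support
  · exact h i hi
  · rw [MvPolynomial.notMem_support_iff.1 hi]; exact μ.zero_mem

theorem ev_intM2 {ι : Type*} (p : (MvPolynomial ι l)[X]) : ∀ᶠ μ in evF l, IntM2 μ p := by
  refine ((Filter.eventually_all_finset p.support).2 fun i _ => ev_intM (p.coeff i)).mono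
    fun μ h i => ?_
  by_cases hi : i ∈ p.support
  · exact h i hi
  · rw [notMem_support_iff.1 hi]; exact fun _ => μ.zero_mem

theorem ev_unitP {p : l[X]} (hp : p ≠ 0) : ∀ᶠ μ in evF l, UnitP μ p :=
  ((ev_intP p).and (ev_unit (leadingCoeff_ne_zero.2 hp))).mono fun _ h => ⟨h.1, _, h.2⟩

theorem ev_copP {p p' : l[X]} (h : IsCoprime p p') : ∀ᶠ μ in evF l, CopP μ p p' := by
  obtain ⟨a, b, hab⟩ := h
  filter_upwards [ev_intP p, ev_intP p', ev_intP a, ev_intP b] with μ h1 h2 h3 h4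
  exact ⟨h1, h2, a, b, h3, h4, hab⟩

theorem ev_pairOK {n : ℕ} {q c : Fin n → l} {p : MvPolynomial (Fin n) l × MvPolynomial (Fin n) l}
    (h1 : (lr q c p.1).natDegree = p.1.totalDegree) (h2 : lr q c p.1 ≠ 0)
    (h3 : (lr q c p.1).Separable) (h4 : IsCoprime (lr q c p.1) (lr q c p.2)) :
    ∀ᶠ μ in evF l, PairOK μ q c p := by
  filter_upwards [ev_intM p.1, ev_intM p.2, ev_unit (leadingCoeff_ne_zero.2 h2), ev_copP h3,
    ev_copP h4] with μ k1 k2 k3 k4 k5
  exact ⟨k1, k2, h1, k3, k4, k5⟩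

theorem ev_qc {n : ℕ} (q c : Fin n → l) : ∀ᶠ μ in evF l, ∀ j, q j ∈ μ ∧ c j ∈ μ :=
  Filter.eventually_all.2 fun j => (ev_mem (q j)).and (ev_mem (c j))

theorem ev_exists {n : ℕ} (hn : (n : l) ≠ 0) {P : ValuationSubring l → Prop}
    (h : ∀ᶠ μ in evF l, P μ) :
    ∃ μ, P μ ∧ μ.valuation (n : l) = 1 ∧ FinAlg (ResidueField μ) := by
  obtain ⟨S, hS⟩ := ev_iff.1 h
  obtain ⟨μ, h1, h2⟩ := exists_finAlg_valuation hn S
  exact ⟨μ, hS μ h1, h2⟩

theorem ev_irrRed [IsAlgClosed l] {f : l[X][X]} (hf : f.Monic) (h : Irreducible f) :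
    ∀ᶠ μ in evF l, IrrRed.{u} μ.toSubring f := by
  let e : l ≃+* AlgebraicClosure l :=
    RingEquiv.ofBijective (algebraMap l _) IsAlgClosed.algebraMap_bijective_of_isIntegral
  obtain ⟨S, hS⟩ := exists_irrRed.{u} f hf
    ((MulEquiv.irreducible_iff (mapEquiv (mapEquiv e))).2 h)
  exact ev_iff.2 ⟨S, fun μ hμ => hS _ hμ⟩

end filt

variable {ℓ : ℕ} [Fact ℓ.Prime] {l : Type*} {L : Type u} [Field l] [Field L] [Algebra l L]
  [IsAlgClosed l] {d : ℕ}

/-- the basic conditions on a line and a reduction -/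
structure Ok (ℓ : ℕ) {n : ℕ} (q c : Fin (n + 1) → l) (μ : ValuationSubring l) : Prop where
  q0 : q 0 = 1
  c0 : c 0 = 0
  fin : FinAlg (ResidueField μ)
  ell : μ.valuation (ℓ : l) = 1

theorem gen_lineData (M : Model l L (d + 2)) : GenLine (d + 1) fun q c => ∀ᶠ μ in evF l,
    Ok ℓ q c μ → ∀ w, IsLineVal μ M.s q c w → LineData ℓ M q c μ w := by
  refine ((genLine_ne_zero M.Δne).and (genLine_irreducible M)).mono fun q c h => ?_
  obtain ⟨a, b, hab⟩ := M.bezout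
  filter_upwards [ev_intM2 M.f, ev_intM2 a, ev_intM2 b, ev_intM M.Δ, ev_unitP h.1,
    ev_irrRed.{u} (M.monic.map _) h.2] with μ k1 k2 k3 k4 k5 k6 h0 w hw
  exact ⟨hw, h0.q0, h0.c0, k1, ⟨a, b, k2, k3, hab⟩, k4, k5, k6, h0.fin, h0.ell⟩

theorem gen_data {n : ℕ} (𝔓 : Finset (MvPolynomial (Fin (n + 1)) l × MvPolynomial (Fin (n + 1)) l))
    (𝔊 : Finset (MvPolynomial (Fin (n + 1)) l)) (ℑ : Finset (MvPolynomial (Fin (n + 1)) l)[X])
    (h𝔓 : ∀ p ∈ 𝔓, Irreducible p.1 ∧ ¬ p.1 ∣ p.2) (h𝔊 : ∀ g ∈ 𝔊, g ≠ 0) :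
    GenLine n fun q c => ∀ᶠ μ in evF l, (∀ p ∈ 𝔓, PairOK μ q c p) ∧
      (∀ g ∈ 𝔊, IntM μ g ∧ UnitP μ (lr q c g)) ∧ ∀ A ∈ ℑ, IntM2 μ A := by
  refine ((genLine_forall 𝔓 fun p hp => ((genLine_natDegree p.1).and
    (genLine_ne_zero (h𝔓 p hp).1.ne_zero)).and ((genLine_separable (h𝔓 p hp).1).and
    (genLine_isCoprime (h𝔓 p hp).1 (h𝔓 p hp).2))).and
    (genLine_forall 𝔊 fun g hg => genLine_ne_zero (h𝔊 g hg))).mono fun q c h => ?_
  exact ((Filter.eventually_all_finset 𝔓).2 fun p hp =>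
    ev_pairOK (h.1 p hp).1.1 (h.1 p hp).1.2 (h.1 p hp).2.1 (h.1 p hp).2.2).and
    (((Filter.eventually_all_finset 𝔊).2 fun g hg => (ev_intM g).and (ev_unitP (h.2 g hg))).and
    ((Filter.eventually_all_finset ℑ).2 fun A _ => ev_intM2 A))

/-- a model of a finite separable extension over the same transcendence basis -/
theorem exists_model_ext {n : ℕ} (M : Model l L n) (L' : Type u) [Field L'] [Algebra l L']
    [Algebra L L'] [IsScalarTower l L L'] [FiniteDimensional L L'] [Algebra.IsSeparable L L'] :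
    ∃ M' : Model l L' n, M'.s = fun j => algebraMap L L' (M.s j) := by
  let φ := IsScalarTower.toAlgHom l L L'
  have hs : AlgebraicIndependent l fun j => algebraMap L L' (M.s j) :=
    M.indep.map' (f := φ) (algebraMap L L').injective
  set K₀ := IntermediateField.adjoin l (Set.range M.s)
  set K₁ := IntermediateField.adjoin l (Set.range fun j => algebraMap L L' (M.s j))
  have hK : ∀ x ∈ K₀, algebraMap L L' x ∈ K₁ := by
    have : K₀ ≤ K₁.comap φ := IntermediateField.adjoin_le_iff.2 (by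
      rintro _ ⟨j, rfl⟩
      exact IntermediateField.subset_adjoin l _ ⟨j, rfl⟩)
    exact fun x hx => this hx
  letI : Algebra K₀ K₁ :=
    (((algebraMap L L').comp (algebraMap K₀ L)).codRestrict K₁ fun x => hK x x.2).toAlgebra
  haveI : IsScalarTower K₀ K₁ L' := IsScalarTower.of_algebraMap_eq fun x => rfl
  haveI := M.finite
  haveI := M.isSeparable
  haveI : FiniteDimensional K₀ L' := Module.Finite.trans L L'
  haveI : Algebra.IsSeparable K₀ L' := Algebra.IsSeparable.trans K₀ L L'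
  haveI : FiniteDimensional K₁ L' := Module.Finite.of_restrictScalars_finite K₀ K₁ L'
  haveI : Algebra.IsSeparable K₁ L' := Algebra.isSeparable_tower_top_of_isSeparable K₀ K₁ L'
  exact exists_model_of_sep hs

theorem gen_kummer (hℓ : (ℓ : l) ≠ 0) (M : Model l L (d + 2)) {y : L} (hy : cl ℓ y ≠ 0) :
    GenLine (d + 1) fun q c => ∀ᶠ μ in evF l,
      Ok ℓ q c μ → ∀ w, IsLineVal μ M.s q c w → cl ℓ y ∉ TO ℓ w := by
  haveI : NeZero (ℓ : l) := ⟨hℓ⟩
  obtain ⟨ζ₀, hζ₀⟩ := HasEnoughRootsOfUnity.exists_primitiveRoot l ℓ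
  have hζ := hζ₀.map_of_injective (algebraMap l L).injective
  obtain ⟨h1, h2, σ, hσ⟩ := exists_kummer hζ hy
  have y0 : y ≠ 0 := by
    rintro rfl
    exact hy cl_zero
  have hr : aeval (AdjoinRoot.root (X ^ ℓ - C y)) (X ^ ℓ - C y : L[X]) = 0 := by
    rw [AdjoinRoot.aeval_eq, AdjoinRoot.mk_self]
  haveI := Fact.mk h1
  haveI : FiniteDimensional L (AdjoinRoot (X ^ ℓ - C y)) :=
    (AdjoinRoot.powerBasis h1.ne_zero).finite
  haveI : Algebra.IsSeparable L (AdjoinRoot (X ^ ℓ - C y)) := by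
    refine ⟨fun x => ?_⟩
    have k1 : Algebra.adjoin L {AdjoinRoot.root (X ^ ℓ - C y)} ≤
        (separableClosure L (AdjoinRoot (X ^ ℓ - C y))).toSubalgebra :=
      Algebra.adjoin_le (Set.singleton_subset_iff.2
        (mem_separableClosure_iff.2 (h2.of_dvd (minpoly.dvd L _ hr))))
    rw [AdjoinRoot.adjoinRoot_eq_top] at k1
    exact mem_separableClosure_iff.1 (k1 Algebra.mem_top)
  obtain ⟨M', hM'⟩ := exists_model_ext M (AdjoinRoot (X ^ ℓ - C y))
  refine (gen_lineData (ℓ := ℓ) M').mono fun q c h => h.mono fun μ h h0 w hw => ?_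
  obtain ⟨w', rfl⟩ := exists_comap_eq (algebraMap L (AdjoinRoot (X ^ ℓ - C y))) w
  have k1 := h h0 w' (hM' ▸ hw.map)
  have k2 : w'.comap (σ : _ →+* _) = w' := k1.unique fun x hx => by
    have : IntermediateField.adjoin l (Set.range M'.s) ≤
        (IsScalarTower.toAlgHom l L (AdjoinRoot (X ^ ℓ - C y))).fieldRange :=
      IntermediateField.adjoin_le_iff.2 (by
        rintro _ ⟨j, rfl⟩
        exact ⟨M.s j, (congrFun hM' j).symm⟩)
    obtain ⟨z, rfl⟩ := this hx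
    change σ (algebraMap L _ z) ∈ w' ↔ algebraMap L _ z ∈ w'
    rw [σ.commutes]
  refine not_mem_TO_of_inert k1.ell_w hζ y0 ?_ σ hσ fun x => ?_
  · simpa [sub_eq_zero] using hr
  · conv_rhs => rw [← k2]
    rfl

end GVAux

open GVAux

variable {ℓ : ℕ} [Fact ℓ.Prime] {l : Type*} {L : Type u} [Field l] [Field L] [Algebra l L]
  [IsAlgClosed l] {d : ℕ}

/-- finitely many conditions over `l` survive a suitable reduction (`exists_finAlg_valuation`) -/
theorem exists_reduction (hℓ : (ℓ : l) ≠ 0) {n : ℕ} (q c : Fin n → l) (S : Finset l)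
    (𝔓 : Finset (MvPolynomial (Fin n) l × MvPolynomial (Fin n) l))
    (𝔊 : Finset (MvPolynomial (Fin n) l)) (ℑ : Finset (MvPolynomial (Fin n) l)[X])
    (h𝔓 : ∀ p ∈ 𝔓, p.1 ≠ 0 ∧ (lr q c p.1).natDegree = p.1.totalDegree ∧ lr q c p.1 ≠ 0 ∧
      (lr q c p.1).Separable ∧ IsCoprime (lr q c p.1) (lr q c p.2))
    (h𝔊 : ∀ g ∈ 𝔊, lr q c g ≠ 0) :
    ∃ μ : ValuationSubring l, (∀ s ∈ S, s ∈ μ) ∧ μ.valuation (ℓ : l) = 1 ∧
      FinAlg (ResidueField μ) ∧ (∀ j, q j ∈ μ ∧ c j ∈ μ) ∧ (∀ p ∈ 𝔓, PairOK μ q c p) ∧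
      (∀ g ∈ 𝔊, IntM μ g ∧ UnitP μ (lr q c g)) ∧ ∀ A ∈ ℑ, IntM2 μ A := by
  obtain ⟨μ, ⟨h1, h2, h3, h4, h5⟩, h6, h7⟩ := ev_exists hℓ
    (((Filter.eventually_all_finset S).2 fun s _ => ev_mem s).and ((ev_qc q c).and
      (((Filter.eventually_all_finset 𝔓).2 fun p hp => ev_pairOK (h𝔓 p hp).2.1 (h𝔓 p hp).2.2.1
        (h𝔓 p hp).2.2.2.1 (h𝔓 p hp).2.2.2.2).and
      (((Filter.eventually_all_finset 𝔊).2 fun g hg => (ev_intM g).and (ev_unitP (h𝔊 g hg))).and
      ((Filter.eventually_all_finset ℑ).2 fun A _ => ev_intM2 A)))))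
  exact ⟨μ, h1, h6, h7, h2, h3, h4, h5⟩

/-- Choose for each `u ∈ U` the data of `exists_vis_data`, and for `cl u ≠ 0` a model `M u` of the
Kummer extension `L(u ^ (1 / ℓ))` over the same `s` (`exists_kummer`, `exists_model_of_sep`).
Choose a generic line (`genLine_*`), then `μ` (`exists_irrRed`, `exists_reduction`), then `w`
(`exists_isLineVal`). An extension `w'` of `w` to the Kummer extension is `LineData` for `M u`
(`IsLineVal.map`), so it is unique, so `σ`-stable, and `not_mem_TO_of_inert` applies. -/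
theorem exists_good_valuation (hℓ : (ℓ : l) ≠ 0) (M : Model l L (d + 2)) :
    ∃ (R B₀ : ℕ) (B : L → ℕ), (∀ u, (∀ W π, M.IsDiv W π → cl ℓ u ∈ HO ℓ W) → B u = 0) ∧
      ∀ U : Finset L, (∀ u ∈ U, u ≠ 0) → ∃ w : ValuationSubring L,
        w.valuation (ℓ : L) = 1 ∧ FinAlg (resConst l w) ∧
        IsCurve (resConst l w) (ResidueField w) ∧ MinPos ℓ w ∧
        (∃ π : Fin (d + 1) → L, (∀ i, π i ≠ 0) ∧ IndepMod (HO ℓ w) fun i => cl ℓ (π i)) ∧
        FiniteDimensional (ZMod ℓ) (Unr ℓ (resConst l w) (ResidueField w)) ∧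
        Module.finrank (ZMod ℓ) (Unr ℓ (resConst l w) (ResidueField w)) ≤ R ∧
        ∃ Bad : Set (Place (resConst l w) (ResidueField w)), Bad.Finite ∧ Bad.ncard ≤ B₀ ∧
          ∀ u ∈ U, w.valuation u = 1 ∧ (cl ℓ u ≠ 0 → cl ℓ u ∉ TO ℓ w) ∧
            (vis ℓ (resConst l w) (res w u) \ Bad).ncard ≤ B u ∧
            ∀ W π, M.IsDiv W π → cl ℓ u ∉ HO ℓ W →
              π.totalDegree ≤ (vis ℓ (resConst l w) (res w u)).ncard := by
  have h1 : ∀ u : L, ∃ B : ℕ, ((∀ W π, M.IsDiv W π → cl ℓ u ∈ HO ℓ W) → B = 0) ∧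
      (u ≠ 0 → GenLine (d + 1) fun q c => ∀ᶠ μ in evF l, Ok ℓ q c μ → ∀ w,
        LineData ℓ M q c μ w → w.valuation u = 1 ∧ (cl ℓ u ≠ 0 → cl ℓ u ∉ TO ℓ w) ∧
          (vis ℓ (resConst l w) (res w u) \ badSet M w).ncard ≤ B ∧
          ∀ W π, M.IsDiv W π → cl ℓ u ∉ HO ℓ W →
            π.totalDegree ≤ (vis ℓ (resConst l w) (res w u)).ncard) := fun u => by
    by_cases hu : u = 0
    · exact ⟨0, fun _ => rfl, fun h => absurd hu h⟩
    obtain ⟨B, 𝔓, 𝔊, ℑ, k1, k2, k3, k4⟩ := exists_vis_data (ℓ := ℓ) M hu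
    refine ⟨B, k1, fun _ => ?_⟩
    by_cases hc : cl ℓ u = 0
    · refine (gen_data 𝔓 𝔊 ℑ k2 k3).mono fun q c h => h.mono fun μ h _ w hw => ?_
      obtain ⟨a1, a2, a3⟩ := k4 q c μ w hw h.1 h.2.1 h.2.2
      exact ⟨a1, fun h => absurd hc h, a2, a3⟩
    · refine ((gen_data 𝔓 𝔊 ℑ k2 k3).and (gen_kummer hℓ M hc)).mono fun q c h =>
        (h.1.and h.2).mono fun μ h h0 w hw => ?_
      obtain ⟨a1, a2, a3⟩ := k4 q c μ w hw h.1.1 h.1.2.1 h.1.2.2
      exact ⟨a1, fun _ => h.2 h0 w hw.line, a2, a3⟩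
  choose B hB0 hB using h1
  obtain ⟨R, hR⟩ := unr_bound.{u} ℓ
  refine ⟨R M.f.natDegree (M.f.support.sup fun i => (M.f.coeff i).totalDegree),
    M.f.natDegree * (M.Δ.totalDegree + 1), B, hB0, fun U hU => ?_⟩
  obtain ⟨q, c, q0, c0, h2, h3⟩ :=
    ((gen_lineData (ℓ := ℓ) M).and (genLine_forall U fun u hu => hB u (hU u hu))).exists
  obtain ⟨μ, ⟨h4, h5, h6⟩, h7, h8⟩ := ev_exists hℓ
    ((ev_qc q c).and (h2.and ((Filter.eventually_all_finset U).2 h3)))
  have h0 : Ok ℓ q c μ := ⟨q0, c0, h8, h7⟩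
  obtain ⟨w, hw⟩ := exists_isLineVal μ M.indep q0 c0 h4
  have h := h5 h0 w hw
  obtain ⟨f', a1, a2, a3, a4, a5, a6, -⟩ := h.exists_plane
  have h9 := hR (resConst l w) (ResidueField w) h.finAlg (natCast_resConst_ne_zero h.ell_w)
    _ (M.f.support.sup fun i => (M.f.coeff i).totalDegree) _ _ f' a1 a2 a3 a4.le
    (fun i => (a5 i).trans (by
      by_cases hi : i ∈ M.f.support
      · exact Finset.le_sup (f := fun i => (M.f.coeff i).totalDegree) hi
      · rw [notMem_support_iff.1 hi]; simp)) a6 h.adjoin_eq_top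
  exact ⟨w, h.ell_w, h.finAlg, h.isCurve, h.minPos, ⟨_, hw.indep.1, h.indepMod⟩, h9.1, h9.2,
    badSet M w, h.ncard_badSet.1, h.ncard_badSet.2, fun u hu => h6 u hu h0 w h⟩

/-- version for an independent family: apply the above to all products `∏ u i ^ c i`,
`0 ≤ c i < ℓ` -/
theorem indepMod_TO_of_products {w : ValuationSubring L} {ι : Type*} [Fintype ι] {u : ι → L}
    (h0 : ∀ i, u i ≠ 0) (hu : LinearIndependent (ZMod ℓ) fun i => cl ℓ (u i))
    (h : ∀ c : ι → Fin ℓ, cl ℓ (∏ i, u i ^ (c i : ℕ)) ≠ 0 →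
      cl ℓ (∏ i, u i ^ (c i : ℕ)) ∉ TO ℓ w) :
    IndepMod (TO ℓ w) fun i => cl ℓ (u i) := by
  intro c hc
  haveI : NeZero ℓ := ⟨(Fact.out : ℓ.Prime).ne_zero⟩
  have e : cl ℓ (∏ i, u i ^ (c i).val) = ∑ i, c i • cl ℓ (u i) := by
    rw [cl_prod _ _ fun i _ => pow_ne_zero _ (h0 i)]
    simp only [cl_pow, ZMod.natCast_val, ZMod.cast_id', id_eq]
  have h1 := h fun i => ⟨(c i).val, ZMod.val_lt _⟩
  simp only [e] at h1
  exact Fintype.linearIndependent_iff.1 hu c (by_contra fun h2 => h1 h2 hc)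

/-- classes without visible divisors on the model form a finite-dimensional space: an independent
family `u i` reduces to an independent family with visible points inside `Bad`, so its size is at
most `R + B₀` -/
theorem finite_model_unr (hℓ : (ℓ : l) ≠ 0) (M : Model l L (d + 2)) :
    FiniteDimensional (ZMod ℓ)
      (⨅ (W : ValuationSubring L) (π : MvPolynomial (Fin (d + 2)) l) (_ : M.IsDiv W π), HO ℓ W :
        Submodule (ZMod ℓ) (V ℓ L)) := by
  classical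
  obtain ⟨R, B₀, B, hB, hU⟩ := exists_good_valuation hℓ M
  set S := (⨅ (W : ValuationSubring L) (π : MvPolynomial (Fin (d + 2)) l) (_ : M.IsDiv W π),
    HO ℓ W : Submodule (ZMod ℓ) (V ℓ L)) with hS
  refine Module.rank_lt_aleph0_iff.1 ((rank_le (n := R + B₀) fun s hs => ?_).trans_lt
    (Cardinal.natCast_lt_aleph0))
  choose u u0 hu using fun i : s => cl_surj (((i : S) : V ℓ L))
  have hli : LinearIndependent (ZMod ℓ) fun i => cl ℓ (u i) := by
    simp only [hu]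
    exact hs.map' S.subtype (Submodule.ker_subtype S)
  obtain ⟨w, -, -, hC, -, -, hfin, hR, Bad, hBad, hB₀, hw⟩ :=
    hU (Finset.univ.image u ∪ Finset.univ.image fun c : s → Fin ℓ => ∏ i, u i ^ (c i : ℕ)) (by
      simp only [Finset.mem_union, Finset.mem_image, Finset.mem_univ, true_and]
      rintro _ (⟨i, rfl⟩ | ⟨c, rfl⟩)
      · exact u0 i
      · exact Finset.prod_ne_zero_iff.2 fun i _ => pow_ne_zero _ (u0 i))
  have h1 := fun i => hw (u i) (Finset.mem_union_left _ (Finset.mem_image_of_mem _ (Finset.mem_univ i)))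
  have h2 : IndepMod (TO ℓ w) fun i => cl ℓ (u i) := indepMod_TO_of_products u0 hli fun c =>
    (hw _ (Finset.mem_union_right _ (Finset.mem_image_of_mem _ (Finset.mem_univ c)))).2.1
  obtain ⟨ρ, -, hρ1, hρ2⟩ := exists_resV (ℓ := ℓ) w
  have h3 : LinearIndependent (ZMod ℓ) fun i => cl ℓ (res w (u i)) := by
    refine Fintype.linearIndependent_iff.2 fun c hc => h2 c ?_
    have := (hρ1 (∑ i, c i • ⟨cl ℓ (u i), cl_mem_HO (h1 i).1⟩)).1 (by
      simp only [map_sum, map_smul, hρ2 _ (h1 _).1, hc])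
    simpa using this
  have h4 : ∀ i, ∀ z ∉ Bad, cl ℓ (res w (u i)) ∈ HO ℓ z.O := fun i z hz => by
    have k1 := (h1 i).2.2.1
    rw [hB _ fun W π hW => by
      have := ((i : S).2 : _ ∈ S)
      simp only [hS, Submodule.mem_iInf] at this
      rw [hu]
      exact this W π hW, Nat.le_zero,
      Set.ncard_eq_zero ((finite_vis hC _).subset Set.diff_subset)] at k1
    by_contra k2
    exact (k1.subset ⟨k2, hz⟩ : z ∈ (∅ : Set _))
  haveI := hBad.fintype
  let T := Submodule.span (ZMod ℓ) (Set.range fun i => cl ℓ (res w (u i)))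
  haveI : FiniteDimensional (ZMod ℓ) T := FiniteDimensional.span_of_finite _ (Set.finite_range _)
  let φ : T →ₗ[ZMod ℓ] (Bad → ZMod ℓ) :=
    LinearMap.pi fun z => (ordV ℓ z.1.O).comp T.subtype
  have h5 := φ.finrank_range_add_finrank_ker
  have h6 : Module.finrank (ZMod ℓ) (LinearMap.range φ) ≤ B₀ := by
    refine (Submodule.finrank_le _).trans ?_
    rw [Module.finrank_fintype_fun_eq_card, ← Nat.card_eq_fintype_card]
    exact hB₀
  have h7 : Module.finrank (ZMod ℓ) (LinearMap.ker φ) ≤ R := by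
    rw [← Submodule.finrank_map_subtype_eq]
    refine (Submodule.finrank_mono ?_).trans hR
    rintro _ ⟨v, hv, rfl⟩
    refine (Submodule.mem_iInf _).2 fun z => ?_
    by_cases hz : z ∈ Bad
    · rw [← (z.isDVR hC).ker_ordV]
      exact congrFun hv ⟨z, hz⟩
    · exact (Submodule.span_le.2 (by rintro _ ⟨i, rfl⟩; exact h4 i z hz) : T ≤ HO ℓ z.O) v.2
  rw [finrank_span_eq_card h3, Fintype.card_coe] at h5
  omega

end Vale.Agent.P019
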