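import Vale.Agent.P019.LVAL
import Vale.Agent.P019.MODEL
import Vale.Agent.P019.UR
import Vale.Agent.P019.AI
import Vale.Agent.P019.ValComp
import Vale.Agent.P019.PL
import Vale.Agent.P019.Z0

/-! P019: structure of the good valuation. Write `σ = res w (M.s 0)`, `κ = resConst l w`,
`F = ResidueField w`. The ring homomorphism `μ →+* κ`, `a ↦ res w a`, reduces
`M.f.map (lr q c)` to an irreducible monic `f' ∈ κ[X][X]` with `f'(σ, res θ) = 0`, and `σ` is
transcendental over `κ`. Hence `1, res θ, ..., res θ ^ (n - 1)` are linearly independent over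
`κ(σ)`, which is the residue field of `w ∩ l(s)` (`IsLineVal.resid`), which gives `coeff_le`. -/

open IsLocalRing IntermediateField Polynomial

namespace Vale.Agent.P019

universe u

namespace GVaAux

theorem minpoly_deg {κ F : Type*} [Field κ] [Field F] [Algebra κ F] {σ θ : F}
    (hσ : Transcendental κ σ) {f : κ[X][X]} (hm : f.Monic) (hi : Irreducible f)
    (h0 : f.eval₂ (aeval σ : κ[X] →ₐ[κ] F).toRingHom θ = 0) :
    IsIntegral κ⟮σ⟯ θ ∧ (minpoly κ⟮σ⟯ θ).natDegree = f.natDegree := by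
  let g : κ[X] →+* κ⟮σ⟯ := (aeval (AdjoinSimple.gen κ σ) : κ[X] →ₐ[κ] κ⟮σ⟯).toRingHom
  have hg : ∀ p, algebraMap κ⟮σ⟯ F (g p) = aeval σ p := fun p =>
    (aeval_algHom_apply (IsScalarTower.toAlgHom κ κ⟮σ⟯ F) (AdjoinSimple.gen κ σ) p).symm
  let : Algebra κ[X] κ⟮σ⟯ := g.toAlgebra
  have : FaithfulSMul κ[X] κ⟮σ⟯ := (faithfulSMul_iff_algebraMap_injective _ _).2 fun p p' h =>
    transcendental_iff_injective.1 hσ (by
      rw [← hg, ← hg]
      exact congrArg _ h)
  have : IsFractionRing κ[X] κ⟮σ⟯ := IsFractionRing.of_field _ _ fun z => by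
    obtain ⟨r, s, hz⟩ := (mem_adjoin_simple_iff κ (z : F)).1 z.2
    refine ⟨r, s, (algebraMap κ⟮σ⟯ F).injective ?_⟩
    rw [map_div₀]
    exact hz.trans (congrArg₂ _ (hg r).symm (hg s).symm)
  have h1 : aeval θ (f.map (algebraMap κ[X] κ⟮σ⟯)) = 0 := by
    rw [aeval_def, eval₂_map, ← h0]
    congr 1
    exact RingHom.ext hg
  have h2 := hm.map (algebraMap κ[X] κ⟮σ⟯)
  refine ⟨⟨_, h2, h1⟩, ?_⟩
  rw [← minpoly.eq_of_irreducible_of_monic
    (hm.irreducible_iff_irreducible_map_fraction_map.1 hi) h1 h2, hm.natDegree_map]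

theorem res_sum {F ι : Type*} [Field F] {O : ValuationSubring F} (s : Finset ι) {x : ι → F}
    (hx : ∀ i, x i ∈ O) : res O (∑ i ∈ s, x i) = ∑ i ∈ s, res O (x i) := by
  classical
  induction s using Finset.induction_on with
  | empty => simp
  | insert a s ha ih =>
    rw [Finset.sum_insert ha, Finset.sum_insert ha, res_add (hx a) (sum_mem fun i _ => hx i), ih]

theorem res_eval {F : Type*} [Field F] {O : ValuationSubring F} {P : F[X]}
    (hP : ∀ i, P.coeff i ∈ O) {x : F} (hx : x ∈ O) {n : ℕ} (hn : P.natDegree < n) :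
    P.eval x ∈ O ∧ res O (P.eval x) = ∑ i : Fin n, res O (P.coeff i) * res O x ^ (i : ℕ) := by
  rw [eval_eq_sum_range' hn]
  refine ⟨sum_mem fun i _ => mul_mem (hP i) (pow_mem hx i), ?_⟩
  rw [res_sum _ fun i => mul_mem (hP i) (pow_mem hx i), Finset.sum_range]
  exact Finset.sum_congr rfl fun i _ => by rw [res_mul (hP i) (pow_mem hx _), res_pow hx]

theorem exists_max {F : Type*} [Field F] (O : ValuationSubring F) (P : F[X]) :
    ∃ j ≤ P.natDegree, ∀ i, O.valuation (P.coeff i) ≤ O.valuation (P.coeff j) := by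
  obtain ⟨j, hj, h⟩ := (Finset.range (P.natDegree + 1)).exists_max_image
    (fun i => O.valuation (P.coeff i)) ⟨0, by simp⟩
  refine ⟨j, Nat.lt_succ_iff.1 (Finset.mem_range.1 hj), fun i => ?_⟩
  by_cases hi : i ≤ P.natDegree
  · exact h i (Finset.mem_range.2 (Nat.lt_succ_of_le hi))
  · rw [coeff_eq_zero_of_natDegree_lt (not_le.1 hi), map_zero]
    exact zero_le

section line

variable {l : Type*} {L : Type u} [Field l] [Field L] [Algebra l L] {μ : ValuationSubring l}
  {w : ValuationSubring L}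

theorem mem_iff (h : w.comap (algebraMap l L) = μ) {a : l} : a ∈ μ ↔ algebraMap l L a ∈ w := by
  rw [← h]
  rfl

/-- constants as elements of the valuation ring -/
def ψ (h : w.comap (algebraMap l L) = μ) : μ.toSubring →+* w :=
  ((algebraMap l L).comp μ.toSubring.subtype).codRestrict w fun a => (mem_iff h).1 a.2

/-- reduction of constants -/
noncomputable def φ (h : w.comap (algebraMap l L) = μ) : μ.toSubring →+* resConst l w :=
  ((residue w).comp (ψ h)).codRestrict (resConst l w) fun a => ⟨a, (ψ h a).2, res_coe (ψ h a)⟩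

theorem φ_coe (h : w.comap (algebraMap l L) = μ) (a : μ.toSubring) :
    (φ h a : ResidueField w) = res w (algebraMap l L a) := (res_coe (ψ h a)).symm

theorem φ_eq_zero (h : w.comap (algebraMap l L) = μ) (a : μ.toSubring) :
    φ h a = 0 ↔ μ.valuation a < 1 := by
  rw [← ZeroMemClass.coe_eq_zero, φ_coe, res_eq_zero_iff ((mem_iff h).1 a.2)]
  subst h
  exact (comap_val_lt_one _ _ _).symm

theorem φ_surj (h : w.comap (algebraMap l L) = μ) : Function.Surjective (φ h) := by
  rintro ⟨_, a, ha, rfl⟩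
  exact ⟨⟨a, (mem_iff h).2 ha⟩, Subtype.ext (φ_coe h _)⟩

theorem red1 (h : w.comap (algebraMap l L) = μ) {x : L} (hx : x ∈ w) (p : μ.toSubring[X]) :
    aeval x (p.map μ.toSubring.subtype) ∈ w ∧
      res w (aeval x (p.map μ.toSubring.subtype)) = aeval (res w x) (p.map (φ h)) := by
  have e : aeval x (p.map μ.toSubring.subtype) = (p.eval₂ (ψ h) ⟨x, hx⟩ : w) := by
    rw [aeval_def, eval₂_map]
    exact (hom_eval₂ p (ψ h) w.subtype ⟨x, hx⟩).symm
  rw [e, res_coe, hom_eval₂, aeval_def, eval₂_map, res_of_mem hx]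
  exact ⟨Subtype.property _, rfl⟩

theorem exists_lift {p : l[X]} (hp : IntP μ p) :
    ∃ p₀ : μ.toSubring[X], p₀.map μ.toSubring.subtype = p :=
  (lifts_iff_coeff_lifts p).2 fun n => ⟨⟨_, hp n⟩, rfl⟩

theorem aeval_mem (h : w.comap (algebraMap l L) = μ) {x : L} (hx : x ∈ w) {p : l[X]}
    (hp : IntP μ p) : aeval x p ∈ w ∧ res w (aeval x p) ∈ (resConst l w)⟮res w x⟯ := by
  obtain ⟨p₀, rfl⟩ := exists_lift hp
  obtain ⟨h1, h2⟩ := red1 h hx p₀
  refine ⟨h1, ?_⟩
  rw [h2]
  exact (mem_adjoin_simple_iff _ _).2 ⟨p₀.map (φ h), 1, by rw [map_one, div_one]⟩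

variable {d : ℕ} {s : Fin (d + 2) → L} {q c : Fin (d + 2) → l}

theorem s_mem (h : IsLineVal μ s q c w) : s 0 ∈ w := by
  have := (h.red (MvPolynomial.X 0) fun m => by
    classical
    rw [MvPolynomial.coeff_X]
    split_ifs
    exacts [μ.one_mem, μ.zero_mem]).1
  rwa [MvPolynomial.aeval_X] at this

theorem val_unit (h : IsLineVal μ s q c w) {p : l[X]} (hp : UnitP μ p) :
    w.valuation (aeval (s 0) p) = 1 := by
  obtain ⟨i, hi⟩ := hp.2
  refine le_antisymm ((w.valuation_le_one_iff _).2 (aeval_mem h.comap (s_mem h) hp.1).1) ?_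
  rw [← h.comap, comap_val_eq_one] at hi
  exact hi.ge.trans (h.gauss p i)

theorem intP_lr (h : IsLineVal μ s q c w) {g : MvPolynomial (Fin (d + 2)) l} (hg : IntM μ g) :
    IntP μ (lr q c g) := fun i => by
  obtain ⟨h1, h2⟩ := h.red g hg
  have h3 := w.sub_mem h1 ((w.valuation_le_one_iff _).1 h2.le)
  rw [sub_sub_cancel] at h3
  exact (mem_iff h.comap).2 ((w.valuation_le_one_iff _).1
    ((h.gauss _ i).trans ((w.valuation_le_one_iff _).2 h3)))

theorem transc (h : IsLineVal μ s q c w) : Transcendental (resConst l w) (res w (s 0)) := by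
  rintro ⟨p, hp, h0⟩
  obtain ⟨p₀, rfl⟩ := map_surjective _ (φ_surj h.comap) p
  obtain ⟨h1, h2⟩ := red1 h.comap (s_mem h) p₀
  rw [← h2, res_eq_zero_iff h1] at h0
  refine hp (Polynomial.ext fun i => ?_)
  have h3 := (h.gauss _ i).trans_lt h0
  rw [coeff_map, ← comap_val_lt_one, h.comap] at h3
  rw [coeff_map, coeff_zero]
  exact (φ_eq_zero h.comap _).2 h3

theorem res_mem (h : IsLineVal μ s q c w) {x : L} (hx : x ∈ adjoin l (Set.range s))
    (hw : x ∈ w) : res w x ∈ (resConst l w)⟮res w (s 0)⟯ := by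
  rcases ((w.valuation_le_one_iff x).2 hw).lt_or_eq with h1 | h1
  · rw [(res_eq_zero_iff hw).2 h1]
    exact zero_mem _
  · obtain ⟨p, p', hp, hp', h2⟩ := h.resid x hx h1
    have h3 := val_unit h hp
    have h4 := val_unit h hp'
    have h5 : w.valuation (aeval (s 0) p')⁻¹ = 1 := by rw [map_inv₀, h4, inv_one]
    rw [div_eq_mul_inv] at h2
    rw [(res_eq_iff hw (mul_mem (mem_of_val_eq_one h3) (mem_of_val_eq_one h5))).2 h2,
      res_mul (mem_of_val_eq_one h3) (mem_of_val_eq_one h5), res_inv h4]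
    exact mul_mem (aeval_mem h.comap (s_mem h) hp.1).2
      (inv_mem (aeval_mem h.comap (s_mem h) hp'.1).2)

theorem red2 (h : IsLineVal μ s q c w) {θ : L} (hθ : θ ∈ w)
    {A : (MvPolynomial (Fin (d + 2)) l)[X]} (hA : IntM2 μ A) {f₀ : μ.toSubring[X][X]}
    (hf : f₀.map (mapRingHom μ.toSubring.subtype) = A.map (lr q c).toRingHom) :
    (f₀.map (mapRingHom (φ h.comap))).eval₂
        (aeval (res w (s 0)) : (resConst l w)[X] →ₐ[resConst l w] _).toRingHom (res w θ)
      = res w (A.eval₂ (MvPolynomial.aeval s : MvPolynomial (Fin (d + 2)) l →ₐ[l] L).toRingHom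
        θ) := by
  rw [eval₂_map, eval₂_eq_sum_range' _ (n := max f₀.natDegree A.natDegree + 1)
      (Nat.lt_succ_of_le (le_max_left _ _)),
    eval₂_eq_sum_range' _ (n := max f₀.natDegree A.natDegree + 1)
      (Nat.lt_succ_of_le (le_max_right _ _))]
  refine Eq.trans (Finset.sum_congr rfl fun i _ => ?_)
    (res_sum _ fun i => mul_mem (h.red _ (hA i)).1 (pow_mem hθ i)).symm
  have e : (f₀.coeff i).map μ.toSubring.subtype = lr q c (A.coeff i) := by
    simpa using congrArg (fun P => P.coeff i) hf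
  obtain ⟨h1, h2⟩ := red1 h.comap (s_mem h) (f₀.coeff i)
  rw [e] at h1 h2
  obtain ⟨h3, h4⟩ := h.red _ (hA i)
  exact (congrArg₂ _ (h2.symm.trans ((res_eq_iff h3 h1).2 h4).symm) (res_pow hθ i).symm).trans
    (res_mul h3 (pow_mem hθ i)).symm

theorem intM2_der {A : (MvPolynomial (Fin (d + 2)) l)[X]} (hA : IntM2 μ A) :
    IntM2 μ A.derivative := fun i m => by
  rw [coeff_derivative, ← Nat.cast_succ, ← nsmul_eq_mul', MvPolynomial.coeff_smul]
  exact nsmul_mem (hA _ m) _

theorem natDegree_lr (g : MvPolynomial (Fin (d + 2)) l) :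
    (lr q c g).natDegree ≤ g.totalDegree := by
  refine (MvPolynomial.aeval_natDegree_le g le_rfl _ (n := 1) fun j => ?_).trans_eq (mul_one _)
  compute_degree

end line

theorem exists_repr {l L : Type*} [Field l] [Field L] [Algebra l L] {d : ℕ} (M : Model l L d)
    (x : L) : ∃ P : L[X], (∀ i, P.coeff i ∈ adjoin l (Set.range M.s)) ∧
      P.natDegree < M.f.natDegree ∧ P.eval M.θ = x := by
  obtain ⟨P, Q, hQ, hx⟩ := M.gen x
  have hm : ∀ g : MvPolynomial (Fin d) l, MvPolynomial.aeval M.s g ∈ adjoin l (Set.range M.s) :=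
    fun g => (mem_adjoin_range_iff _ _ _).2 ⟨g, 1, by rw [map_one, div_one]⟩
  have h0 : MvPolynomial.aeval M.s Q ≠ 0 := fun h => hQ (M.indep.eq_zero_of_aeval_eq_zero Q h)
  refine ⟨C (MvPolynomial.aeval M.s Q)⁻¹ * (P %ₘ M.f).map
    (MvPolynomial.aeval M.s : MvPolynomial (Fin d) l →ₐ[l] L).toRingHom, fun i => ?_, ?_, ?_⟩
  · rw [coeff_C_mul, coeff_map]
    exact mul_mem (inv_mem (hm _)) (hm _)
  · exact ((natDegree_C_mul_le _ _).trans natDegree_map_le).trans_lt
      (natDegree_modByMonic_lt P M.monic M.irr.ne_one)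
  · rw [eval_mul, eval_C, eval_map, eval₂_modByMonic_eq_self_of_root M.root, ← hx, mul_comm,
      mul_inv_cancel_right₀ h0]

end GVaAux

open GVaAux

variable {ℓ : ℕ} [Fact ℓ.Prime] {l : Type*} {L : Type u} [Field l] [Field L] [Algebra l L]
  [IsAlgClosed l] {d : ℕ} {M : Model l L (d + 2)} {q c : Fin (d + 2) → l}
  {μ : ValuationSubring l} {w : ValuationSubring L}

omit [Fact ℓ.Prime] [IsAlgClosed l] in
theorem GVaAux.θ_mem (h : LineData ℓ M q c μ w) : M.θ ∈ w :=
  mem_of_root (M.monic.map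
      (MvPolynomial.aeval M.s : MvPolynomial (Fin (d + 2)) l →ₐ[l] L).toRingHom)
    (fun i => by
      rw [coeff_map]
      exact (h.line.red _ (h.intf i)).1) (by rw [eval_map, M.root])

theorem LineData.evl_mem (h : LineData ℓ M q c μ w) {A : (MvPolynomial (Fin (d + 2)) l)[X]}
    (hA : IntM2 μ A) : M.evl A ∈ w := by
  rw [Model.evl, coe_eval₂RingHom, eval₂_eq_sum_range]
  exact sum_mem fun i _ => mul_mem (h.line.red _ (hA i)).1 (pow_mem (θ_mem h) i)

theorem LineData.val_eq_one (h : LineData ℓ M q c μ w) {g : MvPolynomial (Fin (d + 2)) l}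
    (hg : IntM μ g) (hu : UnitP μ (lr q c g)) : w.valuation (MvPolynomial.aeval M.s g) = 1 := by
  have h1 := val_unit h.line hu
  rw [← h1]
  exact w.valuation.map_eq_of_sub_lt (h1 ▸ (h.line.red g hg).2)

theorem LineData.ell_w (h : LineData ℓ M q c μ w) : w.valuation (ℓ : L) = 1 := by
  have h1 := h.ell
  rwa [← h.line.comap, comap_val_eq_one, map_natCast] at h1

theorem LineData.finAlg (h : LineData ℓ M q c μ w) : FinAlg (resConst l w) := by
  intro a ha
  obtain ⟨b, rfl⟩ := φ_surj h.line.comap a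
  have hb : (b : l) ∈ μ := b.2
  obtain ⟨n, hn, h1⟩ := h.fin (res μ b) fun h0 =>
    ha ((φ_eq_zero _ _).2 ((res_eq_zero_iff hb).1 h0))
  refine ⟨n, hn, ?_⟩
  rw [← res_pow hb, ← res_one, res_eq_iff (pow_mem hb n) μ.one_mem] at h1
  rw [← map_pow, ← sub_eq_zero, ← map_one (φ h.line.comap), ← map_sub]
  exact (φ_eq_zero _ _).2 h1

theorem LineData.exists_plane (h : LineData ℓ M q c μ w) : ∃ f' : (resConst l w)[X][X],
    Transcendental (resConst l w) (res w (M.s 0)) ∧ f'.Monic ∧ Irreducible f' ∧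
    f'.natDegree = M.f.natDegree ∧
    (∀ i, (f'.coeff i).natDegree ≤ (M.f.coeff i).totalDegree) ∧
    f'.eval₂ (aeval (res w (M.s 0)) : (resConst l w)[X] →ₐ[resConst l w] _).toRingHom
      (res w M.θ) = 0 ∧
    (∀ a t : l, ∀ (ha : algebraMap l L a ∈ w) (ht : algebraMap l L t ∈ w),
      μ.valuation ((M.f.map (lr q c).toRingHom).evalEval a t) < 1 →
      f'.evalEval ⟨res w (algebraMap l L a), a, ha, rfl⟩ ⟨res w (algebraMap l L t), t, ht, rfl⟩
        = 0) ∧
    f'.derivative.eval₂ (aeval (res w (M.s 0)) : (resConst l w)[X] →ₐ[resConst l w] _).toRingHom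
      (res w M.θ) = res w (M.evl M.f.derivative) := by
  obtain ⟨f₀, hf⟩ : ∃ f₀ : μ.toSubring[X][X],
      f₀.map (mapRingHom μ.toSubring.subtype) = M.f.map (lr q c).toRingHom :=
    (lifts_iff_coeff_lifts _).2 fun i => by
      rw [coeff_map]
      exact exists_lift (intP_lr h.line (h.intf i))
  have hi0 : Function.Injective μ.toSubring.subtype := Subtype.val_injective
  have hi : Function.Injective (mapRingHom μ.toSubring.subtype) := map_injective _ hi0
  have hm : f₀.Monic := monic_of_injective hi (hf ▸ M.monic.map _)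
  refine ⟨f₀.map (mapRingHom (φ h.line.comap)), transc h.line, hm.map _, h.irr _ _ f₀ hf, ?_,
    fun i => ?_, ?_, fun a t ha ht h1 => ?_, ?_⟩
  · rw [hm.natDegree_map, ← natDegree_map_eq_of_injective hi, hf, M.monic.natDegree_map]
  · have e : (f₀.coeff i).map μ.toSubring.subtype = lr q c (M.f.coeff i) := by
      simpa using congrArg (fun P => P.coeff i) hf
    rw [coeff_map, coe_mapRingHom]
    refine natDegree_map_le.trans ?_
    rw [← natDegree_map_eq_of_injective hi0, e]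
    exact natDegree_lr _
  · rw [red2 h.line (θ_mem h) h.intf hf, M.root, res_zero]
  · let a₀ : μ.toSubring := ⟨a, (mem_iff h.line.comap).2 ha⟩
    let t₀ : μ.toSubring := ⟨t, (mem_iff h.line.comap).2 ht⟩
    have e1 := map_mapRingHom_evalEval μ.toSubring.subtype f₀ a₀ t₀
    have e2 := map_mapRingHom_evalEval (φ h.line.comap) f₀ a₀ t₀
    rw [hf] at e1
    rw [(φ_eq_zero _ _).2 (lt_of_eq_of_lt (congrArg μ.valuation e1.symm) h1)] at e2
    exact (congrArg₂ (fun x y => evalEval x y (f₀.map (mapRingHom (φ h.line.comap))))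
      (Subtype.ext (φ_coe _ a₀).symm) (Subtype.ext (φ_coe _ t₀).symm)).trans e2
  · rw [derivative_map]
    exact red2 h.line (θ_mem h) (intM2_der h.intf) (by rw [← derivative_map, hf, derivative_map])

/-- Gauss property of the basis `θ ^ i` over `l(s)` -/
theorem LineData.coeff_le (h : LineData ℓ M q c μ w) (P : L[X])
    (hP : ∀ i, P.coeff i ∈ adjoin l (Set.range M.s)) (hdeg : P.natDegree < M.f.natDegree) (i : ℕ) :
    w.valuation (P.coeff i) ≤ w.valuation (P.eval M.θ) := by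
  obtain ⟨f', h1, h2, h3, h4, -, h5, -⟩ := h.exists_plane
  obtain ⟨j, hj, hmax⟩ := exists_max w P
  refine (hmax i).trans ?_
  by_cases h0 : P.coeff j = 0
  · rw [h0, map_zero]
    exact zero_le
  have hv : 0 < w.valuation (P.coeff j) := by
    rw [zero_lt_iff, Valuation.ne_zero_iff]
    exact h0
  by_contra hlt
  have hQ : ∀ i, (C (P.coeff j)⁻¹ * P).coeff i ∈ w := fun i => by
    rw [← w.valuation_le_one_iff, coeff_C_mul, map_mul, map_inv₀, inv_mul_le_one₀ hv]
    exact hmax i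
  have hE : ∀ i, (C (P.coeff j)⁻¹ * P).coeff i ∈ adjoin l (Set.range M.s) := fun i => by
    rw [coeff_C_mul]
    exact mul_mem (inv_mem (hP j)) (hP i)
  have hn := (minpoly_deg h1 h2 h3 h5).2.trans h4
  obtain ⟨h6, h7⟩ := res_eval hQ (θ_mem h) (((natDegree_C_mul_le _ _).trans_lt hdeg).trans_eq
    hn.symm)
  rw [(res_eq_zero_iff h6).2 (by
    rw [eval_mul, eval_C, map_mul, map_inv₀, inv_mul_lt_one₀ hv]
    exact not_le.1 hlt)] at h7
  have h8 := Fintype.linearIndependent_iff.1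
    (linearIndependent_pow (K := (resConst l w)⟮res w (M.s 0)⟯) (res w M.θ))
    (fun i => ⟨_, res_mem h.line (hE i) (hQ i)⟩) h7.symm ⟨j, (hj.trans_lt hdeg).trans_eq hn.symm⟩
  have h9 := congrArg Subtype.val h8
  simp only [coeff_C_mul, inv_mul_cancel₀ h0, res_one] at h9
  exact one_ne_zero h9

theorem LineData.exists_val_eq (h : LineData ℓ M q c μ w) (x : L) :
    ∃ y ∈ adjoin l (Set.range M.s), w.valuation x = w.valuation y := by
  obtain ⟨P, h1, h2, rfl⟩ := exists_repr M x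
  obtain ⟨j, -, hmax⟩ := exists_max w P
  refine ⟨_, h1 j, le_antisymm ?_ (h.coeff_le P h1 h2 j)⟩
  rw [eval_eq_sum_range]
  refine w.valuation.map_sum_le fun i _ => ?_
  rw [map_mul]
  exact (mul_le_of_le_one_right' ((w.valuation_le_one_iff _).2 (pow_mem (θ_mem h) i))).trans
    (hmax i)

theorem LineData.adjoin_eq_top (h : LineData ℓ M q c μ w) :
    adjoin (resConst l w) {res w (M.s 0), res w M.θ} = ⊤ := by
  refine eq_top_iff.2 fun r _ => ?_
  obtain ⟨x, hx, rfl⟩ := res_surj r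
  obtain ⟨P, h1, h2, rfl⟩ := exists_repr M x
  have h3 : ∀ i, P.coeff i ∈ w := fun i => (w.valuation_le_one_iff _).1
    ((h.coeff_le P h1 h2 i).trans ((w.valuation_le_one_iff _).2 hx))
  rw [(res_eval h3 (θ_mem h) h2).2]
  exact sum_mem fun i _ => mul_mem (adjoin.mono _ _ _ (by simp) (res_mem h.line (h1 i) (h3 i)))
    (pow_mem (subset_adjoin _ _ (by simp)) _)

theorem LineData.isCurve (h : LineData ℓ M q c μ w) :
    IsCurve (resConst l w) (ResidueField w) :=
  isCurve_residue M.isFF h.line.indep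
    ⟨_, fun h1 => transc h.line (isAlgebraic_algebraMap (⟨_, h1⟩ : resConst l w))⟩

theorem LineData.finrank_le (h : LineData ℓ M q c μ w) :
    Module.finrank (resConst l w)⟮res w (M.s 0)⟯ (ResidueField w) ≤ M.f.natDegree := by
  obtain ⟨f', h1, h2, h3, h4, -, h5, -⟩ := h.exists_plane
  obtain ⟨h6, h7⟩ := minpoly_deg h1 h2 h3 h5
  have h8 : (resConst l w)⟮res w (M.s 0)⟯⟮res w M.θ⟯ = ⊤ := by
    rw [← restrictScalars_eq_top_iff (K := resConst l w), adjoin_simple_adjoin_simple,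
      h.adjoin_eq_top]
  rw [← finrank_top', ← h8, adjoin.finrank h6, h7, h4]

theorem LineData.indepMod (h : LineData ℓ M q c μ w) :
    IndepMod (HO ℓ w) fun j => cl ℓ (lineZ M.s q c j) := by
  intro e he j
  obtain ⟨hz, hi⟩ := h.line.indep
  have hx : ∏ j, lineZ M.s q c j ^ ((e j).val : ℤ) ≠ 0 :=
    Finset.prod_ne_zero_iff.2 fun j _ => zpow_ne_zero _ (hz j)
  have e1 : cl ℓ (∏ j, lineZ M.s q c j ^ ((e j).val : ℤ)) = ∑ j, e j • cl ℓ (lineZ M.s q c j) := by
    rw [cl_prod _ _ fun j _ => zpow_ne_zero _ (hz j)]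
    exact Finset.sum_congr rfl fun j _ => by rw [cl_zpow, Int.cast_natCast, ZMod.natCast_zmod_val]
  rw [← e1, cl_mem_HO_iff hx] at he
  obtain ⟨y, hy, h1⟩ := he
  obtain ⟨y', hy', h2⟩ := h.exists_val_eq y
  have hy0 : w.valuation y ≠ 0 := (Valuation.ne_zero_iff _).2 hy
  obtain ⟨a, m, h3⟩ := h.line.value y' hy' ((Valuation.ne_zero_iff _).1 (h2 ▸ hy0))
  have h4 := hi (fun j => ((e j).val : ℤ) - m j * ℓ) (a ^ ℓ)⁻¹ (by
    have e2 : algebraMap l L (a ^ ℓ)⁻¹ * ∏ j, lineZ M.s q c j ^ (((e j).val : ℤ) - m j * ℓ)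
        = (∏ j, lineZ M.s q c j ^ ((e j).val : ℤ)) /
          (algebraMap l L a * ∏ j, lineZ M.s q c j ^ m j) ^ ℓ := by
      rw [mul_pow, ← Finset.prod_pow, map_inv₀, map_pow, ← div_div, div_right_comm,
        ← Finset.prod_div_distrib, div_eq_inv_mul]
      congr 1
      exact Finset.prod_congr rfl fun j _ => by
        rw [zpow_sub₀ (hz j), zpow_mul, zpow_natCast _ ℓ]
    rw [e2, map_div₀, map_pow, ← h3, ← h2, h1, div_self (pow_ne_zero _ hy0)]) j
  rw [← ZMod.natCast_zmod_val (e j), ← Int.cast_natCast, sub_eq_zero.1 h4]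
  simp

theorem LineData.minPos (h : LineData ℓ M q c μ w) : MinPos ℓ w := by
  have hz := h.line.indep.1 (Fin.last d)
  refine ⟨lineZ M.s q c (Fin.last d), hz, fun h1 => ?_, fun O hO => ?_⟩
  · have h2 := h.indepMod (Pi.single (Fin.last d) 1) (by simpa [Pi.single_apply] using h1)
      (Fin.last d)
    simp at h2
  · obtain ⟨x, hx, hx'⟩ := SetLike.exists_of_lt hO
    have hx0 : x ≠ 0 := fun h0 => hx' (h0 ▸ w.zero_mem)
    have h1 : w.valuation x⁻¹ < 1 := (val_lt_one_iff_inv (inv_ne_zero hx0)).2 (by rwa [inv_inv])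
    obtain ⟨y, hy, h2⟩ := h.exists_val_eq x⁻¹
    have h3 := h.line.least y hy (h2 ▸ h1)
    have h4 : x⁻¹ * (lineZ M.s q c (Fin.last d))⁻¹ ∈ w := by
      rw [← w.valuation_le_one_iff, map_mul, map_inv₀ _ (lineZ M.s q c (Fin.last d)), h2,
        mul_inv_le_iff₀ (zero_lt_iff.2 ((Valuation.ne_zero_iff _).2 hz)), one_mul]
      exact h3
    refine (val_eq_one_iff_mem hz).2 ⟨hO.le ((w.valuation_le_one_iff _).1 h.line.pos.le), ?_⟩
    have h5 := O.mul_mem _ _ hx (hO.le h4)
    rwa [mul_inv_cancel_left₀ hx0] at h5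

/-- `w` is the only extension of its restriction to `l(s)` (`IsLineVal.congr`, `coeff_le`) -/
theorem LineData.unique (h : LineData ℓ M q c μ w) {w' : ValuationSubring L}
    (hw : ∀ x ∈ adjoin l (Set.range M.s), x ∈ w' ↔ x ∈ w) : w' = w := by
  have h' : LineData ℓ M q c μ w' := { h with line := h.line.congr hw }
  have key : ∀ {v v' : ValuationSubring L}, LineData ℓ M q c μ v → LineData ℓ M q c μ v' →
      (∀ x ∈ adjoin l (Set.range M.s), x ∈ v → x ∈ v') → v ≤ v' := fun {v v'} a b e x hx => by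
    obtain ⟨P, h1, h2, rfl⟩ := exists_repr M x
    exact (res_eval (fun i => e _ (h1 i) ((v.valuation_le_one_iff _).1
      ((a.coeff_le P h1 h2 i).trans ((v.valuation_le_one_iff _).2 hx)))) (θ_mem b) h2).1
  exact le_antisymm (key h' h fun x hx => (hw x hx).1) (key h h' fun x hx => (hw x hx).2)

end Vale.Agent.P019
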