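import Vale.Agent.P019.GVb2

/-! P019: visible points of a reduction. -/

open IsLocalRing Polynomial

namespace Vale.Agent.P019

universe u

/-- the conditions on a pair `(π, ρ)` -/
def PairOK {l : Type*} [Field l] {n : ℕ} (μ : ValuationSubring l) (q c : Fin n → l)
    (p : MvPolynomial (Fin n) l × MvPolynomial (Fin n) l) : Prop :=
  IntM μ p.1 ∧ IntM μ p.2 ∧ (lr q c p.1).natDegree = p.1.totalDegree ∧
    μ.valuation (lr q c p.1).leadingCoeff = 1 ∧
    CopP μ (lr q c p.1) (lr q c p.1).derivative ∧ CopP μ (lr q c p.1) (lr q c p.2)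

/-- the bad places of the reduction -/
def badSet {l L : Type*} [Field l] [Field L] [Algebra l L] {d : ℕ} (M : Model l L (d + 2))
    (w : ValuationSubring L) : Set (Place (resConst l w) (ResidueField w)) :=
  {z | res w (M.s 0) ∉ z.O ∨ z.O.valuation (res w (MvPolynomial.aeval M.s M.Δ)) < 1}

variable {ℓ : ℕ} [Fact ℓ.Prime] {l : Type*} {L : Type u} [Field l] [Field L] [Algebra l L]
  [IsAlgClosed l] {d : ℕ}

namespace GVbAux

variable {M : Model l L (d + 2)} {q c : Fin (d + 2) → l} {μ : ValuationSubring l}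
  {w : ValuationSubring L}

theorem red_ne_zero (h : LineData ℓ M q c μ w) {p₀ : μ[X]} (hu : UnitP μ (p₀.map μ.subtype)) :
    p₀.map (redHom h) ≠ 0 := by
  obtain ⟨i, hi⟩ := hu.2
  intro e
  have := congrArg (fun p => p.coeff i) e
  simp only [coeff_map, coeff_zero] at this hi
  rw [redHom_eq_zero] at this
  exact this.ne hi

theorem ncard_zeros (h : LineData ℓ M q c μ w) {P : MvPolynomial (Fin (d + 2)) l} (hP : IntM μ P)
    (hu : UnitP μ (lr q c P)) :
    {z : Place (resConst l w) (ResidueField w) | res w (M.s 0) ∈ z.O ∧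
      z.O.valuation (res w (MvPolynomial.aeval M.s P)) < 1}.Finite ∧
    {z : Place (resConst l w) (ResidueField w) | res w (M.s 0) ∈ z.O ∧
      z.O.valuation (res w (MvPolynomial.aeval M.s P)) < 1}.ncard ≤
        M.f.natDegree * P.totalDegree := by
  obtain ⟨p₀, hp₀⟩ := IntP.exists_lift hu.1
  obtain ⟨f', ht, -⟩ := h.exists_plane
  rw [res_aeval_mv h hP hp₀]
  obtain ⟨h1, h2⟩ := ncard_zeros_poly h.isCurve ht (red_ne_zero h (hp₀ ▸ hu))
  refine ⟨h1, h2.trans (Nat.mul_le_mul h.finrank_le ?_)⟩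
  refine natDegree_map_le.trans ?_
  rw [← natDegree_map_eq_of_injective (f := μ.subtype) Subtype.val_injective, hp₀]
  exact natDegree_lr_le q c P

omit [IsAlgClosed l] in
theorem PairOK.unitP {p : MvPolynomial (Fin (d + 2)) l × MvPolynomial (Fin (d + 2)) l}
    (h : PairOK μ q c p) : UnitP μ (lr q c p.1) :=
  ⟨h.2.2.2.2.1.1, _, h.2.2.2.1⟩

theorem not_bad (h : LineData ℓ M q c μ w) {z : Place (resConst l w) (ResidueField w)}
    (hz : z ∉ badSet M w) : ∃ a ∈ μ, (comp w z.O).valuation (M.s 0 - algebraMap l L a) < 1 ∧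
      ¬ (comp w z.O).valuation (MvPolynomial.aeval M.s M.Δ) < 1 := by
  simp only [badSet, Set.mem_setOf_eq, not_or, not_not] at hz
  obtain ⟨a, ha, h1⟩ := exists_pt z h hz.1
  exact ⟨a, ha, h1, fun e => hz.2 (comp_val_lt_one.1 e).2⟩

omit [IsAlgClosed l] in
theorem cl_mem_iff {W : ValuationSubring L} {π : MvPolynomial (Fin (d + 2)) l} (hW : M.IsDiv W π)
    {u x y : L} {m : ℤ} (hu : u ≠ 0) (hx : W.valuation x = 1) (hy : W.valuation y = 1)
    (e : u * y = MvPolynomial.aeval M.s π ^ m * x) : cl ℓ u ∈ HO ℓ W ↔ (ℓ : ℤ) ∣ m := by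
  obtain ⟨hd, h1⟩ := hW.isDVR
  have x0 : x ≠ 0 := by rintro rfl; simp at hx
  have y0 : y ≠ 0 := by rintro rfl; simp at hy
  have p0 : MvPolynomial.aeval M.s π ≠ 0 := by
    intro e; rw [e, hd.isOrd.1] at h1; exact zero_ne_one h1
  have e3 := congrArg (ord W) e
  rw [hd.ord_mul hu y0, hd.ord_mul (zpow_ne_zero _ p0) x0, hd.ord_zpow, h1,
    (hd.val_eq_one_iff x0).1 hx, (hd.val_eq_one_iff y0).1 hy] at e3
  simp only [add_zero, mul_one] at e3
  rw [hd.cl_mem_HO_iff hu, e3]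

/-- every root of the reduction of `π` carries a visible place -/
theorem deg_le_vis (h : LineData ℓ M q c μ w) {u : L} (hu : w.valuation u = 1)
    {π : MvPolynomial (Fin (d + 2)) l} {m : ℤ} {x y : (MvPolynomial (Fin (d + 2)) l)[X]}
    (hx : IntM2 μ x) (hy : IntM2 μ y) (hxy : IntM2 μ (x * y))
    (e : u * M.evl y = MvPolynomial.aeval M.s π ^ m * M.evl x) (hm : ¬ (ℓ : ℤ) ∣ m) {i : ℕ}
    (h1 : PairOK μ q c (π, M.Δ))
    (h2 : PairOK μ q c (π, (((x * y) ^ M.f.natDegree) %ₘ M.f).coeff i)) :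
    π.totalDegree ≤ (vis ℓ (resConst l w) (res w u)).ncard := by
  classical
  obtain ⟨p₀, hp₀⟩ := IntP.exists_lift (intP_lr h.line.qc h1.1)
  obtain ⟨f', ht, hfm, hirr, -, -, hroot, hev, -⟩ := h.exists_plane
  have hinj : Function.Injective μ.subtype := Subtype.val_injective
  have hevl : ∀ (r : μ[X]) (a : μ), (r.map μ.subtype).eval (a : l) = ((r.eval a : μ) : l) :=
    fun r a => eval_map_apply μ.subtype a
  set pb := p₀.map (redHom h) with hpb
  have hdeg : pb.natDegree = π.totalDegree := by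
    have e1 : p₀.natDegree = π.totalDegree := by
      rw [← natDegree_map_eq_of_injective hinj, hp₀]; exact h1.2.2.1
    rw [← e1]
    refine natDegree_map_of_leadingCoeff_ne_zero _ ?_
    rw [Ne, redHom_eq_zero]
    have e2 := h1.2.2.2.1
    dsimp only at e2
    rw [← hp₀, leadingCoeff_map_of_injective hinj] at e2
    exact fun e => e.ne e2
  have hsep : pb.Separable := by
    obtain ⟨-, -, r, s, hr, hs, e⟩ := h1.2.2.2.2.1
    obtain ⟨r, rfl⟩ := IntP.exists_lift hr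
    obtain ⟨s, rfl⟩ := IntP.exists_lift hs
    dsimp only at e
    rw [← hp₀, derivative_map, ← Polynomial.map_mul, ← Polynomial.map_mul, ← Polynomial.map_add,
      ← Polynomial.map_one μ.subtype] at e
    have := (separable_def' p₀).2 ⟨r, s, map_injective _ hinj e⟩
    exact this.map
  have key : ∀ b ∈ pb.roots.toFinset, ∃ z ∈ vis ℓ (resConst l w) (res w u),
      z.O.valuation (res w (M.s 0) - algebraMap (resConst l w) _ b) < 1 := by
    intro b hb
    obtain ⟨a, rfl⟩ := redHom_surj h b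
    have hr : μ.valuation ((lr q c π).eval (a : l)) < 1 := by
      have := isRoot_of_mem_roots (Multiset.mem_toFinset.1 hb)
      rw [hpb, IsRoot, eval_map_apply, redHom_eq_zero] at this
      rwa [← hp₀, hevl]
    have hc : ¬ μ.valuation (((((x * y).map (spec q c a)) ^ (M.f.map (spec q c a)).natDegree) %ₘ
        (M.f.map (spec q c a))).coeff i) < 1 := by
      rw [M.monic.natDegree_map, ← Polynomial.map_pow, ← map_modByMonic _ M.monic, coeff_map,
        spec_apply]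
      exact not_both h2.2.2.2.2.2 a.2 hr
    obtain ⟨t, htμ, ht1, ht2⟩ := exists_root_unit (M.monic.map _) (intP_spec h a.2 h.intf)
      (intP_spec h a.2 hxy) hc
    rw [eval_spec] at ht1
    obtain ⟨z, hz1, hz2⟩ := exists_place_at ht hfm hirr hroot
      (hev a t ((mem_w_iff h).2 a.2) ((mem_w_iff h).2 htμ) ht1)
    refine ⟨z, ?_, hz1⟩
    have hz : (comp w z.O).valuation (M.s 0 - algebraMap l L a) < 1 :=
      (comp_sub_lt z h (s0_mem h) a).2 hz1
    have hθ : (comp w z.O).valuation (M.θ - algebraMap l L t) < 1 :=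
      (comp_sub_lt z h (comp_le (theta_mem h a.2 hz)) ⟨t, htμ⟩).2 hz2
    have hΔ : ¬ (comp w z.O).valuation (MvPolynomial.aeval M.s M.Δ) < 1 := by
      rw [aeval_lt_iff h a.2 hz h.intΔ]
      exact not_both h1.2.2.2.2.2 a.2 hr
    have hunit := val_eq_one_of_not_lt (evl_mem' h a.2 hz hxy)
      (by rw [evl_lt_iff h a.2 hz htμ hθ hxy]; exact ht2)
    rw [map_mul] at hunit
    obtain ⟨ux, uy⟩ := val_eq_one_of_mul (evl_mem' h a.2 hz hx) (evl_mem' h a.2 hz hy) hunit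
    obtain ⟨o1, o2⟩ := ord_pi h a.2 hz hΔ h1.1 h1.2.2.2.2.1 ((aeval_lt_iff h a.2 hz h1.1).2 hr)
    exact (vis_iff h hu ux uy (h.line.red π h1.1).1 o1 o2 e).2 hm
  haveI := (infinite_place h.isCurve).nonempty
  choose! Z hZ1 hZ2 using key
  rw [← hdeg, ← IsAlgClosed.card_roots_eq_natDegree,
    ← Multiset.toFinset_card_of_nodup (nodup_roots hsep), ← Set.ncard_coe_finset]
  refine Set.ncard_le_ncard_of_injOn Z (fun b hb => hZ1 b hb) (fun b hb b' hb' e => ?_) ?_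
  · have e1 := hZ2 b hb
    have e2 := hZ2 b' hb'
    rw [← e] at e2
    exact val_unique (Z b).triv e1 e2
  · refine (finite_support h.isCurve (res_ne_zero hu)).subset fun z hz e => hz (cl_mem_HO e)

/-- the data attached to one prime -/
theorem exists_prime_data (M : Model l L (d + 2)) {u : L} (hu : u ≠ 0)
    {π : MvPolynomial (Fin (d + 2)) l} (hπ : Irreducible π) (hΔ : ¬ π ∣ M.Δ) :
    ∃ (𝔓 : Finset (MvPolynomial (Fin (d + 2)) l × MvPolynomial (Fin (d + 2)) l))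
      (ℑ : Finset (MvPolynomial (Fin (d + 2)) l)[X]), (π, M.Δ) ∈ 𝔓 ∧
      (∀ p ∈ 𝔓, Irreducible p.1 ∧ ¬ p.1 ∣ p.2) ∧
      ∀ q c μ w, LineData ℓ M q c μ w → (∀ p ∈ 𝔓, PairOK μ q c p) → (∀ A ∈ ℑ, IntM2 μ A) →
        w.valuation u = 1 →
        (∀ z ∈ vis ℓ (resConst l w) (res w u), z ∉ badSet M w →
          (comp w z.O).valuation (MvPolynomial.aeval M.s π) < 1 →
          ∃ W, M.IsDiv W π ∧ cl ℓ u ∉ HO ℓ W) ∧
        ∀ W, M.IsDiv W π → cl ℓ u ∉ HO ℓ W →
          π.totalDegree ≤ (vis ℓ (resConst l w) (res w u)).ncard := by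
  classical
  have r1 := fun W (hW : M.IsDiv W π) => hW.exists_repr hu
  choose! m x y hx hy e using r1
  have hxy : ∀ W, M.IsDiv W π → W.valuation (M.evl (x W * y W)) = 1 := fun W hW => by
    rw [map_mul, map_mul, hx W hW, hy W hW, one_mul]
  have r2 := fun W (hW : M.IsDiv W π) => hW.exists_coeff (hxy W hW) M.f.natDegree
  choose! i hi using r2
  set J := (M.finite_isDiv π).toFinset
  have hJ : ∀ W, W ∈ J ↔ M.IsDiv W π := fun W => Set.Finite.mem_toFinset _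
  obtain ⟨ρ, β, b, hρ, e2⟩ := M.exists_comb hπ hΔ J (fun W => x W * y W)
    fun W hW => ⟨W, (hJ W).2 hW, hxy W hW⟩
  refine ⟨insert (π, M.Δ) (insert (π, ρ)
      (J.image fun W => (π, (((x W * y W) ^ M.f.natDegree) %ₘ M.f).coeff (i W)))),
    insert β (J.image x ∪ J.image y ∪ J.image b ∪ J.image fun W => x W * y W),
    Finset.mem_insert_self _ _, ?_, ?_⟩
  · intro p hp
    simp only [Finset.mem_insert, Finset.mem_image] at hp
    rcases hp with rfl | rfl | ⟨W, hW, rfl⟩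
    exacts [⟨hπ, hΔ⟩, ⟨hπ, hρ⟩, ⟨hπ, hi W ((hJ W).1 hW)⟩]
  intro q c μ w h hP hI hw
  have p1 := hP (π, M.Δ) (by simp)
  have p2 := hP (π, ρ) (by simp)
  have ix : ∀ W ∈ J, IntM2 μ (x W) := fun W hW => hI _ (by
    simp only [Finset.mem_insert, Finset.mem_union]
    exact Or.inr (Or.inl (Or.inl (Or.inl (Finset.mem_image_of_mem _ hW)))))
  have iy : ∀ W ∈ J, IntM2 μ (y W) := fun W hW => hI _ (by
    simp only [Finset.mem_insert, Finset.mem_union]
    exact Or.inr (Or.inl (Or.inl (Or.inr (Finset.mem_image_of_mem _ hW)))))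
  have ib : ∀ W ∈ J, IntM2 μ (b W) := fun W hW => hI _ (by
    simp only [Finset.mem_insert, Finset.mem_union]
    exact Or.inr (Or.inl (Or.inr (Finset.mem_image_of_mem _ hW))))
  have ixy : ∀ W ∈ J, IntM2 μ (x W * y W) := fun W hW => hI _ (by
    simp only [Finset.mem_insert, Finset.mem_union]
    exact Or.inr (Or.inr (Finset.mem_image_of_mem (fun W => x W * y W) hW)))
  constructor
  · intro z hz hb h0
    obtain ⟨a, ha, hz1, hz2⟩ := not_bad h hb
    have hr := (aeval_lt_iff h ha hz1 p1.1).1 h0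
    have hρ' : ¬ (comp w z.O).valuation (MvPolynomial.aeval M.s ρ) < 1 := by
      rw [aeval_lt_iff h ha hz1 p2.2.1]
      exact not_both p2.2.2.2.2.2 ha hr
    have : ∃ W ∈ J, ¬ (comp w z.O).valuation (M.evl (x W * y W)) < 1 := by
      by_contra hcon
      push Not at hcon
      apply hρ'
      rw [e2]
      refine (comp w z.O).valuation.map_add_lt
        (val_mul_lt (evl_mem' h ha hz1 (hI β (by simp))) h0) ?_
      exact (comp w z.O).valuation.map_sum_lt one_ne_zero fun W hW =>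
        val_mul_lt (evl_mem' h ha hz1 (ib W hW)) (hcon W hW)
    obtain ⟨W, hW, hWu⟩ := this
    have hunit := val_eq_one_of_not_lt (evl_mem' h ha hz1 (ixy W hW)) hWu
    rw [map_mul] at hunit
    obtain ⟨ux, uy⟩ := val_eq_one_of_mul (evl_mem' h ha hz1 (ix W hW))
      (evl_mem' h ha hz1 (iy W hW)) hunit
    obtain ⟨o1, o2⟩ := ord_pi h ha hz1 hz2 p1.1 p1.2.2.2.2.1 h0
    have hW' := (hJ W).1 hW
    refine ⟨W, hW', ?_⟩
    rw [cl_mem_iff hW' hu (hx W hW') (hy W hW') (e W hW')]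
    exact (vis_iff h hw ux uy (h.line.red π p1.1).1 o1 o2 (e W hW')).1 hz
  · intro W hW hv
    have hW' := (hJ W).2 hW
    rw [cl_mem_iff hW hu (hx W hW) (hy W hW) (e W hW)] at hv
    exact deg_le_vis h hw (ix W hW') (iy W hW') (ixy W hW') (e W hW) hv p1
      (hP _ (Finset.mem_insert_of_mem (Finset.mem_insert_of_mem
        (Finset.mem_image_of_mem _ hW'))))

omit [IsAlgClosed l] in
theorem isDiv_of_associated {W : ValuationSubring L} {π π' : MvPolynomial (Fin (d + 2)) l}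
    (hW : M.IsDiv W π) (h : Associated π π') : M.IsDiv W π' :=
  ⟨h.irreducible hW.1, fun e => hW.2.1 (h.dvd.trans e),
    fun g => ⟨(hW.2.2 g).1, (hW.2.2 g).2.trans h.dvd_iff_dvd_left⟩⟩

theorem unit_of_eq {O : ValuationSubring L} {u a a' n b : L} (ha : a ∈ O) (ha' : a' ∈ O)
    (hn : n ∈ O) (hb : b ∈ O) (e1 : u * b = a) (e2 : a * a' = n) (h : O.valuation (n * b) = 1) :
    O.valuation u = 1 := by
  obtain ⟨h1, h2⟩ := val_eq_one_of_mul hn hb h
  rw [← e2] at h1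
  have h3 := (val_eq_one_of_mul ha ha' h1).1
  rwa [← e1, map_mul, h2, mul_one] at h3

theorem exists_vanish (h : LineData ℓ M q c μ w) {z : Place (resConst l w) (ResidueField w)}
    (hb : z ∉ badSet M w) {u : L} (hz : z ∈ vis ℓ (resConst l w) (res w u))
    {A A' : (MvPolynomial (Fin (d + 2)) l)[X]} {N b₀ ε ε' : MvPolynomial (Fin (d + 2)) l}
    (iA : IntM2 μ A) (iA' : IntM2 μ A') (iN : IntM μ N) (ib : IntM μ b₀) (iε : IntM μ ε)
    (iε' : IntM μ ε') (hεε : ε * ε' = 1) (e1 : u * MvPolynomial.aeval M.s b₀ = M.evl A)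
    (e2 : M.evl A * M.evl A' = MvPolynomial.aeval M.s N)
    {F : Multiset (MvPolynomial (Fin (d + 2)) l)} (hε : F.prod * ε = N * b₀)
    (iF : ∀ π ∈ F, IntM μ π) (iC : ∀ π ∈ F, π ∣ M.Δ → ∃ ρ, IntM μ ρ ∧ M.Δ = π * ρ) :
    ∃ π ∈ F, ¬ π ∣ M.Δ ∧ (comp w z.O).valuation (MvPolynomial.aeval M.s π) < 1 := by
  obtain ⟨a, ha, hz1, hz2⟩ := not_bad h hb
  have hΔ := val_eq_one_of_not_lt (aeval_mem h ha hz1 h.intΔ) hz2
  by_contra hcon
  push Not at hcon
  have hall : ∀ π ∈ F, (comp w z.O).valuation (MvPolynomial.aeval M.s π) = 1 := by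
    intro π hπ
    by_cases hd : π ∣ M.Δ
    · obtain ⟨ρ, iρ, e⟩ := iC π hπ hd
      rw [e, map_mul] at hΔ
      exact (val_eq_one_of_mul (aeval_mem h ha hz1 (iF π hπ)) (aeval_mem h ha hz1 iρ) hΔ).1
    · exact val_eq_one_of_not_lt (aeval_mem h ha hz1 (iF π hπ)) (not_lt.2 (hcon π hπ hd))
  have hε1 : (comp w z.O).valuation (MvPolynomial.aeval M.s ε) = 1 :=
    (val_eq_one_of_mul (aeval_mem h ha hz1 iε) (aeval_mem h ha hz1 iε')
      (by rw [← map_mul, hεε, map_one, map_one])).1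
  have hGu : (comp w z.O).valuation (MvPolynomial.aeval M.s N *
      MvPolynomial.aeval M.s b₀) = 1 := by
    rw [← map_mul, ← hε, map_mul, map_mul, hε1, mul_one, map_multiset_prod,
      map_multiset_prod, Multiset.map_map]
    refine Multiset.prod_eq_one fun v hv => ?_
    obtain ⟨π, hπ, rfl⟩ := Multiset.mem_map.1 hv
    exact hall π hπ
  have := unit_of_eq (evl_mem' h ha hz1 iA) (evl_mem' h ha hz1 iA')
    (aeval_mem h ha hz1 iN) (aeval_mem h ha hz1 ib) e1 e2 hGu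
  exact hz (cl_mem_HO (comp_val_eq_one.1 this).2)

omit [IsAlgClosed l] in
theorem exists_factor {W : ValuationSubring L} {π : MvPolynomial (Fin (d + 2)) l}
    (hW : M.IsDiv W π) {u : L} (hv : cl ℓ u ∉ HO ℓ W) {A A' : (MvPolynomial (Fin (d + 2)) l)[X]}
    {N b₀ : MvPolynomial (Fin (d + 2)) l} (hG : N * b₀ ≠ 0)
    (e1 : u * MvPolynomial.aeval M.s b₀ = M.evl A)
    (e2 : M.evl A * M.evl A' = MvPolynomial.aeval M.s N) :
    ∃ π' ∈ UniqueFactorizationMonoid.factors (N * b₀), M.IsDiv W π' ∧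
      π.totalDegree ≤ π'.totalDegree := by
  have hd : π ∣ N * b₀ := by
    by_contra hd
    apply hv
    refine cl_mem_HO (unit_of_eq (hW.evl_mem A) (hW.evl_mem A') (hW.2.2 N).1 (hW.2.2 b₀).1
      e1 e2 ?_)
    rw [← map_mul]
    exact val_eq_one_of_not_lt (hW.2.2 _).1 fun e => hd ((hW.2.2 _).2.1 e)
  obtain ⟨π', hπ', hass⟩ := UniqueFactorizationMonoid.exists_mem_factors_of_dvd hG hW.1 hd
  have hW' := isDiv_of_associated hW hass
  exact ⟨π', hπ', hW', MvPolynomial.totalDegree_le_of_dvd_of_isDomain hass.dvd hW'.1.ne_zero⟩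

theorem ncard_diff_le (h : LineData ℓ M q c μ w) {u : L}
    (Vis : Finset (MvPolynomial (Fin (d + 2)) l))
    (hV : ∀ π ∈ Vis, IntM μ π ∧ UnitP μ (lr q c π))
    (hz : ∀ z ∈ vis ℓ (resConst l w) (res w u), z ∉ badSet M w →
      ∃ π ∈ Vis, (comp w z.O).valuation (MvPolynomial.aeval M.s π) < 1) :
    (vis ℓ (resConst l w) (res w u) \ badSet M w).ncard ≤
      ∑ π ∈ Vis, M.f.natDegree * π.totalDegree := by
  have hsub : vis ℓ (resConst l w) (res w u) \ badSet M w ⊆ ⋃ π ∈ Vis,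
      {z : Place (resConst l w) (ResidueField w) | res w (M.s 0) ∈ z.O ∧
        z.O.valuation (res w (MvPolynomial.aeval M.s π)) < 1} := by
    rintro z ⟨h1, hb⟩
    obtain ⟨π, hπ, h0⟩ := hz z h1 hb
    simp only [badSet, Set.mem_setOf_eq, not_or, not_not] at hb
    exact Set.mem_iUnion₂.2 ⟨π, hπ, hb.1, (comp_val_lt_one.1 h0).2⟩
  have hZ := fun π (hπ : π ∈ Vis) => ncard_zeros h (hV π hπ).1 (hV π hπ).2
  have hfin := Vis.finite_toSet.biUnion fun π hπ => (hZ π hπ).1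
  refine (Set.ncard_le_ncard hsub hfin).trans ?_
  exact (Finset.set_ncard_biUnion_le _ _).trans (Finset.sum_le_sum fun π hπ => (hZ π hπ).2)

end GVbAux

open GVbAux

theorem LineData.ncard_badSet {M : Model l L (d + 2)} {q c : Fin (d + 2) → l}
    {μ : ValuationSubring l} {w : ValuationSubring L} (h : LineData ℓ M q c μ w) :
    (badSet M w).Finite ∧ (badSet M w).ncard ≤ M.f.natDegree * (M.Δ.totalDegree + 1) := by
  obtain ⟨f', ht, -⟩ := h.exists_plane
  obtain ⟨a1, a2⟩ := ncard_poles h.isCurve ht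
  obtain ⟨b1, b2⟩ := ncard_zeros h h.intΔ h.unitΔ
  have hsub : badSet M w ⊆ {z | res w (M.s 0) ∉ z.O} ∪ {z | res w (M.s 0) ∈ z.O ∧
      z.O.valuation (res w (MvPolynomial.aeval M.s M.Δ)) < 1} := by
    intro z hz
    by_cases hs : res w (M.s 0) ∈ z.O
    · exact Or.inr ⟨hs, hz.resolve_left (not_not.2 hs)⟩
    · exact Or.inl hs
  refine ⟨(a1.union b1).subset hsub, (Set.ncard_le_ncard hsub (a1.union b1)).trans ?_⟩
  refine (Set.ncard_union_le _ _).trans ?_
  have := h.finrank_le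
  rw [mul_add, mul_one]
  omega

/-- visible points of the reduction of `u` -/
theorem exists_vis_data (M : Model l L (d + 2)) {u : L} (hu : u ≠ 0) :
    ∃ (B : ℕ) (𝔓 : Finset (MvPolynomial (Fin (d + 2)) l × MvPolynomial (Fin (d + 2)) l))
      (𝔊 : Finset (MvPolynomial (Fin (d + 2)) l)) (ℑ : Finset (MvPolynomial (Fin (d + 2)) l)[X]),
      ((∀ W π, M.IsDiv W π → cl ℓ u ∈ HO ℓ W) → B = 0) ∧
      (∀ p ∈ 𝔓, Irreducible p.1 ∧ ¬ p.1 ∣ p.2) ∧ (∀ g ∈ 𝔊, g ≠ 0) ∧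
      ∀ q c μ w, LineData ℓ M q c μ w → (∀ p ∈ 𝔓, PairOK μ q c p) →
        (∀ g ∈ 𝔊, IntM μ g ∧ UnitP μ (lr q c g)) → (∀ A ∈ ℑ, IntM2 μ A) →
        w.valuation u = 1 ∧ (vis ℓ (resConst l w) (res w u) \ badSet M w).ncard ≤ B ∧
        ∀ W π, M.IsDiv W π → cl ℓ u ∉ HO ℓ W →
          π.totalDegree ≤ (vis ℓ (resConst l w) (res w u)).ncard := by
  classical
  obtain ⟨A, b₀, hb₀, e1⟩ := M.gen u
  change u * _ = M.evl A at e1
  have hb₀' : MvPolynomial.aeval M.s b₀ ≠ 0 := fun e => hb₀ (M.indep (by simpa using e))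
  obtain ⟨A', N, hN, e2⟩ := M.exists_norm (P := A) (e1 ▸ mul_ne_zero hu hb₀')
  have hG : N * b₀ ≠ 0 := mul_ne_zero hN hb₀
  obtain ⟨ε, hε⟩ := UniqueFactorizationMonoid.factors_prod hG
  obtain ⟨Fs, mFs⟩ : ∃ Fs : Finset (MvPolynomial (Fin (d + 2)) l),
      ∀ π, π ∈ Fs ↔ π ∈ UniqueFactorizationMonoid.factors (N * b₀) :=
    ⟨_, fun π => Multiset.mem_toFinset⟩
  obtain ⟨Pi, mPi⟩ : ∃ Pi : Finset (MvPolynomial (Fin (d + 2)) l),
      ∀ π, π ∈ Pi ↔ π ∈ Fs ∧ ¬ π ∣ M.Δ := ⟨_, fun π => Finset.mem_filter⟩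
  have r1 := fun π (hπ : π ∈ Pi) => exists_prime_data (ℓ := ℓ) M hu
    (UniqueFactorizationMonoid.irreducible_of_factor π ((mFs π).1 ((mPi π).1 hπ).1))
    ((mPi π).1 hπ).2
  choose! 𝔓 ℑ h1 h2 h3 using r1
  have r2 : ∀ π : MvPolynomial (Fin (d + 2)) l, ∃ ρ, π ∣ M.Δ → M.Δ = π * ρ := fun π => by
    by_cases h : π ∣ M.Δ
    · obtain ⟨ρ, e⟩ := h
      exact ⟨ρ, fun _ => e⟩
    · exact ⟨0, fun e => absurd e h⟩
  choose cof hcof using r2
  obtain ⟨Vis, mVis⟩ : ∃ Vis : Finset (MvPolynomial (Fin (d + 2)) l),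
      ∀ π, π ∈ Vis ↔ π ∈ Pi ∧ ∃ W, M.IsDiv W π ∧ cl ℓ u ∉ HO ℓ W :=
    ⟨_, fun π => Finset.mem_filter⟩
  obtain ⟨PP, mPP⟩ : ∃ PP : Finset (MvPolynomial (Fin (d + 2)) l × MvPolynomial (Fin (d + 2)) l),
      ∀ p, p ∈ PP ↔ ∃ π ∈ Pi, p ∈ 𝔓 π := ⟨_, fun p => Finset.mem_biUnion⟩
  obtain ⟨II, i1, i2, i3, i4, i5, i6, i7⟩ : ∃ II : Finset (MvPolynomial (Fin (d + 2)) l)[X],
      A ∈ II ∧ A' ∈ II ∧ C (ε : MvPolynomial (Fin (d + 2)) l) ∈ II ∧
      C ((ε⁻¹ : (MvPolynomial (Fin (d + 2)) l)ˣ) : MvPolynomial (Fin (d + 2)) l) ∈ II ∧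
      (∀ π ∈ Fs, C π ∈ II) ∧ (∀ π ∈ Fs, C (cof π) ∈ II) ∧ ∀ π ∈ Pi, ∀ B ∈ ℑ π, B ∈ II := by
    refine ⟨insert A (insert A' (insert (C (ε : MvPolynomial (Fin (d + 2)) l)) (insert
      (C ((ε⁻¹ : (MvPolynomial (Fin (d + 2)) l)ˣ) : MvPolynomial (Fin (d + 2)) l))
      (Fs.image C ∪ (Fs.image (fun π => C (cof π)) ∪ Pi.biUnion ℑ))))),
      Finset.mem_insert_self _ _, Finset.mem_insert_of_mem (Finset.mem_insert_self _ _),
      Finset.mem_insert_of_mem (Finset.mem_insert_of_mem (Finset.mem_insert_self _ _)),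
      Finset.mem_insert_of_mem (Finset.mem_insert_of_mem (Finset.mem_insert_of_mem
        (Finset.mem_insert_self _ _))), fun π hπ => ?_, fun π hπ => ?_, fun π hπ B hB => ?_⟩ <;>
    refine Finset.mem_insert_of_mem (Finset.mem_insert_of_mem (Finset.mem_insert_of_mem
      (Finset.mem_insert_of_mem ?_)))
    · exact Finset.mem_union_left _ (Finset.mem_image_of_mem _ hπ)
    · exact Finset.mem_union_right _ (Finset.mem_union_left _
        (Finset.mem_image_of_mem (fun π => C (cof π)) hπ))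
    · exact Finset.mem_union_right _ (Finset.mem_union_right _
        (Finset.mem_biUnion.2 ⟨π, hπ, hB⟩))
  refine ⟨∑ π ∈ Vis, M.f.natDegree * π.totalDegree, PP, {N, b₀}, II,
    fun hv => ?_, fun p hp => ?_, fun g hg => ?_, ?_⟩
  · refine Finset.sum_eq_zero fun π hπ => ?_
    obtain ⟨-, W, hW, hc⟩ := (mVis π).1 hπ
    exact absurd (hv W π hW) hc
  · obtain ⟨π, hπ, hp⟩ := (mPP p).1 hp
    exact h2 π hπ p hp
  · rcases Finset.mem_insert.1 hg with rfl | hg
    · exact hN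
    · rw [Finset.mem_singleton.1 hg]; exact hb₀
  intro q c μ w h hP hg hI
  have iA := hI _ i1
  have iA' := hI _ i2
  obtain ⟨iN, uN⟩ := hg N (Finset.mem_insert_self _ _)
  obtain ⟨ib, ub⟩ := hg b₀ (Finset.mem_insert_of_mem (Finset.mem_singleton_self _))
  have hw : w.valuation u = 1 :=
    unit_of_eq (h.evl_mem iA) (h.evl_mem iA') (h.line.red N iN).1 (h.line.red b₀ ib).1 e1 e2
      (by rw [map_mul, h.val_eq_one iN uN, h.val_eq_one ib ub, one_mul])
  have h4 := fun π (hπ : π ∈ Pi) => h3 π hπ q c μ w h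
    (fun p hp => hP p ((mPP p).2 ⟨π, hπ, hp⟩)) (fun B hB => hI B (i7 π hπ B hB)) hw
  refine ⟨hw, ?_, fun W π hW hv => ?_⟩
  · refine ncard_diff_le h Vis (fun π hπ => ?_) fun z hz hb => ?_
    · have hπ' := ((mVis π).1 hπ).1
      have := hP (π, M.Δ) ((mPP _).2 ⟨π, hπ', h1 π hπ'⟩)
      have h5 := PairOK.unitP this
      exact ⟨this.1, h5⟩
    · obtain ⟨π, hπF, hd, h0⟩ := exists_vanish h hb hz iA iA' iN ib (intM_of_C (hI _ i3))
        (intM_of_C (hI _ i4)) ε.mul_inv e1 e2 hε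
        (fun π hπ => intM_of_C (hI _ (i5 π ((mFs π).2 hπ))))
        fun π hπ hd => ⟨cof π, intM_of_C (hI _ (i6 π ((mFs π).2 hπ))), hcof π hd⟩
      have hπ : π ∈ Pi := (mPi π).2 ⟨(mFs π).2 hπF, hd⟩
      exact ⟨π, (mVis π).2 ⟨hπ, (h4 π hπ).1 z hz hb h0⟩, h0⟩
  · obtain ⟨π', hπ', hW', hle⟩ := exists_factor hW hv hG e1 e2
    have hPi : π' ∈ Pi := (mPi π').2 ⟨(mFs π').2 hπ', hW'.2.1⟩
    exact hle.trans ((h4 π' hPi).2 W hW' hv)

end Vale.Agent.P019
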