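import Vale.Agent.P019.MODEL
import Vale.Agent.P019.UR
import Vale.Agent.P019.AI
import Vale.Agent.P019.AP1

/-! P019: divisors of a model. -/

open IntermediateField

namespace Vale.Agent.P019

variable {l L : Type*} [Field l] [Field L] [Algebra l L] {d : ℕ} {M : Model l L d}
  {W : ValuationSubring L} {π : MvPolynomial (Fin d) l}

namespace MDAux

theorem evl_C (g : MvPolynomial (Fin d) l) :
    M.evl (Polynomial.C g) = MvPolynomial.aeval M.s g := by simp [Model.evl]

theorem evl_X : M.evl Polynomial.X = M.θ := by simp [Model.evl]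

theorem evl_f : M.evl M.f = 0 := M.root

theorem aeval_ne {g : MvPolynomial (Fin d) l} (hg : g ≠ 0) : MvPolynomial.aeval M.s g ≠ 0 :=
  fun h => hg (M.indep (h.trans (map_zero _).symm))

theorem evl_mem_of (S : Subring L)
    (h : ∀ g : MvPolynomial (Fin d) l, MvPolynomial.aeval M.s g ∈ S) (hθ : M.θ ∈ S)
    (A : Polynomial (MvPolynomial (Fin d) l)) : M.evl A ∈ S := by
  induction A using Polynomial.induction_on' with
  | add p q hp hq => rw [map_add]; exact add_mem hp hq
  | monomial n a =>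
    rw [← Polynomial.C_mul_X_pow_eq_monomial, map_mul, map_pow, evl_C, evl_X]
    exact mul_mem (h a) (pow_mem hθ n)

theorem aeval_mem_of (S : Subring L) (hc : ∀ c, algebraMap l L c ∈ S) (hs : ∀ i, M.s i ∈ S)
    (g : MvPolynomial (Fin d) l) : MvPolynomial.aeval M.s g ∈ S := by
  induction g using MvPolynomial.induction_on with
  | C a => simpa using hc a
  | add p q hp hq => rw [map_add]; exact add_mem hp hq
  | mul_X p i hp => rw [map_mul, MvPolynomial.aeval_X]; exact mul_mem hp (hs i)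

theorem val_one (h : M.IsDiv W π) {g : MvPolynomial (Fin d) l} (hg : ¬ π ∣ g) :
    W.valuation (MvPolynomial.aeval M.s g) = 1 :=
  le_antisymm ((W.valuation_le_one_iff _).2 (h.2.2 g).1) (not_lt.1 fun h1 => hg ((h.2.2 g).2.1 h1))

theorem val_pi (h : M.IsDiv W π) : W.valuation (MvPolynomial.aeval M.s π) < 1 :=
  (h.2.2 π).2.2 dvd_rfl

theorem pi_ne (h : M.IsDiv W π) : MvPolynomial.aeval M.s π ≠ 0 := aeval_ne h.1.ne_zero

theorem val_of_mul {x y : L} (hx : x ∈ W) (hy : y ∈ W) (h : W.valuation (x * y) = 1) :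
    W.valuation x = 1 := by
  rw [map_mul] at h
  refine le_antisymm ((W.valuation_le_one_iff _).2 hx) ?_
  calc 1 = W.valuation x * W.valuation y := h.symm
    _ ≤ W.valuation x * 1 := mul_le_mul_right ((W.valuation_le_one_iff _).2 hy) _
    _ = _ := mul_one _

theorem nonneg_of_zpow_le {Γ : Type*} [LinearOrderedCommGroupWithZero Γ] {a : Γ} (h0 : a ≠ 0)
    (h1 : a < 1) {m : ℤ} (h : a ^ m ≤ 1) : 0 ≤ m := by
  by_contra hm
  exact absurd h (not_le.2 (one_lt_zpow_of_neg₀ (zero_lt_iff.2 h0) h1 (not_le.1 hm)))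

/-- nonzero elements of `l(s)` -/
theorem exists_frac (M : Model l L d) (hπ : Irreducible π) {x : L}
    (hx : x ∈ adjoin l (Set.range M.s)) (h0 : x ≠ 0) :
    ∃ (m : ℤ) (p q : MvPolynomial (Fin d) l), ¬ π ∣ p ∧ ¬ π ∣ q ∧
      x * MvPolynomial.aeval M.s q = MvPolynomial.aeval M.s π ^ m * MvPolynomial.aeval M.s p := by
  obtain ⟨r, t, rfl⟩ := (mem_adjoin_range_iff l _ x).1 hx
  have hr : r ≠ 0 := by rintro rfl; simp at h0
  have ht : t ≠ 0 := by rintro rfl; simp at h0
  obtain ⟨m, p, hp, rfl⟩ := WfDvdMonoid.max_power_factor hr hπ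
  obtain ⟨n, q, hq, rfl⟩ := WfDvdMonoid.max_power_factor ht hπ
  refine ⟨m - n, p, q, hp, hq, ?_⟩
  have h1 : MvPolynomial.aeval M.s π ≠ 0 := aeval_ne hπ.ne_zero
  have h2 : MvPolynomial.aeval M.s q ≠ 0 := aeval_ne (right_ne_zero_of_mul ht)
  rw [zpow_sub₀ h1, zpow_natCast, zpow_natCast, map_mul, map_mul, map_pow, map_pow]
  field_simp

theorem val_frac (h : M.IsDiv W π) {x : L} {m : ℤ} {p q : MvPolynomial (Fin d) l} (hp : ¬ π ∣ p)
    (hq : ¬ π ∣ q)
    (he : x * MvPolynomial.aeval M.s q = MvPolynomial.aeval M.s π ^ m * MvPolynomial.aeval M.s p) :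
    W.valuation x = W.valuation (MvPolynomial.aeval M.s π) ^ m := by
  have := congrArg W.valuation he
  rwa [map_mul, map_mul, val_one h hp, val_one h hq, mul_one, mul_one, map_zpow₀] at this

/-- the localization of `l[s][θ]` at `π` -/
def locS (M : Model l L d) (hπ : Irreducible π) : Subring L where
  carrier := {y | ∃ (a : Polynomial (MvPolynomial (Fin d) l)) (c : MvPolynomial (Fin d) l),
    ¬ π ∣ c ∧ y * MvPolynomial.aeval M.s c = M.evl a}
  mul_mem' := by
    rintro x y ⟨a, c, hc, ha⟩ ⟨b, e, he, hb⟩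
    refine ⟨a * b, c * e, hπ.prime.not_dvd_mul hc he, ?_⟩
    rw [map_mul, map_mul, ← ha, ← hb]; ring
  one_mem' := ⟨1, 1, hπ.not_dvd_one, by simp⟩
  add_mem' := by
    rintro x y ⟨a, c, hc, ha⟩ ⟨b, e, he, hb⟩
    refine ⟨a * Polynomial.C e + b * Polynomial.C c, c * e, hπ.prime.not_dvd_mul hc he, ?_⟩
    rw [map_mul, map_add, map_mul, map_mul, ← ha, ← hb, evl_C, evl_C]; ring
  zero_mem' := ⟨0, 1, hπ.not_dvd_one, by simp⟩
  neg_mem' := by
    rintro x ⟨a, c, hc, ha⟩
    exact ⟨-a, c, hc, by rw [map_neg, ← ha, neg_mul]⟩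

theorem evl_mem_locS (hπ : Irreducible π) (a : Polynomial (MvPolynomial (Fin d) l)) :
    M.evl a ∈ locS M hπ := ⟨a, 1, hπ.not_dvd_one, by simp⟩

theorem mem_locS (h : M.IsDiv W π) {x : L} (hx : x ∈ adjoin l (Set.range M.s)) (hW : x ∈ W) :
    x ∈ locS M h.1 := by
  by_cases h0 : x = 0
  · rw [h0]; exact zero_mem _
  obtain ⟨m, p, q, hp, hq, he⟩ := exists_frac M h.1 hx h0
  have h1 := (W.valuation_le_one_iff _).2 hW
  rw [val_frac h hp hq he] at h1
  obtain ⟨n, rfl⟩ := Int.eq_ofNat_of_zero_le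
    (nonneg_of_zpow_le (by simpa using pi_ne h) (val_pi h) h1)
  exact ⟨Polynomial.C (π ^ n * p), q, hq, by rw [he, evl_C, map_mul, map_pow, zpow_natCast]⟩

theorem exists_var (hπ : Irreducible π) (hd : 2 ≤ d) :
    ∃ i, ∀ a : l, ¬ π ∣ MvPolynomial.X i - MvPolynomial.C a := by
  have key : ∀ (i j : Fin d) (a : l), j ≠ i → π ∣ MvPolynomial.X i - MvPolynomial.C a →
      π.degreeOf j = 0 := by
    rintro i j a hji ⟨q, hq⟩
    have h0 : π * q ≠ 0 := by
      rw [← hq]
      intro h1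
      have := congrArg (MvPolynomial.eval fun _ => a + 1) h1
      simp at this
    have h1 := MvPolynomial.degreeOf_sub_le j (MvPolynomial.X i : MvPolynomial (Fin d) l)
      (MvPolynomial.C a)
    rw [hq, MvPolynomial.degreeOf_mul_eq (left_ne_zero_of_mul h0) (right_ne_zero_of_mul h0),
      MvPolynomial.degreeOf_X_of_ne hji, MvPolynomial.degreeOf_C] at h1
    omega
  by_contra hc
  push Not at hc
  have h1 : π.vars = ∅ := Finset.eq_empty_of_forall_notMem fun j hj => by
    have : Nontrivial (Fin d) := Fin.nontrivial_iff_two_le.2 hd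
    obtain ⟨i, hi⟩ := exists_ne j
    obtain ⟨a, ha⟩ := hc i
    exact MvPolynomial.mem_vars_iff_degreeOf_ne_zero.1 hj (key i j a hi.symm ha)
  rw [MvPolynomial.vars_eq_empty_iff_eq_C] at h1
  refine hπ.not_isUnit ?_
  rw [h1]
  refine IsUnit.map _ (IsUnit.mk0 _ fun h2 => hπ.ne_zero ?_)
  rw [h1, h2, map_zero]

end MDAux

open MDAux

theorem Model.IsDiv.evl_mem (h : M.IsDiv W π) (A : Polynomial (MvPolynomial (Fin d) l)) :
    M.evl A ∈ W := by
  refine evl_mem_of W.toSubring (fun g => (h.2.2 g).1) ?_ A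
  refine mem_of_root (M.monic.map
    (MvPolynomial.aeval M.s : MvPolynomial (Fin d) l →ₐ[l] L).toRingHom) (fun i => ?_) ?_
  · rw [Polynomial.coeff_map]; exact (h.2.2 _).1
  · rw [Polynomial.eval_map]; exact M.root

/-- `exists_unit_repr` over `l(s)`; clear denominators prime to `π` -/
theorem Model.IsDiv.exists_repr (h : M.IsDiv W π) {u : L} (hu : u ≠ 0) :
    ∃ (m : ℤ) (a b : Polynomial (MvPolynomial (Fin d) l)), W.valuation (M.evl a) = 1 ∧
      W.valuation (M.evl b) = 1 ∧ u * M.evl b = MvPolynomial.aeval M.s π ^ m * M.evl a := by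
  have hmem : ∀ g, MvPolynomial.aeval M.s g ∈ adjoin l (Set.range M.s) := fun g =>
    (mem_adjoin_range_iff l _ _).2 ⟨g, 1, by simp⟩
  obtain ⟨n, P, Q, hP, hQ, hP1, hQ1, he⟩ := exists_unit_repr W
    (adjoin l (Set.range M.s)).toSubfield (hmem π) (pi_ne h) (val_pi h)
    (fun x hx h0 => by
      obtain ⟨m, p, q, hp, hq, he⟩ := exists_frac M h.1 hx h0
      exact ⟨m, val_frac h hp hq he⟩)
    (M.monic.map (MvPolynomial.aeval M.s : MvPolynomial (Fin d) l →ₐ[l] L).toRingHom)
    (fun i => by rw [Polynomial.coeff_map]; exact ⟨hmem _, (h.2.2 _).1⟩)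
    (θ := M.θ) (by rw [Polynomial.eval_map]; exact M.root)
    (by
      obtain ⟨a, b, hab⟩ := M.bezout
      have h1 := congrArg M.evl hab
      rw [evl_C, map_add, map_mul, map_mul, evl_f, mul_zero, zero_add, mul_comm] at h1
      rw [Polynomial.derivative_map, Polynomial.eval_map]
      exact val_of_mul (h.evl_mem _) (h.evl_mem _) (h1 ▸ val_one h h.2.1))
    (x := u) (by rw [M.closure_eq_top]; trivial) hu
  have key : ∀ P : Polynomial L,
      (∀ i, P.coeff i ∈ (adjoin l (Set.range M.s)).toSubfield ∧ P.coeff i ∈ W) →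
        P.eval M.θ ∈ locS M h.1 := fun P hP => by
    rw [Polynomial.eval_eq_sum_range]
    exact sum_mem fun i _ => mul_mem (mem_locS h (hP i).1 (hP i).2)
      (pow_mem (evl_X (M := M) ▸ evl_mem_locS h.1 _) _)
  obtain ⟨a, c, hc, ha⟩ := key P hP
  obtain ⟨b, e, he', hb⟩ := key Q hQ
  have hQ0 : Q.eval M.θ ≠ 0 := by rintro h0; simp [h0] at hQ1
  refine ⟨n, a * Polynomial.C e, b * Polynomial.C c, ?_, ?_, ?_⟩
  · simp only [map_mul, ← ha, evl_C, hP1, val_one h hc, val_one h he', mul_one]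
  · simp only [map_mul, ← hb, evl_C, hQ1, val_one h hc, val_one h he', mul_one]
  · rw [map_mul, map_mul, ← ha, ← hb, evl_C, evl_C, he]
    field_simp

theorem Model.IsDiv.isDVR (h : M.IsDiv W π) :
    IsDVR W ∧ ord W (MvPolynomial.aeval M.s π) = 1 := by
  refine isDVR_of_cyclic (pi_ne h) (val_pi h) fun x hx => ?_
  obtain ⟨m, a, b, ha, hb, he⟩ := h.exists_repr hx
  have := congrArg W.valuation he
  rw [map_mul, map_mul, ha, hb, mul_one, mul_one, map_zpow₀] at this
  exact ⟨m, this⟩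

theorem Model.IsDiv.exists_res_repr (h : M.IsDiv W π) {x : L} (hx : x ∈ W) :
    ∃ a b : Polynomial (MvPolynomial (Fin d) l), W.valuation (M.evl b) = 1 ∧
      x * M.evl b = M.evl a := by
  by_cases h0 : x = 0
  · exact ⟨0, 1, by simp, by simp [h0]⟩
  obtain ⟨m, a, b, ha, hb, he⟩ := h.exists_repr h0
  have h1 := congrArg W.valuation he
  rw [map_mul, map_mul, ha, hb, mul_one, mul_one, map_zpow₀] at h1
  obtain ⟨n, rfl⟩ := Int.eq_ofNat_of_zero_le (nonneg_of_zpow_le (by simpa using pi_ne h)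
    (val_pi h) (h1 ▸ (W.valuation_le_one_iff _).2 hx))
  exact ⟨Polynomial.C (π ^ n) * a, b, hb, by rw [he, map_mul, evl_C, map_pow, zpow_natCast]⟩

/-- some variable occurs in `π`, any other variable is residually nonconstant; the residue field is
generated by the residues of `s`, `θ` -/
theorem Model.IsDiv.isPDiv (h : M.IsDiv W π) (hd : 2 ≤ d) : IsPDiv l W := by
  have htr : Triv l W := fun a => by simpa using (h.2.2 (MvPolynomial.C a)).1
  have hs : ∀ i, M.s i ∈ W := fun i => by simpa using (h.2.2 (MvPolynomial.X i)).1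
  have hθ : M.θ ∈ W := evl_X (M := M) ▸ h.evl_mem _
  refine ⟨h.isDVR.1, htr, ?_, ?_⟩
  · obtain ⟨i, hi⟩ := exists_var h.1 hd
    refine ⟨M.s i, hs i, fun a ha => hi a ((h.2.2 _).2.1 ?_)⟩
    simpa using ha
  · classical
    rw [← fg_top_iff]
    refine ⟨insert (res W M.θ) (Finset.univ.image fun i => res W (M.s i)), ?_⟩
    set T := adjoin (resConst l W) ((insert (res W M.θ) (Finset.univ.image fun i => res W (M.s i)) :
      Finset _) : Set (IsLocalRing.ResidueField W))
    let S : Subring L :=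
      { carrier := {y | y ∈ W ∧ res W y ∈ T}
        mul_mem' := fun hx hy => ⟨W.mul_mem _ _ hx.1 hy.1, by
          rw [res_mul hx.1 hy.1]; exact mul_mem hx.2 hy.2⟩
        one_mem' := ⟨W.one_mem, by rw [res_one]; exact one_mem _⟩
        add_mem' := fun hx hy => ⟨W.add_mem _ _ hx.1 hy.1, by
          rw [res_add hx.1 hy.1]; exact add_mem hx.2 hy.2⟩
        zero_mem' := ⟨W.zero_mem, by rw [res_zero]; exact zero_mem _⟩
        neg_mem' := fun hx => ⟨W.neg_mem _ hx.1, by rw [res_neg hx.1]; exact neg_mem hx.2⟩ }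
    have key := evl_mem_of (M := M) S (aeval_mem_of S
      (fun c => ⟨htr c, T.algebraMap_mem ⟨_, c, htr c, rfl⟩⟩)
      fun i => ⟨hs i, subset_adjoin _ _ (by simp)⟩) ⟨hθ, subset_adjoin _ _ (by simp)⟩
    refine eq_top_iff.2 fun r _ => ?_
    obtain ⟨x, hx, rfl⟩ := res_surj r
    obtain ⟨a, b, hb, he⟩ := h.exists_res_repr hx
    have h1 := res_mul hx (h.evl_mem b)
    rw [he] at h1
    rw [eq_div_of_mul_eq (res_ne_zero hb) h1.symm]
    exact div_mem (key a).2 (key b).2

theorem Model.IsDiv.mul_unit (h : M.IsDiv W π) {c : l} (hc : c ≠ 0) :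
    M.IsDiv W (MvPolynomial.C c * π) := by
  have hu : IsUnit (MvPolynomial.C c : MvPolynomial (Fin d) l) := (IsUnit.mk0 c hc).map _
  exact ⟨(irreducible_isUnit_mul hu).2 h.1, by rw [hu.mul_left_dvd]; exact h.2.1, fun g => by
    rw [hu.mul_left_dvd]; exact h.2.2 g⟩

theorem Model.IsDiv.associated (h : M.IsDiv W π) {π' : MvPolynomial (Fin d) l}
    (h' : M.IsDiv W π') : Associated π π' :=
  h.1.associated_of_dvd h'.1 ((h.2.2 _).2.1 (val_pi h'))

theorem Model.exists_support (M : Model l L d) {y : L} (hy : y ≠ 0) :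
    ∃ g : MvPolynomial (Fin d) l, g ≠ 0 ∧
      ∀ W π, M.IsDiv W π → ¬ π ∣ g → W.valuation y = 1 := by
  obtain ⟨P, Q, hQ, he⟩ := M.gen y
  have he' : y * MvPolynomial.aeval M.s Q = M.evl P := he
  obtain ⟨P', N, hN, hPN⟩ := M.exists_norm (he' ▸ mul_ne_zero hy (aeval_ne hQ))
  refine ⟨Q * N, mul_ne_zero hQ hN, fun W π h hg => ?_⟩
  have h1 := val_of_mul (h.evl_mem P) (h.evl_mem P')
    (hPN ▸ val_one h fun h2 => hg (h2.mul_left _))
  rwa [← he', map_mul, val_one h fun h2 => hg (h2.mul_right _), mul_one] at h1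

/-- finitely many divisors over a prime: they all restrict to the same DVR of `l(s)`, and
elements separating them (`exists_sep_elem`) are linearly independent over `l(s)` -/
theorem Model.finite_isDiv (M : Model l L d) (π : MvPolynomial (Fin d) l) :
    {W | M.IsDiv W π}.Finite := by
  classical
  by_contra hinf
  have := M.finite
  obtain ⟨S, hS, hc⟩ := Set.Infinite.exists_subset_card_eq hinf
    (Module.finrank (adjoin l (Set.range M.s)) L + 1)
  have hS' : ∀ P : S, M.IsDiv P.1 π := fun P => hS P.2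
  choose β hβ0 hβ using fun P : S => exists_ord_eq (fun Q : S => Q.1) (fun Q => (hS' Q).isDVR.1)
    Subtype.val_injective fun Q => if Q = P then 0 else 1
  have hli : LinearIndependent (adjoin l (Set.range M.s)) β := by
    rw [Fintype.linearIndependent_iff]
    intro c hc0
    by_contra hne
    push Not at hne
    obtain ⟨P₀, hP₀⟩ := hne
    obtain ⟨P, -, hP⟩ := Finset.exists_max_image Finset.univ (fun Q => P₀.1.valuation (c Q : L))
      ⟨P₀, Finset.mem_univ _⟩
    have h0 : (c P : L) ≠ 0 := fun h0 => hP₀ (by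
      have h1 := hP P₀ (Finset.mem_univ _)
      rw [h0, map_zero, le_zero_iff, map_eq_zero] at h1
      exact_mod_cast h1)
    have h1 : ∀ Q, (c Q : L) / c P ∈ P.1 := fun Q => by
      have h2 : (c Q : L) / c P ∈ P₀.1 := by
        rw [← ValuationSubring.valuation_le_one_iff, map_div₀]
        exact div_le_one_of_le₀ (hP Q (Finset.mem_univ _)) zero_le
      obtain ⟨a, e, he, ha⟩ := mem_locS (hS' P₀) (div_mem (c Q).2 (c P).2) h2
      have h3 := (P.1.valuation_le_one_iff _).2 ((hS' P).evl_mem a)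
      rwa [← ha, map_mul, val_one (hS' P) he, mul_one, ValuationSubring.valuation_le_one_iff] at h3
    have h2 : β P = -∑ Q ∈ Finset.univ.erase P, (c Q : L) / c P * β Q := by
      rw [← Finset.add_sum_erase _ _ (Finset.mem_univ P)] at hc0
      simp only [div_mul_eq_mul_div, ← Finset.sum_div]
      rw [← neg_div, eq_div_iff h0, mul_comm]
      exact eq_neg_of_add_eq_zero_left hc0
    have h3 : P.1.valuation (β P) = 1 :=
      ((hS' P).isDVR.1.val_eq_one_iff (hβ0 P)).2 (by rw [hβ, if_pos rfl])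
    rw [h2, Valuation.map_neg] at h3
    refine h3.not_lt (P.1.valuation.map_sum_lt one_ne_zero fun Q hQ => ?_)
    rw [map_mul, mul_comm]
    refine mul_lt_one_of_lt_of_le ?_ ((P.1.valuation_le_one_iff _).2 (h1 Q))
    exact ((hS' P).isDVR.1.val_lt_one_iff (hβ0 Q)).2 (by
      rw [hβ, if_neg (Finset.ne_of_mem_erase hQ).symm]; exact one_pos)
  have h1 := hli.fintype_card_le_finrank
  rw [Fintype.card_coe, hc] at h1
  omega

/-- If every `W` over `π` makes some `a j` a unit, the ideal `(π, a j)` of `B = l[s][θ]` meets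
`l[s]` outside `(π)`: otherwise a prime of `B` containing it lies over `(π)` (`B` is integral over
`l[s]`; localize at `π`), and a valuation ring centered there is a divisor over `π` in which all
`a j` vanish. -/
theorem Model.exists_comb (M : Model l L d) (hπ : Irreducible π) (hΔ : ¬ π ∣ M.Δ) {ι : Type*}
    (J : Finset ι) (a : ι → Polynomial (MvPolynomial (Fin d) l))
    (h : ∀ W, M.IsDiv W π → ∃ j ∈ J, W.valuation (M.evl (a j)) = 1) :
    ∃ (ρ : MvPolynomial (Fin d) l) (β : Polynomial (MvPolynomial (Fin d) l))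
      (b : ι → Polynomial (MvPolynomial (Fin d) l)), ¬ π ∣ ρ ∧
      MvPolynomial.aeval M.s ρ = M.evl β * MvPolynomial.aeval M.s π +
        ∑ j ∈ J, M.evl (b j) * M.evl (a j) := by
  classical
  let I : Ideal (locS M hπ) :=
    { carrier := {y | ∃ (ρ : MvPolynomial (Fin d) l) (β : Polynomial (MvPolynomial (Fin d) l))
        (b : ι → Polynomial (MvPolynomial (Fin d) l)), ¬ π ∣ ρ ∧
        (y : L) * MvPolynomial.aeval M.s ρ = M.evl β * MvPolynomial.aeval M.s π +
          ∑ j ∈ J, M.evl (b j) * M.evl (a j)}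
      add_mem' := by
        rintro x y ⟨ρ, β, b, hρ, hx⟩ ⟨ρ', β', b', hρ', hy⟩
        refine ⟨ρ * ρ', β * Polynomial.C ρ' + β' * Polynomial.C ρ,
          fun j => b j * Polynomial.C ρ' + b' j * Polynomial.C ρ, hπ.prime.not_dvd_mul hρ hρ', ?_⟩
        simp only [map_add, map_mul, evl_C, add_mul, Finset.sum_add_distrib, Subring.coe_add,
          mul_right_comm _ _ (M.evl (a _)), ← Finset.sum_mul]
        linear_combination MvPolynomial.aeval M.s ρ' * hx + MvPolynomial.aeval M.s ρ * hy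
      zero_mem' := ⟨1, 0, 0, hπ.not_dvd_one, by simp⟩
      smul_mem' := by
        rintro ⟨x, e, c, hc, hx⟩ y ⟨ρ, β, b, hρ, hy⟩
        refine ⟨c * ρ, e * β, fun j => e * b j, hπ.prime.not_dvd_mul hc hρ, ?_⟩
        simp only [map_mul, smul_eq_mul, Subring.coe_mul, mul_assoc (M.evl e), ← Finset.mul_sum]
        linear_combination M.evl e * hy + y * MvPolynomial.aeval M.s ρ * hx }
  by_cases hI : I = ⊤
  · obtain ⟨ρ, β, b, hρ, he⟩ := (Ideal.eq_top_iff_one I).1 hI
    exact ⟨ρ, β, b, hρ, by simpa using he⟩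
  obtain ⟨W, hW, hI'⟩ := I.image_subset_nonunits_valuationSubring hI
  have hm : ∀ g : MvPolynomial (Fin d) l, MvPolynomial.aeval M.s g ∈ locS M hπ := fun g =>
    evl_C (M := M) g ▸ evl_mem_locS hπ _
  have hlt : ∀ y : locS M hπ, y ∈ I → W.valuation (y : L) < 1 := fun y hy =>
    (W.mem_nonunits_iff).1 (hI' ⟨y, hy, rfl⟩)
  have hD : M.IsDiv W π := by
    refine ⟨hπ, hΔ, fun g => ⟨hW (hm g), fun h1 => ?_, ?_⟩⟩
    · by_contra hg
      have h0 : MvPolynomial.aeval M.s g ≠ 0 := aeval_ne fun h0 => hg (h0 ▸ dvd_zero _)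
      exact (val_lt_one_iff_inv h0).1 h1 (hW ⟨1, g, hg, by rw [inv_mul_cancel₀ h0, map_one]⟩)
    · rintro ⟨q, rfl⟩
      exact hlt ⟨_, hm _⟩ ⟨1, Polynomial.C q, 0, hπ.not_dvd_one, by simp [evl_C, mul_comm]⟩
  obtain ⟨j, hj, h1⟩ := h W hD
  refine absurd (hlt ⟨_, evl_mem_locS hπ (a j)⟩ ⟨1, 0, Pi.single j 1, hπ.not_dvd_one, ?_⟩)
    h1.not_lt
  rw [Finset.sum_eq_single j (fun i _ hi => by simp [hi]) fun h2 => absurd hj h2]
  simp

theorem Model.IsDiv.exists_coeff (h : M.IsDiv W π) {a : Polynomial (MvPolynomial (Fin d) l)}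
    (ha : W.valuation (M.evl a) = 1) (n : ℕ) : ∃ i, ¬ π ∣ ((a ^ n) %ₘ M.f).coeff i := by
  by_contra hc
  push Not at hc
  obtain ⟨r, hr⟩ := (Polynomial.C_dvd_iff_dvd_coeff _ _).2 hc
  have h1 := congrArg (fun p => W.valuation (M.evl p)) (Polynomial.modByMonic_add_div (a ^ n) M.f)
  simp only [hr, map_add, map_mul, evl_f, zero_mul, add_zero, map_pow, ha, one_pow, evl_C] at h1
  exact h1.not_lt (mul_lt_one_of_lt_of_le (val_pi h) ((W.valuation_le_one_iff _).2 (h.evl_mem r)))

end Vale.Agent.P019
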