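import Vale.Agent.P019.GVa
import Vale.Agent.P019.CV
import Vale.Agent.P019.MD
import Vale.Agent.P019.GEN

/-! P019: congruences for polynomials with integral coefficients. -/

open IsLocalRing Polynomial

namespace Vale.Agent.P019.GVbAux

section general

variable {L : Type*} [Field L] {O : ValuationSubring L}

theorem eval_mem {p : L[X]} (hp : ∀ i, p.coeff i ∈ O) {x : L} (hx : x ∈ O) : p.eval x ∈ O := by
  rw [eval_eq_sum_range]
  exact sum_mem fun i _ => mul_mem (hp i) (pow_mem hx i)

theorem res_sum {ι : Type*} (s : Finset ι) (f : ι → L) (hf : ∀ i ∈ s, f i ∈ O) :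
    res O (∑ i ∈ s, f i) = ∑ i ∈ s, res O (f i) := by
  classical
  induction s using Finset.induction_on with
  | empty => simp
  | insert a s ha ih =>
    rw [Finset.sum_insert ha, Finset.sum_insert ha, res_add (hf a (by simp))
      (sum_mem fun i hi => hf i (by simp [hi])), ih fun i hi => hf i (by simp [hi])]

theorem res_eval {p : L[X]} (hp : ∀ i, p.coeff i ∈ O) {x : L} (hx : x ∈ O) {N : ℕ}
    (hN : p.natDegree < N) :
    res O (p.eval x) = ∑ i ∈ Finset.range N, res O (p.coeff i) * res O x ^ i := by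
  rw [eval_eq_sum_range' hN, res_sum _ _ fun i _ => mul_mem (hp i) (pow_mem hx i)]
  exact Finset.sum_congr rfl fun i _ => by rw [res_mul (hp i) (pow_mem hx i), res_pow hx]

theorem cong_eval {p p' : L[X]} (hp : ∀ i, p.coeff i ∈ O) (hp' : ∀ i, p'.coeff i ∈ O)
    (hc : ∀ i, O.valuation (p.coeff i - p'.coeff i) < 1) {x y : L} (hx : x ∈ O) (hy : y ∈ O)
    (hxy : O.valuation (x - y) < 1) : O.valuation (p.eval x - p'.eval y) < 1 := by
  rw [← res_eq_iff (eval_mem hp hx) (eval_mem hp' hy),
    res_eval hp hx (N := p.natDegree + p'.natDegree + 1) (by omega),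
    res_eval hp' hy (N := p.natDegree + p'.natDegree + 1) (by omega),
    (res_eq_iff hx hy).2 hxy]
  exact Finset.sum_congr rfl fun i _ => by rw [(res_eq_iff (hp i) (hp' i)).2 (hc i)]

theorem val_eq_one_of_mul {x y : L} (hx : x ∈ O) (hy : y ∈ O) (h : O.valuation (x * y) = 1) :
    O.valuation x = 1 ∧ O.valuation y = 1 := by
  have a := (O.valuation_le_one_iff x).2 hx
  have b := (O.valuation_le_one_iff y).2 hy
  rw [map_mul] at h
  constructor
  · refine le_antisymm a (not_lt.1 fun hlt => ?_)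
    have := mul_lt_one_of_lt_of_le hlt b
    exact this.ne h
  · refine le_antisymm b (not_lt.1 fun hlt => ?_)
    have := mul_lt_one_of_lt_of_le hlt a
    exact this.ne (by rwa [mul_comm])

theorem val_eq_one_of_not_lt {x : L} (hx : x ∈ O) (h : ¬ O.valuation x < 1) :
    O.valuation x = 1 :=
  le_antisymm ((O.valuation_le_one_iff x).2 hx) (not_lt.1 h)

theorem val_lt_one_congr {x y : L} (h : O.valuation (x - y) < 1) :
    O.valuation x < 1 ↔ O.valuation y < 1 := by
  constructor
  · intro hx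
    have := O.valuation.map_sub_lt hx h
    rwa [sub_sub_cancel] at this
  · intro hy
    have := O.valuation.map_add_lt h hy
    rwa [sub_add_cancel] at this

theorem mem_of_lt {x : L} (h : O.valuation x < 1) : x ∈ O := (O.valuation_le_one_iff x).1 h.le

theorem val_mul_lt {x y : L} (hx : x ∈ O) (hy : O.valuation y < 1) : O.valuation (x * y) < 1 := by
  rw [map_mul, mul_comm]
  exact mul_lt_one_of_lt_of_le hy ((O.valuation_le_one_iff x).2 hx)

end general

section intp

variable {l : Type*} [Field l] {μ : ValuationSubring l}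

theorem intP_iff {p : l[X]} : IntP μ p ↔ p ∈ (mapRingHom μ.subtype).range := by
  constructor
  · intro h
    have : p ∈ lifts μ.subtype := (lifts_iff_coeff_lifts p).2 fun n => ⟨⟨_, h n⟩, rfl⟩
    obtain ⟨p₀, hp₀⟩ := (mem_lifts p).1 this
    exact ⟨p₀, hp₀⟩
  · rintro ⟨p₀, rfl⟩ i
    simp

theorem IntP.exists_lift {p : l[X]} (h : IntP μ p) : ∃ p₀ : μ[X], p₀.map μ.subtype = p :=
  intP_iff.1 h

theorem intP_map (p₀ : μ[X]) : IntP μ (p₀.map μ.subtype) := intP_iff.2 ⟨p₀, rfl⟩

theorem intP_lr {n : ℕ} {q c : Fin n → l} (hqc : ∀ j, q j ∈ μ ∧ c j ∈ μ)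
    {P : MvPolynomial (Fin n) l} (hP : IntM μ P) : IntP μ (lr q c P) := by
  rw [intP_iff, lr, MvPolynomial.aeval_def]
  refine MvPolynomial.eval₂_mem (s := (mapRingHom μ.subtype).range) (fun m _ => ?_) fun j => ?_
  · exact ⟨C ⟨_, hP m⟩, by simp⟩
  · exact ⟨C ⟨_, (hqc j).2⟩ + C ⟨_, (hqc j).1⟩ * X, by simp⟩

theorem intM_of_C {ι : Type*} {P : MvPolynomial ι l} (h : IntM2 μ (C P)) : IntM μ P := by
  simpa using h 0

theorem not_both {p p' : l[X]} (h : CopP μ p p') {a : l} (ha : a ∈ μ)
    (h1 : μ.valuation (p.eval a) < 1) (h2 : μ.valuation (p'.eval a) < 1) : False := by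
  obtain ⟨-, -, x, y, hx, hy, e⟩ := h
  have := congrArg (eval a) e
  rw [eval_add, eval_mul, eval_mul, eval_one] at this
  have h3 := μ.valuation.map_add_lt (val_mul_lt (eval_mem hx ha) h1)
    (val_mul_lt (eval_mem hy ha) h2)
  rw [this, map_one] at h3
  exact lt_irrefl _ h3

theorem dvd_pow_of_roots {k : Type*} [Field k] [IsAlgClosed k] {f g : k[X]} (hf : f.Monic)
    (h : ∀ t, f.IsRoot t → g.IsRoot t) : f ∣ g ^ f.natDegree := by
  have e := (IsAlgClosed.splits f).eq_prod_roots_of_monic hf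
  rw [← IsAlgClosed.card_roots_eq_natDegree]
  conv_lhs => rw [e]
  have := Multiset.prod_dvd_prod_of_dvd (S := f.roots) (fun a => X - C a) (fun _ => g)
    fun a ha => dvd_iff_isRoot.2 (h a ((mem_roots hf.ne_zero).1 ha))
  simpa using this

/-- if a coefficient of `g ^ n mod f` is a unit, `g` is a unit at some root of `f` mod `μ` -/
theorem exists_root_unit [IsAlgClosed l] {f g : l[X]} (hf : f.Monic) (hf' : IntP μ f)
    (hg : IntP μ g) {i : ℕ} (h : ¬ μ.valuation (((g ^ f.natDegree) %ₘ f).coeff i) < 1) :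
    ∃ t ∈ μ, μ.valuation (f.eval t) < 1 ∧ ¬ μ.valuation (g.eval t) < 1 := by
  haveI := isAlgClosed_residueField μ
  obtain ⟨f₀, rfl⟩ := IntP.exists_lift hf'
  obtain ⟨g₀, rfl⟩ := IntP.exists_lift hg
  have hinj : Function.Injective μ.subtype := Subtype.val_injective
  have hm : f₀.Monic := (hinj.monic_map_iff).2 hf
  have hn : (f₀.map μ.subtype).natDegree = f₀.natDegree := natDegree_map_eq_of_injective hinj _
  have key : ∀ (p : μ[X]) (t : μ), μ.valuation ((p.map μ.subtype).eval (t : l)) < 1 ↔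
      (p.map (residue μ)).IsRoot (residue μ t) := by
    intro p t
    have e1 : (p.map μ.subtype).eval (t : l) = ((p.eval t : μ) : l) := eval_map_apply μ.subtype t
    rw [e1, IsRoot, eval_map_apply, residue_eq_zero_iff, ValuationSubring.valuation_lt_one_iff]
  by_contra hcon
  push Not at hcon
  apply h
  have hd : f₀.map (residue μ) ∣ (g₀.map (residue μ)) ^ (f₀.map (residue μ)).natDegree := by
    refine dvd_pow_of_roots (hm.map _) fun t ht => ?_
    obtain ⟨t, rfl⟩ := residue_surjective t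
    exact (key g₀ t).1 (hcon t t.2 ((key f₀ t).2 ht))
  rw [hm.natDegree_map, ← modByMonic_eq_zero_iff_dvd (hm.map _), ← Polynomial.map_pow,
    ← map_modByMonic _ hm] at hd
  rw [hn, ← Polynomial.map_pow, ← map_modByMonic _ hm, coeff_map]
  have := congrArg (fun p => p.coeff i) hd
  simp only [coeff_map, coeff_zero] at this
  rw [residue_eq_zero_iff, ValuationSubring.valuation_lt_one_iff] at this
  exact this

end intp

end Vale.Agent.P019.GVbAux
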