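import Vale.Agent.P019.GVb1

/-! P019: points of the reduction. -/

open IsLocalRing Polynomial

namespace Vale.Agent.P019.GVbAux

universe u

variable {ℓ : ℕ} [Fact ℓ.Prime] {l : Type*} {L : Type u} [Field l] [Field L] [Algebra l L]
  [IsAlgClosed l] {d : ℕ} {M : Model l L (d + 2)} {q c : Fin (d + 2) → l}
  {μ : ValuationSubring l} {w : ValuationSubring L}

theorem mem_w_iff (h : LineData ℓ M q c μ w) {a : l} : algebraMap l L a ∈ w ↔ a ∈ μ := by
  rw [← h.line.comap]; rfl

theorem w_lt_iff (h : LineData ℓ M q c μ w) {a : l} :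
    w.valuation (algebraMap l L a) < 1 ↔ μ.valuation a < 1 := by
  rw [← h.line.comap, comap_val_lt_one]

/-- reduction of constants -/
noncomputable def redHom (h : LineData ℓ M q c μ w) : μ →+* resConst l w where
  toFun a := ⟨res w (algebraMap l L a), a, (mem_w_iff h).2 a.2, rfl⟩
  map_one' := by ext; simp
  map_mul' a b := by
    ext
    simp [res_mul ((mem_w_iff h).2 a.2) ((mem_w_iff h).2 b.2)]
  map_zero' := by ext; simp
  map_add' a b := by
    ext
    simp [res_add ((mem_w_iff h).2 a.2) ((mem_w_iff h).2 b.2)]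

theorem redHom_coe (h : LineData ℓ M q c μ w) (a : μ) :
    ((redHom h a : resConst l w) : ResidueField w) = res w (algebraMap l L a) := rfl

theorem redHom_surj (h : LineData ℓ M q c μ w) : Function.Surjective (redHom h) := by
  rintro ⟨_, a, ha, rfl⟩
  exact ⟨⟨a, (mem_w_iff h).1 ha⟩, rfl⟩

theorem redHom_eq_zero (h : LineData ℓ M q c μ w) (a : μ) :
    redHom h a = 0 ↔ μ.valuation (a : l) < 1 := by
  rw [← w_lt_iff h, ← res_eq_zero_iff ((mem_w_iff h).2 a.2), ← redHom_coe h]
  exact ⟨fun e => by rw [e]; rfl, fun e => Subtype.ext e⟩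

theorem s0_mem (h : LineData ℓ M q c μ w) : M.s 0 ∈ w := by
  classical
  have := (h.line.red (MvPolynomial.X 0) fun m => by
    rw [MvPolynomial.coeff_X]; split_ifs; exacts [μ.one_mem, μ.zero_mem]).1
  simpa using this

theorem res_aeval (h : LineData ℓ M q c μ w) (p₀ : μ[X]) :
    aeval (M.s 0) (p₀.map μ.subtype) ∈ w ∧
    res w (aeval (M.s 0) (p₀.map μ.subtype)) = aeval (res w (M.s 0)) (p₀.map (redHom h)) := by
  have hc : ∀ i, ((p₀.map μ.subtype).map (algebraMap l L)).coeff i ∈ w := fun i => by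
    rw [coeff_map, coeff_map]; exact (mem_w_iff h).2 (p₀.coeff i).2
  rw [← eval_map_algebraMap]
  refine ⟨eval_mem hc (s0_mem h), ?_⟩
  rw [res_eval hc (s0_mem h) (N := p₀.natDegree + 1)
      (Nat.lt_succ_of_le (natDegree_map_le.trans natDegree_map_le)),
    aeval_eq_sum_range' (n := p₀.natDegree + 1) (Nat.lt_succ_of_le natDegree_map_le)]
  refine Finset.sum_congr rfl fun i _ => ?_
  rw [coeff_map, coeff_map, coeff_map, Algebra.smul_def]
  rfl

theorem res_aeval_mv (h : LineData ℓ M q c μ w) {P : MvPolynomial (Fin (d + 2)) l} (hP : IntM μ P)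
    {p₀ : μ[X]} (hp : p₀.map μ.subtype = lr q c P) :
    res w (MvPolynomial.aeval M.s P) = aeval (res w (M.s 0)) (p₀.map (redHom h)) := by
  obtain ⟨h1, h2⟩ := h.line.red P hP
  rw [← hp] at h2
  rw [(res_eq_iff h1 (res_aeval h p₀).1).2 h2, (res_aeval h p₀).2]

variable (z : Place (resConst l w) (ResidueField w))

theorem const_mem (h : LineData ℓ M q c μ w) {a : l} (ha : a ∈ μ) :
    algebraMap l L a ∈ comp w z.O :=
  ⟨(mem_w_iff h).2 ha, z.triv (redHom h ⟨a, ha⟩)⟩

theorem const_lt (h : LineData ℓ M q c μ w) {a : l} (ha : a ∈ μ) :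
    (comp w z.O).valuation (algebraMap l L a) < 1 ↔ μ.valuation a < 1 := by
  rw [comp_val_lt_one, ← redHom_eq_zero h ⟨a, ha⟩]
  constructor
  · rintro ⟨-, h2⟩
    by_contra hne
    have := z.triv.val_eq_one hne
    exact h2.ne this
  · intro e
    refine ⟨(mem_w_iff h).2 ha, ?_⟩
    have : res w (algebraMap l L a) = 0 := by rw [← redHom_coe h ⟨a, ha⟩, e]; rfl
    rw [this]; simp

theorem comp_sub_lt (h : LineData ℓ M q c μ w) {x : L} (hx : x ∈ w) (a : μ) :
    (comp w z.O).valuation (x - algebraMap l L a) < 1 ↔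
      z.O.valuation (res w x - algebraMap (resConst l w) _ (redHom h a)) < 1 := by
  rw [comp_val_lt_one, res_sub hx ((mem_w_iff h).2 a.2)]
  exact ⟨fun e => e.2, fun e => ⟨w.sub_mem hx ((mem_w_iff h).2 a.2), e⟩⟩

theorem exists_pt (h : LineData ℓ M q c μ w) (hz : res w (M.s 0) ∈ z.O) :
    ∃ a ∈ μ, (comp w z.O).valuation (M.s 0 - algebraMap l L a) < 1 := by
  obtain ⟨a, ha⟩ := z.exists_val h.isCurve hz
  obtain ⟨a, rfl⟩ := redHom_surj h a
  exact ⟨a, a.2, (comp_sub_lt z h (s0_mem h) a).2 ha⟩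

variable {z} {a : l}

theorem cong_p (h : LineData ℓ M q c μ w) (ha : a ∈ μ)
    (hz : (comp w z.O).valuation (M.s 0 - algebraMap l L a) < 1) {p : l[X]} (hp : IntP μ p) :
    (comp w z.O).valuation (aeval (M.s 0) p - algebraMap l L (p.eval a)) < 1 := by
  have hc : ∀ i, (p.map (algebraMap l L)).coeff i ∈ comp w z.O := fun i => by
    rw [coeff_map]; exact const_mem z h (hp i)
  have hs : M.s 0 ∈ comp w z.O := by
    have := (comp w z.O).add_mem _ _ (mem_of_lt hz) (const_mem z h ha)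
    rwa [sub_add_cancel] at this
  have := cong_eval hc hc (fun i => by simp) hs (const_mem z h ha) hz
  rwa [eval_map_algebraMap, eval_map_apply] at this

theorem cong_P (h : LineData ℓ M q c μ w) (ha : a ∈ μ)
    (hz : (comp w z.O).valuation (M.s 0 - algebraMap l L a) < 1)
    {P : MvPolynomial (Fin (d + 2)) l} (hP : IntM μ P) :
    (comp w z.O).valuation
      (MvPolynomial.aeval M.s P - algebraMap l L ((lr q c P).eval a)) < 1 := by
  have h1 := val_lt_one_of_le (comp_le (P := z.O)) (h.line.red P hP).2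
  have h2 := cong_p h ha hz (intP_lr h.line.qc hP)
  have := (comp w z.O).valuation.map_add_lt h1 h2
  rwa [sub_add_sub_cancel] at this

theorem aeval_mem (h : LineData ℓ M q c μ w) (ha : a ∈ μ)
    (hz : (comp w z.O).valuation (M.s 0 - algebraMap l L a) < 1)
    {P : MvPolynomial (Fin (d + 2)) l} (hP : IntM μ P) :
    MvPolynomial.aeval M.s P ∈ comp w z.O := by
  have := (comp w z.O).add_mem _ _ (mem_of_lt (cong_P h ha hz hP))
    (const_mem z h (eval_mem (intP_lr h.line.qc hP) ha))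
  rwa [sub_add_cancel] at this

theorem aeval_lt_iff (h : LineData ℓ M q c μ w) (ha : a ∈ μ)
    (hz : (comp w z.O).valuation (M.s 0 - algebraMap l L a) < 1)
    {P : MvPolynomial (Fin (d + 2)) l} (hP : IntM μ P) :
    (comp w z.O).valuation (MvPolynomial.aeval M.s P) < 1 ↔
      μ.valuation ((lr q c P).eval a) < 1 := by
  rw [val_lt_one_congr (cong_P h ha hz hP), const_lt z h (eval_mem (intP_lr h.line.qc hP) ha)]

omit [IsAlgClosed l] in
theorem evl_eq (A : (MvPolynomial (Fin (d + 2)) l)[X]) : M.evl A =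
    (A.map (MvPolynomial.aeval M.s : MvPolynomial (Fin (d + 2)) l →ₐ[l] L).toRingHom).eval M.θ := by
  rw [eval_map]; rfl

theorem theta_mem (h : LineData ℓ M q c μ w) (ha : a ∈ μ)
    (hz : (comp w z.O).valuation (M.s 0 - algebraMap l L a) < 1) : M.θ ∈ comp w z.O := by
  refine mem_of_root (g := M.f.map
    (MvPolynomial.aeval M.s : MvPolynomial (Fin (d + 2)) l →ₐ[l] L).toRingHom)
    (M.monic.map _) (fun i => ?_) (by rw [eval_map]; exact M.root)
  rw [coeff_map]
  exact aeval_mem h ha hz (h.intf i)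

theorem evl_mem' (h : LineData ℓ M q c μ w) (ha : a ∈ μ)
    (hz : (comp w z.O).valuation (M.s 0 - algebraMap l L a) < 1)
    {A : (MvPolynomial (Fin (d + 2)) l)[X]} (hA : IntM2 μ A) : M.evl A ∈ comp w z.O := by
  rw [evl_eq]
  refine eval_mem (fun i => ?_) (theta_mem h ha hz)
  rw [coeff_map]
  exact aeval_mem h ha hz (hA i)

/-- specialization of the coefficients at the point `a` of the line -/
noncomputable def spec (q c : Fin (d + 2) → l) (a : l) : MvPolynomial (Fin (d + 2)) l →+* l :=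
  (evalRingHom a).comp (lr q c).toRingHom

omit [IsAlgClosed l] in
theorem spec_apply (P : MvPolynomial (Fin (d + 2)) l) : spec q c a P = (lr q c P).eval a := rfl

omit [IsAlgClosed l] in
theorem eval_spec (A : (MvPolynomial (Fin (d + 2)) l)[X]) (t : l) :
    (A.map (spec q c a)).eval t = (A.map (lr q c).toRingHom).evalEval a t := by
  rw [spec, ← Polynomial.map_map, map_evalRingHom_eval]

theorem intP_spec (h : LineData ℓ M q c μ w) (ha : a ∈ μ)
    {A : (MvPolynomial (Fin (d + 2)) l)[X]} (hA : IntM2 μ A) : IntP μ (A.map (spec q c a)) :=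
  fun i => by
    rw [coeff_map, spec_apply]
    exact eval_mem (intP_lr h.line.qc (hA i)) ha

theorem evl_lt_iff (h : LineData ℓ M q c μ w) (ha : a ∈ μ)
    (hz : (comp w z.O).valuation (M.s 0 - algebraMap l L a) < 1) {t : l} (ht : t ∈ μ)
    (hθ : (comp w z.O).valuation (M.θ - algebraMap l L t) < 1)
    {A : (MvPolynomial (Fin (d + 2)) l)[X]} (hA : IntM2 μ A) :
    (comp w z.O).valuation (M.evl A) < 1 ↔ μ.valuation ((A.map (spec q c a)).eval t) < 1 := by
  have := cong_eval (O := comp w z.O)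
    (p := A.map (MvPolynomial.aeval M.s : MvPolynomial (Fin (d + 2)) l →ₐ[l] L).toRingHom)
    (p' := (A.map (spec q c a)).map (algebraMap l L))
    (fun i => by rw [coeff_map]; exact aeval_mem h ha hz (hA i))
    (fun i => by rw [coeff_map]; exact const_mem z h (intP_spec h ha hA i))
    (fun i => by rw [coeff_map, coeff_map, coeff_map]; exact cong_P h ha hz (hA i))
    (theta_mem h ha hz) (const_mem z h ht) hθ
  rw [← evl_eq, eval_map_apply] at this
  rw [val_lt_one_congr this, const_lt z h (eval_mem (intP_spec h ha hA) ht)]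

omit [IsAlgClosed l] in
theorem evl_C (P : MvPolynomial (Fin (d + 2)) l) : M.evl (C P) = MvPolynomial.aeval M.s P := by
  simp [Model.evl]

omit [IsAlgClosed l] in
theorem evl_f : M.evl M.f = 0 := M.root

omit [IsAlgClosed l] in
theorem intM2_derivative {A : (MvPolynomial (Fin (d + 2)) l)[X]} (hA : IntM2 μ A) :
    IntM2 μ A.derivative := fun i m => by
  rw [coeff_derivative, ← Nat.cast_succ, mul_comm, ← nsmul_eq_mul, MvPolynomial.coeff_smul]
  exact nsmul_mem (hA _ m) _

/-- at a point where the discriminant does not vanish, `σ - a` is a uniformizer -/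
theorem ord_sigma (h : LineData ℓ M q c μ w) (ha : a ∈ μ)
    (hz : (comp w z.O).valuation (M.s 0 - algebraMap l L a) < 1)
    (hΔ : ¬ (comp w z.O).valuation (MvPolynomial.aeval M.s M.Δ) < 1) :
    ord z.O (res w (M.s 0 - algebraMap l L a)) = 1 := by
  obtain ⟨f', ht, hm, -, -, -, hroot, -, hder⟩ := h.exists_plane
  obtain ⟨x, y, hx, hy, e⟩ := h.intb
  have e' := congrArg M.evl e
  rw [evl_C, map_add, map_mul, map_mul, evl_f, mul_zero, zero_add] at e'
  have h1 := val_eq_one_of_not_lt (aeval_mem h ha hz h.intΔ) hΔ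
  rw [e'] at h1
  have h2 := (val_eq_one_of_mul (evl_mem' h ha hz hy)
    (evl_mem' h ha hz (intM2_derivative h.intf)) h1).2
  rw [comp_val_eq_one, ← hder] at h2
  rw [res_sub (s0_mem h) ((mem_w_iff h).2 ha)]
  exact (ord_eq_one_of_smooth ht hm hroot h.adjoin_eq_top z (a := redHom h ⟨a, ha⟩)
    ((comp_sub_lt z h (s0_mem h) ⟨a, ha⟩).1 hz) h2.2).2

/-- a simple root of the reduction -/
theorem ord_pi (h : LineData ℓ M q c μ w) (ha : a ∈ μ)
    (hz : (comp w z.O).valuation (M.s 0 - algebraMap l L a) < 1)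
    (hΔ : ¬ (comp w z.O).valuation (MvPolynomial.aeval M.s M.Δ) < 1)
    {π : MvPolynomial (Fin (d + 2)) l} (hπ : IntM μ π)
    (hs : CopP μ (lr q c π) (lr q c π).derivative)
    (h0 : (comp w z.O).valuation (MvPolynomial.aeval M.s π) < 1) :
    res w (MvPolynomial.aeval M.s π) ≠ 0 ∧ ord z.O (res w (MvPolynomial.aeval M.s π)) = 1 := by
  have hdvr := z.isDVR h.isCurve
  obtain ⟨p₀, hp₀⟩ := IntP.exists_lift (intP_lr h.line.qc hπ)
  have h1 := (aeval_lt_iff h ha hz hπ).1 h0
  set a₀ : μ := ⟨a, ha⟩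
  have hev : ∀ r : μ[X], (r.map μ.subtype).eval a = ((r.eval a₀ : μ) : l) := fun r =>
    eval_map_apply μ.subtype a₀
  set p₁ := p₀ /ₘ (X - C a₀)
  have e1 : p₀ = C (p₀.eval a₀) + (X - C a₀) * p₁ := by
    rw [← modByMonic_X_sub_C_eq_C_eval, modByMonic_add_div]
  have e2 : (lr q c π).derivative.eval a = (p₁.map μ.subtype).eval a := by
    rw [← hp₀, derivative_map, hev, hev]
    conv_lhs => rw [e1]
    simp
  have h2 : ¬ μ.valuation ((p₁.map μ.subtype).eval a) < 1 := fun hlt =>
    not_both hs ha h1 (e2 ▸ hlt)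
  have h3 : (comp w z.O).valuation (aeval (M.s 0) (p₁.map μ.subtype)) = 1 := by
    have hc := cong_p h ha hz (intP_map p₁)
    have hmem := const_mem z h (eval_mem (intP_map p₁) ha)
    refine val_eq_one_of_not_lt ?_ ?_
    · have := (comp w z.O).add_mem _ _ (mem_of_lt hc) hmem
      rwa [sub_add_cancel] at this
    · rw [val_lt_one_congr hc, const_lt z h (eval_mem (intP_map p₁) ha)]
      exact h2
  rw [comp_val_eq_one, (res_aeval h p₁).2] at h3
  have h4 : redHom h (p₀.eval a₀) = 0 := by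
    rw [redHom_eq_zero, ← hev, hp₀]; exact h1
  have e3 : res w (MvPolynomial.aeval M.s π) =
      res w (M.s 0 - algebraMap l L a) * aeval (res w (M.s 0)) (p₁.map (redHom h)) := by
    rw [res_aeval_mv h hπ hp₀, res_sub (s0_mem h) ((mem_w_iff h).2 ha)]
    conv_lhs => rw [e1]
    simp [h4]
    exact Or.inl rfl
  have h5 := ord_sigma h ha hz hΔ
  have n1 : res w (M.s 0 - algebraMap l L a) ≠ 0 := by
    intro e
    rw [e, hdvr.isOrd.1] at h5
    exact zero_ne_one h5
  have n2 : aeval (res w (M.s 0)) (p₁.map (redHom h)) ≠ 0 := by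
    intro e
    rw [e] at h3
    simp at h3
  refine ⟨e3 ▸ mul_ne_zero n1 n2, ?_⟩
  rw [e3, hdvr.ord_mul n1 n2, h5, (hdvr.val_eq_one_iff n2).1 h3.2, add_zero]

/-- visibility of `u = π ^ m a / b` -/
theorem vis_iff (h : LineData ℓ M q c μ w) {u x y p : L} {m : ℤ} (hu : w.valuation u = 1)
    (hx : (comp w z.O).valuation x = 1) (hy : (comp w z.O).valuation y = 1) (hp : p ∈ w)
    (hp0 : res w p ≠ 0) (hp1 : ord z.O (res w p) = 1) (e : u * y = p ^ m * x) :
    z ∈ vis ℓ (resConst l w) (res w u) ↔ ¬ (ℓ : ℤ) ∣ m := by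
  have hdvr := z.isDVR h.isCurve
  rw [comp_val_eq_one] at hx hy
  have hpv := val_eq_one_of_res hp0
  have hpm : w.valuation (p ^ m) = 1 := by rw [map_zpow₀, hpv, one_zpow]
  have e1 : res w (p ^ m) = res w p ^ m := by
    rcases m with m | m
    · simp [res_pow hp]
    · rw [zpow_negSucc, zpow_negSucc, res_inv (by rw [map_pow, hpv, one_pow]), res_pow hp]
  have e2 := congrArg (res w) e
  rw [res_mul (mem_of_val_eq_one hu) (mem_of_val_eq_one hy.1),
    res_mul (mem_of_val_eq_one hpm) (mem_of_val_eq_one hx.1), e1] at e2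
  have e3 := congrArg (ord z.O) e2
  rw [hdvr.ord_mul (res_ne_zero hu) (res_ne_zero hy.1),
    hdvr.ord_mul (zpow_ne_zero _ hp0) (res_ne_zero hx.1), hdvr.ord_zpow, hp1,
    (hdvr.val_eq_one_iff (res_ne_zero hy.1)).1 hy.2,
    (hdvr.val_eq_one_iff (res_ne_zero hx.1)).1 hx.2] at e3
  change ¬ _ ↔ _
  rw [hdvr.cl_mem_HO_iff (res_ne_zero hu)]
  simp only [add_zero, mul_one] at e3
  rw [e3]

end Vale.Agent.P019.GVbAux
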