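import Vale.Agent.P019.LDJ
import Vale.Agent.P019.MD

/-! P019: elementary helpers for CST and WEB. -/

open IsLocalRing IntermediateField TensorProduct

namespace Vale.Agent.P019.H2

section ranges

variable {R S A : Type*} [Field R] [Field S] [Field A] [Algebra R A] [Algebra S A]

theorem exists_hom_of_range (h : ∀ r : R, ∃ s : S, algebraMap S A s = algebraMap R A r) :
    ∃ f : R →+* S, (algebraMap S A).comp f = algebraMap R A := by
  choose f hf using h
  have hi := (algebraMap S A).injective
  refine ⟨{ toFun := f, map_one' := hi ?_, map_mul' := fun a b => hi ?_, map_zero' := hi ?_,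
            map_add' := fun a b => hi ?_ }, RingHom.ext fun r => hf r⟩
  all_goals simp [hf]

theorem indep_mono (h : ∀ r : R, ∃ s : S, algebraMap S A s = algebraMap R A r) {ι : Type*}
    {x : ι → A} (hx : AlgebraicIndependent S x) : AlgebraicIndependent R x := by
  obtain ⟨f, hf⟩ := exists_hom_of_range h
  exact AlgebraicIndependent.of_ringHom_of_comp_eq f (RingHom.id A) hx f.injective
    (hf.trans rfl)

theorem alg_mono (h : ∀ r : R, ∃ s : S, algebraMap S A s = algebraMap R A r) {x : A}
    (hx : IsAlgebraic R x) : IsAlgebraic S x := by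
  obtain ⟨f, hf⟩ := exists_hom_of_range h
  exact IsAlgebraic.ringHom_of_comp_eq f (RingHom.id A) hx f.injective (hf.trans rfl)

end ranges

section res

variable {F : Type*} [Field F] {O : ValuationSubring F}

theorem res_sum {ι : Type*} (s : Finset ι) {x : ι → F} (hx : ∀ i ∈ s, x i ∈ O) :
    res O (∑ i ∈ s, x i) = ∑ i ∈ s, res O (x i) := by
  classical
  induction s using Finset.induction_on with
  | empty => simp
  | insert a s ha ih =>
    rw [Finset.sum_insert ha, Finset.sum_insert ha, res_add (hx a (by simp))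
      (sum_mem fun i hi => hx i (by simp [hi])), ih fun i hi => hx i (by simp [hi])]

theorem res_prod {ι : Type*} (s : Finset ι) {x : ι → F} (hx : ∀ i ∈ s, x i ∈ O) :
    res O (∏ i ∈ s, x i) = ∏ i ∈ s, res O (x i) := by
  classical
  induction s using Finset.induction_on with
  | empty => simp
  | insert a s ha ih =>
    rw [Finset.prod_insert ha, Finset.prod_insert ha, res_mul (hx a (by simp))
      (prod_mem fun i hi => hx i (by simp [hi])), ih fun i hi => hx i (by simp [hi])]

theorem res_eval {d : ℕ} {Q : MvPolynomial (Fin d) F} (hQ : ∀ m, Q.coeff m ∈ O) {x : Fin d → F}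
    (hx : ∀ j, x j ∈ O) {T : Finset (Fin d →₀ ℕ)} (hT : Q.support ⊆ T) :
    res O (MvPolynomial.eval x Q) = ∑ m ∈ T, res O (Q.coeff m) * ∏ j, res O (x j) ^ m j := by
  have hp : ∀ m : Fin d →₀ ℕ, ∏ j, x j ^ m j ∈ O := fun m =>
    prod_mem fun j _ => pow_mem (hx j) _
  have h1 : MvPolynomial.eval x Q = ∑ m ∈ T, Q.coeff m * ∏ j, x j ^ m j := by
    rw [MvPolynomial.eval_eq']
    refine Finset.sum_subset hT fun m _ hm => ?_
    rw [MvPolynomial.notMem_support_iff.1 hm, zero_mul]
  rw [h1, res_sum _ fun m _ => mul_mem (hQ m) (hp m)]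
  refine Finset.sum_congr rfl fun m _ => ?_
  rw [res_mul (hQ m) (hp m), res_prod _ fun j _ => pow_mem (hx j) _]
  simp_rw [res_pow (hx _)]

end res

theorem sum_functional {κ Λ : Type*} [Field κ] [Field Λ] [Algebra κ Λ]
    {A B : IntermediateField κ Λ} (h : A.LinearDisjoint B) {ι : Type*} (s : Finset ι)
    (a : ι → A) (b : ι → B) (h0 : ∑ i ∈ s, (a i : Λ) * b i = 0) (φ : A →ₗ[κ] κ) :
    ∑ i ∈ s, φ (a i) • (b i : Λ) = 0 := by
  rw [linearDisjoint_iff', Subalgebra.linearDisjoint_iff_injective] at h
  have h1 : ∑ i ∈ s, (a i : A.toSubalgebra) ⊗ₜ[κ] (b i : B.toSubalgebra) = 0 := by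
    apply h
    rw [map_sum, map_zero, ← h0]
    rfl
  let ψ : A.toSubalgebra ⊗[κ] B.toSubalgebra →ₗ[κ] Λ :=
    TensorProduct.lift (LinearMap.mk₂ κ (fun x y => φ x • (y : Λ))
      (fun x x' y => by rw [map_add, add_smul]) (fun c x y => by rw [map_smul, smul_assoc])
      (fun x y y' => by simp [smul_add]) (fun c x y => by simp [smul_comm c]))
  have := congrArg ψ h1
  rw [map_sum, map_zero] at this
  exact this

theorem eq_zero_of_functional {κ V : Type*} [Field κ] [AddCommGroup V] [Module κ V] {v : V}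
    (h : ∀ φ : V →ₗ[κ] κ, φ v = 0) : v = 0 :=
  (Module.forall_dual_apply_eq_zero_iff κ v).1 h

theorem valIndep_single {l N : Type*} [Field l] [Field N] [Algebra l N] {O : ValuationSubring N}
    (htr : Triv l O) {x : N} (hx : x ∉ O) : ValIndep l O ![x] := by
  have h0 : x ≠ 0 := by rintro rfl; exact hx O.zero_mem
  have h1 : 1 < O.valuation x := not_le.1 fun h => hx ((O.valuation_le_one_iff x).1 h)
  refine ⟨fun i => by fin_cases i; exact h0, fun m c h i => ?_⟩
  have hc : c ≠ 0 := by rintro rfl; simp at h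
  rw [map_mul, htr.val_eq_one hc, one_mul, Fin.prod_univ_one, map_zpow₀] at h
  fin_cases i
  exact (zpow_eq_one_iff_right₀ zero_le h1.ne').1 h

end Vale.Agent.P019.H2
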