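import Vale.Agent.P019.H2Ev
import Vale.Agent.P019.CV
import Vale.Agent.P019.CH

/-! P019: values at valuation rings, helpers for WEB. -/

open IntermediateField Filter

namespace Vale.Agent.P019.H2

section hv

variable {l F F' : Type*} [Field l] [Field F] [Field F'] [Algebra l F] [Algebra l F']

/-- `x` has the value `a` at `O` -/
def HV (O : ValuationSubring F) (x : F) (a : l) : Prop :=
  O.valuation (x - algebraMap l F a) < 1

variable {O : ValuationSubring F} {x y : F} {a b : l}

theorem HV.mem (ht : Triv l O) (h : HV O x a) : x ∈ O := by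
  have h1 : x - algebraMap l F a ∈ O := (O.valuation_le_one_iff _).1 (le_of_lt h)
  simpa using O.add_mem _ _ h1 (ht a)

theorem hv_const (O : ValuationSubring F) (a : l) : HV O (algebraMap l F a) a := by simp [HV]

theorem HV.add (h : HV O x a) (h' : HV O y b) : HV O (x + y) (a + b) := by
  have := O.valuation.map_add_lt h h'
  rw [HV, map_add]
  convert this using 2
  ring

theorem HV.mul (ht : Triv l O) (h : HV O x a) (h' : HV O y b) : HV O (x * y) (a * b) := by
  have h1 : O.valuation ((x - algebraMap l F a) * y) < 1 := by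
    rw [map_mul]
    exact mul_lt_one_of_lt_of_le h ((O.valuation_le_one_iff _).2 (h'.mem ht))
  have h2 : O.valuation ((y - algebraMap l F b) * algebraMap l F a) < 1 := by
    rw [map_mul]
    exact mul_lt_one_of_lt_of_le h' ((O.valuation_le_one_iff _).2 (ht a))
  have := O.valuation.map_add_lt h1 h2
  rw [HV, map_mul]
  convert this using 2
  ring

theorem HV.pow (ht : Triv l O) (h : HV O x a) (n : ℕ) : HV O (x ^ n) (a ^ n) := by
  induction n with
  | zero => simpa using hv_const O (1 : l)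
  | succ n ih => rw [pow_succ, pow_succ]; exact ih.mul ht h

theorem HV.sum {ι : Type*} (s : Finset ι) {x : ι → F} {a : ι → l}
    (h : ∀ i ∈ s, HV O (x i) (a i)) : HV O (∑ i ∈ s, x i) (∑ i ∈ s, a i) := by
  rw [HV, map_sum, ← Finset.sum_sub_distrib]
  exact O.valuation.map_sum_lt one_ne_zero h

theorem HV.sub_lt (h : HV O x a) (h' : HV O y a) : O.valuation (x - y) < 1 := by
  have := O.valuation.map_sub_lt h h'
  rwa [sub_sub_sub_cancel_right] at this

theorem HV.unique (ht : Triv l O) (h : HV O x a) (h' : HV O x b) : a = b := val_unique ht h h'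

theorem HV.val_one (ht : Triv l O) (h : HV O x a) (ha : a ≠ 0) : O.valuation x = 1 := by
  have h1 := ht.val_eq_one ha
  have := O.valuation.map_add_eq_of_lt_left (x := algebraMap l F a) (y := x - algebraMap l F a)
    (by rw [h1]; exact h)
  rwa [add_sub_cancel, h1] at this

theorem hv_comap (φ : F' →+* F) (hφ : ∀ a : l, φ (algebraMap l F' a) = algebraMap l F a)
    (x : F') : HV (O.comap φ) x a ↔ HV O (φ x) a := by
  rw [HV, HV, comap_val_lt_one, map_sub, hφ]

theorem triv_comap (φ : F' →+* F) (hφ : ∀ a : l, φ (algebraMap l F' a) = algebraMap l F a) :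
    Triv l (O.comap φ) ↔ Triv l O :=
  forall_congr' fun a => by rw [ValuationSubring.mem_comap, hφ]

theorem exists_valueHom (ht : Triv l O) (hr : ∀ x ∈ O, ∃ a : l, HV O x a) {B : Type*} [CommRing B]
    [Algebra l B] (Ψ : B →ₐ[l] F) (hΨ : ∀ b, Ψ b ∈ O) :
    ∃ χ : B →ₐ[l] l, ∀ b, HV O (Ψ b) (χ b) := by
  choose f hf using fun b => hr _ (hΨ b)
  refine ⟨{ toFun := f, map_one' := ?_, map_mul' := fun a b => ?_, map_zero' := ?_,
            map_add' := fun a b => ?_, commutes' := fun a => ?_ }, hf⟩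
  · exact (hf 1).unique ht (by simpa using hv_const O (1 : l))
  · exact (hf _).unique ht (by rw [map_mul]; exact (hf a).mul ht (hf b))
  · exact (hf 0).unique ht (by simpa using hv_const O (0 : l))
  · exact (hf _).unique ht (by rw [map_add]; exact (hf a).add (hf b))
  · exact (hf _).unique ht (by rw [AlgHom.commutes]; exact hv_const O a)

theorem mem_adjoin (ht : Triv l O) {B : Type*} [CommRing B] [Algebra l B] {S : Set B}
    (Ψ : Algebra.adjoin l S →ₐ[l] F)
    (hΨ : ∀ s (hs : s ∈ S), Ψ ⟨s, Algebra.subset_adjoin hs⟩ ∈ O) (b : Algebra.adjoin l S) :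
    Ψ b ∈ O := by
  obtain ⟨b, hb⟩ := b
  induction hb using Algebra.adjoin_induction with
  | mem s hs => exact hΨ s hs
  | algebraMap a => exact (Ψ.commutes a).symm ▸ ht a
  | add x y hx hy ih ih' => exact (map_add Ψ ⟨x, hx⟩ ⟨y, hy⟩).symm ▸ O.add_mem _ _ ih ih'
  | mul x y hx hy ih ih' => exact (map_mul Ψ ⟨x, hx⟩ ⟨y, hy⟩).symm ▸ O.mul_mem _ _ ih ih'

theorem pow_mem_iff {n : ℕ} (hn : n ≠ 0) : x ^ n ∈ O ↔ x ∈ O := by
  rw [← O.valuation_le_one_iff, ← O.valuation_le_one_iff, map_pow, pow_le_one_iff hn]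

end hv

theorem tendsto_of_injOn {α β : Type*} {P : α → β} {Bad : Set α} (hB : Bad.Finite)
    (h : Set.InjOn P Badᶜ) : Tendsto P cofinite cofinite := by
  intro s hs
  rw [mem_map, mem_cofinite] at *
  refine (hB.union (Set.Finite.of_finite_image (s := Badᶜ ∩ P ⁻¹' sᶜ) (f := P)
    (hs.subset ?_) (h.mono Set.inter_subset_left))).subset fun u hu => ?_
  · rintro _ ⟨u, hu, rfl⟩
    exact hu.2
  · by_cases hb : u ∈ Bad
    · exact Or.inl hb
    · exact Or.inr ⟨hb, hu⟩

section curve

variable {l C Ω α : Type*} [Field l] [IsAlgClosed l] [Field C] [Algebra l C]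

theorem ev_unit (hC : IsCurve l C) {P : α → Place l C} (hP : Tendsto P cofinite cofinite)
    (y : C) (hy : y ≠ 0) : ∀ᶠ u in cofinite, (P u).O.valuation y = 1 :=
  hP.eventually (p := fun z : Place l C => z.O.valuation y = 1) (finite_support hC hy)

theorem ev_hv (hC : IsCurve l C) {P : α → Place l C} (hP : Tendsto P cofinite cofinite)
    (y : C) : ∀ᶠ u in cofinite, HV (P u).O y (ev l (P u).O y) :=
  (hP.eventually (eventually_mem hC y)).mono fun u hu => (P u).val_sub_ev hC hu

theorem dbl {C' β ι : Type*} [Field C'] [Algebra l C'] (hC : IsCurve l C) (hC' : IsCurve l C')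
    {P : α → Place l C} (hP : Tendsto P cofinite cofinite) {P' : β → Place l C'}
    (hP' : Tendsto P' cofinite cofinite) (s : Finset ι) (a : ι → C) (b : ι → C') (φ : C →ₗ[l] l)
    (h : ∑ i ∈ s, φ (a i) • b i ≠ 0) : ∀ᶠ r in cofinite, ∀ᶠ u in cofinite,
      ∑ i ∈ s, ev l (P u).O (a i) * ev l (P' r).O (b i) ≠ 0 := by
  filter_upwards [ev_unit hC' hP' _ h,
    (eventually_all_finset s).2 fun i _ => ev_hv hC' hP' (b i)] with r h1 h2
  have h3 : ∑ i ∈ s, ev l (P' r).O (b i) • a i ≠ 0 := by
    intro h0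
    have h4 : HV (P' r).O (∑ i ∈ s, φ (a i) • b i) (∑ i ∈ s, φ (a i) * ev l (P' r).O (b i)) :=
      HV.sum s fun i hi => by
        rw [Algebra.smul_def]
        exact (hv_const _ _).mul (P' r).triv (h2 i hi)
    have h5 : ∑ i ∈ s, φ (a i) * ev l (P' r).O (b i) = 0 := by
      simpa [mul_comm] using congrArg φ h0
    rw [h5, HV, map_zero, sub_zero, h1] at h4
    exact lt_irrefl _ h4
  filter_upwards [ev_unit hC hP _ h3,
    (eventually_all_finset s).2 fun i _ => ev_hv hC hP (a i)] with u h4 h5 h0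
  have h6 : HV (P u).O (∑ i ∈ s, ev l (P' r).O (b i) • a i)
      (∑ i ∈ s, ev l (P u).O (a i) * ev l (P' r).O (b i)) :=
    HV.sum s fun i hi => by
      rw [Algebra.smul_def, mul_comm (ev l (P u).O (a i))]
      exact (hv_const _ _).mul (P u).triv (h5 i hi)
  rw [h0, HV, map_zero, sub_zero, h4] at h6
  exact lt_irrefl _ h6

theorem rational (hC : IsCurve l C) (z : Place l C) (𝔓 : ValuationSubring (AlgebraicClosure C))
    (h : 𝔓.comap (algebraMap C _) = z.O) : ∀ x ∈ 𝔓, ∃ a : l, HV 𝔓 x a := by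
  intro x hx
  by_contra hn
  have h1 : res 𝔓 x ∉ resConst l 𝔓 := by
    rintro ⟨a, ha, h1⟩
    exact hn ⟨a, (res_eq_iff hx ha).1 h1.symm⟩
  have ht : Triv l 𝔓 := (triv_comap (algebraMap C _)
    fun a => (IsScalarTower.algebraMap_apply l C _ a).symm).1 (h ▸ z.triv)
  obtain ⟨y, hy⟩ : ∃ y : C, y ∉ z.O := by
    by_contra! h2
    exact z.ne_top (eq_top_iff.2 fun y _ => h2 y)
  have hy' : algebraMap C (AlgebraicClosure C) y ∉ 𝔓 := by rwa [← h] at hy
  have h2 := (algebraicIndependent_of_valIndep (valIndep_single ht hy')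
    (isGauss_single hx h1)).lift_cardinalMk_le_trdeg
  rw [← trdeg_add_eq l C, hC.trdeg, trdeg_eq_zero] at h2
  simp at h2

end curve

theorem exists_functional_sum {l C C' L ι : Type*} [Field l] [Field C] [Field C'] [Field L]
    [Algebra l C] [Algebra l C'] [Algebra l L] (f : C →ₐ[l] L) (f' : C' →ₐ[l] L) (s : Finset ι)
    (a : ι → C) (b : ι → C') (h : ∑ i ∈ s, f (a i) * f' (b i) ≠ 0) :
    ∃ φ : C →ₗ[l] l, ∑ i ∈ s, φ (a i) • b i ≠ 0 := by
  classical
  by_contra! hn
  let B := Module.Basis.ofVectorSpace l C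
  let T := s.biUnion fun i => (B.repr (a i)).support
  have h1 : ∀ i ∈ s, a i = ∑ j ∈ T, B.repr (a i) j • B j := fun i hi => by
    conv_lhs => rw [← B.linearCombination_repr (a i), Finsupp.linearCombination_apply]
    exact Finsupp.sum_of_support_subset _
      (Finset.subset_biUnion_of_mem (fun i => (B.repr (a i)).support) hi) _ fun _ _ => by simp
  apply h
  calc ∑ i ∈ s, f (a i) * f' (b i) = ∑ i ∈ s, ∑ j ∈ T, f (B j) * f' (B.coord j (a i) • b i) := by
        refine Finset.sum_congr rfl fun i hi => ?_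
        conv_lhs => rw [h1 i hi]
        rw [map_sum, Finset.sum_mul]
        refine Finset.sum_congr rfl fun j _ => ?_
        simp
    _ = 0 := by
        rw [Finset.sum_comm]
        refine Finset.sum_eq_zero fun j _ => ?_
        rw [← Finset.mul_sum, ← map_sum, hn, map_zero, mul_zero]

end Vale.Agent.P019.H2
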