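import Vale.Agent.P019.H2Web1

/-! P019: from a field embedding compatible with the places to the relations `GRel`. -/

open IntermediateField Filter

namespace Vale.Agent.P019.H2

variable {l C₁ C₂ α : Type*} [Field l] [IsAlgClosed l] [Field C₁] [Algebra l C₁] [Field C₂]
  [Algebra l C₂] [Infinite α]

theorem eq_of_hv (hC : IsCurve l C₁) {P : α → Place l C₁} (hP : Tendsto P cofinite cofinite)
    {x y : AlgebraicClosure C₁} (h : ∀ᶠ u in cofinite, ∀ 𝔓 : ValuationSubring (AlgebraicClosure C₁),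
      𝔓.comap (algebraMap C₁ _) = (P u).O → ∃ a : l, HV 𝔓 x a ∧ HV 𝔓 y a) : x = y := by
  by_contra hne
  obtain ⟨u, h1, h2⟩ := (h.and (ev_val_alg (W := fun u => (P u).O) (ev_unit hC hP)
    (Algebra.IsAlgebraic.isAlgebraic (x - y)) (sub_ne_zero.2 hne))).exists
  obtain ⟨𝔓, h𝔓⟩ := exists_comap_eq (algebraMap C₁ (AlgebraicClosure C₁)) (P u).O
  obtain ⟨a, h3, h4⟩ := h1 𝔓 h𝔓
  exact (h3.sub_lt h4).ne (h2 𝔓 h𝔓)

theorem final (h₁ : IsCurve l C₁) (h₂ : IsCurve l C₂) {P₁ : α → Place l C₁}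
    (t₁ : Tendsto P₁ cofinite cofinite) {P₂ : α → Place l C₂} (t₂ : Tendsto P₂ cofinite cofinite)
    {Gd : α → Prop} (hG : ∀ᶠ u in cofinite, Gd u) (Φ : C₂ →ₐ[l] AlgebraicClosure C₁)
    (hΦ : ∀ u, Gd u → ∀ 𝔓 : ValuationSubring (AlgebraicClosure C₁),
      𝔓.comap (algebraMap C₁ _) = (P₁ u).O → 𝔓.comap Φ.toRingHom = (P₂ u).O)
    (hσ : ∀ σ : AlgebraicClosure C₁ →+* AlgebraicClosure C₁, (∀ e, σ (Φ e) = Φ e) →
      ∀ᶠ u in cofinite, ∀ 𝔓 : ValuationSubring (AlgebraicClosure C₁),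
        𝔓.comap (algebraMap C₁ _) = (P₁ u).O → 𝔓.comap (σ.comp (algebraMap C₁ _)) = (P₁ u).O) :
    (∀ e₂, ∃ e₁ j, GRel P₁ P₂ e₁ e₂ j) ∧ (∀ e₁, ∃ e₂ j, GRel P₂ P₁ e₂ e₁ j) ∧
      ∀ u, Gd u → ∀ e₁ e₂ j, GRel P₁ P₂ e₁ e₂ j → (e₂ ∈ (P₂ u).O ↔ e₁ ∈ (P₁ u).O) := by
  set Ω := AlgebraicClosure C₁
  set ι := algebraMap C₁ Ω
  have hι : ∀ a : l, ι (algebraMap l C₁ a) = algebraMap l Ω a := fun a =>
    (IsScalarTower.algebraMap_apply l C₁ Ω a).symm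
  have hp : ringExpChar Ω = ringExpChar l := by
    have := expChar_of_injective_algebraMap (algebraMap l Ω).injective (ringExpChar l)
    exact ringExpChar.eq Ω _
  have htr : ∀ u (𝔓 : ValuationSubring Ω), 𝔓.comap ι = (P₁ u).O → Triv l 𝔓 := fun u 𝔓 h =>
    (triv_comap ι hι).1 (h ▸ (P₁ u).triv)
  have e₁v : ∀ e, ∀ᶠ u in cofinite, ∀ 𝔓 : ValuationSubring Ω, 𝔓.comap ι = (P₁ u).O →
      HV 𝔓 (ι e) (ev l (P₁ u).O e) := fun e =>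
    (ev_hv h₁ t₁ e).mono fun u hu 𝔓 h => (hv_comap ι hι e).1 (h ▸ hu)
  have e₂v : ∀ e, ∀ᶠ u in cofinite, ∀ 𝔓 : ValuationSubring Ω, 𝔓.comap ι = (P₁ u).O →
      HV 𝔓 (Φ e) (ev l (P₂ u).O e) := fun e =>
    (hG.and (ev_hv h₂ t₂ e)).mono fun u hu 𝔓 h =>
      (hv_comap Φ.toRingHom Φ.commutes e).1 (hΦ u hu.1 𝔓 h ▸ hu.2)
  refine ⟨fun e₂ => ?_, fun e₁ => ?_, fun u hu e₁ e₂ j h => ?_⟩
  · obtain ⟨j, e₁, he⟩ : ∃ j, Φ e₂ ^ ringExpChar Ω ^ j ∈ ι.fieldRange := by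
      by_contra! hn
      obtain ⟨σ, h1, h2⟩ := exists_hom_ne ι.fieldRange hn
      have h3 : σ.comp ι = ι := RingHom.ext fun e => h1 _ ⟨e, rfl⟩
      refine h2 (eq_of_hv h₁ t₁ ((e₂v e₂).mono fun u hu 𝔓 h => ⟨_, ?_, hu 𝔓 h⟩))
      refine (hv_comap σ (fun a => ?_) _).1 (hu _ ?_)
      · rw [← hι]; exact h1 _ ⟨_, rfl⟩
      · rw [ValuationSubring.comap_comap, h3, h]
    refine ⟨e₁, j, ?_⟩
    filter_upwards [e₁v e₁, e₂v e₂] with u h1 h2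
    obtain ⟨𝔓, h⟩ := exists_comap_eq ι (P₁ u).O
    refine (h1 𝔓 h).unique (htr u 𝔓 h) ?_
    rw [he, hp]
    exact (h2 𝔓 h).pow (htr u 𝔓 h) _
  · obtain ⟨j, e₂, he⟩ : ∃ j, ι e₁ ^ ringExpChar Ω ^ j ∈ Φ.toRingHom.fieldRange := by
      by_contra! hn
      obtain ⟨σ, h1, h2⟩ := exists_hom_ne Φ.toRingHom.fieldRange hn
      have h3 : ∀ e, σ (Φ e) = Φ e := fun e => h1 _ ⟨e, rfl⟩
      refine h2 (eq_of_hv h₁ t₁ ?_)
      filter_upwards [hσ σ h3, e₁v e₁, ev_hv h₁ t₁ e₁] with u h4 h5 h6 𝔓 h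
      refine ⟨_, ?_, h5 𝔓 h⟩
      refine (hv_comap (σ.comp ι) (fun a => ?_) _).1 (h4 𝔓 h ▸ h6)
      rw [RingHom.comp_apply, hι, ← Φ.commutes, h3]
    refine ⟨e₂, j, ?_⟩
    filter_upwards [e₁v e₁, e₂v e₂] with u h1 h2
    obtain ⟨𝔓, h⟩ := exists_comap_eq ι (P₁ u).O
    refine (h2 𝔓 h).unique (htr u 𝔓 h) ?_
    rw [show Φ e₂ = _ from he, hp]
    exact (h1 𝔓 h).pow (htr u 𝔓 h) _
  · have he : ι e₁ = Φ e₂ ^ ringExpChar l ^ j := by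
      refine eq_of_hv h₁ t₁ ?_
      filter_upwards [h, e₁v e₁, e₂v e₂] with u h0 h1 h2 𝔓 h
      exact ⟨_, h1 𝔓 h, h0 ▸ (h2 𝔓 h).pow (htr u 𝔓 h) _⟩
    obtain ⟨𝔓, h⟩ := exists_comap_eq ι (P₁ u).O
    rw [← hΦ u hu 𝔓 h, ← h, ValuationSubring.mem_comap, ValuationSubring.mem_comap, he,
      pow_mem_iff (expChar_pow_pos l _ j).ne']
    rfl

end Vale.Agent.P019.H2
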