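import Vale.Agent.P019.H2Web2

/-! P019: construction of the field embedding attached to a member of the web. -/

open IntermediateField Filter

namespace Vale.Agent.P019.H2

variable {l L C₁ C₂ C₃ α : Type*} [Field l] [IsAlgClosed l] [Field L] [Algebra l L] [Field C₁]
  [Algebra l C₁] [Field C₂] [Algebra l C₂] [Field C₃] [Algebra l C₃] [Infinite α]

/-- values on `S` determine a valuation ring -/
def Sep (l : Type*) {C : Type*} [Field l] [Field C] [Algebra l C] (S : Finset C) : Prop :=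
  ∀ O O' : ValuationSubring C, Triv l O → Triv l O' →
    (∀ s ∈ S, ∃ a : l, HV O s a ∧ HV O' s a) → O = O'

theorem exists_phi (h₁ : IsCurve l C₁) (h₂ : IsCurve l C₂) {P₁ : α → Place l C₁}
    (t₁ : Tendsto P₁ cofinite cofinite) {P₂ : α → Place l C₂} (t₂ : Tendsto P₂ cofinite cofinite)
    {B₁ B₂ : Set α} (i₁ : Set.InjOn P₁ B₁ᶜ) (i₂ : Set.InjOn P₂ B₂ᶜ) (ι₂ : C₂ →ₐ[l] L)
    {S' : Finset L} (Ψ : Algebra.adjoin l (S' : Set L) →ₐ[l] AlgebraicClosure C₁)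
    {S₂ : Finset C₂} (s₂ : Sep l S₂) (m₂ : ∀ s ∈ S₂, ι₂ s ∈ Algebra.adjoin l (S' : Set L))
    (gen : ∀ e : C₂, ∃ x y, ι₂ x ∈ Algebra.adjoin l (S' : Set L) ∧
      ι₂ y ∈ Algebra.adjoin l (S' : Set L) ∧ e = x / y)
    (KF : ∀ 𝔓 : ValuationSubring (AlgebraicClosure C₁), Triv l 𝔓 → (∀ x ∈ 𝔓, ∃ a : l, HV 𝔓 x a) →
      (∀ b, Ψ b ∈ 𝔓) → ∃ u ∉ B₁, u ∉ B₂ ∧ 𝔓.comap (algebraMap C₁ _) = (P₁ u).O ∧
        ∀ e h, ∃ a : l, HV (P₂ u).O e a ∧ HV 𝔓 (Ψ ⟨ι₂ e, h⟩) a)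
    {Gd : α → Prop} (hG : ∀ᶠ u in cofinite, Gd u)
    (hGd : ∀ u, Gd u → u ∉ B₁ ∧ ∀ 𝔓 : ValuationSubring (AlgebraicClosure C₁),
      𝔓.comap (algebraMap C₁ _) = (P₁ u).O → ∀ b, Ψ b ∈ 𝔓) :
    (∀ e₂, ∃ e₁ j, GRel P₁ P₂ e₁ e₂ j) ∧ (∀ e₁, ∃ e₂ j, GRel P₂ P₁ e₂ e₁ j) ∧
      ∀ u, Gd u → ∀ e₁ e₂ j, GRel P₁ P₂ e₁ e₂ j → (e₂ ∈ (P₂ u).O ↔ e₁ ∈ (P₁ u).O) := by
  let Ω := AlgebraicClosure C₁
  let ι := algebraMap C₁ Ω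
  let B := Algebra.adjoin l (S' : Set L)
  have hι : ∀ a : l, ι (algebraMap l C₁ a) = algebraMap l Ω a := fun a =>
    (IsScalarTower.algebraMap_apply l C₁ Ω a).symm
  have htr : ∀ u (𝔓 : ValuationSubring Ω), 𝔓.comap ι = (P₁ u).O → Triv l 𝔓 := fun u 𝔓 h =>
    (triv_comap ι hι).1 (h ▸ (P₁ u).triv)
  let A : Subalgebra l C₂ := B.comap ι₂
  let ψ : A →ₐ[l] Ω := Ψ.comp ((ι₂.comp A.val).codRestrict B fun e => e.2)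
  have K1 : ∀ u, Gd u → ∀ 𝔓 : ValuationSubring Ω, 𝔓.comap ι = (P₁ u).O →
      u ∉ B₂ ∧ ∀ e : A, ∃ a : l, HV (P₂ u).O e a ∧ HV 𝔓 (ψ e) a := fun u hu 𝔓 h => by
    obtain ⟨u', h1, h2, h3, h4⟩ := KF 𝔓 (htr u 𝔓 h) (rational h₁ _ 𝔓 h) ((hGd u hu).2 𝔓 h)
    obtain rfl : u' = u := i₁ h1 (hGd u hu).1 (Place.ext (h3.symm.trans h))
    exact ⟨h2, fun e => h4 e e.2⟩
  have hinj : Function.Injective ψ := by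
    refine (injective_iff_map_eq_zero ψ).2 fun e he => ?_
    by_contra h0
    obtain ⟨u, h1, h2⟩ := (hG.and (ev_unit h₂ t₂ e (by simpa using h0))).exists
    obtain ⟨𝔓, h⟩ := exists_comap_eq ι (P₁ u).O
    obtain ⟨a, h3, h4⟩ := (K1 u h1 𝔓 h).2 e
    rw [he] at h4
    obtain rfl : a = 0 := h4.unique (htr u 𝔓 h) (by simpa using hv_const 𝔓 (0 : l))
    rw [HV, map_zero, sub_zero, h2] at h3
    exact lt_irrefl _ h3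
  have : IsFractionRing A C₂ := IsFractionRing.of_field A C₂ fun e => by
    obtain ⟨x, y, hx, hy, he⟩ := gen e
    exact ⟨⟨x, hx⟩, ⟨y, hy⟩, he⟩
  let Φ : C₂ →ₐ[l] Ω := IsFractionRing.liftAlgHom hinj
  have hΦ : ∀ e : A, Φ e = ψ e := fun e => IsFractionRing.lift_algebraMap (g := ψ.toRingHom) hinj e
  have sep : ∀ (𝔓 : ValuationSubring Ω) (z : Place l C₂), Triv l 𝔓 →
      (∀ e : A, ∃ a : l, HV z.O e a ∧ HV 𝔓 (ψ e) a) → 𝔓.comap Φ.toRingHom = z.O :=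
    fun 𝔓 z ht h => s₂ _ _ ((triv_comap _ Φ.commutes).2 ht) z.triv fun s hs => by
      obtain ⟨a, h1, h2⟩ := h ⟨s, m₂ s hs⟩
      exact ⟨a, (hv_comap _ Φ.commutes s).2 (hΦ ⟨s, m₂ s hs⟩ ▸ h2), h1⟩
  have hP : ∀ u, Gd u → ∀ 𝔓 : ValuationSubring Ω, 𝔓.comap ι = (P₁ u).O →
      𝔓.comap Φ.toRingHom = (P₂ u).O := fun u hu 𝔓 h => sep 𝔓 _ (htr u 𝔓 h) (K1 u hu 𝔓 h).2
  refine final h₁ h₂ t₁ t₂ hG Φ hP fun σ hσ => ?_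
  have hσl : ∀ a : l, σ (algebraMap l Ω a) = algebraMap l Ω a := fun a => by
    rw [← Φ.commutes, hσ]
  have h1 : ∀ᶠ u in cofinite, ∀ s ∈ S'.attach, ∀ 𝔓 : ValuationSubring Ω, 𝔓.comap ι = (P₁ u).O →
      σ (Ψ ⟨s, Algebra.subset_adjoin s.2⟩) ∈ 𝔓 :=
    (eventually_all_finset _).2 fun s _ => ev_mem_alg (W := fun u => (P₁ u).O) (ev_unit h₁ t₁)
      (Algebra.IsAlgebraic.isAlgebraic _)
  filter_upwards [hG, h1] with u hu h1 𝔓 h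
  have ht : Triv l (𝔓.comap σ) := (triv_comap σ hσl).2 (htr u 𝔓 h)
  obtain ⟨u', -, h2, h3, h4⟩ := KF (𝔓.comap σ) ht (fun x hx => by
      obtain ⟨a, ha⟩ := rational h₁ _ 𝔓 h (σ x) hx
      exact ⟨a, (hv_comap σ hσl x).2 ha⟩)
    (mem_adjoin ht Ψ fun s hs => h1 ⟨s, hs⟩ (Finset.mem_attach _ _) 𝔓 h)
  have h5 := sep _ (P₂ u') ht fun e => h4 e e.2
  rw [ValuationSubring.comap_comap, show σ.comp Φ.toRingHom = Φ.toRingHom from RingHom.ext hσ,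
    hP u hu 𝔓 h] at h5
  obtain rfl : u = u' := i₂ (K1 u hu 𝔓 h).1 h2 (Place.ext h5)
  rw [← ValuationSubring.comap_comap, h3]

omit [IsAlgClosed l] [Infinite α] in
theorem kf {P₁ : α → Place l C₁} {P₂ : α → Place l C₂} {P₃ : α → Place l C₃} {g : α → α → α}
    {Bad : Set α} (i₃ : Set.InjOn P₃ Badᶜ) (ι₁ : C₁ →ₐ[l] L) (ι₂ : C₂ →ₐ[l] L) (ι₃ : C₃ →ₐ[l] L)
    {B : Subalgebra l L} (H : ∀ χ : B →ₐ[l] l, ∃ w : ValuationSubring L,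
      (∀ b : B, HV w b (χ b)) ∧ ∃ u ∉ Bad, ∃ r ∉ Bad, g r u ∉ Bad ∧
        w.comap ι₁.toRingHom = (P₁ u).O ∧ w.comap ι₃.toRingHom = (P₃ r).O ∧
        w.comap ι₂.toRingHom = (P₂ (g r u)).O)
    {S₁ : Finset C₁} (s₁ : Sep l S₁) {S₃ : Finset C₃} (s₃ : Sep l S₃) {r : α} (hr : r ∉ Bad)
    (Ψ : B →ₐ[l] AlgebraicClosure C₁)
    (m₁ : ∀ s ∈ S₁, ∃ h, Ψ ⟨ι₁ s, h⟩ = algebraMap C₁ _ s)
    (m₃ : ∀ s ∈ S₃, ∃ h, ∃ a : l, HV (P₃ r).O s a ∧ Ψ ⟨ι₃ s, h⟩ = algebraMap l _ a)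
    (𝔓 : ValuationSubring (AlgebraicClosure C₁)) (ht : Triv l 𝔓)
    (hrat : ∀ x ∈ 𝔓, ∃ a : l, HV 𝔓 x a) (hΨ : ∀ b, Ψ b ∈ 𝔓) :
    ∃ u ∉ Bad, g r u ∉ Bad ∧ 𝔓.comap (algebraMap C₁ _) = (P₁ u).O ∧
      ∀ e h, ∃ a : l, HV (P₂ (g r u)).O e a ∧ HV 𝔓 (Ψ ⟨ι₂ e, h⟩) a := by
  obtain ⟨χ, hχ⟩ := exists_valueHom ht hrat Ψ hΨ
  obtain ⟨w, hw, u, hu, r', hr', hg, h1, h3, h2⟩ := H χ
  have hι : ∀ a : l, algebraMap C₁ (AlgebraicClosure C₁) (algebraMap l C₁ a) = algebraMap l _ a :=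
    fun a => (IsScalarTower.algebraMap_apply l C₁ _ a).symm
  obtain rfl : r' = r := i₃ hr' hr (Place.ext (s₃ _ _ (P₃ r').triv (P₃ r).triv fun s hs => by
    obtain ⟨h, a, h4, h5⟩ := m₃ s hs
    refine ⟨a, ?_, h4⟩
    have h6 : χ ⟨_, h⟩ = a := (hχ ⟨_, h⟩).unique ht (h5 ▸ hv_const 𝔓 a)
    rw [← h3, hv_comap _ ι₃.commutes, ← h6]
    exact hw ⟨_, h⟩))
  refine ⟨u, hu, hg, s₁ _ _ ((triv_comap _ hι).2 ht) (P₁ u).triv fun s hs => ?_, fun e h => ?_⟩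
  · obtain ⟨h, h4⟩ := m₁ s hs
    refine ⟨χ ⟨_, h⟩, (hv_comap _ hι s).2 (h4 ▸ hχ ⟨_, h⟩), ?_⟩
    rw [← h1, hv_comap _ ι₁.commutes]
    exact hw ⟨_, h⟩
  · refine ⟨χ ⟨_, h⟩, ?_, hχ _⟩
    rw [← h2, hv_comap _ ι₂.commutes]
    exact hw ⟨_, h⟩

end Vale.Agent.P019.H2
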