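import Vale.Agent.P019.Base

/-! P019: the Arason-Elman-Jacob valuation attached to a pair `T ≤ H`. -/

namespace Vale.Agent.P019

variable {ℓ : ℕ} [Fact ℓ.Prime] {F F' : Type*} [Field F] [Field F']

/-- functionals killing `H` are alternating with those killing `T` -/
def Cent (T H : Submodule (ZMod ℓ) (V ℓ F)) : Prop :=
  ∀ f g : Module.Dual (ZMod ℓ) (V ℓ F), H ≤ LinearMap.ker f → T ≤ LinearMap.ker g → Acl f g

namespace AEJ

variable {T H : Submodule (ZMod ℓ) (V ℓ F)}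

theorem exists_lam (hC : Cent T H) {x : F} (hx : cl ℓ x ∉ H) :
    ∃ c : ZMod ℓ, cl ℓ (1 - x) - c • cl ℓ x ∈ T := by
  have hx0 : x ≠ 0 := by rintro rfl; exact hx (by simp)
  have hx1 : x ≠ 1 := by rintro rfl; exact hx (by simp)
  obtain ⟨f, hf, hfH⟩ := H.exists_dual_map_eq_bot_of_notMem hx inferInstance
  have hfH' : H ≤ LinearMap.ker f := by
    intro v hv
    have : f v ∈ H.map f := Submodule.mem_map_of_mem hv
    rw [hfH] at this
    exact this
  refine ⟨f (cl ℓ (1 - x)) / f (cl ℓ x), ?_⟩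
  rw [← Subspace.forall_mem_dualAnnihilator_apply_eq_zero_iff]
  intro g hg
  have hgT : T ≤ LinearMap.ker g := fun v hv => (Submodule.mem_dualAnnihilator g).1 hg v hv
  have := hC f g hfH' hgT x hx0 hx1
  rw [map_sub, map_smul, smul_eq_mul]
  field_simp
  linear_combination this

theorem rigid (hTH : T ≤ H) (hneg : cl ℓ (-1 : F) ∈ T) (hC : Cent T H) {u : F} (hu0 : u ≠ 0)
    (hu1 : u ≠ 1) (hu : ∀ a b : ZMod ℓ, a • cl ℓ u + b • cl ℓ (1 - u) ∈ T → a = 0 ∧ b = 0) :
    cl ℓ u ∈ H ∧ cl ℓ (1 - u) ∈ H ∧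
      ∀ x : F, cl ℓ x ∉ H → cl ℓ (1 - x) ∈ T ∨ cl ℓ (1 - x) - cl ℓ x ∈ T := by
  have hU : cl ℓ u ∈ H := by
    by_contra h
    obtain ⟨c, hc⟩ := exists_lam hC h
    have := (hu (-c) 1 (by convert hc using 1; module)).2
    exact one_ne_zero this
  have hU' : cl ℓ (1 - u) ∈ H := by
    by_contra h
    obtain ⟨c, hc⟩ := exists_lam hC h
    rw [sub_sub_cancel] at hc
    have := (hu 1 (-c) (by convert hc using 1; module)).1
    exact one_ne_zero this
  refine ⟨hU, hU', fun x hx => ?_⟩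
  have hx0 : x ≠ 0 := by rintro rfl; exact hx (by simp)
  have hx1 : 1 - x ≠ 0 := by
    intro h
    rw [← sub_eq_zero.1 h] at hx
    exact hx (by simp)
  have hu1' : 1 - u ≠ 0 := sub_ne_zero.2 hu1.symm
  obtain ⟨c, hc⟩ := exists_lam hC hx
  by_cases hc0 : c = 0
  · left; simpa [hc0] using hc
  right
  have h1x : cl ℓ (1 - x) ∉ H := by
    intro h
    have h2 : c • cl ℓ x ∈ H := by
      have := H.sub_mem h (hTH hc)
      simpa using this
    exact hx ((H.smul_mem_iff hc0).1 h2)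
  have hux : cl ℓ (u * x) ∉ H := by
    rw [cl_mul hu0 hx0]
    exact fun h => hx ((H.add_mem_iff_right hU).1 h)
  have hux1 : 1 - u * x ≠ 0 := by
    intro h
    rw [← sub_eq_zero.1 h] at hux
    exact hux (by simp)
  obtain ⟨c', hc'⟩ := exists_lam hC hux
  have es : cl ℓ (-1 * u * (1 - x) / (1 - u)) =
      cl ℓ (-1 : F) + cl ℓ u + cl ℓ (1 - x) - cl ℓ (1 - u) := by
    rw [cl_div (by simp [hu0, hx1]) hu1', cl_mul (by simp [hu0]) hx1, cl_mul (by simp) hu0]
  have hs : cl ℓ (-1 * u * (1 - x) / (1 - u)) ∉ H := by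
    rw [es]
    intro h
    apply h1x
    have := H.sub_mem (H.add_mem h hU') (H.add_mem (hTH hneg) hU)
    convert this using 1
    abel
  obtain ⟨c'', hc''⟩ := exists_lam hC hs
  have e1 : 1 - -1 * u * (1 - x) / (1 - u) = (1 - u * x) / (1 - u) := by field_simp; ring
  rw [e1, cl_div hux1 hu1', es] at hc''
  rw [cl_mul hu0 hx0] at hc'
  have key : (c' - c'') • cl ℓ u + (c'' - 1) • cl ℓ (1 - u) + (c' - c'' * c) • cl ℓ x ∈ T := by
    have := T.add_mem (T.add_mem (T.sub_mem hc'' hc') (T.smul_mem c'' hneg)) (T.smul_mem c'' hc)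
    convert this using 1
    module
  have h3 : c' - c'' * c = 0 := by
    by_contra h
    apply hx
    have h4 := hTH key
    rw [H.add_mem_iff_right (H.add_mem (H.smul_mem _ hU) (H.smul_mem _ hU'))] at h4
    exact (H.smul_mem_iff h).1 h4
  rw [h3, zero_smul, add_zero] at key
  obtain ⟨h4, h5⟩ := hu _ _ key
  have h6 : c = 1 := by linear_combination h4 - h3 + (1 - c) * h5
  simpa [h6] using hc

/-- the data of the construction -/
structure Dat (T H : Submodule (ZMod ℓ) (V ℓ F)) : Prop where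
  le : T ≤ H
  neg : cl ℓ (-1 : F) ∈ T
  rig : ∀ x : F, cl ℓ x ∉ H → cl ℓ (1 - x) ∈ T ∨ cl ℓ (1 - x) - cl ℓ x ∈ T
  ex : ∃ u : F, u ≠ 0 ∧ 1 - u ≠ 0 ∧ cl ℓ u ∈ H ∧ cl ℓ (1 - u) ∈ H ∧ cl ℓ u ∉ T ∧
    cl ℓ (1 - u) ∉ T ∧ cl ℓ (1 - u) - cl ℓ u ∉ T

/-- the set `M` -/
def MM (T H : Submodule (ZMod ℓ) (V ℓ F)) (x : F) : Prop := cl ℓ x ∉ H ∧ cl ℓ (1 + x) ∈ T

variable (D : Dat T H)
include D

theorem ne_zero {x : F} (hx : cl ℓ x ∉ H) : x ≠ 0 := by
  have _ := D
  rintro rfl; exact hx (by simp)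

theorem cl_neg_sub (x : F) : cl ℓ (-x) - cl ℓ x ∈ T := by
  by_cases hx : x = 0
  · simp [hx]
  · rw [← neg_one_mul, cl_mul (by simp) hx, add_sub_cancel_right]; exact D.neg

theorem neg_mem_H {x : F} : cl ℓ (-x) ∈ H ↔ cl ℓ x ∈ H := by
  have := D.le (cl_neg_sub D x)
  constructor
  · intro h; simpa using H.sub_mem h this
  · intro h; simpa using H.add_mem this h

theorem neg_mem_T {x : F} : cl ℓ (-x) ∈ T ↔ cl ℓ x ∈ T := by
  have := cl_neg_sub D x
  constructor
  · intro h; simpa using T.sub_mem h this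
  · intro h; simpa using T.add_mem this h

theorem one_add_ne {x : F} (hx : cl ℓ x ∉ H) : 1 + x ≠ 0 := by
  intro h
  rw [eq_neg_of_add_eq_zero_right h] at hx
  exact hx (D.le D.neg)

theorem rig' {x : F} (hx : cl ℓ x ∉ H) : cl ℓ (1 + x) ∈ T ∨ cl ℓ (1 + x) - cl ℓ x ∈ T := by
  have := D.rig (-x) (by rwa [neg_mem_H D])
  rw [sub_neg_eq_add] at this
  refine this.imp_right fun h => ?_
  have := T.add_mem h (cl_neg_sub D x)
  convert this using 1
  abel

theorem MM_or {x : F} (hx : cl ℓ x ∉ H) : MM T H x ∨ MM T H x⁻¹ := by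
  refine (rig' D hx).imp (fun h => ⟨hx, h⟩) fun h => ⟨by rwa [cl_inv, H.neg_mem_iff], ?_⟩
  have h0 := ne_zero D hx
  have e : 1 + x⁻¹ = (1 + x) / x := by field_simp; ring
  rwa [e, cl_div (one_add_ne D hx) h0]

theorem not_MM_both {x : F} (h1 : MM T H x) (h2 : MM T H x⁻¹) : False := by
  have h0 := ne_zero D h1.1
  have e : 1 + x⁻¹ = (1 + x) / x := by field_simp; ring
  have h3 := h2.2
  rw [e, cl_div (one_add_ne D h1.1) h0] at h3
  apply h1.1
  have := T.sub_mem h1.2 h3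
  exact D.le (by simpa using this)

theorem P_half {x y : F} (hx : MM T H x) (hy : MM T H y) :
    1 - x * y ≠ 0 ∧ (cl ℓ (1 - x * y) ∈ T ∨ cl ℓ (1 - x * y) - cl ℓ y ∈ T) := by
  have hx1 := one_add_ne D hx.1
  have hy1 := one_add_ne D hy.1
  have hy0 := ne_zero D hy.1
  have er : cl ℓ (y * (1 + x) / (1 + y)) = cl ℓ y + cl ℓ (1 + x) - cl ℓ (1 + y) := by
    rw [cl_div (mul_ne_zero hy0 hx1) hy1, cl_mul hy0 hx1]
  have hr : cl ℓ (y * (1 + x) / (1 + y)) ∉ H := by
    rw [er]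
    intro h
    apply hy.1
    have := H.sub_mem (H.add_mem h (D.le hy.2)) (D.le hx.2)
    convert this using 1
    abel
  have e : 1 - y * (1 + x) / (1 + y) = (1 - x * y) / (1 + y) := by field_simp; ring
  have hne : 1 - x * y ≠ 0 := by
    intro h
    have h2 : y * (1 + x) / (1 + y) = 1 := by
      rw [h, zero_div] at e
      exact (sub_eq_zero.1 e).symm
    rw [h2] at hr
    exact hr (by simp)
  refine ⟨hne, ?_⟩
  have := D.rig _ hr
  rw [e, cl_div hne hy1, er] at this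
  refine this.imp (fun h => ?_) fun h => ?_
  · simpa using T.add_mem h hy.2
  · have := T.add_mem h hx.2
    convert this using 1
    abel

theorem P_of_ne {x y : F} (hx : MM T H x) (hy : MM T H y) (hxy : cl ℓ x - cl ℓ y ∉ T) :
    cl ℓ (1 - x * y) ∈ T := by
  rcases (P_half D hx hy).2 with h1 | h1
  · exact h1
  rcases (P_half D hy hx).2 with h2 | h2
  · rwa [mul_comm]
  rw [mul_comm] at h2
  exact absurd (by simpa using T.sub_mem h1 h2) hxy

theorem P_full {x y : F} (hx : MM T H x) (hy : MM T H y) : cl ℓ (1 - x * y) ∈ T := by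
  by_contra hn
  have hxy : cl ℓ x - cl ℓ y ∈ T := by
    by_contra h
    exact hn (P_of_ne D hx hy h)
  have h1 := (P_half D hx hy).2.resolve_left hn
  have ht := (P_half D hx hy).1
  obtain ⟨u, hu0, hu1, hU, hU', hUT, hUT', hUU⟩ := D.ex
  have hx0 := ne_zero D hx.1
  have hux : cl ℓ (u * x) ∉ H := by
    rw [cl_mul hu0 hx0]
    exact fun h => hx.1 ((H.add_mem_iff_right hU).1 h)
  have hM : MM T H (u * x) := by
    refine (MM_or D hux).resolve_right fun h => ?_
    have h2 : cl ℓ x - cl ℓ (u * x)⁻¹ ∉ T := by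
      rw [cl_inv, cl_mul hu0 hx0]
      intro h2
      by_cases h3 : (2 : ZMod ℓ) = 0
      · apply hUT
        have e : cl ℓ x - -(cl ℓ u + cl ℓ x) = cl ℓ u + (2 : ZMod ℓ) • cl ℓ x := by module
        rwa [e, h3, zero_smul, add_zero] at h2
      · apply hx.1
        have e : (2 : ZMod ℓ) • cl ℓ x = cl ℓ x - -(cl ℓ u + cl ℓ x) - cl ℓ u := by module
        rw [← H.smul_mem_iff h3, e]
        exact H.sub_mem (D.le h2) hU
    have h3 := P_of_ne D hx h h2
    have e : 1 - x * (u * x)⁻¹ = -((1 - u) / u) := by field_simp; ring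
    rw [e, neg_mem_T D, cl_div hu1 hu0] at h3
    exact hUU h3
  have h2 : cl ℓ (u * x) - cl ℓ y ∉ T := by
    rw [cl_mul hu0 hx0]
    intro h2
    apply hUT
    have := T.sub_mem h2 hxy
    convert this using 1
    abel
  have h3 := P_of_ne D hM hy h2
  have hne := (P_half D hM hy).1
  have er : cl ℓ (u * (1 - x * y) / (1 - u)) = cl ℓ u + cl ℓ (1 - x * y) - cl ℓ (1 - u) := by
    rw [cl_div (mul_ne_zero hu0 ht) hu1, cl_mul hu0 ht]
  have ht' : cl ℓ (1 - x * y) ∉ H := by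
    intro h
    apply hy.1
    simpa using H.sub_mem h (D.le h1)
  have hr : cl ℓ (u * (1 - x * y) / (1 - u)) ∉ H := by
    rw [er]
    intro h
    apply ht'
    have := H.sub_mem (H.add_mem h hU') hU
    convert this using 1
    abel
  have e : 1 + u * (1 - x * y) / (1 - u) = (1 - u * x * y) / (1 - u) := by field_simp; ring
  have := rig' D hr
  rw [e, cl_div hne hu1, er] at this
  rcases this with h | h
  · apply hUT'
    simpa using T.sub_mem h3 h
  · apply ht'
    have := H.sub_mem (D.le (T.sub_mem h3 h)) hU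
    convert this using 1
    abel

theorem MM_frac {x : F} (hx : MM T H x) : MM T H (-x / (1 + x)) := by
  have h1 := one_add_ne D hx.1
  have h0 := ne_zero D hx.1
  constructor
  · rw [cl_div (neg_ne_zero.2 h0) h1]
    intro h
    apply hx.1
    rw [← neg_mem_H D]
    simpa using H.add_mem h (D.le hx.2)
  · have e : 1 + -x / (1 + x) = (1 + x)⁻¹ := by field_simp; ring
    rw [e, cl_inv]
    exact T.neg_mem hx.2

theorem MM_neg {x : F} (hx : MM T H x) : MM T H (-x) := by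
  have hn : cl ℓ (-x) ∉ H := by rw [neg_mem_H D]; exact hx.1
  refine (MM_or D hn).elim id fun h => ?_
  have h0 := ne_zero D hx.1
  have h1 : 1 + -x ≠ 0 := one_add_ne D hn
  have h1' : x - 1 ≠ 0 := fun e => h1 (by linear_combination -e)
  have h2 := P_full D hx (MM_frac D h)
  have e : 1 - x * (-(-x)⁻¹ / (1 + (-x)⁻¹)) = (1 + -x)⁻¹ := by
    have h3 : 1 + (-x)⁻¹ = (x - 1) / x := by field_simp; ring
    rw [h3]
    field_simp
    ring
  rw [e, cl_inv, T.neg_mem_iff] at h2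
  exact ⟨hn, h2⟩

theorem P_add {x y : F} (hx : MM T H x) (hy : MM T H y) :
    1 + x * y ≠ 0 ∧ cl ℓ (1 + x * y) ∈ T := by
  have h1 := (P_half D (MM_neg D hx) hy).1
  have h2 := P_full D (MM_neg D hx) hy
  rw [neg_mul, sub_neg_eq_add] at h1 h2
  exact ⟨h1, h2⟩

theorem MM_div {x : F} (hx : MM T H x) : MM T H (x / (1 + x)) := by
  have := MM_neg D (MM_frac D hx)
  rwa [neg_div, neg_neg] at this

theorem MM_mul_one_add {x y : F} (hx : MM T H x) (hy : MM T H y) : MM T H (y * (1 + x)) := by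
  have hx1 := one_add_ne D hx.1
  have hy1 := one_add_ne D hy.1
  have hy0 := ne_zero D hy.1
  constructor
  · rw [cl_mul hy0 hx1]
    exact fun h => hy.1 ((H.add_mem_iff_left (D.le hx.2)).1 h)
  · obtain ⟨h1, h2⟩ := P_add D hx (MM_div D hy)
    have e : 1 + y * (1 + x) = (1 + y) * (1 + x * (y / (1 + y))) := by field_simp; ring
    rw [e, cl_mul hy1 h1]
    exact T.add_mem hy.2 h2

theorem MM_div_one_add {x y : F} (hx : MM T H x) (hy : MM T H y) : MM T H (y / (1 + x)) := by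
  have hx1 := one_add_ne D hx.1
  have := MM_mul_one_add D (MM_frac D hx) hy
  have e : y * (1 + -x / (1 + x)) = y / (1 + x) := by field_simp; ring
  rwa [e] at this

theorem one_sub_mul_eq {a b : F} (ha : MM T H a) (hb : MM T H b) :
    ∃ b', MM T H b' ∧ 1 - a * b = (1 + b) * (1 + b') := by
  have hb1 := one_add_ne D hb.1
  refine ⟨-(b * (1 + a) / (1 + b)), MM_neg D (MM_div_one_add D hb (MM_mul_one_add D ha hb)), ?_⟩
  field_simp
  ring

theorem four {a b c d : F} (ha : MM T H a) (hb : MM T H b) (hc : MM T H c) (hd : MM T H d) :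
    a * b * (c * d) ≠ 1 := by
  intro h
  obtain ⟨b', hb', e1⟩ := one_sub_mul_eq D ha hb
  obtain ⟨d', hd', e2⟩ := one_sub_mul_eq D hc hd
  have h1 := MM_neg D (MM_div_one_add D hb' (MM_div_one_add D hb
    (MM_mul_one_add D hd' (MM_mul_one_add D hd hb))))
  have ha0 := ne_zero D ha.1
  have hb1 := one_add_ne D hb.1
  have hb1' := one_add_ne D hb'.1
  have e : -(b * (1 + d) * (1 + d') / (1 + b) / (1 + b')) = a⁻¹ := by
    rw [div_div, mul_assoc, ← e1, ← e2]
    have h3 : 1 - a * b ≠ 0 := by rw [e1]; exact mul_ne_zero hb1 hb1'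
    refine eq_inv_of_mul_eq_one_left ?_
    rw [neg_mul, div_mul_eq_mul_div, neg_eq_iff_eq_neg, div_eq_iff h3]
    linear_combination -h
  rw [e] at h1
  exact not_MM_both D ha h1

/-- membership in the ring -/
def OO (T H : Submodule (ZMod ℓ) (V ℓ F)) (z : F) : Prop :=
  ∀ y, MM T H y → 1 + z * y ≠ 0 ∧ cl ℓ (1 + z * y) ∈ T

theorem OO_of_MM {z : F} (hz : MM T H z) : OO T H z := fun _ hy => P_add D hz hy

theorem MM_of_OO {z : F} (hz : OO T H z) (hH : cl ℓ z ∉ H) : MM T H z := by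
  refine (MM_or D hH).resolve_right fun h => (hz _ (MM_neg D h)).1 ?_
  have := ne_zero D hH
  field_simp
  ring

theorem MM_mul_of_OO {z y : F} (hz : OO T H z) (hz0 : z ≠ 0) (hH : cl ℓ z ∈ H) (hy : MM T H y) :
    MM T H (z * y) := by
  refine ⟨?_, (hz y hy).2⟩
  rw [cl_mul hz0 (ne_zero D hy.1)]
  exact fun h => hy.1 ((H.add_mem_iff_right hH).1 h)

theorem exists_of_not_OO {z : F} (hz : ¬ OO T H z) (hH : cl ℓ z ∈ H) :
    ∃ y, MM T H y ∧ MM T H (z * y)⁻¹ := by
  have hz0 : z ≠ 0 := by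
    rintro rfl
    exact hz fun y _ => by simp
  by_contra hc
  push Not at hc
  refine hz fun y hy => ?_
  have h1 : cl ℓ (z * y) ∉ H := by
    rw [cl_mul hz0 (ne_zero D hy.1)]
    exact fun h => hy.1 ((H.add_mem_iff_right hH).1 h)
  exact ⟨one_add_ne D h1, ((MM_or D h1).resolve_right (hc y hy)).2⟩

theorem OO_or (z : F) : OO T H z ∨ OO T H z⁻¹ := by
  by_cases hH : cl ℓ z ∈ H
  · by_contra hc
    push Not at hc
    have hz0 : z ≠ 0 := by
      rintro rfl
      exact hc.1 fun y _ => by simp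
    obtain ⟨y, hy, hy'⟩ := exists_of_not_OO D hc.1 hH
    obtain ⟨w, hw, hw'⟩ := exists_of_not_OO D hc.2 (by rw [cl_inv]; exact H.neg_mem hH)
    refine four D hy hy' hw hw' ?_
    have := ne_zero D hy.1
    have := ne_zero D hw.1
    field_simp
  · exact (MM_or D hH).imp (OO_of_MM D) (OO_of_MM D)

theorem OO_mul {a b : F} (ha : OO T H a) (hb : OO T H b) : OO T H (a * b) := by
  by_cases ha0 : a = 0
  · intro y _; simp [ha0]
  by_cases hb0 : b = 0
  · intro y _; simp [hb0]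
  intro y hy
  by_cases hbH : cl ℓ b ∈ H
  · rw [mul_assoc]; exact ha _ (MM_mul_of_OO D hb hb0 hbH hy)
  by_cases haH : cl ℓ a ∈ H
  · rw [mul_comm a, mul_assoc]; exact hb _ (MM_mul_of_OO D ha ha0 haH hy)
  have ha' := MM_of_OO D ha haH
  have hb' := MM_of_OO D hb hbH
  have hy0 := ne_zero D hy.1
  by_cases hab : cl ℓ (a * b) ∈ H
  · have h1 : cl ℓ (a * b * y) ∉ H := by
      rw [cl_mul (mul_ne_zero ha0 hb0) hy0]
      exact fun h => hy.1 ((H.add_mem_iff_right hab).1 h)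
    refine ⟨one_add_ne D h1, ((MM_or D h1).resolve_right fun h => ?_).2⟩
    refine four D ha' hb' hy h ?_
    field_simp
  · exact P_add D ⟨hab, (P_add D ha' hb').2⟩ hy

theorem OO_one_add {z : F} (hz : OO T H z) : OO T H (1 + z) := by
  intro y hy
  have hy1 := one_add_ne D hy.1
  obtain ⟨h1, h2⟩ := hz _ (MM_div D hy)
  have e : 1 + (1 + z) * y = (1 + y) * (1 + z * (y / (1 + y))) := by field_simp; ring
  rw [e, cl_mul hy1 h1]
  exact ⟨mul_ne_zero hy1 h1, T.add_mem hy.2 h2⟩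

theorem OO_neg_one : OO T H (-1) := by
  intro y hy
  have := MM_neg D hy
  rw [neg_one_mul]
  exact ⟨one_add_ne D this.1, this.2⟩

theorem OO_add {a b : F} (ha : OO T H a) (hb : OO T H b) : OO T H (a + b) := by
  by_cases ha0 : a = 0
  · rwa [ha0, zero_add]
  by_cases hb0 : b = 0
  · rwa [hb0, add_zero]
  rcases OO_or D (a / b) with h | h
  · have := OO_mul D hb (OO_one_add D h)
    have e : b * (1 + a / b) = a + b := by field_simp; ring
    rwa [e] at this
  · have := OO_mul D ha (OO_one_add D h)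
    have e : a * (1 + (a / b)⁻¹) = a + b := by field_simp
    rwa [e] at this

/-- the valuation ring -/
def ring : ValuationSubring F where
  carrier := {z | OO T H z}
  mul_mem' := OO_mul D
  one_mem' := fun y hy => by rw [one_mul]; exact ⟨one_add_ne D hy.1, hy.2⟩
  add_mem' := OO_add D
  zero_mem' := fun y _ => by simp
  neg_mem' := fun {x} hx => by
    have := OO_mul D (OO_neg_one D) hx
    rwa [neg_one_mul] at this
  mem_or_inv_mem' := OO_or D

theorem HO_le : HO ℓ (ring D) ≤ H := by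
  refine Submodule.span_le.2 ?_
  rintro _ ⟨x, hx, rfl⟩
  by_contra hH
  have h1 : OO T H x := mem_of_val_eq_one hx
  have h2 : OO T H x⁻¹ := mem_of_val_eq_one (O := ring D) (by rw [map_inv₀, hx, inv_one])
  exact not_MM_both D (MM_of_OO D h1 hH)
    (MM_of_OO D h2 (by rw [cl_inv, H.neg_mem_iff]; exact hH))

theorem TO_le : TO ℓ (ring D) ≤ T := by
  refine Submodule.span_le.2 ?_
  rintro _ ⟨x, hx, rfl⟩
  obtain ⟨z, rfl⟩ : ∃ z, x = 1 + z := ⟨x - 1, by ring⟩
  rw [add_sub_cancel_left] at hx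
  by_cases hz0 : z = 0
  · simp [hz0]
  have h1 : OO T H z := ((ring D).valuation_le_one_iff z).1 hx.le
  have h2 : ¬ OO T H z⁻¹ := by
    intro h2
    have h3 := ((ring D).valuation_le_one_iff z⁻¹).2 h2
    rw [map_inv₀] at h3
    have h4 : (ring D).valuation z ≠ 0 := by simpa using hz0
    exact absurd ((inv_le_one₀ (zero_lt_iff.2 h4)).1 h3) (not_le.2 hx)
  by_cases hH : cl ℓ z ∈ H
  · obtain ⟨y, hy, hy'⟩ := exists_of_not_OO D h2 (by rw [cl_inv]; exact H.neg_mem hH)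
    have := (P_add D hy hy').2
    have hy0 := ne_zero D hy.1
    have e : y * (z⁻¹ * y)⁻¹ = z := by field_simp
    rwa [e] at this
  · exact (MM_of_OO D h1 hH).2

end AEJ

/-- Arason-Elman-Jacob -/
theorem exists_valuation_of_cent {T H : Submodule (ZMod ℓ) (V ℓ F)} (hTH : T ≤ H)
    (hneg : cl ℓ (-1 : F) ∈ T) (hC : Cent T H) (hN : CondN T) :
    ∃ O : ValuationSubring F, TO ℓ O ≤ T ∧ HO ℓ O ≤ H := by
  obtain ⟨u, hu0, hu1, hu⟩ := hN
  obtain ⟨h1, h2, h3⟩ := AEJ.rigid hTH hneg hC hu0 hu1 hu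
  have D : AEJ.Dat T H := ⟨hTH, hneg, h3, u, hu0, sub_ne_zero.2 hu1.symm, h1, h2,
    fun h => one_ne_zero (hu 1 0 (by simpa using h)).1,
    fun h => one_ne_zero (hu 0 1 (by simpa using h)).2,
    fun h => one_ne_zero (hu (-1) 1 (by convert h using 1; module)).2⟩
  exact ⟨AEJ.ring D, AEJ.TO_le D, AEJ.HO_le D⟩

end Vale.Agent.P019
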