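import Vale.Agent.P019.FGA
import Vale.Agent.P019.LDJ
import Vale.Agent.P019.SD
import Vale.Agent.P019.ValH

/-! P019: Kummer descent. -/

open IntermediateField

namespace Vale.Agent.P019

namespace KDAux

theorem mem_range_of_isAlgebraic {k K : Type*} [Field k] [Field K] [Algebra k K] [IsAlgClosed k]
    {x : K} (hx : IsAlgebraic k x) : ∃ a : k, algebraMap k K a = x := by
  have h := IntermediateField.eq_bot_of_isAlgClosed_of_isAlgebraic (algebraicClosure k K)
  have hx' : x ∈ algebraicClosure k K := mem_algebraicClosure_iff.2 hx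
  rw [h] at hx'
  exact IntermediateField.mem_bot.1 hx'

theorem pow_mem_of_fixed {L M A : Type*} [Field L] [Field M] [Field A] [Algebra L M] [Algebra L A]
    [Algebra.IsAlgebraic L M] [IsAlgClosed A] (q : ℕ) [ExpChar L q] {u : M} {a : A}
    (h : ∀ φ : M →ₐ[L] A, φ u = a) : ∃ (n : ℕ) (w : L), algebraMap L M w = u ^ q ^ n := by
  classical
  have hr := Algebra.IsAlgebraic.range_eval_eq_rootSet_minpoly (F := L) A u
  have hint : IsIntegral L u := Algebra.IsIntegral.isIntegral u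
  have h1 : (minpoly L u).natSepDegree = 1 := by
    have hne : (minpoly L u).natSepDegree ≠ 0 :=
      Polynomial.natSepDegree_ne_zero _ (minpoly.natDegree_pos hint).ne'
    have hle : (minpoly L u).natSepDegree ≤ 1 := by
      rw [Polynomial.natSepDegree_eq_of_isAlgClosed A]
      have hsub : ((minpoly L u).aroots A).toFinset ⊆ {a} := by
        intro r hr'
        have : r ∈ (minpoly L u).rootSet A := by
          rw [Polynomial.rootSet_def]; exact hr'
        rw [← hr] at this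
        obtain ⟨φ, rfl⟩ := this
        exact Finset.mem_singleton.2 (h φ)
      simpa using Finset.card_le_card hsub
    omega
  obtain ⟨n, w, hw⟩ := (minpoly.natSepDegree_eq_one_iff_pow_mem q).1 h1
  exact ⟨n, w, hw⟩

theorem descent {F L κ Λ : Type*} [Field F] [Field L] [Field κ] [Field Λ] [Algebra F L]
    [Algebra F κ] [Algebra F Λ] [Algebra L Λ] [Algebra κ Λ] [IsScalarTower F L Λ]
    [IsScalarTower F κ Λ] [IsAlgClosed κ] [Algebra.IsAlgebraic F κ] (q : ℕ) [ExpChar L q]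
    {ℓ : ℕ} (hℓ : ℓ ≠ 0) {y : L} (hy : y ≠ 0) {z : Λ}
    (hz : z ∈ Submodule.span κ (Set.range (algebraMap L Λ))) (hzy : z ^ ℓ = algebraMap L Λ y) :
    ∃ (n : ℕ) (w : L), w ≠ 0 ∧ IsAlgebraic F (y ^ q ^ n / w ^ ℓ) := by
  classical
  obtain ⟨β, a, -, hspan, hli⟩ := exists_linearIndependent' κ (algebraMap L Λ)
  rw [← hspan] at hz
  obtain ⟨cf, hcf⟩ := Finsupp.mem_span_range_iff_exists_finsupp.1 hz
  have hz0 : z ≠ 0 := by
    rintro rfl
    rw [zero_pow hℓ] at hzy
    exact hy ((map_eq_zero _).1 hzy.symm)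
  set M : IntermediateField L Λ := algebraicClosure L Λ with hM
  have hκF : ∀ ε : κ, IsAlgebraic F (algebraMap κ Λ ε) := fun ε =>
    (Algebra.IsAlgebraic.isAlgebraic (R := F) ε).algebraMap
  have hκM : ∀ ε : κ, algebraMap κ Λ ε ∈ M := fun ε =>
    mem_algebraicClosure_iff.2 ((hκF ε).tower_top L)
  have hzM : z ∈ M := by
    refine mem_algebraicClosure_iff.2 (IsAlgebraic.of_pow (Nat.pos_of_ne_zero hℓ) ?_)
    rw [hzy]
    exact isAlgebraic_algebraMap y
  let k : κ → M := fun ε => ⟨algebraMap κ Λ ε, hκM ε⟩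
  let zM : M := ⟨z, hzM⟩
  have hkF : ∀ ε : κ, IsAlgebraic F (k ε) := fun ε =>
    (isAlgebraic_algHom_iff (M.val.restrictScalars F) Subtype.val_injective).1 (hκF ε)
  have hsum : zM = ∑ i ∈ cf.support, k (cf i) * algebraMap L M (a i) := by
    apply Subtype.ext
    change z = _
    rw [← hcf, Finsupp.sum]
    simp [k, Algebra.smul_def]
  obtain ⟨i₀, hi₀⟩ : ∃ i, i ∈ cf.support := by
    by_contra hcon
    push Not at hcon
    apply hz0
    rw [← hcf, Finsupp.sum, Finset.eq_empty_of_forall_notMem hcon, Finset.sum_empty]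
  have hc0 : cf i₀ ≠ 0 := Finsupp.mem_support_iff.1 hi₀
  have hk0 : algebraMap κ Λ (cf i₀) ≠ 0 := by simpa using hc0
  have key : ∀ φ : M →ₐ[L] AlgebraicClosure Λ,
      φ (zM / k (cf i₀)) = algebraMap Λ (AlgebraicClosure Λ) (z / algebraMap κ Λ (cf i₀)) := by
    intro φ
    have hψ : ∀ ε : κ, ∃ ε' : κ, algebraMap κ (AlgebraicClosure Λ) ε' = φ (k ε) := fun ε =>
      mem_range_of_isAlgebraic (((hkF ε).algHom (φ.restrictScalars F)).tower_top κ)
    choose ψ hψ using hψ
    have hj0 : algebraMap Λ (AlgebraicClosure Λ) z ≠ 0 := by simpa using hz0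
    have hφz : φ zM ^ ℓ = algebraMap Λ (AlgebraicClosure Λ) z ^ ℓ := by
      have : zM ^ ℓ = algebraMap L M y := Subtype.ext hzy
      rw [← map_pow, this, φ.commutes, ← map_pow, hzy, ← IsScalarTower.algebraMap_apply]
    obtain ⟨χ, hχ⟩ : ∃ χ : κ, algebraMap κ (AlgebraicClosure Λ) χ =
        φ zM / algebraMap Λ (AlgebraicClosure Λ) z := by
      refine mem_range_of_isAlgebraic (IsAlgebraic.of_pow (Nat.pos_of_ne_zero hℓ) ?_)
      rw [div_pow, hφz, div_self (pow_ne_zero _ hj0)]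
      exact isAlgebraic_one
    have hφz' : φ zM = algebraMap Λ (AlgebraicClosure Λ) (χ • z) := by
      rw [Algebra.smul_def, map_mul, ← IsScalarTower.algebraMap_apply, hχ, div_mul_cancel₀ _ hj0]
    have h1 : φ zM = algebraMap Λ (AlgebraicClosure Λ)
        (∑ i ∈ cf.support, ψ (cf i) • algebraMap L Λ (a i)) := by
      rw [hsum, map_sum, map_sum]
      refine Finset.sum_congr rfl fun i _ => ?_
      rw [map_mul, φ.commutes, Algebra.smul_def, map_mul, ← IsScalarTower.algebraMap_apply, hψ,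
        ← IsScalarTower.algebraMap_apply]
    have h2 : ∑ i ∈ cf.support, (ψ (cf i) - χ * cf i) • (algebraMap L Λ ∘ a) i = 0 := by
      have h3 := (algebraMap Λ (AlgebraicClosure Λ)).injective (h1.symm.trans hφz')
      rw [← hcf, Finsupp.sum, Finset.smul_sum] at h3
      simp only [sub_smul, Finset.sum_sub_distrib, mul_smul, Function.comp_apply]
      exact sub_eq_zero.2 h3
    have h4 := linearIndependent_iff'.1 hli _ _ h2 i₀ hi₀
    have h5 : φ (k (cf i₀)) = algebraMap Λ (AlgebraicClosure Λ) (algebraMap κ Λ (χ * cf i₀)) := by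
      rw [← hψ, sub_eq_zero.1 h4, ← IsScalarTower.algebraMap_apply]
    have hχ0 : algebraMap κ Λ χ ≠ 0 := by
      intro h0
      rw [Algebra.smul_def, h0, zero_mul, map_zero] at hφz'
      rw [hφz', zero_pow hℓ] at hφz
      exact pow_ne_zero _ hj0 hφz.symm
    rw [map_div₀, h5, hφz', ← map_div₀, Algebra.smul_def, map_mul]
    congr 1
    field_simp
  obtain ⟨n, w, hw⟩ := pow_mem_of_fixed q key
  have hw' : algebraMap L Λ w = (z / algebraMap κ Λ (cf i₀)) ^ q ^ n := by
    have := congrArg Subtype.val hw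
    simpa [zM, k] using this
  have hw0 : w ≠ 0 := by
    rintro rfl
    rw [map_zero] at hw'
    exact pow_ne_zero _ (div_ne_zero hz0 hk0) hw'.symm
  refine ⟨n, w, hw0, ?_⟩
  rw [← isAlgebraic_algebraMap_iff (algebraMap L Λ).injective]
  have he : algebraMap L Λ (y ^ q ^ n / w ^ ℓ) = algebraMap κ Λ (cf i₀ ^ (ℓ * q ^ n)) := by
    rw [map_div₀, map_pow, map_pow, hw', ← hzy, map_pow, div_pow, div_pow, ← pow_mul, ← pow_mul,
      ← pow_mul, mul_comm (q ^ n) ℓ]
    field_simp
  rw [he]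
  exact hκF _

theorem mem_span_of_mem_adjoin {F L κ Λ : Type*} [Field F] [Field L] [Field κ] [Field Λ]
    [Algebra F L] [Algebra F κ] [Algebra F Λ] [Algebra L Λ] [Algebra κ Λ] [IsScalarTower F L Λ]
    [IsScalarTower F κ Λ] [Algebra.IsAlgebraic F κ] {z : Λ}
    (hz : z ∈ adjoin κ (Set.range (algebraMap L Λ))) :
    z ∈ Submodule.span κ (Set.range (algebraMap L Λ)) := by
  have h1 : z ∈ adjoin L (Set.range (algebraMap κ Λ)) := by
    rw [← mem_toSubfield, adjoin_toSubfield] at hz ⊢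
    rwa [Set.union_comm]
  have halg : ∀ x ∈ Set.range (algebraMap κ Λ), IsAlgebraic L x := by
    rintro _ ⟨ε, rfl⟩
    have : IsAlgebraic F (algebraMap κ Λ ε) :=
      (Algebra.IsAlgebraic.isAlgebraic (R := F) ε).algebraMap
    exact this.tower_top L
  have h2 : z ∈ Algebra.adjoin L (Set.range (algebraMap κ Λ)) := by
    rw [← adjoin_toSubalgebra_of_isAlgebraic halg]
    exact h1
  have h3 : z ∈ Algebra.adjoin κ (Set.range (algebraMap L Λ)) := by
    clear hz h1
    induction h2 using Algebra.adjoin_induction with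
    | mem x hx =>
      obtain ⟨ε, rfl⟩ := hx
      exact Subalgebra.algebraMap_mem _ ε
    | algebraMap r => exact Algebra.subset_adjoin ⟨r, rfl⟩
    | add x y _ _ hx hy => exact add_mem hx hy
    | mul x y _ _ hx hy => exact mul_mem hx hy
  rw [← Subalgebra.mem_toSubmodule, Algebra.adjoin_eq_span] at h3
  have h4 : Submonoid.closure (Set.range (algebraMap L Λ)) =
      MonoidHom.mrange (algebraMap L Λ) := Submonoid.closure_eq (MonoidHom.mrange (algebraMap L Λ))
  rw [h4] at h3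
  exact h3

theorem isAlgClosed_algebraicClosure {F Ω Λ : Type*} [Field F] [Field Ω] [Field Λ] [Algebra F Ω]
    [Algebra F Λ] [Algebra Ω Λ] [IsScalarTower F Ω Λ] [IsAlgClosed Ω] :
    IsAlgClosed (algebraicClosure F Λ) := by
  refine IsAlgClosed.of_exists_root _ fun p hp hirr => ?_
  have hmem : ∀ x : algebraicClosure F Λ, ∃ a : Ω, algebraMap Ω Λ a = x := fun x =>
    mem_range_of_isAlgebraic ((mem_algebraicClosure_iff.1 x.2).tower_top Ω)
  have hl : p.map (algebraMap (algebraicClosure F Λ) Λ) ∈ Polynomial.lifts (algebraMap Ω Λ) := by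
    rw [Polynomial.lifts_iff_coeff_lifts]
    intro n
    rw [Polynomial.coeff_map]
    exact hmem _
  obtain ⟨p', hp'⟩ := hl
  rw [Polynomial.coe_mapRingHom] at hp'
  have hdeg : p'.degree ≠ 0 := by
    rw [← Polynomial.degree_map p' (algebraMap Ω Λ), hp', Polynomial.degree_map]
    exact (Polynomial.degree_pos_of_irreducible hirr).ne'
  obtain ⟨r, hr⟩ := IsAlgClosed.exists_root p' hdeg
  have hroot : Polynomial.aeval (algebraMap Ω Λ r) p = 0 := by
    rw [← Polynomial.eval_map_algebraMap, ← hp', Polynomial.eval_map_algebraMap,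
      Polynomial.aeval_algebraMap_apply_eq_algebraMap_eval, hr.eq_zero, map_zero]
  have halg : IsAlgebraic (algebraicClosure F Λ) (algebraMap Ω Λ r) := ⟨p, hp.ne_zero, hroot⟩
  have hF : IsAlgebraic F (algebraMap Ω Λ r) := halg.restrictScalars F
  refine ⟨⟨algebraMap Ω Λ r, mem_algebraicClosure_iff.2 hF⟩, ?_⟩
  apply (algebraMap (algebraicClosure F Λ) Λ).injective
  rw [map_zero, ← Polynomial.aeval_algebraMap_apply_eq_algebraMap_eval]
  exact hroot

theorem mem_adjoin_of_free {κ Ω L Λ : Type*} [Field κ] [Field Ω] [Field L] [Field Λ] [Algebra κ Ω]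
    [Algebra κ Λ] [Algebra Ω Λ] [IsScalarTower κ Ω Λ] [Algebra L Λ] [IsAlgClosed κ]
    {ι : Type*} [Fintype ι] (t : ι → Λ) (ht : AlgebraicIndependent Ω t)
    (hA : ∀ x : L, IsAlgebraic (adjoin κ (Set.range t)) (algebraMap L Λ x)) {z : Λ}
    (hz : z ∈ adjoin Ω (Set.range (algebraMap L Λ)))
    (hz' : IsAlgebraic (adjoin κ (Set.range t)) z) :
    z ∈ adjoin κ (Set.range (algebraMap L Λ)) := by
  let A' : IntermediateField κ Λ :=
    (algebraicClosure (adjoin κ (Set.range t)) Λ).restrictScalars κ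
  have hA' : ∀ a, a ∈ A' ↔ IsAlgebraic (adjoin κ (Set.range t)) a := fun a => by
    rw [mem_restrictScalars, mem_algebraicClosure_iff]
  let B : IntermediateField κ Λ := (IsScalarTower.toAlgHom κ Ω Λ).fieldRange
  have hB : AlgebraicIndependent B t := by
    have := ht.ringHom_of_comp_eq (S := B) (algebraMap Ω Λ).rangeRestrictField (RingHom.id Λ)
      (RingHom.rangeRestrictField_bijective _).2 Function.injective_id (by ext; rfl)
    exact this
  have hld := linearDisjoint_of_free A' B t (fun a ha => (hA' a).1 ha) hB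
  refine mem_of_linearDisjoint (A' := A') (B := B) ?_ hld ((hA' z).2 hz') ?_
  · rw [adjoin_le_iff]
    rintro _ ⟨x, rfl⟩
    exact (hA' _).2 (hA x)
  · rw [← mem_toSubfield, adjoin_toSubfield] at hz
    rw [← mem_toSubfield]
    refine (Subfield.closure_le.2 ?_) hz
    rintro _ (⟨x, rfl⟩ | ⟨x, rfl⟩)
    · exact (le_sup_right : B ≤ _) ⟨x, rfl⟩
    · exact (le_sup_left : adjoin κ (Set.range (algebraMap L Λ)) ≤ _) (subset_adjoin _ _ ⟨x, rfl⟩)

theorem isAlgebraic_map {l L κ Λ : Type*} [Field l] [Field L] [Field κ] [Field Λ] [Algebra l L]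
    [Algebra L Λ] [Algebra κ Λ] (K : IntermediateField κ Λ) {s : Set L}
    (h1 : ∀ a : l, algebraMap L Λ (algebraMap l L a) ∈ K) (h2 : ∀ x ∈ s, algebraMap L Λ x ∈ K)
    {x : L} (hx : IsAlgebraic (adjoin l s) x) : IsAlgebraic K (algebraMap L Λ x) := by
  have hmem : ∀ g : adjoin l s, algebraMap L Λ g ∈ K := by
    rintro ⟨g, hg⟩
    rw [← mem_toSubfield, adjoin_toSubfield] at hg
    have hle : Subfield.closure (Set.range (algebraMap l L) ∪ s) ≤
        K.toSubfield.comap (algebraMap L Λ) := by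
      refine Subfield.closure_le.2 ?_
      rintro _ (⟨a, rfl⟩ | hx)
      · exact h1 a
      · exact h2 _ hx
    exact hle hg
  let f : adjoin l s →+* K :=
    ((algebraMap L Λ).comp (algebraMap (adjoin l s) L)).codRestrict K hmem
  exact hx.ringHom_of_comp_eq f (algebraMap L Λ) f.injective (by ext; rfl)

end KDAux

/-- Let `F = l(c) ⊆ Ω` and let `κ` be the algebraic closure of `F` in `Λ`. By linear disjointness
over `κ`, `z ∈ L κ`, so `z = ∑ ε i a i` with `a i ∈ L` independent over `κ`. Every `L`-embedding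
multiplies `z`, hence each `ε i`, by the same root of unity, so `z / ε i` is purely inseparable
over `L`. -/
theorem cl_mem_Geo_of_root {ℓ : ℕ} [Fact ℓ.Prime] {l L Λ : Type*} [Field l] [Field L] [Field Λ]
    [Algebra l L] [Algebra L Λ] [Algebra l Λ] [IsScalarTower l L Λ] [IsAlgClosed l]
    (hℓ : (ℓ : l) ≠ 0) {d : ℕ} (hL : IsFF l L (d + 1)) (Ω : IntermediateField l Λ)
    [IsAlgClosed Ω] {c : L} (hc : Transcendental l c) (hcΩ : algebraMap L Λ c ∈ Ω)
    {ι : Type*} [Fintype ι] (hι : Fintype.card ι = d) (t : ι → L)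
    (ht : AlgebraicIndependent Ω fun i => algebraMap L Λ (t i)) {y : L} {z : Λ}
    (hz : z ∈ adjoin Ω (Set.range (algebraMap L Λ))) (hzy : z ^ ℓ = algebraMap L Λ y) :
    cl ℓ y ∈ Geo ℓ l c := by
  by_cases hy : y = 0
  · rw [hy, cl_zero]; exact Submodule.zero_mem _
  have hℓ0 : ℓ ≠ 0 := (Fact.out : ℓ.Prime).ne_zero
  have hFΩ : ∀ x : l⟮c⟯, algebraMap l⟮c⟯ Λ x ∈ Ω := by
    rintro ⟨x, hx⟩
    have hle : l⟮c⟯ ≤ Ω.comap (IsScalarTower.toAlgHom l L Λ) :=
      adjoin_simple_le_iff.2 hcΩ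
    exact hle hx
  letI : Algebra l⟮c⟯ Ω := ((algebraMap l⟮c⟯ Λ).codRestrict Ω hFΩ).toAlgebra
  haveI : IsScalarTower l⟮c⟯ Ω Λ := IsScalarTower.of_algebraMap_eq fun _ => rfl
  haveI : IsAlgClosed (algebraicClosure l⟮c⟯ Λ) := KDAux.isAlgClosed_algebraicClosure (Ω := Ω)
  have hκΩ : ∀ x : algebraicClosure l⟮c⟯ Λ, algebraMap (algebraicClosure l⟮c⟯ Λ) Λ x ∈ Ω := by
    intro x
    obtain ⟨a, ha⟩ := KDAux.mem_range_of_isAlgebraic
      ((mem_algebraicClosure_iff.1 x.2).tower_top Ω)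
    have h2 : (a : Λ) = x := ha
    change (x : Λ) ∈ Ω
    rw [← h2]
    exact a.2
  letI : Algebra (algebraicClosure l⟮c⟯ Λ) Ω :=
    ((algebraMap (algebraicClosure l⟮c⟯ Λ) Λ).codRestrict Ω hκΩ).toAlgebra
  haveI : IsScalarTower (algebraicClosure l⟮c⟯ Λ) Ω Λ :=
    IsScalarTower.of_algebraMap_eq fun _ => rfl
  have hind : AlgebraicIndependent l (Sum.elim t fun _ : Unit => c) := by
    have hc' : AlgebraicIndependent l fun _ : Unit => algebraMap L Λ c :=
      (algebraicIndependent_unique_type_iff.2 hc).map' (f := IsScalarTower.toAlgHom l L Λ)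
        (algebraMap L Λ).injective
    have h1 := hc'.sumElim_of_tower (S := Ω) (by
      rintro _ ⟨_, rfl⟩
      exact ⟨⟨_, hcΩ⟩, rfl⟩) ht
    refine AlgebraicIndependent.of_comp (IsScalarTower.toAlgHom l L Λ) ?_
    have h2 : (IsScalarTower.toAlgHom l L Λ) ∘ (Sum.elim t fun _ : Unit => c) =
        Sum.elim (fun i => algebraMap L Λ (t i)) fun _ : Unit => algebraMap L Λ c := by
      ext (_ | _) <;> rfl
    rw [h2]
    exact h1
  have hbasis := hL.isTranscendenceBasis hind (by simp [hι])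
  have hA : ∀ x : L, IsAlgebraic (adjoin (algebraicClosure l⟮c⟯ Λ)
      (Set.range fun i => algebraMap L Λ (t i))) (algebraMap L Λ x) := by
    intro x
    have hF : ∀ u : l⟮c⟯, algebraMap L Λ u ∈ adjoin (algebraicClosure l⟮c⟯ Λ)
        (Set.range fun i => algebraMap L Λ (t i)) := fun u =>
      IntermediateField.algebraMap_mem _ (algebraMap l⟮c⟯ (algebraicClosure l⟮c⟯ Λ) u)
    refine KDAux.isAlgebraic_map _ (fun a => hF (algebraMap l l⟮c⟯ a)) ?_
      (hbasis.isAlgebraic_field.isAlgebraic x)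
    rintro _ ⟨i | i, rfl⟩
    · exact subset_adjoin _ _ ⟨i, rfl⟩
    · exact hF ⟨c, mem_adjoin_simple_self l c⟩
  have hz1 := KDAux.mem_adjoin_of_free (κ := algebraicClosure l⟮c⟯ Λ) _ ht hA hz
    (IsAlgebraic.of_pow (Nat.pos_of_ne_zero hℓ0) (by rw [hzy]; exact hA y))
  have hz2 := KDAux.mem_span_of_mem_adjoin (F := l⟮c⟯) hz1
  obtain ⟨q, hq⟩ := ExpChar.exists L
  obtain ⟨n, w, hw, halg⟩ := KDAux.descent (F := l⟮c⟯) q hℓ0 hy hz2 hzy
  have hmem : cl ℓ (y ^ q ^ n / w ^ ℓ) ∈ Geo ℓ l c :=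
    Submodule.subset_span ⟨_, (mem_Ecl l).2 halg, rfl⟩
  rw [cl_div (pow_ne_zero _ hy) (pow_ne_zero _ hw), cl_pow_self, sub_zero, cl_pow] at hmem
  have hq0 : ((q ^ n : ℕ) : ZMod ℓ) ≠ 0 := by
    rw [Nat.cast_pow]
    refine pow_ne_zero _ fun h0 => ?_
    rw [ZMod.natCast_eq_zero_iff] at h0
    rcases hq with _ | hp
    · exact (Fact.out : ℓ.Prime).one_lt.ne' (Nat.dvd_one.1 h0)
    · have : ℓ = q := (Nat.prime_dvd_prime_iff_eq Fact.out hp).1 h0
      apply hℓ
      apply (algebraMap l L).injective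
      rw [map_natCast, map_zero, this]
      exact CharP.cast_eq_zero L q
  have := Submodule.smul_mem _ (((q ^ n : ℕ) : ZMod ℓ)⁻¹) hmem
  rwa [smul_smul, inv_mul_cancel₀ hq0, one_smul] at this

end Vale.Agent.P019
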