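import Vale.Agent.P019.ValH
import Vale.Agent.P019.H4AEJ

/-! P019: local theory (rigid elements, Arason-Elman-Jacob). -/

namespace Vale.Agent.P019

variable {ℓ : ℕ} [Fact ℓ.Prime] {F : Type*} [Field F]

theorem exists_valuation_of_HT (hm : cl ℓ (-1 : F) = 0) {T H : Submodule (ZMod ℓ) (V ℓ F)}
    (hTH : T ≤ H)
    (hC : ∀ f g : Module.Dual (ZMod ℓ) (V ℓ F), H ≤ LinearMap.ker f → T ≤ LinearMap.ker g →
      Acl f g)
    (hN : CondN T) : ∃ O : ValuationSubring F, TO ℓ O ≤ T ∧ HO ℓ O ≤ H :=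
  exists_valuation_of_cent hTH (by rw [hm]; exact T.zero_mem) hC hN

end Vale.Agent.P019
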