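import Vale.Agent.P019.MX

/-! P019: existence of the valuation attached to a line. -/

namespace Vale.Agent.P019

namespace LVALAux

open MvPolynomial

variable {l L : Type*} [Field l] [Field L] [Algebra l L] {d : ℕ}

/-- the value group -/
abbrev GG (μ : ValuationSubring l) (d : ℕ) : Type _ := AG μ ×ₗ Lex (Fin (d + 1) → ℤ)

/-- the value of a Laurent monomial -/
noncomputable def pt (μ : ValuationSubring l) (a : l) (m : Fin (d + 1) → ℤ) : GG μ d :=
  toLex (aval μ a, toLex m)

/-- the embedding of the exponents -/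
noncomputable def emb (μ : ValuationSubring l) (d : ℕ) : (Fin (d + 1) → ℤ) →+ GG μ d where
  toFun m := toLex (0, toLex m)
  map_zero' := rfl
  map_add' _ _ := Prod.ext (add_zero _).symm rfl

/-- the weights -/
noncomputable def gam (μ : ValuationSubring l) (d : ℕ) : Fin (d + 2) → GG μ d :=
  Fin.cons 0 fun j => emb μ d (Pi.single j 1)

/-- Laurent monomials -/
def Mo (t : Fin (d + 2) → L) (a : l) (m : Fin (d + 1) → ℤ) : L :=
  algebraMap l L a * ∏ j, t j.succ ^ m j

variable {μ : ValuationSubring l} {t : Fin (d + 2) → L} {w : ValuationSubring L}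

theorem pt_add (a : l) (m n : Fin (d + 1) → ℤ) : pt μ a (m + n) = pt μ a m + emb μ d n :=
  Prod.ext (add_zero _).symm rfl

theorem pt_le {a b : l} {m n : Fin (d + 1) → ℤ} : pt μ a m ≤ pt μ b n ↔
    aval μ a < aval μ b ∨ aval μ a = aval μ b ∧ toLex m ≤ toLex n := Prod.Lex.toLex_le_toLex

theorem pt_lt {a b : l} {m n : Fin (d + 1) → ℤ} : pt μ a m < pt μ b n ↔
    aval μ a < aval μ b ∨ aval μ a = aval μ b ∧ toLex m < toLex n := Prod.Lex.toLex_lt_toLex

theorem pt_inj {a b : l} {m n : Fin (d + 1) → ℤ} (h : pt μ a m = pt μ b n) : m = n :=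
  congrArg (fun g : GG μ d => ofLex (ofLex g).2) h

theorem pt_same {a b : l} (ha : a ≠ 0) (hb : b ≠ 0) {m : Fin (d + 1) → ℤ} :
    pt μ a m ≤ pt μ b m ↔ μ.valuation b ≤ μ.valuation a := by
  rw [pt_le, ← aval_le_iff μ ha hb, and_iff_left le_rfl, le_iff_lt_or_eq]

theorem wt_eq (P : MvPolynomial (Fin (d + 2)) l) (m : Fin (d + 2) →₀ ℕ) :
    wt (fun a => pt μ a 0) (gam μ d) P m = pt μ (P.coeff m) fun j => (m j.succ : ℤ) := by
  have e : (fun j : Fin (d + 1) => (m j.succ : ℤ)) = 0 + ∑ j, m j.succ • Pi.single j 1 := by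
    funext i
    simp [Finset.sum_apply, Pi.single_apply]
  rw [e, pt_add, map_sum, wt, Finsupp.sum_fintype m (fun i n => n • gam μ d i) fun i => zero_smul _ _,
    Fin.sum_univ_succ]
  simp only [gam, Fin.cons_zero, Fin.cons_succ, nsmul_zero, zero_add, map_nsmul]

theorem min_mono {a : l} (ha : a ≠ 0) (m : Fin (d + 2) →₀ ℕ) :
    IsMinWt (fun a => pt μ a 0) (gam μ d) (monomial m a) (pt μ a fun j => (m j.succ : ℤ)) := by
  have e : wt (fun a => pt μ a 0) (gam μ d) (monomial m a) m = pt μ a fun j => (m j.succ : ℤ) := by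
    rw [wt_eq, coeff_monomial, if_pos rfl]
  refine ⟨⟨m, mem_support_iff.2 (by rwa [coeff_monomial, if_pos rfl]), e⟩, fun n hn => ?_⟩
  rw [Finset.mem_singleton.1 (support_monomial_subset hn), e]

theorem aeval_mono (a : l) (m : Fin (d + 2) →₀ ℕ) :
    aeval t (monomial m a) = t 0 ^ m 0 * Mo t a fun j => (m j.succ : ℤ) := by
  rw [aeval_monomial, Finsupp.prod_fintype m (fun i k => t i ^ k) fun i => pow_zero _,
    Fin.prod_univ_succ, mul_left_comm]
  simp only [Mo, zpow_natCast]

theorem Mo_mul (hz : ∀ i, t i ≠ 0) (a b : l) (m n : Fin (d + 1) → ℤ) :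
    Mo t (a * b) (m + n) = Mo t a m * Mo t b n := by
  simp only [Mo, map_mul, Pi.add_apply, zpow_add₀ (hz _), Finset.prod_mul_distrib]
  ring

theorem Mo_ne (hz : ∀ i, t i ≠ 0) {a : l} (ha : a ≠ 0) (m : Fin (d + 1) → ℤ) : Mo t a m ≠ 0 :=
  mul_ne_zero ((map_ne_zero _).2 ha) (Finset.prod_ne_zero_iff.2 fun _ _ => zpow_ne_zero _ (hz _))

theorem Mo_zero (a : l) : Mo t a 0 = algebraMap l L a := by simp [Mo]

theorem Mo_one : Mo t (1 : l) 0 = 1 := by rw [Mo_zero, map_one]

theorem Mo_single (j : Fin (d + 1)) : Mo t (1 : l) (Pi.single j 1) = t j.succ := by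
  rw [Mo, map_one, one_mul, Finset.prod_eq_single j (fun i _ h => by simp [h]) (by simp)]
  simp

/-- the hypotheses on the valuation -/
structure Hyp (μ : ValuationSubring l) (t : Fin (d + 2) → L) (w : ValuationSubring L) : Prop where
  mon : IsMonVal (fun a => pt μ a 0) (gam μ d) t w
  ind : AlgebraicIndependent l t

theorem Hyp.ne (H : Hyp μ t w) (i : Fin (d + 2)) : t i ≠ 0 := H.ind.ne_zero i

theorem Hyp.t0 (H : Hyp μ t w) : w.valuation (t 0) = 1 := by
  have h1 := min_mono (μ := μ) one_ne_zero (Finsupp.single (0 : Fin (d + 2)) 1)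
  have h2 := min_mono (μ := μ) one_ne_zero (0 : Fin (d + 2) →₀ ℕ)
  have e : (fun j : Fin (d + 1) => ((Finsupp.single (0 : Fin (d + 2)) 1 j.succ : ℕ) : ℤ))
      = fun j => (((0 : Fin (d + 2) →₀ ℕ) j.succ : ℕ) : ℤ) := by
    funext j
    rw [Finsupp.single_eq_of_ne (Fin.succ_ne_zero j), Finsupp.zero_apply]
  rw [e] at h1
  have h3 := le_antisymm ((H.mon _ _ _ _ h1 h2).2 le_rfl) ((H.mon _ _ _ _ h2 h1).2 le_rfl)
  simpa [aeval_monomial] using h3

theorem Hyp.val_mono (H : Hyp μ t w) (a : l) (m : Fin (d + 2) →₀ ℕ) :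
    w.valuation (aeval t (monomial m a)) = w.valuation (Mo t a fun j => (m j.succ : ℤ)) := by
  rw [aeval_mono, map_mul, map_pow, H.t0, one_pow, one_mul]

theorem Hyp.le_iff (H : Hyp μ t w) {a b : l} (ha : a ≠ 0) (hb : b ≠ 0) (m n : Fin (d + 1) → ℤ) :
    w.valuation (Mo t a m) ≤ w.valuation (Mo t b n) ↔ pt μ b n ≤ pt μ a m := by
  have lift : ∀ k : Fin (d + 1) → ℤ, (∀ j, 0 ≤ k j) →
      ∃ k' : Fin (d + 2) →₀ ℕ, (fun j : Fin (d + 1) => (k' j.succ : ℤ)) = k := fun k hk =>
    ⟨Finsupp.equivFunOnFinite.symm (Fin.cons 0 fun j => (k j).toNat),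
      funext fun j => Int.toNat_of_nonneg (hk j)⟩
  obtain ⟨m', hm⟩ := lift (m + fun j => |m j| + |n j|) fun j => by
    have h1 := neg_abs_le (m j)
    have h2 := abs_nonneg (n j)
    simp only [Pi.add_apply]
    omega
  obtain ⟨n', hn⟩ := lift (n + fun j => |m j| + |n j|) fun j => by
    have h1 := neg_abs_le (n j)
    have h2 := abs_nonneg (m j)
    simp only [Pi.add_apply]
    omega
  have h := H.mon _ _ _ _ (min_mono ha m') (min_mono hb n')
  have h0 : 0 < w.valuation (Mo t (1 : l) fun j => |m j| + |n j|) :=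
    zero_lt_iff.2 ((map_ne_zero _).2 (Mo_ne H.ne one_ne_zero _))
  rw [H.val_mono, H.val_mono, hm, hn, pt_add, pt_add, add_le_add_iff_right, ← mul_one a,
    ← mul_one b, Mo_mul H.ne, Mo_mul H.ne, map_mul, map_mul, mul_le_mul_iff_left₀ h0, mul_one,
    mul_one] at h
  exact h

theorem Hyp.lt_iff (H : Hyp μ t w) {a b : l} (ha : a ≠ 0) (hb : b ≠ 0) (m n : Fin (d + 1) → ℤ) :
    w.valuation (Mo t a m) < w.valuation (Mo t b n) ↔ pt μ b n < pt μ a m := by
  rw [← not_le, H.le_iff hb ha, not_le]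

theorem Hyp.const (H : Hyp μ t w) (a : l) : algebraMap l L a ∈ w ↔ a ∈ μ := by
  by_cases ha : a = 0
  · simp [ha]
  · rw [← w.valuation_le_one_iff, ← μ.valuation_le_one_iff, ← Mo_zero (t := t),
      ← map_one w.valuation, ← Mo_one (l := l) (t := t), H.le_iff ha one_ne_zero,
      pt_same one_ne_zero ha, map_one]

theorem Hyp.z_lt (H : Hyp μ t w) (j : Fin (d + 1)) : w.valuation (t j.succ) < 1 := by
  rw [← Mo_single (l := l) (t := t), ← map_one w.valuation, ← Mo_one (l := l) (t := t),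
    H.lt_iff one_ne_zero one_ne_zero, pt_lt]
  exact Or.inr ⟨rfl, Pi.toLex_strictMono (Pi.single_pos.2 one_pos)⟩

theorem Hyp.val_min (H : Hyp μ t w) {P : MvPolynomial (Fin (d + 2)) l} {a : l} (ha : a ≠ 0)
    {m : Fin (d + 2) →₀ ℕ}
    (h : IsMinWt (fun a => pt μ a 0) (gam μ d) P (pt μ a fun j => (m j.succ : ℤ))) :
    w.valuation (aeval t P) = w.valuation (Mo t a fun j => (m j.succ : ℤ)) := by
  rw [← H.val_mono]
  exact le_antisymm ((H.mon _ _ _ _ h (min_mono ha m)).2 le_rfl)
    ((H.mon _ _ _ _ (min_mono ha m) h).2 le_rfl)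

theorem exists_min (μ : ValuationSubring l) {P : MvPolynomial (Fin (d + 2)) l} (hP : P ≠ 0) :
    ∃ (a : l) (m : Fin (d + 2) →₀ ℕ), a ≠ 0 ∧
      IsMinWt (fun a => pt μ a 0) (gam μ d) P (pt μ a fun j => (m j.succ : ℤ)) := by
  obtain ⟨g, hg⟩ := exists_isMinWt (fun a => pt μ a 0) (gam μ d) hP
  obtain ⟨m, h1, h2⟩ := hg.1
  rw [← h2, wt_eq] at hg
  exact ⟨_, m, mem_support_iff.1 h1, hg⟩

theorem Hyp.coeff_le (H : Hyp μ t w) (P : MvPolynomial (Fin (d + 2)) l) (m : Fin (d + 2) →₀ ℕ) :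
    w.valuation (Mo t (P.coeff m) fun j => (m j.succ : ℤ)) ≤ w.valuation (aeval t P) := by
  by_cases h : P.coeff m = 0
  · simp [h, Mo]
  · obtain ⟨a, n, ha, hn⟩ := exists_min μ (P := P) fun e => h (by rw [e, coeff_zero])
    rw [H.val_min ha hn, H.le_iff h ha, ← wt_eq]
    exact hn.2 m (mem_support_iff.2 h)

theorem Hyp.value (H : Hyp μ t w) {P Q : MvPolynomial (Fin (d + 2)) l}
    (h : aeval t P / aeval t Q ≠ 0) : ∃ (a : l) (m : Fin (d + 1) → ℤ), a ≠ 0 ∧
      w.valuation (aeval t P / aeval t Q) = w.valuation (Mo t a m) := by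
  obtain ⟨a, m, ha, hm⟩ := exists_min μ (P := P) fun e => h (by simp [e])
  obtain ⟨b, n, hb, hn⟩ := exists_min μ (P := Q) fun e => h (by simp [e])
  refine ⟨a / b, (fun j => (m j.succ : ℤ)) - fun j => (n j.succ : ℤ), div_ne_zero ha hb, ?_⟩
  rw [map_div₀, H.val_min ha hm, H.val_min hb hn, ← map_div₀, eq_comm]
  refine congrArg _ (eq_div_of_mul_eq (Mo_ne H.ne hb _) ?_)
  rw [← Mo_mul H.ne, div_mul_cancel₀ _ hb, sub_add_cancel]

theorem Hyp.gauss (H : Hyp μ t w) (p : Polynomial l) (i : ℕ) :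
    w.valuation (algebraMap l L (p.coeff i)) ≤ w.valuation (Polynomial.aeval (t 0) p) := by
  classical
  have h := H.coeff_le (∑ k ∈ p.support, monomial (Finsupp.single 0 k) (p.coeff k))
    (Finsupp.single 0 i)
  have e1 : coeff (Finsupp.single (0 : Fin (d + 2)) i)
      (∑ k ∈ p.support, monomial (Finsupp.single 0 k) (p.coeff k)) = p.coeff i := by
    rw [coeff_sum, Finset.sum_eq_single i (fun k _ hk => ?_) fun hi => ?_, coeff_monomial,
      if_pos rfl]
    · rw [coeff_monomial, if_neg fun e => hk (Finsupp.single_injective _ e)]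
    · rw [Polynomial.notMem_support_iff.1 hi, monomial_zero, coeff_zero]
  have e2 : (fun j : Fin (d + 1) => ((Finsupp.single (0 : Fin (d + 2)) i j.succ : ℕ) : ℤ)) = 0 := by
    funext j
    rw [Finsupp.single_eq_of_ne (Fin.succ_ne_zero j)]
    rfl
  have e3 : aeval t (∑ k ∈ p.support, monomial (Finsupp.single 0 k) (p.coeff k))
      = Polynomial.aeval (t 0) p := by
    rw [map_sum, Polynomial.aeval_def, Polynomial.eval₂_eq_sum, Polynomial.sum_def]
    exact Finset.sum_congr rfl fun k _ => by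
      rw [aeval_monomial, Finsupp.prod_single_index (h := fun i k => t i ^ k) (pow_zero _)]
  rwa [e1, e2, e3, Mo_zero] at h

theorem Hyp.unit (H : Hyp μ t w) {p : Polynomial l} (hp : UnitP μ p) :
    w.valuation (Polynomial.aeval (t 0) p) = 1 := by
  obtain ⟨i, hi⟩ := hp.2
  have h0 : p.coeff i ≠ 0 := fun e => by simp [e] at hi
  refine le_antisymm ((w.valuation_le_one_iff _).2 ?_) (le_trans ?_ (H.gauss p i))
  · rw [Polynomial.aeval_eq_sum_range]
    refine sum_mem fun k _ => ?_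
    rw [Algebra.smul_def]
    exact mul_mem ((H.const _).2 (hp.1 k)) (pow_mem ((w.valuation_le_one_iff _).1 H.t0.le) k)
  · rw [← Mo_zero (t := t), ← map_one w.valuation, ← Mo_one (l := l) (t := t),
      H.le_iff one_ne_zero h0, pt_same h0 one_ne_zero, map_one, hi]

theorem Hyp.init (H : Hyp μ t w) {P : MvPolynomial (Fin (d + 2)) l} {a : l} (ha : a ≠ 0)
    {m : Fin (d + 1) → ℤ} (h : IsMinWt (fun a => pt μ a 0) (gam μ d) P (pt μ a m)) :
    ∃ p, UnitP μ p ∧ w.valuation (aeval t P / Mo t a m - Polynomial.aeval (t 0) p) < 1 := by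
  classical
  have hM := Mo_ne H.ne ha m
  have hv : μ.valuation a ≠ 0 := (map_ne_zero _).2 ha
  refine ⟨∑ n ∈ P.support with (fun j : Fin (d + 1) => (n j.succ : ℤ)) = m,
    Polynomial.monomial (n 0) (P.coeff n / a), ⟨fun i => ?_, ?_⟩, ?_⟩
  · rw [Polynomial.finsetSum_coeff]
    refine sum_mem fun n hn => ?_
    obtain ⟨h1, h2⟩ := Finset.mem_filter.1 hn
    have h3 := h.2 n h1
    rw [wt_eq, h2, pt_same ha (mem_support_iff.1 h1)] at h3
    rw [Polynomial.coeff_monomial]
    split_ifs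
    · rw [← μ.valuation_le_one_iff, map_div₀]
      exact div_le_one_of_le₀ h3 zero_le
    · exact zero_mem _
  · obtain ⟨n, h1, h2⟩ := h.1
    rw [wt_eq] at h2
    have h3 := pt_inj h2
    have h4 := mem_support_iff.1 h1
    rw [h3] at h2
    refine ⟨n 0, ?_⟩
    rw [Polynomial.finsetSum_coeff, Finset.sum_eq_single_of_mem n (Finset.mem_filter.2 ⟨h1, h3⟩)
      fun k hk hkn => ?_, Polynomial.coeff_monomial, if_pos rfl, map_div₀,
      le_antisymm ((pt_same ha h4).1 h2.ge) ((pt_same h4 ha).1 h2.le), div_self hv]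
    rw [Polynomial.coeff_monomial, if_neg fun e => hkn (Finsupp.ext fun i => ?_)]
    refine Fin.cases e (fun j => ?_) i
    exact_mod_cast congrFun ((Finset.mem_filter.1 hk).2.trans h3.symm) j
  · have e1 : aeval t P / Mo t a m
        = ∑ n ∈ P.support, aeval t (monomial n (P.coeff n)) / Mo t a m := by
      rw [← Finset.sum_div, ← map_sum, support_sum_monomial_coeff]
    have e2 : ∀ n ∈ P.support.filter fun n => (fun j : Fin (d + 1) => (n j.succ : ℤ)) = m,
        Polynomial.aeval (t 0) (Polynomial.monomial (n 0) (P.coeff n / a))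
          = aeval t (monomial n (P.coeff n)) / Mo t a m := fun n hn => by
      have h1 := Mo_mul H.ne (P.coeff n / a) a 0 m
      rw [div_mul_cancel₀ _ ha, zero_add, Mo_zero] at h1
      rw [aeval_mono, (Finset.mem_filter.1 hn).2, h1, Polynomial.aeval_monomial, ← mul_assoc,
        mul_div_cancel_right₀ _ hM, mul_comm]
    rw [e1, map_sum, Finset.sum_congr rfl e2, ← Finset.sum_filter_add_sum_filter_not P.support
      fun n => (fun j : Fin (d + 1) => (n j.succ : ℤ)) = m, add_sub_cancel_left]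
    refine w.valuation.map_sum_lt one_ne_zero fun n hn => ?_
    obtain ⟨h1, h2⟩ := Finset.mem_filter.1 hn
    have h3 := h.2 n h1
    rw [wt_eq] at h3
    rw [map_div₀, div_lt_one₀ (zero_lt_iff.2 ((map_ne_zero _).2 hM)), H.val_mono,
      H.lt_iff (mem_support_iff.1 h1) ha]
    exact lt_of_le_of_ne h3 fun e => h2 (pt_inj e).symm

theorem Hyp.resid (H : Hyp μ t w) {P Q : MvPolynomial (Fin (d + 2)) l}
    (h : w.valuation (aeval t P / aeval t Q) = 1) : ∃ p p' : Polynomial l,
      UnitP μ p ∧ UnitP μ p' ∧ w.valuation (aeval t P / aeval t Q -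
        Polynomial.aeval (t 0) p / Polynomial.aeval (t 0) p') < 1 := by
  obtain ⟨a, m, ha, hm⟩ := exists_min μ (P := P) fun e => by simp [e] at h
  obtain ⟨b, n, hb, hn⟩ := exists_min μ (P := Q) fun e => by simp [e] at h
  have hM := Mo_ne H.ne hb fun j => (n j.succ : ℤ)
  have h1 := H.val_min hb hn
  have h0 : w.valuation (aeval t Q) ≠ 0 := h1 ▸ (map_ne_zero _).2 hM
  rw [map_div₀, div_eq_one_iff_eq h0, H.val_min ha hm, h1] at h
  rw [le_antisymm ((H.le_iff hb ha _ _).1 h.ge) ((H.le_iff ha hb _ _).1 h.le)] at hm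
  obtain ⟨p, hp, h2⟩ := H.init hb hm
  obtain ⟨p', hp', h3⟩ := H.init hb hn
  have h4 := H.unit hp
  have h5 := H.unit hp'
  have h6 : w.valuation (aeval t Q / Mo t b fun j => (n j.succ : ℤ)) = 1 := by
    rw [map_div₀, ← h1, div_self h0]
  refine ⟨p, p', hp, hp', ?_⟩
  rw [← div_div_div_cancel_right₀ hM (aeval t P)]
  generalize aeval t P / Mo t b (fun j => (n j.succ : ℤ)) = A at h2
  generalize aeval t Q / Mo t b (fun j => (n j.succ : ℤ)) = B at h3 h6
  generalize Polynomial.aeval (t 0) p = x at h2 h4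
  generalize Polynomial.aeval (t 0) p' = y at h3 h5
  have hB : B ≠ 0 := fun e => by simp [e] at h6
  have hy : y ≠ 0 := fun e => by simp [e] at h5
  have e : A / B - x / y = ((A - x) * y - x * (B - y)) / (B * y) := by
    field_simp
    ring
  rw [e, map_div₀, map_mul, h5, h6, mul_one, div_one]
  refine w.valuation.map_sub_lt ?_ ?_
  · rwa [map_mul, h5, mul_one]
  · rwa [map_mul, h4, one_mul]

theorem lex_least {m : Fin (d + 1) → ℤ} (h : toLex (0 : Fin (d + 1) → ℤ) < toLex m) :
    toLex (Pi.single (Fin.last d) 1 : Fin (d + 1) → ℤ) ≤ toLex m := by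
  obtain ⟨i, h1, h2⟩ := h
  have h3 : ∀ j < i, (Pi.single (Fin.last d) 1 : Fin (d + 1) → ℤ) j = m j := fun j hj =>
    (Pi.single_eq_of_ne (hj.trans_le (Fin.le_last i)).ne _).trans (h1 j hj)
  rcases (Fin.le_last i).eq_or_lt with rfl | hi
  · refine Pi.toLex_monotone fun j => ?_
    rcases (Fin.le_last j).eq_or_lt with rfl | hj
    · rw [Pi.single_eq_same]
      exact h2
    · exact (h3 j hj).le
  · have h4 : (Pi.single (Fin.last d) 1 : Fin (d + 1) → ℤ) i < m i := by
      rw [Pi.single_eq_of_ne hi.ne]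
      exact h2
    exact le_of_lt ⟨i, h3, h4⟩

theorem Hyp.least (H : Hyp μ t w) {a : l} (ha : a ≠ 0) {m : Fin (d + 1) → ℤ}
    (h : w.valuation (Mo t a m) < 1) :
    w.valuation (Mo t a m) ≤ w.valuation (t (Fin.last d).succ) := by
  rw [← map_one w.valuation, ← Mo_one (l := l) (t := t), H.lt_iff ha one_ne_zero, pt_lt] at h
  rw [← Mo_single (l := l) (t := t), H.le_iff ha one_ne_zero, pt_le]
  exact h.imp id fun h => ⟨h.1, lex_least h.2⟩

/-- congruent pairs -/
def cong (w : ValuationSubring L) : Subring (L × L) where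
  carrier := {p | p.1 ∈ w ∧ p.2 ∈ w ∧ w.valuation (p.1 - p.2) < 1}
  zero_mem' := ⟨zero_mem w, zero_mem w, by simp⟩
  one_mem' := ⟨one_mem w, one_mem w, by simp⟩
  neg_mem' := fun {p} h => ⟨neg_mem h.1, neg_mem h.2.1, by
    rw [Prod.fst_neg, Prod.snd_neg, ← neg_sub', Valuation.map_neg]
    exact h.2.2⟩
  add_mem' := fun {p p'} h h' => ⟨add_mem h.1 h'.1, add_mem h.2.1 h'.2.1, by
    rw [Prod.fst_add, Prod.snd_add, add_sub_add_comm]
    exact w.valuation.map_add_lt h.2.2 h'.2.2⟩
  mul_mem' := fun {p p'} h h' => ⟨mul_mem h.1 h'.1, mul_mem h.2.1 h'.2.1, by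
    have e : (p * p').1 - (p * p').2 = p'.1 * (p.1 - p.2) + p.2 * (p'.1 - p'.2) := by
      rw [Prod.fst_mul, Prod.snd_mul]
      ring
    rw [e]
    refine w.valuation.map_add_lt ?_ ?_ <;> rw [map_mul]
    · exact mul_lt_one_of_nonneg_of_lt_one_right ((w.valuation_le_one_iff _).2 h'.1) zero_le h.2.2
    · exact mul_lt_one_of_nonneg_of_lt_one_right ((w.valuation_le_one_iff _).2 h.2.1) zero_le
        h'.2.2⟩

theorem cong_aeval {ι : Type*} {x y : ι → L} (h : ∀ i, (x i, y i) ∈ cong w)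
    {P : MvPolynomial ι l} (hP : ∀ m, algebraMap l L (P.coeff m) ∈ w) :
    (aeval x P, aeval y P) ∈ cong w := by
  have e : (aeval x P, aeval y P) = aeval (fun i => (x i, y i)) P :=
    Prod.ext (comp_aeval_apply (f := fun i => (x i, y i)) (AlgHom.fst l L L) P).symm
      (comp_aeval_apply (f := fun i => (x i, y i)) (AlgHom.snd l L L) P).symm
  rw [e, aeval_def, eval₂_eq]
  exact sum_mem fun m _ => mul_mem ⟨hP m, hP m, by simp⟩ (prod_mem fun i _ => pow_mem (h i) _)

theorem map_iff {L' : Type*} [Field L'] [Algebra l L'] [Algebra L L'] [IsScalarTower l L L']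
    {s : Fin (d + 2) → L} {q c : Fin (d + 2) → l} {w' : ValuationSubring L'} :
    IsLineVal μ (fun j => algebraMap L L' (s j)) q c w' ↔
      IsLineVal μ s q c (w'.comap (algebraMap L L')) := by
  have e1 : ∀ P : MvPolynomial (Fin (d + 2)) l,
      aeval (fun j => algebraMap L L' (s j)) P = algebraMap L L' (aeval s P) :=
    aeval_algebraMap_apply L' s
  have e2 : ∀ a, algebraMap l L' a = algebraMap L L' (algebraMap l L a) :=
    IsScalarTower.algebraMap_apply l L L'
  have e3 : ∀ j, lineZ (fun j => algebraMap L L' (s j)) q c j = algebraMap L L' (lineZ s q c j) :=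
    fun j => by simp only [lineZ, e2, map_sub, map_mul]
  have fa : ∀ Φ : L' → Prop,
      (∀ x ∈ IntermediateField.adjoin l (Set.range fun j => algebraMap L L' (s j)), Φ x) ↔
        ∀ x ∈ IntermediateField.adjoin l (Set.range s), Φ (algebraMap L L' x) := fun Φ => by
    simp only [IntermediateField.mem_adjoin_range_iff, e1, ← map_div₀]
    constructor
    · rintro h x ⟨P, Q, rfl⟩
      exact h _ ⟨P, Q, rfl⟩
    · rintro h x ⟨P, Q, rfl⟩
      exact h _ ⟨P, Q, rfl⟩
  have e0 : w'.comap (algebraMap l L') = (w'.comap (algebraMap L L')).comap (algebraMap l L) := by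
    rw [ValuationSubring.comap_comap, ← IsScalarTower.algebraMap_eq]
  constructor
  · rintro ⟨h1, h2, h3, h4, h5, h6, h7, h8, h9⟩
    rw [fa] at h5 h7 h9
    simp only [ValIndep, e1, e2, e3, Polynomial.aeval_algebraMap_apply, ← map_sub, ← map_div₀,
      ← map_zpow₀, ← map_prod, ← map_mul, ← comap_val_le, ← comap_val_eq, ← comap_val_eq_one,
      ← comap_val_lt_one, map_ne_zero] at h3 h4 h5 h6 h7 h8 h9
    exact ⟨e0 ▸ h1, h2, h3, h4, h5, h6, h7, h8, h9⟩
  · rintro ⟨h1, h2, h3, h4, h5, h6, h7, h8, h9⟩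
    refine ⟨e0 ▸ h1, h2, ?_, ?_, (fa _).2 ?_, ?_, (fa _).2 ?_, ?_, (fa _).2 ?_⟩ <;>
      simp only [ValIndep, e1, e2, e3, Polynomial.aeval_algebraMap_apply, ← map_sub, ← map_div₀,
        ← map_zpow₀, ← map_prod, ← map_mul, ← comap_val_le, ← comap_val_eq, ← comap_val_eq_one,
        ← comap_val_lt_one, map_ne_zero]
    exacts [h3, h4, h5, h6, h7, h8, h9]

end LVALAux

open LVALAux MvPolynomial in
/-- The family `t = (s 0, lineZ s q c)` is algebraically independent and generates `l(s)`. Apply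
`exists_isMonVal` with `G = AG μ ×ₗ Lex (Fin (d + 1) → ℤ)`, `v a = (aval μ a, 0)`, weight `0` for
`s 0` and the basis vectors for the `lineZ`. -/
theorem exists_isLineVal {l L : Type*} [Field l] [Field L] [Algebra l L] {d : ℕ}
    (μ : ValuationSubring l) {s : Fin (d + 2) → L} (hs : AlgebraicIndependent l s)
    {q c : Fin (d + 2) → l} (hq : q 0 = 1) (hc : c 0 = 0) (hqc : ∀ j, q j ∈ μ ∧ c j ∈ μ) :
    ∃ w, IsLineVal μ s q c w := by
  let σ : MvPolynomial (Fin (d + 2)) l →ₐ[l] MvPolynomial (Fin (d + 2)) l :=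
    aeval (Fin.cons (X 0) fun j => X j.succ - C (q j.succ) * X 0 - C (c j.succ))
  let τ : MvPolynomial (Fin (d + 2)) l →ₐ[l] MvPolynomial (Fin (d + 2)) l :=
    aeval (Fin.cons (X 0) fun j => X j.succ + C (q j.succ) * X 0 + C (c j.succ))
  let t : Fin (d + 2) → L := Fin.cons (s 0) (lineZ s q c)
  have e1 : τ.comp σ = AlgHom.id l _ := algHom_ext fun i => by
    refine Fin.cases ?_ (fun j => ?_) i
    · simp [σ, τ]
    · simp only [σ, τ, AlgHom.comp_apply, aeval_X, Fin.cons_succ, Fin.cons_zero, map_sub, map_mul,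
        algHom_C, algebraMap_eq, AlgHom.id_apply]
      ring
  have e2 : aeval t = (aeval s).comp σ := algHom_ext fun i => by
    refine Fin.cases ?_ (fun j => ?_) i <;> simp [σ, t, lineZ]
  have e3 : aeval s = (aeval t).comp τ := algHom_ext fun i => by
    refine Fin.cases ?_ (fun j => ?_) i
    · simp [τ, t]
    · simp only [τ, t, lineZ, AlgHom.comp_apply, aeval_X, Fin.cons_succ, Fin.cons_zero, map_add,
        map_mul, algHom_C]
      ring
  have ht : AlgebraicIndependent l t := by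
    have h1 : Function.Injective σ :=
      Function.LeftInverse.injective (g := τ) fun P => AlgHom.congr_fun e1 P
    rw [AlgebraicIndependent, e2, AlgHom.coe_comp]
    exact Function.Injective.comp hs h1
  have hv : IsAVal fun a => pt (d := d) μ a 0 := by
    refine ⟨fun x y hx hy => Prod.ext ((isAVal_aval μ).mul x y hx hy) (add_zero _).symm,
      fun x y hx hy h => ?_⟩
    rw [min_le_iff, pt_same hx h, pt_same hy h, ← le_max_iff]
    exact μ.valuation.map_add x y
  obtain ⟨w, hw⟩ := exists_isMonVal hv (gam μ d) ht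
  have H : Hyp μ t w := ⟨hw, ht⟩
  have rep : ∀ x ∈ IntermediateField.adjoin l (Set.range s),
      ∃ P Q : MvPolynomial (Fin (d + 2)) l, x = aeval t P / aeval t Q := fun x hx => by
    obtain ⟨P, Q, h⟩ := (IntermediateField.mem_adjoin_range_iff l s x).1 hx
    exact ⟨τ P, τ Q, by rw [h, e3]; rfl⟩
  refine ⟨w, ⟨SetLike.ext H.const, hqc, fun P hP => ?_, H.gauss, fun x hx h => ?_,
    ⟨fun j => H.ne j.succ, fun m a h => ?_⟩, fun x hx h => ?_, H.z_lt (Fin.last d),
    fun x hx h => ?_⟩⟩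
  · have h0 : s 0 ∈ w := (w.valuation_le_one_iff _).1 H.t0.le
    have h1 : ∀ j, algebraMap l L (c j) + algebraMap l L (q j) * s 0 ∈ w := fun j =>
      add_mem ((H.const _).2 (hqc j).2) (mul_mem ((H.const _).2 (hqc j).1) h0)
    have h2 := cong_aeval (x := s)
      (y := fun j => algebraMap l L (c j) + algebraMap l L (q j) * s 0)
      (fun i => ?_) fun m => (H.const _).2 (hP m)
    · have e : Polynomial.aeval (s 0) (lr q c P)
          = aeval (fun j => algebraMap l L (c j) + algebraMap l L (q j) * s 0) P := by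
        rw [lr, comp_aeval_apply]
        simp only [map_add, map_mul, Polynomial.aeval_C, Polynomial.aeval_X]
      rw [e]
      exact ⟨h2.1, h2.2.2⟩
    · refine Fin.cases ⟨h0, h1 0, by simp [hq, hc]⟩ (fun j => ?_) i
      have e : s j.succ - (algebraMap l L (c j.succ) + algebraMap l L (q j.succ) * s 0)
          = t j.succ := by
        simp only [t, lineZ, Fin.cons_succ]
        ring
      refine ⟨?_, h1 _, e ▸ H.z_lt j⟩
      rw [eq_add_of_sub_eq e]
      exact add_mem ((w.valuation_le_one_iff _).1 (H.z_lt j).le) (h1 _)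
  · obtain ⟨P, Q, rfl⟩ := rep x hx
    exact H.resid h
  · have ha : a ≠ 0 := fun e => by simp [e] at h
    have h1 : w.valuation (Mo t a m) = w.valuation (Mo t (1 : l) 0) := by
      rw [Mo_one, map_one]
      exact h
    exact congrFun (pt_inj (le_antisymm ((H.le_iff one_ne_zero ha _ _).1 h1.ge)
      ((H.le_iff ha one_ne_zero _ _).1 h1.le)))
  · obtain ⟨P, Q, rfl⟩ := rep x hx
    obtain ⟨a, m, -, h1⟩ := H.value h
    exact ⟨a, m, h1⟩
  · obtain ⟨P, Q, rfl⟩ := rep x hx
    by_cases h0 : aeval t P / aeval t Q = 0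
    · rw [h0, map_zero]
      exact zero_le
    · obtain ⟨a, m, ha, h1⟩ := H.value h0
      rw [h1] at h ⊢
      exact H.least ha h

theorem IsLineVal.map {l L L' : Type*} [Field l] [Field L] [Field L'] [Algebra l L] [Algebra l L']
    [Algebra L L'] [IsScalarTower l L L'] {d : ℕ} {μ : ValuationSubring l} {s : Fin (d + 2) → L}
    {q c : Fin (d + 2) → l} {w' : ValuationSubring L'}
    (h : IsLineVal μ s q c (w'.comap (algebraMap L L'))) :
    IsLineVal μ (fun j => algebraMap L L' (s j)) q c w' := LVALAux.map_iff.2 h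

/-- the line valuation only depends on the restriction to `l(s)` -/
theorem IsLineVal.congr {l L : Type*} [Field l] [Field L] [Algebra l L] {d : ℕ}
    {μ : ValuationSubring l} {s : Fin (d + 2) → L} {q c : Fin (d + 2) → l}
    {w w' : ValuationSubring L} (h : IsLineVal μ s q c w)
    (hw : ∀ x ∈ IntermediateField.adjoin l (Set.range s), x ∈ w' ↔ x ∈ w) :
    IsLineVal μ s q c w' := by
  let s' : Fin (d + 2) → IntermediateField.adjoin l (Set.range s) :=
    fun j => ⟨s j, IntermediateField.subset_adjoin l _ ⟨j, rfl⟩⟩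
  have e : w.comap (algebraMap (IntermediateField.adjoin l (Set.range s)) L)
      = w'.comap (algebraMap (IntermediateField.adjoin l (Set.range s)) L) :=
    SetLike.ext fun x : IntermediateField.adjoin l (Set.range s) => (hw x x.2).symm
  exact (LVALAux.map_iff (s := s')).2 (e ▸ (LVALAux.map_iff (s := s')).1 h)

end Vale.Agent.P019
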