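import Vale.Agent.P019.P3
import Vale.Agent.P019.BETA
import Vale.Agent.P019.ALPHA
import Vale.Agent.P019.FIN

/-! P019: assembly. -/

namespace Vale.Agent.P019

variable {ℓ : ℕ} [Fact ℓ.Prime] {k K l L : Type*} [Field k] [Field K] [Algebra k K] [IsAlgClosed k]
  [Field l] [Field L] [Algebra l L] [IsAlgClosed l] {Θ : V ℓ K ≃ₗ[ZMod ℓ] V ℓ L}

namespace MainAux

theorem char_eq {F F' : Type*} [Field F] [Field F'] (φ : F →+* F') :
    ringExpChar F' = ringExpChar F :=
  haveI := expChar_of_injective_ringHom φ.injective (ringExpChar F)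
  ringExpChar.eq F' _

theorem pow_mem (F : Type*) [Field F] (y : Perf F) :
    ∃ n : ℕ, y ^ ringExpChar (Perf F) ^ n ∈ (algebraMap F (Perf F)).range := by
  rw [char_eq (algebraMap F (Perf F))]
  exact IsPurelyInseparable.pow_mem F (ringExpChar F) y

theorem cast_ne {F F' : Type*} [Field F] [Field F'] (φ : F →+* F') {n : ℕ} (h : (n : F) ≠ 0) :
    (n : F') ≠ 0 := by
  rw [← map_natCast φ]
  exact (map_ne_zero φ).2 h

end MainAux

open MainAux

theorem exists_hom (h : Compat Θ) (hk : (ℓ : k) ≠ 0) (hl : (ℓ : l) ≠ 0) {d : ℕ}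
    (hK : IsFF k K (d + 2)) (hL : IsFF l L (d + 2)) :
    ∃ (c : ZMod ℓ) (β : k ≃+* l) (α : K →+* Perf L), c ≠ 0 ∧
      (∀ a : k, α (algebraMap k K a) = algebraMap L _ (algebraMap l L (β a))) ∧
      (∀ y : Perf L, ∃ n : ℕ, y ^ ringExpChar (Perf L) ^ n ∈ α.range) ∧
      ∀ x, Vmap ℓ (algebraMap L (Perf L)) (Θ x) = c • Vmap ℓ α x := by
  have hG := geoMatch h hk hl hK hL
  obtain ⟨β, hβ⟩ := exists_beta h hG hk hl hK hL
  obtain ⟨α, h₁, h₂⟩ := exists_alpha h hG hk hl hK hL β hβ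
  have h₃ := fun z z' hz y hy =>
    exists_pow_eq_alpha h hG hk hl hK hL β α h₁ h₂ (z := z) (z' := z') hz (y := y) hy
  have hp : ringExpChar (Perf L) = ringExpChar l :=
    char_eq ((algebraMap L (Perf L)).comp (algebraMap l L))
  have hp0 : ∀ j : ℕ, 0 < ringExpChar l ^ j := fun j => expChar_pow_pos l _ j
  have hq : ∀ j : ℕ, ((ringExpChar l ^ j : ℕ) : ZMod ℓ) ≠ 0 :=
    ACAux.expChar_ne (RingHom.id l) hl
  have hs : ∀ y : Perf L, ∃ n : ℕ, y ^ ringExpChar (Perf L) ^ n ∈ α.range := by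
    intro y
    obtain ⟨n, y0, hy⟩ := MainAux.pow_mem L y
    by_cases ht : Transcendental l y0
    · obtain ⟨z, hz⟩ := hG.2 y0 ht
      obtain ⟨e, -, j, he⟩ := h₃ z y0 hz y0 (self_mem_Ecl _)
      exact ⟨n + j, e, by rw [← he, hy, pow_add, pow_mul, hp]⟩
    · rw [transcendental_iff, not_not] at ht
      obtain ⟨b, rfl⟩ := ht
      exact ⟨n, algebraMap k K (β.symm b), by rw [h₁, β.apply_symm_apply, hy]⟩
  have hK0 : (ℓ : K) ≠ 0 := cast_ne (algebraMap k K) hk
  have hL0 : (ℓ : L) ≠ 0 := cast_ne (algebraMap l L) hl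
  set A := LinearEquiv.ofBijective (Vmap ℓ α) (Vmap_bijective α hK0 hs) with hA
  set B := LinearEquiv.ofBijective (Vmap ℓ (algebraMap L (Perf L)))
    (Vmap_bijective _ hL0 (MainAux.pow_mem L)) with hB
  have hc : Compat ((Θ.trans B).trans A.symm) :=
    (h.trans (compat_Vmap _ hL0 (MainAux.pow_mem L))).trans (compat_Vmap α hK0 hs).symm
  have key : ∀ (e : K) (y : L) (i j : ℕ), algebraMap L (Perf L) y ^ i = α e ^ j →
      (i : ZMod ℓ) • A.symm (B (cl ℓ y)) = (j : ZMod ℓ) • cl ℓ e := by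
    intro e y i j hy
    rw [← map_smul, LinearEquiv.symm_apply_eq, map_smul]
    change _ • Vmap ℓ _ _ = _ • Vmap ℓ _ _
    rw [Vmap_cl, Vmap_cl, ← cl_pow, ← cl_pow, hy]
  obtain ⟨c, hc0, hc1⟩ := exists_eq_smul hc hk hK fun z hz => by
    obtain ⟨z', hz'⟩ := hG.1 z hz
    refine le_antisymm ?_ (Submodule.span_le.2 ?_)
    · rintro _ ⟨v, hv, rfl⟩
      have h4 : Θ v ∈ Geo ℓ l z' := hz'.2.2 ▸ Submodule.mem_map_of_mem hv
      have h5 : Geo ℓ l z' ≤ (Geo ℓ k z).comap (B.trans A.symm).toLinearMap := by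
        refine Submodule.span_le.2 ?_
        rintro _ ⟨y, hy, rfl⟩
        obtain ⟨e, he, j, h6⟩ := h₃ z z' hz' y hy
        have h7 := key e y _ 1 (h6.trans (pow_one _).symm)
        rw [Nat.cast_one, one_smul] at h7
        refine ((Geo ℓ k z).smul_mem_iff (hq j)).1 ?_
        change _ • A.symm (B (cl ℓ y)) ∈ _
        rw [h7]
        exact Submodule.subset_span ⟨e, he, rfl⟩
      exact h5 h4
    · rintro _ ⟨e, he, rfl⟩
      by_cases ht : Transcendental k e
      swap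
      · rw [transcendental_iff, not_not] at ht
        obtain ⟨a, rfl⟩ := ht
        obtain ⟨b, rfl⟩ := IsAlgClosed.exists_pow_nat_eq a (Fact.out : ℓ.Prime).pos
        rw [map_pow, cl_pow_self]
        exact Submodule.zero_mem _
      obtain ⟨y, j, h4, -⟩ := h₂ e
      have h5 : Transcendental l y := by
        rw [transcendental_iff]
        rintro ⟨b, rfl⟩
        rw [← β.apply_symm_apply b, ← h₁, ← map_pow] at h4
        exact ht.pow (hp0 j) (α.injective h4 ▸ isAlgebraic_algebraMap _)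
      obtain ⟨z2, hz2⟩ := hG.2 y h5
      obtain ⟨e2, he2, i, h6⟩ := h₃ z2 y hz2 y (self_mem_Ecl _)
      rw [h4, ← pow_mul, ← map_pow] at h6
      have h7 : e ∈ Ecl k z2 :=
        mem_Ecl_of_pow (Nat.mul_pos (hp0 j) (hp0 i)) (α.injective h6 ▸ he2)
      have h8 : Geo ℓ k z2 = Geo ℓ k z := by
        unfold Geo
        rw [← Ecl_eq ht h7, Ecl_eq ht he]
      have h9 : cl ℓ y ∈ (Geo ℓ k z).map Θ.toLinearMap := by
        rw [← h8, hz2.2.2]
        exact Submodule.subset_span ⟨y, self_mem_Ecl _, rfl⟩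
      obtain ⟨v, hv, h10⟩ := h9
      have h11 := key e y 1 _ ((pow_one _).trans h4)
      rw [Nat.cast_one, one_smul] at h11
      refine (Submodule.smul_mem_iff _ (hq j)).1 ⟨v, hv, ?_⟩
      rw [← h11, ← h10]
      rfl
  refine ⟨c, β, α, hc0, h₁, hs, fun x => ?_⟩
  have h4 : A.symm (B (Θ x)) = c • x := hc1 x
  rw [LinearEquiv.symm_apply_eq, map_smul] at h4
  exact h4

/-- extension to the perfect closures (`PerfectRing.liftEquiv` or `IsPerfectClosure.equiv`) -/
theorem exists_perf_equiv (α : K →+* Perf L)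
    (h : ∀ y : Perf L, ∃ n : ℕ, y ^ ringExpChar (Perf L) ^ n ∈ α.range) :
    ∃ α' : Perf K ≃+* Perf L, ∀ x : K, α' (algebraMap K _ x) = α x := by
  have e1 := char_eq α
  have e2 := char_eq (algebraMap K (Perf K))
  have : ExpChar (Perf L) (ringExpChar K) := e1 ▸ inferInstance
  have : ExpChar (Perf K) (ringExpChar K) := e2 ▸ inferInstance
  have : IsPRadical α (ringExpChar K) := ⟨fun y => e1 ▸ h y, by
    rw [(RingHom.injective_iff_ker_eq_bot _).1 α.injective]; exact bot_le⟩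
  have : IsPRadical (algebraMap K (Perf K)) (ringExpChar K) :=
    ⟨fun y => e2 ▸ MainAux.pow_mem K y, by
      rw [(RingHom.injective_iff_ker_eq_bot _).1 (algebraMap K (Perf K)).injective]; exact bot_le⟩
  exact ⟨IsPerfectClosure.equiv (algebraMap K (Perf K)) α (ringExpChar K),
    IsPerfectClosure.equiv_comp_apply _ _ _⟩

end Vale.Agent.P019
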