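import Vale.Agent.P019.UP
import Vale.Agent.P019.CST
import Vale.Agent.P019.KD
import Vale.Agent.P019.GI

/-! P019: `Θ` matches the one-dimensional subfields. -/

namespace Vale.Agent.P019

variable {ℓ : ℕ} [Fact ℓ.Prime] {k K l L : Type*} [Field k] [Field K] [Algebra k K] [IsAlgClosed k]
  [Field l] [Field L] [Algebra l L] [IsAlgClosed l] {Θ : V ℓ K ≃ₗ[ZMod ℓ] V ℓ L}

theorem exists_map_Geo_le (h : Compat Θ) (hk : (ℓ : k) ≠ 0) (hl : (ℓ : l) ≠ 0) {d : ℕ}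
    (hK : IsFF k K (d + 2)) (hL : IsFF l L (d + 2)) {τ : K} (hτ : Transcendental k τ) :
    ∃ c : L, Transcendental l c ∧ (Geo ℓ k τ).map Θ.toLinearMap ≤ Geo ℓ l c := by
  classical
  obtain ⟨M⟩ := exists_model hL
  obtain ⟨W, π, D, α₀, j₀, a, hW, ha⟩ := exists_divSeq h hk hl hK M hτ
  obtain ⟨Λ, _, _, _, _, Ω, Q, hΩ, hQ, hdeg, hQ1, hQ0, hs, hroot⟩ := exists_generic_member hl hW
  have key : ∀ v ∈ Geo ℓ k τ, ∀ y : L, cl ℓ y = Θ v →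
      ∃ z ∈ IntermediateField.adjoin Ω (Set.range (algebraMap L Λ)),
        z ^ ℓ = algebraMap L Λ y := fun v hv y e =>
    hroot y (e ▸ eventually_mem_TO h hl hτ hW ha hv)
  choose u hu0 hu using fun i => cl_surj (Θ (cl ℓ (τ - algebraMap k K (a i))))
  obtain ⟨c, hc, hcΩ⟩ := exists_mem_param hl hW Ω Q hQ hdeg hQ1 hQ0 hs u
    (fun i => (hu i).symm ▸ ha i) fun i => key _ (Submodule.subset_span
      ⟨_, sub_mem (self_mem_Ecl τ) (IntermediateField.algebraMap_mem _ _), rfl⟩) _ (hu i)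
  refine ⟨c, hc, ?_⟩
  rintro _ ⟨v, hv, rfl⟩
  obtain ⟨y, -, e⟩ := cl_surj (Θ v)
  obtain ⟨z, hz, hzy⟩ := key v hv y e
  have := cl_mem_Geo_of_root (d := d + 1) hl hL Ω hc hcΩ (ι := {j // j ≠ j₀}) (by simp)
    (fun j => M.s j) hs hz hzy
  rwa [e] at this

namespace P3Aux

theorem exists_partner (h : Compat Θ) (hk : (ℓ : k) ≠ 0) (hl : (ℓ : l) ≠ 0) {d : ℕ}
    (hK : IsFF k K (d + 2)) (hL : IsFF l L (d + 2)) {τ : K} (hτ : Transcendental k τ) :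
    ∃ c, Partner k l Θ τ c := by
  have := hK.fg
  obtain ⟨c, hc, h1⟩ := exists_map_Geo_le h hk hl hK hL hτ
  obtain ⟨τ', hτ', h2⟩ := exists_map_Geo_le h.symm hl hk hL hK hc
  have h3 : Geo ℓ k τ ≤ Geo ℓ k τ' := fun v hv => by
    have := h2 ⟨_, h1 ⟨v, hv, rfl⟩, rfl⟩
    simpa using this
  have h4 : Geo ℓ k τ = Geo ℓ k τ' := by
    rw [Geo, Geo, Ecl_eq_of_Geo_le hk hτ hτ' h3]
  refine ⟨c, hτ, hc, le_antisymm h1 fun w hw => ⟨Θ.symm w, ?_, by simp⟩⟩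
  rw [h4]
  exact h2 ⟨w, hw, rfl⟩

end P3Aux

theorem geoMatch (h : Compat Θ) (hk : (ℓ : k) ≠ 0) (hl : (ℓ : l) ≠ 0) {d : ℕ}
    (hK : IsFF k K (d + 2)) (hL : IsFF l L (d + 2)) : GeoMatch k l Θ := by
  refine ⟨fun z hz => P3Aux.exists_partner h hk hl hK hL hz, fun z' hz' => ?_⟩
  obtain ⟨z, -, hz, e⟩ := P3Aux.exists_partner h.symm hl hk hL hK hz'
  refine ⟨z, hz, hz', ?_⟩
  rw [← e, ← Submodule.map_comp]
  simp

end Vale.Agent.P019
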