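import Vale.Agent.P019.MODEL
import Vale.Agent.P019.Curve.SepElt

/-! P019: purely inseparable extensions of function fields of curves. -/

namespace Vale.Agent.P019

namespace PIAux

open IntermediateField

section curve

variable {κ C : Type*} [Field κ] [Field C] [Algebra κ C] [IsAlgClosed κ]

/-- the `p`-th powers and one element that is not a `p`-th power generate a curve field -/
theorem top_of_not_pow (h : IsCurve κ C) {s : C} (hs : ∀ y : C, y ^ ringExpChar κ ≠ s)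
    (T : Subfield C) (hT : s ∈ T) (hTp : ∀ x : C, x ^ ringExpChar κ ∈ T) : T = ⊤ := by
  obtain _ | ⟨p, hp, hpk⟩ := CharP.exists' κ
  · exact absurd (by rw [ringExpChar.eq κ 1, pow_one]) (hs s)
  have : ExpChar κ p := ExpChar.prime hp.out
  rw [ringExpChar.eq κ p] at hs hTp
  have : CharP C p := charP_of_injective_algebraMap (algebraMap κ C).injective p
  obtain ⟨u, hu⟩ := sepElt_exists_sep h
  have : ExpChar κ⟮u⟯ p := expChar_of_injective_algebraMap (algebraMap κ κ⟮u⟯).injective p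
  refine sepElt_exchange hp.out (u := u) (fun T' hu' hT' => ?_) hs T hT hTp
  have hκ : ∀ c : κ, algebraMap κ C c ∈ T' := fun c => by
    obtain ⟨d, rfl⟩ := IsAlgClosed.exists_pow_nat_eq c hp.out.pos
    rw [map_pow]
    exact hT' _
  have hle : κ⟮u⟯ ≤ T'.toIntermediateField hκ := by
    rw [adjoin_simple_le_iff]
    exact hu'
  exact sepElt_top_of_sep (K := κ⟮u⟯) p T' (fun a => hle a.2) hT'

theorem exists_not_pow (h : IsCurve κ C) {n : ℕ} (hn : n ≠ 1) : ∃ s : C, ∀ y : C, y ^ n ≠ s := by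
  obtain ⟨t, ht⟩ := h.exists_transcendental
  obtain ⟨z, -⟩ := place_exists_zero ht
  have ho := (place_isDVR h z).isOrd
  obtain ⟨π, -, h1⟩ := ho.exists_eq 1
  refine ⟨π, fun y hy => hn ?_⟩
  rw [← hy, ho.pow] at h1
  exact_mod_cast Int.eq_one_of_mul_eq_one_right (Int.natCast_nonneg n) h1

end curve

variable {l Λ : Type*} [Field l] [Field Λ] [Algebra l Λ]

variable (l) in
/-- image of a set under an iterate of Frobenius -/
def pw (n : ℕ) (S : Set Λ) : Set Λ := (fun x => x ^ ringExpChar l ^ n) '' S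

theorem expChar : ExpChar Λ (ringExpChar l) :=
  expChar_of_injective_algebraMap (algebraMap l Λ).injective _

theorem pw_zero (S : Set Λ) : pw l 0 S = S := by simp [pw]

theorem pw_pw (m n : ℕ) (S : Set Λ) : pw l m (pw l n S) = pw l (n + m) S := by
  simp only [pw, Set.image_image, ← pow_mul, ← pow_add]

theorem pw_inj (n : ℕ) {S T : Set Λ} (h : pw l n S = pw l n T) : S = T := by
  have := expChar (l := l) (Λ := Λ)
  exact Set.image_injective.2 (iterateFrobenius_inj Λ (ringExpChar l) n) h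

theorem pw_image (σ : Λ ≃ₐ[l] Λ) (n : ℕ) (S : Set Λ) : pw l n (σ '' S) = σ '' pw l n S := by
  simp only [pw, Set.image_image, map_pow]

theorem pw_subset (n : ℕ) (E : IntermediateField l Λ) : pw l n (E : Set Λ) ⊆ E := by
  rintro _ ⟨x, hx, rfl⟩
  exact pow_mem hx _

theorem exists_pw_subset {E' E : IntermediateField l Λ} (hE : Algebra.EssFiniteType l E)
    (h : ∀ x ∈ E, ∃ n : ℕ, x ^ ringExpChar l ^ n ∈ E') : ∃ N, pw l N (E : Set Λ) ⊆ E' := by
  have := expChar (l := l) (Λ := Λ)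
  obtain ⟨s, hs⟩ := essFiniteType_iff.1 hE
  choose! n hn using h
  refine ⟨s.sup n, ?_⟩
  let T : IntermediateField l Λ :=
    (E'.toSubfield.comap (iterateFrobenius Λ (ringExpChar l) (s.sup n))).toIntermediateField
      fun a => pow_mem (E'.algebraMap_mem a) _
  have hle : E ≤ T := by
    rw [← hs, adjoin_le_iff]
    intro x hx
    obtain ⟨m, hm⟩ := Nat.exists_eq_add_of_le (Finset.le_sup (f := n) hx)
    change x ^ ringExpChar l ^ s.sup n ∈ E'
    rw [hm, pow_add, pow_mul]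
    exact pow_mem (hn x (hs ▸ subset_adjoin l _ hx)) _
  rintro _ ⟨x, hx, rfl⟩
  exact hle hx

variable [IsAlgClosed l]

theorem exists_eq_pw {E' E : IntermediateField l Λ} (hE : IsCurve l E) (hle : E' ≤ E)
    (h : ∀ x ∈ E, ∃ n : ℕ, x ^ ringExpChar l ^ n ∈ E') : ∃ n, (E' : Set Λ) = pw l n E := by
  classical
  have := expChar (l := l) (Λ := Λ)
  have := expChar (l := l) (Λ := E)
  have hex := exists_pw_subset hE.fg h
  refine ⟨Nat.find hex, Set.Subset.antisymm (fun y hy => ?_) (Nat.find_spec hex)⟩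
  have key : ∀ m, m ≤ Nat.find hex → y ∈ pw l m (E : Set Λ) := by
    intro m
    induction m with
    | zero => intro _; rw [pw_zero]; exact hle hy
    | succ m ih =>
      intro hm
      obtain ⟨s, hs, hsy⟩ := ih (by omega)
      by_contra hcon
      obtain ⟨n, hn⟩ : ∃ n, Nat.find hex = m + n + 1 := ⟨Nat.find hex - m - 1, by omega⟩
      have hspec := Nat.find_spec hex
      rw [hn] at hspec
      have hT := top_of_not_pow hE (s := ⟨s, hs⟩) (fun z hz => hcon ⟨z, z.2, by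
          have h1 : (z : Λ) ^ ringExpChar l = s := congrArg Subtype.val hz
          simp only [← hsy, ← h1, ← pow_mul, ← pow_succ']⟩)
        (E'.toSubfield.comap ((iterateFrobenius Λ (ringExpChar l) (m + n)).comp E.val.toRingHom))
        (by
          change s ^ ringExpChar l ^ (m + n) ∈ E'
          rw [pow_add, pow_mul]
          exact pow_mem (hsy.symm ▸ hy : (fun x => x ^ ringExpChar l ^ m) s ∈ E') _)
        (fun x => by
          change ((x : Λ) ^ ringExpChar l) ^ ringExpChar l ^ (m + n) ∈ E'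
          rw [← pow_mul, ← pow_succ']
          exact hspec ⟨x, x.2, rfl⟩)
      refine Nat.find_min hex (m := m + n) (by omega) ?_
      rintro _ ⟨x, hx, rfl⟩
      exact (hT.ge (Subfield.mem_top (⟨x, hx⟩ : E)) :)
  exact key _ le_rfl

variable (l) in
/-- an iterate of Frobenius applied to an intermediate field -/
noncomputable def pwF (n : ℕ) (E : IntermediateField l Λ) : IntermediateField l Λ :=
  haveI := expChar (l := l) (Λ := Λ)
  (E.toSubfield.map (iterateFrobenius Λ (ringExpChar l) n)).toIntermediateField fun a => by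
    obtain ⟨b, rfl⟩ := IsAlgClosed.exists_pow_nat_eq a
      (pow_pos (expChar_pos l (ringExpChar l)) n)
    exact ⟨algebraMap l Λ b, E.algebraMap_mem b, (map_pow _ _ _).symm⟩

theorem coe_pwF (n : ℕ) (E : IntermediateField l Λ) : (pwF l n E : Set Λ) = pw l n E := rfl

theorem exists_pw_eq {E₁ E₂ : IntermediateField l Λ} (h₁ : Algebra.EssFiniteType l E₁)
    (h₂ : IsCurve l E₂) (h₁₂ : ∀ x ∈ E₁, ∃ n : ℕ, x ^ ringExpChar l ^ n ∈ E₂)
    (h₂₁ : ∀ x ∈ E₂, ∃ n : ℕ, x ^ ringExpChar l ^ n ∈ E₁) :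
    ∃ a b, pw l a (E₁ : Set Λ) = pw l b E₂ := by
  obtain ⟨N, hN⟩ := exists_pw_subset h₁ h₁₂
  obtain ⟨n, hn⟩ := exists_eq_pw (E' := pwF l N E₁) h₂ hN fun x hx => by
    obtain ⟨m, hm⟩ := h₂₁ x hx
    exact ⟨m + N, x ^ ringExpChar l ^ m, hm, by rw [pow_add, pow_mul]; rfl⟩
  exact ⟨N, n, hn⟩

theorem pw_exp_inj {E : IntermediateField l Λ} (hE : IsCurve l E) (hq : ringExpChar l ≠ 1)
    {a b : ℕ} (h : pw l a (E : Set Λ) = pw l b E) : a = b := by
  obtain ⟨s, hs⟩ := exists_not_pow hE hq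
  have key : ∀ a n : ℕ, pw l a (E : Set Λ) ≠ pw l (n + 1 + a) E := fun a n h => by
    rw [← pw_pw] at h
    obtain ⟨x, hx, e⟩ := (pw_inj a h).le s.2
    refine hs (⟨x, hx⟩ ^ ringExpChar l ^ n) (Subtype.ext ?_)
    rw [← e, ← pow_mul, ← pow_succ]
    rfl
  rcases lt_trichotomy a b with hab | hab | hab
  · exact absurd (h.trans (by congr 1; omega)) (key a (b - a - 1))
  · exact hab
  · exact absurd (h.symm.trans (by congr 1; omega)) (key b (a - b - 1))

theorem exists_shift {E : IntermediateField l Λ} (hE : IsCurve l E)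
    (h : ∀ x : Λ, ∃ n : ℕ, x ^ ringExpChar l ^ n ∈ E) (σ : Λ ≃ₐ[l] Λ) :
    ∃ a b, pw l a (σ '' E) = pw l b E := by
  have hfg : Algebra.EssFiniteType l (E.map (σ : Λ →ₐ[l] Λ)) := by
    classical
    obtain ⟨s, hs⟩ := essFiniteType_iff.1 hE.fg
    exact essFiniteType_iff.2 ⟨s.image σ, by rw [← hs, adjoin_map, Finset.coe_image]; rfl⟩
  exact exists_pw_eq hfg hE (fun x _ => h x) fun x _ => by
    obtain ⟨n, hn⟩ := h (σ.symm x)
    exact ⟨n, _, hn, by simp⟩

omit [IsAlgClosed l] in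
theorem shift_pow {E : Set Λ} {σ : Λ ≃ₐ[l] Λ} {a b : ℕ} (h : pw l a (σ '' E) = pw l b E) (n : ℕ) :
    pw l (n * a) ((σ ^ n) '' E) = pw l (n * b) E := by
  induction n with
  | zero =>
    rw [pow_zero, zero_mul, zero_mul]
    exact congrArg _ (Set.image_id E)
  | succ n ih =>
    have e : (σ ^ (n + 1)) '' E = σ '' ((σ ^ n) '' E) := by
      rw [pow_succ', Set.image_image]
      rfl
    rw [e, Nat.succ_mul, ← pw_pw, pw_image, ih,
      ← pw_image, pw_pw, add_comm, ← pw_pw, h, pw_pw, Nat.succ_mul, add_comm]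

end PIAux

/-- For a curve field `E` over a perfect field of characteristic `p`, `[E : E ^ p] = p`
(separating element). If `E' ⊊ E` and `E ^ p ^ N ⊆ E'` then `E' E ^ p ≠ E`, so `E' ⊆ E ^ p`;
induct on the degree. -/
theorem exists_eq_pow {l Λ : Type*} [Field l] [Field Λ] [Algebra l Λ] [IsAlgClosed l]
    {E' E : IntermediateField l Λ} (hE : IsCurve l E) (hle : E' ≤ E)
    (hE' : Algebra.EssFiniteType l E') (h : ∀ x ∈ E, ∃ n : ℕ, x ^ ringExpChar l ^ n ∈ E') :
    ∃ n : ℕ, ∀ y, y ∈ E' ↔ ∃ x ∈ E, x ^ ringExpChar l ^ n = y := by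
  obtain ⟨n, hn⟩ := PIAux.exists_eq_pw hE hle h
  exact ⟨n, fun y => Set.ext_iff.1 hn y⟩

/-- two curve fields with the same perfect closure are comparable -/
theorem le_or_le_of_perfect {l Λ : Type*} [Field l] [Field Λ] [Algebra l Λ] [IsAlgClosed l]
    {E₁ E₂ : IntermediateField l Λ} (h₁ : IsCurve l E₁) (h₂ : IsCurve l E₂)
    (h₁₂ : ∀ x ∈ E₁, ∃ n : ℕ, x ^ ringExpChar l ^ n ∈ E₂)
    (h₂₁ : ∀ x ∈ E₂, ∃ n : ℕ, x ^ ringExpChar l ^ n ∈ E₁) : E₁ ≤ E₂ ∨ E₂ ≤ E₁ := by
  obtain ⟨a, b, h⟩ := PIAux.exists_pw_eq h₁.fg h₂ h₁₂ h₂₁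
  rcases le_total a b with hab | hab
  · obtain ⟨n, rfl⟩ := Nat.exists_eq_add_of_le' hab
    rw [← PIAux.pw_pw] at h
    exact Or.inl ((PIAux.pw_inj a h).le.trans (PIAux.pw_subset n E₂))
  · obtain ⟨n, rfl⟩ := Nat.exists_eq_add_of_le' hab
    rw [← PIAux.pw_pw] at h
    exact Or.inr ((PIAux.pw_inj b h).ge.trans (PIAux.pw_subset n E₁))

/-- a divisible element of the automorphism group preserves `E`: if `γ = γ' ^ n` and `γ'` moves
`E` strictly up or down, the degree between `E` and `γ E` is at least `2 ^ n` -/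
theorem map_eq_of_divisible {l Λ : Type*} [Field l] [Field Λ] [Algebra l Λ] [IsAlgClosed l]
    {E : IntermediateField l Λ} (hE : IsCurve l E)
    (h : ∀ x : Λ, ∃ n : ℕ, x ^ ringExpChar l ^ n ∈ E) (γ : Λ ≃ₐ[l] Λ)
    (hγ : ∀ n : ℕ, 0 < n → ∃ γ' : Λ ≃ₐ[l] Λ, γ' ^ n = γ) : ∀ x, γ x ∈ E ↔ x ∈ E := by
  by_cases hq : ringExpChar l = 1
  · have h1 : ∀ x : Λ, x ∈ E := fun x => by simpa [hq] using h x
    exact fun x => iff_of_true (h1 _) (h1 _)
  obtain ⟨a, b, hab⟩ := PIAux.exists_shift hE h γ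
  obtain ⟨σ, hσ⟩ := hγ (a + b + 1) (Nat.succ_pos _)
  obtain ⟨c, d, hcd⟩ := PIAux.exists_shift hE h σ
  have h1 := PIAux.shift_pow hcd (a + b + 1)
  rw [hσ] at h1
  have h2 : b + (a + b + 1) * c = (a + b + 1) * d + a := by
    refine PIAux.pw_exp_inj hE hq ?_
    rw [← PIAux.pw_pw, ← PIAux.pw_pw, ← hab, ← h1, PIAux.pw_pw, PIAux.pw_pw, add_comm]
  have h3 : a = b := by
    rcases lt_trichotomy c d with hc | hc | hc
    · nlinarith
    · subst hc; omega
    · nlinarith
  subst h3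
  have h4 := PIAux.pw_inj a hab
  intro x
  exact (Set.ext_iff.1 h4 (γ x)).symm.trans (γ.injective.mem_set_image)

end Vale.Agent.P019
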