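import Vale.Agent.P019.BND

/-! P019: selection of infinitely many visible divisors of bounded degree. -/

open Filter

namespace Vale.Agent.P019

/-- a sequence of divisors of the model with normalized equations of degree `D` that leaves every
finite set -/
structure DivSeq {l L : Type*} [Field l] [Field L] [Algebra l L] {d : ℕ} (M : Model l L d)
    (W : ℕ → ValuationSubring L) (π : ℕ → MvPolynomial (Fin d) l) (D : ℕ) (α₀ : Fin d →₀ ℕ)
    (j₀ : Fin d) : Prop where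
  isDiv : ∀ i, M.IsDiv (W i) (π i)
  deg : ∀ i, (π i).totalDegree = D
  coeff : ∀ i, (π i).coeff α₀ = 1
  var : ∀ i, 0 < (π i).degreeOf j₀
  unit : ∀ y : L, y ≠ 0 → ∀ᶠ i in cofinite, (W i).valuation y = 1

namespace SELAux

/-- recursive choice of elements none of which divides an earlier one -/
theorem exists_seq {R α : Type*} [CommRing R] [IsDomain R] (P : α → Prop) (π : α → R)
    (h0 : ∀ x, P x → π x ≠ 0) (h : ∀ g : R, g ≠ 0 → ∃ x, P x ∧ ¬ π x ∣ g) :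
    ∃ x : ℕ → α, (∀ i, P (x i)) ∧ ∀ i j, i < j → ¬ π (x j) ∣ π (x i) := by
  choose f hf hf' using h
  let G : ℕ → {g : R // g ≠ 0} := fun n => Nat.rec ⟨1, one_ne_zero⟩
    (fun _ g => ⟨g.1 * π (f g.1 g.2), mul_ne_zero g.2 (h0 _ (hf _ _))⟩) n
  have hG : ∀ n, (G (n + 1)).1 = (G n).1 * π (f (G n).1 (G n).2) := fun n => rfl
  have hdvd : ∀ i j, i ≤ j → (G i).1 ∣ (G j).1 := fun i j hij => by
    induction j, hij using Nat.le_induction with
    | base => exact dvd_rfl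
    | succ n _ ih => rw [hG]; exact ih.mul_right _
  refine ⟨fun n => f (G n).1 (G n).2, fun i => hf _ _, fun i j hij hd => hf' _ (G j).2 ?_⟩
  refine hd.trans (Dvd.dvd.trans ?_ (hdvd (i + 1) j hij))
  rw [hG]
  exact dvd_mul_left _ _

/-- pigeonhole on finitely many types -/
theorem exists_type {R α β : Type*} [CommRing R] [IsDomain R] (T : Finset β) (P : β → α → Prop)
    (π : α → R) (h : ∀ g : R, g ≠ 0 → ∃ x, (∃ t ∈ T, P t x) ∧ ¬ π x ∣ g) :
    ∃ t, ∀ g : R, g ≠ 0 → ∃ x, P t x ∧ ¬ π x ∣ g := by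
  by_contra hc
  push Not at hc
  choose g hg hg' using hc
  obtain ⟨x, ⟨t, ht, hx⟩, hd⟩ := h (∏ t ∈ T, g t) (Finset.prod_ne_zero_iff.2 fun t _ => hg t)
  exact hd ((hg' t x hx).trans (Finset.dvd_prod_of_mem _ ht))

theorem finite_dvd {R : Type*} [CommRing R] [IsDomain R] [UniqueFactorizationMonoid R]
    {π : ℕ → R} (hπ : ∀ i, Irreducible (π i)) (h : ∀ i j, i < j → ¬ π j ∣ π i) {g : R}
    (hg : g ≠ 0) : {i | π i ∣ g}.Finite := by
  classical
  have hs : ∀ q : R, {i | Associated (π i) q}.Finite := fun q => by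
    refine Set.Subsingleton.finite fun i hi j hj => ?_
    rcases lt_trichotomy i j with hij | hij | hij
    · exact (h i j hij (Associated.trans hj (Associated.symm hi)).dvd).elim
    · exact hij
    · exact (h j i hij (Associated.trans hi (Associated.symm hj)).dvd).elim
  refine ((UniqueFactorizationMonoid.factors g).toFinset.finite_toSet.biUnion
    fun q _ => hs q).subset fun i hi => ?_
  obtain ⟨q, hq, e⟩ := UniqueFactorizationMonoid.exists_mem_factors_of_dvd hg (hπ i) hi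
  exact Set.mem_biUnion (Finset.mem_coe.2 (Multiset.mem_toFinset.2 hq)) e

theorem exists_var {ι l : Type*} [Field l] {π : MvPolynomial ι l} (h : Irreducible π) :
    ∃ j, 0 < π.degreeOf j := by
  by_contra hc
  push Not at hc
  have h0 : π.totalDegree = 0 := by
    rw [MvPolynomial.totalDegree_eq_zero_iff]
    intro m hm j
    exact Nat.le_zero.1 ((MvPolynomial.monomial_le_degreeOf j hm).trans (hc j))
  rw [MvPolynomial.totalDegree_eq_zero_iff_eq_C] at h0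
  have hc0 : π.coeff 0 ≠ 0 := fun e => h.ne_zero (by rw [h0, e, map_zero])
  exact h.not_isUnit (h0 ▸ (IsUnit.mk0 _ hc0).map MvPolynomial.C)

theorem exists_visible {ℓ : ℕ} [Fact ℓ.Prime] {k K l L : Type*} [Field k] [Field K] [Algebra k K]
    [IsAlgClosed k] [Field l] [Field L] [Algebra l L] [IsAlgClosed l]
    (Θ : V ℓ K ≃ₗ[ZMod ℓ] V ℓ L) (hk : (ℓ : k) ≠ 0) (hl : (ℓ : l) ≠ 0) {d : ℕ}
    (hK : IsFF k K (d + 2)) (M : Model l L (d + 2)) {τ : K} (hτ : Transcendental k τ)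
    {S : Set k} (hS : S.Finite) {g : MvPolynomial (Fin (d + 2)) l} (hg : g ≠ 0) :
    ∃ a ∉ S, ∃ W π, M.IsDiv W π ∧ ¬ π ∣ g ∧ Θ (cl ℓ (τ - algebraMap k K a)) ∉ HO ℓ W := by
  have := hK.fg
  obtain ⟨S₀, hS₀, hli⟩ := exists_linearIndependent hk hτ
  obtain ⟨M', hM'⟩ := M.exists_mul hg
  have := finite_model_unr hl M'
  by_contra hc
  push Not at hc
  let U : Submodule (ZMod ℓ) (V ℓ L) :=
    ⨅ (W : ValuationSubring L) (π : MvPolynomial (Fin (d + 2)) l) (_ : M'.IsDiv W π), HO ℓ W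
  have hmem : ∀ a : ↥(S ∪ S₀)ᶜ, Θ (cl ℓ (τ - algebraMap k K a)) ∈ U := fun a => by
    simp only [U, Submodule.mem_iInf]
    intro W π hW
    exact hc a (fun h => a.2 (Or.inl h)) W π ((hM' W π).1 hW).1 ((hM' W π).1 hW).2
  have hsub : (S ∪ S₀)ᶜ ⊆ S₀ᶜ := Set.compl_subset_compl.2 Set.subset_union_right
  have h1 : LinearIndependent (ZMod ℓ)
      fun a : ↥(S ∪ S₀)ᶜ => Θ (cl ℓ (τ - algebraMap k K a)) :=
    (hli.comp (Set.inclusion hsub) (Set.inclusion_injective hsub)).map' Θ.toLinearMap Θ.ker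
  have h2 : LinearIndependent (ZMod ℓ) fun a : ↥(S ∪ S₀)ᶜ => (⟨_, hmem a⟩ : U) :=
    LinearIndependent.of_comp U.subtype h1
  have h3 : Finite ↥(S ∪ S₀)ᶜ := h2.finite
  exact (hS.union hS₀).infinite_compl (Set.toFinite _)

end SELAux

open SELAux

/-- The classes `Θ (cl (τ - a))`, `a ∉ S`, are independent, so for every `g ≠ 0` all but finitely
many of them have a visible divisor `(W, π)` with `π ∤ g` (`Model.exists_mul`,
`finite_model_unr`). Choose recursively pairwise non-associated `π i` of degree at most `D`;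
pigeonhole on (degree, a monomial in the support, a variable), normalize. -/
theorem exists_divSeq {ℓ : ℕ} [Fact ℓ.Prime] {k K l L : Type*} [Field k] [Field K] [Algebra k K]
    [IsAlgClosed k] [Field l] [Field L] [Algebra l L] [IsAlgClosed l]
    {Θ : V ℓ K ≃ₗ[ZMod ℓ] V ℓ L} (h : Compat Θ) (hk : (ℓ : k) ≠ 0) (hl : (ℓ : l) ≠ 0) {d : ℕ}
    (hK : IsFF k K (d + 2)) (M : Model l L (d + 2)) {τ : K} (hτ : Transcendental k τ) :
    ∃ (W : ℕ → ValuationSubring L) (π : ℕ → MvPolynomial (Fin (d + 2)) l) (D : ℕ)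
      (α₀ : Fin (d + 2) →₀ ℕ) (j₀ : Fin (d + 2)) (a : ℕ → k), DivSeq M W π D α₀ j₀ ∧
      ∀ i, Θ (cl ℓ (τ - algebraMap k K (a i))) ∉ HO ℓ (W i) := by
  classical
  obtain ⟨D, S, hS, hD⟩ := exists_degree_bound h hk hl hK M hτ
  let P : ℕ × (Fin (d + 2) →₀ ℕ) × Fin (d + 2) →
      k × ValuationSubring L × MvPolynomial (Fin (d + 2)) l → Prop := fun t x =>
    M.IsDiv x.2.1 x.2.2 ∧ Θ (cl ℓ (τ - algebraMap k K x.1)) ∉ HO ℓ x.2.1 ∧
      x.2.2.totalDegree = t.1 ∧ x.2.2.coeff t.2.1 = 1 ∧ 0 < x.2.2.degreeOf t.2.2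
  obtain ⟨t, ht⟩ := exists_type (Finset.range (D + 1) ×ˢ
      (Finsupp.finite_of_degree_le (σ := Fin (d + 2)) D).toFinset ×ˢ Finset.univ) P
      (fun x => x.2.2) fun g hg => by
    obtain ⟨a, ha, W, π, hW, hπ, hv⟩ := exists_visible Θ hk hl hK M hτ hS hg
    obtain ⟨α, hα⟩ := MvPolynomial.ne_zero_iff.1 hW.1.ne_zero
    have hW' := hW.mul_unit (inv_ne_zero hα)
    obtain ⟨j, hj⟩ := exists_var hW'.1
    obtain ⟨u, hu, e⟩ := cl_surj (Θ (cl ℓ (τ - algebraMap k K a)))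
    have hdeg := hD a ha u hu e.symm W _ hW' (e ▸ hv)
    have h1 : (MvPolynomial.C (π.coeff α)⁻¹ * π).coeff α = 1 := by
      rw [MvPolynomial.coeff_C_mul, inv_mul_cancel₀ hα]
    refine ⟨(a, W, MvPolynomial.C (π.coeff α)⁻¹ * π), ⟨(_, α, j), ?_, hW', hv, rfl, h1, hj⟩,
      fun hd => hπ ((dvd_mul_left _ _).trans hd)⟩
    simp only [Finset.mem_product, Finset.mem_range, Set.Finite.mem_toFinset, Finset.mem_univ,
      and_true]
    refine ⟨Nat.lt_succ_of_le hdeg, le_trans ?_ hdeg⟩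
    exact MvPolynomial.le_totalDegree (MvPolynomial.mem_support_iff.2 (h1 ▸ one_ne_zero))
  obtain ⟨x, hx, hlt⟩ := exists_seq (P t) (fun x => x.2.2) (fun x hx => hx.1.1.ne_zero) ht
  refine ⟨fun i => (x i).2.1, fun i => (x i).2.2, t.1, t.2.1, t.2.2, fun i => (x i).1,
    ⟨fun i => (hx i).1, fun i => (hx i).2.2.1, fun i => (hx i).2.2.2.1, fun i => (hx i).2.2.2.2,
      fun y hy => ?_⟩, fun i => (hx i).2.1⟩
  obtain ⟨g, hg, hy'⟩ := M.exists_support hy
  refine (finite_dvd (fun i => (hx i).1.1) hlt hg).compl_mem_cofinite |> mem_of_superset <| ?_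
  intro i hi
  exact hy' _ _ (hx i).1 hi

/-- `v i` flat for `W i`; `exists_sub_mem_TO` for `x = τ - a i` gives
`Θ (cl y) - j • Θ (cl x) ∈ TO (W i)`, and `Θ (cl y) ∈ HO (W i)` for almost all `i` forces `j = 0` -/
theorem eventually_mem_TO {ℓ : ℕ} [Fact ℓ.Prime] {k K l L : Type*} [Field k] [Field K]
    [Algebra k K] [IsAlgClosed k] [Field l] [Field L] [Algebra l L] [IsAlgClosed l]
    {Θ : V ℓ K ≃ₗ[ZMod ℓ] V ℓ L} (h : Compat Θ) (hl : (ℓ : l) ≠ 0) {d : ℕ}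
    {M : Model l L (d + 2)} {τ : K} (hτ : Transcendental k τ) {W : ℕ → ValuationSubring L}
    {π : ℕ → MvPolynomial (Fin (d + 2)) l} {D : ℕ} {α₀ : Fin (d + 2) →₀ ℕ} {j₀ : Fin (d + 2)}
    (hW : DivSeq M W π D α₀ j₀) {a : ℕ → k}
    (ha : ∀ i, Θ (cl ℓ (τ - algebraMap k K (a i))) ∉ HO ℓ (W i)) {v : V ℓ K}
    (hv : v ∈ Geo ℓ k τ) : ∀ᶠ i in cofinite, Θ v ∈ TO ℓ (W i) := by
  obtain ⟨y, hy, hy0, rfl⟩ := mem_Geo_iff.1 hv
  obtain ⟨u, hu, e⟩ := cl_surj (Θ (cl ℓ y))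
  filter_upwards [hW.unit u hu] with i hi
  obtain ⟨O, hT, hH⟩ := h.exists_flat (cl_neg_one k) (cl_neg_one l)
    (((hW.isDiv i).isPDiv (Nat.le_add_left 2 d)).condN hl)
  have htr : Transcendental k (τ - algebraMap k K (a i)) := fun h' =>
    hτ (by simpa using h'.add (isAlgebraic_algebraMap (a i)))
  have hx0 : τ - algebraMap k K (a i) ≠ 0 := fun h' => htr (h' ▸ isAlgebraic_zero)
  have hE : Ecl k (τ - algebraMap k K (a i)) = Ecl k τ :=
    Ecl_eq htr (sub_mem (self_mem_Ecl τ) (IntermediateField.algebraMap_mem _ _))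
  obtain ⟨j, hj⟩ := exists_sub_mem_TO (ℓ := ℓ) (k := k) (O := O) hx0 hy0
    (fun h' => (pair_iff.1 h').2 (hE ▸ hy)) fun h' => ha i (hH ⟨_, h', rfl⟩)
  have h1 : Θ (cl ℓ y) - j • Θ (cl ℓ (τ - algebraMap k K (a i))) ∈ TO ℓ (W i) := by
    rw [← map_smul, ← map_sub]
    exact hT ⟨_, hj, rfl⟩
  have h2 : Θ (cl ℓ y) ∈ HO ℓ (W i) := e ▸ cl_mem_HO hi
  have hj0 : j = 0 := by
    by_contra hne
    apply ha i
    have h3 := sub_mem h2 (TO_le_HO h1)
    rw [sub_sub_cancel] at h3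
    exact (Submodule.smul_mem_iff _ hne).1 h3
  simpa [hj0] using h1

end Vale.Agent.P019
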