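import Mathlib

/-! Definitions used in the statement of P019. -/

open scoped TensorProduct

namespace Vale.Agent.P019.Stmt

/-- `V ℓ F = F^× / (F^×)^ℓ`, written additively; a vector space over `ZMod ℓ`. -/
abbrev V (ℓ : ℕ) (F : Type*) [Field F] : Type _ := ModN (Additive Fˣ) ℓ

/-- The class `[x]` of a unit `x` in `V ℓ F`. -/
def cls (ℓ : ℕ) (F : Type*) [Field F] (x : Fˣ) : V ℓ F := ModN.mkQ ℓ (Additive.ofMul x)

/-- The class `[φ x]` in `V ℓ F'` of the image of a unit `x` of `F` under `φ : F →+* F'`. -/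
def clsMap (ℓ : ℕ) {F F' : Type*} [Field F] [Field F'] (φ : F →+* F') (x : Fˣ) : V ℓ F' :=
  cls ℓ F' (Units.map φ.toMonoidHom x)

/-- For a map `c : Fˣ → M` to a `Λ`-module, the span of all `c x ⊗ c (1 - x)`, `x ≠ 0, 1`. -/
def steinberg (Λ : Type*) {F M : Type*} [CommRing Λ] [Field F] [AddCommGroup M] [Module Λ M]
    (c : Fˣ → M) : Submodule Λ (M ⊗[Λ] M) :=
  Submodule.span Λ {t | ∃ x y : Fˣ, (y : F) = 1 - (x : F) ∧ t = c x ⊗ₜ[Λ] c y}

/-- `Θ ⊗ Θ` maps the Steinberg span of `c` onto the Steinberg span of `c'`. -/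
def Compatible {Λ F F' M M' : Type*} [CommRing Λ] [Field F] [Field F'] [AddCommGroup M]
    [Module Λ M] [AddCommGroup M'] [Module Λ M'] (c : Fˣ → M) (c' : F'ˣ → M')
    (Θ : M ≃ₗ[Λ] M') : Prop :=
  (steinberg Λ c).map (TensorProduct.map Θ.toLinearMap Θ.toLinearMap) = steinberg Λ c'

end Vale.Agent.P019.Stmt
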