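import Vale.Agent.P019.Base2

/-! P019: rational functions over an ultrapower of the constants. -/

open Filter IntermediateField

namespace Vale.Agent.P019

variable {l L : Type*} [Field l] [Field L] [Algebra l L] (𝒰 : Ultrafilter ℕ)

/-- germs of sequences with values in `l` -/
def constGerm (l L : Type*) [Field l] [Field L] [Algebra l L] (𝒰 : Ultrafilter ℕ) :
    Subfield (Germ (𝒰 : Filter ℕ) L) :=
  Subfield.closure {x | ∃ a : ℕ → l, x = ((fun i => algebraMap l L (a i) : ℕ → L) : Germ _ L)}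

namespace UP1Aux

/-- germs of sequences, as a ring homomorphism -/
noncomputable def gm (L : Type*) [Field L] (𝒰 : Ultrafilter ℕ) :
    (ℕ → L) →+* Germ (𝒰 : Filter ℕ) L :=
  Germ.coeRingHom (𝒰 : Filter ℕ)

theorem gm_apply (f : ℕ → L) : gm L 𝒰 f = (f : Germ (𝒰 : Filter ℕ) L) := rfl

/-- germs of sequences of constants, as a ring homomorphism -/
noncomputable def sq (l L : Type*) [Field l] [Field L] [Algebra l L] (𝒰 : Ultrafilter ℕ) :
    (ℕ → l) →+* Germ (𝒰 : Filter ℕ) L :=
  (gm L 𝒰).comp (RingHom.pi fun i => (algebraMap l L).comp (Pi.evalRingHom (fun _ => l) i))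

theorem sq_apply (a : ℕ → l) :
    sq l L 𝒰 a = ((fun i => algebraMap l L (a i) : ℕ → L) : Germ (𝒰 : Filter ℕ) L) := rfl

theorem sq_inv (a : ℕ → l) : (sq l L 𝒰 a)⁻¹ = sq l L 𝒰 a⁻¹ := by
  rw [sq_apply, sq_apply]
  have : (fun i => algebraMap l L (a⁻¹ i) : ℕ → L) = (fun i => algebraMap l L (a i))⁻¹ := by
    funext i
    simp
  rw [this]
  rfl

/-- the subfield of germs of sequences of constants -/
noncomputable def sf (l L : Type*) [Field l] [Field L] [Algebra l L] (𝒰 : Ultrafilter ℕ) :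
    Subfield (Germ (𝒰 : Filter ℕ) L) where
  toSubring := (sq l L 𝒰).range
  inv_mem' := by
    rintro _ ⟨a, rfl⟩
    exact ⟨a⁻¹, (sq_inv 𝒰 a).symm⟩

end UP1Aux

theorem mem_constGerm {x : Germ (𝒰 : Filter ℕ) L} : x ∈ constGerm l L 𝒰 ↔
    ∃ a : ℕ → l, x = ((fun i => algebraMap l L (a i) : ℕ → L) : Germ _ L) := by
  constructor
  · intro hx
    have hle : constGerm l L 𝒰 ≤ UP1Aux.sf l L 𝒰 := by
      refine Subfield.closure_le.2 ?_
      rintro _ ⟨a, rfl⟩
      exact ⟨a, rfl⟩
    obtain ⟨a, ha⟩ := hle hx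
    exact ⟨a, ha.symm⟩
  · intro hx
    exact Subfield.subset_closure hx

namespace UP1Aux

/-- germs of sequences of constants, onto `constGerm` -/
noncomputable def sqr (l L : Type*) [Field l] [Field L] [Algebra l L] (𝒰 : Ultrafilter ℕ) :
    (ℕ → l) →+* constGerm l L 𝒰 :=
  (sq l L 𝒰).codRestrict (constGerm l L 𝒰) fun a => (mem_constGerm 𝒰).2 ⟨a, rfl⟩

theorem coe_sqr (a : ℕ → l) : ((sqr l L 𝒰 a : constGerm l L 𝒰) : Germ (𝒰 : Filter ℕ) L) =
    ((fun i => algebraMap l L (a i) : ℕ → L) : Germ (𝒰 : Filter ℕ) L) := rfl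

theorem sqr_surj : Function.Surjective (sqr l L 𝒰) := by
  rintro ⟨x, hx⟩
  obtain ⟨a, rfl⟩ := (mem_constGerm 𝒰).1 hx
  exact ⟨a, rfl⟩

theorem aeval_eq_sum {ι R A : Type*} [Fintype ι] [CommRing R] [CommRing A] [Algebra R A]
    (t : ι → A) (P : MvPolynomial ι R) (S : Finset (ι →₀ ℕ)) (hS : P.support ⊆ S) :
    MvPolynomial.aeval t P = ∑ m ∈ S, algebraMap R A (P.coeff m) * ∏ j, t j ^ m j := by
  rw [MvPolynomial.aeval_def, MvPolynomial.eval₂_eq']
  refine Finset.sum_subset hS fun m _ hm => ?_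
  rw [MvPolynomial.notMem_support_iff.1 hm, map_zero, zero_mul]

theorem support_subset {ι R : Type*} [Fintype ι] [CommRing R] (P : MvPolynomial ι R) {D : ℕ}
    (h : P.totalDegree ≤ D) : P.support ⊆ (Finsupp.finite_of_degree_le (σ := ι) D).toFinset := by
  intro m hm
  rw [Set.Finite.mem_toFinset]
  exact (MvPolynomial.le_totalDegree hm).trans h

/-- rational root theorem along an injective homomorphism -/
theorem exists_num_den {A K : Type*} [CommRing A] [IsDomain A] [UniqueFactorizationMonoid A]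
    [Field K] (φ : A →+* K) (hφ : Function.Injective φ) (p q : A) (Q : Polynomial A)
    (hQ : Q.eval₂ φ (φ p / φ q) = 0) : ∃ p' q' : A, φ p / φ q = φ p' / φ q' ∧
      p' ∣ Q.coeff 0 ∧ q' ∣ Q.leadingCoeff := by
  let ψ : FractionRing A →+* K := IsFractionRing.lift hφ
  have hψ : ∀ a, ψ (algebraMap A (FractionRing A) a) = φ a := fun a =>
    IsFractionRing.lift_algebraMap hφ a
  let r : FractionRing A := algebraMap A _ p / algebraMap A _ q
  have hr : ψ r = φ p / φ q := by simp only [r, map_div₀, hψ]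
  have h0 : Polynomial.aeval r Q = 0 := by
    apply ψ.injective
    rw [map_zero, Polynomial.aeval_def, Polynomial.hom_eval₂, hr, ← hQ]
    congr 1
    ext a
    exact hψ a
  refine ⟨IsFractionRing.num A r, IsFractionRing.den A r, ?_, num_dvd_of_is_root h0,
    den_dvd_of_is_root h0⟩
  rw [← hr, ← hψ, ← hψ, ← map_div₀, IsFractionRing.mk'_num_den']

/-- a polynomial relation with nonzero constant term -/
theorem exists_rel {ι F E : Type*} [Field F] [Field E] [Algebra F E] (T : ι → E) {x : E}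
    (ha : IsAlgebraic (adjoin F (Set.range T)) x) (hx : x ≠ 0) :
    ∃ Q : Polynomial (MvPolynomial ι F), Q.coeff 0 ≠ 0 ∧
      Q.eval₂ (MvPolynomial.aeval T : MvPolynomial ι F →ₐ[F] E).toRingHom x = 0 := by
  rw [isAlgebraic_adjoin_iff, Algebra.adjoin_range_eq_range_aeval] at ha
  obtain ⟨Q, hQ0, hQ⟩ := ha
  obtain ⟨Q', rfl⟩ := Polynomial.map_surjective
    (MvPolynomial.aeval T : MvPolynomial ι F →ₐ[F] E).rangeRestrict.toRingHom
    (AlgHom.rangeRestrict_surjective _) Q
  have hQ' : Q' ≠ 0 := by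
    rintro rfl
    exact hQ0 (Polynomial.map_zero _)
  obtain ⟨R, hR, hnd⟩ := Polynomial.exists_eq_pow_rootMultiplicity_mul_and_not_dvd Q' hQ' 0
  rw [map_zero, sub_zero] at hR hnd
  refine ⟨R, fun h => hnd (Polynomial.X_dvd_iff.2 h), ?_⟩
  rw [Polynomial.aeval_def, Polynomial.eval₂_map] at hQ
  have e : Q'.eval₂ (MvPolynomial.aeval T : MvPolynomial ι F →ₐ[F] E).toRingHom x = 0 := hQ
  rw [hR, Polynomial.eval₂_mul, Polynomial.eval₂_X_pow] at e
  exact (mul_eq_zero.1 e).resolve_left (pow_ne_zero _ hx)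

/-- roots in `l(t)` of relations of bounded degree have bounded degree -/
theorem exists_bounded {ι : Type*} [Fintype ι] {t : ι → L} (ht : AlgebraicIndependent l t) {x : L}
    (hx : x ∈ adjoin l (Set.range t)) (c : ℕ → MvPolynomial ι l) (N D : ℕ)
    (hD : ∀ n ∈ Finset.range N, (c n).totalDegree ≤ D) (hN : 0 < N)
    (h : ∑ n ∈ Finset.range N, MvPolynomial.aeval t (c n) * x ^ n = 0) (h0 : c 0 ≠ 0) :
    ∃ p q : MvPolynomial ι l, p.totalDegree ≤ D ∧ q.totalDegree ≤ D ∧
      x = MvPolynomial.aeval t p / MvPolynomial.aeval t q := by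
  obtain ⟨r, s, rfl⟩ := (mem_adjoin_range_iff l t x).1 hx
  let Q : Polynomial (MvPolynomial ι l) := ∑ n ∈ Finset.range N, Polynomial.monomial n (c n)
  have hc : ∀ n, Q.coeff n = if n ∈ Finset.range N then c n else 0 := fun n => by
    simp only [Q, Polynomial.finsetSum_coeff, Polynomial.coeff_monomial]
    rw [Finset.sum_ite_eq']
  have hc0 : Q.coeff 0 = c 0 := by rw [hc, if_pos (Finset.mem_range.2 hN)]
  have hQ0 : Q ≠ 0 := by
    intro e
    rw [e, Polynomial.coeff_zero] at hc0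
    exact h0 hc0.symm
  have hcD : ∀ n, (Q.coeff n).totalDegree ≤ D := fun n => by
    rw [hc]
    split_ifs with hn
    · exact hD n hn
    · simp
  obtain ⟨p, q, e, hp, hq⟩ := exists_num_den
    (MvPolynomial.aeval t : MvPolynomial ι l →ₐ[l] L).toRingHom ht r s Q (by
      rw [← h]
      simp only [Q, Polynomial.eval₂_finsetSum, Polynomial.eval₂_monomial]
      rfl)
  refine ⟨p, q, ?_, ?_, e⟩
  · exact (MvPolynomial.totalDegree_le_of_dvd_of_isDomain hp (by rwa [hc0])).trans (hcD 0)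
  · exact (MvPolynomial.totalDegree_le_of_dvd_of_isDomain hq
      (Polynomial.leadingCoeff_ne_zero.2 hQ0)).trans (hcD _)

end UP1Aux

open UP1Aux

theorem isAlgClosed_constGerm [IsAlgClosed l] : IsAlgClosed (constGerm l L 𝒰) := by
  refine IsAlgClosed.of_exists_root _ fun p hp hirr => ?_
  obtain ⟨q, hq, hdeg, hmon⟩ := Polynomial.lifts_and_natDegree_eq_and_monic
    ((Polynomial.mem_lifts p).2 (Polynomial.map_surjective _ (sqr_surj (l := l) (L := L) 𝒰) p)) hp
  have hd : 0 < p.natDegree := hirr.natDegree_pos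
  have hroot : ∀ i, ∃ x : l, (q.map (Pi.evalRingHom (fun _ => l) i)).IsRoot x := fun i => by
    refine IsAlgClosed.exists_root _ ?_
    rw [Polynomial.degree_eq_natDegree (hmon.map _).ne_zero, hmon.natDegree_map, hdeg]
    exact_mod_cast hd.ne'
  choose r hr using hroot
  have h0 : q.eval r = 0 := by
    funext i
    have := hr i
    rw [Polynomial.IsRoot, Polynomial.eval_map] at this
    rw [Pi.zero_apply, ← this]
    exact (Polynomial.eval₂_at_apply (Pi.evalRingHom (fun _ => l) i) r).symm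
  refine ⟨sqr l L 𝒰 r, ?_⟩
  rw [← hq, Polynomial.eval_map, Polynomial.eval₂_at_apply, h0, map_zero]

/-- polynomials over `constGerm` are germs of sequences of polynomials of bounded degree -/
theorem exists_seq_poly {ι : Type*} [Fintype ι] (P : MvPolynomial ι (constGerm l L 𝒰)) :
    ∃ p : ℕ → MvPolynomial ι l, (∀ i, (p i).support ⊆ P.support) ∧
      ∀ m, ((P.coeff m : constGerm l L 𝒰) : Germ (𝒰 : Filter ℕ) L) =
        ((fun i => algebraMap l L ((p i).coeff m) : ℕ → L) : Germ _ L) := by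
  classical
  choose a ha using fun m => sqr_surj (l := l) (L := L) 𝒰 (P.coeff m)
  have hc : ∀ i m, (∑ n ∈ P.support, MvPolynomial.monomial n (a n i) : MvPolynomial ι l).coeff m =
      if m ∈ P.support then a m i else 0 := fun i m => by
    rw [MvPolynomial.coeff_sum]
    simp only [MvPolynomial.coeff_monomial]
    rw [Finset.sum_ite_eq']
  refine ⟨fun i => ∑ n ∈ P.support, MvPolynomial.monomial n (a n i), fun i m hm => ?_, fun m => ?_⟩
  · rw [MvPolynomial.mem_support_iff, hc] at hm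
    by_contra h
    exact hm (if_neg h)
  · simp only [hc]
    by_cases h : m ∈ P.support
    · simp only [if_pos h]
      rw [← ha m, coe_sqr]
    · simp only [if_neg h, map_zero]
      rw [MvPolynomial.notMem_support_iff.1 h]
      rfl

theorem exists_poly_seq {ι : Type*} [Fintype ι] (p : ℕ → MvPolynomial ι l) (D : ℕ)
    (h : ∀ i, (p i).totalDegree ≤ D) : ∃ P : MvPolynomial ι (constGerm l L 𝒰),
      P.totalDegree ≤ D ∧ ∀ m, ((P.coeff m : constGerm l L 𝒰) : Germ (𝒰 : Filter ℕ) L) =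
        ((fun i => algebraMap l L ((p i).coeff m) : ℕ → L) : Germ _ L) := by
  classical
  let S := (Finsupp.finite_of_degree_le (σ := ι) D).toFinset
  have hc : ∀ m, (∑ n ∈ S, MvPolynomial.monomial n (sqr l L 𝒰 fun i => (p i).coeff n) :
      MvPolynomial ι (constGerm l L 𝒰)).coeff m =
      if m ∈ S then sqr l L 𝒰 fun i => (p i).coeff m else 0 := fun m => by
    rw [MvPolynomial.coeff_sum]
    simp only [MvPolynomial.coeff_monomial]
    rw [Finset.sum_ite_eq']
  refine ⟨∑ n ∈ S, MvPolynomial.monomial n (sqr l L 𝒰 fun i => (p i).coeff n), ?_, fun m => ?_⟩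
  · refine Finset.sup_le fun m hm => ?_
    rw [MvPolynomial.mem_support_iff, hc] at hm
    have hS : m ∈ S := by
      by_contra h'
      exact hm (if_neg h')
    rw [Set.Finite.mem_toFinset] at hS
    exact hS
  · rw [hc]
    by_cases hm : m ∈ S
    · rw [if_pos hm, coe_sqr]
    · rw [if_neg hm]
      have : ∀ i, (p i).coeff m = 0 := fun i =>
        MvPolynomial.notMem_support_iff.1 fun h' => hm (support_subset _ (h i) h')
      simp only [this, map_zero]
      rfl

theorem aeval_germ {ι : Type*} [Fintype ι] (t : ι → L) (P : MvPolynomial ι (constGerm l L 𝒰))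
    (p : ℕ → MvPolynomial ι l)
    (h : ∀ m, ((P.coeff m : constGerm l L 𝒰) : Germ (𝒰 : Filter ℕ) L) =
      ((fun i => algebraMap l L ((p i).coeff m) : ℕ → L) : Germ _ L))
    (D : ℕ) (hD : ∀ i, (p i).totalDegree ≤ D) :
    MvPolynomial.aeval (fun j => ((t j : L) : Germ (𝒰 : Filter ℕ) L)) P =
      ((fun i => MvPolynomial.aeval t (p i) : ℕ → L) : Germ _ L) := by
  classical
  let S := P.support ∪ (Finsupp.finite_of_degree_le (σ := ι) D).toFinset
  rw [aeval_eq_sum _ P S Finset.subset_union_left]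
  have e : (fun i => MvPolynomial.aeval t (p i) : ℕ → L) =
      ∑ m ∈ S, (fun i => algebraMap l L ((p i).coeff m)) * ∏ j, (fun _ => t j) ^ m j := by
    funext i
    rw [aeval_eq_sum t (p i) S ((support_subset _ (hD i)).trans Finset.subset_union_right)]
    simp [Finset.sum_apply, Finset.prod_apply]
  rw [e, ← gm_apply, map_sum]
  refine Finset.sum_congr rfl fun m _ => ?_
  rw [map_mul, map_prod, gm_apply, ← h m]
  simp only [map_pow]
  rfl

theorem algebraicIndependent_germ {ι : Type*} [Fintype ι] {t : ι → L}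
    (ht : AlgebraicIndependent l t) :
    AlgebraicIndependent (constGerm l L 𝒰) fun j => ((t j : L) : Germ (𝒰 : Filter ℕ) L) := by
  rw [algebraicIndependent_iff]
  intro P hP
  obtain ⟨p, hp, hc⟩ := exists_seq_poly 𝒰 P
  rw [aeval_germ 𝒰 t P p hc P.totalDegree
    fun i => Finset.sup_mono (hp i)] at hP
  have h0 : ∀ᶠ i in (𝒰 : Filter ℕ), MvPolynomial.aeval t (p i) = 0 := Germ.coe_eq.1 hP
  ext m
  rw [hc m]
  refine Germ.coe_eq.2 (h0.mono fun i hi => ?_)
  simp [algebraicIndependent_iff.1 ht _ hi]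

/-- A germ `z` of elements `z i = p i / q i` of `l(t)` (lowest terms) that is algebraic over
`Ω(t)` satisfies `∑ c k z ^ k = 0` with `c k ∈ Ω[t]`, `c 0 ≠ 0`, `c m ≠ 0`; by the rational root
theorem `p i ∣ c 0 i`, `q i ∣ c m i` for most `i`, so the degrees are bounded. -/
theorem mem_adjoin_of_isAlgebraic {ι : Type*} [Fintype ι] {t : ι → L}
    (ht : AlgebraicIndependent l t) (z : ℕ → L) (hz : ∀ i, z i ∈ adjoin l (Set.range t))
    (ha : IsAlgebraic
      (adjoin (constGerm l L 𝒰) (Set.range fun j => ((t j : L) : Germ (𝒰 : Filter ℕ) L)))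
      (z : Germ (𝒰 : Filter ℕ) L)) :
    (z : Germ (𝒰 : Filter ℕ) L) ∈
      adjoin (constGerm l L 𝒰) (Set.range fun j => ((t j : L) : Germ (𝒰 : Filter ℕ) L)) := by
  classical
  by_cases hz0 : (z : Germ (𝒰 : Filter ℕ) L) = 0
  · rw [hz0]
    exact zero_mem _
  obtain ⟨Q, hQ0, hQ⟩ := exists_rel _ ha hz0
  choose c hc hcc using fun n => exists_seq_poly 𝒰 (Q.coeff n)
  let D := (Finset.range (Q.natDegree + 1)).sup fun n => (Q.coeff n).totalDegree
  have hdeg : ∀ n ∈ Finset.range (Q.natDegree + 1), ∀ i, (c n i).totalDegree ≤ D := fun n hn i =>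
    le_trans (Finset.sup_mono (hc n i))
      (Finset.le_sup (f := fun n => (Q.coeff n).totalDegree) hn)
  have hev : ∀ n ∈ Finset.range (Q.natDegree + 1),
      MvPolynomial.aeval (fun j => ((t j : L) : Germ (𝒰 : Filter ℕ) L)) (Q.coeff n) =
        gm L 𝒰 fun i => MvPolynomial.aeval t (c n i) := fun n hn =>
    aeval_germ 𝒰 t _ _ (hcc n) D (hdeg n hn)
  have h1 : ∀ᶠ i in (𝒰 : Filter ℕ), ∑ n ∈ Finset.range (Q.natDegree + 1),
      MvPolynomial.aeval t (c n i) * z i ^ n = 0 := by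
    rw [Polynomial.eval₂_eq_sum_range] at hQ
    have e : gm L 𝒰 (∑ n ∈ Finset.range (Q.natDegree + 1),
        (fun i => MvPolynomial.aeval t (c n i)) * z ^ n) = 0 := by
      rw [map_sum, ← hQ]
      refine Finset.sum_congr rfl fun n hn => ?_
      rw [map_mul, map_pow, ← hev n hn]
      rfl
    have e' : (∑ n ∈ Finset.range (Q.natDegree + 1),
        (fun i => MvPolynomial.aeval t (c n i)) * z ^ n) =ᶠ[(𝒰 : Filter ℕ)] 0 := Germ.coe_eq.1 e
    refine e'.mono fun i hi => ?_
    simpa [Finset.sum_apply] using hi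
  have h2 : ∀ᶠ i in (𝒰 : Filter ℕ), c 0 i ≠ 0 := by
    refine Ultrafilter.eventually_not.2 fun hne' => hQ0 ?_
    ext m
    rw [hcc 0 m]
    refine Germ.coe_eq.2 (hne'.mono fun i hi => ?_)
    simp [hi]
  have h3 : ∀ i, ∃ p q : MvPolynomial ι l, p.totalDegree ≤ D ∧ q.totalDegree ≤ D ∧
      ((∑ n ∈ Finset.range (Q.natDegree + 1), MvPolynomial.aeval t (c n i) * z i ^ n = 0) →
        c 0 i ≠ 0 → z i = MvPolynomial.aeval t p / MvPolynomial.aeval t q) := fun i => by
    by_cases hi : (∑ n ∈ Finset.range (Q.natDegree + 1),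
        MvPolynomial.aeval t (c n i) * z i ^ n = 0) ∧ c 0 i ≠ 0
    · obtain ⟨p, q, hp, hq, e⟩ := exists_bounded ht (hz i) (fun n => c n i) (Q.natDegree + 1) D
        (fun n hn => hdeg n hn i) (Nat.succ_pos _) hi.1 hi.2
      exact ⟨p, q, hp, hq, fun _ _ => e⟩
    · exact ⟨0, 0, by simp, by simp, fun h h' => (hi ⟨h, h'⟩).elim⟩
  choose p q hp hq hpq using h3
  obtain ⟨P, -, hP⟩ := exists_poly_seq (L := L) 𝒰 p D hp
  obtain ⟨R, -, hR⟩ := exists_poly_seq (L := L) 𝒰 q D hq
  rw [mem_adjoin_range_iff]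
  refine ⟨P, R, ?_⟩
  rw [aeval_germ 𝒰 t P p hP D hp, aeval_germ 𝒰 t R q hR D hq, ← Germ.coe_div]
  refine Germ.coe_eq.2 ?_
  filter_upwards [h1, h2] with i hi hi'
  exact hpq i hi hi'

end Vale.Agent.P019
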