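import Vale.Agent.P019.MD
import Vale.Agent.P019.SD

/-! P019: algebraic preliminaries for the generic member. -/

open IntermediateField IsLocalRing

namespace Vale.Agent.P019.UPAux

universe u

theorem alg_of_range {T A Λ : Type*} [CommRing T] [CommRing A] [CommRing Λ] [Algebra T Λ]
    [Algebra A Λ] (hinj : Function.Injective (algebraMap T Λ))
    (h : ∀ t, ∃ a, algebraMap A Λ a = algebraMap T Λ t) {x : Λ} (hx : IsAlgebraic T x) :
    IsAlgebraic A x := by
  obtain ⟨p, hp, hp0⟩ := hx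
  obtain ⟨q, hq⟩ := (Polynomial.mem_lifts (f := algebraMap A Λ) (p.map (algebraMap T Λ))).1
    ((Polynomial.lifts_iff_coeff_lifts _).2 fun n => by rw [Polynomial.coeff_map]; exact h _)
  refine ⟨q, ?_, ?_⟩
  · rintro rfl
    rw [Polynomial.map_zero] at hq
    exact hp ((Polynomial.map_eq_zero_iff hinj).1 hq.symm)
  · rw [← Polynomial.eval_map_algebraMap, hq, Polynomial.eval_map_algebraMap, hp0]

theorem deg_map_le {R S ι : Type*} [CommRing R] [CommRing S] (f : R →+* S)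
    (p : MvPolynomial ι R) : (MvPolynomial.map f p).totalDegree ≤ p.totalDegree :=
  Finset.sup_mono (MvPolynomial.support_map_subset f p)

/-- reduction of a homomorphism with values in a valuation ring -/
noncomputable def resHom {R F : Type*} [CommRing R] [Field F] (O : ValuationSubring F)
    (φ : R →+* F) (h : ∀ x, φ x ∈ O) : R →+* ResidueField O :=
  (residue O).comp (φ.codRestrict O h)

theorem resHom_apply {R F : Type*} [CommRing R] [Field F] (O : ValuationSubring F)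
    (φ : R →+* F) (h : ∀ x, φ x ∈ O) (x : R) : resHom O φ h x = res O (φ x) :=
  (res_of_mem (h x)).symm

theorem res_sum {F ι : Type*} [Field F] {O : ValuationSubring F} (s : Finset ι) (x : ι → F)
    (h : ∀ i ∈ s, x i ∈ O) : res O (∑ i ∈ s, x i) = ∑ i ∈ s, res O (x i) := by
  classical
  induction s using Finset.induction_on with
  | empty => simp
  | insert a s ha ih =>
    rw [Finset.sum_insert ha, Finset.sum_insert ha, res_add (h a (by simp))
      (sum_mem fun i hi => h i (by simp [hi])), ih fun i hi => h i (by simp [hi])]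

open Polynomial in
theorem span_bd {E κ R : Type*} [Field E] [Field κ] [Algebra E κ] [CommRing R] (ψ : R →+* κ)
    (σ τ : κ) (hψ : ∀ g, ∃ p : E[X], aeval σ p = ψ g) {q : E[X]} (hq : q ≠ 0) {D : ℕ}
    (hD : q.natDegree ≤ D) (hq0 : aeval σ q = 0) {f : R[X]} (hf : f.Monic)
    (hf0 : f.eval₂ ψ τ = 0) (a b : R[X]) : a.eval₂ ψ τ / b.eval₂ ψ τ ∈ Submodule.span E
      (Set.range fun p : Fin (D + 1) × Fin (f.natDegree + 1) => σ ^ p.1.val * τ ^ p.2.val) := by
  set V₀ := Submodule.span E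
      (Set.range fun p : Fin (D + 1) × Fin (f.natDegree + 1) => σ ^ p.1.val * τ ^ p.2.val)
    with hV₀
  have h1 : ∀ a : R[X], a.eval₂ ψ τ ∈ V₀ := fun a => by
    rw [← eval₂_modByMonic_eq_self_of_root hf0,
      eval₂_eq_sum_range' ψ (Nat.lt_succ_of_le (natDegree_modByMonic_le a hf))]
    refine sum_mem fun i hi => ?_
    obtain ⟨p, hp⟩ := hψ ((a %ₘ f).coeff i)
    have e : aeval σ (p % q) = aeval σ p := by
      conv_rhs => rw [← EuclideanDomain.div_add_mod p q, map_add, map_mul, hq0, zero_mul, zero_add]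
    have hd : (p % q).natDegree < D + 1 :=
      Nat.lt_succ_of_le ((natDegree_le_natDegree (degree_mod_lt p hq).le).trans hD)
    rw [← hp, ← e, aeval_eq_sum_range' hd, Finset.sum_mul]
    refine sum_mem fun j hj => ?_
    rw [smul_mul_assoc]
    exact V₀.smul_mem _ (Submodule.subset_span
      ⟨(⟨j, Finset.mem_range.1 hj⟩, ⟨i, Finset.mem_range.1 hi⟩), rfl⟩)
  set V := Submodule.span E (Set.range fun a : R[X] => a.eval₂ ψ τ) with hV
  have hle : V ≤ V₀ := Submodule.span_le.2 (Set.range_subset_iff.2 h1)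
  have hmem : ∀ a : R[X], a.eval₂ ψ τ ∈ V := fun a => Submodule.subset_span ⟨a, rfl⟩
  have hmul : ∀ x y, x ∈ V → y ∈ V → x * y ∈ V := fun x y hx hy => by
    have : V * V ≤ V := by
      rw [hV, Submodule.span_mul_span]
      refine Submodule.span_mono ?_
      rintro _ ⟨_, ⟨a, rfl⟩, _, ⟨b, rfl⟩, rfl⟩
      exact ⟨a * b, eval₂_mul _ _⟩
    exact this (Submodule.mul_mem_mul hx hy)
  let S : Subalgebra E κ := V.toSubalgebra (by simpa using hmem 1) hmul
  have : FiniteDimensional E V₀ := FiniteDimensional.span_of_finite E (Set.finite_range _)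
  have : FiniteDimensional E V := Submodule.finiteDimensional_of_le hle
  have hfg : (Subalgebra.toSubmodule S).FG := (Submodule.fg_iff_finiteDimensional V).2 inferInstance
  have hinv : (b.eval₂ ψ τ)⁻¹ ∈ S := S.inv_mem_of_algebraic (x := ⟨b.eval₂ ψ τ, hmem b⟩)
    (IsIntegral.of_mem_of_fg S hfg _ (hmem b)).isAlgebraic
  rw [div_eq_mul_inv]
  exact hle (hmul _ _ (hmem a) hinv)

section div

variable {l L : Type*} [Field l] [Field L] [Algebra l L] {d : ℕ} {M : Model l L d}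
  {W : ValuationSubring L} {π : MvPolynomial (Fin d) l} {j₀ : Fin d}

theorem base_mem (h : M.IsDiv W π) (hj : 0 < π.degreeOf j₀) {x : L}
    (hx : x ∈ adjoin l (Set.range fun j : {j // j ≠ j₀} => M.s j)) : x ∈ W := by
  obtain ⟨p, q, rfl⟩ := (mem_adjoin_range_iff l _ x).1 hx
  have e : ∀ g : MvPolynomial {j // j ≠ j₀} l,
      MvPolynomial.aeval (fun j : {j // j ≠ j₀} => M.s j) g
        = MvPolynomial.aeval M.s (MvPolynomial.rename Subtype.val g) := fun g => by
    rw [MvPolynomial.aeval_rename]; rfl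
  by_cases hq : q = 0
  · simp [hq]
  rw [e, e, div_eq_mul_inv]
  refine W.mul_mem _ _ (h.2.2 _).1 (mem_of_val_eq_one ?_)
  have hq' : MvPolynomial.rename (Subtype.val : {j // j ≠ j₀} → Fin d) q ≠ 0 := fun h0 =>
    hq (MvPolynomial.rename_injective _ Subtype.val_injective (by rw [h0, map_zero]))
  have hnd : ¬ π ∣ MvPolynomial.rename Subtype.val q := by
    rintro ⟨g, hg⟩
    have hg0 : g ≠ 0 := by rintro rfl; exact hq' (by rw [hg, mul_zero])
    have h1 := MvPolynomial.degreeOf_mul_eq (n := j₀) h.1.ne_zero hg0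
    rw [← hg] at h1
    obtain ⟨i, -, hi⟩ := MvPolynomial.mem_vars_rename _ _
      (MvPolynomial.mem_vars_iff_degreeOf_ne_zero.2 (show _ ≠ 0 by omega) :
        j₀ ∈ (MvPolynomial.rename (Subtype.val : {j // j ≠ j₀} → Fin d) q).vars)
    exact i.2 hi
  have h2 := h.2.2 (MvPolynomial.rename Subtype.val q)
  rw [map_inv₀, le_antisymm ((W.valuation_le_one_iff _).2 h2.1) (not_lt.1 fun h3 => hnd (h2.2.1 h3)),
    inv_one]

theorem evl_C (g : MvPolynomial (Fin d) l) : M.evl (Polynomial.C g) = MvPolynomial.aeval M.s g := by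
  simp [Model.evl]

theorem evl_X : M.evl Polynomial.X = M.θ := by
  simp [Model.evl]

/-- the variables as polynomials in `s j₀` -/
noncomputable def uv (M : Model l L d) (j₀ : Fin d) (j : Fin d) :
    Polynomial (adjoin l (Set.range fun j : {j // j ≠ j₀} => M.s j)) :=
  if hjj : j = j₀ then Polynomial.X else Polynomial.C ⟨M.s j, subset_adjoin _ _ ⟨⟨j, hjj⟩, rfl⟩⟩

theorem uv_deg (g : MvPolynomial (Fin d) l) :
    (MvPolynomial.aeval (uv M j₀) g).natDegree ≤ g.totalDegree := by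
  rw [← MvPolynomial.aeval_map_algebraMap (adjoin l (Set.range fun j : {j // j ≠ j₀} => M.s j)),
    ← mul_one g.totalDegree]
  refine MvPolynomial.aeval_natDegree_le _ (deg_map_le _ g) _ fun j => ?_
  by_cases hjj : j = j₀
  · rw [uv, dif_pos hjj, Polynomial.natDegree_X]
  · rw [uv, dif_neg hjj, Polynomial.natDegree_C]
    exact zero_le_one

theorem uv_eval {κ : Type*} [CommRing κ]
    (χ : adjoin l (Set.range fun j : {j // j ≠ j₀} => M.s j) →+* κ)
    (ψ : MvPolynomial (Fin d) l →+* κ) (h1 : ∀ a, χ (algebraMap l _ a) = ψ (MvPolynomial.C a))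
    (h2 : ∀ j h, χ ⟨M.s j, h⟩ = ψ (MvPolynomial.X j)) (g : MvPolynomial (Fin d) l) :
    (MvPolynomial.aeval (uv M j₀) g).eval₂ χ (ψ (MvPolynomial.X j₀)) = ψ g := by
  induction g using MvPolynomial.induction_on with
  | C a => rw [MvPolynomial.aeval_C, Polynomial.algebraMap_apply, Polynomial.eval₂_C, h1]
  | add p q hp hq => rw [map_add, map_add, Polynomial.eval₂_add, hp, hq]
  | mul_X p j hp =>
    rw [map_mul, map_mul, Polynomial.eval₂_mul, hp, MvPolynomial.aeval_X]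
    congr 1
    by_cases hjj : j = j₀
    · rw [uv, dif_pos hjj, Polynomial.eval₂_X, hjj]
    · rw [uv, dif_neg hjj, Polynomial.eval₂_C, h2]

theorem uv_ne {g : MvPolynomial (Fin d) l} (hg : g ≠ 0) : MvPolynomial.aeval (uv M j₀) g ≠ 0 := by
  intro h0
  have := uv_eval (M := M) (j₀ := j₀) (algebraMap _ L)
    (MvPolynomial.aeval M.s : MvPolynomial (Fin d) l →ₐ[l] L).toRingHom
    (fun a => (MvPolynomial.aeval_C M.s a).symm) (fun j _ => (MvPolynomial.aeval_X M.s j).symm) g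
  rw [h0, Polynomial.eval₂_zero] at this
  exact hg (M.indep.eq_zero_of_aeval_eq_zero g this.symm)

theorem res_evl (h : M.IsDiv W π) : ∃ ψ : MvPolynomial (Fin d) l →+* ResidueField W,
    (∀ g, ψ g = res W (MvPolynomial.aeval M.s g)) ∧
      ∀ a : Polynomial (MvPolynomial (Fin d) l), a.eval₂ ψ (res W M.θ) = res W (M.evl a) := by
  let ψ : MvPolynomial (Fin d) l →+* ResidueField W :=
    resHom W (MvPolynomial.aeval M.s : MvPolynomial (Fin d) l →ₐ[l] L).toRingHom
      fun g => (h.2.2 g).1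
  have hψ : ∀ g, ψ g = res W (MvPolynomial.aeval M.s g) := fun g => resHom_apply _ _ _ g
  refine ⟨ψ, hψ, fun a => ?_⟩
  have : Polynomial.eval₂RingHom ψ (res W M.θ) = resHom W M.evl h.evl_mem := by
    refine Polynomial.ringHom_ext (fun g => ?_) ?_
    · rw [resHom_apply, evl_C, Polynomial.coe_eval₂RingHom, Polynomial.eval₂_C, hψ]
    · rw [resHom_apply, evl_X, Polynomial.coe_eval₂RingHom, Polynomial.eval₂_X]
  rw [← resHom_apply W M.evl h.evl_mem, ← this, Polynomial.coe_eval₂RingHom]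

theorem div_repr (h : M.IsDiv W π) (hj : 0 < π.degreeOf j₀) {D : ℕ} (hD : π.totalDegree ≤ D)
    {x : L} (hx : x ∈ W) : ∃ c : Fin (D + 1) × Fin (M.f.natDegree + 1) → L,
      (∀ p, c p ∈ adjoin l (Set.range fun j : {j // j ≠ j₀} => M.s j)) ∧
      W.valuation (x - ∑ p, c p * (M.s j₀ ^ p.1.val * M.θ ^ p.2.val)) < 1 := by
  have hEW : ∀ e : adjoin l (Set.range fun j : {j // j ≠ j₀} => M.s j), (e : L) ∈ W :=
    fun e => base_mem h hj e.2
  let _ : Algebra (adjoin l (Set.range fun j : {j // j ≠ j₀} => M.s j)) (ResidueField W) :=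
    (resHom W (algebraMap _ L) hEW).toAlgebra
  have hal : ∀ e : adjoin l (Set.range fun j : {j // j ≠ j₀} => M.s j),
      algebraMap _ (ResidueField W) e = res W e := fun e => resHom_apply W (algebraMap _ L) hEW e
  have hs : ∀ j, M.s j ∈ W := fun j => by simpa using (h.2.2 (MvPolynomial.X j)).1
  have hθ : M.θ ∈ W := evl_X (M := M) ▸ h.evl_mem Polynomial.X
  obtain ⟨ψ, hψ, hev⟩ := res_evl h
  have hv2 : ∀ g : MvPolynomial (Fin d) l,
      Polynomial.aeval (res W (M.s j₀)) (MvPolynomial.aeval (uv M j₀) g) = ψ g := fun g => by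
    have := uv_eval (M := M) (j₀ := j₀) (algebraMap _ (ResidueField W)) ψ
      (fun a => by rw [hal, hψ, MvPolynomial.aeval_C]; rfl)
      (fun j _ => by rw [hal, hψ, MvPolynomial.aeval_X]) g
    rwa [hψ (MvPolynomial.X j₀), MvPolynomial.aeval_X] at this
  have hq0 : Polynomial.aeval (res W (M.s j₀)) (MvPolynomial.aeval (uv M j₀) π) = 0 := by
    rw [hv2, hψ, res_eq_zero_iff (h.2.2 π).1]
    exact (h.2.2 π).2.2 dvd_rfl
  have hf0 : M.f.eval₂ ψ (res W M.θ) = 0 := by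
    rw [hev, show M.evl M.f = 0 from M.root, res_zero]
  obtain ⟨a, b, hb, hab⟩ := h.exists_res_repr hx
  obtain ⟨c, hc⟩ := (Submodule.mem_span_range_iff_exists_fun _).1
    (span_bd ψ (res W (M.s j₀)) (res W M.θ) (fun g => ⟨_, hv2 g⟩) (uv_ne h.1.ne_zero)
      ((uv_deg π).trans hD) hq0 M.monic hf0 a b)
  have hm : ∀ p : Fin (D + 1) × Fin (M.f.natDegree + 1),
      M.s j₀ ^ p.1.val * M.θ ^ p.2.val ∈ W := fun p =>
    W.mul_mem _ _ (pow_mem (hs _) _) (pow_mem hθ _)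
  refine ⟨fun p => c p, fun p => (c p).2, ?_⟩
  rw [← res_eq_iff hx (sum_mem fun p _ => W.mul_mem _ _ (hEW (c p)) (hm p)),
    res_sum _ _ fun p _ => W.mul_mem _ _ (hEW (c p)) (hm p)]
  rw [hev, hev, ← hab, res_mul hx (h.evl_mem b), mul_div_cancel_right₀ _ (res_ne_zero hb)] at hc
  rw [← hc]
  refine Finset.sum_congr rfl fun p _ => ?_
  rw [Algebra.smul_def, hal, res_mul (hEW (c p)) (hm p), res_mul (pow_mem (hs _) _) (pow_mem hθ _),
    res_pow (hs _), res_pow hθ]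

theorem model_gen (M : Model l L d) (T : Subfield L) (hl : ∀ a, algebraMap l L a ∈ T)
    (hs : ∀ j, M.s j ∈ T) (hθ : M.θ ∈ T) (y : L) : y ∈ T := by
  have : Subfield.closure (((adjoin l (Set.range M.s)).toSubfield : Set L) ∪ {M.θ}) ≤ T :=
    Subfield.closure_le.2 (Set.union_subset
      (adjoin_le_subfield l _ (Set.range_subset_iff.2 hl) (Set.range_subset_iff.2 hs))
      (Set.singleton_subset_iff.2 hθ))
  rw [M.closure_eq_top] at this
  exact this (Subfield.mem_top y)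

end div

section abstr

variable {l L : Type*} {Ω₀ Λ : Type u} {B : Type*} [Field l] [Field L] [Field Ω₀] [Field B]
  [Field Λ] [Algebra l L] [Algebra L Λ] [Algebra l Λ] [IsScalarTower l L Λ] [Algebra Ω₀ B]
  [Algebra B Λ] [Algebra Ω₀ Λ] [IsScalarTower Ω₀ B Λ] {d : ℕ} (M : Model l L d) (j₀ : Fin d)
  (t : {j // j ≠ j₀} → B)

theorem indep_map (ht : ∀ j, algebraMap B Λ (t j) = algebraMap L Λ (M.s j))
    (hind : AlgebraicIndependent Ω₀ t) :
    AlgebraicIndependent Ω₀ fun j : {j // j ≠ j₀} => algebraMap L Λ (M.s j) := by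
  have := hind.map' (f := IsScalarTower.toAlgHom Ω₀ B Λ) (algebraMap B Λ).injective
  rwa [show (IsScalarTower.toAlgHom Ω₀ B Λ) ∘ t = fun j : {j // j ≠ j₀} => algebraMap L Λ (M.s j)
    from funext ht] at this

theorem alg_s (ht : ∀ j, algebraMap B Λ (t j) = algebraMap L Λ (M.s j))
    (hind : AlgebraicIndependent Ω₀ t) {P : MvPolynomial (Fin d) Ω₀} (hP0 : P ≠ 0)
    (hP : MvPolynomial.aeval (fun j => algebraMap L Λ (M.s j)) P = 0) :
    IsAlgebraic (adjoin Ω₀ (Set.range t)) (algebraMap L Λ (M.s j₀)) := by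
  have h1 := indep_map M j₀ t ht hind
  have h2 : IsAlgebraic (Algebra.adjoin Ω₀
      (Set.range fun j : {j // j ≠ j₀} => algebraMap L Λ (M.s j))) (algebraMap L Λ (M.s j₀)) := by
    by_contra hc
    have h3 := ((h1.option_iff_transcendental _).2 hc).comp (Equiv.optionSubtypeNe j₀).symm
      (Equiv.injective _)
    refine hP0 (h3.eq_zero_of_aeval_eq_zero P ?_)
    rw [← hP]
    congr 2
    funext j
    by_cases hj : j = j₀
    · subst hj; simp
    · simp [Equiv.optionSubtypeNe_symm_of_ne hj]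
  refine alg_of_range Subtype.val_injective (fun x => ?_) h2
  have h4 : (x : Λ) ∈ (adjoin Ω₀ (Set.range t)).map (IsScalarTower.toAlgHom Ω₀ B Λ) := by
    rw [adjoin_map, ← Set.range_comp, show (IsScalarTower.toAlgHom Ω₀ B Λ) ∘ t
      = fun j : {j // j ≠ j₀} => algebraMap L Λ (M.s j) from funext ht]
    exact algebra_adjoin_le_adjoin _ _ x.2
  obtain ⟨b, hb, e⟩ := h4
  exact ⟨⟨b, hb⟩, e⟩

theorem base_in (ht : ∀ j, algebraMap B Λ (t j) = algebraMap L Λ (M.s j))
    (hlΩ : ∀ a : l, ∃ b : Ω₀, algebraMap Ω₀ Λ b = algebraMap l Λ a)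
    (T : IntermediateField (adjoin Ω₀ (Set.range t)) Λ) (h0 : algebraMap L Λ (M.s j₀) ∈ T) :
    (∀ a : l, algebraMap L Λ (algebraMap l L a) ∈ T) ∧ ∀ j, algebraMap L Λ (M.s j) ∈ T := by
  refine ⟨fun a => ?_, fun j => ?_⟩
  · obtain ⟨b, hb⟩ := hlΩ a
    rw [← IsScalarTower.algebraMap_apply, ← hb, IsScalarTower.algebraMap_apply Ω₀ B Λ]
    exact T.algebraMap_mem (algebraMap Ω₀ (adjoin Ω₀ (Set.range t)) b)
  · by_cases hj : j = j₀
    · rwa [hj]
    · rw [← ht ⟨j, hj⟩]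
      exact T.algebraMap_mem ⟨t ⟨j, hj⟩, subset_adjoin _ _ ⟨_, rfl⟩⟩

theorem alg_θ (ht : ∀ j, algebraMap B Λ (t j) = algebraMap L Λ (M.s j))
    (hlΩ : ∀ a : l, ∃ b : Ω₀, algebraMap Ω₀ Λ b = algebraMap l Λ a)
    (hs : IsAlgebraic (adjoin Ω₀ (Set.range t)) (algebraMap L Λ (M.s j₀))) :
    IsAlgebraic (adjoin Ω₀ (Set.range t)) (algebraMap L Λ M.θ) := by
  set T := algebraicClosure (adjoin Ω₀ (Set.range t)) Λ with hT
  obtain ⟨h1, h2⟩ := base_in M j₀ t ht hlΩ T (mem_algebraicClosure_iff.2 hs)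
  let φ : MvPolynomial (Fin d) l →+* Λ := (algebraMap L Λ).comp
    (MvPolynomial.aeval M.s : MvPolynomial (Fin d) l →ₐ[l] L).toRingHom
  have hφ : ∀ g, φ g ∈ T := fun g => by
    induction g using MvPolynomial.induction_on with
    | C a => simpa [φ] using h1 a
    | add p q hp hq => rw [map_add]; exact add_mem hp hq
    | mul_X p j hp => rw [map_mul]; exact mul_mem hp (by simpa [φ] using h2 j)
  have h3 : IsIntegral T (algebraMap L Λ M.θ) := by
    refine ⟨M.f.map (φ.codRestrict T hφ), M.monic.map _, ?_⟩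
    rw [Polynomial.eval₂_map]
    have := Polynomial.hom_eval₂ M.f
      (MvPolynomial.aeval M.s : MvPolynomial (Fin d) l →ₐ[l] L).toRingHom (algebraMap L Λ) M.θ
    rw [M.root, map_zero] at this
    exact this.symm
  exact (isIntegral_trans _ h3).isAlgebraic

theorem root_mem {ℓ : ℕ} [Fact ℓ.Prime] (hl : (ℓ : l) ≠ 0)
    (ht : ∀ j, algebraMap B Λ (t j) = algebraMap L Λ (M.s j))
    (hlΩ : ∀ a : l, ∃ b : Ω₀, algebraMap Ω₀ Λ b = algebraMap l Λ a)
    (hs : IsAlgebraic (adjoin Ω₀ (Set.range t)) (algebraMap L Λ (M.s j₀)))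
    (hcl : ∀ b : B, IsAlgebraic (adjoin Ω₀ (Set.range t)) b → b ∈ adjoin Ω₀ (Set.range t))
    (hgen : ∀ z : Λ, z ∈ adjoin B ({algebraMap L Λ (M.s j₀), algebraMap L Λ M.θ} : Set Λ))
    (y : L) (z : Λ) (hz : z ^ ℓ = algebraMap L Λ y) :
    ∃ z ∈ adjoin Ω₀ (Set.range (algebraMap L Λ)), z ^ ℓ = algebraMap L Λ y := by
  classical
  have hℓ : (ℓ : adjoin Ω₀ (Set.range t)) ≠ 0 := fun h0 => hl ((algebraMap l Λ).injective (by
    rw [map_natCast, map_zero, ← map_natCast (algebraMap (adjoin Ω₀ (Set.range t)) Λ), h0,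
      map_zero]))
  have hsep : separableClosure (adjoin Ω₀ (Set.range t)) B = ⊥ := eq_bot_iff.2 fun b hb =>
    ⟨⟨b, hcl b (mem_separableClosure_iff.1 hb).isIntegral.isAlgebraic⟩, rfl⟩
  have hS : ((({algebraMap L Λ (M.s j₀), algebraMap L Λ M.θ} : Finset Λ)) : Set Λ)
      = {algebraMap L Λ (M.s j₀), algebraMap L Λ M.θ} := Finset.coe_pair
  obtain ⟨h1, h2⟩ := base_in M j₀ t ht hlΩ (adjoin (adjoin Ω₀ (Set.range t))
    ({algebraMap L Λ (M.s j₀), algebraMap L Λ M.θ} : Set Λ)) (subset_adjoin _ _ (by simp))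
  obtain ⟨z', hz', e⟩ := exists_root_of_compositum hℓ hsep
    {algebraMap L Λ (M.s j₀), algebraMap L Λ M.θ} (fun s hs' => by
      rcases Finset.mem_insert.1 hs' with rfl | hs'
      · exact hs
      · rw [Finset.mem_singleton.1 hs']; exact alg_θ M j₀ t ht hlΩ hs)
    (y := algebraMap L Λ y) (z := z)
    (by
      rw [hS]
      exact model_gen M ((adjoin (adjoin Ω₀ (Set.range t))
        ({algebraMap L Λ (M.s j₀), algebraMap L Λ M.θ} : Set Λ)).toSubfield.comap (algebraMap L Λ))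
        h1 h2 (subset_adjoin _ _ (by simp) : algebraMap L Λ M.θ ∈ adjoin _ _) y)
    (by rw [hS]; exact hgen z) hz
  refine ⟨z', ?_, e⟩
  rw [hS] at hz'
  refine (adjoin_subset_adjoin_iff _).2 ⟨?_, ?_⟩ hz'
  · rintro _ ⟨⟨b, hb⟩, rfl⟩
    have h4 : algebraMap B Λ b ∈ (adjoin Ω₀ (Set.range t)).map (IsScalarTower.toAlgHom Ω₀ B Λ) :=
      ⟨b, hb, rfl⟩
    rw [adjoin_map] at h4
    refine adjoin.mono _ _ _ ?_ h4
    rintro _ ⟨_, ⟨j, rfl⟩, rfl⟩
    exact ⟨M.s j, (ht j).symm⟩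
  · rintro _ (rfl | rfl) <;> exact subset_adjoin _ _ ⟨_, rfl⟩

theorem abstr {ℓ : ℕ} [Fact ℓ.Prime] [IsAlgClosed Ω₀] (hl : (ℓ : l) ≠ 0)
    (ht : ∀ j, algebraMap B Λ (t j) = algebraMap L Λ (M.s j))
    (hlΩ : ∀ a : l, ∃ b : Ω₀, algebraMap Ω₀ Λ b = algebraMap l Λ a)
    (hind : AlgebraicIndependent Ω₀ t)
    (hcl : ∀ b : B, IsAlgebraic (adjoin Ω₀ (Set.range t)) b → b ∈ adjoin Ω₀ (Set.range t))
    (hgen : ∀ z : Λ, z ∈ adjoin B ({algebraMap L Λ (M.s j₀), algebraMap L Λ M.θ} : Set Λ))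
    (P : MvPolynomial (Fin d) Ω₀) {D : ℕ} {α₀ : Fin d →₀ ℕ} (hD : P.totalDegree ≤ D)
    (hα : P.coeff α₀ = 1) (hP : MvPolynomial.aeval (fun j => algebraMap L Λ (M.s j)) P = 0) :
    ∃ (Ω : IntermediateField l Λ) (Q : MvPolynomial (Fin d) Λ), IsAlgClosed Ω ∧
      (∀ m, Q.coeff m ∈ Ω) ∧ Q.totalDegree ≤ D ∧ Q.coeff α₀ = 1 ∧
      MvPolynomial.eval (fun j => algebraMap L Λ (M.s j)) Q = 0 ∧
      AlgebraicIndependent Ω (fun j : {j // j ≠ j₀} => algebraMap L Λ (M.s j)) ∧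
      ∀ (y : L) (z : Λ), z ^ ℓ = algebraMap L Λ y →
        ∃ z ∈ adjoin Ω (Set.range (algebraMap L Λ)), z ^ ℓ = algebraMap L Λ y := by
  have hP0 : P ≠ 0 := by
    rintro rfl
    simp at hα
  let Ω : IntermediateField l Λ := (algebraMap Ω₀ Λ).fieldRange.toIntermediateField hlΩ
  let e : Ω₀ ≃+* Ω := (algebraMap Ω₀ Λ).rangeRestrictFieldEquiv
  refine ⟨Ω, P.map (algebraMap Ω₀ Λ), IsAlgClosed.of_ringEquiv Ω₀ Ω e, fun m => ?_,
    (deg_map_le _ _).trans hD, ?_, ?_, ?_, fun y z hz => ?_⟩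
  · rw [MvPolynomial.coeff_map]
    exact ⟨_, rfl⟩
  · rw [MvPolynomial.coeff_map, hα, map_one]
  · rw [MvPolynomial.eval_map, ← MvPolynomial.aeval_def, hP]
  · exact (indep_map M j₀ t ht hind).ringHom_of_comp_eq e (RingHom.id Λ) e.surjective
      Function.injective_id (RingHom.ext fun _ => rfl)
  · obtain ⟨z', hz', e'⟩ := root_mem M j₀ t hl ht hlΩ (alg_s M j₀ t ht hind hP0 hP) hcl hgen y z hz
    refine ⟨z', (adjoin_subset_adjoin_iff _).2 ⟨?_, subset_adjoin _ _⟩ hz', e'⟩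
    rintro _ ⟨b, rfl⟩
    exact (adjoin Ω _).algebraMap_mem (e b)

end abstr

end Vale.Agent.P019.UPAux
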