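import Vale.Agent.P019.SEL
import Vale.Agent.P019.UP1
import Vale.Agent.P019.SD
import Vale.Agent.P019.UPa

/-! P019: the generic member of a bounded sequence of divisors. -/

open Filter IntermediateField

namespace Vale.Agent.P019

universe u

namespace UPAux

section germ

variable {L : Type*} [Field L] (𝒰 : Ultrafilter ℕ)

/-- germs of sequences with `f i ∈ W i` for most `i` -/
def gval (W : ℕ → ValuationSubring L) : ValuationSubring (Germ (𝒰 : Filter ℕ) L) where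
  carrier := {x | ∃ f : ℕ → L, (∀ᶠ i in (𝒰 : Filter ℕ), f i ∈ W i) ∧ (f : Germ _ L) = x}
  mul_mem' := by
    rintro _ _ ⟨f, hf, rfl⟩ ⟨g, hg, rfl⟩
    exact ⟨f * g, (hf.and hg).mono fun i h => (W i).mul_mem _ _ h.1 h.2, rfl⟩
  one_mem' := ⟨1, Eventually.of_forall fun i => (W i).one_mem, rfl⟩
  add_mem' := by
    rintro _ _ ⟨f, hf, rfl⟩ ⟨g, hg, rfl⟩
    exact ⟨f + g, (hf.and hg).mono fun i h => (W i).add_mem _ _ h.1 h.2, rfl⟩
  zero_mem' := ⟨0, Eventually.of_forall fun i => (W i).zero_mem, rfl⟩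
  neg_mem' := by
    rintro _ ⟨f, hf, rfl⟩
    exact ⟨-f, hf.mono fun i h => (W i).neg_mem _ h, rfl⟩
  mem_or_inv_mem' := fun x => by
    induction x using Germ.inductionOn with | _ f => ?_
    by_cases h : ∀ᶠ i in (𝒰 : Filter ℕ), f i ∈ W i
    · exact Or.inl ⟨f, h, rfl⟩
    · exact Or.inr ⟨f⁻¹, (Ultrafilter.eventually_not.2 h).mono fun i hi =>
        ((W i).mem_or_inv_mem (f i)).resolve_left hi, rfl⟩

/-- germs of sequences in a subfield -/
def gsub (E : Subfield L) : Subfield (Germ (𝒰 : Filter ℕ) L) where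
  carrier := {x | ∃ f : ℕ → L, (∀ i, f i ∈ E) ∧ (f : Germ _ L) = x}
  mul_mem' := by
    rintro _ _ ⟨f, hf, rfl⟩ ⟨g, hg, rfl⟩
    exact ⟨f * g, fun i => mul_mem (hf i) (hg i), rfl⟩
  one_mem' := ⟨1, fun _ => one_mem E, rfl⟩
  add_mem' := by
    rintro _ _ ⟨f, hf, rfl⟩ ⟨g, hg, rfl⟩
    exact ⟨f + g, fun i => add_mem (hf i) (hg i), rfl⟩
  zero_mem' := ⟨0, fun _ => zero_mem E, rfl⟩
  neg_mem' := by
    rintro _ ⟨f, hf, rfl⟩
    exact ⟨-f, fun i => neg_mem (hf i), rfl⟩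
  inv_mem' := by
    rintro _ ⟨f, hf, rfl⟩
    exact ⟨f⁻¹, fun i => inv_mem (hf i), rfl⟩

/-- constant germs -/
def gconst : L →+* Germ (𝒰 : Filter ℕ) L := (Germ.coeRingHom _).comp (Pi.constRingHom ℕ L)

variable {𝒰} {W : ℕ → ValuationSubring L}

theorem gval_mem {f : ℕ → L} :
    (f : Germ (𝒰 : Filter ℕ) L) ∈ gval 𝒰 W ↔ ∀ᶠ i in (𝒰 : Filter ℕ), f i ∈ W i := by
  refine ⟨?_, fun h => ⟨f, h, rfl⟩⟩
  rintro ⟨g, hg, e⟩
  filter_upwards [hg, Germ.coe_eq.1 e] with i h1 h2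
  rwa [← h2]

theorem gval_lt {f : ℕ → L} (h : ∀ᶠ i in (𝒰 : Filter ℕ), (W i).valuation (f i) < 1) :
    (gval 𝒰 W).valuation (f : Germ (𝒰 : Filter ℕ) L) < 1 := by
  rw [← ValuationSubring.mem_nonunits_iff, ValuationSubring.mem_nonunits_iff_or]
  by_cases h0 : ∀ᶠ i in (𝒰 : Filter ℕ), f i = 0
  · exact Or.inl (Germ.coe_eq.2 h0)
  · refine Or.inr fun h1 => ?_
    have h2 : ∀ᶠ i in (𝒰 : Filter ℕ), (f i)⁻¹ ∈ W i := (gval_mem (f := f⁻¹)).1 h1
    obtain ⟨i, a, b, c⟩ := (h.and ((Ultrafilter.eventually_not.2 h0).and h2)).exists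
    rw [← ValuationSubring.mem_nonunits_iff, ValuationSubring.mem_nonunits_iff_or] at a
    exact a.elim b fun a => a c

theorem gval_res_eq {f g : ℕ → L} (hf : ∀ᶠ i in (𝒰 : Filter ℕ), f i ∈ W i)
    (hg : ∀ᶠ i in (𝒰 : Filter ℕ), g i ∈ W i)
    (h : ∀ᶠ i in (𝒰 : Filter ℕ), (W i).valuation (f i - g i) < 1) :
    res (gval 𝒰 W) (f : Germ (𝒰 : Filter ℕ) L) = res (gval 𝒰 W) (g : Germ (𝒰 : Filter ℕ) L) :=
  (res_eq_iff (gval_mem.2 hf) (gval_mem.2 hg)).2 (gval_lt (f := f - g) h)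

theorem gval_root {ℓ : ℕ} [Fact ℓ.Prime] {y : L} (hy : y ≠ 0)
    (h1 : ∀ᶠ i in (𝒰 : Filter ℕ), (W i).valuation y = 1)
    (h2 : ∀ᶠ i in (𝒰 : Filter ℕ), cl ℓ y ∈ TO ℓ (W i)) :
    ∃ z, z ^ ℓ = res (gval 𝒰 W) (gconst 𝒰 y) := by
  have h3 : ∀ i, ∃ u z : L, (W i).valuation y = 1 → cl ℓ y ∈ TO ℓ (W i) →
      u ∈ W i ∧ z ∈ W i ∧ (W i).valuation (u - 1) < 1 ∧ y = u * z ^ ℓ := fun i => by
    by_cases h : (W i).valuation y = 1 ∧ cl ℓ y ∈ TO ℓ (W i)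
    · obtain ⟨u, hu, e⟩ := mem_TO_iff_exists.1 h.2
      have hu1 : (W i).valuation u = 1 := by
        have := (W i).valuation.map_one_add_of_lt hu
        rwa [add_sub_cancel] at this
      have hu0 : u ≠ 0 := by
        rintro rfl
        simp at hu1
      obtain ⟨z, -, hz⟩ := (cl_eq_iff hy hu0).1 e.symm
      refine ⟨u, z, fun _ _ => ⟨mem_of_val_eq_one hu1, ?_, hu, hz⟩⟩
      have h4 := h.1
      rw [hz, map_mul, hu1, one_mul, map_pow] at h4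
      exact mem_of_val_eq_one ((pow_eq_one_iff_of_nonneg zero_le (Fact.out : ℓ.Prime).ne_zero).1 h4)
    · exact ⟨0, 0, fun a b => (h ⟨a, b⟩).elim⟩
  choose u z h3 using h3
  have h4 := (h1.and h2).mono fun i h => h3 i h.1 h.2
  have hu := gval_mem.2 (h4.mono fun i h => h.1)
  have hz := gval_mem.2 (h4.mono fun i h => h.2.1)
  have e : gconst 𝒰 y = (u : Germ (𝒰 : Filter ℕ) L) * (z : Germ (𝒰 : Filter ℕ) L) ^ ℓ :=
    Germ.coe_eq.2 (h4.mono fun i h => h.2.2.2)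
  have e1 : res (gval 𝒰 W) (u : Germ (𝒰 : Filter ℕ) L) = 1 := by
    rw [← res_one (O := gval 𝒰 W)]
    exact gval_res_eq (g := 1) (h4.mono fun i h => h.1)
      (Eventually.of_forall fun i => (W i).one_mem) (h4.mono fun i h => h.2.2.1)
  exact ⟨res (gval 𝒰 W) (z : Germ (𝒰 : Filter ℕ) L), by
    rw [e, res_mul hu (pow_mem hz _), e1, one_mul, res_pow hz]⟩

end germ

variable {l : Type*} {L : Type u} [Field l] [Field L] [Algebra l L] (𝒰 : Ultrafilter ℕ) {d : ℕ}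
  (M : Model l L d) (j₀ : Fin d)

/-- germs of sequences in `l(s')`, over the germs of constants -/
def gB : IntermediateField (constGerm l L 𝒰) (Germ (𝒰 : Filter ℕ) L) :=
  (gsub 𝒰 (adjoin l (Set.range fun j : {j // j ≠ j₀} => M.s j)).toSubfield).toIntermediateField
    fun x => by
      obtain ⟨a, ha⟩ := (mem_constGerm 𝒰).1 x.2
      exact ⟨_, fun i => IntermediateField.algebraMap_mem _ (a i), ha.symm⟩

/-- the germs of the `s j`, `j ≠ j₀` -/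
def gt (j : {j // j ≠ j₀}) : gB 𝒰 M j₀ :=
  ⟨((M.s j : L) : Germ (𝒰 : Filter ℕ) L), fun _ => M.s j, fun _ => subset_adjoin l _ ⟨j, rfl⟩, rfl⟩

theorem gt_indep : AlgebraicIndependent (constGerm l L 𝒰) (gt 𝒰 M j₀) :=
  AlgebraicIndependent.of_comp (gB 𝒰 M j₀).val
    (algebraicIndependent_germ 𝒰 (M.indep.comp _ Subtype.val_injective))

theorem gt_closed (b : gB 𝒰 M j₀)
    (hb : IsAlgebraic (adjoin (constGerm l L 𝒰) (Set.range (gt 𝒰 M j₀))) b) :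
    b ∈ adjoin (constGerm l L 𝒰) (Set.range (gt 𝒰 M j₀)) := by
  have e : (adjoin (constGerm l L 𝒰) (Set.range (gt 𝒰 M j₀))).map (gB 𝒰 M j₀).val
      = adjoin (constGerm l L 𝒰)
        (Set.range fun j : {j // j ≠ j₀} => ((M.s j : L) : Germ (𝒰 : Filter ℕ) L)) := by
    rw [adjoin_map, ← Set.range_comp]
    rfl
  obtain ⟨_, z, hz, rfl⟩ := b
  have h1 := mem_adjoin_of_isAlgebraic 𝒰 (M.indep.comp _ Subtype.val_injective) z hz
    (alg_of_range (fun _ _ h => Subtype.ext (Subtype.ext h))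
      (fun a => ⟨⟨_, e.le ⟨a.1, a.2, rfl⟩⟩, rfl⟩) hb.algebraMap)
  obtain ⟨b', hb', e'⟩ := e.ge h1
  have e2 : b' = ⟨_, z, hz, rfl⟩ := Subtype.ext e'
  exact e2 ▸ hb'

variable {M j₀} {W : ℕ → ValuationSubring L} {π : ℕ → MvPolynomial (Fin d) l} {D : ℕ}
  {α₀ : Fin d →₀ ℕ}

theorem gB_mem (hW : DivSeq M W π D α₀ j₀) (b : gB 𝒰 M j₀) :
    algebraMap _ (Germ (𝒰 : Filter ℕ) L) b ∈ gval 𝒰 W := by
  obtain ⟨_, z, hz, rfl⟩ := b
  exact gval_mem.2 (Eventually.of_forall fun i => base_mem (hW.isDiv i) (hW.var i) (hz i))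

theorem gval_repr (hW : DivSeq M W π D α₀ j₀) (z : IsLocalRing.ResidueField (gval 𝒰 W)) :
    ∃ c : Fin (D + 1) × Fin (M.f.natDegree + 1) → gB 𝒰 M j₀,
      z = ∑ p, res (gval 𝒰 W) (c p) * (res (gval 𝒰 W) (gconst 𝒰 (M.s j₀)) ^ p.1.val
        * res (gval 𝒰 W) (gconst 𝒰 M.θ) ^ p.2.val) := by
  obtain ⟨_, ⟨f, hf, rfl⟩, rfl⟩ := res_surj z
  have h1 : ∀ i, ∃ c : Fin (D + 1) × Fin (M.f.natDegree + 1) → L,
      (∀ p, c p ∈ adjoin l (Set.range fun j : {j // j ≠ j₀} => M.s j)) ∧ (f i ∈ W i →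
      (W i).valuation (f i - ∑ p, c p * (M.s j₀ ^ p.1.val * M.θ ^ p.2.val)) < 1) := fun i => by
    by_cases h : f i ∈ W i
    · obtain ⟨c, h1, h2⟩ := div_repr (hW.isDiv i) (hW.var i) (hW.deg i).le h
      exact ⟨c, h1, fun _ => h2⟩
    · exact ⟨0, fun _ => zero_mem _, fun h' => (h h').elim⟩
  choose c hc h1 using h1
  have hs : ∀ i, M.s j₀ ∈ W i := fun i => by
    simpa using ((hW.isDiv i).2.2 (MvPolynomial.X j₀)).1
  have hθ : ∀ i, M.θ ∈ W i := fun i => evl_X (M := M) ▸ (hW.isDiv i).evl_mem Polynomial.X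
  have hs' : gconst 𝒰 (M.s j₀) ∈ gval 𝒰 W := gval_mem.2 (Eventually.of_forall hs)
  have hθ' : gconst 𝒰 M.θ ∈ gval 𝒰 W := gval_mem.2 (Eventually.of_forall hθ)
  let c' : Fin (D + 1) × Fin (M.f.natDegree + 1) → gB 𝒰 M j₀ := fun p =>
    ⟨((fun i => c i p : ℕ → L) : Germ (𝒰 : Filter ℕ) L), _, fun i => hc i p, rfl⟩
  have hm : ∀ p : Fin (D + 1) × Fin (M.f.natDegree + 1),
      gconst 𝒰 (M.s j₀) ^ p.1.val * gconst 𝒰 M.θ ^ p.2.val ∈ gval 𝒰 W := fun p =>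
    (gval 𝒰 W).mul_mem _ _ (pow_mem hs' _) (pow_mem hθ' _)
  have e : ((fun i => ∑ p, c i p * (M.s j₀ ^ p.1.val * M.θ ^ p.2.val) : ℕ → L) :
      Germ (𝒰 : Filter ℕ) L) = ∑ p, (c' p : Germ (𝒰 : Filter ℕ) L)
        * (gconst 𝒰 (M.s j₀) ^ p.1.val * gconst 𝒰 M.θ ^ p.2.val) := by
    have : (fun i => ∑ p, c i p * (M.s j₀ ^ p.1.val * M.θ ^ p.2.val) : ℕ → L)
        = ∑ p, fun i => c i p * (M.s j₀ ^ p.1.val * M.θ ^ p.2.val) := by
      funext i
      rw [Finset.sum_apply]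
    rw [this, ← Germ.coe_coeRingHom, map_sum]
    rfl
  have hc' : ∀ p, (c' p : Germ (𝒰 : Filter ℕ) L) ∈ gval 𝒰 W := fun p => gB_mem 𝒰 hW (c' p)
  refine ⟨c', ?_⟩
  rw [gval_res_eq hf (Eventually.of_forall fun i => sum_mem fun p _ => (W i).mul_mem _ _
    (base_mem (hW.isDiv i) (hW.var i) (hc i p)) ((W i).mul_mem _ _ (pow_mem (hs i) _)
      (pow_mem (hθ i) _))) (hf.mono h1), e,
    res_sum _ _ fun p _ => (gval 𝒰 W).mul_mem _ _ (hc' p) (hm p)]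
  refine Finset.sum_congr rfl fun p _ => ?_
  rw [res_mul (hc' p) (hm p), res_mul (pow_mem hs' _) (pow_mem hθ' _),
    res_pow hs', res_pow hθ']

theorem res_aeval {R F ι : Type*} [CommRing R] [Field F] [Algebra R F] {O : ValuationSubring F}
    (χ : R →+* IsLocalRing.ResidueField O) (h : ∀ r, algebraMap R F r ∈ O)
    (hχ : ∀ r, χ r = res O (algebraMap R F r)) (t : ι → F) (ht : ∀ i, t i ∈ O)
    (P : MvPolynomial ι R) : MvPolynomial.aeval t P ∈ O ∧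
      MvPolynomial.eval₂ χ (fun i => res O (t i)) P = res O (MvPolynomial.aeval t P) := by
  induction P using MvPolynomial.induction_on with
  | C a => rw [MvPolynomial.aeval_C, MvPolynomial.eval₂_C]; exact ⟨h a, hχ a⟩
  | add p q hp hq =>
    rw [map_add, MvPolynomial.eval₂_add, res_add hp.1 hq.1, hp.2, hq.2]
    exact ⟨O.add_mem _ _ hp.1 hq.1, rfl⟩
  | mul_X p j hp =>
    rw [map_mul, MvPolynomial.eval₂_mul, MvPolynomial.aeval_X, MvPolynomial.eval₂_X,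
      res_mul hp.1 (ht j), hp.2]
    exact ⟨O.mul_mem _ _ hp.1 (ht j), rfl⟩

end UPAux

open UPAux in
/-- Let `𝒰 = hyperfilter ℕ`, `L* = Germ 𝒰 L`, `O*` the valuation ring of germs of sequences with
`x i ∈ W i` for most `i`, `Λ` its residue field. `L`, `Ω = constGerm` and the field `B` of germs of
sequences in `l(s')` (`s' = (s j)`, `j ≠ j₀`; nonzero elements of `l(s')` are units of every
`W i`) lie in `O*` and embed in `Λ`. `A = Ω(s')` is algebraically closed in `B`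
(`mem_adjoin_of_isAlgebraic`). Every residue at `W i` is a combination of the
`s j₀ ^ a θ ^ b`, `a < D`, `b < deg f`, with coefficients in `l(s')`, so `Λ = B(s j₀, θ)`, and
`s j₀`, `θ` are algebraic over `A`. If `cl y ∈ TO (W i)` for almost all `i` then `y` is an `ℓ`-th
power in `Λ`, so in `A(s j₀, θ)` by `exists_root_of_compositum`. -/
theorem exists_generic_member {ℓ : ℕ} [Fact ℓ.Prime] {l : Type*} {L : Type u} [Field l] [Field L]
    [Algebra l L] [IsAlgClosed l] (hl : (ℓ : l) ≠ 0) {d : ℕ} {M : Model l L d}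
    {W : ℕ → ValuationSubring L} {π : ℕ → MvPolynomial (Fin d) l} {D : ℕ} {α₀ : Fin d →₀ ℕ}
    {j₀ : Fin d} (hW : DivSeq M W π D α₀ j₀) :
    ∃ (Λ : Type u) (_ : Field Λ) (_ : Algebra L Λ) (_ : Algebra l Λ) (_ : IsScalarTower l L Λ)
      (Ω : IntermediateField l Λ) (Q : MvPolynomial (Fin d) Λ), IsAlgClosed Ω ∧
      (∀ m, Q.coeff m ∈ Ω) ∧ Q.totalDegree ≤ D ∧ Q.coeff α₀ = 1 ∧
      MvPolynomial.eval (fun j => algebraMap L Λ (M.s j)) Q = 0 ∧
      AlgebraicIndependent Ω (fun j : {j // j ≠ j₀} => algebraMap L Λ (M.s j)) ∧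
      ∀ y : L, (∀ᶠ i in cofinite, cl ℓ y ∈ TO ℓ (W i)) →
        ∃ z ∈ adjoin Ω (Set.range (algebraMap L Λ)), z ^ ℓ = algebraMap L Λ y := by
  let 𝒰 := hyperfilter ℕ
  have hU : ∀ {p : ℕ → Prop}, (∀ᶠ i in cofinite, p i) → ∀ᶠ i in (𝒰 : Filter ℕ), p i :=
    fun h => hyperfilter_le_cofinite h
  have hL : ∀ y : L, gconst 𝒰 y ∈ gval 𝒰 W := fun y => by
    by_cases hy : y = 0
    · rw [hy, map_zero]; exact zero_mem _
    · exact gval_mem.2 ((hU (hW.unit y hy)).mono fun i h => mem_of_val_eq_one h)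
  let iL : Algebra L (IsLocalRing.ResidueField (gval 𝒰 W)) :=
    (resHom (gval 𝒰 W) (gconst 𝒰) hL).toAlgebra
  let il : Algebra l (IsLocalRing.ResidueField (gval 𝒰 W)) :=
    ((resHom (gval 𝒰 W) (gconst 𝒰) hL).comp (algebraMap l L)).toAlgebra
  have iT : IsScalarTower l L (IsLocalRing.ResidueField (gval 𝒰 W)) :=
    IsScalarTower.of_algebraMap_eq fun _ => rfl
  let iB : Algebra (gB 𝒰 M j₀) (IsLocalRing.ResidueField (gval 𝒰 W)) :=
    (resHom (gval 𝒰 W) (algebraMap (gB 𝒰 M j₀) _) (gB_mem 𝒰 hW)).toAlgebra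
  let iΩ : Algebra (constGerm l L 𝒰) (IsLocalRing.ResidueField (gval 𝒰 W)) :=
    ((resHom (gval 𝒰 W) (algebraMap (gB 𝒰 M j₀) _) (gB_mem 𝒰 hW)).comp
      (algebraMap (constGerm l L 𝒰) (gB 𝒰 M j₀))).toAlgebra
  have iT' : IsScalarTower (constGerm l L 𝒰) (gB 𝒰 M j₀)
      (IsLocalRing.ResidueField (gval 𝒰 W)) := IsScalarTower.of_algebraMap_eq fun _ => rfl
  have aL : ∀ y : L, algebraMap L (IsLocalRing.ResidueField (gval 𝒰 W)) y
      = res (gval 𝒰 W) (gconst 𝒰 y) := fun y => resHom_apply _ _ hL y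
  have aB : ∀ b : gB 𝒰 M j₀, algebraMap _ (IsLocalRing.ResidueField (gval 𝒰 W)) b
      = res (gval 𝒰 W) b := fun b => resHom_apply _ _ (gB_mem 𝒰 hW) b
  have aΩ : ∀ b : constGerm l L 𝒰, algebraMap _ (IsLocalRing.ResidueField (gval 𝒰 W)) b
      = res (gval 𝒰 W) b := fun b => aB (algebraMap _ _ b)
  have := isAlgClosed_constGerm (l := l) (L := L) 𝒰
  obtain ⟨P, hP1, hP2⟩ := exists_poly_seq (L := L) 𝒰 π D fun i => (hW.deg i).le
  obtain ⟨Ω, Q, h1, h2, h3, h4, h5, h6, h7⟩ :=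
    abstr (Λ := IsLocalRing.ResidueField (gval 𝒰 W)) M j₀ (gt 𝒰 M j₀) hl
      (fun j => (aB _).trans (aL _).symm)
      (fun a => ⟨⟨gconst 𝒰 (algebraMap l L a), (mem_constGerm 𝒰).2 ⟨fun _ => a, rfl⟩⟩,
        (aΩ _).trans (aL _).symm⟩)
      (gt_indep 𝒰 M j₀) (gt_closed 𝒰 M j₀) (fun z => by
        obtain ⟨c, rfl⟩ := gval_repr 𝒰 hW z
        refine sum_mem fun p _ => ?_
        rw [← aB, ← aL, ← aL]
        exact mul_mem (IntermediateField.algebraMap_mem _ _)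
          (mul_mem (pow_mem (subset_adjoin _ _ (by simp)) _)
            (pow_mem (subset_adjoin _ _ (by simp)) _)))
      P hP1 (Subtype.ext ((hP2 α₀).trans (Germ.coe_eq.2 (Eventually.of_forall fun i =>
        (congrArg (algebraMap l L) (hW.coeff i)).trans (map_one _))))) (by
        have e := (res_aeval (algebraMap _ (IsLocalRing.ResidueField (gval 𝒰 W)))
          (fun b => gB_mem 𝒰 hW (algebraMap (constGerm l L 𝒰) _ b)) aΩ
          (fun j => gconst 𝒰 (M.s j)) (fun j => hL _) P).2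
        have e2 : MvPolynomial.aeval (fun j => gconst 𝒰 (M.s j)) P = _ :=
          aeval_germ 𝒰 M.s P π hP2 D fun i => (hW.deg i).le
        rw [MvPolynomial.aeval_def, funext fun j => aL (M.s j), e, e2,
          res_eq_zero_iff (gval_mem.2 (Eventually.of_forall fun i => ((hW.isDiv i).2.2 _).1))]
        exact gval_lt (Eventually.of_forall fun i => ((hW.isDiv i).2.2 _).2.2 dvd_rfl))
  refine ⟨IsLocalRing.ResidueField (gval 𝒰 W), inferInstance, iL, il, iT, Ω, Q, h1, h2, h3, h4,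
    h5, h6, fun y hy => ?_⟩
  by_cases h0 : y = 0
  · exact ⟨0, zero_mem _, by rw [h0, map_zero, zero_pow (Fact.out : ℓ.Prime).ne_zero]⟩
  · obtain ⟨z, hz⟩ := gval_root h0 (hU (hW.unit y h0)) (hU hy)
    exact h7 y z (hz.trans (aL y).symm)

end Vale.Agent.P019
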