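import Vale.Agent.P019.GP
import Vale.Agent.P019.CH
import Vale.Agent.P019.CV
import Vale.Agent.P019.LDJ

/-! P019: correspondences between two curves inside an algebraically closed field. -/

open Filter Polynomial IntermediateField

namespace Vale.Agent.P019.W1

variable {l Ω C₁ C₂ α : Type*} [Field l] [IsAlgClosed l] [Field Ω] [Algebra l Ω] [Field C₁]
  [Algebra l C₁] [Field C₂] [Algebra l C₂]

theorem pow_mem_iff {F : Type*} [Field F] {O : ValuationSubring F} {x : F} {n : ℕ} (hn : n ≠ 0) :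
    x ^ n ∈ O ↔ x ∈ O := by
  rw [← O.valuation_le_one_iff, ← O.valuation_le_one_iff, map_pow, pow_le_one_iff hn]

theorem ev_pow (hC : IsCurve l C₁) (z : Place l C₁) {x : C₁} (hx : x ∈ z.O) (n : ℕ) :
    ev l z.O (x ^ n) = ev l z.O x ^ n := by
  induction n with
  | zero => simpa using z.ev_algebraMap 1
  | succ n ih => rw [pow_succ, z.ev_mul hC (pow_mem hx n) hx, ih, pow_succ]

theorem ev_sub (hC : IsCurve l C₁) (z : Place l C₁) {x y : C₁} (hx : x ∈ z.O) (hy : y ∈ z.O) :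
    ev l z.O (x - y) = ev l z.O x - ev l z.O y := by
  have := z.ev_add hC (z.O.sub_mem hx hy) hy
  rw [sub_add_cancel] at this
  rw [this, add_sub_cancel_right]

theorem rational (htr : Algebra.trdeg l Ω = 1) {𝔓 : ValuationSubring Ω} (ht : Triv l 𝔓)
    (hne : 𝔓 ≠ ⊤) {x : Ω} (hx : x ∈ 𝔓) : ∃ a : l, 𝔓.valuation (x - algebraMap l Ω a) < 1 := by
  by_contra hcon
  have h1 : res 𝔓 x ∉ resConst l 𝔓 := by
    rintro ⟨a, ha, e⟩
    exact hcon ⟨a, (res_eq_iff hx ha).1 e.symm⟩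
  obtain ⟨π, hπ⟩ : ∃ π, π ∉ 𝔓 := by
    by_contra h
    push Not at h
    exact hne (eq_top_iff.2 fun y _ => h y)
  have π0 : π ≠ 0 := by rintro rfl; exact hπ 𝔓.zero_mem
  have hv : 1 < 𝔓.valuation π := by rwa [← 𝔓.valuation_le_one_iff, not_le] at hπ
  have h2 : ValIndep l 𝔓 ![π] := by
    refine ⟨fun i => by fin_cases i; exact π0, fun m c h i => ?_⟩
    have c0 : c ≠ 0 := by rintro rfl; simp at h
    rw [map_mul, ht.val_eq_one c0, one_mul, Fin.prod_univ_one, map_zpow₀] at h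
    fin_cases i
    exact (zpow_eq_one_iff_right₀ zero_le' hv.ne').1 h
  have := (algebraicIndependent_of_valIndep h2 (isGauss_single hx h1)).lift_cardinalMk_le_trdeg
  rw [htr] at this
  simp at this

theorem exists_monic (htr : Algebra.trdeg l Ω = 1) (hC : IsCurve l C₁) (Ψ : C₁ →ₐ[l] Ω) (x : Ω) :
    ∃ p : C₁[X], p.Monic ∧ (p.map Ψ.toRingHom).eval x = 0 := by
  obtain ⟨t, ht⟩ := hC.exists_transcendental
  letI : Algebra C₁ Ω := Ψ.toRingHom.toAlgebra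
  haveI : IsScalarTower l C₁ Ω := IsScalarTower.of_algebraMap_eq fun a => (Ψ.commutes a).symm
  have h1 := lift_trdeg_add_eq l C₁ Ω
  rw [htr, hC.trdeg] at h1
  have h2 : Algebra.trdeg C₁ Ω = 0 := by
    simp only [Cardinal.lift_one] at h1
    have := (Cardinal.add_eq_left_iff.1 h1)
    rcases this with h | h
    · exact absurd (le_trans (le_max_left _ _) h) (by simp)
    · simpa using h
  haveI := trdeg_eq_zero_iff.1 h2
  obtain ⟨p, hp, e⟩ := (Algebra.IsAlgebraic.isAlgebraic (R := C₁) x).isIntegral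
  exact ⟨p, hp, by rw [eval_map]; exact e⟩

omit [IsAlgClosed l] in
theorem ringExpChar_eq : ringExpChar Ω = ringExpChar l := by
  haveI := expChar_of_injective_algebraMap (algebraMap l Ω).injective (ringExpChar l)
  exact ringExpChar.eq Ω _

omit [IsAlgClosed l] in
theorem val_comap (Ψ : C₁ →ₐ[l] Ω) (𝔓 : ValuationSubring Ω) (e : C₁) (a : l) :
    (𝔓.comap Ψ.toRingHom).valuation (e - algebraMap l C₁ a) < 1 ↔
      𝔓.valuation (Ψ e - algebraMap l Ω a) < 1 := by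
  rw [comap_val_lt_one]
  simp

theorem eventually_mem' (hC : IsCurve l C₁) {P : α → Place l C₁} (hP : Tendsto P cofinite cofinite)
    (e : C₁) : ∀ᶠ u in cofinite, e ∈ (P u).O := hP.eventually (eventually_mem hC e)

theorem eventually_coeff (hC : IsCurve l C₁) {P : α → Place l C₁}
    (hP : Tendsto P cofinite cofinite) (p : C₁[X]) :
    ∀ᶠ u in cofinite, ∀ i, p.coeff i ∈ (P u).O := by
  have := (eventually_all_finset p.support).2 fun i _ => eventually_mem' hC hP (p.coeff i)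
  refine this.mono fun u hu i => ?_
  by_cases hi : i ∈ p.support
  · exact hu i hi
  · rw [notMem_support_iff.1 hi]; exact zero_mem _

theorem eventually_root_mem (htr : Algebra.trdeg l Ω = 1) (hC : IsCurve l C₁) (Ψ : C₁ →ₐ[l] Ω)
    {P : α → Place l C₁} (hP : Tendsto P cofinite cofinite) (x : Ω) :
    ∀ᶠ u in cofinite, ∀ 𝔓 : ValuationSubring Ω, 𝔓.comap Ψ.toRingHom = (P u).O → x ∈ 𝔓 := by
  obtain ⟨p, hp, e⟩ := exists_monic htr hC Ψ x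
  refine (eventually_coeff hC hP p).mono fun u hu 𝔓 h => mem_of_root (hp.map _) (fun i => ?_) e
  rw [coeff_map]
  have := hu i
  rw [← h] at this
  exact this

theorem eq_zero_of_ev [Infinite α] (hC : IsCurve l C₁) {P : α → Place l C₁}
    (hP : Tendsto P cofinite cofinite) {e : C₁} (h : ∀ᶠ u in cofinite, ev l (P u).O e = 0) :
    e = 0 := by
  by_contra h0
  have := hP.eventually (finite_ev_eq_zero hC h0).compl_mem_cofinite
  obtain ⟨u, h1, h2⟩ := (this.and h).exists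
  exact h1 h2

variable [IsAlgClosed Ω] {Ψ₁ : C₁ →ₐ[l] Ω} {Ψ₂ : C₂ →ₐ[l] Ω} {P₁ : α → Place l C₁}
  {P₂ : α → Place l C₂}

theorem exists_pow [Infinite α] (htr : Algebra.trdeg l Ω = 1) (h₁ : IsCurve l C₁)
    (h₂ : IsCurve l C₂) (t₁ : Tendsto P₁ cofinite cofinite) (t₂ : Tendsto P₂ cofinite cofinite)
    (K : ∀ᶠ u in cofinite, ∀ 𝔓 : ValuationSubring Ω, 𝔓.comap Ψ₁.toRingHom = (P₁ u).O →
      𝔓.comap Ψ₂.toRingHom = (P₂ u).O) (e₂ : C₂) :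
    ∃ e₁ j, Ψ₁ e₁ = Ψ₂ e₂ ^ ringExpChar l ^ j := by
  by_contra hcon
  push Not at hcon
  obtain ⟨σ, hσ, hy⟩ := exists_hom_ne Ψ₁.toRingHom.fieldRange (y := Ψ₂ e₂) fun n ⟨e, he⟩ =>
    hcon e n (by rw [← ringExpChar_eq (l := l) (Ω := Ω)]; exact he)
  have hσ' : ∀ e, σ (Ψ₁ e) = Ψ₁ e := fun e => hσ _ ⟨e, rfl⟩
  obtain ⟨u, ⟨hu1, hu2⟩, hu3⟩ := ((K.and (eventually_mem' h₂ t₂ e₂)).and
    (eventually_root_mem htr h₁ Ψ₁ t₁ (σ (Ψ₂ e₂) - Ψ₂ e₂)⁻¹)).exists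
  obtain ⟨𝔓, h𝔓⟩ := exists_comap_eq Ψ₁.toRingHom (P₁ u).O
  have a1 := (P₂ u).val_sub_ev h₂ hu2
  have a2 := a1
  rw [← hu1 𝔓 h𝔓, val_comap, hu1 𝔓 h𝔓] at a1
  have h𝔓' : (𝔓.comap σ).comap Ψ₁.toRingHom = (P₁ u).O := by
    rw [← h𝔓]
    ext e
    change σ (Ψ₁ e) ∈ 𝔓 ↔ Ψ₁ e ∈ 𝔓
    rw [hσ']
  rw [← hu1 _ h𝔓', val_comap, hu1 _ h𝔓', comap_val_lt_one, map_sub, ← Ψ₁.commutes, hσ',
    Ψ₁.commutes] at a2
  have a3 := 𝔓.valuation.map_sub_lt a2 a1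
  rw [sub_sub_sub_cancel_right, val_lt_one_iff_inv (sub_ne_zero.2 hy)] at a3
  exact a3 (hu3 𝔓 h𝔓)

omit [IsAlgClosed Ω] in
theorem grel_of_pow (h₂ : IsCurve l C₂) (t₂ : Tendsto P₂ cofinite cofinite)
    (K : ∀ᶠ u in cofinite, ∀ 𝔓 : ValuationSubring Ω, 𝔓.comap Ψ₁.toRingHom = (P₁ u).O →
      𝔓.comap Ψ₂.toRingHom = (P₂ u).O) {e₁ : C₁} {e₂ : C₂} {j : ℕ}
    (h : Ψ₁ e₁ = Ψ₂ e₂ ^ ringExpChar l ^ j) : GRel P₁ P₂ e₁ e₂ j := by
  refine (K.and (eventually_mem' h₂ t₂ e₂)).mono fun u ⟨hu1, hu2⟩ => ?_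
  obtain ⟨𝔓, h𝔓⟩ := exists_comap_eq Ψ₁.toRingHom (P₁ u).O
  have a1 := (P₂ u).val_sub_ev h₂ (pow_mem hu2 (ringExpChar l ^ j))
  rw [ev_pow h₂ _ hu2] at a1
  generalize ev l (P₂ u).O e₂ ^ ringExpChar l ^ j = a at a1
  rw [← hu1 𝔓 h𝔓, val_comap, map_pow, ← h, ← val_comap, h𝔓] at a1
  exact ev_eq (P₁ u).triv a1

theorem mem_iff_of_grel [Infinite α] (htr : Algebra.trdeg l Ω = 1) (h₁ : IsCurve l C₁)
    (h₂ : IsCurve l C₂) (t₁ : Tendsto P₁ cofinite cofinite) (t₂ : Tendsto P₂ cofinite cofinite)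
    (K : ∀ᶠ u in cofinite, ∀ 𝔓 : ValuationSubring Ω, 𝔓.comap Ψ₁.toRingHom = (P₁ u).O →
      𝔓.comap Ψ₂.toRingHom = (P₂ u).O) {u : α}
    (Ku : ∀ 𝔓 : ValuationSubring Ω, 𝔓.comap Ψ₁.toRingHom = (P₁ u).O →
      𝔓.comap Ψ₂.toRingHom = (P₂ u).O) {e₁ : C₁} {e₂ : C₂} {j : ℕ} (h : GRel P₁ P₂ e₁ e₂ j) :
    e₂ ∈ (P₂ u).O ↔ e₁ ∈ (P₁ u).O := by
  obtain ⟨e, j', he⟩ := exists_pow htr h₁ h₂ t₁ t₂ K e₂
  have h' := grel_of_pow h₂ t₂ K he
  have p0 : ∀ n, ringExpChar l ^ n ≠ 0 := fun n => pow_ne_zero _ (expChar_ne_zero l _)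
  have e1 : e₁ ^ ringExpChar l ^ j' - e ^ ringExpChar l ^ j = 0 := by
    refine eq_zero_of_ev h₁ t₁ ?_
    filter_upwards [h, h', eventually_mem' h₁ t₁ e₁, eventually_mem' h₁ t₁ e] with v a b c d
    rw [ev_sub h₁ _ (pow_mem c _) (pow_mem d _), ev_pow h₁ _ c, ev_pow h₁ _ d, a, b, ← pow_mul,
      ← pow_mul, mul_comm, sub_self]
  obtain ⟨𝔓, h𝔓⟩ := exists_comap_eq Ψ₁.toRingHom (P₁ u).O
  rw [← pow_mem_iff (x := e₁) (p0 j'), sub_eq_zero.1 e1, pow_mem_iff (p0 j), ← Ku 𝔓 h𝔓, ← h𝔓]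
  change Ψ₂ e₂ ∈ 𝔓 ↔ Ψ₁ e ∈ 𝔓
  rw [he, pow_mem_iff (p0 j')]

end Vale.Agent.P019.W1
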