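import Vale.Agent.P019.WEB1

/-! P019: specialization of one factor of a product of curves. -/

open Filter Polynomial IntermediateField
open scoped TensorProduct

namespace Vale.Agent.P019.W1

variable {l L : Type*} [Field l] [IsAlgClosed l] [Field L] [Algebra l L]

omit [IsAlgClosed l] in
theorem exists_sum (E₁ E₃ : IntermediateField l L) {δ : L}
    (h : δ ∈ Algebra.adjoin l ((E₁ : Set L) ∪ E₃)) :
    ∃ T : Finset (E₁ × E₃), δ = ∑ p ∈ T, (p.1 : L) * (p.2 : L) := by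
  let m : E₁ ⊗[l] E₃ →ₐ[l] L := Algebra.TensorProduct.lift E₁.val E₃.val fun _ _ => Commute.all _ _
  have : Algebra.adjoin l ((E₁ : Set L) ∪ E₃) ≤ m.range := by
    refine Algebra.adjoin_le ?_
    rintro x (hx | hx)
    · exact ⟨⟨x, hx⟩ ⊗ₜ 1, by simp [m]⟩
    · exact ⟨1 ⊗ₜ ⟨x, hx⟩, by simp [m]⟩
  obtain ⟨t, rfl⟩ := this h
  obtain ⟨T, rfl⟩ := TensorProduct.exists_finset t
  exact ⟨T, by simp [m]⟩

section bil

variable {C₁ C₃ α ι : Type*} [Field C₁] [Algebra l C₁] [Field C₃] [Algebra l C₃]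

theorem ev_sum_smul (hC : IsCurve l C₁) (z : Place l C₁) (T : Finset ι) (c : ι → l) (a : ι → C₁)
    (ha : ∀ i ∈ T, a i ∈ z.O) :
    ∑ i ∈ T, c i • a i ∈ z.O ∧ ev l z.O (∑ i ∈ T, c i • a i) = ∑ i ∈ T, c i * ev l z.O (a i) := by
  classical
  induction T using Finset.induction_on with
  | empty => simpa using z.ev_algebraMap 0
  | insert i T hi ih =>
    obtain ⟨h1, h2⟩ := ih fun j hj => ha j (Finset.mem_insert_of_mem hj)
    have h3 := ha i (Finset.mem_insert_self _ _)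
    have h4 : c i • a i ∈ z.O := by rw [Algebra.smul_def]; exact mul_mem (z.triv _) h3
    rw [Finset.sum_insert hi, Finset.sum_insert hi, z.ev_add hC h4 h1, h2, Algebra.smul_def,
      z.ev_mul hC (z.triv _) h3, z.ev_algebraMap]
    exact ⟨add_mem (Algebra.smul_def (c i) (a i) ▸ h4) h1, rfl⟩

theorem eventually_ne_zero (hC : IsCurve l C₁) {P : α → Place l C₁}
    (hP : Tendsto P cofinite cofinite) (φ₁ : C₁ →ₐ[l] L) (φ₃ : C₃ →ₐ[l] L) (T : Finset ι)
    (a : ι → C₁) (b : ι → C₃) (h : ∑ i ∈ T, φ₁ (a i) * φ₃ (b i) ≠ 0) :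
    ∀ᶠ u in cofinite, (∀ i ∈ T, a i ∈ (P u).O) ∧ ∑ i ∈ T, ev l (P u).O (a i) • b i ≠ 0 := by
  classical
  let m : C₁ ⊗[l] C₃ →ₐ[l] L := Algebra.TensorProduct.lift φ₁ φ₃ fun _ _ => Commute.all _ _
  have h1 : ∑ i ∈ T, a i ⊗ₜ[l] b i ≠ 0 := fun e => h (by simpa [m] using congrArg m e)
  let B := Module.Basis.ofVectorSpace l C₃
  have h2 : TensorProduct.equivFinsuppOfBasisRight B (∑ i ∈ T, a i ⊗ₜ[l] b i) ≠ 0 :=
    (map_ne_zero_iff _ (LinearEquiv.injective _)).2 h1
  obtain ⟨j, hj⟩ := Finsupp.ne_iff.1 h2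
  simp only [map_sum, Finsupp.finset_sum_apply,
    TensorProduct.equivFinsuppOfBasisRight_apply_tmul_apply, Finsupp.zero_apply] at hj
  filter_upwards [hP.eventually (finite_ev_eq_zero hC hj).compl_mem_cofinite,
    (eventually_all_finset T).2 fun i _ => eventually_mem' hC hP (a i)] with u h3 h4
  refine ⟨h4, fun e => h3 ?_⟩
  have := congrArg (fun x => B.repr x j) e
  simp only [map_sum, map_smul, Finsupp.finset_sum_apply, Finsupp.smul_apply, smul_eq_mul,
    map_zero, Finsupp.zero_apply] at this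
  change ev l (P u).O _ = 0
  rw [(ev_sum_smul hC (P u) T _ a h4).2, ← this]
  exact Finset.sum_congr rfl fun i _ => mul_comm _ _

end bil

/-- a valuation ring trivial on `Ecl l x₁` over a given place of `E₃` -/
theorem exists_over {x₁ : L} {E₃ : IntermediateField l L} (h : Transcendental E₃ x₁)
    (z : Place l E₃) : ∃ O : ValuationSubring L, O.comap E₃.val.toRingHom = z.O ∧
      ∀ e ∈ Ecl l x₁, e ∈ O := by
  have hi : AlgebraicIndependent E₃ ![x₁] := algebraicIndependent_unique_type_iff.2 h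
  obtain ⟨O, h1, h2⟩ := exists_isGauss z.O hi
  have ht : Triv l O := fun a => by
    have := z.triv a
    rw [← h1] at this
    exact this
  refine ⟨O, h1, fun e he => mem_of_isAlgebraic (E := l⟮x₁⟯) (fun y => ?_) ((mem_Ecl l).1 he)⟩
  refine LDJAux.adjoin_le h2 ht ?_
  have : Set.range ![x₁] = {x₁} := by simp
  rw [this]
  exact y.2

omit [IsAlgClosed l] in
theorem exists_psi {E₁ : IntermediateField l L} {O : ValuationSubring L} (hO : ∀ e ∈ E₁, e ∈ O)
    (S₁ : Set E₁) (S : Set L)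
    (hS : ∀ s ∈ S, ∃ e ∈ Algebra.adjoin l S₁, O.valuation (s - (e : L)) < 1) :
    ∃ ψ : Algebra.adjoin l S →ₐ[l] E₁, (∀ a, ψ a ∈ Algebra.adjoin l S₁) ∧
      ∀ (a : Algebra.adjoin l S) (e : E₁), O.valuation ((a : L) - e) < 1 → ψ a = e := by
  have uniq : ∀ (x : L) (e e' : E₁), O.valuation (x - e) < 1 → O.valuation (x - e') < 1 →
      e = e' := by
    intro x e e' h h'
    have := O.valuation.map_sub_lt h' h
    rw [sub_sub_sub_cancel_left] at this
    by_contra hne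
    have h0 : (e : L) - e' ≠ 0 := sub_ne_zero.2 fun e => hne (Subtype.ext e)
    exact (val_lt_one_iff_inv h0).1 this (hO _ (inv_mem (sub_mem e.2 e'.2)))
  have mem : ∀ (x : L) (e : E₁), O.valuation (x - e) < 1 → x ∈ O := fun x e h => by
    have := O.add_mem _ _ ((O.valuation_le_one_iff _).1 h.le) (hO _ e.2)
    rwa [sub_add_cancel] at this
  have hmul : ∀ (x y : L) (e e' : E₁), O.valuation (x - e) < 1 → O.valuation (y - e') < 1 →
      O.valuation (x * y - (e * e' : E₁)) < 1 := fun x y e e' h h' => by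
    have hx := mem _ _ h
    have hy := mem _ _ h'
    rw [← res_eq_iff hx (hO _ e.2)] at h
    rw [← res_eq_iff hy (hO _ e'.2)] at h'
    rw [← res_eq_iff (mul_mem hx hy) (hO _ (e * e').2), MulMemClass.coe_mul, res_mul hx hy,
      res_mul (hO _ e.2) (hO _ e'.2), h, h']
  have hadd : ∀ (x y : L) (e e' : E₁), O.valuation (x - e) < 1 → O.valuation (y - e') < 1 →
      O.valuation (x + y - (e + e' : E₁)) < 1 := fun x y e e' h h' => by
    have := O.valuation.map_add_lt h h'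
    rwa [show x - e + (y - e') = x + y - (e + e' : E₁) by push_cast; ring] at this
  have ex : ∀ a : Algebra.adjoin l S, ∃ e ∈ Algebra.adjoin l S₁,
      O.valuation ((a : L) - (e : L)) < 1 := by
    rintro ⟨a, ha⟩
    induction ha using Algebra.adjoin_induction with
    | mem x hx => exact hS x hx
    | algebraMap r => exact ⟨algebraMap l E₁ r, Subalgebra.algebraMap_mem _ r, by simp⟩
    | add x y _ _ h h' =>
      obtain ⟨e, he, h⟩ := h
      obtain ⟨e', he', h'⟩ := h'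
      exact ⟨e + e', add_mem he he', hadd _ _ _ _ h h'⟩
    | mul x y _ _ h h' =>
      obtain ⟨e, he, h⟩ := h
      obtain ⟨e', he', h'⟩ := h'
      exact ⟨e * e', mul_mem he he', hmul _ _ _ _ h h'⟩
  choose f hf1 hf2 using ex
  refine ⟨⟨⟨⟨⟨f, uniq _ _ _ (hf2 1) (by simp)⟩, fun a b => uniq _ _ _ (hf2 _)
    (hmul _ _ _ _ (hf2 a) (hf2 b))⟩, uniq _ _ _ (hf2 0) (by simp), fun a b => uniq _ _ _ (hf2 _)
    (hadd _ _ _ _ (hf2 a) (hf2 b))⟩, fun r => uniq _ _ _ (hf2 _) (by simp)⟩, hf1,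
    fun a e h => uniq _ _ _ (hf2 a) h⟩

/-- values of a homomorphism at a rational valuation ring -/
theorem exists_chi {Ω R : Type*} [Field Ω] [Algebra l Ω] [CommRing R] [Algebra l R]
    (Ψ : R →ₐ[l] Ω) {𝔓 : ValuationSubring Ω} (ht : Triv l 𝔓)
    (h : ∀ b, ∃ a : l, 𝔓.valuation (Ψ b - algebraMap l Ω a) < 1) :
    ∃ χ : R →ₐ[l] l, ∀ b, 𝔓.valuation (Ψ b - algebraMap l Ω (χ b)) < 1 := by
  choose f hf using h
  refine ⟨⟨⟨⟨⟨f, val_unique ht (hf 1) (by simp)⟩, fun a b => val_unique ht (hf _) ?_⟩,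
    val_unique ht (hf 0) (by simp), fun a b => val_unique ht (hf _) ?_⟩,
    fun r => val_unique ht (hf _) (by simp)⟩, hf⟩
  · rw [map_mul Ψ]
    exact CVAux.val_mul ht (hf a) (hf b)
  · rw [map_add Ψ]
    exact CVAux.val_add (hf a) (hf b)

end Vale.Agent.P019.W1
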