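import Vale.Agent.P019.WEB2

/-! P019: one member of a web gives a correspondence. -/

open Filter Polynomial IntermediateField

namespace Vale.Agent.P019.W1

variable {l Ω C₁ C₂ α R : Type*} [Field l] [IsAlgClosed l] [Field Ω] [Algebra l Ω] [Field C₁]
  [Algebra l C₁] [Field C₂] [Algebra l C₂] [CommRing R] [Algebra l R]

theorem tendsto_of_injOn {α β : Type*} {P : α → β} {S : Set α} (hS : S.Finite)
    (hi : Set.InjOn P Sᶜ) : Tendsto P cofinite cofinite := by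
  refine Tendsto.cofinite_of_finite_preimage_singleton fun z => ?_
  refine (hS.union (Set.Subsingleton.finite (s := Sᶜ ∩ P ⁻¹' {z}) ?_)).subset ?_
  · exact fun a ha b hb => hi ha.1 hb.1 (ha.2.trans hb.2.symm)
  · intro u hu
    by_cases h : u ∈ S
    · exact Or.inl h
    · exact Or.inr ⟨h, hu⟩

omit [IsAlgClosed l] in
theorem triv_of_comap {Ψ : C₁ →ₐ[l] Ω} {𝔓 : ValuationSubring Ω} {z : Place l C₁}
    (h : 𝔓.comap Ψ.toRingHom = z.O) : Triv l 𝔓 ∧ 𝔓 ≠ ⊤ := by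
  refine ⟨fun a => ?_, ?_⟩
  · have := z.triv a
    rw [← h] at this
    rw [← Ψ.commutes]
    exact this
  · rintro rfl
    exact z.ne_top (h ▸ eq_top_iff.2 fun _ _ => trivial)

omit [IsAlgClosed l] in
theorem triv_comap (Ψ : C₁ →ₐ[l] Ω) {𝔓 : ValuationSubring Ω} (h : Triv l 𝔓) :
    Triv l (𝔓.comap Ψ.toRingHom) := fun a => by
  have := h a
  rw [← Ψ.commutes] at this
  exact this

theorem eventually_range_mem [Algebra.FiniteType l R] (htr : Algebra.trdeg l Ω = 1)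
    (hC : IsCurve l C₁) (φ : C₁ →ₐ[l] Ω) {P : α → Place l C₁} (hP : Tendsto P cofinite cofinite)
    (Ψ : R →ₐ[l] Ω) : ∀ᶠ u in cofinite, ∀ 𝔓 : ValuationSubring Ω,
      𝔓.comap φ.toRingHom = (P u).O → ∀ b, Ψ b ∈ 𝔓 := by
  obtain ⟨T, hT⟩ := Algebra.FiniteType.out (R := l) (A := R)
  refine ((eventually_all_finset T).2 fun s _ => eventually_root_mem htr hC φ hP (Ψ s)).mono
    fun u hu 𝔓 h b => ?_
  have hb : b ∈ Algebra.adjoin l (T : Set R) := hT ▸ Algebra.mem_top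
  induction hb using Algebra.adjoin_induction with
  | mem x hx => exact hu x hx 𝔓 h
  | algebraMap r => rw [Ψ.commutes]; exact (triv_of_comap h).1 r
  | add x y _ _ h h' => rw [map_add]; exact add_mem h h'
  | mul x y _ _ h h' => rw [map_mul]; exact mul_mem h h'

/-- `S` separates places -/
def Sep (l : Type*) {C : Type*} [Field l] [Field C] [Algebra l C] (S : Finset C) : Prop :=
  ∀ O O' : ValuationSubring C, Triv l O → Triv l O' →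
    (∀ s ∈ S, ∃ a : l, O.valuation (s - algebraMap l C a) < 1 ∧
      O'.valuation (s - algebraMap l C a) < 1) → O = O'

theorem exists_sep (hC : IsCurve l C₁) :
    ∃ S : Finset C₁, Sep l S ∧ IntermediateField.adjoin l (S : Set C₁) = ⊤ := by
  classical
  obtain ⟨S, -, hS⟩ := exists_separating hC
  obtain ⟨T, hT⟩ := IntermediateField.fg_top_iff.2 hC.fg
  refine ⟨S ∪ T, fun O O' h h' H => hS O O' h h' fun s hs => H s (Finset.mem_union_left _ hs),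
    eq_top_iff.2 (hT ▸ adjoin.mono _ _ _ (by simp))⟩

theorem fiber [IsAlgClosed Ω] [Infinite α] [Algebra.FiniteType l R] (htr : Algebra.trdeg l Ω = 1)
    (h₁ : IsCurve l C₁) (h₂ : IsCurve l C₂) {P₁ : α → Place l C₁} {P₂ : α → Place l C₂}
    {B₁ B₂ : Set α} (b₁ : B₁.Finite) (b₂ : B₂.Finite) (i₁ : Set.InjOn P₁ B₁ᶜ)
    (i₂ : Set.InjOn P₂ B₂ᶜ) (φ : C₁ →ₐ[l] Ω) (Ψ : R →ₐ[l] Ω) {S : Finset C₂} (hS : Sep l S)
    (hS' : IntermediateField.adjoin l (S : Set C₂) = ⊤)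
    (ι : Algebra.adjoin l (S : Set C₂) →ₐ[l] R)
    (key : ∀ 𝔓 : ValuationSubring Ω, Triv l 𝔓 → 𝔓 ≠ ⊤ → (∀ b, Ψ b ∈ 𝔓) →
      ∃ u ∉ B₁, u ∉ B₂ ∧ 𝔓.comap φ.toRingHom = (P₁ u).O ∧ ∀ e : Algebra.adjoin l (S : Set C₂),
        ∃ a, (P₂ u).O.valuation (e - algebraMap l C₂ a) < 1 ∧
          𝔓.valuation (Ψ (ι e) - algebraMap l Ω a) < 1) :
    (∀ e₂, ∃ e₁ j, GRel P₁ P₂ e₁ e₂ j) ∧ (∀ e₁, ∃ e₂ j, GRel P₂ P₁ e₂ e₁ j) ∧
      ∀ u ∉ B₁, (∀ 𝔓 : ValuationSubring Ω, 𝔓.comap φ.toRingHom = (P₁ u).O → ∀ b, Ψ b ∈ 𝔓) →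
        ∀ e₁ e₂ j, GRel P₁ P₂ e₁ e₂ j → (e₂ ∈ (P₂ u).O ↔ e₁ ∈ (P₁ u).O) := by
  have t₁ := tendsto_of_injOn b₁ i₁
  have t₂ := tendsto_of_injOn b₂ i₂
  have G := (eventually_range_mem htr h₁ φ t₁ Ψ).and b₁.compl_mem_cofinite
  have inj : Function.Injective (Ψ.comp ι) := by
    refine (injective_iff_map_eq_zero _).2 fun e he => Subtype.ext (eq_zero_of_ev h₂ t₂ ?_)
    refine G.mono fun u ⟨hu, hu'⟩ => ?_
    obtain ⟨𝔓, h𝔓⟩ := exists_comap_eq φ.toRingHom (P₁ u).O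
    obtain ⟨ht, hne⟩ := triv_of_comap h𝔓
    obtain ⟨u', c1, -, c2, c3⟩ := key 𝔓 ht hne (hu 𝔓 h𝔓)
    obtain rfl : u' = u := i₁ c1 hu' (Place.ext (c2.symm.trans h𝔓))
    obtain ⟨a, d1, d2⟩ := c3 e
    rw [ev_eq (P₂ u').triv d1]
    refine val_unique ht d2 ?_
    rw [AlgHom.comp_apply] at he
    simp [he]
  haveI : IsFractionRing (Algebra.adjoin l (S : Set C₂)) C₂ := IsFractionRing.of_field _ _ fun z => by
    obtain ⟨r, hr, s, hs, e⟩ := mem_adjoin_iff_div.1 (hS' ▸ mem_top : z ∈ adjoin l (S : Set C₂))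
    exact ⟨⟨r, hr⟩, ⟨s, hs⟩, e⟩
  obtain ⟨Ψ₂, hΨ₂⟩ : ∃ Ψ₂ : C₂ →ₐ[l] Ω, ∀ e : Algebra.adjoin l (S : Set C₂), Ψ₂ e = Ψ (ι e) :=
    ⟨IsFractionRing.liftAlgHom inj, fun e => IsFractionRing.lift_algebraMap inj e⟩
  have key2 : ∀ 𝔓 : ValuationSubring Ω, Triv l 𝔓 → 𝔓 ≠ ⊤ → (∀ b, Ψ b ∈ 𝔓) →
      ∃ u ∉ B₁, u ∉ B₂ ∧ 𝔓.comap φ.toRingHom = (P₁ u).O ∧ 𝔓.comap Ψ₂.toRingHom = (P₂ u).O := by
    intro 𝔓 ht hne h
    obtain ⟨u, c1, c2, c3, c4⟩ := key 𝔓 ht hne h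
    refine ⟨u, c1, c2, c3, hS _ _ (triv_comap _ ht) (P₂ u).triv fun s hs => ?_⟩
    obtain ⟨a, d1, d2⟩ := c4 ⟨s, Algebra.subset_adjoin hs⟩
    rw [← hΨ₂] at d2
    exact ⟨a, (val_comap _ _ _ _).2 d2, d1⟩
  have K1 : ∀ u ∉ B₁, (∀ 𝔓 : ValuationSubring Ω, 𝔓.comap φ.toRingHom = (P₁ u).O →
      ∀ b, Ψ b ∈ 𝔓) → ∀ 𝔓 : ValuationSubring Ω, 𝔓.comap φ.toRingHom = (P₁ u).O →
      𝔓.comap Ψ₂.toRingHom = (P₂ u).O := by
    intro u hu' hu 𝔓 h𝔓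
    obtain ⟨ht, hne⟩ := triv_of_comap h𝔓
    obtain ⟨u', c1, -, c2, c3⟩ := key2 𝔓 ht hne (hu 𝔓 h𝔓)
    obtain rfl : u' = u := i₁ c1 hu' (Place.ext (c2.symm.trans h𝔓))
    exact c3
  have K := G.mono fun u hu => K1 u hu.2 hu.1
  have K2 : ∀ᶠ u in cofinite, ∀ 𝔓 : ValuationSubring Ω, 𝔓.comap Ψ₂.toRingHom = (P₂ u).O →
      𝔓.comap φ.toRingHom = (P₁ u).O := by
    filter_upwards [eventually_range_mem htr h₂ Ψ₂ t₂ Ψ, b₂.compl_mem_cofinite] with u hu hu' 𝔓 h𝔓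
    obtain ⟨ht, hne⟩ := triv_of_comap h𝔓
    obtain ⟨u', -, c1, c2, c3⟩ := key2 𝔓 ht hne (hu 𝔓 h𝔓)
    obtain rfl : u' = u := i₂ c1 hu' (Place.ext (c3.symm.trans h𝔓))
    exact c2
  refine ⟨fun e₂ => ?_, fun e₁ => ?_, fun u hu hu' e₁ e₂ j h =>
    mem_iff_of_grel htr h₁ h₂ t₁ t₂ K (K1 u hu hu') h⟩
  · obtain ⟨e₁, j, h⟩ := exists_pow htr h₁ h₂ t₁ t₂ K e₂
    exact ⟨e₁, j, grel_of_pow h₂ t₂ K h⟩
  · obtain ⟨e₂, j, h⟩ := exists_pow htr h₂ h₁ t₂ t₁ K2 e₁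
    exact ⟨e₂, j, grel_of_pow h₁ t₁ K2 h⟩

end Vale.Agent.P019.W1
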