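import Vale.Agent.P019.WEB3

/-! P019: specialization at a point of the third curve. -/

open Filter Polynomial IntermediateField

namespace Vale.Agent.P019.W1

variable {k l L Ω : Type*} [Field l] [IsAlgClosed l] [Field L] [Algebra l L] [Field Ω]
  [Algebra l Ω] {E₁ E₂ E₃ : IntermediateField l L}

omit [IsAlgClosed l] in
theorem val_comap' (E : IntermediateField l L) (O : ValuationSubring L) (e : E) (a : l) :
    (O.comap E.val.toRingHom).valuation (e - algebraMap l E a) < 1 ↔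
      O.valuation ((e : L) - algebraMap l L a) < 1 := val_comap E.val O e a

theorem key_of (htr : Algebra.trdeg l Ω = 1) (h₃ : IsCurve l E₃) {P₁ : k → Place l E₁}
    {P₂ : k → Place l E₂} {P₃ : k → Place l E₃} {g : k → k ≃ k} {Bad : Set k}
    (i₃ : Set.InjOn P₃ Badᶜ) {S₁ : Finset E₁} {S₃ : Finset E₃} (s₁ : Sep l S₁) (s₃ : Sep l S₃)
    {B : Subalgebra l L} (m₁ : ∀ s ∈ S₁, (s : L) ∈ B) (m₃ : ∀ s ∈ S₃, (s : L) ∈ B)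
    (H : ∀ χ : B →ₐ[l] l, ∃ O : ValuationSubring L,
      (∀ b : B, O.valuation (b - algebraMap l L (χ b)) < 1) ∧
      ∃ u ∉ Bad, ∃ r ∉ Bad, g r u ∉ Bad ∧ O.comap E₁.val.toRingHom = (P₁ u).O ∧
        O.comap E₃.val.toRingHom = (P₃ r).O ∧ O.comap E₂.val.toRingHom = (P₂ (g r u)).O)
    {r : k} (hr : r ∉ Bad) (hr' : ∀ s ∈ S₃, s ∈ (P₃ r).O) (φ : E₁ →ₐ[l] Ω) (Ψ : B →ₐ[l] Ω)
    (p₁ : ∀ s (hs : s ∈ S₁), Ψ ⟨s, m₁ s hs⟩ = φ s)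
    (p₃ : ∀ s (hs : s ∈ S₃), Ψ ⟨s, m₃ s hs⟩ = algebraMap l Ω (ev l (P₃ r).O s))
    (𝔓 : ValuationSubring Ω) (ht : Triv l 𝔓) (hne : 𝔓 ≠ ⊤) (h : ∀ b, Ψ b ∈ 𝔓) :
    ∃ u ∉ Bad, g r u ∉ Bad ∧ 𝔓.comap φ.toRingHom = (P₁ u).O ∧ ∀ (e : E₂) (he : (e : L) ∈ B),
      ∃ a, (P₂ (g r u)).O.valuation (e - algebraMap l E₂ a) < 1 ∧
        𝔓.valuation (Ψ ⟨e, he⟩ - algebraMap l Ω a) < 1 := by
  obtain ⟨χ, hχ⟩ := exists_chi Ψ ht fun b => rational htr ht hne (h b)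
  obtain ⟨O, hO, u, hu, r', hr2, c0, c1, c3, c2⟩ := H χ
  obtain rfl : r' = r := by
    refine i₃ hr2 hr (Place.ext (s₃ _ _ (P₃ r').triv (P₃ r).triv fun s hs =>
      ⟨_, ?_, (P₃ r).val_sub_ev h₃ (hr' s hs)⟩))
    have e : χ ⟨s, m₃ s hs⟩ = ev l (P₃ r).O s := val_unique ht (hχ _) (by simp [p₃ s hs])
    rw [← c3, val_comap', ← e]
    exact hO ⟨s, m₃ s hs⟩
  refine ⟨u, hu, c0, s₁ _ _ (triv_comap _ ht) (P₁ u).triv fun s hs => ⟨χ ⟨s, m₁ s hs⟩, ?_, ?_⟩,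
    fun e he => ⟨χ ⟨e, he⟩, ?_, hχ _⟩⟩
  · rw [val_comap, ← p₁ s hs]
    exact hχ _
  · rw [← c1, val_comap']
    exact hO ⟨s, m₁ s hs⟩
  · rw [← c2, val_comap']
    exact hO ⟨e, he⟩

/-- the specialization `id ⊗ ev z` -/
theorem exists_spec (h₃ : IsCurve l E₃) {z : Place l E₃} {O : ValuationSubring L}
    (hO : O.comap E₃.val.toRingHom = z.O) (hO' : ∀ e ∈ E₁, e ∈ O) (S₁ : Finset E₁)
    (S₃ : Finset E₃) (hz : ∀ s ∈ S₃, s ∈ z.O) :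
    ∃ ψ : Algebra.adjoin l (((↑) : E₁ → L) '' S₁ ∪ ((↑) : E₃ → L) '' S₃) →ₐ[l] E₁,
      (∀ a, ψ a ∈ Algebra.adjoin l (S₁ : Set E₁)) ∧ (∀ (s : E₁) h, ψ ⟨s, h⟩ = s) ∧
      (∀ s ∈ S₃, ∀ h, ψ ⟨s, h⟩ = algebraMap l E₁ (ev l z.O s)) ∧
      ∀ (T : Finset (E₁ × E₃)) h, (∀ p ∈ T, p.2 ∈ z.O) →
        ψ ⟨∑ p ∈ T, (p.1 : L) * (p.2 : L), h⟩ = ∑ p ∈ T, ev l z.O p.2 • p.1 := by
  have hv : ∀ s ∈ z.O, O.valuation ((s : L) - algebraMap l L (ev l z.O s)) < 1 := fun s hs => by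
    have := z.val_sub_ev h₃ hs
    generalize ev l z.O s = a at this
    rwa [← hO, val_comap'] at this
  obtain ⟨ψ, a1, a2⟩ := exists_psi hO' (S₁ : Set E₁)
    (((↑) : E₁ → L) '' S₁ ∪ ((↑) : E₃ → L) '' S₃) (by
      rintro _ (⟨s, hs, rfl⟩ | ⟨s, hs, rfl⟩)
      · exact ⟨s, Algebra.subset_adjoin hs, by simp⟩
      · exact ⟨_, Subalgebra.algebraMap_mem _ (ev l z.O s), hv s (hz s hs)⟩)
  refine ⟨ψ, a1, fun s h => a2 _ _ (by simp), fun s hs h => a2 _ _ (hv s (hz s hs)),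
    fun T h hT => a2 _ _ ?_⟩
  push_cast
  rw [← Finset.sum_sub_distrib]
  refine O.valuation.map_sum_lt one_ne_zero fun p hp => ?_
  rw [Algebra.smul_def, mul_comm (p.1 : L), ← sub_mul]
  exact CVAux.val_mul_lt (hv _ (hT p hp)) (hO' _ p.1.2)

theorem inv_mem_of_ev {C : Type*} [Field C] [Algebra l C] (hC : IsCurve l C) (z : Place l C)
    {x : C} (hx : x ∈ z.O) (h : ev l z.O x ≠ 0) : x⁻¹ ∈ z.O :=
  CVAux.mem_of_sub z.triv (CVAux.val_inv z.triv (z.val_sub_ev hC hx) h)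

theorem trdeg_closure {C : Type*} [Field C] [Algebra l C] (hC : IsCurve l C) :
    Algebra.trdeg l (AlgebraicClosure C) = 1 := by
  have h := trdeg_add_eq l C (A := AlgebraicClosure C)
  rw [hC.trdeg, trdeg_eq_zero, add_zero] at h
  exact h.symm

end Vale.Agent.P019.W1
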